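import Vale.Agent.P347.Spec

open MeasureTheory ProbabilityTheory Finset
open scoped RealInnerProductSpace ENNReal

namespace Vale.Agent.P347

noncomputable section

namespace ASm

variable {d : ℕ}

/-- symmetric operator -/
def Sy (B : E d →L[ℝ] E d) : Prop := ∀ u v, ⟪B u, v⟫ = ⟪u, B v⟫

theorem ex_sqrt (S : E d →L[ℝ] E d) (hs : Sy S) (hp : ∀ u, 0 ≤ ⟪u, S u⟫) :
    ∃ B : E d →L[ℝ] E d, Sy B ∧ ∀ u v, ⟪B u, B v⟫ = ⟪u, S v⟫ := by
  have hT : (S : E d →ₗ[ℝ] E d).IsSymmetric := fun u v => hs u v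
  set b := hT.eigenvectorBasis rfl with hb
  set l := hT.eigenvalues rfl with hl
  have hbl : ∀ i, S (b i) = l i • b i := fun i => hT.apply_eigenvectorBasis rfl i
  have hl0 : ∀ i, 0 ≤ l i := by
    intro i
    have := hp (b i)
    rw [hbl, real_inner_smul_right, real_inner_self_eq_norm_sq, b.orthonormal.1 i] at this
    simpa using this
  let B : E d →L[ℝ] E d := ∑ i, √(l i) • (innerSL ℝ (b i)).smulRight (b i)
  have hB : ∀ u, B u = ∑ i, (√(l i) * ⟪b i, u⟫) • b i := by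
    intro u
    simp [B, smul_smul]
  have hBi : ∀ u i, ⟪b i, B u⟫ = √(l i) * ⟪b i, u⟫ := by
    intro u i
    rw [hB]
    exact b.orthonormal.inner_right_fintype _ i
  refine ⟨B, fun u v => ?_, fun u v => ?_⟩
  · rw [← b.sum_inner_mul_inner (B u) v, ← b.sum_inner_mul_inner u (B v)]
    refine sum_congr rfl fun i _ => ?_
    rw [real_inner_comm, hBi, hBi, real_inner_comm (b i) u]; ring
  · rw [← b.sum_inner_mul_inner (B u) (B v), ← b.sum_inner_mul_inner u (S v)]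
    refine sum_congr rfl fun i _ => ?_
    rw [real_inner_comm, hBi, hBi, ← hs (b i) v, hbl, real_inner_smul_left, real_inner_comm (b i) u]
    have := Real.mul_self_sqrt (hl0 i)
    linear_combination (⟪b i, u⟫ * ⟪b i, v⟫) * this

/-- image of the standard Gaussian -/
def gB (B : E d →L[ℝ] E d) : Measure (E d) := (gs d).map B

instance (B : E d →L[ℝ] E d) : IsProbabilityMeasure (gB B) :=
  Measure.isProbabilityMeasure_map B.continuous.measurable.aemeasurable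

theorem cf_gB (B : E d →L[ℝ] E d) (hB : Sy B) (u : E d) :
    charFun (gB B) u = Complex.exp (-‖B u‖ ^ 2 / 2) := by
  rw [← charFun_stdGaussian, charFun_apply, charFun_apply, gB,
    integral_map B.continuous.measurable.aemeasurable (by fun_prop)]
  simp only [hB _ u]

theorem cf_lin (α : Measure (E d)) [IsProbabilityMeasure α] (B : E d →L[ℝ] E d) (hB : Sy B) (u : E d) :
    charFun ((α.prod (gs d)).map fun p => p.1 + B p.2) u = charFun α u * Complex.exp (-‖B u‖ ^ 2 / 2) := by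
  have h1 : (α.prod (gs d)).map (fun p => p.1 + B p.2) = (α.prod (gB B)).map fun p => p.1 + p.2 := by
    have : α.prod (gB B) = (α.prod (gs d)).map (Prod.map id B) := by
      rw [gB, ← Measure.map_prod_map _ _ measurable_id B.continuous.measurable, Measure.map_id]
    rw [this, Measure.map_map (by fun_prop) (by fun_prop)]
    rfl
  rw [h1, charFun_map_add_prod_eq_mul, Pi.mul_apply, cf_gB B hB]

theorem sy_id (t : ℝ) : Sy (t • ContinuousLinearMap.id ℝ (E d)) := by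
  intro u v
  simp [real_inner_smul_left, real_inner_smul_right]

theorem cf_sm (α : Measure (E d)) [IsProbabilityMeasure α] (t : ℝ) (u : E d) :
    charFun (sm α t) u = charFun α u * Complex.exp (-((t ^ 2 * ‖u‖ ^ 2 : ℝ) : ℂ) / 2) := by
  have := cf_lin α (t • ContinuousLinearMap.id ℝ (E d)) (sy_id t) u
  simp only [smul_apply, ContinuousLinearMap.id_apply] at this
  rw [sm, this, norm_smul, Real.norm_eq_abs, ← Complex.ofReal_pow, mul_pow, sq_abs]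

instance (α : Measure (E d)) [IsProbabilityMeasure α] (t : ℝ) : IsProbabilityMeasure (sm α t) :=
  Measure.isProbabilityMeasure_map (by fun_prop)

theorem sg_gB (h1 : Gau1 d) (B : E d →L[ℝ] E d) (hB : Sy B) (K : ℝ) (hK : ∀ u, ‖B u‖ ^ 2 ≤ K ^ 2 * ‖u‖ ^ 2) :
    SG (gB B) K := by
  refine ⟨inferInstance, fun u => ?_⟩
  rw [gB, lintegral_map (by fun_prop) B.continuous.measurable]
  simp only [← hB u]
  rw [h1.mgf]
  exact ENNReal.ofReal_le_ofReal (Real.exp_le_exp.2 (by linarith [hK u]))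

theorem cv_gB (B : E d →L[ℝ] E d) (hB : Sy B) (u v : E d) : Cv (gB B) u v = ⟪B u, B v⟫ := by
  rw [Cv, gB, integral_map B.continuous.measurable.aemeasurable (by fun_prop)]
  simp only [← hB u, ← hB v]
  have h := covarianceBilin_apply (μ := gs d) IsGaussian.memLp_two_id (B u) (B v)
  rw [covarianceBilin_stdGaussian, innerSL_apply_apply] at h
  rw [h]
  simp

theorem sum_ee (x : E d) : ∑ j, ⟪x, ee j⟫ ^ 2 = ‖x‖ ^ 2 := by
  rw [← (EuclideanSpace.basisFun (Fin d) ℝ).sum_sq_inner_left x]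
  simp [ee]

theorem fr_le (A A' α α0 : Measure (E d)) (M : E d →L[ℝ] E d) (L e k : ℝ) (hMs : Sy M)
    (hMu : ∀ u, ‖M u‖ ≤ 2 * L ^ 2 * ‖u‖) (hk0 : 0 ≤ k) (hk1 : k ≤ 1) (hF : Fr α α0 ≤ e ^ 2)
    (hL8 : L ^ 8 * d ≤ e ^ 2)
    (h : ∀ u v, Cv A u v - Cv A' u v = Cv α u v - Cv α0 u v - k * ⟪M u, M v⟫) :
    Fr A A' ≤ (64 * e) ^ 2 := by
  have a1 : ∀ i j : Fin d, (Cv A (ee i) (ee j) - Cv A' (ee i) (ee j)) ^ 2 ≤
      2 * (Cv α (ee i) (ee j) - Cv α0 (ee i) (ee j)) ^ 2 + 2 * ⟪M (M (ee i)), ee j⟫ ^ 2 := by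
    intro i j
    rw [h, hMs (M (ee i)) (ee j)]
    generalize Cv α (ee i) (ee j) - Cv α0 (ee i) (ee j) = x
    generalize ⟪M (ee i), M (ee j)⟫ = y
    have b1 : (k * y) ^ 2 ≤ y ^ 2 := by
      rw [mul_pow]
      have : k ^ 2 ≤ 1 := by nlinarith
      nlinarith [sq_nonneg y]
    nlinarith [sq_nonneg (x + k * y)]
  have a2 : ∀ i : Fin d, ∑ j, ⟪M (M (ee i)), ee j⟫ ^ 2 ≤ 16 * L ^ 8 := by
    intro i
    rw [sum_ee]
    have b0 : ‖(ee i : E d)‖ = 1 := by simp [ee]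
    have b1 : ‖M (M (ee i))‖ ≤ 4 * L ^ 4 := by
      calc ‖M (M (ee i))‖ ≤ 2 * L ^ 2 * ‖M (ee i)‖ := hMu _
        _ ≤ 2 * L ^ 2 * (2 * L ^ 2 * ‖(ee i : E d)‖) := by gcongr; exact hMu _
        _ = 4 * L ^ 4 := by rw [b0]; ring
    calc ‖M (M (ee i))‖ ^ 2 ≤ (4 * L ^ 4) ^ 2 := by gcongr
      _ = _ := by ring
  calc _ ≤ ∑ i : Fin d, ∑ j : Fin d, (2 * (Cv α (ee i) (ee j) - Cv α0 (ee i) (ee j)) ^ 2 +
        2 * ⟪M (M (ee i)), ee j⟫ ^ 2) := sum_le_sum fun i _ => sum_le_sum fun j _ => a1 i j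
    _ = 2 * Fr α α0 + 2 * ∑ i : Fin d, ∑ j, ⟪M (M (ee i)), ee j⟫ ^ 2 := by
        simp only [Fr, sum_add_distrib, mul_sum]
    _ ≤ 2 * e ^ 2 + 2 * ∑ _i : Fin d, 16 * L ^ 8 := by
        gcongr with i
        exact a2 i
    _ = 2 * e ^ 2 + 32 * (L ^ 8 * d) := by simp; ring
    _ ≤ (64 * e) ^ 2 := by nlinarith [sq_nonneg e]

theorem l8_le (L e D : ℝ) (h1 : L ^ 4 ≤ D) (_hD : 0 ≤ D) (hLe : (L ^ 4 * D) ^ 3 ≤ e ^ 4) : L ^ 8 * D ≤ e ^ 2 := by
  refine abs_le_of_sq_le_sq' ?_ (by positivity) |>.2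
  have a1 : (L ^ 8 * D) ^ 2 = (L ^ 12 * D ^ 2) * L ^ 4 := by ring
  have a2 : (L ^ 4 * D) ^ 3 = (L ^ 12 * D ^ 2) * D := by ring
  have a3 : (L ^ 12 * D ^ 2) * L ^ 4 ≤ (L ^ 12 * D ^ 2) * D := by gcongr
  calc (L ^ 8 * D) ^ 2 ≤ (L ^ 4 * D) ^ 3 := by rw [a1, a2]; exact a3
    _ ≤ e ^ 4 := hLe
    _ = (e ^ 2) ^ 2 := by ring

end ASm

open ASm in
theorem stmtAS (h1 : StmtG1) (_h2 : StmtG2) (hSG : StmtSG) (hMM : StmtMM) (hRel : RelApi) : StmtAS := by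
  obtain ⟨C, hC, hM⟩ := hMM
  refine ⟨256 * C, by linarith, ?_⟩
  intro d α α0 β M L t e hd hL hα hα0 hβ ht ht1 hMc hMn hs he hF hLe
  have := hα.1
  have := hβ.1
  have hd' : (2 : ℝ) ≤ d := by exact_mod_cast hd
  have hL4 : 0 ≤ L ^ 4 := by positivity
  have hL4' : L ^ 4 ≤ 1 / 64 := by
    have : L ^ 4 * 2 ≤ L ^ 4 * d := by gcongr
    have h3 : 256 * (L ^ 4 * d) ≤ 256 * C * L ^ 4 * d := by
      have : 1 * (L ^ 4 * d) ≤ C * (L ^ 4 * d) := by gcongr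
      linarith
    linarith
  have hL2 : L ^ 2 ≤ 1 / 8 := by
    by_contra h
    push Not at h
    nlinarith
  have hMs : Sy M := by
    intro u v
    rw [real_inner_comm, hMc, hMc]
    simp only [Cv, mul_comm]
  have hMu : ∀ u, ‖M u‖ ≤ 2 * L ^ 2 * ‖u‖ := fun u =>
    (M.le_opNorm u).trans (by gcongr)
  have hMi : ∀ u, |⟪u, M u⟫| ≤ 2 * L ^ 2 * ‖u‖ ^ 2 := by
    intro u
    calc |⟪u, M u⟫| ≤ ‖u‖ * ‖M u‖ := abs_real_inner_le_norm _ _
      _ ≤ ‖u‖ * (2 * L ^ 2 * ‖u‖) := by gcongr; exact hMu u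
      _ = _ := by ring
  have ht0 : 0 < t := by linarith
  set k : ℝ := (4 * t ^ 2)⁻¹ with hk
  have hk0 : 0 ≤ k := by positivity
  have hk1 : k ≤ 1 := inv_le_one_of_one_le₀ (by nlinarith)
  set S : E d →L[ℝ] E d := (2 * L ^ 2) • ContinuousLinearMap.id ℝ (E d) + M + k • (M ∘L M) with hS
  have hSa : ∀ u v, ⟪u, S v⟫ = 2 * L ^ 2 * ⟪u, v⟫ + ⟪u, M v⟫ + k * ⟪M u, M v⟫ := by
    intro u v
    simp only [hS, add_apply, smul_apply,
      ContinuousLinearMap.id_apply, ContinuousLinearMap.comp_apply, inner_add_right, real_inner_smul_right]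
    rw [← hMs u (M v)]
  have hSs : Sy S := by
    intro u v
    rw [real_inner_comm, hSa, hSa, real_inner_comm u v, real_inner_comm (M u) (M v), ← hMs v u,
      real_inner_comm u (M v)]
  have hSp : ∀ u, 0 ≤ ⟪u, S u⟫ := by
    intro u
    rw [hSa, real_inner_self_eq_norm_sq, real_inner_self_eq_norm_sq]
    have := (abs_le.1 (hMi u)).1
    have : 0 ≤ k * ‖M u‖ ^ 2 := by positivity
    linarith
  obtain ⟨B, hBs, hB⟩ := ex_sqrt S hSs hSp
  set B0 : E d →L[ℝ] E d := (√2 * L) • ContinuousLinearMap.id ℝ (E d) with hB0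
  have hB0s : Sy B0 := sy_id _
  have h22 : √2 * √2 = (2 : ℝ) := Real.mul_self_sqrt (by norm_num)
  have hB0i : ∀ u v, ⟪B0 u, B0 v⟫ = 2 * L ^ 2 * ⟪u, v⟫ := by
    intro u v
    simp only [hB0, smul_apply, ContinuousLinearMap.id_apply, real_inner_smul_left,
      real_inner_smul_right]
    linear_combination (L ^ 2 * ⟪u, v⟫) * h22
  have hB0n : ∀ u, ‖B0 u‖ ^ 2 = 2 * L ^ 2 * ‖u‖ ^ 2 := by
    intro u
    rw [← real_inner_self_eq_norm_sq, hB0i, real_inner_self_eq_norm_sq]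
  have hBn : ∀ u, ‖B u‖ ^ 2 = 2 * L ^ 2 * ‖u‖ ^ 2 + ⟪u, M u⟫ + k * ‖M u‖ ^ 2 := by
    intro u
    rw [← real_inner_self_eq_norm_sq, hB, hSa, real_inner_self_eq_norm_sq, real_inner_self_eq_norm_sq]
  have sg0 : SG (gB B0) (3 * L) := sg_gB (h1 d) B0 hB0s _ fun u => by
    rw [hB0n]; nlinarith [mul_nonneg (sq_nonneg L) (sq_nonneg ‖u‖)]
  have sg1 : SG (gB B) (3 * L) := sg_gB (h1 d) B hBs _ fun u => by
    rw [hBn]
    have a1 := (abs_le.1 (hMi u)).2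
    have a2 : ‖M u‖ ^ 2 ≤ (2 * L ^ 2 * ‖u‖) ^ 2 := by gcongr; exact hMu u
    have a3 : k * ‖M u‖ ^ 2 ≤ 1 * (2 * L ^ 2 * ‖u‖) ^ 2 := by gcongr
    have a4 : 0 ≤ L ^ 2 * ‖u‖ ^ 2 := by positivity
    have a5 : L ^ 2 * (L ^ 2 * ‖u‖ ^ 2) ≤ 1 / 8 * (L ^ 2 * ‖u‖ ^ 2) := by gcongr
    nlinarith
  have hL3 : 0 ≤ 3 * L := by positivity
  obtain ⟨sa, ca⟩ := (hSG d).add α (gB B0) L (3 * L) hL hL3 hα sg0
  obtain ⟨sb, cb⟩ := (hSG d).add β (gB B) L (3 * L) hL hL3 hβ sg1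
  set t' : ℝ := √(2 * t ^ 2 - 2 * L ^ 2) with ht'
  have ht'2 : t' ^ 2 = 2 * t ^ 2 - 2 * L ^ 2 := Real.sq_sqrt (by nlinarith)
  have ht'0 : 0 ≤ t' := Real.sqrt_nonneg _
  have ht'a : 1 / 2 ≤ t' := by
    by_contra h
    push Not at h
    nlinarith
  have ht'b : t' ≤ 2 := by
    by_contra h
    push Not at h
    nlinarith [sq_nonneg L]
  have := sa.1
  have := sb.1
  have e1 : sm α (√2 * t) = sm ((α.prod (gB B0)).map fun p => p.1 + p.2) t' := by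
    refine Measure.ext_of_charFun (funext fun u => ?_)
    rw [cf_sm, cf_sm, charFun_map_add_prod_eq_mul, Pi.mul_apply, cf_gB B0 hB0s, mul_assoc,
      ← Complex.exp_add, ← Complex.ofReal_pow, hB0n, ht'2]
    congr 2
    have : (√2 * t) ^ 2 = 2 * t ^ 2 := by linear_combination (t ^ 2) * h22
    rw [this]
    push_cast
    ring
  set B1 : E d →L[ℝ] E d := t • ContinuousLinearMap.id ℝ (E d) + (2 * t)⁻¹ • M with hB1
  have hB1a : ∀ u, B1 u = t • u + (2 * t)⁻¹ • M u := fun u => rfl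
  have hB1s : Sy B1 := by
    intro u v
    simp only [hB1a, inner_add_left, inner_add_right, real_inner_smul_left, real_inner_smul_right, hMs u v]
  have hB1n : ∀ u, ‖B1 u‖ ^ 2 = t ^ 2 * ‖u‖ ^ 2 + ⟪u, M u⟫ + k * ‖M u‖ ^ 2 := by
    intro u
    rw [hB1a, norm_add_sq_real, norm_smul, norm_smul, real_inner_smul_left, real_inner_smul_right,
      mul_pow, mul_pow, Real.norm_eq_abs, Real.norm_eq_abs, sq_abs, sq_abs, hk]
    field_simp
    ring
  have e0 : (fun p : E d × E d => p.1 + t • p.2 + (2 * t)⁻¹ • M p.2) = fun p => p.1 + B1 p.2 := by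
    funext p
    rw [hB1a, add_assoc]
  have : IsProbabilityMeasure ((β.prod (gs d)).map fun p => p.1 + B1 p.2) :=
    Measure.isProbabilityMeasure_map (by fun_prop)
  have e2 : sm ((β.prod (gs d)).map fun p => p.1 + t • p.2 + (2 * t)⁻¹ • M p.2) t =
      sm ((β.prod (gB B)).map fun p => p.1 + p.2) t' := by
    rw [e0]
    refine Measure.ext_of_charFun (funext fun u => ?_)
    rw [cf_sm, cf_sm, charFun_map_add_prod_eq_mul, Pi.mul_apply, cf_gB B hBs, cf_lin β B1 hB1s, mul_assoc,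
      mul_assoc, ← Complex.exp_add, ← Complex.exp_add, ← Complex.ofReal_pow, ← Complex.ofReal_pow,
      hBn, hB1n, ht'2]
    congr 2
    push_cast
    ring
  rw [e1, e2]
  have hL8 : L ^ 8 * d ≤ e ^ 2 := l8_le L e d (by linarith) (by linarith) hLe
  have hFr : Fr ((α.prod (gB B0)).map fun p => p.1 + p.2) ((β.prod (gB B)).map fun p => p.1 + p.2) ≤
      (64 * e) ^ 2 := by
    refine fr_le _ _ α α0 M L e k hMs hMu hk0 hk1 hF hL8 fun u v => ?_
    rw [ca, cb, cv_gB B0 hB0s, cv_gB B hBs, hB0i, hB, hSa, hMc]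
    ring
  have key := hM d _ _ (L + 3 * L) t' (64 * e) hd sa sb ht'a ht'b
    (by calc C * (L + 3 * L) ^ 4 * d = 256 * C * L ^ 4 * d := by ring
      _ ≤ 1 := hs) (by positivity) hFr
    (by calc ((L + 3 * L) ^ 4 * d) ^ 3 = 64 ^ 4 * (L ^ 4 * d) ^ 3 := by ring
      _ ≤ 64 ^ 4 * e ^ 4 := by gcongr
      _ = _ := by ring)
  refine hRel.mono _ _ _ _ _ (by positivity) ?_ key
  nlinarith [mul_nonneg (by linarith : (0 : ℝ) ≤ C) he]

end

end Vale.Agent.P347
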