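import Vale.Agent.P347.Spec2
import Vale.Agent.P347.AS

open MeasureTheory ProbabilityTheory Finset
open scoped RealInnerProductSpace ENNReal

namespace Vale.Agent.P347

noncomputable section

namespace AS2m
open ASm

variable {d : ℕ}

theorem cf_gB' (B B' : E d →L[ℝ] E d) (hB : ∀ u v, ⟪B u, v⟫ = ⟪u, B' v⟫) (u : E d) :
    charFun (gB B) u = Complex.exp (-‖B' u‖ ^ 2 / 2) := by
  rw [← charFun_stdGaussian, charFun_apply, charFun_apply, gB,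
    integral_map B.continuous.measurable.aemeasurable (by fun_prop)]
  simp only [hB _ u]

theorem cf_lin' (α : Measure (E d)) [IsProbabilityMeasure α] (B B' : E d →L[ℝ] E d)
    (hB : ∀ u v, ⟪B u, v⟫ = ⟪u, B' v⟫) (u : E d) :
    charFun ((α.prod (gs d)).map fun p => p.1 + B p.2) u =
      charFun α u * Complex.exp (-‖B' u‖ ^ 2 / 2) := by
  have h1 : (α.prod (gs d)).map (fun p => p.1 + B p.2) = (α.prod (gB B)).map fun p => p.1 + p.2 := by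
    have : α.prod (gB B) = (α.prod (gs d)).map (Prod.map id B) := by
      rw [gB, ← Measure.map_prod_map _ _ measurable_id B.continuous.measurable, Measure.map_id]
    rw [this, Measure.map_map (by fun_prop) (by fun_prop)]
    rfl
  rw [h1, charFun_map_add_prod_eq_mul, Pi.mul_apply, cf_gB' B B' hB]

theorem fr_le (A A' : Measure (E d)) (D : E d → E d → ℝ) (M M' : E d →L[ℝ] E d) (L e k : ℝ)
    (hM : ∀ u v, ⟪M u, v⟫ = ⟪u, M' v⟫)
    (hMu : ∀ u, ‖M u‖ ≤ 2 * L ^ 2 * ‖u‖) (hMu' : ∀ u, ‖M' u‖ ≤ 2 * L ^ 2 * ‖u‖) (hk0 : 0 ≤ k)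
    (hk1 : k ≤ 1) (hF : Fq D ≤ e ^ 2) (hL8 : L ^ 8 * d ≤ e ^ 2)
    (h : ∀ u v, Cv A u v - Cv A' u v = (D u v + D v u) / 2 - k * ⟪M' u, M' v⟫) :
    Fr A A' ≤ (343 * e) ^ 2 := by
  have a1 : ∀ i j : Fin d, (Cv A (ee i) (ee j) - Cv A' (ee i) (ee j)) ^ 2 ≤
      D (ee i) (ee j) ^ 2 + D (ee j) (ee i) ^ 2 + 2 * ⟪M (M' (ee i)), ee j⟫ ^ 2 := by
    intro i j
    rw [h, hM (M' (ee i)) (ee j)]
    generalize D (ee i) (ee j) = x
    generalize D (ee j) (ee i) = x'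
    generalize ⟪M' (ee i), M' (ee j)⟫ = y
    have b1 : (k * y) ^ 2 ≤ y ^ 2 := by
      rw [mul_pow]
      have : k ^ 2 ≤ 1 := by nlinarith
      nlinarith [sq_nonneg y]
    nlinarith [sq_nonneg ((x + x') / 2 + k * y), sq_nonneg (x - x')]
  have a2 : ∀ i : Fin d, ∑ j, ⟪M (M' (ee i)), ee j⟫ ^ 2 ≤ 16 * L ^ 8 := by
    intro i
    rw [sum_ee]
    have b0 : ‖(ee i : E d)‖ = 1 := by simp [ee]
    have b1 : ‖M (M' (ee i))‖ ≤ 4 * L ^ 4 := by
      calc ‖M (M' (ee i))‖ ≤ 2 * L ^ 2 * ‖M' (ee i)‖ := hMu _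
        _ ≤ 2 * L ^ 2 * (2 * L ^ 2 * ‖(ee i : E d)‖) := by gcongr; exact hMu' _
        _ = 4 * L ^ 4 := by rw [b0]; ring
    calc ‖M (M' (ee i))‖ ^ 2 ≤ (4 * L ^ 4) ^ 2 := by gcongr
      _ = _ := by ring
  have a3 : ∑ i : Fin d, ∑ j : Fin d, D (ee j) (ee i) ^ 2 = Fq D := sum_comm
  calc _ ≤ ∑ i : Fin d, ∑ j : Fin d, (D (ee i) (ee j) ^ 2 + D (ee j) (ee i) ^ 2 +
        2 * ⟪M (M' (ee i)), ee j⟫ ^ 2) := sum_le_sum fun i _ => sum_le_sum fun j _ => a1 i j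
    _ = Fq D + Fq D + 2 * ∑ i : Fin d, ∑ j, ⟪M (M' (ee i)), ee j⟫ ^ 2 := by
        simp only [sum_add_distrib, mul_sum, a3]; rfl
    _ ≤ e ^ 2 + e ^ 2 + 2 * ∑ _i : Fin d, 16 * L ^ 8 := by
        gcongr with i
        exact a2 i
    _ = 2 * e ^ 2 + 32 * (L ^ 8 * d) := by simp; ring
    _ ≤ (343 * e) ^ 2 := by nlinarith [sq_nonneg e]

end AS2m

open ASm AS2m in
theorem stmtAS2 (_h1 : StmtG1) (_h2 : StmtG2) (hPo : StmtPo) (_hFo : StmtFo) (hMM2 : StmtMM2)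
    (hRel : RelApi) : StmtAS2 := by
  obtain ⟨C, hC, hM⟩ := hMM2
  refine ⟨343 * C, by linarith, ?_⟩
  intro d α β M L t e hL hL4 hα hβ ht ht1 hMn he hF hLe
  have := hα.1
  have := hβ.1
  have hL2 : L ^ 2 ≤ 1 / 8 := by nlinarith
  set M' := ContinuousLinearMap.adjoint M with hM'
  have hMs : ∀ u v, ⟪M u, v⟫ = ⟪u, M' v⟫ := fun u v =>
    (ContinuousLinearMap.adjoint_inner_right M u v).symm
  have hMu : ∀ u, ‖M u‖ ≤ 2 * L ^ 2 * ‖u‖ := fun u =>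
    (M.le_opNorm u).trans (by gcongr)
  have hMn' : ‖M'‖ ≤ 2 * L ^ 2 := by rw [hM', LinearIsometryEquiv.norm_map]; exact hMn
  have hMu' : ∀ u, ‖M' u‖ ≤ 2 * L ^ 2 * ‖u‖ := fun u =>
    (M'.le_opNorm u).trans (by gcongr)
  have hMi : ∀ u, |⟪u, M u⟫| ≤ 2 * L ^ 2 * ‖u‖ ^ 2 := by
    intro u
    calc |⟪u, M u⟫| ≤ ‖u‖ * ‖M u‖ := abs_real_inner_le_norm _ _
      _ ≤ ‖u‖ * (2 * L ^ 2 * ‖u‖) := by gcongr; exact hMu u
      _ = _ := by ring
  have ht0 : 0 < t := by linarith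
  set k : ℝ := (4 * t ^ 2)⁻¹ with hk
  have hk0 : 0 ≤ k := by positivity
  have hk1 : k ≤ 1 := inv_le_one_of_one_le₀ (by nlinarith)
  set S : E d →L[ℝ] E d := (2 * L ^ 2) • ContinuousLinearMap.id ℝ (E d) + (1 / 2 : ℝ) • (M + M') +
    k • (M ∘L M') with hS
  have hSa : ∀ u v, ⟪u, S v⟫ = 2 * L ^ 2 * ⟪u, v⟫ + (⟪u, M v⟫ + ⟪v, M u⟫) / 2 + k * ⟪M' u, M' v⟫ := by
    intro u v
    simp only [hS, add_apply, smul_apply,
      ContinuousLinearMap.id_apply, ContinuousLinearMap.comp_apply, inner_add_right, real_inner_smul_right]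
    rw [← hMs u v, real_inner_comm (M (M' v)) u, hMs (M' v) u, real_inner_comm (M' v), real_inner_comm v (M u)]
    ring
  have hSs : Sy S := by
    intro u v
    rw [real_inner_comm, hSa, hSa, real_inner_comm u v, real_inner_comm (M' u) (M' v)]
    ring
  have hSp : ∀ u, 0 ≤ ⟪u, S u⟫ := by
    intro u
    rw [hSa, real_inner_self_eq_norm_sq, real_inner_self_eq_norm_sq]
    have := (abs_le.1 (hMi u)).1
    have : 0 ≤ k * ‖M' u‖ ^ 2 := by positivity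
    linarith
  obtain ⟨B, hBs, hB⟩ := ex_sqrt S hSs hSp
  set B0 : E d →L[ℝ] E d := (√2 * L) • ContinuousLinearMap.id ℝ (E d) with hB0
  have hB0s : Sy B0 := sy_id _
  have h22 : √2 * √2 = (2 : ℝ) := Real.mul_self_sqrt (by norm_num)
  have hB0i : ∀ u v, ⟪B0 u, B0 v⟫ = 2 * L ^ 2 * ⟪u, v⟫ := by
    intro u v
    simp only [hB0, smul_apply, ContinuousLinearMap.id_apply, real_inner_smul_left,
      real_inner_smul_right]
    linear_combination (L ^ 2 * ⟪u, v⟫) * h22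
  have hB0n : ∀ u, ‖B0 u‖ ^ 2 = 2 * L ^ 2 * ‖u‖ ^ 2 := by
    intro u
    rw [← real_inner_self_eq_norm_sq, hB0i, real_inner_self_eq_norm_sq]
  have hBn : ∀ u, ‖B u‖ ^ 2 = 2 * L ^ 2 * ‖u‖ ^ 2 + ⟪u, M u⟫ + k * ‖M' u‖ ^ 2 := by
    intro u
    rw [← real_inner_self_eq_norm_sq, hB, hSa, real_inner_self_eq_norm_sq, real_inner_self_eq_norm_sq]
    ring
  have hL3 : 0 ≤ 3 * L := by positivity
  have op : ∀ T : E d →L[ℝ] E d, (∀ u, ‖T u‖ ^ 2 ≤ (3 * L) ^ 2 * ‖u‖ ^ 2) → Poi (gB T) (2 * (3 * L)) :=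
    fun T hT => (hPo d).lin T _ (T.opNorm_le_bound hL3 fun u =>
      (abs_le_of_sq_le_sq' (by rw [mul_pow]; exact hT u) (by positivity)).2)
  have sg0 := op B0 fun u => by
    rw [hB0n]; nlinarith [mul_nonneg (sq_nonneg L) (sq_nonneg ‖u‖)]
  have sg1 := op B fun u => by
    rw [hBn]
    have a1 := (abs_le.1 (hMi u)).2
    have a2 : ‖M' u‖ ^ 2 ≤ (2 * L ^ 2 * ‖u‖) ^ 2 := by gcongr; exact hMu' u
    have a3 : k * ‖M' u‖ ^ 2 ≤ 1 * (2 * L ^ 2 * ‖u‖) ^ 2 := by gcongr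
    have a4 : 0 ≤ L ^ 2 * ‖u‖ ^ 2 := by positivity
    have a5 : L ^ 2 * (L ^ 2 * ‖u‖ ^ 2) ≤ 1 / 8 * (L ^ 2 * ‖u‖ ^ 2) := by gcongr
    nlinarith
  obtain ⟨sa, ca⟩ := (hPo d).add α (gB B0) L (2 * (3 * L)) hL (by positivity) hα sg0
  obtain ⟨sb, cb⟩ := (hPo d).add β (gB B) L (2 * (3 * L)) hL (by positivity) hβ sg1
  set t' : ℝ := √(2 * t ^ 2 - 2 * L ^ 2) with ht'
  have ht'2 : t' ^ 2 = 2 * t ^ 2 - 2 * L ^ 2 := Real.sq_sqrt (by nlinarith)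
  have ht'0 : 0 ≤ t' := Real.sqrt_nonneg _
  have ht'a : 1 / 2 ≤ t' := by
    by_contra h
    push Not at h
    nlinarith
  have := sa.1
  have := sb.1
  have e1 : sm α (√2 * t) = sm ((α.prod (gB B0)).map fun p => p.1 + p.2) t' := by
    refine Measure.ext_of_charFun (funext fun u => ?_)
    rw [cf_sm, cf_sm, charFun_map_add_prod_eq_mul, Pi.mul_apply, cf_gB B0 hB0s, mul_assoc,
      ← Complex.exp_add, ← Complex.ofReal_pow, hB0n, ht'2]
    congr 2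
    have : (√2 * t) ^ 2 = 2 * t ^ 2 := by linear_combination (t ^ 2) * h22
    rw [this]
    push_cast
    ring
  set B1 : E d →L[ℝ] E d := t • ContinuousLinearMap.id ℝ (E d) + (2 * t)⁻¹ • M with hB1
  have hB1a : ∀ u, B1 u = t • u + (2 * t)⁻¹ • M u := fun u => rfl
  set B1' : E d →L[ℝ] E d := t • ContinuousLinearMap.id ℝ (E d) + (2 * t)⁻¹ • M' with hB1'
  have hB1a' : ∀ u, B1' u = t • u + (2 * t)⁻¹ • M' u := fun u => rfl
  have hB1s : ∀ u v, ⟪B1 u, v⟫ = ⟪u, B1' v⟫ := by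
    intro u v
    simp only [hB1a, hB1a', inner_add_left, inner_add_right, real_inner_smul_left,
      real_inner_smul_right, hMs u v]
  have hB1n : ∀ u, ‖B1' u‖ ^ 2 = t ^ 2 * ‖u‖ ^ 2 + ⟪u, M u⟫ + k * ‖M' u‖ ^ 2 := by
    intro u
    rw [hB1a', norm_add_sq_real, norm_smul, norm_smul, real_inner_smul_left, real_inner_smul_right,
      mul_pow, mul_pow, Real.norm_eq_abs, Real.norm_eq_abs, sq_abs, sq_abs, hk, ← hMs u u,
      real_inner_comm u (M u)]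
    field_simp
    ring
  have e0 : (fun p : E d × E d => p.1 + t • p.2 + (2 * t)⁻¹ • M p.2) = fun p => p.1 + B1 p.2 := by
    funext p
    rw [hB1a, add_assoc]
  have : IsProbabilityMeasure ((β.prod (gs d)).map fun p => p.1 + B1 p.2) :=
    Measure.isProbabilityMeasure_map (by fun_prop)
  have e2 : sm ((β.prod (gs d)).map fun p => p.1 + t • p.2 + (2 * t)⁻¹ • M p.2) t =
      sm ((β.prod (gB B)).map fun p => p.1 + p.2) t' := by
    rw [e0]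
    refine Measure.ext_of_charFun (funext fun u => ?_)
    rw [cf_sm, cf_sm, charFun_map_add_prod_eq_mul, Pi.mul_apply, cf_gB B hBs, cf_lin' β B1 B1' hB1s, mul_assoc,
      mul_assoc, ← Complex.exp_add, ← Complex.exp_add, ← Complex.ofReal_pow, ← Complex.ofReal_pow,
      hBn, hB1n, ht'2]
    congr 2
    push_cast
    ring
  rw [e1, e2]
  have hL6 : 0 ≤ L ^ 6 * d := by positivity
  have hL8 : L ^ 8 * d ≤ e ^ 2 := by
    have : L ^ 8 * d = L ^ 2 * (L ^ 6 * d) := by ring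
    nlinarith
  have hFr : Fr ((α.prod (gB B0)).map fun p => p.1 + p.2) ((β.prod (gB B)).map fun p => p.1 + p.2) ≤
      (343 * e) ^ 2 := by
    refine AS2m.fr_le _ _ _ M M' L e k hMs hMu hMu' hk0 hk1 hF hL8 fun u v => ?_
    have c1 : ∀ γ : Measure (E d), Cv γ v u = Cv γ u v := fun γ => by simp only [Cv, mul_comm]
    rw [ca, cb, cv_gB B0 hB0s, cv_gB B hBs, hB0i, hB, hSa, c1, c1]
    ring
  have key := hM d _ _ (L + 2 * (3 * L)) t' (343 * e) sa sb ht'a (by positivity) hFr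
    (by calc (L + 2 * (3 * L)) ^ 6 * d = 343 ^ 2 * (L ^ 6 * d) := by ring
      _ ≤ 343 ^ 2 * e ^ 2 := by gcongr
      _ = _ := by ring)
  refine hRel.mono _ _ _ _ _ (by positivity) (le_of_eq ?_) key
  ring

end

end Vale.Agent.P347
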