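import Vale.Agent.P347.Rev

open MeasureTheory ProbabilityTheory Finset
open scoped RealInnerProductSpace ENNReal

namespace Vale.Agent.P347

namespace Aam

variable {d : ℕ}

noncomputable def B (G : E d → E d) (ρ c : ℝ) : (N : ℕ) → E d → (Fin N → E d) → E d
  | 0, _, _ => 0
  | N + 1, w, g => ρ • B G ρ c N (ρ • w + sg ρ • g 0) (Fin.tail g) +
      (1 - ρ) • G (ρ • w + sg ρ • g 0 - c • B G ρ c N (ρ • w + sg ρ • g 0) (Fin.tail g))

theorem B_one (G : E d → E d) (ρ : ℝ) : ∀ N w g, B G ρ 1 N w g = AA G ρ N w g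
  | 0, _, _ => rfl
  | N + 1, w, g => by simp only [B, AA, B_one G ρ N, one_smul]

theorem B_zero (G : E d → E d) (ρ : ℝ) : ∀ N w g, B G ρ 0 N w g = A0 G ρ N w g
  | 0, _, _ => rfl
  | N + 1, w, g => by simp only [B, A0, B_zero G ρ N, zero_smul, sub_zero]

structure Hy (ε ρ c : ℝ) (G : E d → E d) : Prop where
  e0 : 0 ≤ ε
  e1 : ε ≤ 1 / 4
  r0 : 1 / 2 ≤ ρ
  r1 : ρ < 1
  c0 : 0 ≤ c
  c1 : c ≤ 1
  nice : Nice ε G

variable {ε ρ c : ℝ} {G : E d → E d}

theorem sg_nonneg (ρ : ℝ) : 0 ≤ sg ρ := Real.sqrt_nonneg _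
theorem sg_le_one (ρ : ℝ) : sg ρ ≤ 1 := Real.sqrt_le_one.2 (by nlinarith [sq_nonneg ρ])

theorem Hy.step (H : Hy ε ρ c G) (x x' a a' : E d) :
    ‖(ρ • a + (1 - ρ) • G (x - c • a)) - (ρ • a' + (1 - ρ) • G (x' - c • a'))‖ ≤
      (ρ + (1 - ρ) * ε) * ‖a - a'‖ + (1 - ρ) * ε * ‖x - x'‖ := by
  have hr : 0 ≤ ρ := by linarith [H.r0]
  have hr' : 0 ≤ 1 - ρ := by linarith [H.r1]
  have e : (ρ • a + (1 - ρ) • G (x - c • a)) - (ρ • a' + (1 - ρ) • G (x' - c • a')) =
      ρ • (a - a') + (1 - ρ) • (G (x - c • a) - G (x' - c • a')) := by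
    simp only [smul_sub]; abel
  have h1 := H.nice.lip (x - c • a) (x' - c • a')
  have h2 : ‖x - c • a - (x' - c • a')‖ ≤ ‖x - x'‖ + ‖a - a'‖ := by
    have : x - c • a - (x' - c • a') = (x - x') - c • (a - a') := by simp only [smul_sub]; abel
    rw [this]
    refine (norm_sub_le _ _).trans ?_
    rw [norm_smul, Real.norm_of_nonneg H.c0]
    nlinarith [H.c1, norm_nonneg (a - a')]
  rw [e]
  refine (norm_add_le _ _).trans ?_
  rw [norm_smul, norm_smul, Real.norm_of_nonneg hr, Real.norm_of_nonneg hr']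
  have h3 := mul_le_mul_of_nonneg_left (h1.trans (mul_le_mul_of_nonneg_left h2 H.e0)) hr'
  nlinarith

theorem Hy.stepx (H : Hy ε ρ c G) {x x' a a' : E d} (h : ‖a - a'‖ ≤ 4 * ε / 3 * ‖x - x'‖) :
    ‖(ρ • a + (1 - ρ) • G (x - c • a)) - (ρ • a' + (1 - ρ) • G (x' - c • a'))‖ ≤
      4 * ε / 3 * ‖x - x'‖ := by
  refine (H.step x x' a a').trans ?_
  have hr' : 0 ≤ 1 - ρ := by linarith [H.r1]
  have h1 : 0 ≤ ρ + (1 - ρ) * ε := by have := H.e0; have := H.r0; positivity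
  have h2 := mul_le_mul_of_nonneg_left h h1
  have h3 : 0 ≤ (1 - ρ) * ε * (1 - 4 * ε) * ‖x - x'‖ := by
    have := H.e0
    have : 0 ≤ 1 - 4 * ε := by linarith [H.e1]
    positivity
  nlinarith

theorem Hy.lipW (H : Hy ε ρ c G) : ∀ N w w' g,
    ‖B G ρ c N w g - B G ρ c N w' g‖ ≤ 4 * ε / 3 * ‖w - w'‖
  | 0, w, w', g => by simp only [B, sub_zero, norm_zero]; have := H.e0; positivity
  | N + 1, w, w', g => by
    refine (H.stepx (H.lipW N _ _ _)).trans (mul_le_mul_of_nonneg_left ?_ (by have := H.e0; positivity))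
    rw [add_sub_add_right_eq_sub, ← smul_sub, norm_smul, Real.norm_of_nonneg (by linarith [H.r0])]
    nlinarith [H.r1, norm_nonneg (w - w')]

theorem Hy.lipS (H : Hy ε ρ c G) : ∀ (N : ℕ) (w : E d) (g : Fin N → E d) (r : Fin N) (x : E d),
    ‖B G ρ c N w (Function.update g r x) - B G ρ c N w g‖ ≤
      4 * ε / 3 * sg ρ * (ρ + (1 - ρ) * ε) ^ (r : ℕ) * ‖x - g r‖
  | 0, _, _, r, _ => r.elim0
  | N + 1, w, g, r, x => by
    refine Fin.cases ?_ (fun r => ?_) r
    · simp only [B, Function.update_self, Fin.tail_update_zero]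
      refine (H.stepx (H.lipW N _ _ _)).trans (le_of_eq ?_)
      rw [add_sub_add_left_eq_sub, ← smul_sub, norm_smul, Real.norm_of_nonneg (sg_nonneg ρ)]
      simp; ring_nf
    · simp only [B, Fin.tail_update_succ, Function.update_of_ne (Fin.succ_ne_zero r).symm]
      refine (H.step _ _ _ _).trans ?_
      have h1 : 0 ≤ ρ + (1 - ρ) * ε := by
        have := H.e0; have := H.r0; have : 0 ≤ 1 - ρ := by linarith [H.r1]
        positivity
      have h2 := mul_le_mul_of_nonneg_left (H.lipS N (ρ • w + sg ρ • g 0) (Fin.tail g) r x) h1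
      rw [sub_self, norm_zero, mul_zero, add_zero, Fin.val_succ, pow_succ]
      refine h2.trans (le_of_eq ?_)
      simp only [Fin.tail]; ring

theorem nG (h : Nice ε G) (x : E d) : ‖G x‖ ≤ ε * (1 + ‖x‖) := by
  have h1 := h.lip x 0
  have h2 := h.zero
  have h3 := norm_le_insert' (G x) (G 0)
  rw [sub_zero] at h1
  linarith

theorem Hy.stepn (H : Hy ε ρ c G) (x a : E d) : ‖ρ • a + (1 - ρ) • G (x - c • a)‖ ≤
    (ρ + (1 - ρ) * ε) * ‖a‖ + (1 - ρ) * ε * (1 + ‖x‖) := by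
  have hr : 0 ≤ ρ := by linarith [H.r0]
  have hr' : 0 ≤ 1 - ρ := by linarith [H.r1]
  refine (norm_add_le _ _).trans ?_
  rw [norm_smul, norm_smul, Real.norm_of_nonneg hr, Real.norm_of_nonneg hr']
  have h2 : ‖x - c • a‖ ≤ ‖x‖ + ‖a‖ := by
    refine (norm_sub_le _ _).trans ?_
    rw [norm_smul, Real.norm_of_nonneg H.c0]
    nlinarith [H.c1, norm_nonneg a]
  have h3 := mul_le_mul_of_nonneg_left ((nG H.nice (x - c • a)).trans
    (mul_le_mul_of_nonneg_left (add_le_add_right h2 1) H.e0)) hr'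
  nlinarith

theorem Hy.gr (H : Hy ε ρ c G) : ∀ N w g, ‖B G ρ c N w g‖ ≤ 2 * ε * (1 + ‖w‖ + ∑ r, ‖g r‖)
  | 0, w, g => by simp only [B, norm_zero]; have := H.e0; positivity
  | N + 1, w, g => by
    refine (H.stepn _ _).trans ?_
    have ih := H.gr N (ρ • w + sg ρ • g 0) (Fin.tail g)
    have hr' : 0 ≤ 1 - ρ := by linarith [H.r1]
    have h1 : 0 ≤ ρ + (1 - ρ) * ε := by have := H.e0; have := H.r0; positivity
    have h2 : ‖ρ • w + sg ρ • g 0‖ ≤ ‖w‖ + ‖g 0‖ := by
      refine (norm_add_le _ _).trans ?_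
      rw [norm_smul, norm_smul, Real.norm_of_nonneg (by linarith [H.r0]),
        Real.norm_of_nonneg (sg_nonneg ρ)]
      nlinarith [H.r1, sg_le_one ρ, norm_nonneg w, norm_nonneg (g 0)]
    rw [Fin.sum_univ_succ]
    have hS : 0 ≤ ∑ r, ‖Fin.tail g r‖ := sum_nonneg fun _ _ => norm_nonneg _
    change _ ≤ 2 * ε * (1 + ‖w‖ + (‖g 0‖ + ∑ r, ‖Fin.tail g r‖))
    have hn := norm_nonneg (ρ • w + sg ρ • g 0)
    generalize ‖B G ρ c N (ρ • w + sg ρ • g 0) (Fin.tail g)‖ = b at *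
    generalize ∑ r, ‖Fin.tail g r‖ = S at *
    generalize ‖ρ • w + sg ρ • g 0‖ = n at *
    have h3 := mul_le_mul_of_nonneg_left ih h1
    have h4 := mul_le_mul_of_nonneg_left h2 H.e0
    have h5 : 0 ≤ (1 - ρ) * ε * (1 - 2 * ε) * (1 + n + S) := by
      have := H.e0
      have : 0 ≤ 1 - 2 * ε := by linarith [H.e1]
      positivity
    have h6 : 0 ≤ (1 - ρ) * ε * S := by have := H.e0; positivity
    linarith

theorem memG (h1 : StmtG1) : MemLp (fun x : E d => x) 2 (gs d) :=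
  (memLp_two_iff_integrable_sq_norm continuous_id.aestronglyMeasurable).2 ((h1 d).i2 2)

theorem Hy.mem (H : Hy ε ρ c G) (h1 : StmtG1) (N : ℕ) (w : E d)
    (hc : Continuous (B G ρ c N w)) : MemLp (B G ρ c N w) 2 (gN d N) := by
  have h2 : ∀ r : Fin N, MemLp (fun g : Fin N → E d => ‖g r‖) 2 (gN d N) := fun r =>
    ((memG h1).comp_measurePreserving (measurePreserving_eval (fun _ : Fin N => gs d) r)).norm
  have h3 : MemLp (fun g : Fin N → E d => 2 * ε * (1 + ‖w‖ + ∑ r, ‖g r‖)) 2 (gN d N) :=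
    ((memLp_const (1 + ‖w‖)).add (memLp_finsetSum univ fun r _ => h2 r)).const_mul (2 * ε)
  exact h3.mono' hc.aestronglyMeasurable (Filter.Eventually.of_forall fun g => H.gr N w g)

theorem Hy.sumK (H : Hy ε ρ c G) (N : ℕ) :
    ∑ r : Fin N, (4 * ε / 3 * sg ρ * (ρ + (1 - ρ) * ε) ^ (r : ℕ)) ^ 2 ≤ 4 * ε ^ 2 := by
  set θ := ρ + (1 - ρ) * ε with hθ
  have hr' : 0 ≤ 1 - ρ := by linarith [H.r1]
  have hθ0 : ρ ≤ θ := le_add_of_nonneg_right (mul_nonneg hr' H.e0)
  have e1 : ∑ r : Fin N, (4 * ε / 3 * sg ρ * θ ^ (r : ℕ)) ^ 2 =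
      16 * ε ^ 2 / 9 * ((1 - ρ ^ 2) * ∑ r ∈ range N, (θ ^ 2) ^ r) := by
    rw [Fin.sum_univ_eq_sum_range (fun r => (4 * ε / 3 * sg ρ * θ ^ r) ^ 2), mul_sum, mul_sum]
    refine sum_congr rfl fun r _ => ?_
    have : sg ρ ^ 2 = 1 - ρ ^ 2 := Real.sq_sqrt (by nlinarith [H.r0, H.r1])
    rw [mul_pow, mul_pow, this]; ring
  have e2 : (1 - θ ^ 2) * ∑ r ∈ range N, (θ ^ 2) ^ r ≤ 1 := by
    rw [mul_neg_geom_sum]
    have : 0 ≤ (θ ^ 2) ^ N := by positivity
    linarith
  have e3 : 1 - ρ ^ 2 ≤ 4 / 3 * (1 - θ ^ 2) := by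
    have a1 : 1 - θ = (1 - ρ) * (1 - ε) := by rw [hθ]; ring
    have a2 : (1 - ρ) * (3 / 4) ≤ 1 - θ := by rw [a1]; nlinarith [H.e1]
    have a3 : (1 - ρ) * (3 / 4) * (1 + ρ) ≤ (1 - θ) * (1 + θ) :=
      mul_le_mul a2 (by linarith) (by linarith [H.r0]) (by nlinarith)
    nlinarith
  have e4 : 0 ≤ ∑ r ∈ range N, (θ ^ 2) ^ r := sum_nonneg fun _ _ => by positivity
  have e5 : (1 - ρ ^ 2) * ∑ r ∈ range N, (θ ^ 2) ^ r ≤ 4 / 3 := by
    nlinarith [mul_le_mul_of_nonneg_right e3 e4]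
  rw [e1]
  nlinarith [mul_le_mul_of_nonneg_left e5 (sq_nonneg ε)]

theorem Hy.sg' (H : Hy ε ρ c G) (h1 : StmtG1) (hGCT : StmtGCT) (N : ℕ) (w : E d)
    (hc : Continuous (B G ρ c N w)) :
    SG ((gN d N).map fun g => (∫ g, B G ρ c N w g ∂gN d N) - B G ρ c N w g) (4 * ε) := by
  have hm : Measurable fun g => (∫ g, B G ρ c N w g ∂gN d N) - B G ρ c N w g :=
    (continuous_const.sub hc).measurable
  refine ⟨Measure.isProbabilityMeasure_map hm.aemeasurable, fun u => ?_⟩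
  rw [lintegral_map (by fun_prop) hm]
  have hθ : 0 ≤ ρ + (1 - ρ) * ε := by
    have := H.e0; have := H.r0; have : 0 ≤ 1 - ρ := by linarith [H.r1]
    positivity
  have := hGCT d N (fun r => ‖u‖ * (4 * ε / 3 * sg ρ * (ρ + (1 - ρ) * ε) ^ (r : ℕ)))
    (fun g => -⟪u, B G ρ c N w g⟫) (fun r => by have := H.e0; have := sg_nonneg ρ; positivity)
    (fun g r x => by
      rw [neg_sub_neg, ← inner_sub_right, mul_assoc]
      refine (abs_real_inner_le_norm _ _).trans (mul_le_mul_of_nonneg_left ?_ (norm_nonneg _))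
      rw [norm_sub_rev]; exact H.lipS N w g r x)
  rw [integral_neg, integral_inner ((H.mem h1 N w hc).integrable (by norm_num))] at this
  refine le_trans (le_of_eq ?_) (this.trans (ENNReal.ofReal_le_ofReal (Real.exp_le_exp.2 ?_)))
  · refine lintegral_congr fun g => ?_
    rw [inner_sub_right]; congr 2; ring_nf
  · simp only [mul_pow ‖u‖]
    rw [← mul_sum]
    nlinarith [mul_le_mul_of_nonneg_left (H.sumK N) (sq_nonneg ‖u‖)]

theorem eLp_le2 {X Y Z T : Type} [MeasurableSpace X] [NormedAddCommGroup Y] [NormedAddCommGroup Z]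
    [NormedAddCommGroup T] {μ : Measure X} {f : X → Y} {g : X → Z} {h : X → T} {a b α β : ℝ}
    (hf : AEStronglyMeasurable f μ) (hg : AEStronglyMeasurable g μ) (hα : 0 ≤ α) (hβ : 0 ≤ β)
    (ha : 0 ≤ a) (hb : 0 ≤ b)
    (h1 : eLpNorm f 2 μ ≤ ENNReal.ofReal a) (h2 : eLpNorm g 2 μ ≤ ENNReal.ofReal b)
    (h3 : ∀ x, ‖h x‖ ≤ α * ‖f x‖ + β * ‖g x‖) : eLpNorm h 2 μ ≤ ENNReal.ofReal (α * a + β * b) := by
  have e1 : eLpNorm h 2 μ ≤ eLpNorm ((α • fun x => ‖f x‖) + β • fun x => ‖g x‖) 2 μ :=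
    eLpNorm_mono_real fun x => h3 x
  refine e1.trans ((eLpNorm_add_le (hf.norm.const_smul α) (hg.norm.const_smul β)
    (by norm_num)).trans ?_)
  rw [eLpNorm_const_smul, eLpNorm_const_smul, eLpNorm_norm, eLpNorm_norm,
    ENNReal.ofReal_add (by positivity) (by positivity), ENNReal.ofReal_mul hα, ENNReal.ofReal_mul hβ,
    Real.enorm_eq_ofReal hα, Real.enorm_eq_ofReal hβ]
  gcongr

theorem eLp_id (h1 : StmtG1) : eLpNorm (fun x : E d => x) 2 (gs d) ≤ ENNReal.ofReal √d := by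
  rw [(memG h1).eLpNorm_eq_integral_rpow_norm (by norm_num) (by norm_num)]
  refine le_of_eq ?_
  have := (h1 d).m2
  simp only [ENNReal.toReal_ofNat, Real.rpow_ofNat, this]
  rw [Real.sqrt_eq_rpow]; norm_num

theorem mp_step (h2 : StmtG2) {ρ : ℝ} (hρ : ρ ^ 2 ≤ 1) (N : ℕ) : MeasurePreserving
    (fun p : E d × (Fin (N + 1) → E d) => (ρ • p.1 + sg ρ • p.2 0, Fin.tail p.2))
    ((gs d).prod (gN d (N + 1))) ((gs d).prod (gN d N)) := by
  have m1 : MeasurePreserving (fun p : E d × E d => ρ • p.1 + sg ρ • p.2) ((gs d).prod (gs d))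
      (gs d) := ⟨by fun_prop, by
    rw [(h2 d).sum, sg, Real.sq_sqrt (by linarith)]
    simp⟩
  exact (m1.prod (MeasurePreserving.id (gN d N))).comp (Revm.mp_split d N)

end Aam

open Aam in
theorem stmtAa (h1 : StmtG1) (h2 : StmtG2) (hGCT : StmtGCT) : StmtAa := by
  intro d ε ρ G hd e0 e1 r0 r1 hN
  have H1 : Hy ε ρ 1 G := ⟨e0, e1, r0, r1, zero_le_one, le_rfl, hN⟩
  have H0 : Hy ε ρ 0 G := ⟨e0, e1, r0, r1, le_rfl, zero_le_one, hN⟩
  have hG : Continuous G := hN.c1.continuous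
  have b1 : ∀ N w, B G ρ 1 N w = AA G ρ N w := fun N w => funext (B_one G ρ N w)
  have b0 : ∀ N w, B G ρ 0 N w = A0 G ρ N w := fun N w => funext (B_zero G ρ N w)
  have cA := Revm.cont_AA hG ρ
  have c0 := Revm.cont_A0 hG ρ
  have cA' : ∀ N w, Continuous (B G ρ 1 N w) := fun N w => by
    rw [b1]; exact (cA N).comp (Continuous.prodMk_right w)
  have c0' : ∀ N w, Continuous (B G ρ 0 N w) := fun N w => by
    rw [b0]; exact (c0 N).comp (Continuous.prodMk_right w)
  have hρ : ρ ^ 2 ≤ 1 := by nlinarith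
  have hr' : 0 ≤ 1 - ρ := by linarith
  have hsd : (1 : ℝ) ≤ √d := Real.one_le_sqrt.2 (by exact_mod_cast hd)
  have l2 : ∀ N, eLpNorm (fun p : E d × (Fin N → E d) => AA G ρ N p.1 p.2) 2
      ((gs d).prod (gN d N)) ≤ ENNReal.ofReal (4 * ε * √d) := by
    intro N
    induction N with
    | zero => simp [AA]
    | succ N ih =>
      have hx : eLpNorm (fun p : E d × (Fin N → E d) => p.1) 2 ((gs d).prod (gN d N)) ≤
          ENNReal.ofReal √d :=
        (eLpNorm_comp_measurePreserving (g := fun x : E d => x) continuous_id.aestronglyMeasurable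
          (measurePreserving_fst (μ := gs d) (ν := gN d N))).le.trans (eLp_id h1)
      have hc : eLpNorm (fun _ : E d × (Fin N → E d) => (1 : ℝ)) 2 ((gs d).prod (gN d N)) ≤
          ENNReal.ofReal 1 := by
        simpa using eLpNorm_le_of_ae_bound (μ := (gs d).prod (gN d N)) (p := 2)
          (f := fun _ => (1 : ℝ)) (C := 1) (by simp)
      have hy := eLp_le2 (h := fun p : E d × (Fin N → E d) => 1 + ‖p.1‖) aestronglyMeasurable_const
        continuous_fst.aestronglyMeasurable zero_le_one zero_le_one zero_le_one (by positivity) hc hx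
        (fun p => by rw [Real.norm_of_nonneg (by positivity)]; simp)
      have hst : Continuous fun p : E d × (Fin N → E d) =>
          ρ • AA G ρ N p.1 p.2 + (1 - ρ) • G (p.1 - AA G ρ N p.1 p.2) :=
        ((cA N).const_smul ρ).add ((hG.comp (continuous_fst.sub (cA N))).const_smul (1 - ρ))
      refine (eLpNorm_comp_measurePreserving hst.aestronglyMeasurable
        (mp_step h2 hρ N)).le.trans ?_
      refine (eLp_le2 (α := ρ + (1 - ρ) * ε) (β := (1 - ρ) * ε) (cA N).aestronglyMeasurable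
        (continuous_const.add continuous_fst.norm).aestronglyMeasurable (by positivity)
        (by positivity) (by positivity) (by positivity) ih hy fun p => ?_).trans
        (ENNReal.ofReal_le_ofReal ?_)
      · have := H1.stepn p.1 (AA G ρ N p.1 p.2)
        rw [one_smul] at this
        rw [← Real.norm_of_nonneg (show (0 : ℝ) ≤ 1 + ‖p.1‖ by positivity)] at this
        exact this
      · have a1 : 0 ≤ (1 - ρ) * ε * (√d - 1) := by have := sub_nonneg.2 hsd; positivity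
        have a2 : 0 ≤ (1 - ρ) * ε * (1 - 2 * ε) * √d := by
          have : 0 ≤ 1 - 2 * ε := by linarith
          positivity
        nlinarith
  refine ⟨cA, c0, fun N g w w' => ?_, fun N g w w' => ?_, fun N w g => ?_, fun N w g => ?_,
    fun N w => b1 N w ▸ H1.mem h1 N w (cA' N w), fun N w => b0 N w ▸ H0.mem h1 N w (c0' N w),
    fun N w => ?_, fun N w => ?_, l2, fun N => ?_⟩
  · have := H1.lipW N w w' g
    rw [b1, b1] at this
    nlinarith [mul_nonneg e0 (norm_nonneg (w - w'))]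
  · have := H0.lipW N w w' g
    rw [b0, b0] at this
    nlinarith [mul_nonneg e0 (norm_nonneg (w - w'))]
  · rw [← b1]; exact H1.gr N w g
  · rw [← b0]; exact H0.gr N w g
  · have := H1.sg' h1 hGCT N w (cA' N w)
    rwa [b1] at this
  · have := H0.sg' h1 hGCT N w (c0' N w)
    rwa [b0] at this
  · induction N with
    | zero => simp [AA, A0]
    | succ N ih =>
      have hst : Continuous fun p : E d × (Fin N → E d) =>
          (ρ • AA G ρ N p.1 p.2 + (1 - ρ) • G (p.1 - AA G ρ N p.1 p.2)) -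
            (ρ • A0 G ρ N p.1 p.2 + (1 - ρ) • G p.1) :=
        (((cA N).const_smul ρ).add ((hG.comp (continuous_fst.sub (cA N))).const_smul (1 - ρ))).sub
          (((c0 N).const_smul ρ).add ((hG.comp continuous_fst).const_smul (1 - ρ)))
      refine (eLpNorm_comp_measurePreserving hst.aestronglyMeasurable
        (mp_step h2 hρ N)).le.trans ?_
      refine (eLp_le2 (α := ρ) (β := (1 - ρ) * ε) ((cA N).sub (c0 N)).aestronglyMeasurable
        (cA N).aestronglyMeasurable (by linarith) (by positivity) (by positivity) (by positivity)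
        ih (l2 N) fun p => ?_).trans (ENNReal.ofReal_le_ofReal (le_of_eq (by ring)))
      have e : (ρ • AA G ρ N p.1 p.2 + (1 - ρ) • G (p.1 - AA G ρ N p.1 p.2)) -
          (ρ • A0 G ρ N p.1 p.2 + (1 - ρ) • G p.1) = ρ • (AA G ρ N p.1 p.2 - A0 G ρ N p.1 p.2) +
          (1 - ρ) • (G (p.1 - AA G ρ N p.1 p.2) - G p.1) := by
        simp only [smul_sub]; abel
      rw [e]
      refine (norm_add_le _ _).trans ?_
      rw [norm_smul, norm_smul, Real.norm_of_nonneg (by linarith), Real.norm_of_nonneg hr']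
      have := hN.lip (p.1 - AA G ρ N p.1 p.2) p.1
      rw [sub_sub_cancel_left, norm_neg] at this
      have := mul_le_mul_of_nonneg_left this hr'
      simp only [Pi.sub_apply]
      nlinarith

end Vale.Agent.P347
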