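import Vale.Agent.P347.Spec2
import Vale.Agent.P347.Aa

open MeasureTheory ProbabilityTheory Finset
open scoped RealInnerProductSpace ENNReal

namespace Vale.Agent.P347

namespace Aa2m

open Aam

variable {d : ℕ} {ε ρ c : ℝ} {G : E d → E d}

theorem cd (hG : ContDiff ℝ 1 G) (ρ c : ℝ) :
    ∀ N, ContDiff ℝ 1 fun p : E d × (Fin N → E d) => B G ρ c N p.1 p.2
  | 0 => contDiff_const
  | N + 1 => by
    have a : ContDiff ℝ 1 fun p : E d × (Fin (N + 1) → E d) => ρ • p.1 + sg ρ • p.2 0 := by fun_prop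
    have t : ContDiff ℝ 1 fun p : E d × (Fin (N + 1) → E d) => (Fin.tail p.2 : Fin N → E d) :=
      contDiff_pi.2 fun i => by unfold Fin.tail; fun_prop
    have b := (cd hG ρ c N).comp (a.prodMk t)
    exact (b.const_smul ρ).add ((hG.comp (a.sub (b.const_smul c))).const_smul (1 - ρ))

theorem poi (hGPN : StmtGPN) (hPo : StmtPo) (H : Hy ε ρ c G) (N : ℕ) (w : E d) :
    Poi ((gN d N).map fun g => (∫ g, B G ρ c N w g ∂gN d N) - B G ρ c N w g) (4 * ε) := by
  have e0 := H.e0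
  have hθ : 0 ≤ ρ + (1 - ρ) * ε := by
    have := H.r0; have : 0 ≤ 1 - ρ := by linarith [H.r1]
    positivity
  refine (hPo d).mono _ _ _ (Real.sqrt_nonneg _) ?_ (hGPN d N
    (fun r => 4 * ε / 3 * sg ρ * (ρ + (1 - ρ) * ε) ^ (r : ℕ)) (B G ρ c N w)
    (fun r => by have := sg_nonneg ρ; positivity)
    ((cd H.nice.c1 ρ c N).comp (contDiff_const.prodMk contDiff_id)) (H.lipS N w))
  exact Real.sqrt_le_iff.2 ⟨by positivity, by nlinarith [H.sumK N, sq_nonneg ε]⟩

theorem lip (p : Par) (hp : p.Ok) (e0 : 0 ≤ ε) (h : Nice ε G) (w : E d) : LipF ε (F1 p G w) := fun x y => by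
  unfold F1
  rw [← sum_sub_distrib]
  refine (norm_sum_le _ _).trans ((sum_le_sum (g := fun j => p.om j * (ε * ‖x - y‖)) fun j _ => ?_).trans ?_)
  · rw [← smul_sub, norm_smul, Real.norm_of_nonneg (hp.1 j)]
    refine mul_le_mul_of_nonneg_left ((h.lip _ _).trans (mul_le_mul_of_nonneg_left ?_ e0)) (hp.1 j)
    rw [add_sub_add_left_eq_sub, ← smul_sub, norm_smul, Real.norm_of_nonneg (sg_nonneg _)]
    exact mul_le_of_le_one_left (norm_nonneg _) (sg_le_one _)
  · rw [← sum_mul]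
    exact mul_le_of_le_one_left (by positivity) hp.2.1

end Aa2m

open Aam Aa2m in
theorem stmtAa2 (h1 : StmtG1) (hGP : StmtGP) (hGPN : StmtGPN) (hPo : StmtPo) (hOU : StmtOU) : StmtAa2 := by
  have _ := h1
  intro d ε ρ G e0 e1 hN
  refine ⟨fun r0 r1 N w => ?_, fun p hp w => ?_⟩
  · have a := poi hGPN hPo (⟨e0, e1, r0, r1, zero_le_one, le_rfl, hN⟩ : Hy ε ρ 1 G) N w
    have b := poi hGPN hPo (⟨e0, e1, r0, r1, le_rfl, zero_le_one, hN⟩ : Hy ε ρ 0 G) N w
    simp only [B_one] at a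
    simp only [B_zero] at b
    exact ⟨a, b⟩
  · have hG := hN.c1
    have l := lip p hp e0 hN w
    have m := (hOU d).int ε _ l 0 1
    simp only [zero_add, one_smul] at m
    refine (hPo d).mono _ _ _ (by positivity) (by linarith)
      ((hPo d).push (E d) (gs d) (F1 p G w) ε (hGP d).one e0 ?_ l m).1
    unfold F1
    exact ContDiff.sum fun j _ => (hG.comp (by fun_prop)).const_smul _

end Vale.Agent.P347
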