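import Vale.Agent.P347.Spec

open MeasureTheory ProbabilityTheory Finset

namespace Vale.Agent.P347

namespace Algm

variable {d : ℕ} (h : CompApi d) {Ω : Type} [MeasurableSpace Ω]
include h

lemma congr {α : Type} [MeasurableSpace α] {q : ℕ} {F F' : Ω → (E d → E d) → α}
    (hF : Comp d q F) (e : ∀ ω D, F ω D = F' ω D) : Comp d q F' := by
  rwa [show F' = F from funext fun ω => funext fun D => (e ω D).symm]

lemma map {α β : Type} [MeasurableSpace α] [MeasurableSpace β] {q : ℕ}
    {F : Ω → (E d → E d) → α} (hF : Comp d q F) {g : Ω × α → β} (hg : Measurable g) :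
    Comp d q fun ω D => g (ω, F ω D) :=
  h.bind Ω α β q 0 F (fun z _ => g z) hF (h.pure _ _ g hg)

lemma pair {α β : Type} [MeasurableSpace α] [MeasurableSpace β] {q q' : ℕ}
    {F : Ω → (E d → E d) → α} {F' : Ω → (E d → E d) → β} (hF : Comp d q F) (hF' : Comp d q' F') :
    Comp d (q + q') fun ω D => (F ω D, F' ω D) :=
  h.bind Ω α (α × β) q q' F (fun z D => (z.2, F' z.1 D)) hF
    (map h (h.comap _ _ _ _ F' Prod.fst measurable_fst hF') (g := fun z => (z.1.2, z.2))
      (by fun_prop))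

lemma add {q q' : ℕ} {F F' : Ω → (E d → E d) → E d} (hF : Comp d q F) (hF' : Comp d q' F') :
    Comp d (q + q') fun ω D => F ω D + F' ω D :=
  map h (pair h hF hF') (g := fun z => z.2.1 + z.2.2) (by fun_prop)

lemma sub {q q' : ℕ} {F F' : Ω → (E d → E d) → E d} (hF : Comp d q F) (hF' : Comp d q' F') :
    Comp d (q + q') fun ω D => F ω D - F' ω D :=
  map h (pair h hF hF') (g := fun z => z.2.1 - z.2.2) (by fun_prop)

lemma smul {q : ℕ} {F : Ω → (E d → E d) → E d} {c : Ω → ℝ} (hc : Measurable c)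
    (hF : Comp d q F) : Comp d q fun ω D => c ω • F ω D :=
  map h hF (g := fun z => c z.1 • z.2) (by fun_prop)

lemma askAt {q : ℕ} {F : Ω → (E d → E d) → E d} (hF : Comp d q F) :
    Comp d (q + 1) fun ω D => D (F ω D) :=
  h.bind Ω (E d) (E d) q 1 F (fun z D => D z.2) hF (h.ask _ _ measurable_snd)

lemma sum {ι : Type} (s : Finset ι) {F : ι → Ω → (E d → E d) → E d} (hF : ∀ i, Comp d 1 (F i)) :
    Comp d s.card fun ω D => ∑ i ∈ s, F i ω D := by
  classical
  induction s using Finset.induction_on with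
  | empty => simpa using h.pure Ω (E d) (fun _ => 0) measurable_const
  | insert a s ha ih =>
    rw [card_insert_of_notMem ha, add_comm]
    exact congr h (add h (hF a) ih) fun ω D => by rw [sum_insert ha]

lemma ccen (η : ℝ) {y : Ω → E d} (hy : Measurable y) (k : ℕ) :
    Comp d k fun ω D => cen η D (y ω) k := by
  induction k with
  | zero => exact h.pure Ω (E d) y hy
  | succ k ih =>
    exact map h (askAt h ih) (g := fun z => y z.1 - η • z.2) (by fun_prop)

end Algm

/-- a family of maps that costs one query per evaluation -/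
def Algm.One (d : ℕ) {Ω : Type} [MeasurableSpace Ω] (G : Ω → (E d → E d) → E d → E d) : Prop :=
  Comp d 1 fun (z : Ω × E d) D => G z.1 D z.2

namespace Algm

variable {d : ℕ} (h : CompApi d) {Ω : Type} [MeasurableSpace Ω]
  {G : Ω → (E d → E d) → E d → E d} (hG : One d G)
include h hG

lemma ev {q : ℕ} {F : Ω → (E d → E d) → E d} (hF : Comp d q F) :
    Comp d (q + 1) fun ω D => G ω D (F ω D) :=
  h.bind Ω (E d) (E d) q 1 F (fun z D => G z.1 D z.2) hF hG

lemma ev0 {f : Ω → E d} (hf : Measurable f) : Comp d 1 fun ω D => G ω D (f ω) :=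
  ev h hG (h.pure Ω (E d) f hf)

lemma cF1 (p : Par) {w ζ : Ω → E d} (hw : Measurable w) (hζ : Measurable ζ) :
    Comp d p.J fun ω D => F1 p (G ω D) (w ω) (ζ ω) := by
  have := sum h (univ : Finset (Fin p.J))
    (F := fun j ω D => p.om j • G ω D (p.tau j • w ω + sg (p.tau j) • ζ ω))
    fun j => smul h measurable_const (ev0 h hG (by fun_prop))
  rwa [card_univ, Fintype.card_fin] at this

lemma cF2 (p : Par) {w : Ω → E d} {a : Ω → S2 d} (hw : Measurable w) (ha : Measurable a) :
    Comp d (p.J + 2) fun ω D => F2 p (G ω D) (w ω) (a ω) := by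
  have hb : Measurable fun ω => b2 p (w ω) (a ω) := by
    unfold b2
    fun_prop
  have h2 : Measurable fun ω => b2 p (w ω) (a ω) + p.ka • (a ω).2.2.1 := by fun_prop
  have h1 := cF1 h hG p (w := fun ω => (sg p.ka)⁻¹ • b2 p (w ω) (a ω)) (by fun_prop)
    ha.snd.snd.snd
  have h3 := map h h1 (g := fun z => b2 p (w z.1) (a z.1) + p.ka • (a z.1).2.2.1 - z.2)
    ((h2.comp measurable_fst).sub measurable_snd)
  have h4 := smul h ha.fst.fst (sub h (ev h hG h3) (ev0 h hG h2))
  exact h4

lemma cFD (δ : ℝ) {q : ℕ} {x : Ω → E d} {F : Ω → (E d → E d) → E d} (hx : Measurable x)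
    (hF : Comp d q F) : Comp d (q + 2) fun ω D => FD (G ω D) δ (x ω) (F ω D) := by
  have h1 := smul h (c := fun _ => δ⁻¹) measurable_const (sub h (ev h hG (map h hF
    (g := fun z => x z.1 + δ • z.2) (by fun_prop))) (ev0 h hG hx))
  exact h1

lemma cHV (δ : ℝ) {w ξ : Ω → E d} {a : Ω → S3 d} (hw : Measurable w) (ha : Measurable a)
    (hξ : Measurable ξ) : Comp d 4 fun ω D => HV δ (G ω D) (w ω) (a ω) (ξ ω) := by
  have h1 : Measurable fun y => qa ((a y).1.2.1 • w y) (sg (a y).1.2.1) (a y).1.2.2.2 (a y).2 := by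
    unfold qa sg
    fun_prop
  have h2 : Measurable fun y =>
      qb ((a y).1.2.2.1 • w y) (sg (a y).1.2.2.1) (a y).1.2.2.2 (a y).2 := by
    unfold qb sg
    fun_prop
  exact smul h ha.fst.fst (cFD h hG δ h1 (cFD h hG δ h2 (h.pure Ω (E d) ξ hξ)))

lemma cprim (p : Par) (t : ℝ) {s : Ω → Sd d} (hs : Measurable s) :
    Comp d (2 * p.J + 6) fun ω D => prim p (G ω D) t (s ω) := by
  have h1 := cF1 h hG p hs.fst hs.snd.fst.fst
  have h2 := cF2 h hG p hs.fst hs.snd.snd.fst.fst
  have h3 := cHV h hG p.de hs.fst hs.snd.snd.fst.snd hs.snd.fst.snd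
  have h4 := map h (pair h (pair h h1 h2) h3) (g := fun z => (s z.1).1 - z.2.1.1 - z.2.1.2 +
    t • (s z.1).2.1.2 + (2 * t)⁻¹ • z.2.2 + t • (s z.1).2.2.2) (by fun_prop)
  exact h.mono _ _ _ _ _ (by omega) h4

end Algm

open Algm in
theorem stmtAlg (hCmp : StmtCmp) : StmtAlg := by
  intro d p η T
  have h := hCmp d
  have hstp : ∀ a b : ℝ, Comp d (2 * p.J + 19) fun (z : E d × Sd d) D => stp p a b D z.1 z.2 := by
    intro a b
    have hc := ccen h a (Ω := E d × Sd d) measurable_fst 13
    unfold stp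
    split_ifs
    · exact h.mono _ _ _ _ _ (by omega) (map h hc (g := fun z => z.2 + √a • z.1.2.1) (by fun_prop))
    · have hG : One d fun (z : (E d × Sd d) × E d) D => GG a D z.1.1 z.2 :=
        map h (h.ask (((E d × Sd d) × E d) × E d) (fun z => z.1.2 + √a • z.2) (by fun_prop))
          (g := fun z => √a • z.2 + (√a)⁻¹ • (z.1.1.2 - z.1.1.1.1)) (by fun_prop)
      have h1 := map h (cprim h hG p √(b / (2 * a)) (s := fun z => z.1.2) (by fun_prop))
        (g := fun z => z.1.2 + √a • z.2) (by fun_prop)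
      exact h.mono _ _ _ _ _ (by omega) (h.bind _ _ _ _ _ _ _ hc h1)
  induction T with
  | zero => simpa [run] using h.pure (Fin 0 → Sd d) (E d) (fun _ => 0) measurable_const
  | succ T ih =>
    have h1 := h.comap _ (Fin (T + 1) → Sd d) _ _ _ Fin.init
      (measurable_pi_lambda _ fun i => measurable_pi_apply _) ih
    have h2 := h.comap _ ((Fin (T + 1) → Sd d) × E d) _ _ _ (fun z => (z.2, z.1 (Fin.last T)))
      (measurable_snd.prodMk ((measurable_pi_apply _).comp measurable_fst))
      (hstp (η T) (η (T + 1)))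
    rw [Nat.succ_mul]
    exact h.bind _ _ _ _ _ _ _ h1 h2

end Vale.Agent.P347
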