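import Vale.Agent.P347.Spec2
import Vale.Agent.P347.Alg

open MeasureTheory ProbabilityTheory Finset

namespace Vale.Agent.P347

namespace Alg2m
open Algm

variable {d : ℕ} (h : CompApi d) {Ω : Type} [MeasurableSpace Ω]

include h in
lemma sumq {ι : Type} (s : Finset ι) {q : ℕ} {F : ι → Ω → (E d → E d) → E d}
    (hF : ∀ i, Comp d q (F i)) : Comp d (s.card * q) fun ω D => ∑ i ∈ s, F i ω D := by
  classical
  induction s using Finset.induction_on with
  | empty => simpa using h.pure Ω (E d) (fun _ => 0) measurable_const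
  | insert a s ha ih =>
    rw [card_insert_of_notMem ha, Nat.succ_mul, add_comm]
    exact congr h (add h (hF a) ih) fun ω D => by rw [sum_insert ha]

variable {G : Ω → (E d → E d) → E d → E d} (hG : One d G)
include h hG

lemma cF22 (P : Par2) {w : Ω → E d} {z : Ω → E d × E d × E d} (hw : Measurable w)
    (hz : Measurable z) :
    Comp d (P.p.J * (P.p.J + 2)) fun ω D => F22 P (G ω D) (w ω) (z ω) := by
  have := sumq h (univ : Finset (Fin P.p.J))
    (F := fun j ω D => (P.c0 * P.p.om j) • F2 P.p (G ω D) (w ω) ((1, P.c0 * P.p.tau j), z ω))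
    fun j => smul h measurable_const (cF2 h hG P.p hw (measurable_const.prodMk hz))
  rwa [card_univ, Fintype.card_fin] at this

lemma cHV2 {n : ℕ} (δ : ℝ) (nd : Fin n → ℝ × ℝ × ℝ × ℝ) {w ξ : Ω → E d}
    {z : Ω → E d × E d × E d} (hw : Measurable w) (hz : Measurable z) (hξ : Measurable ξ) :
    Comp d (n * 4) fun ω D => HV2 δ nd (G ω D) (w ω) (z ω) (ξ ω) := by
  have := sumq h (univ : Finset (Fin n))
    (F := fun i ω D => HV δ (G ω D) (w ω) (nd i, z ω) (ξ ω))
    fun i => cHV h hG δ hw (measurable_const.prodMk hz) hξ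
  rwa [card_univ, Fintype.card_fin] at this

lemma cprim2 (P : Par2) (t : ℝ) {s : Ω → Td d} (hs : Measurable s) :
    Comp d (P.p.J + P.p.J * (P.p.J + 2) + P.n * 4) fun ω D => prim2 P (G ω D) t (s ω) := by
  have h1 := cF1 h hG P.p hs.fst hs.snd.fst.fst
  have h2 := cF22 h hG P hs.fst hs.snd.snd.fst.fst
  have h3 := cHV2 h hG P.p.de P.nd hs.fst hs.snd.snd.fst.snd hs.snd.fst.snd
  exact map h (pair h (pair h h1 h2) h3) (g := fun z => (s z.1).1 - z.2.1.1 - z.2.1.2 +
    t • (s z.1).2.1.2 + (2 * t)⁻¹ • z.2.2 + t • (s z.1).2.2.2) (by fun_prop)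

end Alg2m

open Algm Alg2m in
theorem stmtAlg2 (hCmp : StmtCmp) : StmtAlg2 := by
  intro d P η T
  have h := hCmp d
  have hstp : ∀ a b : ℝ, Comp d (13 + P.p.J + P.p.J * (P.p.J + 2) + 4 * P.n)
      fun (z : E d × Td d) D => stp2 P a b D z.1 z.2 := by
    intro a b
    have hc := ccen h a (Ω := E d × Td d) measurable_fst 13
    unfold stp2
    split_ifs
    · exact h.mono _ _ _ _ _ (by omega) (map h hc (g := fun z => z.2 + √a • z.1.2.1) (by fun_prop))
    · have hG : One d fun (z : (E d × Td d) × E d) D => GG a D z.1.1 z.2 :=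
        map h (h.ask (((E d × Td d) × E d) × E d) (fun z => z.1.2 + √a • z.2) (by fun_prop))
          (g := fun z => √a • z.2 + (√a)⁻¹ • (z.1.1.2 - z.1.1.1.1)) (by fun_prop)
      have h1 := map h (cprim2 h hG P √(b / (2 * a)) (s := fun z => z.1.2) (by fun_prop))
        (g := fun z => z.1.2 + √a • z.2) (by fun_prop)
      exact h.mono _ _ _ _ _ (by omega) (h.bind _ _ _ _ _ _ _ hc h1)
  induction T with
  | zero => simpa [run] using h.pure (Fin 0 → Td d) (E d) (fun _ => 0) measurable_const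
  | succ T ih =>
    have h1 := h.comap _ (Fin (T + 1) → Td d) _ _ _ Fin.init
      (measurable_pi_lambda _ fun i => measurable_pi_apply _) ih
    have h2 := h.comap _ ((Fin (T + 1) → Td d) × E d) _ _ _ (fun z => (z.2, z.1 (Fin.last T)))
      (measurable_snd.prodMk ((measurable_pi_apply _).comp measurable_fst))
      (hstp (η T) (η (T + 1)))
    rw [Nat.succ_mul]
    exact h.bind _ _ _ _ _ _ _ h1 h2

end Vale.Agent.P347
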