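import Vale.Agent.P347.Spec

open Filter Real Topology

namespace Vale.Agent.P347

namespace Arm

theorem ev (C c : ℝ) (k : ℕ) (hc : 0 < c) :
    ∀ᶠ d : ℕ in atTop, C * (1 + log d) ^ k ≤ (d : ℝ) ^ c := by
  have h := (isLittleO_log_rpow_rpow_atTop (k : ℝ) hc).bound
    (show 0 < 1 / ((|C| + 1) * 2 ^ k) by positivity)
  have h1 : ∀ᶠ x : ℝ in atTop, 1 ≤ log x := tendsto_log_atTop.eventually_ge_atTop 1
  refine tendsto_natCast_atTop_atTop.eventually (p := fun x : ℝ => C * (1 + log x) ^ k ≤ x ^ c) ?_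
  filter_upwards [h, h1, eventually_ge_atTop 0] with x a b e
  rw [rpow_natCast, norm_of_nonneg (by positivity), norm_of_nonneg (by positivity), one_div,
    ← div_eq_inv_mul, le_div_iff₀ (by positivity)] at a
  calc _ ≤ (|C| + 1) * (2 * log x) ^ k := by
        refine mul_le_mul (by linarith [le_abs_self C]) (pow_le_pow_left₀ (by linarith)
          (by linarith) k) (by positivity) (by positivity)
    _ = _ := by ring
    _ ≤ _ := a

end Arm

open Arm in
theorem stmtAr (hTop : StmtTop) : StmtAr := by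
  obtain ⟨C, -, h⟩ := hTop
  have key : ∀ a : ℝ, 3 / 10 < a → ∀ᶠ d : ℕ in atTop, ∃ q : ℕ, (q : ℝ) ≤ (d : ℝ) ^ a ∧ Good d q := by
    intro a ha
    obtain ⟨b, b1, b2, b3⟩ : ∃ b : ℝ, 3 / 10 < b ∧ b < a ∧ b ≤ 1 / 2 :=
      ⟨min ((3 / 10 + a) / 2) (1 / 2), lt_min (by linarith) (by norm_num),
        (min_le_left _ _).trans_lt (by linarith), min_le_right _ _⟩
    filter_upwards [ev C (10 * b - 3) 2 (by linarith), ev C (a - b) 3 (by linarith),
      eventually_ge_atTop 2] with d e1 e2 hd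
    have d1 : (1 : ℝ) ≤ d := by exact_mod_cast (by omega : 1 ≤ d)
    have d0 : (0 : ℝ) < d := by linarith
    obtain ⟨q, q1, q2⟩ := h d ((d : ℝ) ^ (-b)) hd (by positivity)
      (by
        rw [← rpow_natCast, ← rpow_mul d0.le, ← rpow_add_one d0.ne']
        exact one_le_rpow d1 (by push_cast; linarith))
      (by
        have : ((d : ℝ) ^ (-b)) ^ 10 * d ^ 3 = ((d : ℝ) ^ (10 * b - 3))⁻¹ := by
          rw [← rpow_natCast, ← rpow_mul d0.le, ← rpow_natCast, ← rpow_add d0, ← rpow_neg d0.le]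
          congr 1; push_cast; ring
        rw [mul_assoc, this, ← div_eq_mul_inv, div_le_one (by positivity)]
        exact e1)
    refine ⟨q, q1.trans ?_, q2⟩
    rw [div_le_iff₀ (by positivity), ← rpow_add d0]
    exact e2
  refine ⟨key, le_of_forall_gt_imp_ge_of_dense fun a ha => limsup_le_of_le
    (isCoboundedUnder_le_of_le atTop (x := 0) fun d =>
      div_nonneg (log_natCast_nonneg _) (log_natCast_nonneg _)) ?_⟩
  filter_upwards [key a ha, eventually_ge_atTop 2] with d ⟨q, q1, q2⟩ hd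
  have d1 : (1 : ℝ) < d := by exact_mod_cast (by omega : 1 < d)
  have l0 := log_pos d1
  rw [div_le_iff₀ l0, ← log_rpow (by linarith)]
  have : (Q d : ℝ) ≤ (d : ℝ) ^ a := (Nat.cast_le.2 (Nat.sInf_le q2)).trans q1
  rcases Nat.eq_zero_or_pos (Q d) with z | z
  · rw [z, Nat.cast_zero, log_zero]
    exact log_nonneg (one_le_rpow d1.le (by linarith))
  · exact log_le_log (by exact_mod_cast z) this

end Vale.Agent.P347
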