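import Vale.Agent.P347.Inst

open MeasureTheory ProbabilityTheory Finset
open scoped RealInnerProductSpace ENNReal

namespace Vale.Agent.P347

noncomputable section

variable {d : ℕ}

/-! ## Definitions -/

def GPo {X : Type} [NormedAddCommGroup X] [NormedSpace ℝ X] [MeasurableSpace X] (μ : Measure X)
    (c : ℝ) : Prop :=
  ∀ (f : X → ℝ) (K : ℝ), ContDiff ℝ 1 f → LipF K f →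
    ∫ x, f x ^ 2 ∂μ - (∫ x, f x ∂μ) ^ 2 ≤ c * ∫ x, ‖fderiv ℝ f x‖ ^ 2 ∂μ

def Poi (α : Measure (E d)) (L : ℝ) : Prop :=
  IsProbabilityMeasure α ∧ MemLp (fun x : E d => x) 2 α ∧ ∫ x, x ∂α = 0 ∧ GPo α (L ^ 2)

def Fq (B : E d → E d → ℝ) : ℝ := ∑ i, ∑ j, B (ee i) (ee j) ^ 2

/-- squared Frobenius norm -/
def Fo (A : E d →L[ℝ] E d) : ℝ := Fq fun u v => ⟪u, A v⟫

def trc (A : E d →L[ℝ] E d) : ℝ := ∑ i, ⟪ee i, A (ee i)⟫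

def CovF (β : Measure (E d)) : ℝ := Fr (β.map fun x => x - ∫ y, y ∂β) (Measure.dirac 0)

def SS (s : ℝ) (φ : E d → ℝ) (x : E d) : ℝ := ∫ g, φ (x + s • g) ∂gs d
def Si (s : ℝ) (i : Fin d) (φ : E d → ℝ) (x : E d) : ℝ := s⁻¹ * ∫ g, φ (x + s • g) * ⟪ee i, g⟫ ∂gs d
def LG (φ : E d → ℝ) : Prop := Measurable φ ∧ ∃ B : ℝ, ∀ x, |φ x| ≤ B * (1 + ‖x‖)

def Hb (G : E d → E d) (τ : ℝ) (w : E d) : E d →L[ℝ] E d :=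
  ∫ g, fderiv ℝ G (τ • w + sg τ • g) ∂gs d

def OM (τ : ℝ) (D : E d → E d →L[ℝ] E d) (w : E d) : E d →L[ℝ] E d :=
  ∫ g, D (τ • w + sg τ • g) ∂gs d

def HH (G : E d → E d) (a : ℝ × ℝ × ℝ × ℝ) (w : E d) (z : E d × E d × E d) : E d →L[ℝ] E d :=
  a.1 • (fderiv ℝ G (qa (a.2.1 • w) (sg a.2.1) a.2.2.2 z)).comp
    (fderiv ℝ G (qb (a.2.2.1 • w) (sg a.2.2.1) a.2.2.2 z))

def Mh {n : ℕ} (nd : Fin n → ℝ × ℝ × ℝ × ℝ) (G : E d → E d) (w : E d) : E d →L[ℝ] E d :=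
  ∑ i, ∫ z, HH G (nd i) w z ∂g3 d

def HV2 {n : ℕ} (δ : ℝ) (nd : Fin n → ℝ × ℝ × ℝ × ℝ) (G : E d → E d) (w : E d)
    (z : E d × E d × E d) (ξ : E d) : E d := ∑ i, HV δ G w (nd i, z) ξ

def NdOk {n : ℕ} (κ c : ℝ) (nd : Fin n → ℝ × ℝ × ℝ × ℝ) : Prop :=
  ∑ i, |(nd i).1| ≤ c ∧ ∀ i, κ ≤ Real.cos (nd i).2.2.2 ∧
    κ ^ 2 * |(nd i).1| ≤ 2 * sg (nd i).2.1 * sg (nd i).2.2.1

def QOk (δ ρ : ℝ) (N J : ℕ) (om tau : Fin J → ℝ) : Prop :=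
  (∀ j, 0 ≤ om j) ∧ ∑ j, om j ≤ 1 ∧ (∀ j, 0 ≤ tau j ∧ tau j ≤ 1) ∧
    ∀ i : ℕ, i ≤ 1 → ∀ (d : ℕ) (K : ℝ) (Φ : E d → E d), LipF K Φ →
    eLpNorm (fun w => ∑ r ∈ range N, (aw ρ r * (ρ ^ (r + 1)) ^ i) • OU (ρ ^ (r + 1)) Φ w -
      ∑ j, (om j * tau j ^ i) • OU (tau j) Φ w) 2 (gs d) ≤ ENNReal.ofReal δ * eLpNorm Φ 2 (gs d)

structure Reg (d : ℕ) (κ η ρ : ℝ) (N r0 : ℕ) : Prop where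
  d2 : 2 ≤ d
  k0 : 0 < κ
  k1 : κ ≤ 1 / 2
  e0 : 0 < η
  e1 : η ≤ 1 / 2
  r1 : 1 / 2 ≤ ρ
  r2 : ρ < 1
  lo : (ρ ^ r0) ^ 2 ≤ 1 - κ ^ 2
  hi : 1 - 2 * κ ^ 2 ≤ (ρ ^ (r0 + 1)) ^ 2
  hor : (N + 1) * ((1 + ρ) / 2) ^ N ≤ η
  fine : (1 - ρ) * (d : ℝ) ^ 4 ≤ (η * κ ^ 2) ^ 2
  rN : r0 + 1 ≤ N

def Ph (G : E d → E d) (ρ : ℝ) (n : ℕ) (x : E d) : E d := ρ • mA0 G ρ n x + (1 - ρ) • G x

def cv1 (Φ : E d → E d) (ρ : ℝ) (y u v : E d) : ℝ :=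
  Cv ((gs d).map fun g => OU ρ Φ y - Φ (ρ • y + sg ρ • g)) u v

def DP {J : ℕ} (G : E d → E d) (ρ c0 : ℝ) (om tau : Fin J → ℝ) (x : E d) : E d →L[ℝ] E d :=
  ∑ j, (ρ * c0 * (om j * (c0 * tau j))) • Hb G (c0 * tau j) x

def m6 (d : ℕ) : ℝ := √(∫ x, ‖x‖ ^ 6 ∂gs d)

structure Par2 where
  p : Par
  c0 : ℝ
  n : ℕ
  nd : Fin n → ℝ × ℝ × ℝ × ℝ

def F22 (P : Par2) (G : E d → E d) (w : E d) (z : E d × E d × E d) : E d :=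
  ∑ j, (P.c0 * P.p.om j) • F2 P.p G w ((1, P.c0 * P.p.tau j), z)

abbrev Tw (d : ℕ) : Type := (E d × E d) × ((E d × E d × E d) × (E d × E d × E d)) × E d
abbrev Td (d : ℕ) : Type := E d × Tw d

instance cT1 : SecondCountableTopology ((E d × E d × E d) × (E d × E d × E d)) := inferInstance
instance bT1 : BorelSpace ((E d × E d × E d) × (E d × E d × E d)) := inferInstance
instance sT1 : StandardBorelSpace ((E d × E d × E d) × (E d × E d × E d)) := inferInstance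
instance cT2 : SecondCountableTopology (((E d × E d × E d) × (E d × E d × E d)) × E d) := inferInstance
instance bT2 : BorelSpace (((E d × E d × E d) × (E d × E d × E d)) × E d) := inferInstance
instance sT2 : StandardBorelSpace (((E d × E d × E d) × (E d × E d × E d)) × E d) := inferInstance
instance cTw : SecondCountableTopology (Tw d) := inferInstance
instance bTw : BorelSpace (Tw d) := inferInstance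
instance sTw : StandardBorelSpace (Tw d) := inferInstance
instance cTd : SecondCountableTopology (Td d) := inferInstance
instance bTd : BorelSpace (Td d) := inferInstance
instance sTd : StandardBorelSpace (Td d) := inferInstance
instance bETd : BorelSpace (E d × Td d) := inferInstance
instance oTw : OpensMeasurableSpace (Tw d) := inferInstance
instance oTd : OpensMeasurableSpace (Td d) := inferInstance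
instance oETd : OpensMeasurableSpace (E d × Td d) := inferInstance

def primW2 (P : Par2) (G : E d → E d) (t : ℝ) (w : E d) (s : Tw d) : E d :=
  w - F1 P.p G w s.1.1 - F22 P G w s.2.1.1 + t • s.1.2 +
    (2 * t)⁻¹ • HV2 P.p.de P.nd G w s.2.1.2 s.1.2 + t • s.2.2
def prim2 (P : Par2) (G : E d → E d) (t : ℝ) (s : Td d) : E d := primW2 P G t s.1 s.2

def twM (d : ℕ) : Measure (Tw d) := ((gs d).prod (gs d)).prod (((g3 d).prod (g3 d)).prod (gs d))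
def tdM (d : ℕ) : Measure (Td d) := (gs d).prod (twM d)

def bias2 (P : Par2) (G : E d → E d) (ρ : ℝ) (N : ℕ) (w : E d) : E d :=
  mA G ρ N w - m1 P.p G w - ∫ z, F22 P G w z ∂g3 d

/-- Frobenius distance between the true and the computed covariance correction -/
def cer (P : Par2) (G : E d → E d) (ρ : ℝ) (N : ℕ) (w : E d) : ℝ :=
  √(Fq fun u v => Cv (al0 G ρ N w) u v - Cv (be1 P.p G w) u v - ⟪u, Mh P.nd G w v⟫)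

def stp2 (P : Par2) (η η' : ℝ) (D : E d → E d) (y : E d) (s : Td d) : E d :=
  if η' = 0 then cen η D y 13 + √η • s.1
  else cen η D y 13 + √η • prim2 P (GG η D y (cen η D y 13)) √(η' / (2 * η)) s

/-! ## Statements -/

structure SMApi (d : ℕ) : Prop where
  lg : ∀ (s : ℝ) (φ : E d → ℝ), 0 < s → LG φ → LG (SS s φ) ∧ ∀ i, LG (Si s i φ)
  der : ∀ (s : ℝ) (φ : E d → ℝ), 0 < s → LG φ → ∀ x,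
    HasFDerivAt (SS s φ) (∑ i, Si s i φ x • innerSL ℝ (ee i)) x
  cont : ∀ (s : ℝ) (φ : E d → ℝ), 0 < s → LG φ → ∀ i, Continuous (Si s i φ)
  comm : ∀ (s s' : ℝ) (φ : E d → ℝ), 0 < s → 0 < s' → LG φ → ∀ i, Si s i (SS s' φ) = SS s' (Si s i φ)
  semi : ∀ (s s' : ℝ) (φ : E d → ℝ), LG φ → SS s (SS s' φ) = SS √(s ^ 2 + s' ^ 2) φ
  sqi : ∀ (s : ℝ) (φ : E d → ℝ), LG φ → ∀ x, MemLp (fun g => φ (x + s • g)) 2 (gs d)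
  bes : ∀ (s : ℝ) (φ : E d → ℝ), 0 < s → LG φ → ∀ x,
    ∑ i, Si s i φ x ^ 2 ≤ (∫ g, φ (x + s • g) ^ 2 ∂gs d - SS s φ x ^ 2) / s ^ 2
  bd : ∀ (s b : ℝ) (φ : E d → ℝ), 0 < s → Measurable φ → (∀ x, |φ x| ≤ b) →
    (∀ x, |SS s φ x| ≤ b) ∧ (∀ i x, |Si s i φ x| ≤ b / s) ∧ LipF (b / s) (SS s φ)
  lip : ∀ (s K : ℝ) (φ : E d → ℝ), 0 < s → 0 ≤ K → LipF K φ →
    LipF K (SS s φ) ∧ ∀ i, LipF (K / s) (Si s i φ)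
  c1 : ∀ (s K : ℝ) (φ : E d → ℝ), 0 < s → ContDiff ℝ 1 φ → LipF K φ → ∀ i x,
    Si s i φ x = ∫ g, fderiv ℝ φ (x + s • g) (ee i) ∂gs d

def StmtSM : Prop := ∀ d, SMApi d

structure GPApi (d : ℕ) : Prop where
  one : GPo (gs d) 2
  two : ∀ (f : E d → ℝ) (B : ℝ), ContDiff ℝ 1 f → (∀ x, ‖fderiv ℝ f x‖ ≤ B * (1 + ‖x‖)) →
    ∫ x, f x ^ 2 ∂gs d - (∫ x, f x ∂gs d) ^ 2 ≤ 2 * ∫ x, ‖fderiv ℝ f x‖ ^ 2 ∂gs d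
  three : GPo (g3 d) 2
  lipv : ∀ (f : E d → ℝ) (K : ℝ), 0 ≤ K → LipF K f →
    ∫ x, f x ^ 2 ∂gs d - (∫ x, f x ∂gs d) ^ 2 ≤ 2 * K ^ 2

def StmtGP : Prop := ∀ d, GPApi d

def StmtGPN : Prop := ∀ (d N : ℕ) (K : Fin N → ℝ) (F : (Fin N → E d) → E d), (∀ r, 0 ≤ K r) →
  ContDiff ℝ 1 F → (∀ g r x, ‖F (Function.update g r x) - F g‖ ≤ K r * ‖x - g r‖) →
  Poi ((gN d N).map fun g => ∫ y, F y ∂gN d N - F g) √(2 * ∑ r, K r ^ 2)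

structure PoApi (d : ℕ) : Prop where
  push : ∀ (X : Type) [NormedAddCommGroup X] [NormedSpace ℝ X] [MeasurableSpace X] [BorelSpace X]
    (μ : Measure X) [IsProbabilityMeasure μ] (F : X → E d) (L : ℝ), GPo μ 2 → 0 ≤ L →
    ContDiff ℝ 1 F → LipF L F → MemLp F 2 μ →
    Poi (μ.map fun x => ∫ y, F y ∂μ - F x) (2 * L) ∧ Poi (μ.map fun x => F x - ∫ y, F y ∂μ) (2 * L)
  add : ∀ (α β : Measure (E d)) (L L' : ℝ), 0 ≤ L → 0 ≤ L' → Poi α L → Poi β L' →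
    Poi ((α.prod β).map fun p => p.1 + p.2) (L + L') ∧
    ∀ u v, Cv ((α.prod β).map fun p => p.1 + p.2) u v = Cv α u v + Cv β u v
  mono : ∀ (α : Measure (E d)) (L L' : ℝ), 0 ≤ L → L ≤ L' → Poi α L → Poi α L'
  dir : ∀ L : ℝ, Poi (Measure.dirac (0 : E d)) L
  lin : ∀ (B : E d →L[ℝ] E d) (K : ℝ), ‖B‖ ≤ K → Poi ((gs d).map B) (2 * K)
  var : ∀ (α : Measure (E d)) (L : ℝ), Poi α L → ∀ u, Cv α u u ≤ L ^ 2 * ‖u‖ ^ 2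
  m2 : ∀ (α : Measure (E d)) (L : ℝ), Poi α L → ∫ x, ‖x‖ ^ 2 ∂α ≤ L ^ 2 * d
  fr0 : ∀ (α : Measure (E d)) (L : ℝ), Poi α L → Fr α (Measure.dirac 0) ≤ L ^ 2 * ∫ x, ‖x‖ ^ 2 ∂α
  coup : ∀ (Ω : Type) [MeasurableSpace Ω] (P : Measure Ω) (a b : Ω → E d) (L : ℝ), Measurable a →
    Measurable b → Poi (P.map a) L → Poi (P.map b) L →
    Fr (P.map a) (P.map b) ≤ 4 * L ^ 2 * ∫ ω, ‖a ω - b ω‖ ^ 2 ∂P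

def StmtPo : Prop := ∀ d, PoApi d

/-- Stein type estimate -/
def StmtSL : Prop := ∀ (d : ℕ) (α : Measure (E d)) (L : ℝ) (h : Fin d → E d → ℝ)
  (h' : Fin d → Fin d → E d → ℝ) (h'' : Fin d → Fin d → Fin d → E d → ℝ) (B : ℝ), Poi α L →
  (∀ i x, HasFDerivAt (h i) (∑ j, h' i j x • innerSL ℝ (ee j)) x) →
  (∀ i j x, HasFDerivAt (h' i j) (∑ k, h'' i j k x • innerSL ℝ (ee k)) x) →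
  (∀ i j k, Continuous (h'' i j k)) → (∀ i j x, |h' i j x| ≤ B) → (∀ i j k x, |h'' i j k x| ≤ B) →
  |∑ i, ∫ x, ⟪ee i, x⟫ * h i x ∂α - ∑ i, ∑ j, Cv α (ee i) (ee j) * ∫ x, h' i j x ∂α| ≤
    |L| ^ 3 * √d * √(∫ x, ∑ i, ∑ j, ∑ k, h'' i j k x ^ 2 ∂α)

def StmtMM2 : Prop := ∃ C : ℝ, 1 ≤ C ∧ ∀ (d : ℕ) (α β : Measure (E d)) (L t e : ℝ), Poi α L →
  Poi β L → 1 / 2 ≤ t → 0 ≤ e → Fr α β ≤ e ^ 2 → L ^ 6 * d ≤ e ^ 2 → Rel (sm α t) (sm β t) (C * e)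

def StmtWL2 : Prop := ∃ C : ℝ, 1 ≤ C ∧ ∀ (d : ℕ) (α : Measure (E d)) (L κ K : ℝ) (f : E d → ℝ),
  Poi α L → 0 < κ → 0 ≤ K → LipF K f →
  |∫ p, f (p.1 + κ • p.2) ∂α.prod (gs d) - ∫ g, f (κ • g) ∂gs d| ≤ C * K * L ^ 2 * √d / κ

def StmtAS2 : Prop := ∃ C : ℝ, 1 ≤ C ∧ ∀ (d : ℕ) (α β : Measure (E d)) (M : E d →L[ℝ] E d)
  (L t e : ℝ), 0 ≤ L → L ≤ 1 / 4 → Poi α L → Poi β L → 1 / 2 ≤ t → t ≤ 1 → ‖M‖ ≤ 2 * L ^ 2 → 0 ≤ e →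
  (Fq fun u v => Cv α u v - Cv β u v - ⟪u, M v⟫) ≤ e ^ 2 → L ^ 6 * d ≤ e ^ 2 →
  Rel (sm α (√2 * t))
    (sm ((β.prod (gs d)).map fun p => p.1 + t • p.2 + (2 * t)⁻¹ • M p.2) t) (C * e)

def StmtL2b : Prop := ∃ C : ℝ, 1 ≤ C ∧ ∀ (d : ℕ) (β : Measure (E d)) [IsProbabilityMeasure β]
  (x0 : E d) (t : ℝ), 1 / 2 ≤ t → (∀ᵐ x ∂β, ‖x - ∫ y, y ∂β‖ ≤ 1) →
  Rel (sm (Measure.dirac x0) t) (sm β t) (C * (‖∫ x, x ∂β - x0‖ + √(CovF β)))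

def StmtAa2 : Prop := ∀ (d : ℕ) (ε ρ : ℝ) (G : E d → E d), 0 ≤ ε → ε ≤ 1 / 4 → Nice ε G →
  (1 / 2 ≤ ρ → ρ < 1 → ∀ N w, Poi (alA G ρ N w) (4 * ε) ∧ Poi (al0 G ρ N w) (4 * ε)) ∧
  ∀ p : Par, p.Ok → ∀ w, Poi (be1 p G w) (4 * ε)

structure HbApi (ε : ℝ) (G : E d → E d) : Prop where
  der : ∀ τ w, HasFDerivAt (OU τ G) (τ • Hb G τ w) w
  cont : ∀ τ, Continuous (Hb G τ)
  nrm : ∀ τ w, ‖Hb G τ w‖ ≤ ε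
  sym : ∀ τ w u v, ⟪Hb G τ w u, v⟫ = ⟪u, Hb G τ w v⟫
  one : ∀ w, Hb G 1 w = fderiv ℝ G w
  semi : ∀ τ τ' w, τ ^ 2 ≤ 1 → τ' ^ 2 ≤ 1 → OM τ (Hb G τ') w = Hb G (τ * τ') w
  flip : ∀ τ x y, τ ^ 2 ≤ 1 → sg τ ^ 2 * Fo (Hb G τ x - Hb G τ y) ≤ ε ^ 2 * ‖x - y‖ ^ 2
  flip' : ∀ (σ : ℝ) (x y : E d), σ ^ 2 * Fo (∫ g, fderiv ℝ G (x + σ • g) ∂gs d -
    ∫ g, fderiv ℝ G (y + σ • g) ∂gs d) ≤ ε ^ 2 * ‖x - y‖ ^ 2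

def StmtHb : Prop := ∀ (d : ℕ) (ε : ℝ) (G : E d → E d), 0 ≤ ε → Nice ε G → HbApi ε G

structure FoApi (d : ℕ) : Prop where
  col : ∀ A : E d →L[ℝ] E d, Fo A = ∑ k, ‖A (ee k)‖ ^ 2
  op : ∀ A : E d →L[ℝ] E d, ‖A‖ ^ 2 ≤ Fo A
  dim : ∀ A : E d →L[ℝ] E d, Fo A ≤ d * ‖A‖ ^ 2
  adj : ∀ A : E d →L[ℝ] E d, Fo (ContinuousLinearMap.adjoint A) = Fo A
  left : ∀ A B : E d →L[ℝ] E d, Fo (A.comp B) ≤ ‖A‖ ^ 2 * Fo B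
  right : ∀ A B : E d →L[ℝ] E d, Fo (A.comp B) ≤ Fo A * ‖B‖ ^ 2
  tri : ∀ B B' : E d → E d → ℝ, √(Fq fun u v => B u v + B' u v) ≤ √(Fq B) + √(Fq B')
  smul : ∀ (c : ℝ) (B : E d → E d → ℝ), √(Fq fun u v => c * B u v) = |c| * √(Fq B)
  sum : ∀ (ι : Type) (s : Finset ι) (B : ι → E d → E d → ℝ),
    √(Fq fun u v => ∑ i ∈ s, B i u v) ≤ ∑ i ∈ s, √(Fq (B i))
  jen : ∀ (Ω : Type) [MeasurableSpace Ω] (μ : Measure Ω) (B : Ω → E d → E d → ℝ),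
    (∀ u v, Integrable (fun ω => B ω u v) μ) →
    √(Fq fun u v => ∫ ω, B ω u v ∂μ) ≤ ∫ ω, √(Fq (B ω)) ∂μ
  trcs : ∀ A B : E d →L[ℝ] E d, |trc (A.comp B)| ≤ √(Fo A) * √(Fo B)
  trcc : ∀ A B : E d →L[ℝ] E d, trc (A.comp B) = trc (B.comp A)
  gau : ∀ A : E d →L[ℝ] E d, ∫ x, ‖A x‖ ^ 2 ∂gs d = Fo A
  quart : ∀ A : E d →L[ℝ] E d, ∫ x, ⟪x, A x⟫ ^ 2 ∂gs d ≤ trc A ^ 2 + 8 * Fo A

def StmtFo : Prop := ∀ d, FoApi d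

def StmtIde2 : Prop := ∀ (d : ℕ) (B κ η δ : ℝ), 2 ≤ d → 0 < κ → κ ≤ 1 / 2 → 0 < η → η ≤ 1 / 2 →
  0 < δ → ∃ (ρ : ℝ) (N r0 : ℕ), Reg d κ η ρ N r0 ∧ ∀ (W : E d → ℝ) (G : E d → E d), Pot W G →
  LipF (1 / 2) G → ‖G 0‖ ≤ B → IsProbabilityMeasure (mu W) ∧
  ∀ (l : ℝ) (ψ : E d → ℝ), 0 ≤ l → LipF l ψ → (∃ b, ∀ x, |ψ x| ≤ b) →
    |∫ x, ψ x ∂ch G ρ N - ∫ x, ψ x ∂mu W| ≤ l * δ

def StmtQuad2 : Prop := ∃ C : ℝ, 1 ≤ C ∧ ∀ (δ ρ : ℝ) (N : ℕ), 0 < δ → δ ≤ 1 / 2 → 1 / 2 ≤ ρ → ρ < 1 →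
  ∃ (J : ℕ) (om tau : Fin J → ℝ), (J : ℝ) ≤ C * (1 + Real.log δ⁻¹) ^ 2 ∧ QOk δ ρ N J om tau

def StmtGamH : Prop := ∀ (d : ℕ) (ε ρ : ℝ) (G : E d → E d), 1 ≤ d → 0 ≤ ε → ε ≤ 1 / 4 → 1 / 2 ≤ ρ →
  ρ < 1 → Nice ε G → ∀ n m : ℕ,
  eLpNorm (fun w => Gam G ρ n w - G w) 2 (gs d) ≤ ENNReal.ofReal (4 * ε ^ 2 * √d) ∧
  eLpNorm (fun w => Gam G ρ n w - Gam G ρ (n + m) w) 2 (gs d) ≤
    ENNReal.ofReal (4 * ε ^ 2 * √d * ((1 + ρ) / 2) ^ n)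

def StmtB2a2 : Prop := ∃ C : ℝ, 1 ≤ C ∧ ∀ (d : ℕ) (ε ρ τ : ℝ) (G : E d → E d) (p : Par) (n : ℕ),
  1 ≤ d → 0 < ε → ε ≤ 1 / 4 → 1 / 2 ≤ ρ → ρ < 1 → Nice ε G → p.Ok → 0 < p.ka → p.ka ≤ 1 / 2 →
  0 ≤ τ → τ ^ 2 ≤ 1 - p.ka ^ 2 →
  eLpNorm (fun w => OU τ (Gam G ρ n) w - OU τ G w - ∫ z, F2 p G w ((1, τ), z) ∂g3 d) 2 (gs d) ≤
    ENNReal.ofReal (C * (ε ^ 2 * p.ka * √d + ε ^ 3 * √d / p.ka)) +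
      ENNReal.ofReal ε * eLpNorm (fun w => mA G ρ n w - m1 p G w) 2 (gs d)

def StmtB22 : Prop := ∃ C : ℝ, 1 ≤ C ∧ ∀ (d : ℕ) (ε η ρ δ : ℝ) (G : E d → E d) (P : Par2) (N r0 : ℕ),
  0 < ε → ε ≤ 1 / 4 → Nice ε G → Reg d P.p.ka η ρ N r0 → P.c0 = ρ ^ r0 → 0 ≤ δ →
  QOk δ ρ N P.p.J P.p.om P.p.tau →
  Measurable (bias2 P G ρ N) ∧ eLpNorm (bias2 P G ρ N) 2 (gs d) ≤
    ENNReal.ofReal (C * (ε ^ 2 * P.p.ka * √d + ε ^ 3 * √d / P.p.ka + δ * ε * √d + η * ε ^ 2 * √d))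

def StmtIBP2 : Prop := ∀ (d : ℕ) (B : ℝ) (F : E d → ℝ) (v : E d), ContDiff ℝ 1 F →
  (∀ x, |F x| ≤ B * (1 + ‖x‖) ^ 2) → (∀ x, ‖fderiv ℝ F x‖ ≤ B * (1 + ‖x‖) ^ 2) →
  ∫ x, ⟪v, x⟫ * F x ∂gs d = ∫ x, fderiv ℝ F x v ∂gs d

/-- second moment of the Gaussian divergence -/
def StmtDV0 : Prop := ∀ (d : ℕ) (K : ℝ) (u : E d → E d), ContDiff ℝ 1 u → LipF K u →
  ∫ z, (⟪z, u z⟫ - trc (fderiv ℝ u z)) ^ 2 ∂gs d ≤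
    ∫ z, ‖u z‖ ^ 2 ∂gs d + ∫ z, Fo (fderiv ℝ u z) ∂gs d

def StmtDV : Prop := ∀ (d : ℕ) (ε : ℝ) (F : E d → E d) (A : E d →L[ℝ] E d), 0 ≤ ε →
  ContDiff ℝ 1 F → LipF ε F →
  ∫ z, trc (A.comp (fderiv ℝ F z)) ^ 2 ∂gs d - (∫ z, trc (A.comp (fderiv ℝ F z)) ∂gs d) ^ 2 ≤
    30 * ε ^ 2 * Fo A

def StmtVT : Prop := ∃ C : ℝ, 1 ≤ C ∧ ∀ (d : ℕ) (ε κ : ℝ) (G : E d → E d) (a : ℝ × ℝ × ℝ × ℝ)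
  (w : E d) (A : E d →L[ℝ] E d), 0 ≤ ε → Nice ε G → 0 < κ → κ ≤ Real.cos a.2.2.2 →
  ∫ z, trc (A.comp (HH G a w z)) ^ 2 ∂g3 d - (∫ z, trc (A.comp (HH G a w z)) ∂g3 d) ^ 2 ≤
    C * a.1 ^ 2 * ε ^ 4 * Fo A / κ ^ 2

def StmtHN0 : Prop := ∃ C : ℝ, 1 ≤ C ∧ ∀ (d : ℕ) (ε κ : ℝ) (G : E d → E d) (a : ℝ × ℝ × ℝ × ℝ)
  (w : E d), 0 ≤ ε → Nice ε G → 0 < κ → κ ≤ Real.cos a.2.2.2 →
  Measurable (fun ξ => CovF ((g3 d).map fun z => HH G a w z ξ)) ∧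
  eLpNorm (fun ξ => √(CovF ((g3 d).map fun z => HH G a w z ξ))) 2 (gs d) ≤
    ENNReal.ofReal (C * a.1 ^ 2 * ε ^ 4 * √d / κ)

structure CvApi (d : ℕ) : Prop where
  dual : ∀ (β : Measure (E d)) [IsProbabilityMeasure β], MemLp (fun x : E d => x) 2 β →
    ∃ A : E d →L[ℝ] E d, (∀ u v, ⟪A u, v⟫ = ⟪u, A v⟫) ∧ (∀ u, 0 ≤ ⟪u, A u⟫) ∧ Fo A ≤ 1 ∧
      √(CovF β) = ∫ x, ⟪x, A x⟫ ∂β - ⟪∫ x, x ∂β, A (∫ x, x ∂β)⟫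
  le : ∀ (β : Measure (E d)) [IsProbabilityMeasure β] (A : E d →L[ℝ] E d),
    MemLp (fun x : E d => x) 2 β → Fo A ≤ 1 →
    ∫ x, ⟪x, A x⟫ ∂β - ⟪∫ x, x ∂β, A (∫ x, x ∂β)⟫ ≤ √(CovF β)
  sum : ∀ (Ω : Type) [MeasurableSpace Ω] (P : Measure Ω) [IsProbabilityMeasure P] (n : ℕ)
    (X : Fin n → Ω → E d), (∀ i, Measurable (X i)) → (∀ i, MemLp (X i) 2 P) →
    √(√(CovF (P.map fun ω => ∑ i, X i ω))) ≤ ∑ i, √(√(CovF (P.map (X i))))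
  two : ∀ (β : Measure (E d)) [IsProbabilityMeasure β], MemLp (fun x : E d => x) 2 β →
    CovF β = ∫ p, ⟪p.1 - ∫ y, y ∂β, p.2 - ∫ y, y ∂β⟫ ^ 2 ∂β.prod β
  meas : ∀ (Ω T : Type) [MeasurableSpace Ω] [MeasurableSpace T] (P : Measure Ω)
    [IsProbabilityMeasure P] (X : T × Ω → E d), Measurable X →
    Measurable fun τ => CovF (P.map fun ω => X (τ, ω))
  aff : ∀ (β : Measure (E d)) [IsProbabilityMeasure β] (x0 : E d) (c : ℝ),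
    MemLp (fun x : E d => x) 2 β → √(CovF (β.map fun x => x0 + c • x)) = c ^ 2 * √(CovF β)

def StmtCv : Prop := ∀ d, CvApi d

def StmtHN1 : Prop := ∃ C : ℝ, 1 ≤ C ∧ ∀ (d : ℕ) (ε κ δ : ℝ) (G : E d → E d) (a : ℝ × ℝ × ℝ × ℝ)
  (w ξ : E d), 0 ≤ ε → ε ≤ 1 → Nice ε G → 0 < κ → 0 < δ → κ ≤ Real.cos a.2.2.2 →
  κ ^ 2 * |a.1| ≤ 2 * sg a.2.1 * sg a.2.2.1 →
  ‖∫ z, HV δ G w (a, z) ξ ∂g3 d - (∫ z, HH G a w z ∂g3 d) ξ‖ ≤ C * δ * ‖ξ‖ ^ 2 / κ ^ 3 ∧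
  √(CovF ((g3 d).map fun z => HV δ G w (a, z) ξ)) ≤
    √(CovF ((g3 d).map fun z => HH G a w z ξ)) + C * |a.1| * δ * ‖ξ‖ ^ 3 / κ ^ 3

def StmtHN : Prop := ∃ C : ℝ, 1 ≤ C ∧ ∀ (d n : ℕ) (ε κ δ : ℝ) (G : E d → E d)
  (nd : Fin n → ℝ × ℝ × ℝ × ℝ) (w : E d), 0 ≤ ε → ε ≤ 1 → Nice ε G → 0 < κ → 0 < δ → NdOk κ 3 nd →
  ‖Mh nd G w‖ ≤ 3 * ε ^ 2 ∧ (∀ z ξ, ‖HV2 δ nd G w z ξ‖ ≤ 3 * ε ^ 2 * ‖ξ‖) ∧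
  (∀ ξ, ‖∫ z, HV2 δ nd G w z ξ ∂g3 d - Mh nd G w ξ‖ ≤ C * n * δ * ‖ξ‖ ^ 2 / κ ^ 3) ∧
  Measurable (fun ξ => CovF ((g3 d).map fun z => HV2 δ nd G w z ξ)) ∧
  eLpNorm (fun ξ => √(CovF ((g3 d).map fun z => HV2 δ nd G w z ξ))) 2 (gs d) ≤
    ENNReal.ofReal (C * (ε ^ 4 * √d / κ + n * δ * m6 d / κ ^ 3))

def StmtCovR : Prop := ∀ (d : ℕ) (ε ρ : ℝ) (G : E d → E d), 1 ≤ d → 0 ≤ ε → ε ≤ 1 / 4 → 1 / 2 ≤ ρ →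
  ρ < 1 → Nice ε G → ∀ u v : E d,
  (∀ n, Continuous (fun y => cv1 (Ph G ρ n) ρ y u v) ∧ ∃ b, ∀ y, |cv1 (Ph G ρ n) ρ y u v| ≤ b) ∧
  ∀ (N : ℕ) (w : E d), Cv (al0 G ρ N w) u v = ∑ k ∈ range N, (ρ ^ k) ^ 2 *
    ∫ g, cv1 (Ph G ρ (N - 1 - k)) ρ (ρ ^ k • w + sg (ρ ^ k) • g) u v ∂gs d

def StmtDPh : Prop := ∃ C : ℝ, 1 ≤ C ∧ ∀ (d : ℕ) (ε κ η ρ δ : ℝ) (G : E d → E d) (N r0 J : ℕ)
  (om tau : Fin J → ℝ), 0 ≤ ε → ε ≤ 1 / 4 → Nice ε G → Reg d κ η ρ N r0 → 0 ≤ δ →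
  QOk δ ρ N J om tau →
  (∀ x, ‖DP G ρ (ρ ^ r0) om tau x‖ ≤ ε) ∧ LipF (ε / κ) (DP G ρ (ρ ^ r0) om tau) ∧
  (∀ x u v, ⟪DP G ρ (ρ ^ r0) om tau x u, v⟫ = ⟪u, DP G ρ (ρ ^ r0) om tau x v⟫) ∧
  ∀ n, n ≤ N → ContDiff ℝ 1 (Ph G ρ n) ∧ LipF (2 * ε) (Ph G ρ n) ∧
    eLpNorm (fun x => √(Fo (fderiv ℝ (Ph G ρ n) x - DP G ρ (ρ ^ r0) om tau x))) 2 (gs d) ≤
      ENNReal.ofReal (C * ε * √d * (κ ^ 2 + δ + ρ ^ n))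

def StmtCov1 : Prop := ∃ C : ℝ, 1 ≤ C ∧ ∀ (d : ℕ) (ε Λ ρ b : ℝ) (Φ : E d → E d)
  (D : E d → E d →L[ℝ] E d), 0 ≤ ε → 0 ≤ Λ → 0 ≤ b → ρ ^ 2 ≤ 1 → ContDiff ℝ 1 Φ → LipF (2 * ε) Φ →
  (∀ x, ‖D x‖ ≤ ε) → LipF Λ D → (∀ x u v, ⟪D x u, v⟫ = ⟪u, D x v⟫) →
  eLpNorm (fun x => √(Fo (fderiv ℝ Φ x - D x))) 2 (gs d) ≤ ENNReal.ofReal b →
  eLpNorm (fun y => √(Fq fun u v => cv1 Φ ρ y u v -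
      (1 - ρ ^ 2) * ⟪u, OM ρ (fun x => (D x).comp (D x)) y v⟫)) 2 (gs d) ≤
    ENNReal.ofReal (C * (1 - ρ ^ 2) * ε * (b + Λ * sg ρ * d))

def StmtMQA1 : Prop := ∃ C : ℝ, 1 ≤ C ∧ ∀ (d : ℕ) (ε κ η ρ δ : ℝ) (G : E d → E d) (N r0 J : ℕ)
  (om tau : Fin J → ℝ), 0 ≤ ε → ε ≤ 1 / 4 → Nice ε G → Reg d κ η ρ N r0 → 0 ≤ δ →
  QOk δ ρ N J om tau →
  eLpNorm (fun w => √(Fq fun u v => Cv (al0 G ρ N w) u v - ∑ i, (1 + ρ) / ρ * (om i * tau i) *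
      ⟪u, OM (tau i) (fun x => (DP G ρ (ρ ^ r0) om tau x).comp (DP G ρ (ρ ^ r0) om tau x)) w v⟫))
    2 (gs d) ≤ ENNReal.ofReal (C * ε ^ 2 * √d * (κ ^ 2 + δ + η))

def StmtKH : Prop := ∀ β α α' κ : ℝ, 0 ≤ β → β ≤ 1 → 0 ≤ α → 0 ≤ α' → 0 < κ → α ^ 2 ≤ 1 - κ ^ 2 →
  α' ^ 2 ≤ 1 - κ ^ 2 → ∃ θ : ℝ, κ ≤ Real.cos θ ∧ κ ≤ sg (β * α) ∧ κ ≤ sg (β * α') ∧
    ∀ (d : ℕ) (ε : ℝ) (G : E d → E d), 0 ≤ ε → Nice ε G → ∀ (c : ℝ) (w : E d),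
    ∫ z, HH G (c, β * α, β * α', θ) w z ∂g3 d = c • OM β (fun x => (Hb G α x).comp (Hb G α' x)) w

def StmtMQA : Prop := ∃ C : ℝ, 1 ≤ C ∧ ∀ (d : ℕ) (κ η ρ δ : ℝ) (N r0 J : ℕ) (om tau : Fin J → ℝ),
  Reg d κ η ρ N r0 → 0 ≤ δ → QOk δ ρ N J om tau →
  ∃ nd : Fin (J ^ 3) → ℝ × ℝ × ℝ × ℝ, NdOk κ 2 nd ∧ ∀ (ε : ℝ) (G : E d → E d), 0 ≤ ε → ε ≤ 1 / 4 →
    Nice ε G → eLpNorm (fun w => √(Fq fun u v => Cv (al0 G ρ N w) u v - ⟪u, Mh nd G w v⟫)) 2 (gs d) ≤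
      ENNReal.ofReal (C * ε ^ 2 * √d * (κ ^ 2 + δ + η))

def StmtMQB1 : Prop := ∃ C : ℝ, 1 ≤ C ∧ ∀ (d : ℕ) (ε κ η ρ δ : ℝ) (G : E d → E d) (N r0 J : ℕ)
  (om tau : Fin J → ℝ) (x x' : E d) (s s' : ℝ), 0 ≤ ε → Nice ε G → Reg d κ η ρ N r0 → 0 ≤ δ →
  QOk δ ρ N J om tau →
  √(Fq fun u v => (∫ φ in (0 : ℝ)..(Real.pi / 2), 2 * Real.sin φ * Real.cos φ * hh G u v x x' s s' φ) -
      ∑ i, (ρ ^ r0) ^ 2 * om i * hh G u v x x' s s' (Real.arcsin √((ρ ^ r0) ^ 2 * tau i))) ≤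
    C * ε ^ 2 * √d * (κ ^ 2 + δ + η)

def StmtMQB : Prop := ∃ C : ℝ, 1 ≤ C ∧ ∀ (d : ℕ) (κ η ρ δ : ℝ) (N r0 : ℕ) (p : Par),
  Reg d κ η ρ N r0 → 0 ≤ δ → QOk δ ρ N p.J p.om p.tau →
  ∃ nd : Fin (p.J ^ 3) → ℝ × ℝ × ℝ × ℝ, NdOk κ 1 nd ∧ ∀ (ε : ℝ) (G : E d → E d), 0 ≤ ε →
    Nice ε G → ∀ w, √(Fq fun u v => Cv (be1 p G w) u v + ⟪u, Mh nd G w v⟫) ≤
      C * ε ^ 2 * √d * (κ ^ 2 + δ + η)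

def StmtMQ : Prop := ∃ C : ℝ, 1 ≤ C ∧ ∀ (d : ℕ) (η ρ δ c0 : ℝ) (N r0 : ℕ) (p : Par),
  Reg d p.ka η ρ N r0 → 0 ≤ δ → QOk δ ρ N p.J p.om p.tau →
  ∃ nd : Fin (p.J ^ 3 + p.J ^ 3) → ℝ × ℝ × ℝ × ℝ, NdOk p.ka 3 nd ∧ ∀ (ε de : ℝ) (G : E d → E d),
    0 ≤ ε → ε ≤ 1 / 4 → Nice ε G →
    Measurable (cer ⟨{ p with de := de }, c0, _, nd⟩ G ρ N) ∧
    eLpNorm (cer ⟨{ p with de := de }, c0, _, nd⟩ G ρ N) 2 (gs d) ≤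
      ENNReal.ofReal (C * ε ^ 2 * √d * (p.ka ^ 2 + δ + η))

def StmtMeas2 : Prop := ∀ (d : ℕ) (P : Par2),
  (∀ (G : E d → E d), Continuous G →
    (Continuous fun q : E d × (E d × E d × E d) => F22 P G q.1 q.2) ∧
    (∀ w, Continuous fun q : (E d × E d × E d) × E d => HV2 P.p.de P.nd G w q.1 q.2) ∧
    ∀ t, Continuous (prim2 P G t) ∧ ∀ w, Continuous (primW2 P G t w)) ∧
  ∀ (η η' : ℝ) (D : E d → E d), Continuous D → Continuous fun q : E d × Td d => stp2 P η η' D q.1 q.2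

def StmtF2N : Prop := ∃ C : ℝ, 1 ≤ C ∧ ∀ (d : ℕ) (ε t : ℝ) (G : E d → E d) (P : Par2) (w x0 : E d),
  1 ≤ d → 0 ≤ ε → ε ≤ 1 / 4 → Nice ε G → P.p.Ok → 0 ≤ P.p.ka → P.p.ka ≤ 1 / 2 → 0 ≤ P.c0 → P.c0 ≤ 1 →
  1 / 2 ≤ t →
  Rel (sm (Measure.dirac (x0 - ∫ z, F22 P G w z ∂g3 d)) t)
    (sm ((g3 d).map fun z => x0 - F22 P G w z) t) (C * ε ^ 3 * (√d + ‖w‖))

def StmtPA02 : Prop := ∃ C : ℝ, 1 ≤ C ∧ ∀ (d : ℕ) (ε t : ℝ) (G : E d → E d) (P : Par2) (w m : E d),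
  1 ≤ d → 0 ≤ ε → ε ≤ 1 / 4 → C * ε ^ 4 * d ≤ 1 → Nice ε G → P.p.Ok → 0 < P.p.ka → P.p.ka ≤ 1 / 2 →
  0 < P.p.de → 0 ≤ P.c0 → P.c0 ≤ 1 → NdOk P.p.ka 3 P.nd → 1 / 2 ≤ t → t ≤ 1 →
  Rel ((sm (((be1 P.p G w).prod (gs d)).map fun q =>
      q.1 + t • q.2 + (2 * t)⁻¹ • Mh P.nd G w q.2) t).map fun x => w - m + x)
    ((twM d).map (primW2 P G t w))
    (C * (‖m - m1 P.p G w - ∫ z, F22 P G w z ∂g3 d‖ + ε ^ 3 * (√d + ‖w‖) + ε ^ 4 * √d / P.p.ka +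
      P.n * P.p.de * (d + m6 d) / P.p.ka ^ 3))

def StmtPA12 : Prop := ∃ C : ℝ, 1 ≤ C ∧ ∀ (d : ℕ) (ε ρ t : ℝ) (G : E d → E d) (P : Par2) (N : ℕ)
  (w : E d), 1 ≤ d → 0 ≤ ε → C * ε ^ 4 * d ≤ 1 → 1 / 2 ≤ ρ → ρ < 1 → Nice ε G → P.p.Ok →
  0 < P.p.ka → P.p.ka ≤ 1 / 2 → 0 < P.p.de → 0 ≤ P.c0 → P.c0 ≤ 1 → NdOk P.p.ka 3 P.nd →
  1 / 2 ≤ t → t ≤ 1 →
  Rel (((gN d N).prod (gs d)).map fun q => w - AA G ρ N w q.1 + (√2 * t) • q.2)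
    ((twM d).map (primW2 P G t w))
    (C * (ε * √(DD G ρ N w) + cer P G ρ N w + ‖bias2 P G ρ N w‖ + ε ^ 3 * (√d + ‖w‖) +
      ε ^ 4 * √d / P.p.ka + P.n * P.p.de * (d + m6 d) / P.p.ka ^ 3))

def StmtPrim2 : Prop := ∃ C : ℝ, 1 ≤ C ∧ ∀ (d : ℕ) (ε e : ℝ), 2 ≤ d → 0 < ε → 1 ≤ ε ^ 2 * d →
  C * ε ^ 4 * d ≤ 1 → 0 < e → ε ^ 5 * d ≤ e ^ 2 →
  ∃ P : Par2, (P.p.J : ℝ) ≤ C * (1 + Real.log d) ^ 2 ∧ P.n ≤ 2 * P.p.J ^ 3 ∧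
    ∀ (t : ℝ) (W : E d → ℝ) (G : E d → E d), 1 / 2 ≤ t → t ≤ 1 → Pot W G → Nice ε G →
      Rel (sm (mu W) (√2 * t)) ((tdM d).map (prim2 P G t)) (C * e)

def StmtAlg2 : Prop := ∀ (d : ℕ) (P : Par2) (η : ℕ → ℝ) (T : ℕ),
  Comp d (T * (13 + P.p.J + P.p.J * (P.p.J + 2) + 4 * P.n)) fun (ω : Fin T → Td d) D =>
    run (0 : E d) (fun t q => stp2 P (η t) (η (t + 1)) D q.1 q.2) T ω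

def StmtTop2 : Prop := ∃ C : ℝ, 1 ≤ C ∧ ∀ (d : ℕ) (ε : ℝ), 2 ≤ d → 0 < ε → 1 ≤ ε ^ 2 * d →
  C * (1 + Real.log d) ^ 2 * ε ^ 8 * d ^ 2 ≤ 1 →
  ∃ q : ℕ, (q : ℝ) ≤ C * (1 + Real.log d) ^ 7 / ε ∧ Good d q

def StmtAr2 : Prop := (∀ a : ℝ, 1 / 4 < a → ∀ᶠ d : ℕ in Filter.atTop,
    ∃ q : ℕ, (q : ℝ) ≤ (d : ℝ) ^ a ∧ Good d q) ∧
  Filter.limsup (fun d : ℕ => Real.log (Q d) / Real.log d) Filter.atTop ≤ 1 / 4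

end

end Vale.Agent.P347
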