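import Vale.Agent.P347.Ar
import Vale.Agent.P347.Spec2

open Filter Real Topology

namespace Vale.Agent.P347

open Arm in
theorem ar3 (hTop : StmtTop2) : ∃ C : ℝ, ∀ᶠ d : ℕ in atTop,
    ∃ q : ℕ, (q : ℝ) ≤ C * (d : ℝ) ^ (1 / 4 : ℝ) * Real.log d ^ 8 ∧ Good d q := by
  obtain ⟨C, C1, h⟩ := hTop
  refine ⟨256 * C ^ 2, ?_⟩
  filter_upwards [ev C (1 / 4) 1 (by norm_num), eventually_ge_atTop 3] with d e1 hd
  have d3 : (3 : ℝ) ≤ d := by exact_mod_cast hd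
  have d0 : (0 : ℝ) < d := by linarith
  have l1 : 1 ≤ Real.log d := by
    rw [le_log_iff_exp_le d0]
    exact (exp_one_lt_d9.le.trans (by norm_num)).trans d3
  set x : ℝ := (d : ℝ) ^ (1 / 4 : ℝ) with hx
  have x0 : 0 < x := by positivity
  have x4 : x ^ 4 = d := by
    rw [hx, ← rpow_natCast, ← rpow_mul d0.le]; norm_num
  set L : ℝ := 1 + Real.log d with hL
  have L1 : 1 ≤ L := by linarith
  rw [pow_one] at e1
  have P1 : 1 ≤ C * L := one_le_mul_of_one_le_of_one_le C1 L1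
  have k1 : 1 ≤ (C * L * x)⁻¹ ^ 2 * x ^ 4 := by
    rw [inv_pow, ← div_eq_inv_mul, one_le_div (by positivity)]
    calc (C * L * x) ^ 2 ≤ (x * x) ^ 2 := by gcongr
      _ = x ^ 4 := by ring
  have k2 : C * L ^ 2 * (C * L * x)⁻¹ ^ 8 * (x ^ 4) ^ 2 ≤ 1 := by
    rw [inv_pow, mul_assoc, ← div_eq_inv_mul, ← mul_div_assoc, div_le_one (by positivity)]
    have a1 : C * L ^ 2 ≤ (C * L) ^ 2 := by
      rw [mul_pow]
      exact mul_le_mul_of_nonneg_right (by nlinarith) (sq_nonneg L)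
    have a2 : (C * L) ^ 2 ≤ (C * L) ^ 8 := pow_le_pow_right₀ P1 (by norm_num)
    calc C * L ^ 2 * (x ^ 4) ^ 2 ≤ (C * L) ^ 8 * (x ^ 4) ^ 2 :=
          mul_le_mul_of_nonneg_right (a1.trans a2) (by positivity)
      _ = _ := by ring
  rw [x4] at k1 k2
  obtain ⟨q, q1, q2⟩ := h d (C * L * x)⁻¹ (by omega) (by positivity) k1 k2
  refine ⟨q, q1.trans ?_, q2⟩
  rw [div_inv_eq_mul]
  have a3 : L ^ 8 ≤ (2 * Real.log d) ^ 8 := by gcongr; linarith
  calc C * L ^ 7 * (C * L * x) = C ^ 2 * x * L ^ 8 := by ring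
    _ ≤ C ^ 2 * x * (2 * Real.log d) ^ 8 := by gcongr
    _ = _ := by ring

end Vale.Agent.P347
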