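import Vale.Agent.P347.Spec

open MeasureTheory ProbabilityTheory Finset
open scoped RealInnerProductSpace ENNReal

namespace Vale.Agent.P347

namespace B2m

variable {d : ℕ}

def Bd (f : E d → E d) (a : ℝ) : Prop :=
  Measurable f ∧ 0 ≤ a ∧ eLpNorm f 2 (gs d) ≤ ENNReal.ofReal a

theorem Bd.add {f g : E d → E d} {a b : ℝ} (h : Bd f a) (k : Bd g b) :
    Bd (fun w => f w + g w) (a + b) :=
  ⟨h.1.add k.1, add_nonneg h.2.1 k.2.1, by
    rw [ENNReal.ofReal_add h.2.1 k.2.1]
    exact (eLpNorm_add_le h.1.aestronglyMeasurable k.1.aestronglyMeasurable one_le_two).trans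
      (add_le_add h.2.2 k.2.2)⟩

theorem Bd.smul {f : E d → E d} {a c : ℝ} (h : Bd f a) (hc : 0 ≤ c) :
    Bd (fun w => c • f w) (c * a) :=
  ⟨h.1.const_smul c, mul_nonneg hc h.2.1, by
    rw [ENNReal.ofReal_mul hc]
    refine (eLpNorm_const_smul c f 2 (gs d)).trans_le ?_
    rw [Real.enorm_eq_ofReal hc]
    exact mul_le_mul_right h.2.2 _⟩

theorem Bd.neg {f : E d → E d} {a : ℝ} (h : Bd f a) : Bd (fun w => -f w) a :=
  ⟨h.1.neg, h.2.1, (eLpNorm_neg f 2 (gs d)).trans_le h.2.2⟩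

theorem Bd.of {f g : E d → E d} {a b : ℝ} (h : Bd f a) (e : ∀ w, g w = f w) (hb : a ≤ b) :
    Bd g b := by
  obtain rfl : g = f := funext e
  exact ⟨h.1, h.2.1.trans hb, h.2.2.trans (ENNReal.ofReal_le_ofReal hb)⟩

theorem Bd.sum (s : Finset ℕ) {f : ℕ → E d → E d} {a : ℕ → ℝ} (h : ∀ r ∈ s, Bd (f r) (a r)) :
    Bd (fun w => ∑ r ∈ s, f r w) (∑ r ∈ s, a r) := by
  induction s using Finset.induction_on with
  | empty => exact ⟨by simp, by simp, by simp⟩
  | insert r s hr ih =>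
    simp only [sum_insert hr]
    exact (h r (mem_insert_self _ _)).add (ih fun x hx => h x (mem_insert_of_mem hx))

theorem lipc {K : ℝ} {f : E d → E d} (h : LipF K f) : Continuous f :=
  (LipschitzWith.of_dist_le' fun x y => by simpa only [dist_eq_norm] using h x y).continuous

theorem jen {Y : Type} [MeasurableSpace Y] (ν : Measure Y) [IsProbabilityMeasure ν]
    {f : E d × Y → E d} (hf : StronglyMeasurable f) :
    eLpNorm (fun w => ∫ y, f (w, y) ∂ν) 2 (gs d) ≤ eLpNorm f 2 ((gs d).prod ν) := by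
  have k : ∀ {X : Type} [MeasurableSpace X] (μ : Measure X) (g : X → E d),
      eLpNorm g 2 μ = (∫⁻ x, ‖g x‖ₑ ^ (2 : ℝ) ∂μ) ^ (1 / 2 : ℝ) := fun μ g => by
    simpa using eLpNorm_eq_lintegral_rpow_enorm_toReal (p := 2) (f := g) (μ := μ) (by simp) (by simp)
  rw [k, k, lintegral_prod _ (hf.enorm.pow_const _).aemeasurable]
  refine ENNReal.rpow_le_rpow (lintegral_mono fun w => ?_) (by norm_num)
  have := (enorm_integral_le_lintegral_enorm fun y => f (w, y)).trans
    (eLpNorm_one_eq_lintegral_enorm.symm.trans_le (eLpNorm_le_eLpNorm_of_exponent_le one_le_two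
      (hf.comp_measurable measurable_prodMk_left).aestronglyMeasurable (μ := ν)))
  rw [k] at this
  calc _ ≤ _ := ENNReal.rpow_le_rpow this zero_le_two
    _ = _ := by rw [← ENNReal.rpow_mul]; norm_num

theorem pi_eq {Z : Type} [MeasurableSpace Z] (ν : Measure Z) [SFinite ν] (ρ κ : ℝ) (N : ℕ) :
    (pi2 ρ κ N).prod ν = ∑ r ∈ range N, ENNReal.ofReal (aw ρ r) • ν.map (Prod.mk
      (if (ρ ^ (r + 1)) ^ 2 ≤ 1 - κ ^ 2 then ((1 : ℝ), ρ ^ (r + 1)) else (0, 0))) +
      ENNReal.ofReal (ρ ^ N) • ν.map (Prod.mk (0, 0)) := by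
  ext s hs
  rw [Measure.prod_apply hs, pi2, lintegral_add_measure, lintegral_finset_sum_measure]
  simp only [lintegral_smul_measure, lintegral_dirac, Measure.add_apply, Measure.coe_finset_sum,
    Finset.sum_apply, Measure.smul_apply, Measure.map_apply measurable_prodMk_left hs]

theorem f2i (hOU : StmtOU) {p : Par} {ε : ℝ} {G : E d → E d} (hp : p.Ok) (e0 : 0 ≤ ε)
    (hG : Nice ε G) {w : E d} (hc : Continuous (F2 p G w)) (a : ℝ × ℝ) :
    Integrable (F2 p G w) ((g3 d).map (Prod.mk a)) := by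
  rw [integrable_map_measure hc.aestronglyMeasurable measurable_prodMk_left.aemeasurable]
  have hid : Integrable (fun x : E d => x) (gs d) := IsGaussian.integrable_id
  have i1 : Integrable (fun z : E d × E d × E d => z.1) (g3 d) := hid.comp_fst _
  have i3 : Integrable (fun z : E d × E d × E d => z.2.2) (g3 d) := (hid.comp_snd _).comp_snd _
  have i4 : Integrable (fun z : E d × E d × E d => (sg p.ka)⁻¹ • b2 p w (a, z)) (g3 d) :=
    ((integrable_const (a.2 • w)).add (i1.smul √(1 - p.ka ^ 2 - a.2 ^ 2))).smul (sg p.ka)⁻¹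
  refine Integrable.mono' (g := fun z => |a.1| * (ε * (ε * (1 + ‖(sg p.ka)⁻¹ • b2 p w (a, z)‖ +
    ‖z.2.2‖)))) ((((((integrable_const 1).add i4.norm).add i3.norm).const_mul _).const_mul
      _).const_mul _)
    (hc.comp (continuous_const.prodMk continuous_id)).aestronglyMeasurable (.of_forall fun z => ?_)
  simp only [Function.comp, F2, norm_smul, Real.norm_eq_abs]
  refine mul_le_mul_of_nonneg_left ((hG.lip _ _).trans ?_) (abs_nonneg _)
  rw [sub_sub_cancel_left, norm_neg, ← Real.norm_eq_abs, ← norm_smul]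
  exact mul_le_mul_of_nonneg_left ((hOU d).f1g p ε G hp e0 hG _ _) e0

theorem f2e (hOU : StmtOU) {p : Par} {ε ρ : ℝ} {G : E d → E d} (hp : p.Ok) (e0 : 0 ≤ ε)
    (hG : Nice ε G) {w : E d} (hc : Continuous (F2 p G w)) (r0 : 0 ≤ ρ) (r1 : ρ ≤ 1) (N : ℕ) :
    ∫ a, F2 p G w a ∂(pi2 ρ p.ka N).prod (g3 d) = ∑ r ∈ range N, aw ρ r •
      if (ρ ^ (r + 1)) ^ 2 ≤ 1 - p.ka ^ 2 then ∫ z, F2 p G w ((1, ρ ^ (r + 1)), z) ∂g3 d else 0 := by
  have i := fun c a => (f2i hOU hp e0 hG hc a).smul_measure (c := ENNReal.ofReal c)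
    ENNReal.ofReal_ne_top
  rw [pi_eq, integral_add_measure (integrable_finsetSum_measure.2 fun r _ => i _ _) (i _ _),
    integral_finsetSum_measure fun r _ => i _ _]
  simp only [integral_smul_measure,
    integral_map measurable_prodMk_left.aemeasurable hc.aestronglyMeasurable]
  have z : ∫ z, F2 p G w ((0, 0), z) ∂g3 d = 0 := by simp [F2]
  rw [z, smul_zero, add_zero]
  refine sum_congr rfl fun r _ => ?_
  rw [ENNReal.toReal_ofReal (show 0 ≤ aw ρ r from mul_nonneg (by linarith) (by positivity))]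
  split_ifs
  · rfl
  · rw [z]

theorem drop {ρ κ : ℝ} (r0 : 0 ≤ ρ) (r1 : ρ ≤ 1) (N : ℕ) :
    ∑ r ∈ range N, aw ρ r * (if (ρ ^ (r + 1)) ^ 2 ≤ 1 - κ ^ 2 then 0 else 1) ≤ κ ^ 2 := by
  induction N with
  | zero => simp [sq_nonneg]
  | succ N ih =>
    by_cases h : (ρ ^ (N + 1)) ^ 2 ≤ 1 - κ ^ 2
    · rw [sum_range_succ, if_pos h, mul_zero, add_zero]; exact ih
    · calc _ ≤ ∑ r ∈ range (N + 1), aw ρ r := sum_le_sum fun r _ => by
            have : 0 ≤ aw ρ r := mul_nonneg (by linarith) (by positivity)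
            split_ifs <;> simp [this]
        _ ≤ _ := by
          simp only [aw, ← mul_sum, mul_neg_geom_sum]
          have : ρ ^ (N + 1) ≤ 1 := pow_le_one₀ r0 r1
          have : 0 ≤ ρ ^ (N + 1) := by positivity
          nlinarith

end B2m

open B2m in
theorem stmtB2 (_h1 : StmtG1) (hB2a : StmtB2a) (hMean : StmtMean) (hAa : StmtAa) (hOU : StmtOU)
    (hMeas : StmtMeas) : StmtB2 := by
  obtain ⟨C, C1, hB⟩ := hB2a
  refine ⟨C + 6, by linarith, fun d ε ρ δ1 δ2 G p N d1 e0 e1 r0 r1 hG hp k0 k1 hC δ0 hδ h0 => ?_⟩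
  have A := hAa d ε ρ G d1 e0.le e1 r0 r1 hG
  have M := hMean d ε ρ G d1 e0.le e1 r0 r1 hG
  have O := hOU d
  have ρ0 : 0 ≤ ρ := by linarith
  have k2 : 0 < p.ka := e0.trans_le k0
  have gc := hG.c1.continuous
  have a0 : ∀ r, 0 ≤ aw ρ r := fun r => mul_nonneg (by linarith) (by positivity)
  have as : ∀ n, ∑ r ∈ range n, aw ρ r = 1 - ρ ^ n := fun n => by
    simp only [aw, ← mul_sum, mul_neg_geom_sum]
  have t1 : ∀ r, (ρ ^ (r + 1)) ^ 2 ≤ 1 := fun r => pow_le_one₀ (by positivity) (pow_le_one₀ ρ0 r1.le)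
  have m1c := lipc (O.f1l p ε G hp e0.le hG)
  have b0 : Bd (fun w => mA0 G ρ N w - m1 p G w) δ1 :=
    ⟨((lipc (M N).2.2.1).sub m1c).measurable, δ0, h0⟩
  have b1 : ∀ n, Bd (fun w => mA G ρ n w - mA0 G ρ n w) (4 * ε ^ 2 * √d) := fun n =>
    ⟨((lipc (M n).2.1).sub (lipc (M n).2.2.1)).measurable, by positivity, by
      refine le_trans (le_of_eq ?_) ((jen (gN d n)
        ((A.cont n).sub (A.cont0 n)).stronglyMeasurable).trans (A.l2D n))
      congr 1
      funext w
      exact (integral_sub ((A.mem n w).integrable one_le_two)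
        ((A.mem0 n w).integrable one_le_two)).symm⟩
  have b2 : ∀ r, Bd (OU (ρ ^ (r + 1)) G) (2 * ε * √d) := fun r =>
    ⟨(lipc (O.lip ε _ G e0.le (t1 r) hG.lip)).measurable, by positivity,
      (O.contr ε _ G (t1 r) hG.lip).trans (O.nG ε G d1 e0.le hG)⟩
  have b3 : ∀ n ≤ N, Bd (fun w => mA G ρ n w - m1 p G w)
      (4 * ε ^ 2 * √d + ρ ^ n * (2 * ε * √d) + δ1) := fun n hn => by
    refine (((b1 n).add (Bd.sum (Ico n N) fun r _ => (b2 r).smul (a0 r)).neg).add b0).of
      (fun w => ?_) ?_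
    · rw [sum_Ico_eq_sub _ hn, ← ((M N).2.2.2 w).1, ← ((M n).2.2.2 w).1]; abel
    · rw [← sum_mul, sum_Ico_eq_sub _ hn, as, as]
      have : 0 ≤ ρ ^ N := by positivity
      gcongr
      linarith
  have b4 : ∀ n r, Bd (fun w => OU (ρ ^ (r + 1)) (Gam G ρ n) w - OU (ρ ^ (r + 1)) G w)
      (4 * ε ^ 2 * √d) := fun n r => by
    have l : LipF (2 * ε + ε) fun y => Gam G ρ n y - G y := fun x y => by
      rw [sub_sub_sub_comm, add_mul]
      exact (norm_sub_le _ _).trans (add_le_add ((M n).1 x y) (hG.lip x y))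
    have hc : Continuous fun q : E d × (Fin n → E d) => G (q.1 - AA G ρ n q.1 q.2) - G q.1 :=
      (gc.comp (continuous_fst.sub (A.cont n))).sub (gc.comp continuous_fst)
    have hn : ∀ q : E d × (Fin n → E d),
        ‖G (q.1 - AA G ρ n q.1 q.2) - G q.1‖ ≤ ε * ‖AA G ρ n q.1 q.2‖ := fun q => by
      simpa using hG.lip (q.1 - AA G ρ n q.1 q.2) q.1
    refine Bd.of (f := OU (ρ ^ (r + 1)) fun y => Gam G ρ n y - G y)
      ⟨(lipc (O.lip _ _ _ (by positivity) (t1 r) l)).measurable, by positivity,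
        (O.contr _ _ _ (t1 r) l).trans ?_⟩ (fun w => (integral_sub
          ((O.int _ _ (M n).1 _ _).integrable one_le_two)
          ((O.int _ _ hG.lip _ _).integrable one_le_two)).symm) le_rfl
    refine le_trans (le_of_eq ?_) ((jen (gN d n) hc.stronglyMeasurable).trans
      ((eLpNorm_le_mul_eLpNorm_of_ae_le_mul (.of_forall hn) 2).trans
        ((mul_le_mul_right (A.l2 n) _).trans_eq ?_)))
    · congr 1
      funext y
      have i : Integrable (fun g => G (y - AA G ρ n y g) - G y) (gN d n) :=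
        Integrable.mono' (((A.mem n y).integrable one_le_two).norm.const_mul ε)
          (hc.comp (continuous_const.prodMk continuous_id)).aestronglyMeasurable
          (.of_forall fun g => hn (y, g))
      have i2 : Integrable (fun g => G (y - AA G ρ n y g)) (gN d n) :=
        (i.add (integrable_const (G y))).congr (.of_forall fun g => sub_add_cancel _ _)
      refine Eq.symm ((integral_sub i2 (integrable_const (G y))).trans ?_)
      simp [Gam]
    · rw [← ENNReal.ofReal_mul e0.le]; congr 1; ring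
  have sd : 0 ≤ √(d : ℝ) := by positivity
  set X := ε ^ 2 * p.ka * √d + ε * p.ka with hX
  have X0 : 0 ≤ X := by positivity
  have b5 : ∀ r ∈ range N, Bd (fun w => OU (ρ ^ (r + 1)) (Gam G ρ (N - 1 - r)) w -
      OU (ρ ^ (r + 1)) G w - if (ρ ^ (r + 1)) ^ 2 ≤ 1 - p.ka ^ 2 then
        ∫ z, F2 p G w ((1, ρ ^ (r + 1)), z) ∂g3 d else 0)
      ((C * X + ε * (4 * ε ^ 2 * √d + δ1)) + 2 * ε ^ 2 * √d * ρ ^ (N - 1 - r) + 4 * ε ^ 2 * √d *
        if (ρ ^ (r + 1)) ^ 2 ≤ 1 - p.ka ^ 2 then 0 else 1) := fun r _ => by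
    split_ifs with h
    · have b := b3 (N - 1 - r) (by omega)
      refine ⟨(b4 _ r).1.sub (((hMeas d p).2.1 G gc).comp (continuous_fst.prodMk
        (continuous_const.prodMk continuous_snd))).stronglyMeasurable.integral_prod_right'.measurable,
        by positivity, (hB d ε ρ _ G p _ d1 e0 e1 r0 r1 hG hp k2 k1 (le_trans (by gcongr; linarith) hC)
          (by positivity) h).trans ((add_le_add_right (mul_le_mul_right b.2.2 _) _).trans_eq ?_)⟩
      rw [← ENNReal.ofReal_mul e0.le, ← ENNReal.ofReal_add (by positivity) (by positivity)]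
      congr 1; ring
    · refine (b4 _ r).of (fun w => sub_zero _) ?_
      have : 0 ≤ C * X + ε * (4 * ε ^ 2 * √d + δ1) + 2 * ε ^ 2 * √d * ρ ^ (N - 1 - r) := by positivity
      linarith
  have := (b0.add (Bd.sum _ fun r hr => (b5 r hr).smul (a0 r))).of
    (g := bias p G ρ N (pi2 ρ p.ka N)) (b := (C + 6) * (X + δ1 + δ2 * ε ^ 2 * √d)) (fun w => ?_) ?_
  · exact ⟨this.1, this.2.2⟩
  · rw [bias, f2e hOU hp e0.le hG ((hMeas d p).1 G w gc).1 ρ0 r1.le, ((M N).2.2.2 w).1,
      ((M N).2.2.2 w).2]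
    simp only [smul_sub, sum_sub_distrib]
    abel
  · have s1 : ∑ r ∈ range N, aw ρ r * ρ ^ (N - 1 - r) ≤ δ2 := by
      calc _ ≤ ∑ r ∈ range N, ρ ^ N := sum_le_sum fun r hr => by
            have := mem_range.1 hr
            rw [aw, mul_assoc, ← pow_add, show N = r + (N - 1 - r) + 1 by omega, pow_succ']
            rw [show r + (N - 1 - r) + 1 - 1 - r = N - 1 - r by omega]
            gcongr
            linarith
        _ ≤ _ := by
          rw [sum_const, card_range, nsmul_eq_mul]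
          have : 0 ≤ ρ ^ N := by positivity
          linarith
    have s2 := drop (κ := p.ka) ρ0 r1.le N
    have s3 : ∑ r ∈ range N, aw ρ r ≤ 1 := by
      have : 0 ≤ ρ ^ N := by positivity
      rw [as]; linarith
    have δ2' : 0 ≤ δ2 := le_trans (by positivity) hδ
    simp only [mul_add (aw _ _), sum_add_distrib, mul_left_comm (aw _ _), ← mul_sum, ← sum_mul]
    have s4 := s2.trans (show p.ka ^ 2 ≤ p.ka * (1 / 2) by nlinarith)
    calc _ ≤ δ1 + (C * (1 * X) + ε * (4 * ε ^ 2 * (1 * √d) + 1 * δ1) + 2 * ε ^ 2 * √d * δ2 +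
          4 * ε ^ 2 * √d * (p.ka * (1 / 2))) := by gcongr
      _ ≤ _ := by
        have : 0 ≤ ε * p.ka := by positivity
        have : ε * (ε ^ 2 * √d) ≤ p.ka * (ε ^ 2 * √d) := by gcongr
        have : ε * δ1 ≤ δ1 := by nlinarith
        have : 0 ≤ (C - 1) * δ1 := mul_nonneg (by linarith) δ0
        have : 0 ≤ C * (δ2 * ε ^ 2 * √d) := by positivity
        have : 0 ≤ δ2 * ε ^ 2 * √d := by positivity
        rw [hX] at *
        nlinarith

end Vale.Agent.P347
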