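import Vale.Agent.P347.Spec2
import Vale.Agent.P347.B2

open MeasureTheory ProbabilityTheory Finset
open scoped RealInnerProductSpace ENNReal

namespace Vale.Agent.P347

namespace B22m
open B2m

variable {d : ℕ}

theorem bsum {ι : Type} (s : Finset ι) {f : ι → E d → E d} {a : ι → ℝ}
    (h : ∀ r ∈ s, Bd (f r) (a r)) : Bd (fun w => ∑ r ∈ s, f r w) (∑ r ∈ s, a r) := by
  classical
  induction s using Finset.induction_on with
  | empty => exact ⟨by simp, by simp, by simp⟩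
  | insert r s hr ih =>
    simp only [sum_insert hr]
    exact (h r (mem_insert_self _ _)).add (ih fun x hx => h x (mem_insert_of_mem hx))

theorem lsub {K K' : ℝ} {f g : E d → E d} (h : LipF K f) (k : LipF K' g) :
    LipF (K + K') fun y => f y - g y := fun x y => by
  rw [sub_sub_sub_comm, add_mul]
  exact (norm_sub_le _ _).trans (add_le_add (h x y) (k x y))

theorem osub (O : OUApi d) {K K' : ℝ} {f g : E d → E d} (h : LipF K f) (k : LipF K' g) (τ : ℝ)
    (w : E d) : OU τ (fun y => f y - g y) w = OU τ f w - OU τ g w :=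
  integral_sub ((O.int _ _ h _ _).integrable one_le_two) ((O.int _ _ k _ _).integrable one_le_two)

theorem bou (O : OUApi d) {K a τ : ℝ} {f : E d → E d} (K0 : 0 ≤ K) (h : LipF K f) (ht : τ ^ 2 ≤ 1)
    (hb : Bd f a) : Bd (OU τ f) a :=
  ⟨(lipc (O.lip K τ f K0 ht h)).measurable, hb.2.1, (O.contr K τ f ht h).trans hb.2.2⟩

end B22m

open B2m B22m in
theorem stmtB22 (_h1 : StmtG1) (hB2a2 : StmtB2a2) (hGamH : StmtGamH) (hMean : StmtMean)
    (_hAa : StmtAa) (hOU : StmtOU) (hMeas : StmtMeas) : StmtB22 := by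
  obtain ⟨C, C1, hB⟩ := hB2a2
  refine ⟨C + 8, by linarith, fun d ε η ρ δ G P N r0 e0 e1 hG R hc δ0 hQ => ?_⟩
  have d1 : 1 ≤ d := le_trans one_le_two R.d2
  have r1 := R.r1
  have r2 := R.r2
  have M := hMean d ε ρ G d1 e0.le e1 r1 r2 hG
  have H := hGamH d ε ρ G d1 e0.le e1 r1 r2 hG
  have O := hOU d
  have hp : P.p.Ok := ⟨hQ.1, hQ.2.1, hQ.2.2.1⟩
  have ρ0 : 0 ≤ ρ := by linarith
  have k0 := R.k0
  have k1 := R.k1
  have gc := hG.c1.continuous
  have a0 : ∀ r, 0 ≤ aw ρ r := fun r => mul_nonneg (by linarith) (by positivity)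
  have as : ∀ n, ∑ r ∈ range n, aw ρ r = 1 - ρ ^ n := fun n => by
    simp only [aw, ← mul_sum, mul_neg_geom_sum]
  have t0 : ∀ r, (ρ ^ r) ^ 2 ≤ 1 := fun r => pow_le_one₀ (by positivity) (pow_le_one₀ ρ0 r2.le)
  have c0 : 0 ≤ ρ ^ r0 := by positivity
  have c1 : ρ ^ r0 ≤ 1 := pow_le_one₀ ρ0 r2.le
  have tj : ∀ j, P.p.tau j ^ 2 ≤ 1 := fun j => pow_le_one₀ (hp.2.2 j).1 (hp.2.2 j).2
  have sd : 0 ≤ √(d : ℝ) := by positivity
  set a : ℝ := 4 * ε ^ 2 * √d with ha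
  have a1 : 0 ≤ a := by positivity
  have quad : ∀ (K b : ℝ) (Φ : E d → E d), 0 ≤ K → LipF K Φ → Bd Φ b →
      Bd (fun w => ∑ r ∈ range N, aw ρ r • OU (ρ ^ (r + 1)) Φ w -
        ∑ j, P.p.om j • OU (P.p.tau j) Φ w) (δ * b) := fun K b Φ K0 hl hb => by
    refine ⟨((bsum _ fun r _ => (bou O K0 hl (t0 (r + 1)) hb).smul (a0 r)).1.sub
      (bsum _ fun j _ => (bou O K0 hl (tj j) hb).smul (hp.1 j)).1), mul_nonneg δ0 hb.2.1, ?_⟩
    have := hQ.2.2.2 0 zero_le_one d K Φ hl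
    simp only [pow_zero, mul_one] at this
    rw [ENNReal.ofReal_mul δ0]
    exact this.trans (mul_le_mul_right hb.2.2 _)
  have bG : Bd G (2 * ε * √d) := ⟨gc.measurable, by positivity, O.nG ε G d1 e0.le hG⟩
  have b0 : Bd (fun w => mA0 G ρ N w - m1 P.p G w) (δ * (2 * ε * √d)) :=
    (quad ε _ G e0.le hG.lip bG).of (fun w => by
      rw [((M N).2.2.2 w).1, O.f1m P.p ε G hG.lip w]) le_rfl
  have lT : ∀ n, LipF (2 * ε + ε) fun y => Gam G ρ n y - G y := fun n => lsub (M n).1 hG.lip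
  have bT : ∀ n, Bd (fun y => Gam G ρ n y - G y) a := fun n =>
    ⟨(lipc (lT n)).measurable, a1, (H n 0).1⟩
  have e3 : 0 ≤ 2 * ε + ε := by positivity
  have b1 : Bd (fun w => mA G ρ N w - m1 P.p G w) (a + δ * (2 * ε * √d)) := by
    refine ((bsum (range N) fun r _ =>
      (bou O e3 (lT (N - 1 - r)) (t0 (r + 1)) (bT _)).smul (a0 r)).add b0).of (fun w => ?_) ?_
    · simp only [osub O (M _).1 hG.lip, smul_sub, sum_sub_distrib]
      rw [← ((M N).2.2.2 w).1, ← ((M N).2.2.2 w).2]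
      abel
    · rw [← sum_mul, as]
      have : 0 ≤ ρ ^ N * a := by positivity
      linarith
  set θ : ℝ := (1 + ρ) / 2 with hθ
  have b2 : ∀ r ∈ range N, Bd (OU (ρ ^ (r + 1)) fun y => Gam G ρ (N - 1 - r) y - Gam G ρ N y)
      (a * θ ^ (N - 1 - r)) := fun r hr => by
    have l := lsub (M (N - 1 - r)).1 (M N).1
    have := (H (N - 1 - r) (r + 1)).2
    rw [show N - 1 - r + (r + 1) = N by have := mem_range.1 hr; omega] at this
    exact bou O (by positivity) l (t0 _) ⟨(lipc l).measurable, by positivity, this⟩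
  set Φ : E d → E d := OU (ρ ^ r0) fun y => Gam G ρ N y - G y with hΦ
  have lΦ : LipF (2 * ε + ε) Φ := O.lip _ _ _ e3 (t0 r0) (lT N)
  have bΦ : Bd Φ a := bou O e3 (lT N) (t0 r0) (bT N)
  set X := ε ^ 2 * P.p.ka * √d + ε ^ 3 * √d / P.p.ka with hX
  have X0 : 0 ≤ X := by positivity
  have b6 : ∀ j, Bd (fun w => OU (ρ ^ r0 * P.p.tau j) (Gam G ρ N) w - OU (ρ ^ r0 * P.p.tau j) G w -
      ∫ z, F2 P.p G w ((1, ρ ^ r0 * P.p.tau j), z) ∂g3 d) (C * X + ε * (a + δ * (2 * ε * √d))) :=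
    fun j => by
    have u1 : (ρ ^ r0 * P.p.tau j) ^ 2 ≤ 1 - P.p.ka ^ 2 := by
      rw [mul_pow]
      exact (mul_le_of_le_one_right (sq_nonneg _) (tj j)).trans R.lo
    have u2 : (ρ ^ r0 * P.p.tau j) ^ 2 ≤ 1 := by nlinarith [sq_nonneg P.p.ka]
    refine ⟨((lipc (O.lip _ _ _ (by positivity) u2 (M N).1)).sub
      (lipc (O.lip _ _ _ e0.le u2 hG.lip))).measurable.sub (((hMeas d P.p).2.1 G gc).comp
        (continuous_fst.prodMk (continuous_const.prodMk continuous_snd))).stronglyMeasurable.integral_prod_right'.measurable,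
      by positivity, (hB d ε ρ _ G P.p N d1 e0 e1 r1 r2 hG hp k0 k1
        (mul_nonneg c0 (hp.2.2 j).1) u1).trans
        ((add_le_add_right (mul_le_mul_right b1.2.2 _) _).trans_eq ?_)⟩
    rw [← ENNReal.ofReal_mul e0.le, ← ENNReal.ofReal_add (by positivity) (by positivity)]
  have rN : r0 ≤ N := by have := R.rN; omega
  have := (((((b0.add (bsum _ fun r hr => (b2 r hr).smul (a0 r))).add
    (bsum (range r0) fun r _ => (bou O e3 (lT N) (t0 (r + 1)) (bT N)).smul (a0 r))).add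
    ((bsum (Ico (N - r0) N) fun r _ => (bou O e3 lΦ (t0 (r + 1)) bΦ).smul (a0 r)).smul c0).neg).add
    ((quad _ _ Φ e3 lΦ bΦ).smul c0)).add
    (bsum univ fun j _ => (b6 j).smul (mul_nonneg c0 (hp.1 j)))).of (g := bias2 P G ρ N)
    (b := (C + 8) * (X + δ * ε * √d + η * ε ^ 2 * √d)) (fun w => ?_) ?_
  · exact ⟨this.1, this.2.2⟩
  · have cF := ((hMeas d P.p).1 G w gc).1
    have iF : ∀ b : ℝ × ℝ, Integrable (fun z => F2 P.p G w (b, z)) (g3 d) := fun b =>
      (f2i hOU hp e0.le hG cF b).comp_measurable measurable_prodMk_left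
    have e1 : ∫ z, F22 P G w z ∂g3 d = ∑ j, (ρ ^ r0 * P.p.om j) •
        ∫ z, F2 P.p G w ((1, ρ ^ r0 * P.p.tau j), z) ∂g3 d := by
      unfold F22
      have iS : ∀ j, Integrable (fun z => (P.c0 * P.p.om j) •
          F2 P.p G w ((1, P.c0 * P.p.tau j), z)) (g3 d) := fun j => (iF _).smul (P.c0 * P.p.om j)
      rw [integral_finsetSum _ fun j _ => iS j, hc]
      exact sum_congr rfl fun j _ => integral_smul _ _
    have e2 : ∀ τ : ℝ, τ ^ 2 ≤ 1 → OU τ Φ w = OU (ρ ^ r0 * τ) (fun y => Gam G ρ N y - G y) w :=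
      fun τ hτ => by rw [hΦ, O.semi _ τ _ _ hτ (t0 r0) (lT N), mul_comm]
    have e4 : ∑ r ∈ range N, aw ρ r • OU (ρ ^ (r + 1)) (fun y => Gam G ρ N y - G y) w =
        ∑ r ∈ range r0, aw ρ r • OU (ρ ^ (r + 1)) (fun y => Gam G ρ N y - G y) w +
        ρ ^ r0 • ∑ r ∈ range (N - r0), aw ρ r • OU (ρ ^ (r + 1)) Φ w := by
      conv_lhs => rw [show N = r0 + (N - r0) by omega, sum_range_add]
      rw [show r0 + (N - r0) = N by omega, smul_sum]
      congr 1
      refine sum_congr rfl fun r _ => ?_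
      rw [e2 _ (t0 _), smul_smul, ← pow_add, aw, aw, pow_add ρ r0 r, add_assoc]
      congr 1
      ring
    have e5 : ∑ j, (ρ ^ r0 * P.p.om j) • (OU (ρ ^ r0 * P.p.tau j) (Gam G ρ N) w -
        OU (ρ ^ r0 * P.p.tau j) G w) = ρ ^ r0 • ∑ j, P.p.om j • OU (P.p.tau j) Φ w := by
      rw [smul_sum]
      exact sum_congr rfl fun j _ => by rw [e2 _ (tj j), osub O (M N).1 hG.lip, smul_smul]
    rw [bias2, e1, sum_Ico_eq_sub _ (Nat.sub_le N r0), ((M N).2.2.2 w).1, ((M N).2.2.2 w).2]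
    simp only [smul_sub _ (_ - _), sum_sub_distrib, e5]
    simp only [osub O (M _).1 hG.lip, osub O (M _).1 (M _).1, smul_sub, sum_sub_distrib] at e4 ⊢
    rw [sub_eq_iff_eq_add] at e4
    rw [e4]
    abel
  · have θ1 : ρ ≤ θ := by rw [hθ]; linarith
    have θ2 : 1 - ρ ≤ θ := by rw [hθ]; linarith
    have hor := R.hor
    rw [← hθ] at hor
    have p0 : 0 ≤ θ ^ N := by positivity
    have s1 : ∑ r ∈ range N, aw ρ r * θ ^ (N - 1 - r) ≤ η := by
      calc _ ≤ ∑ r ∈ range N, θ ^ N := sum_le_sum fun r hr => by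
            have := mem_range.1 hr
            calc aw ρ r * θ ^ (N - 1 - r) ≤ θ * θ ^ r * θ ^ (N - 1 - r) := by unfold aw; gcongr
              _ = _ := by rw [← pow_succ', ← pow_add]; congr 1; omega
        _ ≤ _ := by
          rw [sum_const, card_range, nsmul_eq_mul]
          linarith
    have s2 : 1 - ρ ^ r0 ≤ P.p.ka := by
      have h1 := R.hi
      have h2 : (ρ ^ (r0 + 1)) ^ 2 ≤ ρ ^ r0 := by
        rw [← pow_mul]; exact pow_le_pow_of_le_one ρ0 r2.le (by omega)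
      nlinarith
    have s3 : ρ ^ r0 * (1 - ρ ^ N - (1 - ρ ^ (N - r0))) ≤ η := by
      have h1 : ρ ^ r0 * ρ ^ (N - r0) = ρ ^ N := by rw [← pow_add]; congr 1; omega
      have h2 : ρ ^ N ≤ θ ^ N := pow_le_pow_left₀ ρ0 θ1 N
      have h3 : 0 ≤ ρ ^ r0 * ρ ^ N := by positivity
      have h4 : 0 ≤ N * θ ^ N := by positivity
      nlinarith
    have s4 : ∑ j, ρ ^ r0 * P.p.om j ≤ 1 := by
      rw [← mul_sum]; exact mul_le_one₀ c1 (sum_nonneg fun j _ => hp.1 j) hp.2.1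
    simp only [mul_left_comm (aw _ _), ← mul_sum, ← sum_mul]
    rw [sum_Ico_eq_sub _ (Nat.sub_le N r0), as, as, as, ← mul_assoc (ρ ^ r0)]
    rw [← mul_sum] at s4
    have η0 := R.e0.le
    calc _ ≤ δ * (2 * ε * √d) + a * η + P.p.ka * a + η * a + 1 * (δ * a) +
          1 * (C * X + ε * (a + δ * (2 * ε * √d))) := by gcongr
      _ ≤ _ := by
        have q1 : ε ^ 3 * √d ≤ ε ^ 3 * √d / P.p.ka := le_div_self (by positivity) k0 (by linarith)
        have q2 : 0 ≤ δ * ε * √d := by positivity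
        have q3 : ε * (δ * ε * √d) ≤ 1 / 4 * (δ * ε * √d) := by gcongr
        have q4 : 0 ≤ C * (δ * ε * √d) := by positivity
        have q5 : 0 ≤ C * (η * ε ^ 2 * √d) := by positivity
        have q6 : 0 ≤ ε ^ 2 * P.p.ka * √d := by positivity
        have q7 : 0 ≤ ε ^ 3 * √d / P.p.ka := by positivity
        rw [ha]
        nlinarith

end Vale.Agent.P347
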