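import Vale.Agent.P347.Spec

open MeasureTheory ProbabilityTheory Finset
open scoped RealInnerProductSpace ENNReal

namespace Vale.Agent.P347

noncomputable section

namespace B2am

variable {d : ℕ}

theorem lip_cont {X Y : Type} [NormedAddCommGroup X] [NormedAddCommGroup Y] {K : ℝ} {F : X → Y}
    (h : LipF K F) : Continuous F := by
  refine (LipschitzWith.of_dist_le_mul (K := K.toNNReal) fun x y => ?_).continuous
  rw [dist_eq_norm, dist_eq_norm]
  exact (h x y).trans (mul_le_mul_of_nonneg_right (Real.le_coe_toNNReal K) (norm_nonneg _))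

theorem int_lip {X Y : Type} [NormedAddCommGroup X] [NormedAddCommGroup Y] [MeasurableSpace X]
    [OpensMeasurableSpace X] [SecondCountableTopology X] {μ : Measure X} [IsFiniteMeasure μ]
    (hμ : Integrable (fun x => ‖x‖) μ) {K : ℝ} {F : X → Y} (h : LipF K F) : Integrable F μ := by
  refine Integrable.mono' ((integrable_const ‖F 0‖).add (hμ.const_mul K))
    (lip_cont h).aestronglyMeasurable (Filter.Eventually.of_forall fun x => ?_)
  have := h x 0
  rw [sub_zero x] at this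
  have h2 := norm_le_insert' (F x) (F 0)
  simp only [Pi.add_apply]
  linarith

theorem int_prod {X Y : Type} [NormedAddCommGroup X] [NormedAddCommGroup Y] [MeasurableSpace X]
    [MeasurableSpace Y] [BorelSpace X] [BorelSpace Y] [SecondCountableTopology X]
    [SecondCountableTopology Y] {μ : Measure X} {ν : Measure Y} [IsFiniteMeasure μ] [IsFiniteMeasure ν]
    (hμ : Integrable (fun x => ‖x‖) μ) (hν : Integrable (fun x => ‖x‖) ν) :
    Integrable (fun x : X × Y => ‖x‖) (μ.prod ν) := by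
  refine Integrable.mono' ((hμ.comp_fst ν).add (hν.comp_snd μ)) continuous_norm.aestronglyMeasurable
    (Filter.Eventually.of_forall fun x => ?_)
  rw [norm_norm, Prod.norm_def]
  simp only [Pi.add_apply]
  exact max_le (by linarith [norm_nonneg x.2]) (by linarith [norm_nonneg x.1])

theorem int_gs (h1 : Gau1 d) : Integrable (fun x : E d => ‖x‖) (gs d) := by simpa using h1.i2 1

theorem m1_le (h1 : Gau1 d) (hd : 1 ≤ d) : ∫ x, ‖x‖ ∂gs d ≤ √d := by
  have hd' : (0 : ℝ) < d := by exact_mod_cast hd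
  have hs : 0 < √(d : ℝ) := Real.sqrt_pos.2 hd'
  have h2 : √(d : ℝ) * √d = d := Real.mul_self_sqrt hd'.le
  calc ∫ x, ‖x‖ ∂gs d ≤ ∫ x : E d, ((2 * √d)⁻¹ * ‖x‖ ^ 2 + √d / 2) ∂gs d := by
        refine integral_mono (int_gs h1) (((h1.i2 2).const_mul _).add (integrable_const _)) fun x => ?_
        have : ‖x‖ - ((2 * √d)⁻¹ * ‖x‖ ^ 2 + √d / 2) = -((2 * √d)⁻¹ * (‖x‖ - √d) ^ 2) := by
          field_simp
          ring
        have h3 : 0 ≤ (2 * √d)⁻¹ * (‖x‖ - √d) ^ 2 := by positivity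
        simp only
        linarith
    _ = √d := by
        rw [integral_add ((h1.i2 2).const_mul _) (integrable_const _), integral_const_mul, h1.m2]
        simp only [integral_const, probReal_univ, smul_eq_mul, one_mul]
        field_simp
        linarith

theorem lip_int {X Ω : Type} [NormedAddCommGroup X] [MeasurableSpace Ω] {μ : Measure Ω}
    [IsProbabilityMeasure μ] {K : ℝ} {F : X → Ω → E d} (h : ∀ g, LipF K fun y => F y g)
    (hi : ∀ y, Integrable (F y) μ) : LipF K fun y => ∫ g, F y g ∂μ := by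
  intro x y
  rw [← integral_sub (hi x) (hi y)]
  refine (norm_integral_le_of_norm_le (integrable_const (K * ‖x - y‖))
    (Filter.Eventually.of_forall fun g => h g x y)).trans ?_
  simp

theorem f1_lip (p : Par) (hp : p.Ok) {ε : ℝ} (hε : 0 ≤ ε) {G : E d → E d} (hG : LipF ε G) (w w' ζ ζ' : E d) :
    ‖F1 p G w ζ - F1 p G w' ζ'‖ ≤ ε * (‖w - w'‖ + ‖ζ - ζ'‖) := by
  rw [F1, F1, ← sum_sub_distrib]
  refine (norm_sum_le _ _).trans ?_
  have h : ∀ j, ‖p.om j • G (p.tau j • w + sg (p.tau j) • ζ) - p.om j • G (p.tau j • w' + sg (p.tau j) • ζ')‖ ≤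
      p.om j * (ε * (‖w - w'‖ + ‖ζ - ζ'‖)) := by
    intro j
    rw [← smul_sub, norm_smul, Real.norm_of_nonneg (hp.1 j)]
    refine mul_le_mul_of_nonneg_left ((hG _ _).trans (mul_le_mul_of_nonneg_left ?_ hε)) (hp.1 j)
    have e : p.tau j • w + sg (p.tau j) • ζ - (p.tau j • w' + sg (p.tau j) • ζ') =
        p.tau j • (w - w') + sg (p.tau j) • (ζ - ζ') := by module
    have s0 : 0 ≤ sg (p.tau j) := Real.sqrt_nonneg _
    have s1 : sg (p.tau j) ≤ 1 := Real.sqrt_le_one.2 (by nlinarith [sq_nonneg (p.tau j)])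
    rw [e]
    refine (norm_add_le _ _).trans ?_
    rw [norm_smul, norm_smul, Real.norm_of_nonneg (hp.2.2 j).1, Real.norm_of_nonneg s0]
    have := (hp.2.2 j).2
    nlinarith [norm_nonneg (w - w'), norm_nonneg (ζ - ζ')]
  refine (sum_le_sum fun j _ => h j).trans ?_
  rw [← sum_mul]
  have : 0 ≤ ε * (‖w - w'‖ + ‖ζ - ζ'‖) := by positivity
  nlinarith [hp.2.1]

/-- vector form of the weak smoothing bound -/
theorem wlv (h1 : Gau1 d) (hSG : SGApi d) {C : ℝ} (hC : 1 ≤ C)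
    (hW : ∀ (α : Measure (E d)) (L κ K : ℝ) (f : E d → ℝ), SG α L → 0 < κ → 2 * L ^ 4 * d ≤ κ ^ 4 → 0 ≤ K →
      LipF K f → |∫ p, f (p.1 + κ • p.2) ∂α.prod (gs d) - ∫ g, f (κ • g) ∂gs d| ≤ C * K * κ)
    {α : Measure (E d)} {L κ ε : ℝ} (hα : SG α L) (hκ : 0 < κ) (hL : 2 * L ^ 4 * d ≤ κ ^ 4) (hε : 0 ≤ ε)
    {G : E d → E d} (hG : LipF ε G) (c : E d) :
    Integrable (fun g => ∫ a, G (c + (a + κ • g)) ∂α) (gs d) ∧
    ‖∫ g, ∫ a, G (c + (a + κ • g)) ∂α ∂gs d - ∫ g, G (c + κ • g) ∂gs d‖ ≤ C * ε * κ := by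
  have := hα.1
  have ia : Integrable (fun x : E d => ‖x‖) α := by simpa using hSG.int α L hα 1
  have i1 : Integrable (fun q : E d × E d => G (c + (q.1 + κ • q.2))) (α.prod (gs d)) := by
    refine int_lip (int_prod ia (int_gs h1)) (K := ε * (1 + κ)) fun x y => (hG _ _).trans ?_
    have e : c + (x.1 + κ • x.2) - (c + (y.1 + κ • y.2)) = (x - y).1 + κ • (x - y).2 := by
      simp only [Prod.fst_sub, Prod.snd_sub]; module
    rw [e, mul_assoc]
    refine mul_le_mul_of_nonneg_left ((norm_add_le _ _).trans ?_) hε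
    rw [norm_smul, Real.norm_of_nonneg hκ.le]
    have a1 := norm_fst_le (x - y)
    have a2 := norm_snd_le (x - y)
    nlinarith
  have i2 : Integrable (fun g : E d => G (c + κ • g)) (gs d) := by
    refine int_lip (int_gs h1) (K := ε * κ) fun x y => (hG _ _).trans ?_
    have e : c + κ • x - (c + κ • y) = κ • (x - y) := by module
    rw [e, norm_smul, Real.norm_of_nonneg hκ.le, mul_assoc]
  refine ⟨i1.integral_prod_right, ?_⟩
  rw [← integral_prod_symm _ i1]
  set u := ∫ q, G (c + (q.1 + κ • q.2)) ∂α.prod (gs d) - ∫ g, G (c + κ • g) ∂gs d with hu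
  have k := hW α L κ (ε * ‖u‖) (fun x => ⟪u, G (c + x)⟫) hα hκ hL (by positivity) (by
    intro x y
    rw [← inner_sub_right]
    refine (norm_inner_le_norm _ _).trans ?_
    have := hG (c + x) (c + y)
    rw [add_sub_add_left_eq_sub] at this
    nlinarith [norm_nonneg u])
  rw [integral_inner i1, integral_inner i2, ← inner_sub_right, ← hu, real_inner_self_eq_norm_sq] at k
  have k2 := (abs_le.1 k).2
  by_contra h
  push Not at h
  have h0 : 0 ≤ C * ε * κ := by positivity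
  nlinarith

/-- the second term -/
def BB (p : Par) (G : E d → E d) (y : E d) : E d :=
  ∫ q : E d × E d, G (sg p.ka • y + p.ka • q.1 - F1 p G y q.2) ∂(gs d).prod (gs d)

theorem sg_facts {κ : ℝ} (h0 : 0 < κ) (h1 : κ ≤ 1 / 2) :
    0 < sg κ ∧ sg κ ≤ 1 ∧ sg κ ^ 2 = 1 - κ ^ 2 ∧ sg (sg κ) = κ ∧ 1 - sg κ ≤ κ := by
  have a : 0 < 1 - κ ^ 2 := by nlinarith
  have b : sg κ ^ 2 = 1 - κ ^ 2 := Real.sq_sqrt a.le
  have c : 0 < sg κ := Real.sqrt_pos.2 a
  have e : sg κ ≤ 1 := Real.sqrt_le_one.2 (by nlinarith)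
  refine ⟨c, e, b, ?_, ?_⟩
  · rw [sg, b, show 1 - (1 - κ ^ 2) = κ ^ 2 by ring, Real.sqrt_sq h0.le]
  · nlinarith

theorem bb_int (h1 : Gau1 d) (p : Par) (hp : p.Ok) {ε : ℝ} (hε : 0 ≤ ε) {G : E d → E d} (hG : LipF ε G)
    (hk : 0 < p.ka) (c y : E d) :
    Integrable (fun q : E d × E d => G (c + p.ka • q.1 - F1 p G y q.2)) ((gs d).prod (gs d)) := by
  refine int_lip (int_prod (int_gs h1) (int_gs h1)) (K := ε * (p.ka + ε)) fun x z => (hG _ _).trans ?_
  have e : c + p.ka • x.1 - F1 p G y x.2 - (c + p.ka • z.1 - F1 p G y z.2) =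
      p.ka • (x - z).1 - (F1 p G y x.2 - F1 p G y z.2) := by
    simp only [Prod.fst_sub]; module
  rw [e, mul_assoc]
  refine mul_le_mul_of_nonneg_left ((norm_sub_le _ _).trans ?_) hε
  have a0 := f1_lip p hp hε hG y y x.2 z.2
  rw [sub_self, norm_zero, zero_add] at a0
  rw [norm_smul, Real.norm_of_nonneg hk.le]
  have a1 := norm_fst_le (x - z)
  have a2 : ‖x.2 - z.2‖ ≤ ‖x - z‖ := norm_snd_le (x - z)
  nlinarith [mul_le_mul_of_nonneg_left a1 hk.le, mul_le_mul_of_nonneg_left a2 hε]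

theorem bb_lip (h1 : Gau1 d) (p : Par) (hp : p.Ok) {ε : ℝ} (hε : 0 ≤ ε) {G : E d → E d} (hG : LipF ε G)
    (hk : 0 < p.ka) (hk2 : p.ka ≤ 1 / 2) : LipF (ε * (1 + ε)) (BB p G) := by
  refine lip_int (fun q x z => (hG _ _).trans ?_) fun y => bb_int h1 p hp hε hG hk _ y
  obtain ⟨s0, s1, -⟩ := sg_facts hk hk2
  have e : sg p.ka • x + p.ka • q.1 - F1 p G x q.2 - (sg p.ka • z + p.ka • q.1 - F1 p G z q.2) =
      sg p.ka • (x - z) - (F1 p G x q.2 - F1 p G z q.2) := by module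
  rw [e, mul_assoc]
  refine mul_le_mul_of_nonneg_left ((norm_sub_le _ _).trans ?_) hε
  have a0 := f1_lip p hp hε hG x z q.2 q.2
  rw [sub_self, norm_zero, add_zero] at a0
  rw [norm_smul, Real.norm_of_nonneg s0.le]
  nlinarith [norm_nonneg (x - z)]

theorem g_int {Ω : Type} [MeasurableSpace Ω] {μ : Measure Ω} [IsFiniteMeasure μ] {ε : ℝ}
    {G : E d → E d} (hG : LipF ε G) {f : Ω → E d} (hf : Integrable f μ) (c : E d) :
    Integrable (fun g => G (c - f g)) μ := by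
  refine Integrable.mono' ((integrable_const ‖G c‖).add (hf.norm.const_mul ε))
    ((lip_cont hG).comp_aestronglyMeasurable (aestronglyMeasurable_const.sub hf.1))
    (Filter.Eventually.of_forall fun x => ?_)
  have := hG (c - f x) c
  rw [sub_sub_cancel_left, norm_neg] at this
  have h2 := norm_le_insert' (G (c - f x)) (G c)
  simp only [Pi.add_apply]
  linarith

theorem map_shift {Ω : Type} [MeasurableSpace Ω] (μ : Measure Ω) {G : E d → E d} (hG : Continuous G)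
    {f : Ω → E d} (hf : Measurable f) (b m x : E d) :
    ∫ a, G (b - m + (a + x)) ∂(μ.map fun z => m - f z) = ∫ z, G (b + x - f z) ∂μ := by
  have c1 : Continuous fun a : E d => G (b - m + (a + x)) := by fun_prop
  have c2 : Measurable fun z => m - f z := measurable_const.sub hf
  rw [integral_map c2.aemeasurable c1.aestronglyMeasurable]
  refine integral_congr_ae (Filter.Eventually.of_forall fun z => ?_)
  simp only
  congr 1
  abel

theorem pw1 (h1 : Gau1 d) (hOU : OUApi d) (hd : 1 ≤ d) {ε ρ κ : ℝ} {G : E d → E d} (n : ℕ) (hε : 0 ≤ ε)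
    (hG : LipF ε G) (hA : AaApi ε ρ G) (hGam : LipF (2 * ε) (Gam G ρ n)) (hk : 0 < κ) (hk2 : κ ≤ 1 / 2)
    (y : E d) (i2 : Integrable (fun g => ∫ z, G (sg κ • y + κ • g - AA G ρ n y z) ∂gN d n) (gs d)) :
    ‖OU (sg κ) (Gam G ρ n) y - ∫ g, ∫ z, G (sg κ • y + κ • g - AA G ρ n y z) ∂gN d n ∂gs d‖ ≤
      2 * ε ^ 2 * κ * √d + 2 * ε ^ 2 * κ * ‖y‖ := by
  obtain ⟨s0, s1, s2, s3, s4⟩ := sg_facts hk hk2
  have iA : ∀ w, Integrable (AA G ρ n w) (gN d n) := fun w => (hA.mem n w).integrable one_le_two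
  have pt : ∀ g, ‖Gam G ρ n (sg κ • y + κ • g) - ∫ z, G (sg κ • y + κ • g - AA G ρ n y z) ∂gN d n‖ ≤
      2 * ε ^ 2 * κ * ‖g‖ + 2 * ε ^ 2 * κ * ‖y‖ := by
    intro g
    rw [Gam, ← integral_sub (g_int hG (iA _) _) (g_int hG (iA _) _)]
    refine (norm_integral_le_of_norm_le (integrable_const (2 * ε ^ 2 * κ * ‖g‖ + 2 * ε ^ 2 * κ * ‖y‖))
      (Filter.Eventually.of_forall fun z => (hG _ _).trans ?_)).trans (by simp)
    rw [sub_sub_sub_cancel_left, norm_sub_rev]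
    have a1 := hA.lip n z (sg κ • y + κ • g) y
    have a2 : ‖sg κ • y + κ • g - y‖ ≤ κ * ‖g‖ + κ * ‖y‖ := by
      have : sg κ • y + κ • g - y = κ • g - (1 - sg κ) • y := by module
      rw [this]
      refine (norm_sub_le _ _).trans ?_
      rw [norm_smul, norm_smul, Real.norm_of_nonneg hk.le, Real.norm_of_nonneg (by linarith)]
      nlinarith [norm_nonneg y]
    calc ε * ‖AA G ρ n (sg κ • y + κ • g) z - AA G ρ n y z‖ ≤ ε * (2 * ε * (κ * ‖g‖ + κ * ‖y‖)) := by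
          refine mul_le_mul_of_nonneg_left (a1.trans ?_) hε
          gcongr
      _ = _ := by ring
  rw [OU, s3, ← integral_sub ((hOU.int _ _ hGam (sg κ • y) κ).integrable one_le_two) i2]
  refine (norm_integral_le_of_norm_le (g := fun g => 2 * ε ^ 2 * κ * ‖g‖ + 2 * ε ^ 2 * κ * ‖y‖)
    (((int_gs h1).const_mul _).add (integrable_const _)) (Filter.Eventually.of_forall pt)).trans ?_
  rw [integral_add ((int_gs h1).const_mul _) (integrable_const _), integral_const_mul]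
  simp only [integral_const, probReal_univ, smul_eq_mul, one_mul]
  have := m1_le h1 hd
  gcongr

theorem cont_sec {X Y Z : Type} [TopologicalSpace X] [TopologicalSpace Y] [TopologicalSpace Z] (f : X → Y → Z)
    (h : Continuous fun q : X × Y => f q.1 q.2) (y : X) : Continuous (f y) :=
  h.comp (Continuous.prodMk_right y)

theorem tri4 {X : Type} [NormedAddCommGroup X] (a b c e f : X) :
    ‖a - f‖ ≤ ‖a - b‖ + ‖b - c‖ + ‖c - e‖ + ‖f - e‖ := by
  have u1 := norm_sub_le_norm_sub_add_norm_sub a b f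
  have u2 := norm_sub_le_norm_sub_add_norm_sub b c f
  have u3 := norm_sub_le_norm_sub_add_norm_sub c e f
  rw [norm_sub_rev e f] at u3
  linarith

/-- pointwise bound -/
theorem pw (h1 : Gau1 d) (hSG : SGApi d) (hOU : OUApi d) {C : ℝ} (hC : 1 ≤ C)
    (hW : ∀ (α : Measure (E d)) (L κ K : ℝ) (f : E d → ℝ), SG α L → 0 < κ → 2 * L ^ 4 * d ≤ κ ^ 4 → 0 ≤ K →
      LipF K f → |∫ p, f (p.1 + κ • p.2) ∂α.prod (gs d) - ∫ g, f (κ • g) ∂gs d| ≤ C * K * κ)
    (hd : 1 ≤ d) {ε ρ : ℝ} {G : E d → E d} (p : Par) (n : ℕ) (hε : 0 ≤ ε) (hN : Nice ε G) (hp : p.Ok)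
    (hA : AaApi ε ρ G) (hGam : LipF (2 * ε) (Gam G ρ n)) (hk : 0 < p.ka) (hk2 : p.ka ≤ 1 / 2)
    (hL : 2 * (4 * ε) ^ 4 * d ≤ p.ka ^ 4) (y : E d) :
    ‖OU (sg p.ka) (Gam G ρ n) y - BB p G y‖ ≤ (2 * ε ^ 2 * p.ka * √d + 2 * C * ε * p.ka) +
      2 * ε ^ 2 * p.ka * ‖y‖ + ε * ‖mA G ρ n y - m1 p G y‖ := by
  have hG := hN.lip
  have hGc := lip_cont hG
  obtain ⟨i2, w2⟩ := wlv h1 hSG hC hW (hA.sgA n y) hk hL hε hG (sg p.ka • y - mA G ρ n y)
  obtain ⟨-, w5⟩ := wlv h1 hSG hC hW (hOU.f1s p ε G hp hε hN y) hk hL hε hG (sg p.ka • y - m1 p G y)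
  have cA : Continuous (AA G ρ n y) := cont_sec (AA G ρ n) (hA.cont n) y
  have cF : Continuous (F1 p G y) := cont_sec (F1 p G) (hOU.f1c p G hGc) y
  simp only [alA, map_shift _ hGc cA.measurable] at i2 w2
  simp only [be1, map_shift _ hGc cF.measurable] at w5
  rw [← integral_prod _ (bb_int h1 p hp hε hG hk _ y)] at w5
  have t1 := pw1 h1 hOU hd n hε hG hA hGam hk hk2 y i2
  have t3 : ‖∫ g, G (sg p.ka • y - mA G ρ n y + p.ka • g) ∂gs d -
      ∫ g, G (sg p.ka • y - m1 p G y + p.ka • g) ∂gs d‖ ≤ ε * ‖mA G ρ n y - m1 p G y‖ := by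
    rw [← integral_sub ((hOU.int _ _ hG _ p.ka).integrable one_le_two)
      ((hOU.int _ _ hG _ p.ka).integrable one_le_two)]
    refine (norm_integral_le_of_norm_le (integrable_const (ε * ‖mA G ρ n y - m1 p G y‖))
      (Filter.Eventually.of_forall fun z => (hG _ _).trans ?_)).trans (by simp)
    rw [add_sub_add_right_eq_sub, sub_sub_sub_cancel_left, norm_sub_rev]
  refine (tri4 _ _ _ _ _).trans ((add_le_add (add_le_add (add_le_add t1 w2) t3) w5).trans (le_of_eq ?_))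
  ring

/-- the expression is an Ornstein-Uhlenbeck average -/
theorem rep (h1 : Gau1 d) (hOU : OUApi d) {ε ρ τ : ℝ} {G : E d → E d} (p : Par) (n : ℕ) (hε : 0 ≤ ε)
    (hG : LipF ε G) (hp : p.Ok) (hGam : LipF (2 * ε) (Gam G ρ n)) (hk : 0 < p.ka) (hk2 : p.ka ≤ 1 / 2)
    (hτ : τ ^ 2 ≤ 1 - p.ka ^ 2) (w : E d) :
    OU τ (Gam G ρ n) w - OU τ G w - ∫ z, F2 p G w ((1, τ), z) ∂g3 d =
      OU (τ / sg p.ka) (fun y => OU (sg p.ka) (Gam G ρ n) y - BB p G y) w := by
  obtain ⟨s0, s1, s2, s3, s4⟩ := sg_facts hk hk2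
  set κ := p.ka with hκ
  set σ := sg κ with hσ
  have hσ2 : σ ^ 2 ≤ 1 := by nlinarith
  have ht : (τ / σ) ^ 2 ≤ 1 := by
    rw [div_pow, div_le_one (by positivity)]; linarith
  have hts : τ / σ * σ = τ := div_mul_cancel₀ _ s0.ne'
  have hs : sg (τ / σ) * σ = √(1 - κ ^ 2 - τ ^ 2) := by
    rw [sg, ← Real.sqrt_sq s0.le, ← Real.sqrt_mul (by rw [Real.sqrt_sq s0.le]; linarith), Real.sqrt_sq s0.le]
    congr 1
    rw [← s2]
    field_simp
  have eb : ∀ g : E d, σ • ((τ / σ) • w + sg (τ / σ) • g) = τ • w + √(1 - κ ^ 2 - τ ^ 2) • g := by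
    intro g
    rw [smul_add, smul_smul, smul_smul, mul_comm σ, mul_comm σ, hts, hs]
  have l1 := hOU.lip _ σ _ (by positivity) hσ2 hGam
  have l2 := hOU.lip _ σ _ hε hσ2 hG
  have l3 := bb_lip h1 p hp hε hG hk hk2
  have j1 := (hOU.int _ _ l1 ((τ / σ) • w) (sg (τ / σ))).integrable one_le_two
  have j2 := (hOU.int _ _ l2 ((τ / σ) • w) (sg (τ / σ))).integrable one_le_two
  have j3 := (hOU.int _ _ l3 ((τ / σ) • w) (sg (τ / σ))).integrable one_le_two
  have q1 := hOU.semi _ (τ / σ) σ _ ht hσ2 hGam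
  have q2 := hOU.semi _ (τ / σ) σ _ ht hσ2 hG
  rw [hts] at q1 q2
  have eF : ∀ z : E d × E d × E d, F2 p G w ((1, τ), z) =
      G (σ • ((τ / σ) • w + sg (τ / σ) • z.1) + κ • z.2.1 - F1 p G ((τ / σ) • w + sg (τ / σ) • z.1) z.2.2) -
        G (σ • ((τ / σ) • w + sg (τ / σ) • z.1) + κ • z.2.1) := by
    intro z
    simp only [F2, b2, one_smul]
    rw [← hκ, ← hσ, ← eb, smul_smul, inv_mul_cancel₀ s0.ne', one_smul]
  have iF : Integrable (fun z => F2 p G w ((1, τ), z)) (g3 d) := by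
    have c0 : 0 ≤ sg (τ / σ) := Real.sqrt_nonneg _
    have c1 : sg (τ / σ) ≤ 1 := Real.sqrt_le_one.2 (by nlinarith [sq_nonneg (τ / σ)])
    have cG := lip_cont hG
    have cF := hOU.f1c p G cG
    refine Integrable.mono' (g := fun z => ε * (‖F1 p G ((τ / σ) • w) 0‖ + ε * (2 * ‖z‖)))
      (((integrable_const _).add (((int_prod (int_gs h1) (int_prod (int_gs h1) (int_gs h1))).const_mul 2).const_mul
        ε)).const_mul ε) ?_ (Filter.Eventually.of_forall fun z => ?_)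
    · simp only [eF]
      have : Continuous fun z : E d × E d × E d => F1 p G ((τ / σ) • w + sg (τ / σ) • z.1) z.2.2 :=
        cF.comp (f := fun z : E d × E d × E d => ((τ / σ) • w + sg (τ / σ) • z.1, z.2.2)) (by fun_prop)
      exact Continuous.aestronglyMeasurable (by fun_prop)
    · rw [eF]
      refine (hG _ _).trans (mul_le_mul_of_nonneg_left ?_ hε)
      rw [sub_sub_cancel_left, norm_neg]
      have a0 := f1_lip p hp hε hG ((τ / σ) • w + sg (τ / σ) • z.1) ((τ / σ) • w) z.2.2 0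
      rw [add_sub_cancel_left, sub_zero, norm_smul, Real.norm_of_nonneg c0] at a0
      have a1 := norm_le_insert' (F1 p G ((τ / σ) • w + sg (τ / σ) • z.1) z.2.2) (F1 p G ((τ / σ) • w) 0)
      have a2 := norm_fst_le z
      have a3 : ‖z.2.2‖ ≤ ‖z‖ := (norm_snd_le z.2).trans (norm_snd_le z)
      have a4 : sg (τ / σ) * ‖z.1‖ + ‖z.2.2‖ ≤ 2 * ‖z‖ := by nlinarith [norm_nonneg z.1]
      have a5 := mul_le_mul_of_nonneg_left a4 hε
      linarith
  have q3 : ∫ z, F2 p G w ((1, τ), z) ∂g3 d = OU (τ / σ) (BB p G) w - OU (τ / σ) (OU σ G) w := by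
    rw [integral_prod _ iF, OU, OU, ← integral_sub j3 j2]
    refine integral_congr_ae (Filter.Eventually.of_forall fun g => ?_)
    simp only [eF]
    have k2 := (hOU.int _ _ hG (σ • ((τ / σ) • w + sg (τ / σ) • g)) κ).integrable one_le_two
    rw [integral_sub (bb_int h1 p hp hε hG hk _ _) (k2.comp_fst _), BB, OU, s3]
    congr 1
    rw [integral_fun_fst fun x => G (σ • ((τ / σ) • w + sg (τ / σ) • g) + κ • x)]
    simp
  rw [q3, ← q1, ← q2]
  have : OU (τ / σ) (fun y => OU σ (Gam G ρ n) y - BB p G y) w =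
      OU (τ / σ) (OU σ (Gam G ρ n)) w - OU (τ / σ) (BB p G) w := by
    rw [OU, integral_sub j1 j3]; rfl
  rw [this]
  abel

end B2am

open B2am in
theorem stmtB2a (h1 : StmtG1) (_h2 : StmtG2) (hOU : StmtOU) (hAa : StmtAa) (hMean : StmtMean) (hWL : StmtWL)
    (hSG : StmtSG) : StmtB2a := by
  obtain ⟨C, hC, hW⟩ := hWL
  refine ⟨512 * C, by linarith, ?_⟩
  intro d ε ρ τ G p n hd hε hε4 hρ hρ1 hN hp hk hk2 hs hτ0 hτ
  have hA := hAa d ε ρ G hd hε.le hε4 hρ hρ1 hN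
  obtain ⟨hGam, hmA, -, -⟩ := hMean d ε ρ G hd hε.le hε4 hρ hρ1 hN n
  obtain ⟨s0, s1, s2, s3, s4⟩ := sg_facts hk hk2
  have hL : 2 * (4 * ε) ^ 4 * d ≤ p.ka ^ 4 := by
    have : 1 * (512 * ε ^ 4 * d) ≤ C * (512 * ε ^ 4 * d) := by gcongr
    nlinarith
  have ht : (τ / sg p.ka) ^ 2 ≤ 1 := by
    rw [div_pow, div_le_one (by positivity)]; linarith
  have e := funext (rep (h1 d) (hOU d) (ρ := ρ) (τ := τ) p n hε.le hN.lip hp hGam hk hk2 hτ)
  rw [e]
  have l1 := (hOU d).lip _ (sg p.ka) _ (by positivity) (by nlinarith) hGam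
  have l3 := bb_lip (h1 d) p hp hε.le hN.lip hk hk2
  have l4 : LipF (2 * ε + ε * (1 + ε)) fun y => OU (sg p.ka) (Gam G ρ n) y - BB p G y := by
    intro x y
    have a1 := l1 x y
    have a2 := l3 x y
    rw [sub_sub_sub_comm]
    have := norm_sub_le (OU (sg p.ka) (Gam G ρ n) x - OU (sg p.ka) (Gam G ρ n) y) (BB p G x - BB p G y)
    linarith
  refine ((hOU d).contr _ _ _ ht l4).trans ?_
  have hpw := pw (h1 d) (hSG d) (hOU d) hC (fun α L κ K f => hW d α L κ K f hd) hd p n hε.le hN hp hA hGam hk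
    hk2 hL
  have cD : Continuous fun y => mA G ρ n y - m1 p G y :=
    (lip_cont hmA).sub (lip_cont ((hOU d).f1l p ε G hp hε.le hN))
  set c0 := 2 * ε ^ 2 * p.ka * √d + 2 * C * ε * p.ka with hc0
  have hc00 : 0 ≤ c0 := by positivity
  set f1 : E d → ℝ := fun _ => c0
  set f2 : E d → ℝ := (2 * ε ^ 2 * p.ka) • fun y => ‖y‖
  set f3 : E d → ℝ := ε • fun y => ‖mA G ρ n y - m1 p G y‖
  have m1' : AEStronglyMeasurable f1 (gs d) := aestronglyMeasurable_const
  have m2 : AEStronglyMeasurable f2 (gs d) := continuous_norm.aestronglyMeasurable.const_smul _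
  have m3 : AEStronglyMeasurable f3 (gs d) := cD.norm.aestronglyMeasurable.const_smul _
  have b0 : eLpNorm (fun y => OU (sg p.ka) (Gam G ρ n) y - BB p G y) 2 (gs d) ≤ eLpNorm (f1 + f2 + f3) 2 (gs d) :=
    eLpNorm_mono_real fun y => hpw y
  have b1 : eLpNorm f1 2 (gs d) = ENNReal.ofReal c0 := by
    rw [eLpNorm_const _ (by norm_num) (IsProbabilityMeasure.ne_zero _)]
    simp [Real.enorm_of_nonneg hc00]
  have nid : Nice 1 fun x : E d => x :=
    ⟨fun x y => by simp, by simp, contDiff_id, fun x u v => by simp⟩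
  have b2' : eLpNorm f2 2 (gs d) ≤ ENNReal.ofReal (2 * ε ^ 2 * p.ka * (2 * 1 * √d)) := by
    rw [eLpNorm_const_smul, eLpNorm_norm (fun y : E d => y), Real.enorm_of_nonneg (by positivity),
      ENNReal.ofReal_mul (p := 2 * ε ^ 2 * p.ka) (by positivity)]
    gcongr
    exact (hOU d).nG 1 _ hd zero_le_one nid
  have b3 : eLpNorm f3 2 (gs d) = ENNReal.ofReal ε * eLpNorm (fun w => mA G ρ n w - m1 p G w) 2 (gs d) := by
    rw [eLpNorm_const_smul, eLpNorm_norm (fun w => mA G ρ n w - m1 p G w), Real.enorm_of_nonneg hε.le]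
  refine b0.trans ((eLpNorm_add_le (m1'.add m2) m3 one_le_two).trans ?_)
  rw [b3]
  gcongr
  refine (eLpNorm_add_le m1' m2 one_le_two).trans ?_
  rw [b1]
  refine (add_le_add le_rfl b2').trans ?_
  rw [← ENNReal.ofReal_add hc00 (by positivity)]
  refine ENNReal.ofReal_le_ofReal ?_
  have x1 : 0 ≤ ε ^ 2 * p.ka * √d := by positivity
  have x2 : 0 ≤ ε * p.ka := by positivity
  have x3 : 1 * (ε ^ 2 * p.ka * √d) ≤ C * (ε ^ 2 * p.ka * √d) := by gcongr
  have x4 : 0 ≤ C * (ε * p.ka) := by positivity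
  nlinarith

end

end Vale.Agent.P347
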