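import Vale.Agent.P347.Spec2
import Vale.Agent.P347.B2a

open MeasureTheory ProbabilityTheory Finset
open scoped RealInnerProductSpace ENNReal

namespace Vale.Agent.P347

noncomputable section

namespace B2a2m
open B2am

variable {d : ℕ}

/-- vector form of the weak smoothing bound -/
theorem wlv (h1 : Gau1 d) {α : Measure (E d)} {L κ ε b : ℝ} (hb : 0 ≤ b) (hα : Poi α L)
    (hW : ∀ (K : ℝ) (f : E d → ℝ), 0 ≤ K →
      LipF K f → |∫ p, f (p.1 + κ • p.2) ∂α.prod (gs d) - ∫ g, f (κ • g) ∂gs d| ≤ K * b)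
    (hκ : 0 < κ) (hε : 0 ≤ ε)
    {G : E d → E d} (hG : LipF ε G) (c : E d) :
    Integrable (fun g => ∫ a, G (c + (a + κ • g)) ∂α) (gs d) ∧
    ‖∫ g, ∫ a, G (c + (a + κ • g)) ∂α ∂gs d - ∫ g, G (c + κ • g) ∂gs d‖ ≤ ε * b := by
  have := hα.1
  have ia : Integrable (fun x : E d => ‖x‖) α := (hα.2.1.integrable one_le_two).norm
  have i1 : Integrable (fun q : E d × E d => G (c + (q.1 + κ • q.2))) (α.prod (gs d)) := by
    refine int_lip (int_prod ia (int_gs h1)) (K := ε * (1 + κ)) fun x y => (hG _ _).trans ?_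
    have e : c + (x.1 + κ • x.2) - (c + (y.1 + κ • y.2)) = (x - y).1 + κ • (x - y).2 := by
      simp only [Prod.fst_sub, Prod.snd_sub]; module
    rw [e, mul_assoc]
    refine mul_le_mul_of_nonneg_left ((norm_add_le _ _).trans ?_) hε
    rw [norm_smul, Real.norm_of_nonneg hκ.le]
    have a1 := norm_fst_le (x - y)
    have a2 := norm_snd_le (x - y)
    nlinarith
  have i2 : Integrable (fun g : E d => G (c + κ • g)) (gs d) := by
    refine int_lip (int_gs h1) (K := ε * κ) fun x y => (hG _ _).trans ?_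
    have e : c + κ • x - (c + κ • y) = κ • (x - y) := by module
    rw [e, norm_smul, Real.norm_of_nonneg hκ.le, mul_assoc]
  refine ⟨i1.integral_prod_right, ?_⟩
  rw [← integral_prod_symm _ i1]
  set u := ∫ q, G (c + (q.1 + κ • q.2)) ∂α.prod (gs d) - ∫ g, G (c + κ • g) ∂gs d with hu
  have k := hW (ε * ‖u‖) (fun x => ⟪u, G (c + x)⟫) (by positivity) (by
    intro x y
    rw [← inner_sub_right]
    refine (norm_inner_le_norm _ _).trans ?_
    have := hG (c + x) (c + y)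
    rw [add_sub_add_left_eq_sub] at this
    nlinarith [norm_nonneg u])
  rw [integral_inner i1, integral_inner i2, ← inner_sub_right, ← hu, real_inner_self_eq_norm_sq] at k
  have k2 := (abs_le.1 k).2
  by_contra h
  push Not at h
  have h0 : 0 ≤ ε * b := by positivity
  nlinarith

/-- pointwise bound -/
theorem pw (h1 : Gau1 d) (hOU : OUApi d) {b : ℝ} (hb : 0 ≤ b) {ε ρ : ℝ} {G : E d → E d} (p : Par)
    (hW : ∀ (α : Measure (E d)), Poi α (4 * ε) → ∀ (K : ℝ) (f : E d → ℝ), 0 ≤ K →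
      LipF K f → |∫ q, f (q.1 + p.ka • q.2) ∂α.prod (gs d) - ∫ g, f (p.ka • g) ∂gs d| ≤ K * b)
    (hd : 1 ≤ d) (n : ℕ) (hε : 0 ≤ ε) (hN : Nice ε G) (hp : p.Ok)
    (hA : AaApi ε ρ G) (hGam : LipF (2 * ε) (Gam G ρ n)) (hk : 0 < p.ka) (hk2 : p.ka ≤ 1 / 2)
    (y : E d) (pa : Poi (alA G ρ n y) (4 * ε)) (pb : Poi (be1 p G y) (4 * ε)) :
    ‖OU (sg p.ka) (Gam G ρ n) y - BB p G y‖ ≤ (2 * ε ^ 2 * p.ka * √d + 2 * ε * b) +
      2 * ε ^ 2 * p.ka * ‖y‖ + ε * ‖mA G ρ n y - m1 p G y‖ := by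
  have hG := hN.lip
  have hGc := lip_cont hG
  obtain ⟨i2, w2⟩ := B2a2m.wlv h1 hb pa (hW _ pa) hk hε hG (sg p.ka • y - mA G ρ n y)
  obtain ⟨-, w5⟩ := B2a2m.wlv h1 hb pb (hW _ pb) hk hε hG (sg p.ka • y - m1 p G y)
  have cA : Continuous (AA G ρ n y) := cont_sec (AA G ρ n) (hA.cont n) y
  have cF : Continuous (F1 p G y) := cont_sec (F1 p G) (hOU.f1c p G hGc) y
  simp only [alA, map_shift _ hGc cA.measurable] at i2 w2
  simp only [be1, map_shift _ hGc cF.measurable] at w5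
  rw [← integral_prod _ (bb_int h1 p hp hε hG hk _ y)] at w5
  have t1 := pw1 h1 hOU hd n hε hG hA hGam hk hk2 y i2
  have t3 : ‖∫ g, G (sg p.ka • y - mA G ρ n y + p.ka • g) ∂gs d -
      ∫ g, G (sg p.ka • y - m1 p G y + p.ka • g) ∂gs d‖ ≤ ε * ‖mA G ρ n y - m1 p G y‖ := by
    rw [← integral_sub ((hOU.int _ _ hG _ p.ka).integrable one_le_two)
      ((hOU.int _ _ hG _ p.ka).integrable one_le_two)]
    refine (norm_integral_le_of_norm_le (integrable_const (ε * ‖mA G ρ n y - m1 p G y‖))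
      (Filter.Eventually.of_forall fun z => (hG _ _).trans ?_)).trans (by simp)
    rw [add_sub_add_right_eq_sub, sub_sub_sub_cancel_left, norm_sub_rev]
  refine (tri4 _ _ _ _ _).trans ((add_le_add (add_le_add (add_le_add t1 w2) t3) w5).trans (le_of_eq ?_))
  ring

end B2a2m

open B2am in
theorem stmtB2a2 (h1 : StmtG1) (_h2 : StmtG2) (hOU : StmtOU) (hAa : StmtAa) (hMean : StmtMean)
    (hWL2 : StmtWL2) (hAa2 : StmtAa2) : StmtB2a2 := by
  obtain ⟨C, hC, hW⟩ := hWL2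
  refine ⟨32 * C, by linarith, ?_⟩
  intro d ε ρ τ G p n hd hε hε4 hρ hρ1 hN hp hk hk2 hτ0 hτ
  have hA := hAa d ε ρ G hd hε.le hε4 hρ hρ1 hN
  obtain ⟨hGam, hmA, -, -⟩ := hMean d ε ρ G hd hε.le hε4 hρ hρ1 hN n
  obtain ⟨s0, s1, s2, s3, s4⟩ := sg_facts hk hk2
  have ht : (τ / sg p.ka) ^ 2 ≤ 1 := by
    rw [div_pow, div_le_one (by positivity)]; linarith
  have e := funext (rep (h1 d) (hOU d) (ρ := ρ) (τ := τ) p n hε.le hN.lip hp hGam hk hk2 hτ)
  rw [e]
  have l1 := (hOU d).lip _ (sg p.ka) _ (by positivity) (by nlinarith) hGam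
  have l3 := bb_lip (h1 d) p hp hε.le hN.lip hk hk2
  have l4 : LipF (2 * ε + ε * (1 + ε)) fun y => OU (sg p.ka) (Gam G ρ n) y - BB p G y := by
    intro x y
    have a1 := l1 x y
    have a2 := l3 x y
    rw [sub_sub_sub_comm]
    have := norm_sub_le (OU (sg p.ka) (Gam G ρ n) x - OU (sg p.ka) (Gam G ρ n) y) (BB p G x - BB p G y)
    linarith
  refine ((hOU d).contr _ _ _ ht l4).trans ?_
  set b := C * (4 * ε) ^ 2 * √d / p.ka with hb
  have hb0 : 0 ≤ b := by positivity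
  obtain ⟨pa, pb⟩ := hAa2 d ε ρ G hε.le hε4 hN
  have hpw := fun y => B2a2m.pw (h1 d) (hOU d) hb0 p (fun α hα K f hK hf =>
    (hW d α (4 * ε) p.ka K f hα hk hK hf).trans_eq (by rw [hb]; ring)) hd n hε.le hN hp hA hGam hk
    hk2 y (pa hρ hρ1 n y).1 (pb p hp y)
  have cD : Continuous fun y => mA G ρ n y - m1 p G y :=
    (lip_cont hmA).sub (lip_cont ((hOU d).f1l p ε G hp hε.le hN))
  set c0 := 2 * ε ^ 2 * p.ka * √d + 2 * ε * b with hc0
  have hc00 : 0 ≤ c0 := by positivity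
  set f1 : E d → ℝ := fun _ => c0
  set f2 : E d → ℝ := (2 * ε ^ 2 * p.ka) • fun y => ‖y‖
  set f3 : E d → ℝ := ε • fun y => ‖mA G ρ n y - m1 p G y‖
  have m1' : AEStronglyMeasurable f1 (gs d) := aestronglyMeasurable_const
  have m2 : AEStronglyMeasurable f2 (gs d) := continuous_norm.aestronglyMeasurable.const_smul _
  have m3 : AEStronglyMeasurable f3 (gs d) := cD.norm.aestronglyMeasurable.const_smul _
  have b0 : eLpNorm (fun y => OU (sg p.ka) (Gam G ρ n) y - BB p G y) 2 (gs d) ≤ eLpNorm (f1 + f2 + f3) 2 (gs d) :=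
    eLpNorm_mono_real fun y => hpw y
  have b1 : eLpNorm f1 2 (gs d) = ENNReal.ofReal c0 := by
    rw [eLpNorm_const _ (by norm_num) (IsProbabilityMeasure.ne_zero _)]
    simp [Real.enorm_of_nonneg hc00]
  have nid : Nice 1 fun x : E d => x :=
    ⟨fun x y => by simp, by simp, contDiff_id, fun x u v => by simp⟩
  have b2' : eLpNorm f2 2 (gs d) ≤ ENNReal.ofReal (2 * ε ^ 2 * p.ka * (2 * 1 * √d)) := by
    rw [eLpNorm_const_smul, eLpNorm_norm (fun y : E d => y), Real.enorm_of_nonneg (by positivity),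
      ENNReal.ofReal_mul (p := 2 * ε ^ 2 * p.ka) (by positivity)]
    gcongr
    exact (hOU d).nG 1 _ hd zero_le_one nid
  have b3 : eLpNorm f3 2 (gs d) = ENNReal.ofReal ε * eLpNorm (fun w => mA G ρ n w - m1 p G w) 2 (gs d) := by
    rw [eLpNorm_const_smul, eLpNorm_norm (fun w => mA G ρ n w - m1 p G w), Real.enorm_of_nonneg hε.le]
  refine b0.trans ((eLpNorm_add_le (m1'.add m2) m3 one_le_two).trans ?_)
  rw [b3]
  gcongr
  refine (eLpNorm_add_le m1' m2 one_le_two).trans ?_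
  rw [b1]
  refine (add_le_add le_rfl b2').trans ?_
  rw [← ENNReal.ofReal_add hc00 (by positivity)]
  refine ENNReal.ofReal_le_ofReal ?_
  have x1 : 0 ≤ ε ^ 2 * p.ka * √d := by positivity
  have x3 : 1 * (ε ^ 2 * p.ka * √d) ≤ C * (ε ^ 2 * p.ka * √d) := by gcongr
  have x4 : 2 * ε * b = 32 * C * (ε ^ 3 * √d / p.ka) := by rw [hb]; ring
  rw [hc0, x4]
  nlinarith

end

end Vale.Agent.P347
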