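import Vale.Agent.P347.IBP

open MeasureTheory ProbabilityTheory
open scoped RealInnerProductSpace

namespace Vale.Agent.P347

namespace CIm

open IBPm

variable {d : ℕ}

noncomputable def NN (z : E d × E d × E d) : ℝ := 1 + ‖z.1‖ + ‖z.2.1‖ + ‖z.2.2‖

lemma NN_pos (z : E d × E d × E d) : 1 ≤ NN z := by
  unfold NN
  have := norm_nonneg z.1
  have := norm_nonneg z.2.1
  have := norm_nonneg z.2.2
  linarith

lemma int_NN (h1 : StmtG1) : Integrable (fun z : E d × E d × E d => NN z ^ 2) (g3 d) := by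
  have i2 := (h1 d).i2 2
  have a1 : Integrable (fun z : E d × E d × E d => ‖z.1‖ ^ 2) (g3 d) := i2.comp_fst _
  have a2 : Integrable (fun z : E d × E d × E d => ‖z.2.1‖ ^ 2) (g3 d) :=
    (i2.comp_fst (gs d)).comp_snd _
  have a3 : Integrable (fun z : E d × E d × E d => ‖z.2.2‖ ^ 2) (g3 d) :=
    (i2.comp_snd (gs d)).comp_snd _
  refine ((((integrable_const (1 : ℝ)).add a1).add a2).add a3 |>.const_mul 4).mono'
    (by unfold NN; fun_prop) (Filter.Eventually.of_forall fun z => ?_)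
  rw [Real.norm_of_nonneg (sq_nonneg _)]
  simp only [NN, Pi.add_apply]
  nlinarith [sq_nonneg (1 - ‖z.1‖), sq_nonneg (1 - ‖z.2.1‖), sq_nonneg (1 - ‖z.2.2‖),
    sq_nonneg (‖z.1‖ - ‖z.2.1‖), sq_nonneg (‖z.1‖ - ‖z.2.2‖), sq_nonneg (‖z.2.1‖ - ‖z.2.2‖)]

lemma comb_le {a b : ℝ} (ha : |a| ≤ 1) (hb : |b| ≤ 1) (p q : E d) :
    ‖a • p + b • q‖ ≤ ‖p‖ + ‖q‖ := by
  refine (norm_add_le _ _).trans ?_
  rw [norm_smul, norm_smul, Real.norm_eq_abs, Real.norm_eq_abs]
  have := norm_nonneg p
  have := norm_nonneg q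
  nlinarith

lemma mp_swap : MeasurePreserving (fun z : E d × E d × E d => (z.1, z.2.2, z.2.1)) (g3 d) (g3 d) :=
  (MeasurePreserving.id (gs d)).prod (Measure.measurePreserving_swap (μ := gs d) (ν := gs d))

lemma mp_psi (h2 : StmtG2) {a b : ℝ} (hab : a ^ 2 + b ^ 2 = 1) :
    MeasurePreserving (fun y : (E d × E d) × E d =>
      ((a • y.1.1 + (-b) • y.2, - -b • y.1.1 + a • y.2, y.1.2) : E d × E d × E d))
      (((gs d).prod (gs d)).prod (gs d)) (g3 d) := by
  have m1 := measurePreserving_prodAssoc (gs d) (gs d) (gs d)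
  have m4 : MeasurePreserving (fun p : E d × E d => (a • p.1 + (-b) • p.2, - -b • p.1 + a • p.2))
      ((gs d).prod (gs d)) ((gs d).prod (gs d)) :=
    ⟨by fun_prop, (h2 d).rot a (-b) (by rw [← hab]; ring)⟩
  exact m1.comp ((m4.prod (MeasurePreserving.id (gs d))).comp (m1.symm.comp (mp_swap.comp m1)))

lemma int_mp {X Y : Type} [MeasurableSpace X] [MeasurableSpace Y] {μ : Measure X} {ν : Measure Y}
    {f : X → Y} (h : MeasurePreserving f μ ν) {H : Y → ℝ} (hH : AEStronglyMeasurable H ν) :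
    ∫ y, H y ∂ν = ∫ x, H (f x) ∂μ := by
  rw [← h.map_eq] at hH ⊢
  exact integral_map h.measurable.aemeasurable hH

lemma term (h1 : StmtG1) (h2 : StmtG2) (hI : StmtIBP) {a b C K : ℝ} (hab : a ^ 2 + b ^ 2 = 1)
    {V : E d → E d} (hV : Continuous V) (hC : ∀ y, ‖V y‖ ≤ C) {g : E d → ℝ}
    (hg : ContDiff ℝ 1 g) (hK : LipF K g) :
    ∫ z, ⟪V (a • z.1 + b • z.2.1), b • z.1 + (-a) • z.2.1⟫ * g (a • z.1 + b • z.2.2) ∂g3 d =
      a * b * ∫ z, fderiv ℝ g (a • z.1 + b • z.2.2) (V (a • z.1 + b • z.2.1)) ∂g3 d := by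
  have ha : |a| ≤ 1 := by rw [← sq_le_one_iff_abs_le_one]; nlinarith [sq_nonneg b]
  have hb : |b| ≤ 1 := by rw [← sq_le_one_iff_abs_le_one]; nlinarith [sq_nonneg a]
  have hgc := hg.continuous
  have hD := hg.continuous_fderiv one_ne_zero
  have hC0 : 0 ≤ C := (norm_nonneg _).trans (hC 0)
  have c1 : Continuous fun z : E d × E d × E d =>
      ⟪V (a • z.1 + b • z.2.1), b • z.1 + (-a) • z.2.1⟫ * g (a • z.1 + b • z.2.2) := by fun_prop
  have c2 : Continuous fun z : E d × E d × E d =>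
      fderiv ℝ g (a • z.1 + b • z.2.2) (V (a • z.1 + b • z.2.1)) :=
    (hD.comp (by fun_prop)).clm_apply (by fun_prop)
  have i1 : Integrable (fun z : E d × E d × E d =>
      ⟪V (a • z.1 + b • z.2.1), b • z.1 + (-a) • z.2.1⟫ * g (a • z.1 + b • z.2.2)) (g3 d) := by
    refine ((int_NN h1).const_mul (C * (‖g 0‖ + |K|))).mono' c1.aestronglyMeasurable
      (Filter.Eventually.of_forall fun z => ?_)
    have n1 := NN_pos z
    have e1 : ‖⟪V (a • z.1 + b • z.2.1), b • z.1 + (-a) • z.2.1⟫‖ ≤ C * NN z := by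
      refine (norm_inner_le_norm (𝕜 := ℝ) _ _).trans (mul_le_mul (hC _) ?_ (norm_nonneg _) hC0)
      have := comb_le hb (a := b) (b := -a) (by rwa [abs_neg]) z.1 z.2.1
      have := norm_nonneg z.2.2
      unfold NN; linarith
    have e2 : ‖g (a • z.1 + b • z.2.2)‖ ≤ (‖g 0‖ + |K|) * NN z := by
      have e3 : ‖a • z.1 + b • z.2.2‖ ≤ NN z := by
        have := comb_le ha hb z.1 z.2.2
        have := norm_nonneg z.2.1
        unfold NN; linarith
      have := grow hK (a • z.1 + b • z.2.2)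
      have := mul_le_mul_of_nonneg_left e3 (abs_nonneg K)
      have := mul_le_mul_of_nonneg_left n1 (norm_nonneg (g 0))
      nlinarith
    rw [norm_mul]
    calc _ ≤ (C * NN z) * ((‖g 0‖ + |K|) * NN z) :=
          mul_le_mul e1 e2 (norm_nonneg _) (by positivity)
      _ = _ := by ring
  have i2 : Integrable (fun z : E d × E d × E d =>
      fderiv ℝ g (a • z.1 + b • z.2.2) (V (a • z.1 + b • z.2.1))) (g3 d) := by
    refine (integrable_const (|K| * C)).mono' c2.aestronglyMeasurable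
      (Filter.Eventually.of_forall fun z => ?_)
    exact (ContinuousLinearMap.le_opNorm _ _).trans
      (mul_le_mul (fderiv_le hK _) (hC _) (norm_nonneg _) (abs_nonneg _))
  have mp := mp_psi (d := d) h2 hab
  have j1 := mp.integrable_comp_of_integrable i1
  have j2 := mp.integrable_comp_of_integrable i2
  rw [int_mp mp c1.aestronglyMeasurable, int_mp mp c2.aestronglyMeasurable]
  simp only [Function.comp_def] at j1 j2
  rw [integral_prod _ j1, integral_prod _ j2, ← integral_const_mul]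
  refine integral_congr_ae (Filter.Eventually.of_forall fun p => ?_)
  have e1 : ∀ y : E d, a • (a • p.1 + (-b) • y) + b • (- -b • p.1 + a • y) = p.1 := by
    intro y
    have : a • (a • p.1 + (-b) • y) + b • (- -b • p.1 + a • y) = (a ^ 2 + b ^ 2) • p.1 := by module
    rw [this, hab, one_smul]
  have e2 : ∀ y : E d, b • (a • p.1 + (-b) • y) + (-a) • (- -b • p.1 + a • y) = -y := by
    intro y
    have : b • (a • p.1 + (-b) • y) + (-a) • (- -b • p.1 + a • y) = -((a ^ 2 + b ^ 2) • y) := by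
      module
    rw [this, hab, one_smul]
  simp only [e1, e2]
  set F : E d → ℝ := fun y => g (a • (a • p.1 + (-b) • y) + b • p.2) with hF
  have hFd : ∀ y, HasFDerivAt F ((fderiv ℝ g (a • (a • p.1 + (-b) • y) + b • p.2)).comp
      (a • (-b) • ContinuousLinearMap.id ℝ (E d))) y := by
    intro y
    refine HasFDerivAt.comp y ((hg.differentiable one_ne_zero) _).hasFDerivAt ?_
    exact ((((hasFDerivAt_id y).const_smul (-b)).const_add (a • p.1)).const_smul a).add_const _
  have hF1 : ContDiff ℝ 1 F := hg.comp (by fun_prop)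
  have hFL : LipF |K| F := by
    intro y y'
    refine (lip_abs hK _ _).trans (mul_le_mul_of_nonneg_left ?_ (abs_nonneg K))
    have : a • (a • p.1 + (-b) • y) + b • p.2 - (a • (a • p.1 + (-b) • y') + b • p.2) =
        (-(a * b)) • (y - y') := by module
    rw [this, norm_smul, Real.norm_eq_abs, abs_neg, abs_mul]
    have := norm_nonneg (y - y')
    have : |a| * |b| ≤ 1 := mul_le_one₀ ha (abs_nonneg b) hb
    nlinarith
  have key := hI d _ F (V p.1) hF1 hFL
  have e3 : ∀ y, fderiv ℝ F y (V p.1) =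
      -(a * b * fderiv ℝ g (a • (a • p.1 + (-b) • y) + b • p.2) (V p.1)) := by
    intro y
    rw [(hFd y).fderiv]
    simp only [ContinuousLinearMap.comp_apply, ContinuousLinearMap.smul_apply,
      ContinuousLinearMap.id_apply, map_smul, smul_eq_mul]
    ring
  simp only [e3, integral_neg, integral_const_mul] at key
  simp only [inner_neg_right, neg_mul, integral_neg]
  rw [← neg_neg (a * b * _), ← key]

section
variable {ε : ℝ} {G : E d → E d} (hG : Nice ε G)
include hG

lemma hasF (u x : E d) (s : ℝ) (y : E d) : HasFDerivAt (fun y => ⟪u, G (x + s • y)⟫)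
    ((innerSL ℝ u).comp ((fderiv ℝ G (x + s • y)).comp (s • ContinuousLinearMap.id ℝ (E d)))) y :=
  (innerSL ℝ u).hasFDerivAt.comp y (HasFDerivAt.comp y
    ((hG.c1.differentiable one_ne_zero) _).hasFDerivAt
    (((hasFDerivAt_id y).const_smul s).const_add x))

lemma fd (u x : E d) (s : ℝ) (y w : E d) : fderiv ℝ (fun y => ⟪u, G (x + s • y)⟫) y w =
    s * ⟪u, fderiv ℝ G (x + s • y) w⟫ := by
  rw [(hasF hG u x s y).fderiv]
  simp [inner_smul_right]

lemma cd (u x : E d) (s : ℝ) : ContDiff ℝ 1 fun y => ⟪u, G (x + s • y)⟫ :=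
  contDiff_const.inner ℝ (hG.c1.comp (by fun_prop))

lemma lp (u x : E d) (s : ℝ) : LipF (‖u‖ * |ε| * |s|) fun y => ⟪u, G (x + s • y)⟫ := by
  intro y y'
  rw [← inner_sub_right]
  refine (norm_inner_le_norm (𝕜 := ℝ) _ _).trans ?_
  have := lip_abs hG.lip (x + s • y) (x + s • y')
  rw [add_sub_add_left_eq_sub, ← smul_sub, norm_smul, Real.norm_eq_abs] at this
  calc _ ≤ ‖u‖ * (|ε| * (|s| * ‖y - y'‖)) := mul_le_mul_of_nonneg_left this (norm_nonneg u)
    _ = _ := by ring

lemma vc (u x : E d) (s : ℝ) : Continuous fun y => s • fderiv ℝ G (x + s • y) u :=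
  (((hG.c1.continuous_fderiv one_ne_zero).comp (by fun_prop)).clm_apply continuous_const).const_smul s

lemma vb (u x : E d) (s : ℝ) (y : E d) : ‖s • fderiv ℝ G (x + s • y) u‖ ≤ |s| * (|ε| * ‖u‖) := by
  rw [norm_smul, Real.norm_eq_abs]
  exact mul_le_mul_of_nonneg_left ((ContinuousLinearMap.le_opNorm _ _).trans
    (mul_le_mul_of_nonneg_right (fderiv_le hG.lip _) (norm_nonneg _))) (abs_nonneg s)

lemma hasD (u x : E d) (s θ : ℝ) (p q : E d) :
    HasDerivAt (fun θ => ⟪u, G (x + s • (Real.sin θ • p + Real.cos θ • q))⟫)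
      ⟪s • fderiv ℝ G (x + s • (Real.sin θ • p + Real.cos θ • q)) u,
        Real.cos θ • p + (-Real.sin θ) • q⟫ θ := by
  have h := (hasF hG u x s (Real.sin θ • p + Real.cos θ • q)).comp_hasDerivAt θ
    (((Real.hasDerivAt_sin θ).smul_const p).add ((Real.hasDerivAt_cos θ).smul_const q))
  refine h.congr_deriv ?_
  rw [inner_smul_left, hG.sym]
  simp only [ContinuousLinearMap.comp_apply, ContinuousLinearMap.smul_apply,
    ContinuousLinearMap.id_apply, map_smul, innerSL_apply_apply, smul_eq_mul, conj_trivial]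

lemma b1 (u x : E d) (s : ℝ) : ∃ C, 0 ≤ C ∧ ∀ (θ : ℝ) (p q : E d) (n : ℝ), 1 + ‖p‖ + ‖q‖ ≤ n →
    ‖⟪u, G (x + s • (Real.sin θ • p + Real.cos θ • q))⟫‖ ≤ C * n ∧
    ‖⟪s • fderiv ℝ G (x + s • (Real.sin θ • p + Real.cos θ • q)) u,
        Real.cos θ • p + (-Real.sin θ) • q⟫‖ ≤ C * n := by
  refine ⟨‖⟪u, G (x + s • (0 : E d))⟫‖ + abs (‖u‖ * |ε| * |s|) + |s| * (|ε| * ‖u‖), by positivity, ?_⟩
  intro θ p q n hn
  have hp := norm_nonneg p
  have hq := norm_nonneg q
  have t1 := norm_nonneg ⟪u, G (x + s • (0 : E d))⟫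
  have t2 := abs_nonneg (‖u‖ * |ε| * |s|)
  have t3 : 0 ≤ |s| * (|ε| * ‖u‖) := by positivity
  constructor
  · have e1 := grow (lp hG u x s) (Real.sin θ • p + Real.cos θ • q)
    have e2 := comb_le (Real.abs_sin_le_one θ) (Real.abs_cos_le_one θ) p q
    have e3 := mul_le_mul_of_nonneg_left (e2.trans (show ‖p‖ + ‖q‖ ≤ n by linarith)) t2
    have e4 := mul_le_mul_of_nonneg_left (show 1 ≤ n by linarith) t1
    have e5 := mul_nonneg t3 (show 0 ≤ n by linarith)
    nlinarith
  · refine (norm_inner_le_norm (𝕜 := ℝ) _ _).trans ?_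
    have e2 := comb_le (Real.abs_cos_le_one θ) (b := -Real.sin θ)
      (by rw [abs_neg]; exact Real.abs_sin_le_one θ) p q
    have e3 := mul_le_mul (vb hG u x s (Real.sin θ • p + Real.cos θ • q))
      (e2.trans (show ‖p‖ + ‖q‖ ≤ n by linarith)) (norm_nonneg _) t3
    have e4 := mul_nonneg t1 (show 0 ≤ n by linarith)
    have e5 := mul_nonneg t2 (show 0 ≤ n by linarith)
    nlinarith

lemma hc (u v x x' : E d) (s s' : ℝ) {T : Type} [TopologicalSpace T] {a : T → ℝ}
    {z : T → E d × E d × E d} (ha : Continuous a) (hz : Continuous z) : Continuous fun t =>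
      ⟪u, fderiv ℝ G (qa x s (a t) (z t)) (fderiv ℝ G (qb x' s' (a t) (z t)) v)⟫ := by
  have hD := hG.c1.continuous_fderiv one_ne_zero
  have e1 : Continuous fun t => qa x s (a t) (z t) := by unfold qa; fun_prop
  have e2 : Continuous fun t => qb x' s' (a t) (z t) := by unfold qb; fun_prop
  exact continuous_const.inner ((hD.comp e1).clm_apply ((hD.comp e2).clm_apply continuous_const))

lemma hcont (u v x x' : E d) (s s' : ℝ) : Continuous (hh G u v x x' s s') := by
  refine continuous_of_dominated (bound := fun _ => ‖u‖ * (|ε| * (|ε| * ‖v‖)))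
    (fun θ => (hc hG u v x x' s s' (a := fun _ => θ) (z := fun z => z) continuous_const
      continuous_id).aestronglyMeasurable)
    (fun θ => Filter.Eventually.of_forall fun z => ?_) (integrable_const _)
    (Filter.Eventually.of_forall fun z => hc hG u v x x' s s' (a := fun t => t) (z := fun _ => z)
      continuous_id continuous_const)
  refine (norm_inner_le_norm (𝕜 := ℝ) _ _).trans (mul_le_mul_of_nonneg_left ?_ (norm_nonneg u))
  refine (ContinuousLinearMap.le_opNorm _ _).trans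
    (mul_le_mul (fderiv_le hG.lip _) ?_ (norm_nonneg _) (abs_nonneg _))
  exact (ContinuousLinearMap.le_opNorm _ _).trans
    (mul_le_mul_of_nonneg_right (fderiv_le hG.lip _) (norm_nonneg _))

end

noncomputable def P1 (G : E d → E d) (u v x x' : E d) (s s' t : ℝ) (z : E d × E d × E d) : ℝ :=
  ⟪s • fderiv ℝ G (x + s • (Real.sin t • z.1 + Real.cos t • z.2.1)) u,
    Real.cos t • z.1 + (-Real.sin t) • z.2.1⟫ *
    ⟪v, G (x' + s' • (Real.sin t • z.1 + Real.cos t • z.2.2))⟫

noncomputable def P2 (G : E d → E d) (u v x x' : E d) (s s' t : ℝ) (z : E d × E d × E d) : ℝ :=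
  ⟪u, G (x + s • (Real.sin t • z.1 + Real.cos t • z.2.1))⟫ *
    ⟪s' • fderiv ℝ G (x' + s' • (Real.sin t • z.1 + Real.cos t • z.2.2)) v,
      Real.cos t • z.1 + (-Real.sin t) • z.2.2⟫

section
variable {ε : ℝ} {G : E d → E d} (hG : Nice ε G)
include hG

lemma c1 (u v x x' : E d) (s s' t : ℝ) : Continuous (P1 G u v x x' s s' t) := by
  have hGc := hG.c1.continuous
  have v1 := vc hG u x s
  have e1 : Continuous fun z : E d × E d × E d => Real.sin t • z.1 + Real.cos t • z.2.1 := by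
    fun_prop
  have e2 : Continuous fun z : E d × E d × E d => Real.cos t • z.1 + (-Real.sin t) • z.2.1 := by
    fun_prop
  have e3 : Continuous fun z : E d × E d × E d =>
      ⟪v, G (x' + s' • (Real.sin t • z.1 + Real.cos t • z.2.2))⟫ := by fun_prop
  exact ((v1.comp e1).inner e2).mul e3

lemma c2 (u v x x' : E d) (s s' t : ℝ) : Continuous (P2 G u v x x' s s' t) := by
  have hGc := hG.c1.continuous
  have v1 := vc hG v x' s'
  have e1 : Continuous fun z : E d × E d × E d => Real.sin t • z.1 + Real.cos t • z.2.2 := by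
    fun_prop
  have e2 : Continuous fun z : E d × E d × E d => Real.cos t • z.1 + (-Real.sin t) • z.2.2 := by
    fun_prop
  have e3 : Continuous fun z : E d × E d × E d =>
      ⟪u, G (x + s • (Real.sin t • z.1 + Real.cos t • z.2.1))⟫ := by fun_prop
  exact e3.mul ((v1.comp e1).inner e2)

lemma k1 (h1 : StmtG1) (h2 : StmtG2) (hI : StmtIBP) (u v x x' : E d) (s s' φ : ℝ) :
    ∫ z, P1 G u v x x' s s' φ z ∂g3 d =
      Real.sin φ * Real.cos φ * (s * s' * hh G u v x x' s s' φ) := by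
  have hab : Real.sin φ ^ 2 + Real.cos φ ^ 2 = 1 := Real.sin_sq_add_cos_sq φ
  have t1 := term h1 h2 hI hab (vc hG u x s) (vb hG u x s) (cd hG v x' s') (lp hG v x' s')
  simp only [fd hG] at t1
  rw [hh, ← integral_const_mul (s * s')]
  refine t1.trans ?_
  congr 1
  refine integral_congr_ae (Filter.Eventually.of_forall fun z => ?_)
  simp only [qa, qb, map_smul, inner_smul_right]
  rw [← hG.sym, real_inner_comm, hG.sym]
  ring

lemma k2 (h1 : StmtG1) (h2 : StmtG2) (hI : StmtIBP) (u v x x' : E d) (s s' φ : ℝ) :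
    ∫ z, P2 G u v x x' s s' φ z ∂g3 d =
      Real.sin φ * Real.cos φ * (s * s' * hh G u v x x' s s' φ) := by
  have hab : Real.sin φ ^ 2 + Real.cos φ ^ 2 = 1 := Real.sin_sq_add_cos_sq φ
  have t2 := term h1 h2 hI hab (vc hG v x' s') (vb hG v x' s') (cd hG u x s) (lp hG u x s)
  simp only [fd hG] at t2
  rw [hh, int_mp mp_swap (c2 hG u v x x' s s' φ).aestronglyMeasurable,
    int_mp mp_swap (hc hG u v x x' s s' (a := fun _ => φ) (z := fun z => z) continuous_const
      continuous_id).aestronglyMeasurable, ← integral_const_mul (s * s')]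
  refine Eq.trans ?_ (t2.trans ?_)
  · refine integral_congr_ae (Filter.Eventually.of_forall fun z => ?_)
    simp only [P2]
    ring
  · congr 1
    refine integral_congr_ae (Filter.Eventually.of_forall fun z => ?_)
    simp only [qa, qb, map_smul, inner_smul_right]
    ring

lemma hder (h1 : StmtG1) (h2 : StmtG2) (hI : StmtIBP) (u v x x' : E d) (s s' φ : ℝ) :
    HasDerivAt (bb G u v x x' s s')
      (s * s' * (2 * Real.sin φ * Real.cos φ * hh G u v x x' s s' φ)) φ := by
  have hGc := hG.c1.continuous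
  obtain ⟨C, hC, hb⟩ := b1 hG u x s
  obtain ⟨C', hC', hb'⟩ := b1 hG v x' s'
  have n1 : ∀ z : E d × E d × E d, 1 + ‖z.1‖ + ‖z.2.1‖ ≤ NN z := fun z => by
    have := norm_nonneg z.2.2
    unfold NN; linarith
  have n2 : ∀ z : E d × E d × E d, 1 + ‖z.1‖ + ‖z.2.2‖ ≤ NN z := fun z => by
    have := norm_nonneg z.2.1
    unfold NN; linarith
  have iN := (int_NN (d := d) h1).const_mul (C * C')
  have bd : ∀ (z : E d × E d × E d) (a b : ℝ), ‖a‖ ≤ C * NN z → ‖b‖ ≤ C' * NN z →
      ‖a * b‖ ≤ C * C' * NN z ^ 2 := by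
    intro z a b ha hb
    have := NN_pos z
    rw [norm_mul]
    calc _ ≤ (C * NN z) * (C' * NN z) := mul_le_mul ha hb (norm_nonneg _) (by positivity)
      _ = _ := by ring
  have d1 := c1 hG u v x x' s s' φ
  have d2 := c2 hG u v x x' s s' φ
  have q1 : ∀ t z, ‖P1 G u v x x' s s' t z‖ ≤ C * C' * NN z ^ 2 := fun t z =>
    bd z _ _ (hb t _ _ _ (n1 z)).2 (hb' t _ _ _ (n2 z)).1
  have q2 : ∀ t z, ‖P2 G u v x x' s s' t z‖ ≤ C * C' * NN z ^ 2 := fun t z =>
    bd z _ _ (hb t _ _ _ (n1 z)).1 (hb' t _ _ _ (n2 z)).2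
  have i1 : Integrable (P1 G u v x x' s s' φ) (g3 d) :=
    iN.mono' d1.aestronglyMeasurable (Filter.Eventually.of_forall (q1 φ))
  have i2 : Integrable (P2 G u v x x' s s' φ) (g3 d) :=
    iN.mono' d2.aestronglyMeasurable (Filter.Eventually.of_forall (q2 φ))
  have c0 : ∀ t, Continuous fun z : E d × E d × E d =>
      ⟪u, G (qa x s t z)⟫ * ⟪v, G (qb x' s' t z)⟫ := fun t => by unfold qa qb; fun_prop
  have q0 : ∀ z : E d × E d × E d,
      ‖⟪u, G (qa x s φ z)⟫ * ⟪v, G (qb x' s' φ z)⟫‖ ≤ C * C' * NN z ^ 2 := fun z =>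
    bd z _ _ (hb φ _ _ _ (n1 z)).1 (hb' φ _ _ _ (n2 z)).1
  have q3 : ∀ (z : E d × E d × E d) (t : ℝ),
      HasDerivAt (fun t => ⟪u, G (qa x s t z)⟫ * ⟪v, G (qb x' s' t z)⟫)
        (P1 G u v x x' s s' t z + P2 G u v x x' s s' t z) t := fun z t =>
    (hasD hG u x s t z.1 z.2.1).mul (hasD hG v x' s' t z.1 z.2.2)
  have hd := (hasDerivAt_integral_of_dominated_loc_of_deriv_le (μ := g3 d) (s := Set.univ)
    (F := fun t z => ⟪u, G (qa x s t z)⟫ * ⟪v, G (qb x' s' t z)⟫)
    (F' := fun t z => P1 G u v x x' s s' t z + P2 G u v x x' s s' t z) (x₀ := φ)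
    (bound := fun z => C * C' * NN z ^ 2 + C * C' * NN z ^ 2) Filter.univ_mem
    (Filter.Eventually.of_forall fun t => (c0 t).aestronglyMeasurable)
    (iN.mono' (c0 φ).aestronglyMeasurable (Filter.Eventually.of_forall q0))
    (d1.add d2).aestronglyMeasurable
    (Filter.Eventually.of_forall fun z t _ =>
      (norm_add_le _ _).trans (add_le_add (q1 t z) (q2 t z)))
    (iN.add iN)
    (Filter.Eventually.of_forall fun z t _ => q3 z t)).2
  refine hd.congr_deriv ?_
  rw [integral_add i1 i2, k1 hG h1 h2 hI, k2 hG h1 h2 hI]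
  ring

end

end CIm

open CIm in
theorem stmtCI (h1 : StmtG1) (h2 : StmtG2) (hIBP : StmtIBP) : StmtCI := by
  intro d ε G u v x x' s s' hG
  have hc := hcont hG u v x x' s s'
  refine ⟨hc, fun θ => ?_⟩
  rw [← intervalIntegral.integral_const_mul,
    intervalIntegral.integral_eq_sub_of_hasDerivAt
      (fun φ _ => hder hG h1 h2 hIBP u v x x' s s' φ)
      (Continuous.intervalIntegrable (by fun_prop) _ _)]

end Vale.Agent.P347
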