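import Vale.Agent.P347.Spec

open MeasureTheory ProbabilityTheory Finset

namespace Vale.Agent.P347

namespace Chainm

variable {X S : Type} [MeasurableSpace X] [MeasurableSpace S]

lemma intb (μ : Measure X) [IsFiniteMeasure μ] {φ : X → ℝ} (hm : Measurable φ) (C : ℝ)
    (hb : ∀ x, |φ x| ≤ C) : Integrable φ μ :=
  Integrable.of_bound hm.aestronglyMeasurable C (ae_of_all _ hb)

lemma int01 (μ : Measure X) [IsProbabilityMeasure μ] {φ : X → ℝ} (hb : ∀ x, 0 ≤ φ x ∧ φ x ≤ 1) :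
    0 ≤ ∫ x, φ x ∂μ ∧ ∫ x, φ x ∂μ ≤ 1 := by
  refine ⟨integral_nonneg fun x => (hb x).1, ?_⟩
  have := norm_integral_le_of_norm_le_const (μ := μ) (f := φ) (C := 1)
    (ae_of_all _ fun x => by rw [Real.norm_of_nonneg (hb x).1]; exact (hb x).2)
  simp only [probReal_univ, mul_one] at this
  exact (le_abs_self _).trans this

omit [MeasurableSpace X] in
lemma abs01 {φ : X → ℝ} (hb : ∀ x, 0 ≤ φ x ∧ φ x ≤ 1) (x : X) : |φ x| ≤ 1 := by
  rw [abs_of_nonneg (hb x).1]; exact (hb x).2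

omit [MeasurableSpace X] in
lemma sq01 {φ : X → ℝ} (hb : ∀ x, 0 ≤ φ x ∧ φ x ≤ 1) (x : X) : 0 ≤ φ x ^ 2 ∧ φ x ^ 2 ≤ 1 :=
  ⟨sq_nonneg _, pow_le_one₀ (hb x).1 (hb x).2⟩

lemma meas_P {P : X → Measure X} (hP : Measurable P) (hp : ∀ y, IsProbabilityMeasure (P y))
    {φ : X → ℝ} (hm : Measurable φ) : Measurable fun y => ∫ x, φ x ∂P y := by
  let κ : Kernel X X := ⟨P, hP⟩
  have : IsMarkovKernel κ := ⟨hp⟩
  exact (hm.stronglyMeasurable.integral_kernel (κ := κ)).measurable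

lemma prob_bind (μ : Measure X) [IsProbabilityMeasure μ] {P : X → Measure X} (hP : Measurable P)
    (hp : ∀ y, IsProbabilityMeasure (P y)) : IsProbabilityMeasure (μ.bind P) := by
  let κ : Kernel X X := ⟨P, hP⟩
  have : IsMarkovKernel κ := ⟨hp⟩
  exact inferInstanceAs (IsProbabilityMeasure (μ.bind κ))

lemma int_bind (μ : Measure X) [IsProbabilityMeasure μ] {P : X → Measure X} (hP : Measurable P)
    (hp : ∀ y, IsProbabilityMeasure (P y)) {φ : X → ℝ} (hm : Measurable φ)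
    (hb : ∀ x, |φ x| ≤ 1) : ∫ x, φ x ∂μ.bind P = ∫ y, ∫ x, φ x ∂P y ∂μ := by
  have := prob_bind μ hP hp
  let κ : Kernel X X := ⟨P, hP⟩
  have h : Integrable φ ((κ ∘ₖ Kernel.const Unit μ) ()) := by
    rw [← Measure.comp_eq_comp_const_apply]
    exact intb (μ.bind P) hm 1 hb
  have := Kernel.integral_comp h
  rw [← Measure.comp_eq_comp_const_apply] at this
  exact this

lemma law_prob (y0 : X) {P : ℕ → X → Measure X} : ∀ T : ℕ, (∀ t < T, Measurable (P t)) →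
    (∀ t < T, ∀ y, IsProbabilityMeasure (P t y)) → IsProbabilityMeasure (lawP y0 P T)
  | 0, _, _ => by unfold lawP; infer_instance
  | T + 1, h, h' => by
    have := law_prob y0 T (fun t ht => h t (by omega)) (fun t ht => h' t (by omega))
    exact prob_bind _ (h T (by omega)) (h' T (by omega))

lemma run_meas (y0 : X) {f : ℕ → X × S → X} (hf : ∀ t, Measurable (f t)) :
    ∀ T : ℕ, Measurable (run y0 f T)
  | 0 => measurable_const
  | T + 1 => by
    have h := run_meas y0 hf T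
    have hi : Measurable fun s : Fin (T + 1) → S => Fin.init s :=
      measurable_pi_iff.2 fun i => measurable_pi_apply _
    exact (hf T).comp ((h.comp hi).prodMk (measurable_pi_apply _))

lemma run_succ (y0 : X) {f : ℕ → X × S → X} (hf : ∀ t, Measurable (f t)) (ν : Measure S)
    [IsProbabilityMeasure ν] (T : ℕ) {φ : X → ℝ} (hm : Measurable φ) (hb : ∀ x, |φ x| ≤ 1) :
    ∫ ω, φ (run y0 f (T + 1) ω) ∂(Measure.pi fun _ : Fin (T + 1) => ν) =
      ∫ ω, ∫ a, φ (f T (run y0 f T ω, a)) ∂ν ∂(Measure.pi fun _ : Fin T => ν) := by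
  have mp := measurePreserving_piFinSuccAbove (fun _ : Fin (T + 1) => ν) (Fin.last T)
  have hr := run_meas y0 hf T
  have hH : Measurable fun p : S × (Fin T → S) => φ (f T (run y0 f T p.2, p.1)) :=
    hm.comp ((hf T).comp ((hr.comp measurable_snd).prodMk measurable_fst))
  have e1 := mp.integral_comp' (fun p : S × (Fin T → S) => φ (f T (run y0 f T p.2, p.1)))
  rw [← integral_prod_symm _ (intb _ hH 1 fun p => hb _), ← e1]
  refine integral_congr_ae (ae_of_all _ fun ω => ?_)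
  simp [run, Fin.insertNthEquiv]

lemma pt {Pφ P2 ψ V e l : ℝ} (hl : 0 < l) (he : 0 ≤ e) (hV : 0 ≤ V)
    (h : |Pφ - ψ| ≤ e * √V + e ^ 2) : |Pφ - ψ| ≤ (1 / (2 * l) + 1) * e ^ 2 + l / 2 * V := by
  have h5 := Real.sq_sqrt hV
  have : 1 / (2 * l) * e ^ 2 + l / 2 * V - e * √V = (e - l * √V) ^ 2 / (2 * l) := by
    field_simp; rw [sub_sq, mul_pow l, h5]; ring
  have h6 : 0 ≤ (e - l * √V) ^ 2 / (2 * l) := by positivity
  linarith

/-- one step, pointwise -/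
lemma one (P : Measure X) [IsProbabilityMeasure P] (ν : Measure S) [IsProbabilityMeasure ν]
    {g : S → X} (hg : Measurable g) {e l : ℝ} (hl : 0 < l) (he : 0 ≤ e) (h : Rel P (ν.map g) e)
    {φ : X → ℝ} (hm : Measurable φ) (hb : ∀ x, 0 ≤ φ x ∧ φ x ≤ 1) :
    |∫ x, φ x ∂P - ∫ a, φ (g a) ∂ν| ≤ (1 / (2 * l) + 1) * e ^ 2 + l / 2 *
      (∫ x, φ x ^ 2 ∂P - (∫ a, φ (g a) ∂ν) ^ 2 + 2 * |∫ x, φ x ∂P - ∫ a, φ (g a) ∂ν|) := by
  set ψ := ∫ a, φ (g a) ∂ν with hψ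
  have hψ1 : 0 ≤ ψ ∧ ψ ≤ 1 := int01 ν fun a => hb _
  have i1 := intb P hm 1 (abs01 hb)
  have i2 := intb P (hm.pow_const 2) 1 (abs01 (sq01 hb))
  have i3 : Integrable (fun a => φ (g a)) ν := intb ν (hm.comp hg) 1 fun a => abs01 hb _
  have h1 := h (fun x => φ x - ψ) (hm.sub_const _) fun x => by
    have := hb x
    rw [abs_le]; constructor <;> linarith
  rw [integral_map hg.aemeasurable (hm.sub_const _).aestronglyMeasurable,
    integral_sub i1 (integrable_const _), integral_sub i3 (integrable_const _)] at h1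
  simp only [integral_const, probReal_univ, smul_eq_mul, one_mul, Function.comp] at h1
  rw [← hψ, sub_self, sub_zero] at h1
  have hV : 0 ≤ ∫ x, (φ x - ψ) ^ 2 ∂P := integral_nonneg fun x => sq_nonneg _
  have h2 := pt (P2 := 0) hl he hV h1
  have e1 : ∫ x, (φ x - ψ) ^ 2 ∂P = ∫ x, φ x ^ 2 ∂P - 2 * ψ * ∫ x, φ x ∂P + ψ ^ 2 := by
    have : ∀ x, (φ x - ψ) ^ 2 = φ x ^ 2 - 2 * ψ * φ x + ψ ^ 2 := fun x => by ring
    simp only [this]
    have j : Integrable (fun x => φ x ^ 2 - 2 * ψ * φ x) P := i2.sub (i1.const_mul _)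
    rw [integral_add j (integrable_const _), integral_sub i2 (i1.const_mul _), integral_const_mul]
    simp
  have e2 : -(ψ * (∫ x, φ x ∂P - ψ)) ≤ |∫ x, φ x ∂P - ψ| := by
    have a1 := neg_abs_le (∫ x, φ x ∂P - ψ)
    have a2 := abs_nonneg (∫ x, φ x ∂P - ψ)
    nlinarith
  refine h2.trans (add_le_add le_rfl (mul_le_mul_of_nonneg_left ?_ (by positivity)))
  rw [e1]
  nlinarith

lemma main (y0 : X) (P : ℕ → X → Measure X) {f : ℕ → X × S → X} (ν : Measure S)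
    [IsProbabilityMeasure ν] {e : ℕ → X → ℝ} (hf : ∀ t, Measurable (f t))
    (he : ∀ t, Measurable (e t)) (he2 : ∀ t y, 0 ≤ e t y ∧ e t y ≤ 2) {l : ℝ} (hl : 0 < l) :
    ∀ T : ℕ, (∀ t < T, Measurable (P t)) → (∀ t < T, ∀ y, IsProbabilityMeasure (P t y)) →
    (∀ t < T, ∀ y, Rel (P t y) (ν.map fun a => f t (y, a)) (e t y)) →
    ∀ φ : X → ℝ, Measurable φ → (∀ x, 0 ≤ φ x ∧ φ x ≤ 1) → ∃ D : ℝ,
      |∫ y, φ y ∂lawP y0 P T - ∫ ω, φ (run y0 f T ω) ∂Measure.pi fun _ : Fin T => ν| ≤ D ∧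
      D ≤ (1 / (2 * l) + 1) * ∑ t ∈ range T, ∫ y, e t y ^ 2 ∂lawP y0 P t +
        l / 2 * (∫ y, φ y ^ 2 ∂lawP y0 P T + 2 * D)
  | 0, _, _, _, φ, hm, hb => by
    refine ⟨0, ?_, ?_⟩
    · simp [lawP, run, integral_dirac' _ _ hm.stronglyMeasurable]
    · have : 0 ≤ ∫ y, φ y ^ 2 ∂lawP y0 P 0 := integral_nonneg fun x => sq_nonneg _
      simp only [range_zero, sum_empty, mul_zero, add_zero, zero_add]
      positivity
  | T + 1, h1, h2, h3, φ, hm, hb => by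
    have := law_prob y0 T (fun t ht => h1 t (by omega)) (fun t ht => h2 t (by omega))
    have hP := h1 T (by omega)
    have hp := h2 T (by omega)
    set ψ : X → ℝ := fun y => ∫ a, φ (f T (y, a)) ∂ν with hψ
    have mψ : Measurable ψ :=
      ((hm.comp (hf T)).stronglyMeasurable.integral_prod_right' (ν := ν)).measurable
    have bψ : ∀ y, 0 ≤ ψ y ∧ ψ y ≤ 1 := fun y => int01 ν fun a => hb _
    obtain ⟨D, d1, d2⟩ := main y0 P ν hf he he2 hl T (fun t ht => h1 t (by omega))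
      (fun t ht => h2 t (by omega)) (fun t ht => h3 t (by omega)) ψ mψ bψ
    have m1 := meas_P hP hp hm
    have m2 := meas_P hP hp (hm.pow_const 2)
    have b1 : ∀ y, 0 ≤ ∫ x, φ x ∂P T y ∧ ∫ x, φ x ∂P T y ≤ 1 := fun y => by
      have := hp y
      exact int01 _ hb
    have b2 : ∀ y, 0 ≤ ∫ x, φ x ^ 2 ∂P T y ∧ ∫ x, φ x ^ 2 ∂P T y ≤ 1 := fun y => by
      have := hp y
      exact int01 _ (sq01 hb)
    have i1 := intb (lawP y0 P T) m1 1 (abs01 b1)
    have i2 := intb (lawP y0 P T) m2 1 (abs01 b2)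
    have i3 := intb (lawP y0 P T) mψ 1 (abs01 bψ)
    have i4 := intb (lawP y0 P T) (mψ.pow_const 2) 1 (abs01 (sq01 bψ))
    have i5 := intb (lawP y0 P T) ((he T).pow_const 2) 4 fun y => by
      have := he2 T y
      rw [abs_of_nonneg (sq_nonneg _)]; nlinarith
    have i6 : Integrable (fun y => |∫ x, φ x ∂P T y - ψ y|) (lawP y0 P T) := (i1.sub i3).abs
    have j1 : Integrable (fun y => ∫ x, φ x ^ 2 ∂P T y - ψ y ^ 2) (lawP y0 P T) := i2.sub i4
    have j2 : Integrable (fun y => ∫ x, φ x ^ 2 ∂P T y - ψ y ^ 2 + 2 * |∫ x, φ x ∂P T y - ψ y|)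
        (lawP y0 P T) := j1.add (i6.const_mul _)
    have k1 : ∫ y, φ y ∂lawP y0 P (T + 1) = ∫ y, ∫ x, φ x ∂P T y ∂lawP y0 P T :=
      int_bind _ hP hp hm (abs01 hb)
    have k2 : ∫ y, φ y ^ 2 ∂lawP y0 P (T + 1) = ∫ y, ∫ x, φ x ^ 2 ∂P T y ∂lawP y0 P T :=
      int_bind _ hP hp (hm.pow_const 2) (abs01 (sq01 hb))
    have k3 : ∫ ω, φ (run y0 f (T + 1) ω) ∂(Measure.pi fun _ : Fin (T + 1) => ν) =
        ∫ ω, ψ (run y0 f T ω) ∂(Measure.pi fun _ : Fin T => ν) :=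
      run_succ y0 hf ν T hm (abs01 hb)
    have k4 : |∫ y, ∫ x, φ x ∂P T y ∂lawP y0 P T - ∫ y, ψ y ∂lawP y0 P T| ≤
        ∫ y, |∫ x, φ x ∂P T y - ψ y| ∂lawP y0 P T := by
      rw [← integral_sub i1 i3]
      exact abs_integral_le_integral_abs
    have k5 : ∫ y, |∫ x, φ x ∂P T y - ψ y| ∂lawP y0 P T ≤
        ∫ y, ((1 / (2 * l) + 1) * e T y ^ 2 + l / 2 *
          (∫ x, φ x ^ 2 ∂P T y - ψ y ^ 2 + 2 * |∫ x, φ x ∂P T y - ψ y|)) ∂lawP y0 P T := by
      refine integral_mono i6 ((i5.const_mul _).add (j2.const_mul _)) fun y => ?_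
      have := hp y
      exact one (P T y) ν ((hf T).comp measurable_prodMk_left) hl (he2 T y).1 (h3 T (by omega) y)
        hm hb
    rw [integral_add (i5.const_mul _) (j2.const_mul _),
      integral_const_mul, integral_const_mul, integral_add j1 (i6.const_mul _),
      integral_sub i2 i4, integral_const_mul] at k5
    refine ⟨D + ∫ y, |∫ x, φ x ∂P T y - ψ y| ∂lawP y0 P T, ?_, ?_⟩
    · rw [k1, k3]
      have := abs_sub_le (∫ y, ∫ x, φ x ∂P T y ∂lawP y0 P T) (∫ y, ψ y ∂lawP y0 P T)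
        (∫ ω, ψ (run y0 f T ω) ∂(Measure.pi fun _ : Fin T => ν))
      linarith
    · rw [k2, sum_range_succ]
      nlinarith

end Chainm

open Chainm in
theorem stmtChain : StmtChain := by
  intro X S _ _ y0 P f ν _ e T s h1 h2 hf he he2 h3 s0 s1 hs
  refine ⟨run_meas y0 hf T, fun φ hm hb => ?_⟩
  have := law_prob y0 T h1 h2
  have key : ∀ l : ℝ, 0 < l → s ≤ l → l ≤ 1 / 4 →
      |∫ y, φ y ∂lawP y0 P T - ∫ ω, φ (run y0 f T ω) ∂Measure.pi fun _ : Fin T => ν| ≤ 2 * l := by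
    intro l hl l1 l2
    obtain ⟨D, d1, d2⟩ := main y0 P ν hf he he2 hl T h1 h2 h3 φ hm hb
    have a1 := (int01 (lawP y0 P T) (sq01 hb)).2
    have a2 : (1 / (2 * l) + 1) * ∑ t ∈ range T, ∫ y, e t y ^ 2 ∂lawP y0 P t ≤
        (1 / (2 * l) + 1) * l ^ 2 :=
      mul_le_mul_of_nonneg_left (hs.trans (by gcongr)) (by positivity)
    have a3 : (1 / (2 * l) + 1) * l ^ 2 = l / 2 + l ^ 2 := by field_simp
    have a4 : l / 2 * ∫ y, φ y ^ 2 ∂lawP y0 P T ≤ l / 2 := by nlinarith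
    have a5 : 0 ≤ D := (abs_nonneg _).trans d1
    refine d1.trans ?_
    nlinarith
  rcases s0.eq_or_lt with rfl | s0
  · refine le_of_forall_pos_le_add fun δ hδ => ?_
    have := key (min (δ / 2) (1 / 4)) (by positivity) (by positivity) (min_le_right _ _)
    have := min_le_left (δ / 2) (1 / 4)
    linarith
  · exact key s s0 le_rfl s1

end Vale.Agent.P347
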