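import Vale.Agent.P347.Spec

open MeasureTheory ProbabilityTheory Finset
open scoped RealInnerProductSpace ENNReal

namespace Vale.Agent.P347

namespace Clsm

variable {d : ℕ}

/-- Riesz map as a real linear map -/
noncomputable def T (d : ℕ) : (E d →L[ℝ] ℝ) →L[ℝ] E d :=
  LinearMap.mkContinuous
    { toFun := fun f => (InnerProductSpace.toDual ℝ (E d)).symm f
      map_add' := fun f g => map_add _ f g
      map_smul' := fun c f => by simp } 1 fun f => by simp

theorem T_inner (f : E d →L[ℝ] ℝ) (v : E d) : ⟪T d f, v⟫ = f v :=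
  InnerProductSpace.toDual_symm_apply

theorem grad_eq (V : E d → ℝ) : gradient V = fun x => T d (fderiv ℝ V x) := rfl

/-- the Hessian as an operator -/
noncomputable def H (V : E d → ℝ) (x : E d) : E d →L[ℝ] E d :=
  (T d).comp (fderiv ℝ (fderiv ℝ V) x)

theorem H_inner (V : E d → ℝ) (x u v : E d) : ⟪H V x u, v⟫ = fderiv ℝ (fderiv ℝ V) x u v :=
  T_inner _ _

theorem c1 {V : E d → ℝ} (hV : InClass V) : ContDiff ℝ 1 (gradient V) :=
  (T d).contDiff.comp (hV.1.fderiv_right (m := 1) (by norm_num))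

theorem hasD {V : E d → ℝ} (hV : InClass V) (x : E d) : HasFDerivAt (gradient V) (H V x) x :=
  (T d).hasFDerivAt.comp x
    (((hV.1.fderiv_right (m := 1) (by norm_num)).differentiable one_ne_zero) x).hasFDerivAt

theorem sym {V : E d → ℝ} (hV : InClass V) (x u v : E d) : ⟪H V x u, v⟫ = ⟪u, H V x v⟫ := by
  rw [real_inner_comm (H V x v), H_inner, H_inner]
  exact (hV.1.contDiffAt.isSymmSndFDerivAt (by simp)) u v

theorem opn (A : E d →L[ℝ] E d) (M : ℝ) (hM : 0 ≤ M) (hs : ∀ u v, ⟪A u, v⟫ = ⟪u, A v⟫)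
    (h : ∀ v, |⟪A v, v⟫| ≤ M * ‖v‖ ^ 2) : ‖A‖ ≤ M := by
  have h1 : ∀ u v, 4 * ⟪A u, v⟫ ≤ 2 * M * (‖u‖ ^ 2 + ‖v‖ ^ 2) := by
    intro u v
    have a := (abs_le.1 (h (u + v))).2
    have b := (abs_le.1 (h (u - v))).1
    have c : ⟪A v, u⟫ = ⟪A u, v⟫ := by rw [hs, real_inner_comm]
    rw [map_add, inner_add_left, inner_add_right, inner_add_right, norm_add_sq_real, c] at a
    rw [map_sub, inner_sub_left, inner_sub_right, inner_sub_right, norm_sub_sq_real, c] at b
    linarith
  refine A.opNorm_le_bound hM fun u => ?_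
  by_cases hu : u = 0
  · simp [hu]
  by_cases hw : A u = 0
  · rw [hw, norm_zero]; positivity
  have a := h1 (‖A u‖ • u) (‖u‖ • A u)
  rw [map_smul, real_inner_smul_left, real_inner_smul_right, real_inner_self_eq_norm_sq, norm_smul,
    norm_smul, norm_norm, norm_norm] at a
  have b : 0 < ‖u‖ := norm_pos_iff.2 hu
  have c : 0 < ‖A u‖ := norm_pos_iff.2 hw
  have e : 0 < 4 * (‖u‖ * ‖A u‖ ^ 2) := by positivity
  refine le_of_mul_le_mul_left ?_ e
  nlinarith

theorem lipA {V : E d → ℝ} (hV : InClass V) (a b M : ℝ) (h1 : |a + b| ≤ M) (h2 : |a + 2 * b| ≤ M)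
    (x y : E d) : ‖a • (x - y) + b • (gradient V x - gradient V y)‖ ≤ M * ‖x - y‖ := by
  have hM : 0 ≤ M := (abs_nonneg _).trans h1
  have h3 : ∀ z : E d, HasFDerivAt (fun z => a • z + b • gradient V z)
      (a • ContinuousLinearMap.id ℝ (E d) + b • H V z) z :=
    fun z => ((hasFDerivAt_id z).const_smul a).add ((hasD hV z).const_smul b)
  have h4 := (convex_univ (𝕜 := ℝ) (E := E d)).norm_image_sub_le_of_norm_hasFDerivWithin_le
    (fun z _ => (h3 z).hasFDerivWithinAt) (C := M) (fun z _ => ?_) (Set.mem_univ y) (Set.mem_univ x)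
  · have e : a • (x - y) + b • (gradient V x - gradient V y) =
        a • x + b • gradient V x - (a • y + b • gradient V y) := by
      rw [smul_sub, smul_sub]; abel
    rwa [e]
  · refine opn _ M hM (fun u v => ?_) fun v => ?_
    · simp only [ContinuousLinearMap.add_apply, ContinuousLinearMap.smul_apply,
        ContinuousLinearMap.id_apply, inner_add_left, inner_add_right, real_inner_smul_left,
        real_inner_smul_right, sym hV]
    · simp only [ContinuousLinearMap.add_apply, ContinuousLinearMap.smul_apply,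
        ContinuousLinearMap.id_apply, inner_add_left, real_inner_smul_left, H_inner,
        real_inner_self_eq_norm_sq]
      obtain ⟨p, q⟩ := hV.2.2.2 z v
      rw [abs_le] at h1 h2 ⊢
      have n := sq_nonneg ‖v‖
      rcases le_total 0 b with hb | hb
      · constructor <;> nlinarith [h1.1, h2.2]
      · constructor <;> nlinarith [h1.2, h2.1]

theorem lipD {V : E d → ℝ} (hV : InClass V) (x y : E d) :
    ‖gradient V x - gradient V y‖ ≤ 2 * ‖x - y‖ := by
  simpa using lipA hV 0 1 2 (by norm_num) (by norm_num) x y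

theorem two (f f' f'' : ℝ → ℝ) (h1 : ∀ t, HasDerivAt f (f' t) t) (h2 : ∀ t, HasDerivAt f' (f'' t) t)
    (h3 : ∀ t, 0 ≤ f'' t) (h4 : f 0 = 0) (h5 : f' 0 = 0) : 0 ≤ f 1 := by
  have m := monotone_of_hasDerivAt_nonneg h2 h3
  obtain ⟨c, hc, e⟩ := exists_hasDerivAt_eq_slope f f' zero_lt_one
    (fun t _ => (h1 t).continuousAt.continuousWithinAt) fun t _ => h1 t
  have := m hc.1.le
  rw [h5, e, h4] at this
  simpa using this

theorem lohi {V : E d → ℝ} (hV : InClass V) (x : E d) : ‖x‖ ^ 2 / 2 ≤ V x ∧ V x ≤ ‖x‖ ^ 2 := by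
  have l : ∀ t : ℝ, HasDerivAt (fun t : ℝ => t • x) x t := fun t => by
    simpa using (hasDerivAt_id t).smul_const x
  have d1 : ∀ t : ℝ, HasDerivAt (fun t : ℝ => V (t • x)) ⟪gradient V (t • x), x⟫ t := fun t => by
    rw [grad_eq, T_inner]
    exact ((hV.1.differentiable (by norm_num)) (t • x)).hasFDerivAt.comp_hasDerivAt t (l t)
  have d2 : ∀ t : ℝ, HasDerivAt (fun t : ℝ => ⟪gradient V (t • x), x⟫)
      (fderiv ℝ (fderiv ℝ V) (t • x) x x) t := fun t => by
    have := ((hasD hV (t • x)).comp_hasDerivAt t (l t)).inner ℝ (hasDerivAt_const t x)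
    rw [inner_zero_right, zero_add, H_inner] at this
    exact this
  have q1 : ∀ c t : ℝ, HasDerivAt (fun t : ℝ => c * t ^ 2) (2 * c * t) t := fun c t => by
    refine ((hasDerivAt_pow 2 t).const_mul c).congr_deriv ?_
    simp; ring
  have q2 : ∀ c t : ℝ, HasDerivAt (fun t : ℝ => 2 * c * t) (2 * c) t := fun c t => by
    simpa using (hasDerivAt_id t).const_mul (2 * c)
  have a := two _ _ _ (fun t => (d1 t).sub (q1 (‖x‖ ^ 2 / 2) t))
    (fun t => (d2 t).sub (q2 (‖x‖ ^ 2 / 2) t)) (fun t => by linarith [(hV.2.2.2 (t • x) x).1])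
    (by simp [hV.2.1]) (by simp [hV.2.2.1])
  have b := two _ _ _ (fun t => (q1 (‖x‖ ^ 2) t).sub (d1 t))
    (fun t => (q2 (‖x‖ ^ 2) t).sub (d2 t)) (fun t => by linarith [(hV.2.2.2 (t • x) x).2])
    (by simp [hV.2.1]) (by simp [hV.2.2.1])
  simp only [Pi.sub_apply, one_smul, one_pow, mul_one] at a b
  constructor <;> linarith

theorem lipG {V : E d → ℝ} (hV : InClass V) (η : ℝ) (y c : E d) (hη : 0 < η) :
    LipF (2 * η) (GG η (gradient V) y c) := by
  intro z z'
  have hs : 0 < √η := Real.sqrt_pos.2 hη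
  have h := lipD hV (c + √η • z) (c + √η • z')
  rw [add_sub_add_left_eq_sub, ← smul_sub, norm_smul, Real.norm_of_nonneg hs.le] at h
  rw [GG, GG, add_sub_add_right_eq_sub, ← smul_sub, norm_smul, Real.norm_of_nonneg hs.le]
  refine (mul_le_mul_of_nonneg_left h hs.le).trans (le_of_eq ?_)
  have := Real.mul_self_sqrt hη.le
  linear_combination 2 * ‖z - z'‖ * this

theorem cenD {V : E d → ℝ} (hV : InClass V) (η : ℝ) (hη : 0 < η) (y : E d) (k : ℕ) :
    ‖cen η (gradient V) y k - cen η (gradient V) y (k + 1)‖ ≤ (2 * η) ^ (k + 1) * ‖y‖ := by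
  induction k with
  | zero =>
    have h := lipD hV y 0
    rw [hV.2.2.1, sub_zero, sub_zero] at h
    simp only [cen, sub_sub_cancel, norm_smul, Real.norm_of_nonneg hη.le, zero_add, pow_one]
    nlinarith
  | succ k ih =>
    have h := lipD hV (cen η (gradient V) y k) (cen η (gradient V) y (k + 1))
    have e : cen η (gradient V) y (k + 1) - cen η (gradient V) y (k + 1 + 1) =
        -(η • (gradient V (cen η (gradient V) y k) - gradient V (cen η (gradient V) y (k + 1)))) := by
      rw [cen.eq_2 η _ y (k + 1), cen.eq_2 η _ y k, smul_sub]; abel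
    rw [e, norm_neg, norm_smul, Real.norm_of_nonneg hη.le, pow_succ]
    nlinarith

theorem hasG {V : E d → ℝ} (hV : InClass V) (η : ℝ) (y c z : E d) :
    HasFDerivAt (GG η (gradient V) y c)
      (√η • (H V (c + √η • z)).comp (√η • ContinuousLinearMap.id ℝ (E d))) z :=
  (((hasD hV (c + √η • z)).comp z
    (((hasFDerivAt_id z).const_smul √η).const_add c)).const_smul √η).add_const _

end Clsm

open Clsm in
theorem stmtCls : StmtCls := by
  intro d V hV
  refine ⟨(c1 hV).continuous, fun x => (lohi hV x).1, fun x => (lohi hV x).2, ?_,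
    fun η y c hη => lipG hV η y c hη, ?_, ?_⟩
  · intro η y c hη z
    rw [hasGradientAt_iff_hasFDerivAt]
    have h1 := ((hV.1.differentiable (by norm_num)) (c + √η • z)).hasFDerivAt.comp z
      (((hasFDerivAt_id z).const_smul √η).const_add c)
    have h2 := h1.add (((innerSL ℝ (c - y)).hasFDerivAt (x := z)).const_mul (√η)⁻¹)
    refine h2.congr_fderiv ?_
    ext v
    simp only [GG, grad_eq, InnerProductSpace.toDual_apply_apply, inner_add_left,
      real_inner_smul_left, T_inner, ContinuousLinearMap.add_apply, ContinuousLinearMap.comp_apply,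
      ContinuousLinearMap.smul_apply, ContinuousLinearMap.id_apply, map_smul, smul_eq_mul,
      innerSL_apply_apply]
  · intro η y c h hη hη4 h0 h2 z z'
    have hs : 0 < √η := Real.sqrt_pos.2 hη
    have a := lipA hV (1 - h) (-(h * η)) (1 - h * (1 + η))
      (by rw [abs_le]; constructor <;> nlinarith) (by rw [abs_le]; constructor <;> nlinarith)
      (c + √η • z) (c + √η • z')
    have e : (1 - h) • (c + √η • z - (c + √η • z')) +
        -(h * η) • (gradient V (c + √η • z) - gradient V (c + √η • z')) =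
        √η • ((1 - h) • z - h • GG η (gradient V) y c z -
          ((1 - h) • z' - h • GG η (gradient V) y c z')) := by
      have := Real.mul_self_sqrt hη.le
      rw [GG, GG]
      set s := √η
      rw [← this]
      module
    rw [e, add_sub_add_left_eq_sub, ← smul_sub, norm_smul, norm_smul, Real.norm_of_nonneg hs.le,
      mul_left_comm] at a
    exact le_of_mul_le_mul_left a hs
  · intro η ε y hη h1 h2 h3
    have hs : 0 < √η := Real.sqrt_pos.2 hη
    refine ⟨fun z z' => (lipG hV η y _ hη z z').trans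
      (mul_le_mul_of_nonneg_right h1 (norm_nonneg _)), ?_, ?_, ?_⟩
    · have a := cenD hV η hη y 13
      have e : GG η (gradient V) y (cen η (gradient V) y 13) 0 =
          (√η)⁻¹ • (cen η (gradient V) y 13 - cen η (gradient V) y (13 + 1)) := by
        have h4 : (√η)⁻¹ * η = √η := by
          rw [inv_mul_eq_iff_eq_mul₀ hs.ne', Real.mul_self_sqrt hη.le]
        rw [cen.eq_2 η _ y 13, GG, smul_zero, add_zero, ← sub_add, smul_add, smul_smul, h4,
          add_comm]
      rw [e, norm_smul, Real.norm_of_nonneg (inv_nonneg.2 hs.le), inv_mul_le_iff₀ hs]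
      refine a.trans ?_
      have h4 : η ≤ √η := Real.le_sqrt_of_sq_le (by nlinarith)
      have h5 : (2 * η) ^ (13 + 1) * ‖y‖ = 2 * η * η * (2 * ‖y‖ * (2 * η) ^ 12) := by ring
      rw [h5]
      have h6 : 2 * η * η * (2 * ‖y‖ * (2 * η) ^ 12) ≤ 2 * η * η :=
        mul_le_of_le_one_right (by positivity) h3
      nlinarith
    · have := c1 hV
      unfold GG
      fun_prop
    · intro x u v
      rw [(hasG hV η y _ x).fderiv]
      simp only [ContinuousLinearMap.smul_apply, ContinuousLinearMap.comp_apply,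
        ContinuousLinearMap.id_apply, map_smul, real_inner_smul_left, real_inner_smul_right, sym hV]

end Vale.Agent.P347
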