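import Vale.Agent.P347.Spec

open MeasureTheory

namespace Vale.Agent.P347

namespace Cmpm

variable {d : ℕ} {Ω : Type}

theorem hist_ge (qr : ℕ → Ω × (ℕ → ℝ × E d) → E d) (O : E d → ℝ × E d) (ω : Ω) :
    ∀ i k, i ≤ k → hist qr O ω i k = (0, 0) := by
  intro i
  induction i with
  | zero => exact fun _ _ => rfl
  | succ i ih => intro k h; rw [hist, Function.update_of_ne (by omega), ih k (by omega)]

noncomputable def cut (q : ℕ) (h : ℕ → ℝ × E d) : ℕ → ℝ × E d := fun i => if i < q then h i else (0, 0)

theorem cut_meas (q : ℕ) : Measurable (cut (d := d) q) := by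
  refine measurable_pi_lambda _ fun i => ?_
  unfold cut
  split_ifs
  · exact measurable_pi_apply i
  · exact measurable_const

theorem cut_hist (qr : ℕ → Ω × (ℕ → ℝ × E d) → E d) (O : E d → ℝ × E d) (ω : Ω) (q i : ℕ) :
    cut q (hist qr O ω (q + i)) = hist qr O ω q := by
  funext k
  unfold cut
  split_ifs with c
  · induction i with
    | zero => rfl
    | succ i ih => rw [← add_assoc, hist, Function.update_of_ne (by omega), ih]
  · exact (hist_ge qr O ω q k (by omega)).symm

end Cmpm

open Cmpm in
theorem stmtCmp : StmtCmp := by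
  intro d
  refine ⟨fun Ω α _ _ f hf => ⟨fun _ _ => 0, fun p => f p.1, fun _ => measurable_const,
    hf.comp measurable_fst, fun _ _ => rfl⟩, fun Ω _ f hf => ⟨fun _ p => f p.1, fun p => (p.2 0).2,
    fun _ => hf.comp measurable_fst, by fun_prop, fun O ω => by simp [hist]⟩, ?_, ?_, ?_⟩
  · rintro Ω α β _ _ _ q q' F F' ⟨qr1, o1, m1, m2, h1⟩ ⟨qr2, o2, m3, m4, h2⟩
    have mT : Measurable fun p : Ω × (ℕ → ℝ × E d) =>
        (((p.1, o1 (p.1, cut q p.2)), fun k => p.2 (q + k)) : (Ω × α) × (ℕ → ℝ × E d)) :=
      (measurable_fst.prodMk (m2.comp (measurable_fst.prodMk ((cut_meas q).comp measurable_snd)))).prodMk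
        (measurable_pi_lambda _ fun k => (measurable_pi_apply _).comp measurable_snd)
    obtain ⟨qr, hqr⟩ : ∃ qr : ℕ → Ω × (ℕ → ℝ × E d) → E d, ∀ i p, qr i p = if i < q then qr1 i p
        else qr2 (i - q) ((p.1, o1 (p.1, cut q p.2)), fun k => p.2 (q + k)) := ⟨_, fun _ _ => rfl⟩
    refine ⟨qr, fun p => o2 ((p.1, o1 (p.1, cut q p.2)), fun k => p.2 (q + k)), fun i => ?_,
      m4.comp mT, fun O ω => ?_⟩
    · rw [funext (hqr i)]
      split_ifs
      · exact m1 i
      · exact (m3 _).comp mT
    have a1 : ∀ i ≤ q, hist qr O ω i = hist qr1 O ω i := by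
      intro i
      induction i with
      | zero => exact fun _ => rfl
      | succ i ih => intro h; rw [hist, hist, ih (by omega), hqr, if_pos (by omega)]
    have a2 : ∀ i, o1 (ω, cut q (hist qr O ω (q + i))) = F ω fun x => (O x).2 := fun i => by
      rw [cut_hist, a1 q le_rfl, h1]
    have a3 : ∀ i, (fun k => hist qr O ω (q + i) (q + k)) =
        hist qr2 O (ω, F ω fun x => (O x).2) i := by
      intro i
      induction i with
      | zero => exact funext fun k => hist_ge qr O ω _ _ (by omega)
      | succ i ih =>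
        funext k
        rw [← add_assoc, hist, hist, hqr, if_neg (by omega), Nat.add_sub_cancel_left]
        dsimp only
        rw [a2, ih]
        by_cases c : k = i
        · rw [c, Function.update_self, Function.update_self]
        · rw [Function.update_of_ne (by omega), Function.update_of_ne c, ← ih]
    dsimp only
    rw [a2, a3, h2]
  · rintro Ω α _ _ q q' F h ⟨qr, o, m1, m2, h1⟩
    obtain ⟨i, rfl⟩ := Nat.exists_eq_add_of_le h
    refine ⟨qr, fun p => o (p.1, cut q p.2), m1,
      m2.comp (measurable_fst.prodMk ((cut_meas q).comp measurable_snd)), fun O ω => ?_⟩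
    dsimp only
    rw [cut_hist, h1]
  · rintro Ω Ω' α _ _ _ q F f hf ⟨qr, o, m1, m2, h1⟩
    have mT : Measurable fun p : Ω' × (ℕ → ℝ × E d) => (f p.1, p.2) :=
      (hf.comp measurable_fst).prodMk measurable_snd
    refine ⟨fun i p => qr i (f p.1, p.2), fun p => o (f p.1, p.2), fun i => (m1 i).comp mT,
      m2.comp mT, fun O ω => ?_⟩
    have a1 : ∀ i, hist (fun i p => qr i (f p.1, p.2)) O ω i = hist qr O (f ω) i := by
      intro i
      induction i with
      | zero => rfl
      | succ i ih => rw [hist, hist, ih]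
    dsimp only
    rw [a1, h1]

end Vale.Agent.P347
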