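import Vale.Agent.P347.Spec

open MeasureTheory ProbabilityTheory Finset
open scoped RealInnerProductSpace ENNReal

namespace Vale.Agent.P347

namespace Conm

variable {d : ℕ}

theorem contL {X Y : Type} [NormedAddCommGroup X] [NormedAddCommGroup Y] {K : ℝ} {F : X → Y}
    (h : LipF K F) : Continuous F :=
  (LipschitzWith.of_dist_le' (K := K) fun x y => by
    rw [dist_eq_norm, dist_eq_norm]; exact h x y).continuous

theorem intg {X : Type} [TopologicalSpace X] [MeasurableSpace X] [OpensMeasurableSpace X]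
    [SecondCountableTopology X] (μ : Measure X) [IsFiniteMeasure μ] (F : X → ℝ) (B : ℝ)
    (hF : Continuous F) (hB : ∀ z, |F z| ≤ B) : Integrable F μ :=
  Integrable.of_bound hF.aestronglyMeasurable B (Filter.Eventually.of_forall hB)

theorem absI {X : Type} [MeasurableSpace X] (μ : Measure X) [IsProbabilityMeasure μ] (F : X → ℝ)
    (K : ℝ) (h : ∀ z, |F z| ≤ K) : |∫ z, F z ∂μ| ≤ K := by
  simpa using norm_integral_le_of_norm_le_const (μ := μ) (f := F) (C := K)
    (Filter.Eventually.of_forall h)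

/-- Gaussian smoothing -/
noncomputable def Sm (t : ℝ) (ψ : E d → ℝ) (m : E d) : ℝ := ∫ g, ψ (m + t • g) ∂gs d

theorem sm_lip {l b : ℝ} {ψ : E d → ℝ} (t : ℝ) (h : LipF l ψ) (hb : ∀ x, |ψ x| ≤ b) :
    LipF l (Sm t ψ) := by
  intro x y
  have c := contL h
  rw [Sm, Sm, ← integral_sub (intg _ _ b (by fun_prop) fun _ => hb _)
    (intg _ _ b (by fun_prop) fun _ => hb _)]
  refine absI _ _ _ fun g => ?_
  have := h (x + t • g) (y + t • g)
  rwa [add_sub_add_right_eq_sub] at this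

theorem prob {G : E d → E d} (hG : Continuous G) (ρ : ℝ) (N : ℕ) :
    IsProbabilityMeasure (ch G ρ N) := by
  induction N with
  | zero => exact inferInstanceAs (IsProbabilityMeasure (gs d))
  | succ N ih =>
    exact Measure.isProbabilityMeasure_map (Continuous.aemeasurable (by fun_prop))

theorem step {G : E d → E d} (hG : Continuous G) (ρ : ℝ) (α : Measure (E d))
    [IsProbabilityMeasure α] {b : ℝ} {ψ : E d → ℝ} (c : Continuous ψ) (hb : ∀ x, |ψ x| ≤ b) :
    ∫ x, ψ x ∂stepM G ρ α = ∫ x, Sm (sg ρ) ψ (ρ • x - (1 - ρ) • G x) ∂α := by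
  rw [stepM, integral_map (Continuous.aemeasurable (by fun_prop)) c.aestronglyMeasurable,
    integral_prod _ (intg _ _ b (by fun_prop) fun _ => hb _)]
  rfl

theorem chain {G G' : E d → E d} (hG : Continuous G) (hG' : Continuous G') {ρ κ A K : ℝ}
    (hρ : ρ ≤ 1) (hκ : 0 ≤ κ) (hK : 0 ≤ K) (hL : LipF κ fun z => ρ • z - (1 - ρ) • G z)
    (hA : ∀ z, ‖G z - G' z‖ ≤ A) (hs : κ * K + (1 - ρ) * A ≤ K) (N : ℕ) :
    ∀ (l b : ℝ) (ψ : E d → ℝ), 0 ≤ l → LipF l ψ → (∀ x, |ψ x| ≤ b) →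
      |∫ x, ψ x ∂ch G ρ N - ∫ x, ψ x ∂ch G' ρ N| ≤ l * K := by
  induction N with
  | zero =>
    intro l b ψ hl _ _
    simp only [ch, sub_self, abs_zero]
    positivity
  | succ N ih =>
    intro l b ψ hl h hb
    haveI := prob hG ρ N
    haveI := prob hG' ρ N
    have hS := sm_lip (sg ρ) h hb
    have cS := contL hS
    have bS : ∀ m, |Sm (sg ρ) ψ m| ≤ b := fun m => absI _ _ _ fun g => hb _
    rw [ch, ch, step hG ρ _ (contL h) hb, step hG' ρ _ (contL h) hb]
    have h1 := ih (l * κ) b (fun x => Sm (sg ρ) ψ (ρ • x - (1 - ρ) • G x)) (mul_nonneg hl hκ)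
      (fun x y => (hS _ _).trans (by
        rw [mul_assoc]; exact mul_le_mul_of_nonneg_left (hL x y) hl)) fun x => bS _
    have h2 : |∫ x, Sm (sg ρ) ψ (ρ • x - (1 - ρ) • G x) ∂ch G' ρ N -
        ∫ x, Sm (sg ρ) ψ (ρ • x - (1 - ρ) • G' x) ∂ch G' ρ N| ≤ l * ((1 - ρ) * A) := by
      rw [← integral_sub (intg _ _ b (by fun_prop) fun _ => bS _)
        (intg _ _ b (by fun_prop) fun _ => bS _)]
      refine absI _ _ _ fun x => (hS _ _).trans (mul_le_mul_of_nonneg_left ?_ hl)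
      rw [sub_sub_sub_cancel_left, ← smul_sub, norm_smul, Real.norm_of_nonneg (by linarith),
        norm_sub_rev]
      exact mul_le_mul_of_nonneg_left (hA x) (by linarith)
    refine ((abs_sub_le _ _ _).trans (add_le_add h1 h2)).trans ?_
    rw [mul_assoc, ← mul_add]
    exact mul_le_mul_of_nonneg_left hs hl

end Conm

open Conm in
theorem stmtCon (_h1 : StmtG1) (hIde : StmtIde) (hCls : StmtCls) (hGib1 : StmtGib1) : StmtCon := by
  intro d V hV η l ψ hη hη4 hl hψ ⟨b, hb⟩ y y'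
  have C := hCls d V hV
  have hs : 0 < √η := Real.sqrt_pos.2 hη
  obtain ⟨-, -, -, hp⟩ := (hGib1 d V hV).2 η hη
  have cψ := contL hψ
  have e1 : ∀ y, ∫ x, ψ x ∂prox η V y = ∫ z, ψ (0 + √η • z) ∂mu (WW η V y 0) := fun y => by
    rw [hp y 0, integral_map (Continuous.aemeasurable (by fun_prop)) cψ.aestronglyMeasurable]
  have hL : LipF (l * √η) fun z : E d => ψ (0 + √η • z) := fun z z' => by
    refine (hψ _ _).trans (le_of_eq ?_)
    rw [add_sub_add_left_eq_sub, ← smul_sub, norm_smul, Real.norm_of_nonneg hs.le, mul_assoc]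
  have l2 : ∀ y, LipF (1 / 2) (GG η (gradient V) y 0) := fun y z z' =>
    (C.lip η y 0 hη z z').trans (mul_le_mul_of_nonneg_right (by linarith) (norm_nonneg _))
  change |∫ x, ψ x ∂prox η V y - ∫ x, ψ x ∂prox η V y'| ≤ _
  rw [e1, e1]
  refine le_of_forall_pos_le_add fun e he => ?_
  have hls : 0 ≤ l * √η := by positivity
  obtain ⟨ρ, N, h1, h2, -, h3⟩ := hIde d
    (max ‖GG η (gradient V) y 0 0‖ ‖GG η (gradient V) y' 0 0‖) (e / (2 * (l * √η + 1)))
    (by positivity)
  have a1 := (h3 _ _ (C.pot η y 0 hη) (l2 y) (le_max_left _ _)).2 _ _ hls hL ⟨b, fun _ => hb _⟩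
  have a2 := (h3 _ _ (C.pot η y' 0 hη) (l2 y') (le_max_right _ _)).2 _ _ hls hL ⟨b, fun _ => hb _⟩
  have a3 := C.con η y 0 (1 - ρ) hη hη4 (by linarith) (by linarith)
  rw [sub_sub_cancel] at a3
  have a4 := chain (contL (l2 y)) (contL (l2 y')) (A := ‖y - y'‖ / √η)
    (K := ‖y - y'‖ / (√η * (1 + η))) h2.le (by nlinarith) (by positivity) a3
    (fun z => by
      rw [GG, GG, add_sub_add_left_eq_sub, ← smul_sub, norm_smul,
        Real.norm_of_nonneg (inv_nonneg.2 hs.le), sub_sub_sub_cancel_left, norm_sub_rev,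
        div_eq_inv_mul])
    (le_of_eq (by field_simp; ring)) N _ b _ hls hL fun _ => hb _
  have a5 : l * √η * (‖y - y'‖ / (√η * (1 + η))) = l / (1 + η) * ‖y - y'‖ := by field_simp
  have a6 : l * √η * (e / (2 * (l * √η + 1))) ≤ e / 2 := by
    rw [mul_div_assoc', div_le_div_iff₀ (by positivity) (by norm_num)]
    nlinarith
  rw [a5] at a4
  rw [abs_le] at a1 a2 a4 ⊢
  constructor <;> linarith [a1.1, a1.2, a2.1, a2.2, a4.1, a4.2]

end Vale.Agent.P347
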