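import Vale.Agent.P347.Spec2

open MeasureTheory ProbabilityTheory Finset
open scoped RealInnerProductSpace ENNReal

namespace Vale.Agent.P347

noncomputable section

namespace Cov1m

variable {d : ℕ}

theorem lipw {X Y : Type} [NormedAddCommGroup X] [NormedAddCommGroup Y] {K : ℝ} {f : X → Y}
    (h : LipF K f) : LipschitzWith K.toNNReal f :=
  LipschitzWith.of_dist_le' fun x y => by simpa only [dist_eq_norm] using h x y

theorem nsq (v : E d) : ‖v‖ ^ 2 = ∑ i, ⟪ee i, v⟫ ^ 2 := by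
  simp [EuclideanSpace.real_norm_sq_eq, ee, EuclideanSpace.inner_single_left]

theorem nee (i : Fin d) : ‖(ee i : E d)‖ = 1 := by simp [ee]

theorem memL {K : ℝ} {H : E d → E d} (hl : LipF K H) : MemLp H 2 (gs d) := by
  have h0 : MemLp (fun x : E d => ‖x‖) 2 (gs d) := (IsGaussian.memLp_two_id (μ := gs d)).norm
  have h1 : MemLp (fun x : E d => ‖H 0‖ + |K| * ‖x‖) 2 (gs d) :=
    (memLp_const ‖H 0‖).add (h0.const_mul |K|)
  refine h1.mono' (lipw hl).continuous.aestronglyMeasurable (.of_forall fun x => ?_)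
  have := hl x 0
  rw [sub_zero] at this
  have h2 := norm_le_norm_add_norm_sub' (H x) (H 0)
  have h3 := mul_le_mul_of_nonneg_right (le_abs_self K) (norm_nonneg x)
  linarith

theorem cFo : Continuous (Fo : (E d →L[ℝ] E d) → ℝ) := by
  unfold Fo Fq
  fun_prop

theorem Fq0 (B : E d → E d → ℝ) : 0 ≤ Fq B :=
  sum_nonneg fun _ _ => sum_nonneg fun _ _ => sq_nonneg _

theorem Fo0 (A : E d →L[ℝ] E d) : 0 ≤ Fo A := Fq0 _

theorem varH (hGP : GPApi d) (hFo : FoApi d) {K : ℝ} {H : E d → E d} (hc : ContDiff ℝ 1 H)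
    (hl : LipF K H) :
    ∫ g, ‖∫ y, H y ∂gs d - H g‖ ^ 2 ∂gs d ≤ 2 * ∫ g, Fo (fderiv ℝ H g) ∂gs d := by
  have hm := memL hl
  have m2 : ∀ i, MemLp (fun g => ⟪ee i, H g⟫) 2 (gs d) := fun i => hm.const_inner _
  have cD : Continuous (fderiv ℝ H) := hc.continuous_fderiv one_ne_zero
  have dd : ∀ i g, ‖fderiv ℝ (fun g => ⟪ee i, H g⟫) g‖ =
      ‖ContinuousLinearMap.adjoint (fderiv ℝ H g) (ee i)‖ := fun i g => by
    have h1 := ((innerSL ℝ (ee i : E d)).hasFDerivAt.comp g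
      (hc.differentiable one_ne_zero g).hasFDerivAt).fderiv
    have h2 : (innerSL ℝ (ee i : E d)).comp (fderiv ℝ H g) =
        innerSL ℝ (ContinuousLinearMap.adjoint (fderiv ℝ H g) (ee i)) := by
      ext v
      simp [ContinuousLinearMap.adjoint_inner_left]
    rw [h2] at h1
    exact (congrArg norm h1).trans (innerSL_apply_norm _ _)
  have iD : ∀ i, Integrable (fun g => ‖ContinuousLinearMap.adjoint (fderiv ℝ H g) (ee i)‖ ^ 2)
      (gs d) := fun i => by
    refine Integrable.of_bound (Continuous.aestronglyMeasurable (by fun_prop)) ((K.toNNReal : ℝ) ^ 2)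
      (.of_forall fun g => ?_)
    rw [Real.norm_of_nonneg (sq_nonneg _)]
    refine pow_le_pow_left₀ (norm_nonneg _) ((ContinuousLinearMap.le_opNorm _ _).trans ?_) 2
    rw [nee, mul_one, LinearIsometryEquiv.norm_map]
    exact norm_fderiv_le_of_lipschitz ℝ (lipw hl)
  have one : ∀ i, ∫ g, ⟪ee i, ∫ y, H y ∂gs d - H g⟫ ^ 2 ∂gs d ≤
      2 * ∫ g, ‖ContinuousLinearMap.adjoint (fderiv ℝ H g) (ee i)‖ ^ 2 ∂gs d := fun i => by
    have h := hGP.one (fun g => ⟪ee i, H g⟫) K ((innerSL ℝ (ee i : E d)).contDiff.comp hc)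
      fun x y => by
        rw [← inner_sub_right]
        exact (norm_inner_le_norm _ _).trans (by rw [nee, one_mul]; exact hl x y)
    simp only [dd] at h
    refine le_trans (le_of_eq ?_) h
    refine Eq.trans ?_ (variance_eq_sub (m2 i))
    rw [variance_eq_integral (m2 i).aemeasurable]
    refine integral_congr_ae (.of_forall fun g => ?_)
    simp only
    rw [integral_inner (hm.integrable one_le_two), inner_sub_right]
    ring
  simp only [nsq (_ - _)]
  have i2 : ∀ i, Integrable (fun g => ⟪ee i, ∫ y, H y ∂gs d - H g⟫ ^ 2) (gs d) := fun i =>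
    (((memLp_const (∫ y, H y ∂gs d)).sub hm).const_inner (ee i)).integrable_sq
  rw [integral_finsetSum _ fun i _ => i2 i]
  refine (sum_le_sum fun i _ => one i).trans (le_of_eq ?_)
  rw [← mul_sum, ← integral_finsetSum _ fun i _ => iD i]
  simp only [← hFo.col, hFo.adj]

theorem Fo_add (hFo : FoApi d) (A B : E d →L[ℝ] E d) : Fo (A + B) ≤ 2 * Fo A + 2 * Fo B := by
  rw [hFo.col, hFo.col, hFo.col, mul_sum, mul_sum, ← sum_add_distrib]
  refine sum_le_sum fun k _ => ?_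
  have h := pow_le_pow_left₀ (norm_nonneg _) (norm_add_le (A (ee k)) (B (ee k))) 2
  rw [ContinuousLinearMap.add_apply]
  nlinarith [sq_nonneg (‖A (ee k)‖ - ‖B (ee k)‖)]

theorem Fo_smul (hFo : FoApi d) (c : ℝ) (A : E d →L[ℝ] E d) : Fo (c • A) = c ^ 2 * Fo A := by
  rw [hFo.col, hFo.col, mul_sum]
  refine sum_congr rfl fun k _ => ?_
  rw [ContinuousLinearMap.smul_apply, norm_smul, mul_pow, Real.norm_eq_abs, sq_abs]

theorem m1sq (h1 : Gau1 d) : (∫ x, ‖x‖ ∂gs d) ^ 2 ≤ d := by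
  have m : MemLp (fun x : E d => ‖x‖) 2 (gs d) := (IsGaussian.memLp_two_id (μ := gs d)).norm
  have h := variance_nonneg (fun x : E d => ‖x‖) (gs d)
  rw [variance_eq_sub m] at h
  have e : ∫ x, ((fun x : E d => ‖x‖) ^ 2) x ∂gs d = d := h1.m2
  linarith

theorem cvB (B : E d →L[ℝ] E d) (hB : ∀ u v, ⟪B u, v⟫ = ⟪u, B v⟫) (u v : E d) :
    Cv ((gs d).map B) u v = ⟪u, B (B v)⟫ := by
  have h := covarianceBilin_apply (μ := gs d) IsGaussian.memLp_two_id (B u) (B v)
  rw [covarianceBilin_stdGaussian, innerSL_apply_apply] at h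
  rw [Cv, integral_map B.continuous.measurable.aemeasurable (by fun_prop), ← hB, h]
  simp [hB, integral_id_stdGaussian]

theorem pt (h1 : Gau1 d) (hGP : GPApi d) (hPo : PoApi d) (hFo : FoApi d) {ε Λ σ : ℝ}
    {Φ : E d → E d} {D : E d → E d →L[ℝ] E d} (e0 : 0 ≤ ε) (l0 : 0 ≤ Λ) (s0 : 0 ≤ σ)
    (hc : ContDiff ℝ 1 Φ) (hl : LipF (2 * ε) Φ) (hD : ∀ x, ‖D x‖ ≤ ε) (hL : LipF Λ D)
    (hs : ∀ x u v, ⟪D x u, v⟫ = ⟪u, D x v⟫) (x : E d) :
    (Fq fun u v => Cv ((gs d).map fun g => ∫ y, Φ (x + σ • y) ∂gs d - Φ (x + σ • g)) u v -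
      σ ^ 2 * ⟪u, (∫ g, (D (x + σ • g)).comp (D (x + σ • g)) ∂gs d) v⟫) ≤
    (23 * σ ^ 2 * ε) ^ 2 * (∫ g, Fo (fderiv ℝ Φ (x + σ • g) - D (x + σ • g)) ∂gs d +
      (Λ * σ * d) ^ 2) := by
  have cD := (lipw hL).continuous
  have cΦ : Continuous (fderiv ℝ Φ) := hc.continuous_fderiv one_ne_zero
  have nd : ∀ g g' : E d, ‖x + σ • g - (x + σ • g')‖ = σ * ‖g - g'‖ := fun g g' => by
    rw [add_sub_add_left_eq_sub, ← smul_sub, norm_smul, Real.norm_of_nonneg s0]
  have n0 : ∀ g : E d, ‖x + σ • g - x‖ = σ * ‖g‖ := fun g => by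
    rw [add_sub_cancel_left, norm_smul, Real.norm_of_nonneg s0]
  set F : E d → E d := fun g => Φ (x + σ • g) with hF
  have cF : ContDiff ℝ 1 F := hc.comp (by fun_prop)
  have lF : LipF (2 * ε * σ) F := fun g g' => (hl _ _).trans_eq (by rw [nd]; ring)
  set B : E d →L[ℝ] E d := (-σ) • D x with hB
  have nB : ‖B‖ ≤ 2 * ε * σ := by
    rw [hB, norm_smul, norm_neg, Real.norm_of_nonneg s0]
    nlinarith [hD x, mul_nonneg e0 s0]
  have pa := (hPo.push (E d) (gs d) F (2 * ε * σ) hGP.one (by positivity) cF lF (memL lF)).1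
  have pb := hPo.lin B _ nB
  have cp := hPo.coup (E d) (gs d) (fun g => ∫ y, F y ∂gs d - F g) B _
    (continuous_const.sub cF.continuous).measurable
    B.continuous.measurable pa pb
  have lH : LipF (2 * ε * σ + 2 * ε * σ) fun g => F g + B g := fun g g' => by
    rw [add_sub_add_comm, ← map_sub, add_mul]
    exact (norm_add_le _ _).trans (add_le_add (lF g g') (B.le_of_opNorm_le nB _))
  have v := varH hGP hFo (H := fun g => F g + B g) (cF.add B.contDiff) lH
  have eI : ∫ y, (F y + B y) ∂gs d = ∫ y, F y ∂gs d := by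
    have hid : Integrable (fun x : E d => x) (gs d) := IsGaussian.integrable_id
    rw [integral_add ((memL lF).integrable one_le_two) (B.integrable_comp hid),
      B.integral_comp_comm hid]
    simp [integral_id_stdGaussian]
  have dH : ∀ g, fderiv ℝ (fun g => F g + B g) g = σ • (fderiv ℝ Φ (x + σ • g) - D x) := fun g => by
    have a1 : HasFDerivAt (fun g : E d => x + σ • g) (σ • ContinuousLinearMap.id ℝ (E d)) g :=
      ((hasFDerivAt_id g).const_smul σ).const_add x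
    have a2 := (((hc.differentiable one_ne_zero _).hasFDerivAt.comp g a1).add B.hasFDerivAt).fderiv
    refine a2.trans ?_
    ext1 w
    simp [hB, smul_sub, sub_eq_add_neg]
  simp only [eI, dH, ← sub_sub] at v
  set Q : ℝ := ∫ g, Fo (fderiv ℝ Φ (x + σ • g) - D (x + σ • g)) ∂gs d with hQ
  have iQ : Integrable (fun g => Fo (fderiv ℝ Φ (x + σ • g) - D (x + σ • g))) (gs d) := by
    refine Integrable.of_bound (cFo.comp (by fun_prop)).aestronglyMeasurable
      (d * (((2 * ε).toNNReal : ℝ) + ε) ^ 2) (.of_forall fun g => ?_)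
    rw [Real.norm_of_nonneg (Fo0 _)]
    refine (hFo.dim _).trans (mul_le_mul_of_nonneg_left (pow_le_pow_left₀ (norm_nonneg _)
      ((norm_sub_le _ _).trans (add_le_add (norm_fderiv_le_of_lipschitz ℝ (lipw hl)) (hD _))) 2)
      (Nat.cast_nonneg _))
  have Q0 : 0 ≤ Q := integral_nonneg fun g => Fo0 _
  have w : ∫ g, Fo (σ • (fderiv ℝ Φ (x + σ • g) - D x)) ∂gs d ≤
      2 * σ ^ 2 * (Q + (Λ * σ * d) ^ 2) := by
    refine (integral_mono_of_nonneg (.of_forall fun g => Fo0 _)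
      ((iQ.const_mul (2 * σ ^ 2)).add ((h1.i2 2).const_mul (2 * σ ^ 2 * (d * (Λ * σ) ^ 2))))
      (.of_forall fun g => ?_)).trans (le_of_eq ?_)
    · have a1 := Fo_add hFo (fderiv ℝ Φ (x + σ • g) - D (x + σ • g)) (D (x + σ • g) - D x)
      have a2 := hL (x + σ • g) x
      rw [n0] at a2
      have a3 := (hFo.dim _).trans (mul_le_mul_of_nonneg_left
        (pow_le_pow_left₀ (norm_nonneg _) a2 2) (Nat.cast_nonneg d))
      rw [sub_add_sub_cancel] at a1
      simp only [Fo_smul hFo, Pi.add_apply]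
      nlinarith [mul_le_mul_of_nonneg_left a1 (sq_nonneg σ), mul_le_mul_of_nonneg_left a3 (sq_nonneg σ)]
    · rw [integral_add' (iQ.const_mul _) ((h1.i2 2).const_mul _), integral_const_mul,
        integral_const_mul, h1.m2]
      ring
  set Ψ : E d → E d →L[ℝ] E d := fun z => (D z).comp (D z) with hΨ
  have nΨ : ∀ z, ‖Ψ x - Ψ z‖ ≤ 2 * ε * Λ * ‖z - x‖ := fun z => by
    have e : Ψ x - Ψ z = (D x).comp (D x - D z) + (D x - D z).comp (D z) := by
      simp [hΨ, ContinuousLinearMap.comp_sub, ContinuousLinearMap.sub_comp]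
    have a1 := hL x z
    rw [norm_sub_rev x z] at a1
    have a2 := hD x
    have a3 := hD z
    rw [e]
    refine (norm_add_le _ _).trans ((add_le_add (ContinuousLinearMap.opNorm_comp_le _ _)
      (ContinuousLinearMap.opNorm_comp_le _ _)).trans ?_)
    calc _ ≤ ε * (Λ * ‖z - x‖) + Λ * ‖z - x‖ * ε := by gcongr
      _ = _ := by ring
  have iN : Integrable (fun g : E d => ‖g‖) (gs d) := by simpa using h1.i2 1
  have iΨ : Integrable (fun g : E d => Ψ (x + σ • g)) (gs d) := by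
    refine Integrable.of_bound (Continuous.aestronglyMeasurable (by simp only [hΨ]; fun_prop))
      (ε * ε) (.of_forall fun g => (ContinuousLinearMap.opNorm_comp_le _ _).trans ?_)
    exact mul_le_mul (hD _) (hD _) (norm_nonneg _) e0
  set R : E d →L[ℝ] E d := Ψ x - ∫ g, Ψ (x + σ • g) ∂gs d with hR
  have nR : ‖R‖ ≤ 2 * ε * Λ * σ * ∫ g, ‖g‖ ∂gs d := by
    have e : R = ∫ g, (Ψ x - Ψ (x + σ • g)) ∂gs d := by
      rw [integral_sub (integrable_const _) iΨ]; simp [hR]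
    rw [e, ← integral_const_mul]
    exact norm_integral_le_of_norm_le (iN.const_mul _) (.of_forall fun g =>
      (nΨ _).trans_eq (by rw [n0]; ring))
  have fR : Fo R ≤ 4 * ε ^ 2 * (Λ * σ * d) ^ 2 := by
    have a1 := pow_le_pow_left₀ (norm_nonneg _) nR 2
    have a2 := mul_le_mul_of_nonneg_left (m1sq h1) (sq_nonneg (2 * ε * Λ * σ))
    refine (hFo.dim _).trans ?_
    rw [mul_pow _ (∫ g, ‖g‖ ∂gs d)] at a1
    have a3 := mul_le_mul_of_nonneg_left (a1.trans a2) (Nat.cast_nonneg (α := ℝ) d)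
    exact a3.trans_eq (by ring)
  have cb : ∀ u v, Cv ((gs d).map B) u v = σ ^ 2 * ⟪u, Ψ x v⟫ := fun u v => by
    rw [cvB B fun u v => by simp [hB, inner_smul_left, inner_smul_right, hs]]
    simp [hB, hΨ, inner_smul_right]
    ring
  have fin : (Fq fun u v => Cv ((gs d).map fun g => ∫ y, F y ∂gs d - F g) u v -
      σ ^ 2 * ⟪u, (∫ g, Ψ (x + σ • g) ∂gs d) v⟫) ≤
      2 * Fr ((gs d).map fun g => ∫ y, F y ∂gs d - F g) ((gs d).map B) + 2 * σ ^ 4 * Fo R := by
    simp only [Fq, Fr, Fo, mul_sum, ← sum_add_distrib, cb, hR, ContinuousLinearMap.sub_apply,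
      inner_sub_right]
    refine sum_le_sum fun i _ => sum_le_sum fun j _ => ?_
    generalize Cv _ (ee i) (ee j) = a
    generalize ⟪ee i, Ψ x (ee j)⟫ = b
    generalize ⟪ee i, (∫ g, Ψ (x + σ • g) ∂gs d) (ee j)⟫ = c
    nlinarith [sq_nonneg (a - σ ^ 2 * b - σ ^ 2 * (b - c))]
  refine fin.trans ?_
  have z1 := cp.trans (mul_le_mul_of_nonneg_left (v.trans (mul_le_mul_of_nonneg_left w zero_le_two))
    (by positivity))
  have z2 := mul_le_mul_of_nonneg_left fR (show 0 ≤ 2 * σ ^ 4 by positivity)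
  have z3 : 0 ≤ σ ^ 4 * ε ^ 2 * Q := by positivity
  have z4 : 0 ≤ σ ^ 4 * ε ^ 2 * (Λ * σ * d) ^ 2 := by positivity
  nlinarith

theorem eL {X : Type} [MeasurableSpace X] (μ : Measure X) (f : X → ℝ) (h0 : ∀ x, 0 ≤ f x) :
    eLpNorm (fun x => √(f x)) 2 μ = (∫⁻ x, ENNReal.ofReal (f x) ∂μ) ^ (1 / 2 : ℝ) := by
  rw [eLpNorm_eq_lintegral_rpow_enorm_toReal (by simp) (by simp)]
  simp only [ENNReal.toReal_ofNat]
  congr 1
  refine lintegral_congr fun x => ?_
  rw [Real.enorm_eq_ofReal (Real.sqrt_nonneg _), ENNReal.ofReal_rpow_of_nonneg (Real.sqrt_nonneg _)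
    zero_le_two, Real.rpow_two, Real.sq_sqrt (h0 x)]

theorem half {a : ℝ≥0∞} {b : ℝ} (hb : 0 ≤ b) :
    a ^ (1 / 2 : ℝ) ≤ ENNReal.ofReal b ↔ a ≤ ENNReal.ofReal (b ^ 2) := by
  rw [one_div, ENNReal.rpow_inv_le_iff two_pos, ENNReal.ofReal_rpow_of_nonneg hb zero_le_two,
    Real.rpow_two]

end Cov1m

open Cov1m in
theorem stmtCov1 (h1 : StmtG1) (h2 : StmtG2) (hGP : StmtGP) (hPo : StmtPo) (hFo : StmtFo) :
    StmtCov1 := by
  refine ⟨23, by norm_num, fun d ε Λ ρ b Φ D e0 l0 b0 r1 hc hl hD hL hs hb => ?_⟩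
  have s0 : 0 ≤ sg ρ := Real.sqrt_nonneg _
  have s2 : sg ρ ^ 2 = 1 - ρ ^ 2 := Real.sq_sqrt (by linarith)
  set q : E d → ℝ := fun x => Fo (fderiv ℝ Φ x - D x) with hq
  have cq : Continuous q :=
    cFo.comp ((hc.continuous_fderiv one_ne_zero).sub (lipw hL).continuous)
  rw [eL _ q fun x => Fo0 _, half b0] at hb
  rw [eL _ _ fun y => Fq0 _,
    half (by rw [← s2]; positivity)]
  set K : ℝ := (23 * sg ρ ^ 2 * ε) ^ 2 with hK
  have K0 : 0 ≤ K := sq_nonneg _
  have hp : ∀ y : E d, ENNReal.ofReal (Fq fun u v => cv1 Φ ρ y u v -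
      (1 - ρ ^ 2) * ⟪u, OM ρ (fun x => (D x).comp (D x)) y v⟫) ≤
      ENNReal.ofReal K * (∫⁻ g, ENNReal.ofReal (q (ρ • y + sg ρ • g)) ∂gs d +
        ENNReal.ofReal ((Λ * sg ρ * d) ^ 2)) := fun y => by
    have := pt (h1 d) (hGP d) (hPo d) (hFo d) e0 l0 s0 hc hl hD hL hs (ρ • y)
    rw [← s2]
    refine (ENNReal.ofReal_le_ofReal this).trans ?_
    rw [ENNReal.ofReal_mul K0, ENNReal.ofReal_add (integral_nonneg fun g => Fo0 _) (sq_nonneg _)]
    gcongr
    refine le_trans ?_ ((enorm_integral_le_lintegral_enorm fun g => q (ρ • y + sg ρ • g)).trans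
      (le_of_eq (lintegral_congr fun g => Real.enorm_eq_ofReal (Fo0 _))))
    exact Real.ofReal_le_enorm _
  refine (lintegral_mono hp).trans ?_
  have mq : Measurable fun x => ENNReal.ofReal (q x) := cq.measurable.ennreal_ofReal
  have mp : Measurable fun p : E d × E d => ENNReal.ofReal (q (ρ • p.1 + sg ρ • p.2)) :=
    mq.comp (by fun_prop)
  have e : ∫⁻ y, ∫⁻ g, ENNReal.ofReal (q (ρ • y + sg ρ • g)) ∂gs d ∂gs d =
      ∫⁻ x, ENNReal.ofReal (q x) ∂gs d := by
    have h := (h2 d).sum ρ (sg ρ)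
    rw [s2, add_sub_cancel, Real.sqrt_one] at h
    simp only [one_smul, Measure.map_id'] at h
    rw [← lintegral_prod _ mp.aemeasurable, ← lintegral_map mq (by fun_prop), h]
  rw [lintegral_const_mul' _ _ ENNReal.ofReal_ne_top, lintegral_add_right _ measurable_const, e,
    lintegral_const, measure_univ, mul_one]
  refine (mul_le_mul_right (add_le_add_left hb _) _).trans ?_
  rw [← ENNReal.ofReal_add (sq_nonneg _) (sq_nonneg _), ← ENNReal.ofReal_mul K0]
  refine ENNReal.ofReal_le_ofReal ?_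
  have : 0 ≤ b * (Λ * sg ρ * d) := by positivity
  rw [← s2, hK, mul_pow (23 * sg ρ ^ 2 * ε)]
  exact mul_le_mul_of_nonneg_left (by nlinarith) (sq_nonneg _)

end

end Vale.Agent.P347
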