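import Vale.Agent.P347.Rev

open MeasureTheory ProbabilityTheory Finset
open scoped RealInnerProductSpace ENNReal

namespace Vale.Agent.P347

namespace Meanm

variable {d : ℕ}

theorem lip_int {Ω : Type} [MeasurableSpace Ω] {μ : Measure Ω} [IsProbabilityMeasure μ] {K : ℝ}
    {F : E d → Ω → E d} (hi : ∀ w, Integrable (F w) μ) (hl : ∀ g, LipF K fun w => F w g) :
    LipF K fun w => ∫ g, F w g ∂μ := fun w w' => by
  rw [← integral_sub (hi w) (hi w')]
  simpa using norm_integral_le_of_norm_le_const (μ := μ) (f := fun g => F w g - F w' g)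
    (C := K * ‖w - w'‖) (Filter.Eventually.of_forall fun g => hl g w w')

theorem OU_sum (hOU : OUApi d) (τ : ℝ) (s : Finset ℕ) (c : ℕ → ℝ) (Φ : ℕ → E d → E d) (K : ℝ)
    (h : ∀ r, LipF K (Φ r)) (w : E d) :
    OU τ (fun y => ∑ r ∈ s, c r • Φ r y) w = ∑ r ∈ s, c r • OU τ (Φ r) w := by
  unfold OU
  exact (integral_finsetSum _ fun r _ => (((hOU.int K _ (h r) (τ • w) (sg τ)).integrable
    (by norm_num)).smul (c r))).trans 
    (sum_congr rfl fun r _ => integral_smul (c r) fun g => Φ r (τ • w + sg τ • g))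

theorem int2 {Ω : Type} [MeasurableSpace Ω] {μ : Measure Ω} {f g : Ω → E d} (a b : ℝ)
    (hf : Integrable f μ) (hg : Integrable g μ) :
    ∫ x, (a • f x + b • g x) ∂μ = a • ∫ x, f x ∂μ + b • ∫ x, g x ∂μ :=
  (integral_add (hf.smul a) (hg.smul b)).trans (congrArg₂ (· + ·) (integral_smul a f)
    (integral_smul b g))

/-- one step of the recursion in integrated form -/
theorem int_step {N : ℕ} (ρ : ℝ) (w : E d) (Ψ : E d → (Fin N → E d) → E d)
    (hi : Integrable (fun g : Fin (N + 1) → E d => Ψ (ρ • w + sg ρ • g 0) (Fin.tail g))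
      (gN d (N + 1))) (hc : Continuous fun p : E d × (Fin N → E d) => Ψ p.1 p.2) :
    ∫ g, Ψ (ρ • w + sg ρ • g 0) (Fin.tail g) ∂gN d (N + 1) =
      OU ρ (fun y => ∫ g, Ψ y g ∂gN d N) w := by
  have hc' : Continuous fun p : E d × (Fin N → E d) => Ψ (ρ • w + sg ρ • p.1) p.2 :=
    hc.comp ((continuous_const.add (continuous_fst.const_smul (sg ρ))).prodMk continuous_snd)
  have hm := Revm.mp_tail d N
  have hi' : Integrable (fun p : E d × (Fin N → E d) => Ψ (ρ • w + sg ρ • p.1) p.2)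
      ((gs d).prod (gN d N)) := (hm.integrable_comp hc'.aestronglyMeasurable).1 hi
  unfold OU
  rw [← integral_prod _ hi', ← hm.map_eq, integral_map hm.measurable.aemeasurable
    hc'.aestronglyMeasurable]

end Meanm

open Meanm in
theorem stmtMean (h1 : StmtG1) (hAa : StmtAa) (hOU : StmtOU) : StmtMean := by
  intro d ε ρ G hd e0 e1 r0 r1 hN
  have A := hAa d ε ρ G hd e0 e1 r0 r1 hN
  have O := hOU d
  have hG : Continuous G := hN.c1.continuous
  have hρ : ρ ^ 2 ≤ 1 := by nlinarith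
  have hρk : ∀ k : ℕ, (ρ ^ k) ^ 2 ≤ 1 := fun k => by
    rw [← pow_mul, mul_comm, pow_mul]; exact pow_le_one₀ (sq_nonneg _) hρ
  have iA : ∀ N w, Integrable (AA G ρ N w) (gN d N) := fun N w => (A.mem N w).integrable (by norm_num)
  have i0 : ∀ N w, Integrable (A0 G ρ N w) (gN d N) := fun N w => (A.mem0 N w).integrable (by norm_num)
  have cG : ∀ N, Continuous fun p : E d × (Fin N → E d) => G (p.1 - AA G ρ N p.1 p.2) :=
    fun N => hG.comp (continuous_fst.sub (A.cont N))
  have iG : ∀ N y, Integrable (fun g => G (y - AA G ρ N y g)) (gN d N) := fun N y => by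
    refine (((iA N y).norm.const_mul ε).add (integrable_const ‖G y‖)).mono'
      ((cG N).comp (Continuous.prodMk_right y)).aestronglyMeasurable
      (Filter.Eventually.of_forall fun g => ?_)
    have := hN.lip (y - AA G ρ N y g) y
    rw [sub_sub_cancel_left, norm_neg] at this
    have h2 := norm_le_insert' (G (y - AA G ρ N y g)) (G y)
    simp only [Pi.add_apply]
    linarith
  have lG : ∀ N, LipF (2 * ε) (Gam G ρ N) := fun N => lip_int (iG N) fun g w w' => by
    have h2 := A.lip N g w w'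
    have h3 := hN.lip (w - AA G ρ N w g) (w' - AA G ρ N w' g)
    have h4 : ‖w - AA G ρ N w g - (w' - AA G ρ N w' g)‖ ≤ ‖w - w'‖ + ‖AA G ρ N w g - AA G ρ N w' g‖ := by
      rw [sub_sub_sub_comm]; exact norm_sub_le _ _
    have h5 := mul_le_mul_of_nonneg_left (h4.trans (add_le_add_right h2 _)) e0
    have h6 : 0 ≤ ε * (1 - 2 * ε) * ‖w - w'‖ := by
      have : 0 ≤ 1 - 2 * ε := by linarith
      positivity
    linarith
  have lA : ∀ N, LipF (2 * ε) (mA G ρ N) := fun N => lip_int (iA N) (A.lip N)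
  have l0 : ∀ N, LipF (2 * ε) (mA0 G ρ N) := fun N => lip_int (i0 N) (A.lip0 N)
  have lG' : LipF (2 * ε) G := fun x y => by
    nlinarith [hN.lip x y, mul_nonneg e0 (norm_nonneg (x - y))]
  have two : ∀ (Φ Ψ : E d → E d), LipF (2 * ε) Φ → LipF (2 * ε) Ψ → ∀ w,
      OU ρ (fun y => ρ • Φ y + (1 - ρ) • Ψ y) w = ρ • OU ρ Φ w + (1 - ρ) • OU ρ Ψ w := by
    intro Φ Ψ hΦ hΨ w
    exact int2 _ _ ((O.int _ _ hΦ (ρ • w) (sg ρ)).integrable (by norm_num))
      ((O.int _ _ hΨ (ρ • w) (sg ρ)).integrable (by norm_num))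
  have sA : ∀ N w, mA G ρ (N + 1) w = ρ • OU ρ (mA G ρ N) w + (1 - ρ) • OU ρ (Gam G ρ N) w := by
    intro N w
    rw [← two _ _ (lA N) (lG N)]
    refine (int_step ρ w (fun y g => ρ • AA G ρ N y g + (1 - ρ) • G (y - AA G ρ N y g))
      (iA (N + 1) w) (((A.cont N).const_smul ρ).add ((cG N).const_smul (1 - ρ)))).trans ?_
    congr 1
    funext y
    exact int2 _ _ (iA N y) (iG N y)
  have s0 : ∀ N w, mA0 G ρ (N + 1) w = ρ • OU ρ (mA0 G ρ N) w + (1 - ρ) • OU ρ G w := by
    intro N w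
    rw [← two _ _ (l0 N) lG']
    refine (int_step ρ w (fun y g => ρ • A0 G ρ N y g + (1 - ρ) • G y)
      (i0 (N + 1) w) (((A.cont0 N).const_smul ρ).add
        ((hG.comp continuous_fst).const_smul (1 - ρ)))).trans ?_
    congr 1
    funext y
    rw [int2 _ _ (i0 N y) (integrable_const _)]
    simp [mA0]
  have fin : ∀ (N : ℕ) (Φ : ℕ → E d → E d) (Ψ : E d → E d), (∀ r, LipF (2 * ε) (Φ r)) → ∀ w,
      ρ • OU ρ (fun y => ∑ r ∈ range N, aw ρ r • OU (ρ ^ (r + 1)) (Φ r) y) w + (1 - ρ) • OU ρ Ψ w =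
      ∑ r ∈ range N, aw ρ (r + 1) • OU (ρ ^ (r + 1 + 1)) (Φ r) w + aw ρ 0 • OU (ρ ^ (0 + 1)) Ψ w := by
    intro N Φ Ψ hΦ w
    rw [OU_sum O ρ _ _ _ (2 * ε) fun r => O.lip _ _ _ (by positivity) (hρk _) (hΦ r), smul_sum]
    congr 1
    · refine sum_congr rfl fun r _ => ?_
      rw [O.semi _ _ _ _ hρ (hρk _) (hΦ r), smul_smul, ← pow_succ']
      congr 1; unfold aw; ring
    · simp [aw]
  intro N
  refine ⟨lG N, lA N, l0 N, fun w => ⟨?_, ?_⟩⟩
  · induction N generalizing w with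
    | zero => simp [mA0, A0]
    | succ N ih => rw [s0, funext ih, fin N (fun _ => G) G fun _ => lG', sum_range_succ']
  · induction N generalizing w with
    | zero => simp [mA, AA]
    | succ N ih =>
      rw [sA, funext ih, fin N (fun r => Gam G ρ (N - 1 - r)) _ fun _ => lG _, sum_range_succ']
      congr 1
      refine sum_congr rfl fun r _ => ?_
      rw [show N + 1 - 1 - (r + 1) = N - 1 - r by omega]

end Vale.Agent.P347
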