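import Vale.Agent.P347.Spec2
import Vale.Agent.P347.Mean

open MeasureTheory ProbabilityTheory Finset
open scoped RealInnerProductSpace ENNReal

namespace Vale.Agent.P347

namespace CovRm

variable {d : ℕ}

theorem lipc {K : ℝ} {Φ : E d → E d} (h : LipF K Φ) : Continuous Φ := by
  refine (LipschitzWith.of_dist_le_mul (K := ⟨|K|, abs_nonneg K⟩) fun x y => ?_).continuous
  rw [dist_eq_norm, dist_eq_norm]
  exact (h x y).trans (mul_le_mul_of_nonneg_right (le_abs_self K) (norm_nonneg _))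

theorem sg_sq {τ : ℝ} (h : τ ^ 2 ≤ 1) : sg τ ^ 2 = 1 - τ ^ 2 := by
  rw [sg, Real.sq_sqrt (by linarith)]

theorem ibd {X : Type} [MeasurableSpace X] {μ : Measure X} [IsFiniteMeasure μ] {f : X → ℝ} {b : ℝ}
    (hm : AEStronglyMeasurable f μ) (hb : ∀ y, |f y| ≤ b) : Integrable f μ :=
  (integrable_const b).mono' hm (Filter.Eventually.of_forall hb)

theorem semi (h2 : Gau2 d) {τ τ' b : ℝ} {f : E d → ℝ} (hτ : τ ^ 2 ≤ 1) (hτ' : τ' ^ 2 ≤ 1)
    (c : Continuous f) (hb : ∀ y, |f y| ≤ b) (w : E d) :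
    Integrable (fun g => ∫ g', f (τ' • (τ • w + sg τ • g) + sg τ' • g') ∂gs d) (gs d) ∧
    ∫ g, ∫ g', f (τ' • (τ • w + sg τ • g) + sg τ' • g') ∂gs d ∂gs d =
      ∫ g, f ((τ' * τ) • w + sg (τ' * τ) • g) ∂gs d := by
  have e : √((τ' * sg τ) ^ 2 + sg τ' ^ 2) = sg (τ' * τ) := by
    rw [mul_pow, sg_sq hτ, sg_sq hτ', sg]; congr 1; ring
  have s := h2.sum (τ' * sg τ) (sg τ')
  rw [e] at s
  have c1 : Continuous fun y : E d => f ((τ' * τ) • w + y) := by fun_prop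
  have m1 : Measurable fun p : E d × E d => (τ' * sg τ) • p.1 + sg τ' • p.2 := by fun_prop
  have m2 : Measurable fun x : E d => sg (τ' * τ) • x := by fun_prop
  have c2 : Continuous fun p : E d × E d => f (τ' • (τ • w + sg τ • p.1) + sg τ' • p.2) := by
    fun_prop
  have i1 : Integrable (fun p : E d × E d => f (τ' • (τ • w + sg τ • p.1) + sg τ' • p.2))
      ((gs d).prod (gs d)) := ibd c2.aestronglyMeasurable fun _ => hb _
  have i2 := integral_map (μ := (gs d).prod (gs d)) m1.aemeasurable c1.aestronglyMeasurable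
  rw [s, integral_map m2.aemeasurable c1.aestronglyMeasurable] at i2
  refine ⟨i1.integral_prod_left, ?_⟩
  rw [i2, ← integral_prod _ i1]
  congr 1; funext p; congr 1
  simp only [smul_add, smul_smul]
  rw [add_assoc]

theorem dev (h1 : Gau1 d) (O : OUApi d) {K ρ : ℝ} {Φ : E d → E d} (hK : 0 ≤ K) (h : LipF K Φ) :
    ∃ c : ℝ, 0 ≤ c ∧ ∀ y g, ‖OU ρ Φ y - Φ (ρ • y + sg ρ • g)‖ ≤ c * (1 + ‖g‖) := by
  have n1 : Integrable (fun x : E d => ‖x‖) (gs d) := by simpa using h1.i2 1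
  have hM : 0 ≤ ∫ x, ‖x‖ ∂gs d := integral_nonneg fun _ => norm_nonneg _
  have k : ∀ y g, ‖Φ (ρ • y + sg ρ • g) - Φ (ρ • y)‖ ≤ K * |sg ρ| * ‖g‖ := fun y g => by
    have := h (ρ • y + sg ρ • g) (ρ • y)
    rwa [add_sub_cancel_left, norm_smul, Real.norm_eq_abs, ← mul_assoc] at this
  refine ⟨K * |sg ρ| * (1 + ∫ x, ‖x‖ ∂gs d), by positivity, fun y g => ?_⟩
  have i := (O.int K Φ h (ρ • y) (sg ρ)).integrable (by norm_num)
  have a : ‖OU ρ Φ y - Φ (ρ • y)‖ ≤ K * |sg ρ| * ∫ x, ‖x‖ ∂gs d := by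
    have e : OU ρ Φ y - Φ (ρ • y) = ∫ g, (Φ (ρ • y + sg ρ • g) - Φ (ρ • y)) ∂gs d := by
      rw [integral_sub i (integrable_const _)]; simp [OU]
    rw [e, ← integral_const_mul]
    exact norm_integral_le_of_norm_le (n1.const_mul _) (Filter.Eventually.of_forall (k y))
  have b := norm_sub_le_norm_sub_add_norm_sub (OU ρ Φ y) (Φ (ρ • y)) (Φ (ρ • y + sg ρ • g))
  have k' := k y g
  rw [norm_sub_rev] at k'
  have hp : 0 ≤ K * |sg ρ| := by positivity
  nlinarith [mul_nonneg hp (mul_nonneg hM (norm_nonneg g)), norm_nonneg g]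

theorem cv1_eq {K ρ : ℝ} {Φ : E d → E d} (h : LipF K Φ) (y u v : E d) :
    cv1 Φ ρ y u v = ∫ g, ⟪u, OU ρ Φ y - Φ (ρ • y + sg ρ • g)⟫ *
      ⟪v, OU ρ Φ y - Φ (ρ • y + sg ρ • g)⟫ ∂gs d := by
  have c := lipc h
  unfold cv1 Cv
  rw [integral_map (by fun_prop) (by fun_prop)]

theorem cv1_cb (h1 : Gau1 d) (O : OUApi d) {K ρ : ℝ} {Φ : E d → E d} (hK : 0 ≤ K)
    (hρ : ρ ^ 2 ≤ 1) (h : LipF K Φ) (u v : E d) :
    Continuous (fun y => cv1 Φ ρ y u v) ∧ ∃ b, ∀ y, |cv1 Φ ρ y u v| ≤ b := by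
  obtain ⟨c, c0, hc⟩ := dev h1 O (ρ := ρ) hK h
  have cΦ := lipc h
  have cO := lipc (O.lip K ρ Φ hK hρ h)
  have n1 : Integrable (fun x : E d => ‖x‖) (gs d) := by simpa using h1.i2 1
  have iB : Integrable (fun g : E d => ‖u‖ * ‖v‖ * c ^ 2 * (1 + 2 * ‖g‖ + ‖g‖ ^ 2)) (gs d) :=
    (((integrable_const 1).add (n1.const_mul 2)).add (h1.i2 2)).const_mul _
  have hB : ∀ y g, ‖⟪u, OU ρ Φ y - Φ (ρ • y + sg ρ • g)⟫ *
      ⟪v, OU ρ Φ y - Φ (ρ • y + sg ρ • g)⟫‖ ≤ ‖u‖ * ‖v‖ * c ^ 2 * (1 + 2 * ‖g‖ + ‖g‖ ^ 2) := by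
    intro y g
    have a := (norm_inner_le_norm (𝕜 := ℝ) u _).trans
      (mul_le_mul_of_nonneg_left (hc y g) (norm_nonneg u))
    have b := (norm_inner_le_norm (𝕜 := ℝ) v _).trans
      (mul_le_mul_of_nonneg_left (hc y g) (norm_nonneg v))
    rw [norm_mul]
    exact (mul_le_mul a b (norm_nonneg _) (by positivity)).trans_eq (by ring)
  simp only [cv1_eq h]
  refine ⟨continuous_of_dominated (fun y => by fun_prop)
    (fun y => Filter.Eventually.of_forall (hB y)) iB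
    (Filter.Eventually.of_forall fun g => by fun_prop), _, fun y =>
    norm_integral_le_of_norm_le iB (Filter.Eventually.of_forall (hB y))⟩

theorem ip2 {X : Type} [MeasurableSpace X] {μ : Measure X} {f g : X → E d} (hf : MemLp f 2 μ)
    (hg : MemLp g 2 μ) (u v : E d) : Integrable (fun x => ⟪u, f x⟫ * ⟪v, g x⟫) μ :=
  (hf.const_inner u).integrable_mul (hg.const_inner v)

/-- the inner integral: the cross terms vanish -/
theorem inner_int {X : Type} [MeasurableSpace X] {μ : Measure X} [IsProbabilityMeasure μ]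
    {f : X → E d} (hf : MemLp f 2 μ) (h0 : ∫ x, f x ∂μ = 0) (a u v : E d) (ρ : ℝ) :
    ∫ x, ⟪u, a + ρ • f x⟫ * ⟪v, a + ρ • f x⟫ ∂μ =
      ⟪u, a⟫ * ⟪v, a⟫ + ρ ^ 2 * ∫ x, ⟪u, f x⟫ * ⟪v, f x⟫ ∂μ := by
  have i := hf.integrable (by norm_num)
  have z : ∀ t : E d, ∫ x, ⟪t, f x⟫ ∂μ = 0 := fun t => by rw [integral_inner i, h0, inner_zero_right]
  have e : ∀ x, ⟪u, a + ρ • f x⟫ * ⟪v, a + ρ • f x⟫ = ⟪u, a⟫ * ⟪v, a⟫ +
      ((ρ * ⟪u, a⟫) * ⟪v, f x⟫ + ((ρ * ⟪v, a⟫) * ⟪u, f x⟫ + ρ ^ 2 * (⟪u, f x⟫ * ⟪v, f x⟫))) := by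
    intro x
    simp only [inner_add_right, real_inner_smul_right]
    ring
  have j1 : Integrable (fun x => (ρ * ⟪u, a⟫) * ⟪v, f x⟫) μ := (i.const_inner v).const_mul _
  have j2 : Integrable (fun x => (ρ * ⟪v, a⟫) * ⟪u, f x⟫) μ := (i.const_inner u).const_mul _
  have j3 : Integrable (fun x => ρ ^ 2 * (⟪u, f x⟫ * ⟪v, f x⟫)) μ := (ip2 hf hf u v).const_mul _
  have j4 : Integrable (fun x => (ρ * ⟪v, a⟫) * ⟪u, f x⟫ + ρ ^ 2 * (⟪u, f x⟫ * ⟪v, f x⟫)) μ :=
    j2.add j3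
  have j5 : Integrable (fun x => (ρ * ⟪u, a⟫) * ⟪v, f x⟫ +
      ((ρ * ⟪v, a⟫) * ⟪u, f x⟫ + ρ ^ 2 * (⟪u, f x⟫ * ⟪v, f x⟫))) μ := j1.add j4
  simp only [e]
  rw [integral_add (integrable_const _) j5, integral_add j1 j4, integral_add j2 j3]
  simp only [integral_const_mul, z]
  simp

end CovRm

open CovRm in
theorem stmtCovR (h1 : StmtG1) (h2 : StmtG2) (hGP : StmtGP) (hAa : StmtAa) (hMean : StmtMean)
    (hOU : StmtOU) : StmtCovR := by
  intro d ε ρ G hd e0 e1 r0 r1 hN u v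
  have A := hAa d ε ρ G hd e0 e1 r0 r1 hN
  have O := hOU d
  have hG : Continuous G := hN.c1.continuous
  have hρ : ρ ^ 2 ≤ 1 := by nlinarith
  have hρk : ∀ k : ℕ, (ρ ^ k) ^ 2 ≤ 1 := fun k => by
    rw [← pow_mul, mul_comm, pow_mul]; exact pow_le_one₀ (sq_nonneg _) hρ
  have l0 : ∀ n, LipF (2 * ε) (mA0 G ρ n) := fun n => (hMean d ε ρ G hd e0 e1 r0 r1 hN n).2.2.1
  have lP : ∀ n, LipF (2 * ε) (Ph G ρ n) := fun n x y => by
    have e : Ph G ρ n x - Ph G ρ n y = ρ • (mA0 G ρ n x - mA0 G ρ n y) + (1 - ρ) • (G x - G y) := by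
      simp only [Ph, smul_sub]; abel
    have a := l0 n x y
    have b := hN.lip x y
    have c := mul_nonneg e0 (norm_nonneg (x - y))
    rw [e]
    refine (norm_add_le _ _).trans ?_
    rw [norm_smul, norm_smul, Real.norm_of_nonneg (by linarith), Real.norm_of_nonneg (by linarith)]
    nlinarith [mul_le_mul_of_nonneg_left a (by linarith : 0 ≤ ρ),
      mul_le_mul_of_nonneg_left b (by linarith : 0 ≤ 1 - ρ)]
  have cb := fun n => cv1_cb (h1 d) O (by positivity) hρ (lP n) u v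
  refine ⟨cb, ?_⟩
  have i0 : ∀ N w, Integrable (A0 G ρ N w) (gN d N) := fun N w =>
    (A.mem0 N w).integrable (by norm_num)
  have cA : ∀ N w, Continuous (A0 G ρ N w) := fun N w =>
    (A.cont0 N).comp (Continuous.prodMk_right w)
  have eC : ∀ N w, Cv (al0 G ρ N w) u v = ∫ g, ⟪u, mA0 G ρ N w - A0 G ρ N w g⟫ *
      ⟪v, mA0 G ρ N w - A0 G ρ N w g⟫ ∂gN d N := fun N w => by
    have := cA N w
    unfold al0 Cv
    rw [integral_map (by fun_prop) (by fun_prop)]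
  have s0 : ∀ N w, mA0 G ρ (N + 1) w = OU ρ (Ph G ρ N) w := by
    intro N w
    refine (Meanm.int_step ρ w (fun y g => ρ • A0 G ρ N y g + (1 - ρ) • G y)
      (i0 (N + 1) w) (((A.cont0 N).const_smul ρ).add
        ((hG.comp continuous_fst).const_smul (1 - ρ)))).trans ?_
    congr 1
    funext y
    rw [Meanm.int2 _ _ (i0 N y) (integrable_const _)]
    simp [mA0, Ph]
  have step : ∀ N w, Integrable (fun g => Cv (al0 G ρ N (ρ • w + sg ρ • g)) u v) (gs d) →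
      Cv (al0 G ρ (N + 1) w) u v = cv1 (Ph G ρ N) ρ w u v +
        ρ ^ 2 * ∫ g, Cv (al0 G ρ N (ρ • w + sg ρ • g)) u v ∂gs d := by
    intro N w hi
    have m := (memLp_const (mA0 G ρ (N + 1) w)).sub (A.mem0 (N + 1) w)
    have i1 := ip2 m m u v
    have c0 : Continuous fun p : E d × (Fin N → E d) => A0 G ρ N (ρ • w + sg ρ • p.1) p.2 :=
      (A.cont0 N).comp ((continuous_const.add (continuous_fst.const_smul (sg ρ))).prodMk
        continuous_snd)
    have hc' : Continuous fun p : E d × (Fin N → E d) =>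
        ⟪u, mA0 G ρ (N + 1) w - (ρ • A0 G ρ N (ρ • w + sg ρ • p.1) p.2 +
          (1 - ρ) • G (ρ • w + sg ρ • p.1))⟫ *
        ⟪v, mA0 G ρ (N + 1) w - (ρ • A0 G ρ N (ρ • w + sg ρ • p.1) p.2 +
          (1 - ρ) • G (ρ • w + sg ρ • p.1))⟫ := by fun_prop
    have hm := Revm.mp_tail d N
    have hi' := (hm.integrable_comp hc'.aestronglyMeasurable).1 i1
    have e1 := integral_map (μ := gN d (N + 1)) hm.measurable.aemeasurable hc'.aestronglyMeasurable
    rw [hm.map_eq, integral_prod _ hi'] at e1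
    have mP : MemLp (fun g => OU ρ (Ph G ρ N) w - Ph G ρ N (ρ • w + sg ρ • g)) 2 (gs d) :=
      (memLp_const (OU ρ (Ph G ρ N) w)).sub (O.int _ _ (lP N) (ρ • w) (sg ρ))
    rw [eC, cv1_eq (lP N), ← integral_const_mul, ← integral_add (ip2 mP mP u v) (hi.const_mul _)]
    refine e1.symm.trans (integral_congr_ae (Filter.Eventually.of_forall fun g => ?_))
    have mf := (memLp_const (mA0 G ρ N (ρ • w + sg ρ • g))).sub (A.mem0 N (ρ • w + sg ρ • g))
    have z : ∫ x, (mA0 G ρ N (ρ • w + sg ρ • g) - A0 G ρ N (ρ • w + sg ρ • g) x) ∂gN d N = 0 := by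
      rw [integral_sub (integrable_const _) (i0 N _)]; simp [mA0]
    have k := inner_int mf z (OU ρ (Ph G ρ N) w - Ph G ρ N (ρ • w + sg ρ • g)) u v ρ
    simp only [eC]
    refine Eq.trans ?_ k
    congr 1
    funext x
    have e : mA0 G ρ (N + 1) w - (ρ • A0 G ρ N (ρ • w + sg ρ • g) x +
          (1 - ρ) • G (ρ • w + sg ρ • g)) = OU ρ (Ph G ρ N) w - Ph G ρ N (ρ • w + sg ρ • g) +
          ρ • (mA0 G ρ N (ρ • w + sg ρ • g) - A0 G ρ N (ρ • w + sg ρ • g) x) := by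
      rw [s0]; simp only [Ph, smul_sub]; abel
    simp only [e, Pi.sub_apply]
  intro N
  induction N with
  | zero => intro w; simp [eC, mA0, A0]
  | succ N ih =>
    intro w
    have sm := fun k : ℕ => semi (h2 d) hρ (hρk k) (cb (N - 1 - k)).1 (cb (N - 1 - k)).2.choose_spec w
    rw [step N w (by
      simp only [ih]
      exact integrable_finsetSum _ fun k _ => (sm k).1.const_mul _), sum_range_succ', add_comm]
    simp only [ih]
    rw [integral_finsetSum _ fun k _ => (sm k).1.const_mul _, mul_sum]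
    congr 1
    · refine sum_congr rfl fun k _ => ?_
      rw [integral_const_mul, (sm k).2, ← pow_succ, show N + 1 - 1 - (k + 1) = N - 1 - k by omega]
      ring
    · simp [sg]

end Vale.Agent.P347
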