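import Vale.Agent.P347.Fo

open MeasureTheory ProbabilityTheory Finset
open scoped RealInnerProductSpace ENNReal

namespace Vale.Agent.P347

noncomputable section

namespace Cvm

variable {d : ℕ} {Ω : Type} [MeasurableSpace Ω] {P : Measure Ω}

/-- second moment form of a random vector -/
def c2 (P : Measure Ω) (Z : Ω → E d) (u v : E d) : ℝ := ∫ ω, ⟪u, Z ω⟫ * ⟪v, Z ω⟫ ∂P

/-- centred version of a random vector -/
def cn (P : Measure Ω) (X : Ω → E d) (ω : Ω) : E d := X ω - ∫ ω', X ω' ∂P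

lemma covF_map {X : Ω → E d} (hX : Measurable X) : CovF (P.map X) = Fq (c2 P (cn P X)) := by
  unfold CovF Fr Fq
  refine sum_congr rfl fun i _ => sum_congr rfl fun j _ => ?_
  have e0 : Cv (Measure.dirac (0 : E d)) (ee i) (ee j) = 0 := by simp [Cv]
  have e1 : ∫ y, y ∂P.map X = ∫ ω, X ω ∂P :=
    integral_map (f := fun y : E d => y) hX.aemeasurable (by fun_prop)
  rw [e0, sub_zero, e1, Measure.map_map (by fun_prop) hX]
  unfold Cv c2
  rw [integral_map (by fun_prop) (by fun_prop)]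
  rfl

lemma covF_id (β : Measure (E d)) : CovF β = Fq (c2 β (cn β fun x => x)) := by
  have h := covF_map (P := β) (X := fun x : E d => x) measurable_id
  rwa [Measure.map_id'] at h

lemma cn_mem [IsProbabilityMeasure P] {X : Ω → E d} (hX : MemLp X 2 P) : MemLp (cn P X) 2 P :=
  hX.sub (memLp_const _)

lemma i2 {Z W : Ω → E d} (hZ : MemLp Z 2 P) (hW : MemLp W 2 P) (u v : E d) :
    Integrable (fun ω => ⟪u, Z ω⟫ * ⟪v, W ω⟫) P :=
  (hZ.const_inner u).integrable_mul (hW.const_inner v)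

lemma iin {Z W : Ω → E d} (hZ : MemLp Z 2 P) (hW : MemLp W 2 P) :
    Integrable (fun ω => ⟪Z ω, W ω⟫) P := by
  have e : (fun ω => ⟪Z ω, W ω⟫) = fun ω => ∑ i, ⟪ee i, Z ω⟫ * ⟪ee i, W ω⟫ :=
    funext fun ω => Fom.inn _ _
  rw [e]
  exact integrable_finsetSum _ fun i _ => i2 hZ hW _ _

lemma iA (A : E d →L[ℝ] E d) {Z W : Ω → E d} (hZ : MemLp Z 2 P) (hW : MemLp W 2 P) :
    Integrable (fun ω => ⟪Z ω, A (W ω)⟫) P :=
  iin hZ (A.comp_memLp' hW)

lemma quad (A : E d →L[ℝ] E d) (y : E d) :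
    ⟪y, A y⟫ = ∑ i, ∑ j, ⟪ee i, A (ee j)⟫ * (⟪ee i, y⟫ * ⟪ee j, y⟫) := by
  rw [Fom.inn y (A y)]
  refine sum_congr rfl fun i _ => ?_
  have e : A y = ∑ j, ⟪ee j, y⟫ • A (ee j) := by
    conv_lhs => rw [Fom.expand y]
    simp [Fom.ie]
  rw [e, inner_sum, mul_sum]
  refine sum_congr rfl fun j _ => ?_
  rw [real_inner_smul_right]
  ring

lemma qint (A : E d →L[ℝ] E d) {Z : Ω → E d} (hZ : MemLp Z 2 P) :
    ∫ ω, ⟪Z ω, A (Z ω)⟫ ∂P = ∑ i, ∑ j, ⟪ee i, A (ee j)⟫ * c2 P Z (ee i) (ee j) := by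
  have e : (fun ω => ⟪Z ω, A (Z ω)⟫) =
      fun ω => ∑ i, ∑ j, ⟪ee i, A (ee j)⟫ * (⟪ee i, Z ω⟫ * ⟪ee j, Z ω⟫) :=
    funext fun ω => quad A _
  rw [e, integral_finsetSum _ fun i _ =>
    integrable_finsetSum _ fun j _ => (i2 hZ hZ _ _).const_mul _]
  refine sum_congr rfl fun i _ => ?_
  rw [integral_finsetSum _ fun j _ => (i2 hZ hZ _ _).const_mul _]
  refine sum_congr rfl fun j _ => ?_
  rw [integral_const_mul]
  rfl

lemma qle (A : E d →L[ℝ] E d) (hA : Fo A ≤ 1) {Z : Ω → E d} (hZ : MemLp Z 2 P) :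
    ∫ ω, ⟪Z ω, A (Z ω)⟫ ∂P ≤ √(Fq (c2 P Z)) := by
  rw [qint A hZ, ← Fintype.sum_prod_type' fun i j => ⟪ee i, A (ee j)⟫ * c2 P Z (ee i) (ee j)]
  refine (Real.sum_mul_le_sqrt_mul_sqrt _ _ _).trans ?_
  rw [Fintype.sum_prod_type, Fintype.sum_prod_type]
  have h1 : √(Fo A) ≤ 1 := Real.sqrt_le_one.2 hA
  calc √(Fo A) * √(Fq (c2 P Z)) ≤ 1 * √(Fq (c2 P Z)) := by gcongr
    _ = _ := one_mul _

/-- the covariance operator -/
def op0 (B : E d → E d → ℝ) : E d →L[ℝ] E d :=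
  ∑ i, ∑ j, B (ee i) (ee j) • (innerSL ℝ (ee j : E d)).smulRight (ee i : E d)

lemma op0_in {Z : Ω → E d} (hZ : MemLp Z 2 P) (u v : E d) :
    ⟪u, op0 (c2 P Z) v⟫ = c2 P Z u v := by
  have e : (fun ω => ⟪u, Z ω⟫ * ⟪v, Z ω⟫) =
      fun ω => ∑ i, ∑ j, (⟪ee i, u⟫ * ⟪ee j, v⟫) * (⟪ee i, Z ω⟫ * ⟪ee j, Z ω⟫) := by
    funext ω
    rw [Fom.inn u, Fom.inn v, sum_mul_sum]
    exact sum_congr rfl fun i _ => sum_congr rfl fun j _ => by ring
  conv_rhs => unfold c2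
  rw [e, integral_finsetSum _ fun i _ =>
    integrable_finsetSum _ fun j _ => (i2 hZ hZ _ _).const_mul _]
  simp only [op0, ContinuousLinearMap.sum_apply, inner_sum]
  refine sum_congr rfl fun i _ => ?_
  rw [integral_finsetSum _ fun j _ => (i2 hZ hZ _ _).const_mul _]
  refine sum_congr rfl fun j _ => ?_
  rw [integral_const_mul, ContinuousLinearMap.smul_apply, ContinuousLinearMap.smulRight_apply,
    innerSL_apply_apply, real_inner_smul_right, real_inner_smul_right, real_inner_comm (ee i) u]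
  unfold c2
  ring

lemma qdual {Z : Ω → E d} (hZ : MemLp Z 2 P) :
    ∃ A : E d →L[ℝ] E d, (∀ u v, ⟪A u, v⟫ = ⟪u, A v⟫) ∧ (∀ u, 0 ≤ ⟪u, A u⟫) ∧ Fo A ≤ 1 ∧
      √(Fq (c2 P Z)) = ∫ ω, ⟪Z ω, A (Z ω)⟫ ∂P := by
  have hN := Real.sqrt_nonneg (Fq (c2 P Z))
  have hs := Real.sq_sqrt (Fom.Fq_nonneg (c2 P Z))
  have hA : ∀ u v, ⟪u, ((√(Fq (c2 P Z)))⁻¹ • op0 (c2 P Z)) v⟫ = (√(Fq (c2 P Z)))⁻¹ * c2 P Z u v := by
    intro u v
    rw [ContinuousLinearMap.smul_apply, real_inner_smul_right, op0_in hZ]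
  refine ⟨(√(Fq (c2 P Z)))⁻¹ • op0 (c2 P Z), fun u v => ?_, fun u => ?_, ?_, ?_⟩
  · rw [real_inner_comm, hA, hA]
    unfold c2
    simp_rw [mul_comm ⟪u, _⟫]
  · rw [hA]
    exact mul_nonneg (inv_nonneg.2 hN) (integral_nonneg fun ω => mul_self_nonneg _)
  · unfold Fo
    simp_rw [hA]
    rw [← Real.sqrt_le_one, Fom.smul, abs_of_nonneg (inv_nonneg.2 hN)]
    exact inv_mul_le_one_of_le₀ le_rfl hN
  · rw [qint _ hZ]
    simp_rw [hA, mul_assoc, ← mul_sum, ← sq]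
    change _ = _ * Fq (c2 P Z)
    generalize √(Fq (c2 P Z)) = N at hN hs
    rw [← hs]
    rcases eq_or_ne N 0 with h | h
    · simp [h]
    · field_simp

lemma centre [IsProbabilityMeasure P] (A : E d →L[ℝ] E d) {X : Ω → E d} (hX : MemLp X 2 P) :
    ∫ ω, ⟪cn P X ω, A (cn P X ω)⟫ ∂P =
      ∫ ω, ⟪X ω, A (X ω)⟫ ∂P - ⟪∫ ω, X ω ∂P, A (∫ ω, X ω ∂P)⟫ := by
  unfold cn
  generalize hm : ∫ ω, X ω ∂P = m
  have hI : Integrable X P := hX.integrable one_le_two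
  have e : (fun ω => ⟪X ω - m, A (X ω - m)⟫) =
      fun ω => ⟪X ω, A (X ω)⟫ - ⟪A m, X ω⟫ - (⟪m, A (X ω)⟫ - ⟪m, A m⟫) := by
    funext ω
    rw [map_sub, inner_sub_left, inner_sub_right, inner_sub_right, real_inner_comm (X ω) (A m)]
  have h1 : Integrable (fun ω => ⟪A m, X ω⟫) P := hI.const_inner _
  have h2 : Integrable (fun ω => ⟪m, A (X ω)⟫) P := (A.integrable_comp hI).const_inner _
  have h3 : Integrable (fun ω => ⟪X ω, A (X ω)⟫ - ⟪A m, X ω⟫) P := (iA A hX hX).sub h1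
  have h4 : Integrable (fun ω => ⟪m, A (X ω)⟫ - ⟪m, A m⟫) P := h2.sub (integrable_const _)
  rw [e, integral_sub h3 h4,
    integral_sub (iA A hX hX) h1, integral_sub h2 (integrable_const _), integral_inner hI,
    integral_inner (A.integrable_comp hI), A.integral_comp_comm hI, hm, real_inner_comm m (A m)]
  simp

lemma cs (A : E d →L[ℝ] E d) (hs : ∀ u v, ⟪A u, v⟫ = ⟪u, A v⟫) (hp : ∀ u, 0 ≤ ⟪u, A u⟫)
    {Z W : Ω → E d} (hZ : MemLp Z 2 P) (hW : MemLp W 2 P) :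
    ∫ ω, ⟪Z ω, A (W ω)⟫ ∂P ≤ √(∫ ω, ⟪Z ω, A (Z ω)⟫ ∂P) * √(∫ ω, ⟪W ω, A (W ω)⟫ ∂P) := by
  have h : ∀ s : ℝ, 0 ≤ (∫ ω, ⟪Z ω, A (Z ω)⟫ ∂P) * (s * s) + (2 * ∫ ω, ⟪Z ω, A (W ω)⟫ ∂P) * s +
      ∫ ω, ⟪W ω, A (W ω)⟫ ∂P := by
    intro s
    have e : ∀ ω, ⟪s • Z ω + W ω, A (s • Z ω + W ω)⟫ =
        ⟪Z ω, A (Z ω)⟫ * (s * s) + (2 * ⟪Z ω, A (W ω)⟫) * s + ⟪W ω, A (W ω)⟫ := by
      intro ω
      rw [map_add, map_smul, inner_add_left, inner_add_right, inner_add_right,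
        real_inner_smul_left, real_inner_smul_left, real_inner_smul_right, real_inner_smul_right,
        real_inner_comm (A (Z ω)) (W ω), hs (Z ω) (W ω)]
      ring
    have h0 : 0 ≤ ∫ ω, ⟪s • Z ω + W ω, A (s • Z ω + W ω)⟫ ∂P := integral_nonneg fun ω => hp _
    simp_rw [e] at h0
    have h1 : Integrable (fun ω => ⟪Z ω, A (Z ω)⟫ * (s * s) + (2 * ⟪Z ω, A (W ω)⟫) * s) P :=
      ((iA A hZ hZ).mul_const _).add (((iA A hZ hW).const_mul _).mul_const _)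
    rwa [integral_add h1 (iA A hW hW),
      integral_add ((iA A hZ hZ).mul_const _) (((iA A hZ hW).const_mul _).mul_const _),
      integral_mul_const, integral_mul_const, integral_const_mul] at h0
  have hd := discrim_le_zero h
  have hz : 0 ≤ ∫ ω, ⟪Z ω, A (Z ω)⟫ ∂P := integral_nonneg fun ω => hp _
  rw [← Real.sqrt_mul hz]
  refine Real.le_sqrt_of_sq_le ?_
  unfold discrim at hd
  linarith

lemma qsum (A : E d →L[ℝ] E d) (hs : ∀ u v, ⟪A u, v⟫ = ⟪u, A v⟫) (hp : ∀ u, 0 ≤ ⟪u, A u⟫)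
    {n : ℕ} {Z : Fin n → Ω → E d} (hZ : ∀ i, MemLp (Z i) 2 P) :
    √(∫ ω, ⟪∑ i, Z i ω, A (∑ i, Z i ω)⟫ ∂P) ≤ ∑ i, √(∫ ω, ⟪Z i ω, A (Z i ω)⟫ ∂P) := by
  refine Real.sqrt_le_iff.2 ⟨sum_nonneg fun i _ => Real.sqrt_nonneg _, ?_⟩
  have e : (fun ω => ⟪∑ i, Z i ω, A (∑ i, Z i ω)⟫) = fun ω => ∑ i, ∑ j, ⟪Z i ω, A (Z j ω)⟫ := by
    funext ω
    rw [map_sum, sum_inner]
    exact sum_congr rfl fun i _ => inner_sum _ _ _
  rw [e, integral_finsetSum _ fun i _ => integrable_finsetSum _ fun j _ => iA A (hZ i) (hZ j), sq,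
    sum_mul_sum]
  refine sum_le_sum fun i _ => ?_
  rw [integral_finsetSum _ fun j _ => iA A (hZ i) (hZ j)]
  exact sum_le_sum fun j _ => cs A hs hp (hZ i) (hZ j)

lemma sum' [IsProbabilityMeasure P] (n : ℕ) (X : Fin n → Ω → E d) (hm : ∀ i, Measurable (X i))
    (hX : ∀ i, MemLp (X i) 2 P) :
    √(√(CovF (P.map fun ω => ∑ i, X i ω))) ≤ ∑ i, √(√(CovF (P.map (X i)))) := by
  have e : cn P (fun ω => ∑ i, X i ω) = fun ω => ∑ i, cn P (X i) ω := by
    funext ω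
    unfold cn
    rw [integral_finsetSum _ fun i _ => (hX i).integrable one_le_two, sum_sub_distrib]
  have hS : MemLp (fun ω => ∑ i, cn P (X i) ω) 2 P := memLp_finsetSum _ fun i _ => cn_mem (hX i)
  obtain ⟨A, hs, hp, hA, hq⟩ := qdual hS
  rw [covF_map (Finset.measurable_sum _ fun i _ => hm i), e, hq]
  refine (qsum A hs hp fun i => cn_mem (hX i)).trans (sum_le_sum fun i _ => ?_)
  rw [covF_map (hm i)]
  exact Real.sqrt_le_sqrt (qle A hA (cn_mem (hX i)))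

lemma two (β : Measure (E d)) [IsProbabilityMeasure β] (hβ : MemLp (fun x : E d => x) 2 β) :
    CovF β = ∫ p, ⟪p.1 - ∫ y, y ∂β, p.2 - ∫ y, y ∂β⟫ ^ 2 ∂β.prod β := by
  have hZ := cn_mem hβ
  have e : (fun p : E d × E d => ⟪p.1 - ∫ y, y ∂β, p.2 - ∫ y, y ∂β⟫ ^ 2) = fun p => ∑ i, ∑ j,
      (⟪ee i, cn β (fun x => x) p.1⟫ * ⟪ee j, cn β (fun x => x) p.1⟫) *
        (⟪ee i, cn β (fun x => x) p.2⟫ * ⟪ee j, cn β (fun x => x) p.2⟫) := by
    funext p
    rw [Fom.inn, sq, sum_mul_sum]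
    exact sum_congr rfl fun i _ => sum_congr rfl fun j _ => by unfold cn; ring
  rw [covF_id, e, integral_finsetSum _ fun i _ => integrable_finsetSum _ fun j _ =>
    (i2 hZ hZ _ _).mul_prod (i2 hZ hZ _ _)]
  refine sum_congr rfl fun i _ => ?_
  rw [integral_finsetSum _ fun j _ => (i2 hZ hZ _ _).mul_prod (i2 hZ hZ _ _)]
  refine sum_congr rfl fun j _ => ?_
  rw [integral_prod_mul (fun x => ⟪ee i, cn β (fun x => x) x⟫ * ⟪ee j, cn β (fun x => x) x⟫)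
    (fun x => ⟪ee i, cn β (fun x => x) x⟫ * ⟪ee j, cn β (fun x => x) x⟫), sq]
  rfl

lemma meas {T : Type} [MeasurableSpace T] [IsProbabilityMeasure P] (X : T × Ω → E d)
    (hX : Measurable X) : Measurable fun τ => CovF (P.map fun ω => X (τ, ω)) := by
  have e : (fun τ => CovF (P.map fun ω => X (τ, ω))) =
      fun τ => Fq (c2 P (cn P fun ω => X (τ, ω))) :=
    funext fun τ => covF_map (hX.comp measurable_prodMk_left)
  have hm : Measurable fun τ => ∫ ω, X (τ, ω) ∂P :=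
    (hX.stronglyMeasurable.integral_prod_right' (ν := P)).measurable
  have hc : Measurable fun p : T × Ω => X p - ∫ ω, X (p.1, ω) ∂P := hX.sub (hm.comp measurable_fst)
  rw [e]
  unfold Fq
  refine Finset.measurable_sum _ fun i _ => Finset.measurable_sum _ fun j _ => ?_
  refine Measurable.pow_const ?_ 2
  have h2 : Measurable fun p : T × Ω => ⟪ee i, X p - ∫ ω, X (p.1, ω) ∂P⟫ *
      ⟪ee j, X p - ∫ ω, X (p.1, ω) ∂P⟫ := (measurable_const.inner hc).mul (measurable_const.inner hc)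
  exact (h2.stronglyMeasurable.integral_prod_right' (ν := P)).measurable

lemma aff (β : Measure (E d)) [IsProbabilityMeasure β] (x0 : E d) (c : ℝ)
    (hβ : MemLp (fun x : E d => x) 2 β) :
    √(CovF (β.map fun x => x0 + c • x)) = c ^ 2 * √(CovF β) := by
  have hI : Integrable (fun x : E d => x) β := hβ.integrable one_le_two
  have e : cn β (fun x => x0 + c • x) = fun x => c • cn β (fun x => x) x := by
    funext x
    unfold cn
    have h1 : Integrable (fun x : E d => c • x) β := hI.smul c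
    rw [integral_add (integrable_const x0) h1, integral_smul, smul_sub]
    simp
  have e2 : c2 β (fun x => c • cn β (fun x => x) x) =
      fun u v => c ^ 2 * c2 β (cn β fun x => x) u v := by
    funext u v
    unfold c2
    rw [← integral_const_mul]
    refine integral_congr_ae (Filter.Eventually.of_forall fun x => ?_)
    simp only [real_inner_smul_right]
    ring
  rw [covF_map (by fun_prop), e, e2, Fom.smul, covF_id, abs_of_nonneg (sq_nonneg c)]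

end Cvm

open Cvm in
theorem stmtCv (_hFo : StmtFo) : StmtCv := fun _ =>
  { dual := fun β _ hβ => by
      obtain ⟨A, hs, hp, hA, hq⟩ := qdual (cn_mem hβ)
      exact ⟨A, hs, hp, hA, by rw [covF_id, hq, centre A hβ]⟩
    le := fun β _ A hβ hA => by
      rw [covF_id, ← centre A hβ]
      exact qle A hA (cn_mem hβ)
    sum := fun _ _ _ _ n X hm hX => sum' n X hm hX
    two := fun β _ hβ => two β hβ
    meas := fun _ _ _ _ _ _ X hX => meas X hX
    aff := fun β _ x0 c hβ => aff β x0 c hβ }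

end

end Vale.Agent.P347
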