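import Vale.Agent.P347.Spec2

open MeasureTheory ProbabilityTheory Finset
open scoped RealInnerProductSpace ENNReal

namespace Vale.Agent.P347

namespace DPhm

variable {d : ℕ}

theorem lipc {X Y : Type} [NormedAddCommGroup X] [NormedAddCommGroup Y] {K : ℝ} {f : X → Y}
    (h : LipF K f) : Continuous f :=
  (LipschitzWith.of_dist_le' fun x y => by simpa only [dist_eq_norm] using h x y).continuous

theorem sq2 {X Y : Type} [MeasurableSpace X] [NormedAddCommGroup Y] (μ : Measure X) (f : X → Y) :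
    eLpNorm f 2 μ ^ 2 = ∫⁻ x, ENNReal.ofReal (‖f x‖ ^ 2) ∂μ := by
  have := eLpNorm_nnreal_pow_eq_lintegral (μ := μ) (f := f) (p := 2) two_ne_zero
  simp only [ENNReal.coe_ofNat, NNReal.coe_ofNat, ENNReal.rpow_ofNat] at this
  rw [this]
  refine lintegral_congr fun x => ?_
  rw [ENNReal.ofReal_pow (norm_nonneg _), ofReal_norm]

theorem col (μ : Measure (E d)) (R : Fin d → E d → E d) (hm : ∀ k, Continuous (R k)) {b : ℝ}
    (hb : 0 ≤ b) (h : ∀ k, eLpNorm (R k) 2 μ ≤ ENNReal.ofReal b) :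
    eLpNorm (fun x => √(∑ k, ‖R k x‖ ^ 2)) 2 μ ≤ ENNReal.ofReal (√d * b) := by
  refine (ENNReal.pow_le_pow_left_iff two_ne_zero).1 ?_
  rw [sq2, ← ENNReal.ofReal_pow (by positivity), mul_pow, Real.sq_sqrt (Nat.cast_nonneg _)]
  have e : ∀ x, ENNReal.ofReal (‖√(∑ k, ‖R k x‖ ^ 2)‖ ^ 2) = ∑ k, ENNReal.ofReal (‖R k x‖ ^ 2) :=
    fun x => by
      rw [Real.norm_eq_abs, sq_abs, Real.sq_sqrt (by positivity),
        ENNReal.ofReal_sum_of_nonneg fun _ _ => by positivity]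
  simp only [e]
  rw [lintegral_finsetSum (f := fun k x => ENNReal.ofReal (‖R k x‖ ^ 2)) _ fun k _ =>
    ((hm k).norm.pow 2).measurable.ennreal_ofReal]
  refine (sum_le_sum fun k _ => (sq2 μ (R k)).symm.le.trans (pow_le_pow_left' (h k) 2)).trans ?_
  rw [sum_const, card_univ, Fintype.card_fin, nsmul_eq_mul, ENNReal.ofReal_mul (Nat.cast_nonneg _),
    ENNReal.ofReal_natCast, ENNReal.ofReal_pow hb]

theorem aw_sum (ρ : ℝ) (n : ℕ) : ∑ r ∈ range n, aw ρ r = 1 - ρ ^ n := by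
  simp only [aw, ← mul_sum, mul_neg_geom_sum]

theorem hb_lip (hFo : FoApi d) {ε κ τ : ℝ} {G : E d → E d} (h : HbApi ε G) (e0 : 0 ≤ ε) (k0 : 0 < κ)
    (hτ : τ ^ 2 ≤ 1 - κ ^ 2) : LipF (ε / κ) (Hb G τ) := fun x y => by
  have h1 := h.flip τ x y (by nlinarith)
  rw [sg, Real.sq_sqrt (by nlinarith)] at h1
  have h2 := hFo.op (Hb G τ x - Hb G τ y)
  refine abs_le_of_sq_le_sq' ?_ (by positivity) |>.2
  rw [mul_pow, div_pow, div_mul_eq_mul_div, le_div_iff₀ (by positivity)]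
  have h3 : κ ^ 2 * Fo (Hb G τ x - Hb G τ y) ≤ (1 - τ ^ 2) * Fo (Hb G τ x - Hb G τ y) :=
    mul_le_mul_of_nonneg_right (by linarith) ((sq_nonneg _).trans h2)
  nlinarith [mul_le_mul_of_nonneg_left h2 (sq_nonneg κ)]

/-- the terms of the derivative -/
noncomputable def cc (G : E d → E d) (ρ : ℝ) (x : E d) (r : ℕ) : E d →L[ℝ] E d :=
  (aw ρ r * ρ ^ r) • Hb G (ρ ^ r) x

theorem cc_le {ε ρ : ℝ} {G : E d → E d} (h : HbApi ε G) (r0 : 0 ≤ ρ) (r1 : ρ ≤ 1) (x : E d)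
    (s : Finset ℕ) : ‖∑ r ∈ s, cc G ρ x r‖ ≤ (∑ r ∈ s, aw ρ r) * ε := by
  rw [sum_mul]
  refine norm_sum_le_of_le _ fun r _ => ?_
  have a0 : 0 ≤ aw ρ r := mul_nonneg (by linarith) (by positivity)
  rw [cc, norm_smul, Real.norm_of_nonneg (by positivity)]
  exact mul_le_mul (mul_le_of_le_one_right a0 (pow_le_one₀ r0 r1)) (h.nrm _ _) (norm_nonneg _) a0

theorem nsub (c : ℝ) (A B : E d →L[ℝ] E d) : ‖c • A - c • B‖ = ‖c‖ * ‖A - B‖ := by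
  rw [← norm_smul, smul_sub c A B]

theorem part1 (hF : FoApi d) {ε κ ρ c : ℝ} {G : E d → E d} (hH : HbApi ε G) (e0 : 0 ≤ ε) (k0 : 0 < κ)
    {J : ℕ} {om tau : Fin J → ℝ} (q1 : ∀ j, 0 ≤ om j) (q2 : ∑ j, om j ≤ 1)
    (q3 : ∀ j, 0 ≤ tau j ∧ tau j ≤ 1) (ρ0 : 0 ≤ ρ) (ρ1 : ρ ≤ 1) (c0 : 0 ≤ c) (c1 : c ≤ 1)
    (lo : c ^ 2 ≤ 1 - κ ^ 2) :
    (∀ x, ‖DP G ρ c om tau x‖ ≤ ε) ∧ LipF (ε / κ) (DP G ρ c om tau) ∧
    (∀ x u v, ⟪DP G ρ c om tau x u, v⟫ = ⟪u, DP G ρ c om tau x v⟫) := by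
  have w0 : ∀ j, 0 ≤ ρ * c * (om j * (c * tau j)) ∧ ρ * c * (om j * (c * tau j)) ≤ om j := fun j => by
    have := q1 j
    have := (q3 j).1
    exact ⟨by positivity, (mul_le_of_le_one_left (by positivity) (mul_le_one₀ ρ1 c0 c1)).trans
      (mul_le_of_le_one_right (q1 j) (mul_le_one₀ c1 (q3 j).1 (q3 j).2))⟩
  have t1 : ∀ j, (c * tau j) ^ 2 ≤ 1 - κ ^ 2 := fun j =>
    (pow_le_pow_left₀ (mul_nonneg c0 (q3 j).1) (mul_le_of_le_one_right c0 (q3 j).2) 2).trans lo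
  refine ⟨fun x => ?_, fun x y => ?_, fun x u v => ?_⟩
  · refine (norm_sum_le_of_le (n := fun j => om j * ε) _ fun j _ => ?_).trans ?_
    · rw [norm_smul, Real.norm_of_nonneg (w0 j).1]
      exact mul_le_mul (w0 j).2 (hH.nrm _ _) (norm_nonneg _) (q1 j)
    · rw [← sum_mul]
      exact mul_le_of_le_one_left e0 q2
  · rw [DP, DP, ← sum_sub_distrib]
    refine (norm_sum_le_of_le (n := fun j => om j * (ε / κ * ‖x - y‖)) _ fun j _ => ?_).trans ?_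
    · rw [nsub, Real.norm_of_nonneg (w0 j).1]
      exact mul_le_mul (w0 j).2 (hb_lip hF hH e0 k0 (t1 j) x y) (norm_nonneg _) (q1 j)
    · rw [← sum_mul]
      exact mul_le_of_le_one_left (by positivity) q2
  · simp only [DP, ContinuousLinearMap.sum_apply, ContinuousLinearMap.smul_apply, sum_inner,
      inner_sum, real_inner_smul_left, real_inner_smul_right, hH.sym]

theorem der {ε ρ : ℝ} {G : E d → E d} (hH : HbApi ε G) (hG : Nice ε G) {n : ℕ}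
    (m4 : ∀ w, mA0 G ρ n w = ∑ r ∈ range n, aw ρ r • OU (ρ ^ (r + 1)) G w) (x : E d) :
    HasFDerivAt (Ph G ρ n) (∑ r ∈ range (n + 1), cc G ρ x r) x := by
  have e : Ph G ρ n = fun x => ρ • ∑ r ∈ range n, aw ρ r • OU (ρ ^ (r + 1)) G x + (1 - ρ) • G x :=
    funext fun x => by rw [Ph, m4 x]
  rw [e]
  refine (((HasFDerivAt.fun_sum fun r _ => (hH.der _ x).fun_const_smul (aw ρ r)).fun_const_smul
    ρ).fun_add ((hG.c1.differentiable one_ne_zero x).hasFDerivAt.fun_const_smul (1 - ρ))).congr_fderiv ?_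
  rw [sum_range_succ', smul_sum]
  congr 1
  · refine sum_congr rfl fun r _ => ?_
    rw [cc, smul_smul, smul_smul, aw, aw]
    congr 1
    ring
  · simp [cc, aw, hH.one]

theorem near {ε κ ρ : ℝ} {G : E d → E d} (hH : HbApi ε G) (e0 : 0 ≤ ε) (ρ0 : 0 ≤ ρ) (ρ1 : ρ ≤ 1)
    {n N r0 : ℕ} (hn : n ≤ N) (b1 : 1 - 2 * κ ^ 2 ≤ (ρ ^ (r0 + 1)) ^ 2) (x : E d) :
    ‖∑ r ∈ range (n + 1), cc G ρ x r - ∑ r ∈ Ico (r0 + 1) (N + (r0 + 1)), cc G ρ x r‖ ≤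
      (2 * κ ^ 2 + ρ ^ n) * ε := by
  have e : ∑ r ∈ range (n + 1), cc G ρ x r - ∑ r ∈ Ico (r0 + 1) (N + (r0 + 1)), cc G ρ x r =
      ∑ r ∈ range (r0 + 1), cc G ρ x r - ∑ r ∈ Ico (n + 1) (N + (r0 + 1)), cc G ρ x r := by
    rw [sum_Ico_eq_sub _ (by omega), sum_Ico_eq_sub _ (by omega)]
    abel
  rw [e]
  refine (norm_sub_le _ _).trans ((add_le_add (cc_le hH ρ0 ρ1 x _) (cc_le hH ρ0 ρ1 x _)).trans ?_)
  rw [sum_Ico_eq_sub _ (by omega), aw_sum, aw_sum, aw_sum, ← add_mul]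
  refine mul_le_mul_of_nonneg_right ?_ e0
  have b2 : ρ ^ (r0 + 1) ≤ 1 := pow_le_one₀ ρ0 ρ1
  have b3 : 0 ≤ ρ ^ (r0 + 1) := by positivity
  have b4 : 0 ≤ ρ ^ (N + (r0 + 1)) := by positivity
  have b5 : ρ ^ (n + 1) ≤ ρ ^ n := pow_le_pow_of_le_one ρ0 ρ1 (by omega)
  nlinarith

theorem n1 (k : Fin d) : ‖(ee k : E d)‖ = 1 := by simp [ee]

theorem ap (A : E d →L[ℝ] E d) (k : Fin d) : ‖A (ee k)‖ ≤ ‖A‖ :=
  (A.le_opNorm _).trans_eq (by rw [n1, mul_one])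

theorem O1 {ε c τ : ℝ} {G : E d → E d} (hH : HbApi ε G) (hc : c ^ 2 ≤ 1) (hτ : τ ^ 2 ≤ 1) (x : E d)
    (k : Fin d) : OU τ (fun y => Hb G c y (ee k)) x = Hb G (τ * c) x (ee k) := by
  rw [← hH.semi τ _ x hτ hc, OM, ContinuousLinearMap.integral_apply, OU]
  exact Integrable.of_bound ((hH.cont _).comp (by fun_prop)).aestronglyMeasurable ε
    (.of_forall fun _ => hH.nrm _ _)

/-- quadrature error of a column -/
noncomputable def RR {J : ℕ} (G : E d → E d) (ρ c : ℝ) (N : ℕ) (om tau : Fin J → ℝ) (k : Fin d)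
    (w : E d) : E d :=
  ∑ r ∈ range N, (aw ρ r * (ρ ^ (r + 1)) ^ 1) • OU (ρ ^ (r + 1)) (fun y => Hb G c y (ee k)) w -
    ∑ j, (om j * tau j ^ 1) • OU (tau j) (fun y => Hb G c y (ee k)) w

theorem far {ε ρ : ℝ} {G : E d → E d} (hH : HbApi ε G) (ρ0 : 0 ≤ ρ) (ρ1 : ρ ≤ 1) (N r0 : ℕ)
    {J : ℕ} {om tau : Fin J → ℝ} (p2 : ∀ j, tau j ^ 2 ≤ 1) (x : E d) (k : Fin d) :
    (∑ r ∈ Ico (r0 + 1) (N + (r0 + 1)), cc G ρ x r - DP G ρ (ρ ^ r0) om tau x) (ee k) =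
      (ρ * ρ ^ r0 * ρ ^ r0) • RR G ρ (ρ ^ r0) N om tau k x := by
  have p1 : ∀ r : ℕ, (ρ ^ r) ^ 2 ≤ 1 := fun r => pow_le_one₀ (by positivity) (pow_le_one₀ ρ0 ρ1)
  rw [sum_Ico_eq_sum_range, Nat.add_sub_cancel, RR, smul_sub, smul_sum, smul_sum, DP,
    ContinuousLinearMap.sub_apply, ContinuousLinearMap.sum_apply, ContinuousLinearMap.sum_apply]
  congr 1
  · refine sum_congr rfl fun r _ => ?_
    rw [O1 hH (p1 _) (p1 _), cc, ContinuousLinearMap.smul_apply, smul_smul,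
      show ρ ^ (r + 1) * ρ ^ r0 = ρ ^ (r0 + 1 + r) by ring, aw, aw]
    congr 1
    ring
  · refine sum_congr rfl fun j _ => ?_
    rw [O1 hH (p1 _) (p2 _), ContinuousLinearMap.smul_apply, smul_smul, mul_comm (tau j)]
    congr 1
    ring

theorem tri (hF : FoApi d) (A T B : E d →L[ℝ] E d) :
    √(Fo (A - B)) ≤ √d * ‖A - T‖ + √(∑ k, ‖(T - B) (ee k)‖ ^ 2) := by
  have a1 : Fo (A - B) = Fq fun u v => ⟪u, (A - T) v⟫ + ⟪u, (T - B) v⟫ := by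
    simp only [Fo, ← inner_add_right, ← ContinuousLinearMap.add_apply, sub_add_sub_cancel]
  rw [a1]
  refine (hF.tri _ _).trans (add_le_add ?_ (Real.sqrt_le_sqrt (hF.col _).le))
  refine (Real.sqrt_le_sqrt (hF.dim _)).trans_eq ?_
  rw [Real.sqrt_mul (Nat.cast_nonneg _), Real.sqrt_sq (norm_nonneg _)]

end DPhm

open DPhm in
theorem stmtDPh (_h1 : StmtG1) (hFo : StmtFo) (hHb : StmtHb) (hMean : StmtMean) (hOU : StmtOU) :
    StmtDPh := by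
  refine ⟨2, by norm_num, fun d ε κ η ρ δ G N r0 J om tau e0 e1 hG hR δ0 hQ => ?_⟩
  have hF := hFo d
  have hH := hHb d ε G e0 hG
  obtain ⟨q1, q2, q3, q4⟩ := hQ
  have ρ0 : 0 ≤ ρ := by linarith [hR.r1]
  have ρ1 := hR.r2.le
  have k0 := hR.k0
  have c0 : 0 ≤ ρ ^ r0 := by positivity
  have c1 : ρ ^ r0 ≤ 1 := pow_le_one₀ ρ0 ρ1
  obtain ⟨y1, y2, y3⟩ := part1 hF hH e0 k0 q1 q2 q3 ρ0 ρ1 c0 c1 hR.lo
  refine ⟨y1, y2, y3, fun n hn => ?_⟩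
  obtain ⟨-, -, m3, m4⟩ := hMean d ε ρ G (by linarith [hR.d2]) e0 e1 hR.r1 hR.r2 hG n
  have hD := der hH hG fun w => (m4 w).1
  have hD' : fderiv ℝ (Ph G ρ n) = fun x => ∑ r ∈ range (n + 1), cc G ρ x r :=
    funext fun x => (hD x).fderiv
  refine ⟨contDiff_one_iff_fderiv.2 ⟨fun x => (hD x).differentiableAt, ?_⟩, fun x y => ?_, ?_⟩
  · rw [hD']
    exact continuous_finsetSum _ fun r _ => (hH.cont (ρ ^ r)).const_smul (aw ρ r * ρ ^ r)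
  · have e : Ph G ρ n x - Ph G ρ n y = ρ • (mA0 G ρ n x - mA0 G ρ n y) + (1 - ρ) • (G x - G y) := by
      simp only [Ph, smul_sub]; abel
    rw [e]
    refine (norm_add_le _ _).trans ?_
    rw [norm_smul, norm_smul, Real.norm_of_nonneg ρ0, Real.norm_of_nonneg (by linarith)]
    have a1 := mul_le_mul_of_nonneg_left (m3 x y) ρ0
    have a2 := mul_le_mul_of_nonneg_left (hG.lip x y) (by linarith : 0 ≤ 1 - ρ)
    nlinarith [mul_nonneg (mul_nonneg e0 (norm_nonneg (x - y))) (by linarith : 0 ≤ 1 - ρ)]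
  have L1 : ∀ k, LipF (ε / κ) fun y => Hb G (ρ ^ r0) y (ee k) := fun k x y =>
    (ap (Hb G (ρ ^ r0) x - Hb G (ρ ^ r0) y) k).trans (hb_lip hF hH e0 k0 hR.lo x y)
  have p1 : ∀ r : ℕ, (ρ ^ (r + 1)) ^ 2 ≤ 1 := fun r =>
    pow_le_one₀ (by positivity) (pow_le_one₀ ρ0 ρ1)
  have p2 : ∀ j, tau j ^ 2 ≤ 1 := fun j => pow_le_one₀ (q3 j).1 (q3 j).2
  have Rc : ∀ k, Continuous (RR G ρ (ρ ^ r0) N om tau k) := fun k =>
    (continuous_finsetSum _ fun r _ => (lipc ((hOU d).lip _ _ _ (by positivity) (p1 r)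
      (L1 k))).const_smul (aw ρ r * (ρ ^ (r + 1)) ^ 1)).sub (continuous_finsetSum _ fun j _ =>
        (lipc ((hOU d).lip _ _ _ (by positivity) (p2 j) (L1 k))).const_smul (om j * tau j ^ 1))
  have Rb : ∀ k, eLpNorm (RR G ρ (ρ ^ r0) N om tau k) 2 (gs d) ≤ ENNReal.ofReal (δ * ε) := fun k => by
    refine (q4 1 le_rfl d _ _ (L1 k)).trans ?_
    rw [ENNReal.ofReal_mul δ0]
    refine mul_le_mul_right ?_ _
    exact (eLpNorm_le_of_ae_bound (C := ε) (.of_forall fun y => (ap _ k).trans (hH.nrm _ _))).trans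
      (by simp)
  have key : ∀ x, ‖√(Fo (fderiv ℝ (Ph G ρ n) x - DP G ρ (ρ ^ r0) om tau x))‖ ≤
      √d * ((2 * κ ^ 2 + ρ ^ n) * ε) + √(∑ k, ‖RR G ρ (ρ ^ r0) N om tau k x‖ ^ 2) := fun x => by
    rw [Real.norm_of_nonneg (Real.sqrt_nonneg _), (hD x).fderiv]
    refine (tri hF _ (∑ r ∈ Ico (r0 + 1) (N + (r0 + 1)), cc G ρ x r) _).trans (add_le_add
      (mul_le_mul_of_nonneg_left (near hH e0 ρ0 ρ1 hn hR.hi x) (Real.sqrt_nonneg _))
      (Real.sqrt_le_sqrt (sum_le_sum fun k _ => pow_le_pow_left₀ (norm_nonneg _) ?_ 2)))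
    rw [far hH ρ0 ρ1 N r0 p2, norm_smul, Real.norm_of_nonneg (by positivity)]
    exact mul_le_of_le_one_left (norm_nonneg _) (mul_le_one₀ (mul_le_one₀ ρ1 c0 c1) c0 c1)
  refine (eLpNorm_mono_real key).trans ((eLpNorm_add_le (f := fun _ => √d * ((2 * κ ^ 2 + ρ ^ n) * ε))
    aestronglyMeasurable_const (Continuous.aestronglyMeasurable (Real.continuous_sqrt.comp
      (continuous_finsetSum _ fun k _ => (Rc k).norm.pow 2))) one_le_two).trans ?_)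
  have z1 : eLpNorm (fun _ : E d => √d * ((2 * κ ^ 2 + ρ ^ n) * ε)) 2 (gs d) ≤
      ENNReal.ofReal (√d * ((2 * κ ^ 2 + ρ ^ n) * ε)) :=
    (eLpNorm_le_of_ae_bound (C := √d * ((2 * κ ^ 2 + ρ ^ n) * ε)) (.of_forall fun y =>
      (Real.norm_of_nonneg (by positivity)).le)).trans (by simp)
  refine (add_le_add z1 (col (gs d) _ Rc (by positivity) Rb)).trans ?_
  rw [← ENNReal.ofReal_add (by positivity) (by positivity)]
  refine ENNReal.ofReal_le_ofReal ?_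
  have : 0 ≤ √(d : ℝ) * ε * (δ + ρ ^ n) := by positivity
  nlinarith

end Vale.Agent.P347
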