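import Vale.Agent.P347.Cov1

open MeasureTheory ProbabilityTheory Finset
open scoped RealInnerProductSpace ENNReal

namespace Vale.Agent.P347

noncomputable section

namespace DVm

variable {d : ℕ}

theorem ex {g : E d → ℝ} (hg : MemLp g 2 (gs d)) (c : ℝ) :
    ∫ x, (g x - c) ^ 2 ∂gs d = ∫ x, g x ^ 2 ∂gs d - 2 * c * ∫ x, g x ∂gs d + c ^ 2 := by
  have i1 := hg.integrable one_le_two
  have i2 := hg.integrable_sq
  have e : ∀ x, (g x - c) ^ 2 = g x ^ 2 - 2 * c * g x + c ^ 2 := fun x => by ring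
  have i3 : Integrable (fun x => g x ^ 2 - 2 * c * g x) (gs d) := i2.sub (i1.const_mul _)
  simp only [e]
  rw [integral_add i3 (integrable_const _), integral_sub i2 (i1.const_mul _), integral_const_mul]
  simp

theorem ctr : Continuous (trc : (E d →L[ℝ] E d) → ℝ) := by
  unfold trc
  fun_prop

end DVm

open Cov1m in
theorem stmtDV (h1 : StmtG1) (hGP : StmtGP) (hFo : StmtFo) (hDV0 : StmtDV0) : StmtDV := by
  intro d ε F A e0 hc hl
  have h1 := h1 d
  have hGP := hGP d
  have hFo := hFo d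
  have F0 := Fo0 A
  have cD : Continuous (fderiv ℝ F) := hc.continuous_fderiv one_ne_zero
  have nD : ∀ z, ‖fderiv ℝ F z‖ ≤ ε := fun z =>
    (norm_fderiv_le_of_lipschitz ℝ (lipw hl)).trans (by rw [Real.coe_toNNReal _ e0])
  have dF : ∀ z, HasFDerivAt F (fderiv ℝ F z) z := fun z =>
    (hc.differentiable one_ne_zero z).hasFDerivAt
  obtain ⟨K, K0, lH⟩ : ∃ K, 0 ≤ K ∧ LipF K fun z => A (F z) :=
    ⟨‖A‖ * ε, by positivity, fun x y => by
      rw [← map_sub, mul_assoc]
      exact (A.le_opNorm _).trans (mul_le_mul_of_nonneg_left (hl x y) (norm_nonneg _))⟩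
  have cH : ContDiff ℝ 1 fun z => A (F z) := A.contDiff.comp hc
  have dH : ∀ z, HasFDerivAt (fun z => A (F z)) (A.comp (fderiv ℝ F z)) z := fun z =>
    A.hasFDerivAt.comp z (dF z)
  obtain ⟨m, hm⟩ : ∃ m, m = ∫ y, A (F y) ∂gs d := ⟨_, rfl⟩
  obtain ⟨u, hu⟩ : ∃ u : E d → E d, u = fun z => A (F z) - m := ⟨_, rfl⟩
  have cu : ContDiff ℝ 1 u := hu ▸ cH.sub contDiff_const
  have lu : LipF K u := fun x y => by
    simp only [hu, sub_sub_sub_cancel_right]; exact lH x y
  have du : ∀ z, HasFDerivAt u (A.comp (fderiv ℝ F z)) z := fun z => hu ▸ (dH z).sub_const m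
  have iF : ∫ z, Fo (A.comp (fderiv ℝ F z)) ∂gs d ≤ ε ^ 2 * Fo A := by
    refine (integral_mono_of_nonneg (.of_forall fun z => Fo0 _) (integrable_const (ε ^ 2 * Fo A))
      (.of_forall fun z => (hFo.right _ _).trans ?_)).trans (by simp)
    rw [mul_comm]
    exact mul_le_mul_of_nonneg_right (pow_le_pow_left₀ (norm_nonneg _) (nD z) 2) F0
  have iu : ∫ z, ‖u z‖ ^ 2 ∂gs d ≤ 2 * (ε ^ 2 * Fo A) := by
    have h := varH hGP hFo cH lH
    simp only [(dH _).fderiv, ← hm] at h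
    simp only [hu, norm_sub_rev _ m]
    linarith
  have mu : MemLp u 2 (gs d) := memL lu
  have gu : ∀ z, ‖u z‖ ≤ ‖u 0‖ + K * ‖z‖ := fun z => by
    have := lu z 0
    rw [sub_zero] at this
    linarith [norm_sub_norm_le (u z) (u 0)]
  obtain ⟨f, hf⟩ : ∃ f : E d → ℝ, f = fun z => ⟪z, u z⟫ := ⟨_, rfl⟩
  have cf : ContDiff ℝ 1 f := hf ▸ contDiff_id.inner ℝ cu
  have df : ∀ z, ‖fderiv ℝ f z‖ ≤ ‖u z‖ + ε * ‖ContinuousLinearMap.adjoint A z‖ := fun z => by
    have h := ((hasFDerivAt_id z).inner ℝ (du z)).fderiv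
    have h' : fderiv ℝ f z = _ := hf ▸ h
    rw [h']
    refine ContinuousLinearMap.opNorm_le_bound _ (by positivity) fun v => ?_
    simp only [ContinuousLinearMap.comp_apply, ContinuousLinearMap.prod_apply, fderivInnerCLM_apply,
      id, ContinuousLinearMap.id_apply]
    rw [← ContinuousLinearMap.adjoint_inner_left]
    have a1 := norm_inner_le_norm (𝕜 := ℝ) (ContinuousLinearMap.adjoint A z) (fderiv ℝ F z v)
    have a2 := norm_inner_le_norm (𝕜 := ℝ) v (u z)
    have a3 := ((fderiv ℝ F z).le_opNorm v).trans (mul_le_mul_of_nonneg_right (nD z) (norm_nonneg v))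
    have a4 := mul_le_mul_of_nonneg_left a3 (norm_nonneg (ContinuousLinearMap.adjoint A z))
    refine (norm_add_le _ _).trans ?_
    nlinarith
  have mA : MemLp (fun z => ContinuousLinearMap.adjoint A z) 2 (gs d) :=
    memL (K := ‖ContinuousLinearMap.adjoint A‖) fun x y => by
      rw [← map_sub]; exact ContinuousLinearMap.le_opNorm _ _
  have vf : ∫ x, f x ^ 2 ∂gs d - (∫ x, f x ∂gs d) ^ 2 ≤ 12 * (ε ^ 2 * Fo A) := by
    have h := hGP.two f (‖u 0‖ + K + ε * ‖ContinuousLinearMap.adjoint A‖) cf fun x => by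
      have a1 := mul_le_mul_of_nonneg_left ((ContinuousLinearMap.adjoint A).le_opNorm x) e0
      have a2 : 0 ≤ ε * ‖ContinuousLinearMap.adjoint A‖ := by positivity
      have a3 : 0 ≤ ‖u 0‖ * ‖x‖ := by positivity
      nlinarith [df x, gu x]
    have j1 := mu.norm.integrable_sq.const_mul 2
    have j2 := mA.norm.integrable_sq.const_mul (2 * ε ^ 2)
    have k := integral_mono_of_nonneg (μ := gs d) (f := fun x => ‖fderiv ℝ f x‖ ^ 2)
      (g := fun x => 2 * ‖u x‖ ^ 2 + 2 * ε ^ 2 * ‖ContinuousLinearMap.adjoint A x‖ ^ 2)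
      (.of_forall fun z => sq_nonneg _) (j1.add j2) (.of_forall fun z => by
        have := pow_le_pow_left₀ (norm_nonneg _) (df z) 2
        simp only
        nlinarith [sq_nonneg (‖u z‖ - ε * ‖ContinuousLinearMap.adjoint A z‖)])
    rw [integral_add j1 j2, integral_const_mul, integral_const_mul, hFo.gau, hFo.adj] at k
    linarith
  have mf : MemLp f 2 (gs d) := by
    rw [memLp_two_iff_integrable_sq cf.continuous.aestronglyMeasurable]
    refine (((h1.i2 2).const_mul (2 * ‖u 0‖ ^ 2)).add ((h1.i2 4).const_mul (2 * K ^ 2))).mono'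
      (cf.continuous.pow 2).aestronglyMeasurable (.of_forall fun z => ?_)
    have a1 : |f z| ≤ ‖z‖ * (‖u 0‖ + K * ‖z‖) := by
      rw [hf]
      exact (abs_real_inner_le_norm _ _).trans (mul_le_mul_of_nonneg_left (gu z) (norm_nonneg _))
    have a2 := pow_le_pow_left₀ (abs_nonneg _) a1 2
    rw [sq_abs] at a2
    rw [Real.norm_of_nonneg (sq_nonneg _)]
    simp only [Pi.add_apply]
    nlinarith [sq_nonneg (‖z‖ * (‖u 0‖ - K * ‖z‖))]
  obtain ⟨t, ht⟩ : ∃ t : E d → ℝ, t = fun z => trc (A.comp (fderiv ℝ F z)) := ⟨_, rfl⟩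
  have mt : MemLp t 2 (gs d) := by
    refine MemLp.of_bound (Continuous.aestronglyMeasurable ?_) (√(Fo A) * √(d * ε ^ 2))
      (.of_forall fun z => ?_)
    · rw [ht]; exact DVm.ctr.comp (continuous_const.clm_comp cD)
    · rw [ht]
      refine (hFo.trcs _ _).trans (mul_le_mul_of_nonneg_left (Real.sqrt_le_sqrt
        ((hFo.dim _).trans ?_)) (Real.sqrt_nonneg _))
      exact mul_le_mul_of_nonneg_left (pow_le_pow_left₀ (norm_nonneg _) (nD z) 2) (Nat.cast_nonneg _)
  have h0 : ∫ z, (f z - t z) ^ 2 ∂gs d ≤ 3 * (ε ^ 2 * Fo A) := by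
    have h := hDV0 d K u cu lu
    simp only [(du _).fderiv] at h
    simp only [hf, ht]
    linarith
  obtain ⟨c, hc'⟩ : ∃ c, c = ∫ x, f x ∂gs d := ⟨_, rfl⟩
  have j1 := (mf.sub (memLp_const c)).integrable_sq.const_mul 2
  have j2 := (mf.sub mt).integrable_sq.const_mul 2
  have k := integral_mono_of_nonneg (μ := gs d) (f := fun x => (t x - c) ^ 2)
    (g := fun x => 2 * (f x - c) ^ 2 + 2 * (f x - t x) ^ 2)
    (.of_forall fun z => sq_nonneg _) (j1.add j2) (.of_forall fun z => by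
      simp only
      nlinarith [sq_nonneg (f z - c + (f z - t z))])
  have e := integral_add j1 j2
  simp only [Pi.sub_apply] at e
  rw [e, integral_const_mul, integral_const_mul, DVm.ex mf, DVm.ex mt, ← hc'] at k
  rw [← hc'] at vf
  have g : ∫ z, t z ^ 2 ∂gs d - (∫ z, t z ∂gs d) ^ 2 ≤ 30 * ε ^ 2 * Fo A := by
    nlinarith [sq_nonneg (∫ z, t z ∂gs d - c)]
  rw [ht] at g
  exact g

end

end Vale.Agent.P347
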