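import Vale.Agent.P347.Spec2

open MeasureTheory ProbabilityTheory Finset
open scoped RealInnerProductSpace ENNReal

namespace Vale.Agent.P347

noncomputable section

namespace Fom

variable {d : ℕ}

def vec (B : E d → E d → ℝ) : EuclideanSpace ℝ (Fin d × Fin d) :=
  WithLp.toLp 2 fun p => B (ee p.1) (ee p.2)

lemma nv (B : E d → E d → ℝ) : √(Fq B) = ‖vec B‖ := by
  rw [EuclideanSpace.norm_eq, Fintype.sum_prod_type]
  simp [Fq, vec]

lemma Fq_nonneg (B : E d → E d → ℝ) : 0 ≤ Fq B :=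
  sum_nonneg fun _ _ => sum_nonneg fun _ _ => sq_nonneg _

lemma ie (i : Fin d) (x : E d) : ⟪ee i, x⟫ = x i := by
  simp [ee, EuclideanSpace.inner_single_left]

lemma ne (i : Fin d) : ‖(ee i : E d)‖ = 1 := by simp [ee]

lemma nsq (x : E d) : ‖x‖ ^ 2 = ∑ i, ⟪ee i, x⟫ ^ 2 := by
  simp_rw [ie]
  exact EuclideanSpace.real_norm_sq_eq x

lemma expand (x : E d) : x = ∑ i, x i • ee i := by
  ext j
  simp [ee, Pi.single_apply]

lemma inn (x y : E d) : ⟪x, y⟫ = ∑ i, ⟪ee i, x⟫ * ⟪ee i, y⟫ := by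
  simp_rw [ie]
  simp [PiLp.inner_apply, mul_comm]

lemma col (A : E d →L[ℝ] E d) : Fo A = ∑ k, ‖A (ee k)‖ ^ 2 := by
  unfold Fo Fq
  rw [sum_comm]
  exact sum_congr rfl fun k _ => (nsq _).symm

lemma Fo_nonneg (A : E d →L[ℝ] E d) : 0 ≤ Fo A := Fq_nonneg _

lemma op (A : E d →L[ℝ] E d) : ‖A‖ ^ 2 ≤ Fo A := by
  have h : ‖A‖ ≤ √(Fo A) := by
    refine A.opNorm_le_bound (Real.sqrt_nonneg _) fun x => ?_
    have e : A x = ∑ i, x i • A (ee i) := by
      conv_lhs => rw [expand x]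
      simp
    have h1 : ‖A x‖ ≤ ∑ i, ‖A (ee i)‖ * |x i| := by
      rw [e]
      refine (norm_sum_le _ _).trans (le_of_eq (sum_congr rfl fun i _ => ?_))
      rw [norm_smul, Real.norm_eq_abs, mul_comm]
    refine h1.trans ((Real.sum_mul_le_sqrt_mul_sqrt _ _ _).trans (le_of_eq ?_))
    rw [col, EuclideanSpace.norm_eq]
    simp
  calc ‖A‖ ^ 2 ≤ √(Fo A) ^ 2 := by gcongr
    _ = _ := Real.sq_sqrt (Fo_nonneg A)

lemma dim (A : E d →L[ℝ] E d) : Fo A ≤ d * ‖A‖ ^ 2 := by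
  rw [col]
  refine (sum_le_card_nsmul _ _ (‖A‖ ^ 2) fun k _ => ?_).trans (by simp)
  have := A.le_opNorm (ee k)
  rw [ne, mul_one] at this
  gcongr

lemma adj (A : E d →L[ℝ] E d) : Fo (ContinuousLinearMap.adjoint A) = Fo A := by
  unfold Fo Fq
  rw [sum_comm]
  refine sum_congr rfl fun i _ => sum_congr rfl fun j _ => ?_
  beta_reduce
  rw [ContinuousLinearMap.adjoint_inner_right, real_inner_comm]

lemma left (A B : E d →L[ℝ] E d) : Fo (A.comp B) ≤ ‖A‖ ^ 2 * Fo B := by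
  rw [col, col, mul_sum]
  refine sum_le_sum fun k _ => ?_
  rw [← mul_pow]
  have := A.le_opNorm (B (ee k))
  exact pow_le_pow_left₀ (norm_nonneg _) this 2

lemma right (A B : E d →L[ℝ] E d) : Fo (A.comp B) ≤ Fo A * ‖B‖ ^ 2 := by
  rw [← adj, ContinuousLinearMap.adjoint_comp]
  refine (left _ _).trans (le_of_eq ?_)
  rw [adj, LinearIsometryEquiv.norm_map, mul_comm]

lemma tri (B B' : E d → E d → ℝ) : √(Fq fun u v => B u v + B' u v) ≤ √(Fq B) + √(Fq B') := by
  rw [nv, nv, nv]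
  exact norm_add_le (vec B) (vec B')

lemma smul (c : ℝ) (B : E d → E d → ℝ) : √(Fq fun u v => c * B u v) = |c| * √(Fq B) := by
  rw [nv, nv, ← Real.norm_eq_abs, ← norm_smul]
  rfl

lemma sum' (ι : Type) (s : Finset ι) (B : ι → E d → E d → ℝ) :
    √(Fq fun u v => ∑ i ∈ s, B i u v) ≤ ∑ i ∈ s, √(Fq (B i)) := by
  simp_rw [nv]
  refine le_trans (le_of_eq ?_) (norm_sum_le s fun i => vec (B i))
  congr 1
  ext p
  simp [vec]

lemma jen (Ω : Type) [MeasurableSpace Ω] (μ : Measure Ω) (B : Ω → E d → E d → ℝ)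
    (h : ∀ u v, Integrable (fun ω => B ω u v) μ) :
    √(Fq fun u v => ∫ ω, B ω u v ∂μ) ≤ ∫ ω, √(Fq (B ω)) ∂μ := by
  simp_rw [nv]
  refine le_trans (le_of_eq ?_) (norm_integral_le_integral_norm fun ω => vec (B ω))
  congr 1
  ext p
  rw [eval_integral_piLp (f := fun ω => vec (B ω)) (fun p => h _ _)]
  rfl

lemma trcs (A B : E d →L[ℝ] E d) : |trc (A.comp B)| ≤ √(Fo A) * √(Fo B) := by
  rw [← adj A, col, col]
  refine le_trans ?_ (Real.sum_mul_le_sqrt_mul_sqrt _ _ _)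
  refine (abs_sum_le_sum_abs _ _).trans (sum_le_sum fun i _ => ?_)
  rw [ContinuousLinearMap.comp_apply, ← ContinuousLinearMap.adjoint_inner_left]
  exact abs_real_inner_le_norm _ _

lemma trcc (A B : E d →L[ℝ] E d) : trc (A.comp B) = trc (B.comp A) := by
  have e : ∀ A B : E d →L[ℝ] E d, trc (A.comp B) = ∑ i, ∑ j, ⟪ee i, A (ee j)⟫ * ⟪ee j, B (ee i)⟫ := by
    intro A B
    refine sum_congr rfl fun i _ => ?_
    rw [ContinuousLinearMap.comp_apply, ← ContinuousLinearMap.adjoint_inner_left, inn]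
    refine sum_congr rfl fun j _ => ?_
    rw [ContinuousLinearMap.adjoint_inner_right, real_inner_comm]
  rw [e, e, sum_comm]
  exact sum_congr rfl fun i _ => sum_congr rfl fun j _ => mul_comm _ _

lemma cov (u v : E d) : ∫ x, ⟪u, x⟫ * ⟪v, x⟫ ∂gs d = ⟪u, v⟫ := by
  have h := covarianceBilin_apply (μ := gs d) IsGaussian.memLp_two_id u v
  rw [covarianceBilin_stdGaussian, innerSL_apply_apply] at h
  rw [h]
  simp [integral_id_stdGaussian]

lemma icov (u v : E d) : Integrable (fun x => ⟪u, x⟫ * ⟪v, x⟫) (gs d) :=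
  ((IsGaussian.memLp_two_id (μ := gs d)).const_inner u).integrable_mul
    ((IsGaussian.memLp_two_id (μ := gs d)).const_inner v)

lemma bil (A B : E d →L[ℝ] E d) : ∫ x, ⟪A x, B x⟫ ∂gs d =
    ∑ i, ⟪ContinuousLinearMap.adjoint A (ee i), ContinuousLinearMap.adjoint B (ee i)⟫ := by
  have e : ∀ x, ⟪A x, B x⟫ = ∑ i, ⟪ContinuousLinearMap.adjoint A (ee i), x⟫ *
      ⟪ContinuousLinearMap.adjoint B (ee i), x⟫ := by
    intro x
    rw [inn]
    simp_rw [ContinuousLinearMap.adjoint_inner_left]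
  simp_rw [e]
  rw [integral_finsetSum _ fun i _ => icov _ _]
  simp_rw [cov]

lemma gau (A : E d →L[ℝ] E d) : ∫ x, ‖A x‖ ^ 2 ∂gs d = Fo A := by
  simp_rw [← real_inner_self_eq_norm_sq]
  rw [bil, ← adj A, col]
  simp_rw [real_inner_self_eq_norm_sq]

lemma quart (hGP : GPApi d) (A : E d →L[ℝ] E d) :
    ∫ x, ⟪x, A x⟫ ^ 2 ∂gs d ≤ trc A ^ 2 + 8 * Fo A := by
  set S := A + ContinuousLinearMap.adjoint A with hS
  have hd : ∀ x : E d, HasFDerivAt (fun x : E d => ⟪x, A x⟫) (innerSL ℝ (S x)) x := by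
    intro x
    refine ((hasFDerivAt_id x).inner ℝ A.hasFDerivAt).congr_fderiv ?_
    ext v
    simp only [hS, ContinuousLinearMap.comp_apply, ContinuousLinearMap.prod_apply, fderivInnerCLM_apply,
      innerSL_apply_apply, add_apply, inner_add_left, id,
      ContinuousLinearMap.id_apply, ContinuousLinearMap.adjoint_inner_left]
    rw [real_inner_comm (A x) v, add_comm]
  have hn : ∀ x : E d, ‖fderiv ℝ (fun x : E d => ⟪x, A x⟫) x‖ = ‖S x‖ := fun x => by
    rw [(hd x).fderiv, innerSL_apply_norm]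
  have h := hGP.two (fun x => ⟪x, A x⟫) ‖S‖ (contDiff_id.inner ℝ A.contDiff) fun x => by
    rw [hn]
    exact (S.le_opNorm x).trans (mul_le_mul_of_nonneg_left (by linarith) (norm_nonneg _))
  simp_rw [hn] at h
  rw [gau] at h
  have m : ∫ x, ⟪x, A x⟫ ∂gs d = trc A := by
    have := bil (ContinuousLinearMap.id ℝ (E d)) A
    simp only [ContinuousLinearMap.id_apply, ContinuousLinearMap.adjoint_id,
      ContinuousLinearMap.adjoint_inner_right] at this
    rw [this]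
    exact sum_congr rfl fun i _ => real_inner_comm _ _
  rw [m] at h
  have t : √(Fo S) ≤ √(Fo A) + √(Fo A) := by
    have := tri (fun u v => ⟪u, A v⟫) (fun u v => ⟪u, ContinuousLinearMap.adjoint A v⟫)
    have e : Fq (fun u v => ⟪u, ContinuousLinearMap.adjoint A v⟫) = Fo A := adj A
    rw [e] at this
    refine le_trans (le_of_eq ?_) this
    unfold Fo
    simp only [hS, add_apply, inner_add_right]
  have t2 : Fo S ≤ 4 * Fo A := by
    have a := Real.sq_sqrt (Fo_nonneg S)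
    have b := Real.sq_sqrt (Fo_nonneg A)
    nlinarith [Real.sqrt_nonneg (Fo S), Real.sqrt_nonneg (Fo A)]
  linarith

end Fom

open Fom in
theorem stmtFo (_h1 : StmtG1) (hGP : StmtGP) : StmtFo := fun d =>
  ⟨col, op, dim, adj, left, right, tri, smul, sum', jen, trcs, trcc, gau, quart (hGP d)⟩

end

end Vale.Agent.P347
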