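import Vale.Agent.P347.IBP
import Vale.Agent.P347.Fo

open MeasureTheory ProbabilityTheory Finset Filter Topology
open scoped RealInnerProductSpace ENNReal

namespace Vale.Agent.P347

noncomputable section

namespace DV0m

variable {d : ℕ}

open IBPm in
lemma ibp0 (h1 : StmtG1) {F : E d → ℝ} (v : E d) (hF : Differentiable ℝ F) (a1 : Integrable F (gs d))
    (a2 : Integrable (fun x => fderiv ℝ F x v) (gs d)) (a3 : Integrable (fun x => ⟪v, x⟫ * F x) (gs d)) :
    ∫ x, ⟪v, x⟫ * F x ∂gs d = ∫ x, fderiv ℝ F x v ∂gs d := by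
  obtain ⟨c, hc, hd⟩ := (h1 d).dens
  set ρ : E d → ℝ := fun x => c * Real.exp (-‖x‖ ^ 2 / 2) with hρ
  have hρ0 : ∀ x, 0 ≤ ρ x := fun x => by positivity
  have hρc : Continuous ρ := by fun_prop
  have hm : Measurable fun x => ENNReal.ofReal (ρ x) := hρc.measurable.ennreal_ofReal
  have hlt : ∀ᵐ x ∂(volume : Measure (E d)), ENNReal.ofReal (ρ x) < ⊤ :=
    Filter.Eventually.of_forall fun x => ENNReal.ofReal_lt_top
  have hI : ∀ g : E d → ℝ, ∫ x, g x ∂gs d = ∫ x, ρ x * g x := by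
    intro g
    rw [hd, integral_withDensity_eq_integral_toReal_smul hm hlt]
    simp only [ENNReal.toReal_ofReal (hρ0 _), smul_eq_mul]
  have hJ : ∀ g : E d → ℝ, Integrable g (gs d) → Integrable fun x => ρ x * g x := by
    intro g hg
    rw [hd, integrable_withDensity_iff_integrable_smul' hm hlt] at hg
    simpa only [ENNReal.toReal_ofReal (hρ0 _), smul_eq_mul] using hg
  have hD : ∀ x, fderiv ℝ ρ x v * F x = -(ρ x * (⟪v, x⟫ * F x)) := by
    intro x
    rw [(hasF c x).fderiv]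
    simp only [hρ, ContinuousLinearMap.smul_apply, innerSL_apply_apply, smul_eq_mul,
      real_inner_comm v x]
    ring
  have key := integral_mul_fderiv_eq_neg_fderiv_mul_of_integrable (μ := (volume : Measure (E d)))
    (f := ρ) (g := F) (v := v) (by simp only [hD]; exact (hJ _ a3).neg) (hJ _ a2) (hJ _ a1)
    (fun x _ => (hasF c x).differentiableAt) (fun x _ => hF x)
  rw [hI, hI, key]
  simp only [hD, integral_neg, neg_neg]

/-- convergence with a uniform polynomial bound -/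
structure CV (F : ℕ → E d → ℝ) (f : E d → ℝ) : Prop where
  c : ∀ n, Continuous (F n)
  b : ∃ (B : ℝ) (k : ℕ), 0 ≤ B ∧ ∀ n x, |F n x| ≤ B * (1 + ‖x‖) ^ k
  l : ∀ x, Tendsto (fun n => F n x) atTop (𝓝 (f x))

/-- polynomial growth -/
abbrev PG (f : E d → ℝ) : Prop := CV (fun _ => f) f

lemma CV.mul {F G : ℕ → E d → ℝ} {f g : E d → ℝ} (hF : CV F f) (hG : CV G g) :
    CV (fun n x => F n x * G n x) fun x => f x * g x := by
  obtain ⟨B, k, B0, hB⟩ := hF.b
  obtain ⟨C, l, C0, hC⟩ := hG.b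
  refine ⟨fun n => (hF.c n).mul (hG.c n), ⟨B * C, k + l, by positivity, fun n x => ?_⟩,
    fun x => (hF.l x).mul (hG.l x)⟩
  rw [abs_mul, pow_add, mul_mul_mul_comm]
  exact mul_le_mul (hB n x) (hC n x) (abs_nonneg _) (by positivity)

lemma CV.add {F G : ℕ → E d → ℝ} {f g : E d → ℝ} (hF : CV F f) (hG : CV G g) :
    CV (fun n x => F n x + G n x) fun x => f x + g x := by
  obtain ⟨B, k, B0, hB⟩ := hF.b
  obtain ⟨C, l, C0, hC⟩ := hG.b
  refine ⟨fun n => (hF.c n).add (hG.c n), ⟨B + C, k + l, by positivity, fun n x => ?_⟩,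
    fun x => (hF.l x).add (hG.l x)⟩
  have r : 1 ≤ 1 + ‖x‖ := by linarith [norm_nonneg x]
  have a := mul_le_mul_of_nonneg_left (pow_le_pow_right₀ r (Nat.le_add_right k l)) B0
  have b := mul_le_mul_of_nonneg_left (pow_le_pow_right₀ r (Nat.le_add_left l k)) C0
  linarith [abs_add_le (F n x) (G n x), hB n x, hC n x]

lemma cst (c : ℝ) : PG fun _ : E d => c :=
  ⟨fun _ => continuous_const, ⟨|c|, 0, abs_nonneg _, fun _ _ => by simp⟩, fun _ => tendsto_const_nhds⟩

lemma CV.sub {F G : ℕ → E d → ℝ} {f g : E d → ℝ} (hF : CV F f) (hG : CV G g) :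
    CV (fun n x => F n x - G n x) fun x => f x - g x := by
  simpa [sub_eq_add_neg] using hF.add ((cst (-1)).mul hG)

lemma CV.sq {F : ℕ → E d → ℝ} {f : E d → ℝ} (hF : CV F f) :
    CV (fun n x => F n x ^ 2) fun x => f x ^ 2 := by
  simpa only [pow_two] using hF.mul hF

lemma sum {F : Fin d → ℕ → E d → ℝ} {f : Fin d → E d → ℝ} (h : ∀ i, CV (F i) (f i)) :
    CV (fun n x => ∑ i, F i n x) fun x => ∑ i, f i x := by
  induction (Finset.univ : Finset (Fin d)) using Finset.induction_on with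
  | empty => simpa using cst 0
  | insert a s ha ih => simpa only [Finset.sum_insert ha] using (h a).add ih

lemma lin {f : E d → ℝ} {B : ℝ} (hc : Continuous f) (hb : ∀ x, |f x| ≤ B * (1 + ‖x‖)) : PG f :=
  ⟨fun _ => hc, ⟨B, 1, by simpa using (abs_nonneg _).trans (hb 0), fun _ x => by simpa using hb x⟩,
    fun _ => tendsto_const_nhds⟩

lemma ee_le (i : Fin d) (v : E d) : |⟪ee i, v⟫| ≤ ‖v‖ := by
  simpa [ee] using abs_real_inner_le_norm (ee i) v

lemma crd (i : Fin d) : PG fun x : E d => ⟪ee i, x⟫ :=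
  lin (B := 1) (by fun_prop) fun x => by linarith [ee_le i x]

lemma ipow (h1 : StmtG1) (k : ℕ) : Integrable (fun x : E d => (1 + ‖x‖) ^ k) (gs d) := by
  refine ((h1 d).big k).mono' (Continuous.aestronglyMeasurable (by fun_prop)) (.of_forall fun x => ?_)
  rw [Real.norm_of_nonneg (by positivity)]
  refine (pow_le_pow_left₀ (by positivity) (add_comm ‖x‖ 1 ▸ Real.add_one_le_exp ‖x‖) k).trans ?_
  rw [← Real.exp_nat_mul]
  exact Real.exp_le_exp.2 (le_add_of_nonneg_right (by positivity))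

lemma CV.int (h1 : StmtG1) {f : E d → ℝ} (h : PG f) : Integrable f (gs d) := by
  obtain ⟨B, k, -, hB⟩ := h.b
  exact ((ipow h1 k).const_mul B).mono' (h.c 0).aestronglyMeasurable (.of_forall (hB 0))

lemma CV.lim (h1 : StmtG1) {F : ℕ → E d → ℝ} {f : E d → ℝ} (h : CV F f) :
    Tendsto (fun n => ∫ x, F n x ∂gs d) atTop (𝓝 (∫ x, f x ∂gs d)) := by
  obtain ⟨B, k, -, hB⟩ := h.b
  exact tendsto_integral_of_dominated_convergence _ (fun n => (h.c n).aestronglyMeasurable)
    ((ipow h1 k).const_mul B) (fun n => .of_forall (hB n)) (.of_forall h.l)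

/-- directional derivative -/
def HD (f : E d → ℝ) (i : Fin d) (g : E d → ℝ) : Prop :=
  ∀ x, ∃ L : E d →L[ℝ] ℝ, HasFDerivAt f L x ∧ L (ee i) = g x

lemma HD.mul {f g f' g' : E d → ℝ} {i : Fin d} (h : HD f i g) (h' : HD f' i g') :
    HD (fun x => f x * f' x) i fun x => g x * f' x + f x * g' x := fun x => by
  obtain ⟨L, a, b⟩ := h x
  obtain ⟨L', a', b'⟩ := h' x
  exact ⟨_, a.mul a', by simp [b, b']; ring⟩

lemma HD.sub {f g f' g' : E d → ℝ} {i : Fin d} (h : HD f i g) (h' : HD f' i g') :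
    HD (fun x => f x - f' x) i fun x => g x - g' x := fun x => by
  obtain ⟨L, a, b⟩ := h x
  obtain ⟨L', a', b'⟩ := h' x
  exact ⟨_, a.sub a', by simp [b, b']⟩

lemma eei (i j : Fin d) : ⟪(ee j : E d), ee i⟫ = if i = j then 1 else 0 := by
  rw [Fom.ie]
  simp [ee, Pi.single_apply, eq_comm]

lemma hd {f : E d → ℝ} {g : Fin d → E d → ℝ}
    (h : ∀ x, HasFDerivAt f (∑ j, g j x • innerSL ℝ (ee j)) x) (i : Fin d) : HD f i (g i) := fun x =>
  ⟨_, h x, by simp [eei]⟩

lemma hcrd (i j : Fin d) : HD (fun x : E d => ⟪ee j, x⟫) i fun _ => if i = j then 1 else 0 := fun x =>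
  ⟨innerSL ℝ (ee j), (innerSL ℝ (ee j : E d)).hasFDerivAt, eei i j⟩

lemma ibp (h1 : StmtG1) {F g : E d → ℝ} {i : Fin d} (h : HD F i g) (hF : PG F) (hg : PG g) :
    ∫ x, ⟪ee i, x⟫ * F x ∂gs d = ∫ x, g x ∂gs d := by
  have e : (fun x => fderiv ℝ F x (ee i)) = g := funext fun x => by
    obtain ⟨L, a, b⟩ := h x
    rw [a.fderiv, b]
  rw [ibp0 h1 (ee i) (fun x => (h x).choose_spec.1.differentiableAt) (hF.int h1)
    (by rw [e]; exact hg.int h1) (((crd i).mul hF).int h1), e]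

lemma symm {f : E d → ℝ} {a : Fin d → E d → ℝ} {b : Fin d → Fin d → E d → ℝ}
    (d1 : ∀ x, HasFDerivAt f (∑ j, a j x • innerSL ℝ (ee j)) x)
    (d2 : ∀ j x, HasFDerivAt (a j) (∑ k, b j k x • innerSL ℝ (ee k)) x) (j k : Fin d) (x : E d) :
    b j k x = b k j x := by
  have h := HasFDerivAt.fun_sum (u := Finset.univ) fun j _ =>
    (d2 j x).smul_const (innerSL ℝ (ee j : E d))
  have := second_derivative_symmetric d1 h (ee k) (ee j)
  simpa [eei] using this

lemma smooth (h1 : StmtG1) {u : Fin d → E d → ℝ} {a : Fin d → Fin d → E d → ℝ}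
    {b : Fin d → Fin d → Fin d → E d → ℝ}
    (d1 : ∀ i x, HasFDerivAt (u i) (∑ j, a i j x • innerSL ℝ (ee j)) x)
    (d2 : ∀ i j x, HasFDerivAt (a i j) (∑ k, b i j k x • innerSL ℝ (ee k)) x)
    (pu : ∀ i, PG (u i)) (pa : ∀ i j, PG (a i j)) (pb : ∀ i j k, PG (b i j k)) :
    ∫ x, (∑ i, ⟪ee i, x⟫ * u i x - ∑ i, a i i x) ^ 2 ∂gs d ≤
      ∫ x, ∑ i, u i x ^ 2 ∂gs d + ∫ x, ∑ i, ∑ j, a i j x ^ 2 ∂gs d := by
  have pt := fun i => ((crd i).mul (pu i)).sub (pa i i)
  have pr := fun i j => ((cst (if i = j then (1 : ℝ) else 0)).mul ((pu i).mul (pu j))).add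
    ((pa i j).mul (pa j i))
  have T : ∀ i j, ∫ x, (⟪ee i, x⟫ * u i x - a i i x) * (⟪ee j, x⟫ * u j x - a j j x) ∂gs d =
      ∫ x, ((if i = j then 1 else 0) * (u i x * u j x) + a i j x * a j i x) ∂gs d := by
    intro i j
    have p1 := (pu i).mul (pt j)
    have p2 := ((pa i i).mul (pt j)).add ((pu i).mul
      ((((cst (if i = j then (1 : ℝ) else 0)).mul (pu j)).add ((crd j).mul (pa j i))).sub (pb j j i)))
    have p3 := (pu i).mul (pa j i)
    have p4 := ((pa i j).mul (pa j i)).add ((pu i).mul (pb j i j))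
    have e1 := ibp h1 ((hd (d1 i) i).mul (((hcrd i j).mul (hd (d1 j) i)).sub (hd (d2 j j) i))) p1 p2
    have e2 := ibp h1 ((hd (d1 i) j).mul (hd (d2 j i) j)) p3 p4
    have i1 := ((crd i).mul p1).int h1
    have i3 := ((crd j).mul p3).int h1
    have z1 := integral_sub i1 (p2.int h1)
    have z2 := integral_sub i3 (p4.int h1)
    rw [e1, sub_self] at z1
    rw [e2, sub_self] at z2
    have z3 := integral_add (((crd i).mul p1).sub p2 |>.int h1) (((crd j).mul p3).sub p4 |>.int h1)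
    rw [z1, z2, add_zero] at z3
    rw [← sub_eq_zero, ← integral_sub (((pt i).mul (pt j)).int h1) ((pr i j).int h1)]
    refine Eq.trans ?_ z3
    congr 1
    funext x
    rw [symm (d1 j) (d2 j) i j x]
    ring
  have s2 : ∀ f : Fin d → Fin d → E d → ℝ, (∀ i j, PG (f i j)) →
      ∫ x, ∑ i, ∑ j, f i j x ∂gs d = ∑ i, ∑ j, ∫ x, f i j x ∂gs d := fun f hf => by
    rw [integral_finsetSum _ fun i _ => (sum (hf i)).int h1]
    exact Finset.sum_congr rfl fun i _ => integral_finsetSum _ fun j _ => (hf i j).int h1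
  have q1 := sum fun i => (pu i).sq
  have q2 := sum fun i => sum fun j => (pa i j).sq
  simp only [← Finset.sum_sub_distrib, pow_two (∑ _i : Fin d, _), Finset.sum_mul_sum]
  rw [s2 _ fun i j => (pt i).mul (pt j), ← integral_add (q1.int h1) (q2.int h1)]
  simp only [T]
  rw [← s2 _ pr]
  refine integral_mono ((sum fun i => sum (pr i)).int h1) ((q1.add q2).int h1) fun x => ?_
  simp only [Finset.sum_add_distrib, ite_mul, one_mul, zero_mul, Finset.sum_ite_eq, Finset.mem_univ,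
    if_true, ← pow_two]
  have c : ∑ i, ∑ j, a j i x ^ 2 = ∑ i, ∑ j, a i j x ^ 2 := Finset.sum_comm
  have : ∑ i, ∑ j, 2 * (a i j x * a j i x) ≤ ∑ i, ∑ j, (a i j x ^ 2 + a j i x ^ 2) :=
    Finset.sum_le_sum fun i _ => Finset.sum_le_sum fun j _ => by nlinarith [sq_nonneg (a i j x - a j i x)]
  simp only [← Finset.mul_sum, Finset.sum_add_distrib] at this
  linarith

/-- the smoothing parameters -/
def sn (n : ℕ) : ℝ := 1 / ((n : ℝ) + 1)

lemma sn0 (n : ℕ) : 0 < sn n := Nat.one_div_pos_of_nat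

lemma conv (h1 : StmtG1) (hS : SMApi d) {f : E d → ℝ} {B : ℝ} (hc : Continuous f)
    (hb : ∀ x, |f x| ≤ B * (1 + ‖x‖)) : CV (fun n => SS (sn n) f) f := by
  have B0 : 0 ≤ B := by simpa using (abs_nonneg _).trans (hb 0)
  have i := ipow (d := d) h1 1
  have k : ∀ (n : ℕ) (x g : E d), ‖f (x + sn n • g)‖ ≤ B * (1 + ‖x‖) * (1 + ‖g‖) ^ 1 := fun n x g => by
    refine (hb _).trans ?_
    have a : ‖x + sn n • g‖ ≤ ‖x‖ + ‖g‖ := by
      refine (norm_add_le _ _).trans (add_le_add le_rfl ?_)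
      rw [norm_smul, Real.norm_of_nonneg (sn0 n).le]
      refine mul_le_of_le_one_left (norm_nonneg _) ?_
      exact (div_le_one (by positivity)).2 (by linarith [n.cast_nonneg (α := ℝ)])
    rw [mul_assoc]
    gcongr
    nlinarith [norm_nonneg x, norm_nonneg g]
  refine ⟨fun n => continuous_iff_continuousAt.2 fun x =>
    (hS.der _ f (sn0 n) ⟨hc.measurable, B, hb⟩ x).continuousAt,
    ⟨B * ∫ g, (1 + ‖g‖) ^ 1 ∂gs d, 1, mul_nonneg B0 (integral_nonneg fun g => by positivity),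
      fun n x => ?_⟩, fun x => ?_⟩
  · refine (norm_integral_le_of_norm_le (i.const_mul (B * (1 + ‖x‖))) (.of_forall (k n x))).trans ?_
    rw [integral_const_mul]
    exact le_of_eq (by ring)
  · have := tendsto_integral_of_dominated_convergence (μ := gs d) (F := fun n g => f (x + sn n • g))
      (f := fun _ => f x) _ (fun n => Continuous.aestronglyMeasurable (by fun_prop))
      (i.const_mul (B * (1 + ‖x‖))) (fun n => .of_forall (k n x)) (.of_forall fun g => by
        have t : Tendsto (fun n => x + sn n • g) atTop (𝓝 (x + (0 : ℝ) • g)) :=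
          (tendsto_one_div_add_atTop_nhds_zero_nat.smul_const g).const_add x
        rw [zero_smul, add_zero] at t
        exact (hc.tendsto x).comp t)
    simpa [SS] using this

lemma CV.at {F : ℕ → E d → ℝ} {f : E d → ℝ} (h : CV F f) (n : ℕ) : PG (F n) :=
  ⟨fun _ => h.c n, h.b.imp fun _ h => h.imp fun _ h => ⟨h.1, fun _ => h.2 n⟩, fun _ => tendsto_const_nhds⟩

end DV0m

open DV0m in
theorem stmtDV0 (h1 : StmtG1) (_h2 : StmtG2) (hSM : StmtSM) (_hIBP2 : StmtIBP2) (_hFo : StmtFo) :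
    StmtDV0 := by
  intro d K u hu hK
  have hS := hSM d
  have c1 : ∀ i, ContDiff ℝ 1 fun x => ⟪ee i, u x⟫ := fun i => contDiff_const.inner ℝ hu
  have l1 : ∀ i, LipF |K| fun x => ⟪ee i, u x⟫ := fun i x y => by
    rw [← inner_sub_right]
    exact (ee_le i _).trans (IBPm.lip_abs hK x y)
  have f1 : ∀ i j x, fderiv ℝ (fun x => ⟪ee i, u x⟫) x (ee j) = ⟪ee i, fderiv ℝ u x (ee j)⟫ := by
    intro i j x
    have := (innerSL ℝ (ee i : E d)).hasFDerivAt.comp x (hu.differentiable one_ne_zero x).hasFDerivAt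
    exact congrArg (fun L : E d →L[ℝ] ℝ => L (ee j)) this.fderiv
  have ca : ∀ i j, Continuous fun x => ⟪ee i, fderiv ℝ u x (ee j)⟫ := fun i j =>
    continuous_const.inner ((hu.continuous_fderiv one_ne_zero).clm_apply continuous_const)
  have ba : ∀ i j x, |⟪ee i, fderiv ℝ u x (ee j)⟫| ≤ |K| := fun i j x => by
    refine (ee_le i _).trans (((fderiv ℝ u x).le_opNorm _).trans ?_)
    rw [Fom.ne, mul_one]
    exact IBPm.fderiv_le hK x
  have ba' : ∀ i j x, |⟪ee i, fderiv ℝ u x (ee j)⟫| ≤ |K| * (1 + ‖x‖) := fun i j x =>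
    (ba i j x).trans (le_mul_of_one_le_right (abs_nonneg _) (by linarith [norm_nonneg x]))
  have bu : ∀ i x, |⟪ee i, u x⟫| ≤ (‖u 0‖ + |K|) * (1 + ‖x‖) := fun i x => by
    nlinarith [ee_le i (u x), IBPm.grow hK x, norm_nonneg (u 0), abs_nonneg K, norm_nonneg x]
  have cu := fun i => conv h1 hS (c1 i).continuous (bu i)
  have cA := fun i j => conv h1 hS (ca i j) (ba' i j)
  have L1 := ((sum fun i => (crd i).mul (cu i)).sub (sum fun i => cA i i)).sq.lim h1
  have L2 := (sum fun i => (cu i).sq).lim h1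
  have L3 := (sum fun i => sum fun j => (cA i j).sq).lim h1
  have key := le_of_tendsto_of_tendsto' L1 (L2.add L3) fun n =>
    smooth h1 (b := fun i j k => Si (sn n) k fun x => ⟪ee i, fderiv ℝ u x (ee j)⟫) (fun i x => by
      have := hS.der _ _ (sn0 n) ⟨(c1 i).continuous.measurable, _, bu i⟩ x
      simp only [hS.c1 _ _ _ (sn0 n) (c1 i) (l1 i), f1] at this
      exact this)
    (fun i j x => hS.der _ _ (sn0 n) ⟨(ca i j).measurable, _, ba' i j⟩ x)
    (fun i => (cu i).at n) (fun i j => (cA i j).at n) fun i j k =>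
      lin (B := |K| / sn n) (hS.cont _ _ (sn0 n) ⟨(ca i j).measurable, _, ba' i j⟩ k) fun x =>
        ((hS.bd _ _ _ (sn0 n) (ca i j).measurable (ba i j)).2.1 k x).trans
          (le_mul_of_one_le_right (div_nonneg (abs_nonneg _) (sn0 n).le) (by linarith [norm_nonneg x]))
  simp only [← Fom.inn, ← Fom.nsq] at key
  exact key

end

end Vale.Agent.P347
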