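import Mathlib

open MeasureTheory

namespace Vale.Agent.P347

/-- Euclidean space of dimension `d` -/
abbrev E (d : ℕ) : Type := EuclideanSpace ℝ (Fin d)

/-- the class of potentials: `C²`, `V 0 = 0`, `∇V 0 = 0`, `I ≤ ∇²V ≤ 2 I` everywhere -/
def InClass {d : ℕ} (V : E d → ℝ) : Prop :=
  ContDiff ℝ 2 V ∧ V 0 = 0 ∧ gradient V 0 = 0 ∧
    ∀ x v : E d, ‖v‖ ^ 2 ≤ fderiv ℝ (fderiv ℝ V) x v v ∧ fderiv ℝ (fderiv ℝ V) x v v ≤ 2 * ‖v‖ ^ 2

/-- the Gibbs law with density proportional to `exp (-V)` -/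
noncomputable def gibbs {d : ℕ} (V : E d → ℝ) : Measure (E d) :=
  (volume : Measure (E d)).tilted fun x => -V x

/-- the oracle answers collected after `i` queries (entries with index `≥ i` are zero); query
number `i` is chosen by `qr i` from the seed and the answers collected so far -/
def hist {d : ℕ} {Ω : Type} (qr : ℕ → Ω × (ℕ → ℝ × E d) → E d) (O : E d → ℝ × E d) (ω : Ω) :
    ℕ → (ℕ → ℝ × E d)
  | 0 => fun _ => (0, 0)
  | i + 1 => Function.update (hist qr O ω i) i (O (qr i (ω, hist qr O ω i)))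

/-- some randomised adaptive algorithm with `q` first-order queries samples every Gibbs law of
the class within total variation `1/10` -/
def Good (d q : ℕ) : Prop :=
  ∃ (Ω : Type) (_ : MeasurableSpace Ω) (_ : StandardBorelSpace Ω) (P : Measure Ω)
    (_ : IsProbabilityMeasure P) (qr : ℕ → Ω × (ℕ → ℝ × E d) → E d)
    (out : Ω × (ℕ → ℝ × E d) → E d), (∀ i, Measurable (qr i)) ∧ Measurable out ∧
    ∀ V : E d → ℝ, InClass V → ∀ B : Set (E d), MeasurableSet B →
      |(P.map fun ω => out (ω, hist qr (fun x => (V x, gradient V x)) ω q)).real B -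
        (gibbs V).real B| ≤ 1 / 10

/-- the query complexity -/
noncomputable def Q (d : ℕ) : ℕ := sInf {q | Good d q}

end Vale.Agent.P347
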