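import Vale.Agent.P347.Spec

open MeasureTheory ProbabilityTheory Finset
open scoped RealInnerProductSpace ENNReal

namespace Vale.Agent.P347

noncomputable section

namespace PA0m

variable {d : ℕ}

lemma sm_map {Ω : Type} [MeasurableSpace Ω] (μ : Measure Ω) [SFinite μ] (y : Ω → E d)
    (hy : Measurable y) (t : ℝ) :
    sm (μ.map y) t = (μ.prod (gs d)).map fun q => y q.1 + t • q.2 := by
  unfold sm
  conv_lhs => rw [← Measure.map_id (μ := gs d)]
  rw [Measure.map_prod_map _ _ hy measurable_id, Measure.map_map (by fun_prop) (by fun_prop)]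
  rfl

lemma sm_dirac (x : E d) (t : ℝ) : sm (Measure.dirac x) t = (gs d).map fun s => x + t • s := by
  unfold sm
  rw [Measure.dirac_prod, Measure.map_map (by fun_prop) (by fun_prop)]
  rfl

lemma eLp_le {Ω : Type} [MeasurableSpace Ω] {μ : Measure Ω} {e : Ω → ℝ} {c : ℝ}
    (hm : AEStronglyMeasurable e μ) (hi : Integrable (fun x => e x ^ 2) μ) (hc : 0 ≤ c)
    (h : ∫ x, e x ^ 2 ∂μ ≤ c ^ 2) : eLpNorm e 2 μ ≤ ENNReal.ofReal c := by
  have h1 : MemLp e 2 μ := (memLp_two_iff_integrable_sq hm).mpr hi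
  rw [h1.eLpNorm_eq_integral_rpow_norm two_ne_zero ENNReal.ofNat_ne_top]
  apply ENNReal.ofReal_le_ofReal
  simp only [ENNReal.toReal_ofNat, Real.rpow_two, Real.norm_eq_abs, sq_abs]
  rw [← one_div, ← Real.sqrt_eq_rpow]
  exact Real.sqrt_le_iff.mpr ⟨hc, h⟩

lemma mp_int {X Y : Type} [MeasurableSpace X] [MeasurableSpace Y] {μ : Measure X} {ν : Measure Y}
    {f : X → Y} (hf : MeasurePreserving f μ ν) {F : Type} [NormedAddCommGroup F] [NormedSpace ℝ F]
    (g : Y → F) (hg : AEStronglyMeasurable g ν) : ∫ x, g (f x) ∂μ = ∫ y, g y ∂ν := by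
  rw [← hf.map_eq] at hg ⊢
  rw [integral_map hf.measurable.aemeasurable hg]

lemma m1_le (h : Gau1 d) (hd : 1 ≤ d) : ∫ x, ‖x‖ ∂gs d ≤ √d := by
  have hd' : (0 : ℝ) < d := by exact_mod_cast hd
  have hs : 0 < √(d : ℝ) := Real.sqrt_pos.mpr hd'
  have hs2 : √(d : ℝ) * √(d : ℝ) = d := Real.mul_self_sqrt hd'.le
  have h1 : ∫ x, ‖x‖ ∂gs d ≤ ∫ x : E d, (‖x‖ ^ 2 / (2 * √d) + √d / 2) ∂gs d := by
    refine integral_mono (by simpa using h.i2 1) (((h.i2 2).div_const _).add (integrable_const _)) fun x => ?_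
    have : ‖x‖ ^ 2 / (2 * √d) + √d / 2 - ‖x‖ = (‖x‖ - √d) ^ 2 / (2 * √d) := by
      field_simp; ring
    have h2 : 0 ≤ (‖x‖ - √d) ^ 2 / (2 * √d) := by positivity
    simp only
    linarith
  rw [integral_add ((h.i2 2).div_const _) (integrable_const _), integral_div, h.m2] at h1
  have h3 : (d : ℝ) / (2 * √d) = √d / 2 := by field_simp; linarith
  simp only [integral_const, probReal_univ, smul_eq_mul, one_mul] at h1
  linarith

lemma F2_le (hO : OUApi d) {p : Par} {ε : ℝ} {G : E d → E d} (hp : p.Ok) (hε : 0 ≤ ε) (hG : Nice ε G)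
    (hk0 : 0 ≤ p.ka) (hk : p.ka ≤ 1 / 2) (w : E d) (a : S2 d) (h1 : |a.1.1| ≤ 1) (h2 : |a.1.2| ≤ 1) :
    ‖F2 p G w a‖ ≤ ε ^ 2 * (1 + 2 * ‖w‖) + 2 * ε ^ 2 * ‖a.2.1‖ + ε ^ 2 * ‖a.2.2.2‖ := by
  have hs : 1 / 2 ≤ sg p.ka := Real.le_sqrt_of_sq_le (by nlinarith)
  have hb : ‖b2 p w a‖ ≤ ‖w‖ + ‖a.2.1‖ := by
    unfold b2
    refine (norm_add_le _ _).trans (add_le_add ?_ ?_)
    · rw [norm_smul]; exact mul_le_of_le_one_left (norm_nonneg _) h2
    · rw [norm_smul, Real.norm_eq_abs, abs_of_nonneg (Real.sqrt_nonneg _)]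
      refine mul_le_of_le_one_left (norm_nonneg _) (Real.sqrt_le_one.mpr ?_)
      nlinarith [sq_nonneg p.ka, sq_nonneg a.1.2]
  have hb' : ‖(sg p.ka)⁻¹ • b2 p w a‖ ≤ 2 * (‖w‖ + ‖a.2.1‖) := by
    rw [norm_smul, norm_inv, Real.norm_eq_abs, abs_of_pos (by linarith)]
    refine mul_le_mul ?_ hb (norm_nonneg _) (by norm_num)
    rw [inv_le_comm₀ (by linarith) (by norm_num)]; linarith
  have h3 := hO.f1g p ε G hp hε hG ((sg p.ka)⁻¹ • b2 p w a) a.2.2.2
  unfold F2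
  rw [norm_smul]
  refine (mul_le_of_le_one_left (norm_nonneg _) h1).trans ((hG.lip _ _).trans ?_)
  rw [sub_sub_cancel_left, norm_neg]
  calc ε * ‖F1 p G ((sg p.ka)⁻¹ • b2 p w a) a.2.2.2‖
      ≤ ε * (ε * (1 + 2 * (‖w‖ + ‖a.2.1‖) + ‖a.2.2.2‖)) := by
        refine mul_le_mul_of_nonneg_left (h3.trans (mul_le_mul_of_nonneg_left ?_ hε)) hε
        linarith
    _ = _ := by ring

lemma pow4 (x y z : ℝ) : (x + y + z) ^ 4 ≤ 27 * (x ^ 4 + y ^ 4 + z ^ 4) := by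
  have h1 : (x + y + z) ^ 2 ≤ 3 * (x ^ 2 + y ^ 2 + z ^ 2) := by
    nlinarith [sq_nonneg (x - y), sq_nonneg (y - z), sq_nonneg (x - z)]
  have h2 : (x ^ 2 + y ^ 2 + z ^ 2) ^ 2 ≤ 3 * (x ^ 4 + y ^ 4 + z ^ 4) := by
    nlinarith [sq_nonneg (x ^ 2 - y ^ 2), sq_nonneg (y ^ 2 - z ^ 2), sq_nonneg (x ^ 2 - z ^ 2)]
  have h3 := pow_le_pow_left₀ (sq_nonneg _) h1 2
  nlinarith

/-- fourth moments under an envelope built from two Gaussian coordinates -/
lemma env {X : Type} [MeasurableSpace X] {P : Measure X} [IsProbabilityMeasure P] (h : Gau1 d)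
    {g g' : X → E d} (hg : MeasurePreserving g P (gs d)) (hg' : MeasurePreserving g' P (gs d))
    {f : X → E d} (hf : AEStronglyMeasurable f P) (c u v : ℝ)
    (hb : ∀ᵐ x ∂P, ‖f x‖ ≤ c + u * ‖g x‖ + v * ‖g' x‖) :
    Integrable (fun x => ‖f x‖ ^ 4) P ∧
      ∫ x, ‖f x‖ ^ 4 ∂P ≤ 27 * (c ^ 4 + (u ^ 4 + v ^ 4) * (3 * (d : ℝ) ^ 2)) := by
  have i1 := (hg.integrable_comp_of_integrable (h.i2 4)).const_mul (u ^ 4)
  have i2 := (hg'.integrable_comp_of_integrable (h.i2 4)).const_mul (v ^ 4)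
  have i3 := (((integrable_const (c ^ 4)).add i1).add i2).const_mul 27
  have hb' : ∀ᵐ x ∂P, ‖f x‖ ^ 4 ≤ 27 * (c ^ 4 + u ^ 4 * ‖g x‖ ^ 4 + v ^ 4 * ‖g' x‖ ^ 4) := by
    filter_upwards [hb] with x hx
    refine (pow_le_pow_left₀ (norm_nonneg _) hx 4).trans ((pow4 _ _ _).trans_eq ?_)
    ring
  have i4 : Integrable (fun x => ‖f x‖ ^ 4) P :=
    i3.mono' (hf.norm.pow 4) (by
      filter_upwards [hb'] with x hx
      rw [Real.norm_eq_abs, abs_of_nonneg (by positivity)]; exact hx)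
  refine ⟨i4, (integral_mono_ae i4 i3 hb').trans ?_⟩
  rw [integral_const_mul, integral_add' ((integrable_const _).add i1) i2,
    integral_add' (integrable_const _) i1, integral_const_mul, integral_const_mul]
  have e1 := mp_int hg (fun x : E d => ‖x‖ ^ 4) (h.i2 4).1
  have e2 := mp_int hg' (fun x : E d => ‖x‖ ^ 4) (h.i2 4).1
  simp only [Function.comp, integral_const, probReal_univ, smul_eq_mul, one_mul]
  rw [e1, e2]
  have := mul_le_mul_of_nonneg_left h.m4 (show 0 ≤ u ^ 4 + v ^ 4 by positivity)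
  linarith

lemma env1 {X : Type} [MeasurableSpace X] {P : Measure X} [IsProbabilityMeasure P] (h : Gau1 d)
    (hd : 1 ≤ d) {g g' : X → E d} (hg : MeasurePreserving g P (gs d))
    (hg' : MeasurePreserving g' P (gs d)) {f : X → E d} (hf : AEStronglyMeasurable f P) (c u v : ℝ)
    (hu : 0 ≤ u) (hv : 0 ≤ v) (hb : ∀ᵐ x ∂P, ‖f x‖ ≤ c + u * ‖g x‖ + v * ‖g' x‖) :
    Integrable f P ∧ ‖∫ x, f x ∂P‖ ≤ c + (u + v) * √d := by
  have j : Integrable (fun x : E d => ‖x‖) (gs d) := by simpa using h.i2 1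
  have i1 := (hg.integrable_comp_of_integrable j).const_mul u
  have i2 := (hg'.integrable_comp_of_integrable j).const_mul v
  have i3 := ((integrable_const c).add i1).add i2
  refine ⟨i3.mono' hf hb, (norm_integral_le_of_norm_le i3 hb).trans ?_⟩
  rw [integral_add' ((integrable_const _).add i1) i2, integral_add' (integrable_const _) i1,
    integral_const_mul, integral_const_mul]
  have e1 := mp_int hg (fun x : E d => ‖x‖) j.1
  have e2 := mp_int hg' (fun x : E d => ‖x‖) j.1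
  simp only [Function.comp, integral_const, probReal_univ, smul_eq_mul, one_mul]
  rw [e1, e2]
  have := mul_le_mul_of_nonneg_left (m1_le h hd) (add_nonneg hu hv)
  linarith

lemma arith (ε r x D s : ℝ) (hD : 1 ≤ D) (hs : s ^ 2 = D) :
    27 * ((ε ^ 2 * (2 + 4 * r + 3 * s + 14 * x)) ^ 4 + ((2 * ε ^ 2) ^ 4 + (ε ^ 2) ^ 4) * (3 * D ^ 2)) ≤
      (5000 * (ε ^ 4 * (D + r ^ 2 + x ^ 2))) ^ 2 := by
  have h1 : (2 + 4 * r + 3 * s + 14 * x) ^ 2 ≤ 784 * (D + r ^ 2 + x ^ 2) := by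
    nlinarith [sq_nonneg (2 - 4 * r), sq_nonneg (2 - 3 * s), sq_nonneg (2 - 14 * x), sq_nonneg (4 * r - 3 * s),
      sq_nonneg (4 * r - 14 * x), sq_nonneg (3 * s - 14 * x), sq_nonneg r]
  have h2 := pow_le_pow_left₀ (sq_nonneg _) h1 2
  have h3 : D ^ 2 ≤ (D + r ^ 2 + x ^ 2) ^ 2 :=
    pow_le_pow_left₀ (by linarith) (by nlinarith [sq_nonneg r, sq_nonneg x]) 2
  have h4 : 27 * ((2 + 4 * r + 3 * s + 14 * x) ^ 4 + 51 * D ^ 2) ≤ 5000 ^ 2 * (D + r ^ 2 + x ^ 2) ^ 2 := by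
    nlinarith [sq_nonneg (D + r ^ 2 + x ^ 2)]
  have h5 := mul_le_mul_of_nonneg_left h4 (show 0 ≤ ε ^ 8 by positivity)
  calc _ = ε ^ 8 * (27 * ((2 + 4 * r + 3 * s + 14 * x) ^ 4 + 51 * D ^ 2)) := by ring
    _ ≤ _ := h5
    _ = _ := by ring

/-- the law of the second level noise for fixed first level noise -/
lemma core (h : Gau1 d) (hd : 1 ≤ d) {T : Type} [MeasurableSpace T] (π2 : Measure (ℝ × ℝ))
    [IsProbabilityMeasure π2] (ν : Measure T) [IsProbabilityMeasure ν] (A : S2 d → E d) (H : T → E d)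
    (hA : Measurable A) (hH : Measurable H) (c : E d) (κ ε r x : ℝ) (hκ0 : 0 ≤ κ) (hκ : κ ≤ 1)
    (bA : ∀ᵐ a ∂π2.prod (g3 d), ‖A a‖ ≤ ε ^ 2 * (1 + 2 * r) + 2 * ε ^ 2 * ‖a.2.1‖ + ε ^ 2 * ‖a.2.2.2‖)
    (bH : ∀ᵐ a ∂ν, ‖H a‖ ≤ 7 * ε ^ 2 * x) (β : Measure (E d))
    (hβ : β = ((π2.prod (g3 d)).prod ν).map fun q => c - A q.1 + κ • H q.2) :
    Integrable (fun y : E d => ‖y‖ ^ 4) β ∧
      ∫ y, y ∂β = c - ∫ a, A a ∂π2.prod (g3 d) + κ • ∫ a, H a ∂ν ∧
      √(∫ y, ‖y - ∫ y, y ∂β‖ ^ 4 ∂β) ≤ 5000 * (ε ^ 4 * (d + r ^ 2 + x ^ 2)) := by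
  have g1 : MeasurePreserving (fun a : S2 d => a.2.1) (π2.prod (g3 d)) (gs d) :=
    measurePreserving_fst.comp measurePreserving_snd
  have g2 : MeasurePreserving (fun a : S2 d => a.2.2.2) (π2.prod (g3 d)) (gs d) :=
    (measurePreserving_snd.comp measurePreserving_snd).comp measurePreserving_snd
  have p1 : MeasurePreserving Prod.fst ((π2.prod (g3 d)).prod ν) (π2.prod (g3 d)) := measurePreserving_fst
  have p2 : MeasurePreserving Prod.snd ((π2.prod (g3 d)).prod ν) ν := measurePreserving_snd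
  obtain ⟨iA, nA⟩ := env1 h hd g1 g2 hA.aestronglyMeasurable _ _ _ (by positivity) (by positivity) bA
  have iH : Integrable H ν := (integrable_const _).mono' hH.aestronglyMeasurable bH
  have nH : ‖∫ a, H a ∂ν‖ ≤ 7 * ε ^ 2 * x := by
    simpa using norm_integral_le_of_norm_le_const bH
  have hb : Measurable fun q : S2 d × T => c - A q.1 + κ • H q.2 := by fun_prop
  have bA' := p1.quasiMeasurePreserving.ae bA
  have bH' := p2.quasiMeasurePreserving.ae bH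
  have nκ : ∀ v : E d, ‖κ • v‖ ≤ ‖v‖ := fun v => by
    rw [norm_smul, Real.norm_eq_abs, abs_of_nonneg hκ0]
    exact mul_le_of_le_one_left (norm_nonneg _) hκ
  have em : ∫ y, y ∂β = c - ∫ a, A a ∂π2.prod (g3 d) + κ • ∫ a, H a ∂ν := by
    have j1 := p1.integrable_comp_of_integrable iA
    have j2 := (p2.integrable_comp_of_integrable iH).smul κ
    rw [hβ, integral_map hb.aemeasurable (f := fun y => y) aestronglyMeasurable_id, ← mp_int p1 A iA.1, ← mp_int p2 H iH.1,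
      ← integral_smul]
    refine (integral_add ((integrable_const c).sub j1) j2).trans ?_
    congr 1
    refine (integral_sub (integrable_const c) j1).trans ?_
    simp
  refine ⟨?_, em, ?_⟩
  · rw [hβ, integrable_map_measure (by fun_prop) hb.aemeasurable]
    refine (env h (g1.comp p1) (g2.comp p1) hb.aestronglyMeasurable
      (‖c‖ + ε ^ 2 * (1 + 2 * r) + 7 * ε ^ 2 * x) (2 * ε ^ 2) (ε ^ 2) ?_).1
    filter_upwards [bA', bH'] with q h1 h2
    have h3 := norm_add_le (c - A q.1) (κ • H q.2)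
    have h4 := norm_sub_le c (A q.1)
    have h5 := nκ (H q.2)
    simp only [Function.comp]
    linarith
  · have hd' : (1 : ℝ) ≤ d := by exact_mod_cast hd
    rw [em]
    set mA := ∫ a, A a ∂π2.prod (g3 d)
    set mH := ∫ a, H a ∂ν
    rw [hβ, integral_map hb.aemeasurable (by fun_prop)]
    refine Real.sqrt_le_iff.mpr ⟨by positivity, le_trans ?_
      (arith ε r x d √d hd' (Real.sq_sqrt (by linarith)))⟩
    refine (env h (g1.comp p1) (g2.comp p1) (hb.sub_const _).aestronglyMeasurable _ _ _ ?_).2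
    filter_upwards [bA', bH'] with q h1 h2
    have e : c - A q.1 + κ • H q.2 - (c - mA + κ • mH) = (mA - A q.1) + (κ • H q.2 - κ • mH) := by abel
    have h3 := norm_add_le (mA - A q.1) (κ • H q.2 - κ • mH)
    have h4 := norm_sub_le mA (A q.1)
    have h5 := norm_sub_le (κ • H q.2) (κ • mH)
    have h6 := nκ (H q.2)
    have h7 := nκ mH
    simp only [Function.comp]
    rw [e]
    linarith

lemma e_norm (h : Gau1 d) (A B : ℝ) (hA : 0 ≤ A) (hB : 0 ≤ B) :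
    eLpNorm (fun ω : E d × E d => A + B * ‖ω.2‖ ^ 2) 2 ((gs d).prod (gs d)) ≤
      ENNReal.ofReal (A + 2 * B * d) := by
  have p2 : MeasurePreserving Prod.snd ((gs d).prod (gs d)) (gs d) := measurePreserving_snd
  have e : (fun x : E d => (A + B * ‖x‖ ^ 2) ^ 2) =
      fun x => A ^ 2 + 2 * A * B * ‖x‖ ^ 2 + B ^ 2 * ‖x‖ ^ 4 := by funext x; ring
  have i1 := (integrable_const (μ := gs d) (A ^ 2)).add ((h.i2 2).const_mul (2 * A * B))
  have i2 := (h.i2 4).const_mul (B ^ 2)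
  have i3 : Integrable (fun x : E d => (A + B * ‖x‖ ^ 2) ^ 2) (gs d) := by rw [e]; exact i1.add i2
  refine eLp_le (by fun_prop) (p2.integrable_comp_of_integrable i3) (by positivity) ?_
  rw [mp_int p2 (fun x : E d => (A + B * ‖x‖ ^ 2) ^ 2) i3.1, e]
  refine (integral_add i1 i2).trans_le ?_
  rw [integral_add' (integrable_const _) ((h.i2 2).const_mul _), integral_const_mul, integral_const_mul, h.m2]
  simp only [integral_const, probReal_univ, smul_eq_mul, one_mul]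
  have h4 := mul_le_mul_of_nonneg_left h.m4 (sq_nonneg B)
  have h5 : 0 ≤ A * B * d := by positivity
  have h6 : 0 ≤ (B * d) ^ 2 := by positivity
  nlinarith

lemma fixed (h1 : StmtG1) (hRel : RelApi) (hOU : StmtOU) (hFD : StmtFD) (hMeas : StmtMeas) {C : ℝ}
    (hC : 1 ≤ C) (hL : ∀ (β : Measure (E d)) [IsProbabilityMeasure β] (x0 : E d) (t : ℝ), 1 / 2 ≤ t →
      Integrable (fun x : E d => ‖x‖ ^ 4) β → Rel (sm (Measure.dirac x0) t) (sm β t)
        (C * (‖∫ x, x ∂β - x0‖ + √(∫ x, ‖x - ∫ y, y ∂β‖ ^ 4 ∂β))))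
    {ε t : ℝ} {G : E d → E d} {p : Par} (π2 : Measure (ℝ × ℝ)) (π3 : Measure (ℝ × ℝ × ℝ × ℝ))
    [IsProbabilityMeasure π2] [IsProbabilityMeasure π3] (M : E d →L[ℝ] E d) (w m : E d) (hd : 1 ≤ d)
    (hε : 0 ≤ ε) (hε' : ε ≤ 1 / 4) (hG : Nice ε G) (hp : p.Ok) (hk0 : 0 ≤ p.ka) (hk : p.ka ≤ 1 / 2)
    (hde : 0 < p.de) (ha2 : ∀ᵐ a ∂π2, |a.1| ≤ 1 ∧ |a.2| ≤ 1) (ha3 : ∀ᵐ a ∂π3, |a.1| ≤ 7)
    (ht : 1 / 2 ≤ t)
    (hM : ∀ ξ, ‖∫ a, HV p.de G w a ξ ∂π3.prod (g3 d) - M ξ‖ ≤ 28 * p.de * ‖ξ‖ ^ 2) (ζ ξ : E d) :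
    Rel ((gs d).map fun s => w - m + (m1 p G w - F1 p G w ζ + t • ξ + (2 * t)⁻¹ • M ξ + t • s))
      ((((π2.prod (g3 d)).prod (π3.prod (g3 d))).prod (gs d)).map fun s => primW p G t w ((ζ, ξ), s))
      (C * (‖m - m1 p G w - ∫ a, F2 p G w a ∂π2.prod (g3 d)‖ + 5000 * (ε ^ 4 * (d + ‖w‖ ^ 2))) +
        C * (28 * p.de + 5000 * ε ^ 4) * ‖ξ‖ ^ 2) := by
  have hGc : Continuous G := hG.c1.continuous
  obtain ⟨cF2, cHV⟩ := (hMeas d p).1 G w hGc
  have hκ0 : 0 ≤ (2 * t)⁻¹ := by positivity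
  have hκ : (2 * t)⁻¹ ≤ 1 := inv_le_one_of_one_le₀ (by linarith)
  have mH : Measurable fun a : S3 d => HV p.de G w a ξ := (cHV.comp (Continuous.prodMk_left ξ)).measurable
  have mF := cF2.measurable
  have bA : ∀ᵐ a ∂π2.prod (g3 d),
      ‖F2 p G w a‖ ≤ ε ^ 2 * (1 + 2 * ‖w‖) + 2 * ε ^ 2 * ‖a.2.1‖ + ε ^ 2 * ‖a.2.2.2‖ := by
    filter_upwards [(measurePreserving_fst (μ := π2) (ν := g3 d)).quasiMeasurePreserving.ae ha2] with a ha
    exact F2_le (hOU d) hp hε hG hk0 hk w a ha.1 ha.2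
  have bH : ∀ᵐ a ∂π3.prod (g3 d), ‖HV p.de G w a ξ‖ ≤ 7 * ε ^ 2 * ‖ξ‖ := by
    filter_upwards [(measurePreserving_fst (μ := π3) (ν := g3 d)).quasiMeasurePreserving.ae ha3] with a ha
    refine ((hFD d ε p.de G w 0 ξ a.1 hε (by linarith) hde hG).1 a.2).trans ?_
    gcongr
  obtain ⟨i4, em, hv⟩ := core (h1 d) hd π2 (π3.prod (g3 d)) (F2 p G w) (fun a => HV p.de G w a ξ)
    mF mH (w - F1 p G w ζ + t • ξ) (2 * t)⁻¹ ε ‖w‖ ‖ξ‖ hκ0 hκ bA bH _ rfl
  have hb' : Measurable fun q : S2 d × S3 d =>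
      w - F1 p G w ζ + t • ξ - F2 p G w q.1 + (2 * t)⁻¹ • HV p.de G w q.2 ξ :=
    ((mF.comp measurable_fst).const_sub _).add ((mH.comp measurable_snd).const_smul (2 * t)⁻¹)
  have := Measure.isProbabilityMeasure_map (μ := (π2.prod (g3 d)).prod (π3.prod (g3 d))) hb'.aemeasurable
  have hr := hL _ (w - m + (m1 p G w - F1 p G w ζ + t • ξ + (2 * t)⁻¹ • M ξ)) t ht i4
  rw [sm_dirac, sm_map _ _ hb'] at hr
  have f1 : (fun s => w - m + (m1 p G w - F1 p G w ζ + t • ξ + (2 * t)⁻¹ • M ξ + t • s)) =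
      fun s => w - m + (m1 p G w - F1 p G w ζ + t • ξ + (2 * t)⁻¹ • M ξ) + t • s := by
    funext s; abel
  have f2 : (fun s : (S2 d × S3 d) × E d => primW p G t w ((ζ, ξ), s)) = fun q =>
      w - F1 p G w ζ + t • ξ - F2 p G w q.1.1 + (2 * t)⁻¹ • HV p.de G w q.1.2 ξ + t • q.2 := by
    funext s; unfold primW; simp only; abel
  rw [f1, f2]
  refine hRel.mono _ _ _ _ _ (by positivity) ?_ hr
  have e1 : w - F1 p G w ζ + t • ξ - ∫ a, F2 p G w a ∂π2.prod (g3 d) +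
      (2 * t)⁻¹ • ∫ a, HV p.de G w a ξ ∂π3.prod (g3 d) -
      (w - m + (m1 p G w - F1 p G w ζ + t • ξ + (2 * t)⁻¹ • M ξ)) =
      (m - m1 p G w - ∫ a, F2 p G w a ∂π2.prod (g3 d)) +
        (2 * t)⁻¹ • (∫ a, HV p.de G w a ξ ∂π3.prod (g3 d) - M ξ) := by
    rw [smul_sub]; abel
  have e2 : ‖(2 * t)⁻¹ • (∫ a, HV p.de G w a ξ ∂π3.prod (g3 d) - M ξ)‖ ≤ 28 * p.de * ‖ξ‖ ^ 2 := by
    rw [norm_smul, Real.norm_eq_abs, abs_of_nonneg hκ0]
    exact (mul_le_of_le_one_left (norm_nonneg _) hκ).trans (hM _)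
  have e3 := (norm_add_le (m - m1 p G w - ∫ a, F2 p G w a ∂π2.prod (g3 d)) _).trans
    (add_le_add le_rfl e2)
  rw [← e1, ← em] at e3
  refine (mul_le_mul_of_nonneg_left (add_le_add e3 hv) (by linarith)).trans_eq ?_
  ring

lemma lhs_eq (p : Par) (G : E d → E d) (M : E d →L[ℝ] E d) (w m : E d) (t : ℝ)
    (hF : Continuous (F1 p G w)) :
    (sm (((be1 p G w).prod (gs d)).map fun q => q.1 + t • q.2 + (2 * t)⁻¹ • M q.2) t).map
      (fun x => w - m + x) = (((gs d).prod (gs d)).prod (gs d)).map fun q =>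
        w - m + (m1 p G w - F1 p G w q.1.1 + t • q.1.2 + (2 * t)⁻¹ • M q.1.2 + t • q.2) := by
  have hy : Measurable fun q : E d × E d => m1 p G w - F1 p G w q.1 + t • q.2 + (2 * t)⁻¹ • M q.2 :=
    Continuous.measurable (by fun_prop)
  have e0 : ((be1 p G w).prod (gs d)).map (fun q => q.1 + t • q.2 + (2 * t)⁻¹ • M q.2) =
      ((gs d).prod (gs d)).map fun q => m1 p G w - F1 p G w q.1 + t • q.2 + (2 * t)⁻¹ • M q.2 := by
    have a1 : Measurable fun ζ => m1 p G w - F1 p G w ζ := Continuous.measurable (by fun_prop)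
    unfold be1
    conv_lhs => enter [2, 2]; rw [← Measure.map_id (μ := gs d)]
    rw [Measure.map_prod_map _ _ a1 measurable_id, Measure.map_map
      (Continuous.measurable (by fun_prop)) (a1.prodMap measurable_id)]
    rfl
  rw [e0, sm_map _ _ hy, Measure.map_map (Continuous.measurable (by fun_prop))
    (Continuous.measurable (by fun_prop))]
  rfl

lemma fin_arith (C b de D ε r : ℝ) (hC : 1 ≤ C) (hb : 0 ≤ b) (hde : 0 ≤ de) (hD : 0 ≤ D) :
    C * (b + 5000 * (ε ^ 4 * (D + r ^ 2))) + 2 * (C * (28 * de + 5000 * ε ^ 4)) * D ≤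
      15000 * C * (b + de * D + ε ^ 4 * (D + r ^ 2)) := by
  have h2 : 0 ≤ C * b := by positivity
  have h3 : 0 ≤ C * (de * D) := by positivity
  have h4 : 0 ≤ C * (ε ^ 4 * r ^ 2) := by positivity
  linarith

lemma cont_primW (hMeas : StmtMeas) (p : Par) (G : E d → E d) (t : ℝ) (w : E d) (hG : Continuous G) :
    Continuous (primW p G t w) := by
  have h := ((hMeas d p).2.2.1 G t hG).comp (Continuous.prodMk_right (Y := Sw d) w)
  exact h.congr fun s => rfl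

lemma omw : OpensMeasurableSpace (Sw d) := by
  have h2 : OpensMeasurableSpace (S2 d) := inferInstance
  have h3 : OpensMeasurableSpace (S3 d) := inferInstance
  have h4 : OpensMeasurableSpace (S2 d × S3 d) := Prod.opensMeasurableSpace
  have h5 : OpensMeasurableSpace ((S2 d × S3 d) × E d) := Prod.opensMeasurableSpace
  exact Prod.opensMeasurableSpace

lemma omd : OpensMeasurableSpace (Sd d) := by
  have h := omw (d := d)
  exact Prod.opensMeasurableSpace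

lemma meas_primW (hMeas : StmtMeas) (p : Par) (G : E d → E d) (t : ℝ) (w : E d) (hG : Continuous G) :
    Measurable (primW p G t w) := by
  have h := omw (d := d)
  exact (cont_primW hMeas p G t w hG).measurable

lemma meas_prim (hMeas : StmtMeas) (p : Par) (G : E d → E d) (t : ℝ) (hG : Continuous G) :
    Measurable (prim p G t) := by
  have h := omd (d := d)
  exact ((hMeas d p).2.2.1 G t hG).measurable

lemma cont_F1 (hO : OUApi d) (p : Par) (G : E d → E d) (w : E d) (hG : Continuous G) :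
    Continuous (F1 p G w) := by
  have h := (hO.f1c p G hG).comp (Continuous.prodMk_right (Y := E d) w)
  exact h.congr fun s => rfl

end PA0m

open PA0m in
theorem stmtPA0 (h1 : StmtG1) (hRel : RelApi) (hL2 : StmtL2) (hOU : StmtOU) (hFD : StmtFD)
    (hMeas : StmtMeas) : StmtPA0 := by
  obtain ⟨C, hC, hL⟩ := hL2
  refine ⟨15000 * C, by linarith, ?_⟩
  intro d ε t G p π2 π3 _ _ M w m hd hε hε' hG hp hk0 hk hde ha2 ha3 ht ht' hM
  have hGc : Continuous G := hG.c1.continuous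
  have cF1 := cont_F1 (hOU d) p G w hGc
  have cP := meas_primW hMeas p G t w hGc
  rw [lhs_eq p G M w m t cF1]
  have hd0 : (0 : ℝ) ≤ d := Nat.cast_nonneg d
  have hC0 : 0 ≤ C := by linarith
  exact hRel.mix (E d × E d) (E d) ((S2 d × S3 d) × E d) (E d) ((gs d).prod (gs d)) (gs d)
    (((π2.prod (g3 d)).prod (π3.prod (g3 d))).prod (gs d)) _ (primW p G t w)
    (fun ω => C * (‖m - m1 p G w - ∫ a, F2 p G w a ∂π2.prod (g3 d)‖ + 5000 * (ε ^ 4 * (d + ‖w‖ ^ 2))) +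
      C * (28 * p.de + 5000 * ε ^ 4) * ‖ω.2‖ ^ 2) _
    (Continuous.measurable (by fun_prop)) cP (Continuous.measurable (by fun_prop))
    (fun ω => by positivity) (by positivity)
    (fun ω => fixed h1 hRel hOU hFD hMeas hC (hL d) π2 π3 M w m hd hε hε' hG hp hk0 hk hde ha2 ha3 ht hM
      ω.1 ω.2)
    ((e_norm (h1 d) _ _ (by positivity) (by positivity)).trans
      (ENNReal.ofReal_le_ofReal (fin_arith C _ _ _ _ _ hC (norm_nonneg _) hde.le hd0)))

end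

end Vale.Agent.P347
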