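import Vale.Agent.P347.Spec2
import Vale.Agent.P347.PA0
import Vale.Agent.P347.B2a

open MeasureTheory ProbabilityTheory Finset
open scoped RealInnerProductSpace ENNReal

namespace Vale.Agent.P347

noncomputable section

namespace F2Nm
open PA0m

variable {d : ℕ}

lemma env2 {X : Type} [MeasurableSpace X] {P : Measure X} [IsProbabilityMeasure P] (h : Gau1 d)
    {g g' : X → E d} (hg : MeasurePreserving g P (gs d)) (hg' : MeasurePreserving g' P (gs d))
    {f : X → E d} (hf : AEStronglyMeasurable f P) (c u v : ℝ)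
    (hb : ∀ x, ‖f x‖ ≤ c + u * ‖g x‖ + v * ‖g' x‖) :
    Integrable (fun x => ‖f x‖ ^ 2) P ∧
      ∫ x, ‖f x‖ ^ 2 ∂P ≤ 3 * (c ^ 2 + (u ^ 2 + v ^ 2) * d) := by
  have i1 := (hg.integrable_comp_of_integrable (h.i2 2)).const_mul (u ^ 2)
  have i2 := (hg'.integrable_comp_of_integrable (h.i2 2)).const_mul (v ^ 2)
  have i3 := (((integrable_const (c ^ 2)).add i1).add i2).const_mul 3
  have hb' : ∀ᵐ x ∂P, ‖f x‖ ^ 2 ≤ 3 * (c ^ 2 + u ^ 2 * ‖g x‖ ^ 2 + v ^ 2 * ‖g' x‖ ^ 2) := by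
    refine Filter.Eventually.of_forall fun x => ?_
    refine (pow_le_pow_left₀ (norm_nonneg _) (hb x) 2).trans ?_
    nlinarith [sq_nonneg (c - u * ‖g x‖), sq_nonneg (c - v * ‖g' x‖),
      sq_nonneg (u * ‖g x‖ - v * ‖g' x‖)]
  have i4 : Integrable (fun x => ‖f x‖ ^ 2) P :=
    i3.mono' (hf.norm.pow 2) (by
      filter_upwards [hb'] with x hx
      rw [Real.norm_eq_abs, abs_of_nonneg (by positivity)]; exact hx)
  refine ⟨i4, (integral_mono_ae i4 i3 hb').trans ?_⟩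
  rw [integral_const_mul, integral_add' ((integrable_const _).add i1) i2,
    integral_add' (integrable_const _) i1, integral_const_mul, integral_const_mul]
  have e1 := mp_int hg (fun x : E d => ‖x‖ ^ 2) (h.i2 2).1
  have e2 := mp_int hg' (fun x : E d => ‖x‖ ^ 2) (h.i2 2).1
  simp only [Function.comp, integral_const, probReal_univ, smul_eq_mul, one_mul]
  rw [e1, e2, h.m2]
  linarith

lemma wsum {J : ℕ} {om : Fin J → ℝ} {c0 b : ℝ} (h0 : ∀ j, 0 ≤ om j) (h1 : ∑ j, om j ≤ 1)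
    (c00 : 0 ≤ c0) (c01 : c0 ≤ 1) (hb : 0 ≤ b) {x : Fin J → E d} (hx : ∀ j, ‖x j‖ ≤ b) :
    ‖∑ j, (c0 * om j) • x j‖ ≤ b := by
  refine (norm_sum_le _ _).trans ?_
  have : ∀ j, ‖(c0 * om j) • x j‖ ≤ om j * b := fun j => by
    rw [norm_smul, Real.norm_of_nonneg (mul_nonneg c00 (h0 j))]
    exact mul_le_mul (mul_le_of_le_one_left (h0 j) c01) (hx j) (norm_nonneg _) (h0 j)
  refine (sum_le_sum fun j _ => this j).trans ?_
  rw [← sum_mul]
  exact mul_le_of_le_one_left hb h1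

lemma F2_lip {p : Par} {ε : ℝ} {G : E d → E d} (hp : p.Ok) (hε : 0 ≤ ε) (hε4 : ε ≤ 1 / 4)
    (hG : LipF ε G) (hk0 : 0 ≤ p.ka) (hk : p.ka ≤ 1 / 2) (w : E d) (τ : ℝ) :
    LipF (5 * ε) fun z : E d × E d × E d => F2 p G w ((1, τ), z) := by
  intro x y
  have hs : 1 / 2 ≤ sg p.ka := Real.le_sqrt_of_sq_le (by nlinarith)
  have n1 : ‖x.1 - y.1‖ ≤ ‖x - y‖ := norm_fst_le (x - y)
  have n2 : ‖x.2.1 - y.2.1‖ ≤ ‖x - y‖ := (norm_fst_le (x - y).2).trans (norm_snd_le (x - y))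
  have n3 : ‖x.2.2 - y.2.2‖ ≤ ‖x - y‖ := (norm_snd_le (x - y).2).trans (norm_snd_le (x - y))
  set r := ‖x - y‖ with hr
  have r0 : 0 ≤ r := norm_nonneg _
  set bx := b2 p w ((1, τ), x) with hbx
  set b' := b2 p w ((1, τ), y) with hby
  have hb : ‖bx - b'‖ ≤ r := by
    have : bx - b' = √(1 - p.ka ^ 2 - τ ^ 2) • (x.1 - y.1) := by
      simp only [hbx, hby, b2]; module
    rw [this, norm_smul, Real.norm_of_nonneg (Real.sqrt_nonneg _)]
    refine (mul_le_of_le_one_left (norm_nonneg _) (Real.sqrt_le_one.mpr ?_)).trans n1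
    nlinarith [sq_nonneg p.ka, sq_nonneg τ]
  have hb' : ‖(sg p.ka)⁻¹ • bx - (sg p.ka)⁻¹ • b'‖ ≤ 2 * r := by
    rw [← smul_sub, norm_smul, norm_inv, Real.norm_eq_abs, abs_of_pos (by linarith)]
    refine mul_le_mul ?_ hb (norm_nonneg _) (by norm_num)
    rw [inv_le_comm₀ (by linarith) (by norm_num)]; linarith
  have h1 := B2am.f1_lip p hp hε hG ((sg p.ka)⁻¹ • bx) ((sg p.ka)⁻¹ • b') x.2.2 y.2.2
  have h1' := h1.trans (mul_le_mul_of_nonneg_left (add_le_add hb' n3) hε)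
  have h2 : ‖bx + p.ka • x.2.1 - (b' + p.ka • y.2.1)‖ ≤ 3 / 2 * r := by
    rw [add_sub_add_comm, ← smul_sub]
    refine (norm_add_le _ _).trans ?_
    rw [norm_smul, Real.norm_of_nonneg hk0]
    nlinarith [norm_nonneg (x.2.1 - y.2.1)]
  have h3 := (hG _ _).trans (mul_le_mul_of_nonneg_left h2 hε)
  have h4 : ‖G (bx + p.ka • x.2.1 - F1 p G ((sg p.ka)⁻¹ • bx) x.2.2) -
      G (b' + p.ka • y.2.1 - F1 p G ((sg p.ka)⁻¹ • b') y.2.2)‖ ≤ ε * (3 / 2 * r + ε * (2 * r + r)) := by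
    refine (hG _ _).trans (mul_le_mul_of_nonneg_left ?_ hε)
    rw [sub_sub_sub_comm]
    exact (norm_sub_le _ _).trans (add_le_add h2 h1')
  simp only [F2, one_smul]
  rw [← hbx, ← hby, sub_sub_sub_comm]
  refine (norm_sub_le _ _).trans ((add_le_add h4 h3).trans ?_)
  have : ε * (ε * r) ≤ ε * (1 / 4 * r) := by gcongr
  nlinarith [mul_nonneg hε r0]

lemma F2_c1 {p : Par} {G : E d → E d} (hG : ContDiff ℝ 1 G) (w : E d) (τ : ℝ) :
    ContDiff ℝ 1 fun z : E d × E d × E d => F2 p G w ((1, τ), z) := by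
  have hb : ContDiff ℝ 1 fun z : E d × E d × E d => b2 p w ((1, τ), z) := by
    change ContDiff ℝ 1 fun z : E d × E d × E d => τ • w + √(1 - p.ka ^ 2 - τ ^ 2) • z.1
    exact contDiff_const.add (contDiff_fst.const_smul _)
  have h1 : ContDiff ℝ 1 fun z : E d × E d × E d =>
      F1 p G ((sg p.ka)⁻¹ • b2 p w ((1, τ), z)) z.2.2 :=
    ContDiff.sum fun j _ => (hG.comp (by fun_prop)).const_smul _
  have h2 : ContDiff ℝ 1 fun z : E d × E d × E d => b2 p w ((1, τ), z) + p.ka • z.2.1 := by fun_prop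
  exact ((hG.comp (h2.sub h1)).sub (hG.comp h2)).const_smul (1 : ℝ)

end F2Nm

open PA0m F2Nm in
theorem stmtF2N (h1 : StmtG1) (hRel : RelApi) (hGP : StmtGP) (hPo : StmtPo) (hOU : StmtOU)
    (hMM2 : StmtMM2) : StmtF2N := by
  obtain ⟨C, hC, hM⟩ := hMM2
  refine ⟨1000 * C, by linarith, ?_⟩
  intro d ε t G P w x0 hd hε hε4 hG hp hk0 hk c0 c1 ht
  have hd' : (1 : ℝ) ≤ d := by exact_mod_cast hd
  have s1 : 1 ≤ √(d : ℝ) := Real.one_le_sqrt.2 hd'
  have s2 : √(d : ℝ) ^ 2 = d := Real.sq_sqrt (by linarith)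
  set F := F22 P G w with hF
  have cF : ContDiff ℝ 1 F := ContDiff.sum fun j _ => (F2_c1 hG.c1 w _).const_smul _
  have lF : LipF (5 * ε) F := by
    intro x y
    simp only [hF, F22]
    rw [← sum_sub_distrib]
    simp only [← smul_sub]
    exact wsum hp.1 hp.2.1 c0 c1 (by positivity) fun j => F2_lip hp hε hε4 hG.lip hk0 hk w _ x y
  have bF : ∀ z, ‖F z‖ ≤ ε ^ 2 * (1 + 2 * ‖w‖) + 2 * ε ^ 2 * ‖z.1‖ + ε ^ 2 * ‖z.2.2‖ := fun z =>
    wsum hp.1 hp.2.1 c0 c1 (by positivity) fun j =>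
      F2_le (hOU d) hp hε hG hk0 hk w _ (by simp) (by
        have := hp.2.2 j
        rw [abs_of_nonneg (mul_nonneg c0 this.1)]
        exact mul_le_one₀ c1 this.1 this.2)
  have p1 : MeasurePreserving (fun z : E d × E d × E d => z.1) (g3 d) (gs d) := measurePreserving_fst
  have p3 : MeasurePreserving (fun z : E d × E d × E d => z.2.2) (g3 d) (gs d) :=
    measurePreserving_snd.comp measurePreserving_snd
  have mF := cF.continuous.measurable
  have aF : AEStronglyMeasurable F (g3 d) := cF.continuous.aestronglyMeasurable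
  have mem : MemLp F 2 (g3 d) :=
    (memLp_two_iff_integrable_sq_norm aF).2 (env2 (h1 d) p1 p3 aF _ _ _ bF).1
  have hm := (env1 (h1 d) hd p1 p3 aF _ _ _ (by positivity) (by positivity)
    (Filter.Eventually.of_forall bF)).2
  set m := ∫ z, F z ∂g3 d with hmm
  have po := ((hPo d).push _ (g3 d) F (5 * ε) (hGP d).three (by positivity) cF lF mem).1
  rw [← hmm] at po
  set β := (g3 d).map fun z => m - F z with hβ
  have mb : Measurable fun z => m - F z := mF.const_sub _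
  set R := √(d : ℝ) + ‖w‖ with hR
  have R1 : √(d : ℝ) ≤ R := le_add_of_nonneg_right (norm_nonneg _)
  have R0 : 0 ≤ R := by linarith
  have m2 : ∫ x, ‖x‖ ^ 2 ∂β ≤ 90 * ε ^ 4 * R ^ 2 := by
    rw [hβ, integral_map mb.aemeasurable (by fun_prop)]
    refine (env2 (h1 d) p1 p3 (aestronglyMeasurable_const.sub aF) (5 * ε ^ 2 * R) (2 * ε ^ 2) (ε ^ 2)
      fun z => ?_).2.trans ?_
    · refine (norm_sub_le _ _).trans ?_
      have a1 := bF z
      have a2 : ε ^ 2 * (2 + 4 * ‖w‖ + 3 * √d) ≤ ε ^ 2 * (5 * R) :=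
        mul_le_mul_of_nonneg_left (by rw [hR]; linarith [norm_nonneg w]) (by positivity)
      simp only [Pi.sub_apply]
      linarith
    · have a1 : (d : ℝ) ≤ R ^ 2 := by rw [← s2]; gcongr
      have a2 : ε ^ 4 * d ≤ ε ^ 4 * R ^ 2 := by gcongr
      nlinarith
  have fr : Fr (Measure.dirac 0) β ≤ (1000 * ε ^ 3 * R) ^ 2 := by
    have a1 : Fr (Measure.dirac 0) β = Fr β (Measure.dirac 0) :=
      sum_congr rfl fun i _ => sum_congr rfl fun j _ => by ring
    rw [a1]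
    refine ((hPo d).fr0 β _ po).trans ((mul_le_mul_of_nonneg_left m2 (by positivity)).trans ?_)
    have : 0 ≤ ε ^ 6 * R ^ 2 := by positivity
    nlinarith
  have key := hM d _ β (2 * (5 * ε)) t (1000 * ε ^ 3 * R) ((hPo d).dir _) po ht (by positivity) fr (by
    have a1 : (d : ℝ) ≤ R ^ 2 := by rw [← s2]; gcongr
    have a2 : ε ^ 6 * d ≤ ε ^ 6 * R ^ 2 := by gcongr
    nlinarith)
  have key2 := hRel.map _ _ _ _ _ (fun x => x0 - m + x) (by fun_prop) key
  rw [sm_dirac, hβ, sm_map _ _ mb, Measure.map_map (by fun_prop) (by fun_prop),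
    Measure.map_map (by fun_prop) (by fun_prop)] at key2
  rw [sm_dirac, sm_map _ _ (mF.const_sub x0)]
  have f1 : ((fun x => x0 - m + x) ∘ fun s : E d => 0 + t • s) = fun s => x0 - m + t • s := by
    funext s; simp
  have f2 : ((fun x => x0 - m + x) ∘ fun q : (E d × E d × E d) × E d => m - F q.1 + t • q.2) =
      fun q => x0 - F q.1 + t • q.2 := by
    funext q; simp only [Function.comp]; abel
  rw [f1, f2] at key2
  refine hRel.mono _ _ _ _ _ (by positivity) (le_of_eq ?_) key2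
  ring

end

end Vale.Agent.P347
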