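import Vale.Agent.P347.Spec

open MeasureTheory ProbabilityTheory Finset
open scoped RealInnerProductSpace ENNReal

namespace Vale.Agent.P347

namespace FDm

variable {d : ℕ}

theorem nD {ε : ℝ} {G : E d → E d} (hε : 0 ≤ ε) (hG : Nice ε G) (q v : E d) :
    ‖fderiv ℝ G q v‖ ≤ ε * ‖v‖ :=
  ((fderiv ℝ G q).le_opNorm v).trans (mul_le_mul_of_nonneg_right
    (norm_fderiv_le_of_lip' ℝ hε (Filter.Eventually.of_forall fun x => hG.lip x q)) (norm_nonneg _))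

theorem nF {ε δ : ℝ} {G : E d → E d} (hδ : 0 < δ) (hG : Nice ε G) (q v : E d) :
    ‖FD G δ q v‖ ≤ ε * ‖v‖ := by
  have h := hG.lip (q + δ • v) q
  rw [add_sub_cancel_left, norm_smul, Real.norm_of_nonneg hδ.le] at h
  rw [FD, norm_smul, Real.norm_of_nonneg (inv_nonneg.2 hδ.le), inv_mul_le_iff₀ hδ]
  linarith

theorem cD {ε : ℝ} {G : E d → E d} (hG : Nice ε G) : Continuous (fderiv ℝ G) :=
  hG.c1.continuous_fderiv one_ne_zero

theorem ftc {ε δ : ℝ} {G : E d → E d} (hδ : 0 < δ) (hG : Nice ε G) (l q v : E d) :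
    ⟪l, FD G δ q v⟫ = ∫ r in (0 : ℝ)..1, ⟪l, fderiv ℝ G (q + (r * δ) • v) v⟫ := by
  have hc := cD hG
  have h1 : ∀ r : ℝ, HasDerivAt (fun r : ℝ => δ⁻¹ * ⟪l, G (q + (r * δ) • v)⟫)
      (⟪l, fderiv ℝ G (q + (r * δ) • v) v⟫) r := by
    intro r
    have h2 : HasDerivAt (fun r : ℝ => q + (r * δ) • v) (δ • v) r := by
      simpa using (((hasDerivAt_id r).mul_const δ).smul_const v).const_add q
    have h3 := ((hG.c1.differentiable one_ne_zero (q + (r * δ) • v)).hasFDerivAt).comp_hasDerivAt r h2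
    have h4 := ((hasDerivAt_const r l).inner ℝ h3).const_mul δ⁻¹
    rw [map_smul, inner_smul_right, inner_zero_left, add_zero, ← mul_assoc, inv_mul_cancel₀ hδ.ne',
      one_mul] at h4
    exact h4
  rw [intervalIntegral.integral_eq_sub_of_hasDerivAt (fun r _ => h1 r)
    (Continuous.intervalIntegrable (by fun_prop) _ _)]
  simp only [FD, inner_smul_right, inner_sub_right, one_mul, zero_mul, zero_smul, add_zero]
  ring

theorem shiftM (h2 : Gau2 d) (M t : ℝ) (x y : E d) (φ : E d → ℝ) (ht : 0 < t) (hφ : Measurable φ)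
    (hM : ∀ z, |φ z| ≤ M) :
    |∫ g, φ (x + t • g) ∂gs d - ∫ g, φ (y + t • g) ∂gs d| ≤ M * (2 * ‖x - y‖ / t) := by
  have h0 : 0 ≤ M := (abs_nonneg _).trans (hM 0)
  rcases h0.eq_or_lt with rfl | h0
  · have : φ = fun _ => 0 := funext fun z => abs_nonpos_iff.1 (hM z)
    simp [this]
  · have h := h2.shift t x y (fun z => M⁻¹ * φ z) ht (hφ.const_mul _) fun z => by
      rw [abs_mul, abs_of_pos (inv_pos.2 h0), inv_mul_le_iff₀ h0, mul_one]; exact hM z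
    rw [integral_const_mul, integral_const_mul, ← mul_sub, abs_mul, abs_of_pos (inv_pos.2 h0),
      inv_mul_le_iff₀ h0] at h
    exact h

theorem intg {X : Type} [TopologicalSpace X] [MeasurableSpace X] [OpensMeasurableSpace X]
    [SecondCountableTopology X] (μ : Measure X) [IsFiniteMeasure μ] (F : X → ℝ) (B : ℝ)
    (hF : Continuous F) (hB : ∀ z, |F z| ≤ B) : Integrable F μ :=
  Integrable.of_bound hF.aestronglyMeasurable B (Filter.Eventually.of_forall hB)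

theorem absI {X : Type} [MeasurableSpace X] (μ : Measure X) [IsProbabilityMeasure μ] (F : X → ℝ)
    (K : ℝ) (h : ∀ z, |F z| ≤ K) : |∫ z, F z ∂μ| ≤ K := by
  simpa using norm_integral_le_of_norm_le_const (μ := μ) (f := F) (C := K)
    (Filter.Eventually.of_forall h)

theorem key (h2 : Gau2 d) {ε δ : ℝ} {G : E d → E d} (hε : 0 ≤ ε) (hδ : 0 < δ) (hG : Nice ε G)
    (l x v : E d) (t : ℝ) (ht : 0 < t) :
    |∫ g, (⟪l, FD G δ (x + t • g) v⟫ - ⟪l, fderiv ℝ G (x + t • g) v⟫) ∂gs d| ≤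
      ‖l‖ * (ε * ‖v‖) * (2 * (δ * ‖v‖) / t) := by
  have hc := cD hG
  set φ : E d → ℝ := fun q => ⟪l, fderiv ℝ G q v⟫ with hφ
  have cφ : Continuous φ := by rw [hφ]; fun_prop
  have bφ : ∀ q, |φ q| ≤ ‖l‖ * (ε * ‖v‖) := fun q =>
    (abs_real_inner_le_norm _ _).trans (mul_le_mul_of_nonneg_left (nD hε hG q v) (norm_nonneg _))
  have e1 : ∀ g : E d, ⟪l, FD G δ (x + t • g) v⟫ - ⟪l, fderiv ℝ G (x + t • g) v⟫ =
      ∫ r in (0 : ℝ)..1, (φ (x + (r * δ) • v + t • g) - φ (x + t • g)) := by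
    intro g
    rw [ftc hδ hG, intervalIntegral.integral_sub (Continuous.intervalIntegrable (by fun_prop) _ _)
      (Continuous.intervalIntegrable (by fun_prop) _ _)]
    simp only [intervalIntegral.integral_const, sub_zero, one_smul, hφ, add_right_comm x _ (t • g)]
  simp only [e1]
  rw [← intervalIntegral_integral_swap]
  · have := intervalIntegral.norm_integral_le_of_norm_le_const (a := 0) (b := 1)
      (f := fun r : ℝ => ∫ g, (φ (x + (r * δ) • v + t • g) - φ (x + t • g)) ∂gs d)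
      (C := ‖l‖ * (ε * ‖v‖) * (2 * (δ * ‖v‖) / t)) ?_
    · simpa using this
    · intro r hr
      rw [Set.uIoc_of_le zero_le_one] at hr
      rw [integral_sub (intg _ _ _ (by fun_prop) fun g => bφ _)
        (intg _ _ _ (by fun_prop) fun g => bφ _)]
      refine (shiftM h2 _ t _ _ φ ht cφ.measurable bφ).trans ?_
      rw [add_sub_cancel_left, norm_smul, Real.norm_of_nonneg (mul_nonneg hr.1.le hδ.le)]
      have h3 : r * δ ≤ δ := mul_le_of_le_one_left hδ.le hr.2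
      gcongr
  · rw [Set.uIoc_of_le zero_le_one]
    refine intg _ _ (‖l‖ * (ε * ‖v‖) + ‖l‖ * (ε * ‖v‖)) ?_ fun z => ?_
    · unfold Function.uncurry; fun_prop
    · exact (abs_sub _ _).trans (add_le_add (bφ _) (bφ _))

theorem bd2 (F : E d × E d × E d → ℝ) (B K : ℝ) (hF : Continuous F) (hB : ∀ z, |F z| ≤ B)
    (h : ∀ z1 z3, |∫ z2, F (z1, z2, z3) ∂gs d| ≤ K) : |∫ z, F z ∂g3 d| ≤ K := by
  rw [integral_prod _ (intg _ F B hF hB)]
  refine absI _ _ _ fun z1 => ?_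
  rw [integral_prod_symm _ (intg _ (fun p => F (z1, p)) B (by fun_prop) fun p => hB _)]
  exact absI _ _ _ fun z3 => h z1 z3

theorem bd3 (F : E d × E d × E d → ℝ) (B K : ℝ) (hF : Continuous F) (hB : ∀ z, |F z| ≤ B)
    (h : ∀ z1 z2, |∫ z3, F (z1, z2, z3) ∂gs d| ≤ K) : |∫ z, F z ∂g3 d| ≤ K := by
  rw [integral_prod _ (intg _ F B hF hB)]
  refine absI _ _ _ fun z1 => ?_
  rw [integral_prod _ (intg _ (fun p => F (z1, p)) B (by fun_prop) fun p => hB _)]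
  exact absI _ _ _ fun z2 => h z1 z2

theorem main (h2 : Gau2 d) {ε δ : ℝ} {G : E d → E d} (hε : 0 ≤ ε) (hε1 : ε ≤ 1) (hδ : 0 < δ)
    (hG : Nice ε G) (u ξ x x' : E d) (s s' θ : ℝ) (hs : 0 < s) (hs' : 0 < s')
    (hθ : 0 < Real.cos θ) :
    |∫ z, ⟪u, FD G δ (qa x s θ z) (FD G δ (qb x' s' θ z) ξ)⟫ ∂g3 d - hh G u ξ x x' s s' θ| ≤
      2 * δ * ‖u‖ * ‖ξ‖ ^ 2 / (s * Real.cos θ) + 2 * δ * ‖u‖ * ‖ξ‖ ^ 2 / (s' * Real.cos θ) := by
  have hc := cD hG
  have cG := hG.c1.continuous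
  have ca : Continuous (qa x s θ) := by unfold qa; fun_prop
  have cb : Continuous (qb x' s' θ) := by unfold qb; fun_prop
  have le1 : ∀ v : E d, ε * ‖v‖ ≤ ‖v‖ := fun v => mul_le_of_le_one_left (norm_nonneg v) hε1
  have nF' : ∀ q v, ‖FD G δ q v‖ ≤ ‖v‖ := fun q v => (nF hδ hG q v).trans (le1 v)
  have nD' : ∀ q v, ‖fderiv ℝ G q v‖ ≤ ‖v‖ := fun q v => (nD hε hG q v).trans (le1 v)
  set f0 : E d × E d × E d → ℝ := fun z => ⟪u, FD G δ (qa x s θ z) (FD G δ (qb x' s' θ z) ξ)⟫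
    with hf0
  set f1 : E d × E d × E d → ℝ := fun z => ⟪u, fderiv ℝ G (qa x s θ z) (FD G δ (qb x' s' θ z) ξ)⟫
    with hf1
  set f2 : E d × E d × E d → ℝ :=
    fun z => ⟪u, fderiv ℝ G (qa x s θ z) (fderiv ℝ G (qb x' s' θ z) ξ)⟫ with hf2
  have c0 : Continuous f0 := by rw [hf0]; unfold FD; fun_prop
  have c1 : Continuous f1 := by rw [hf1]; unfold FD; fun_prop
  have c2 : Continuous f2 := by rw [hf2]; fun_prop
  have b0 : ∀ z, |f0 z| ≤ ‖u‖ * ‖ξ‖ := fun z => (abs_real_inner_le_norm _ _).trans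
    (mul_le_mul_of_nonneg_left ((nF' _ _).trans (nF' _ _)) (norm_nonneg _))
  have b1 : ∀ z, |f1 z| ≤ ‖u‖ * ‖ξ‖ := fun z => (abs_real_inner_le_norm _ _).trans
    (mul_le_mul_of_nonneg_left ((nD' _ _).trans (nF' _ _)) (norm_nonneg _))
  have b2 : ∀ z, |f2 z| ≤ ‖u‖ * ‖ξ‖ := fun z => (abs_real_inner_le_norm _ _).trans
    (mul_le_mul_of_nonneg_left ((nD' _ _).trans (nD' _ _)) (norm_nonneg _))
  have ea : ∀ z1 z2 z3 : E d, qa x s θ (z1, z2, z3) =
      x + (s * Real.sin θ) • z1 + (s * Real.cos θ) • z2 := by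
    intro z1 z2 z3
    simp only [qa, smul_add, smul_smul, add_assoc]
  have eb : ∀ z1 z2 z3 : E d, qb x' s' θ (z1, z2, z3) =
      x' + (s' * Real.sin θ) • z1 + (s' * Real.cos θ) • z3 := by
    intro z1 z2 z3
    simp only [qb, smul_add, smul_smul, add_assoc]
  have A := bd2 (fun z => f0 z - f1 z) _ (2 * δ * ‖u‖ * ‖ξ‖ ^ 2 / (s * Real.cos θ)) (c0.sub c1)
    (fun z => (abs_sub _ _).trans (add_le_add (b0 z) (b1 z))) fun z1 z3 => by
      simp only [hf0, hf1, ea, eb]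
      refine (key h2 hε hδ hG u _ _ _ (mul_pos hs hθ)).trans ?_
      have h3 := nF' (x' + (s' * Real.sin θ) • z1 + (s' * Real.cos θ) • z3) ξ
      have h4 := (le1 _).trans h3
      have h5 := mul_pos hs hθ
      calc _ ≤ ‖u‖ * ‖ξ‖ * (2 * (δ * ‖ξ‖) / (s * Real.cos θ)) := by gcongr
        _ = _ := by ring
  have B := bd3 (fun z => f1 z - f2 z) _ (2 * δ * ‖u‖ * ‖ξ‖ ^ 2 / (s' * Real.cos θ)) (c1.sub c2)
    (fun z => (abs_sub _ _).trans (add_le_add (b1 z) (b2 z))) fun z1 z2 => by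
      simp only [hf1, hf2, ea, eb, ← hG.sym (x + (s * Real.sin θ) • z1 + (s * Real.cos θ) • z2)]
      refine (key h2 hε hδ hG _ _ _ _ (mul_pos hs' hθ)).trans ?_
      have h3 := nD' (x + (s * Real.sin θ) • z1 + (s * Real.cos θ) • z2) u
      have h4 := le1 ξ
      have h5 := mul_pos hs' hθ
      calc _ ≤ ‖u‖ * ‖ξ‖ * (2 * (δ * ‖ξ‖) / (s' * Real.cos θ)) := by gcongr
        _ = _ := by ring
  rw [integral_sub (intg _ _ _ c0 b0) (intg _ _ _ c1 b1)] at A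
  rw [integral_sub (intg _ _ _ c1 b1) (intg _ _ _ c2 b2)] at B
  exact (abs_sub_le _ _ _).trans (add_le_add A B)

end FDm

open FDm in
theorem stmtFD (_h1 : StmtG1) (h2 : StmtG2) : StmtFD := by
  intro d ε δ G w u ξ a hε hε1 hδ hG
  constructor
  · intro z
    rw [HV, norm_smul, Real.norm_eq_abs, mul_assoc]
    refine mul_le_mul_of_nonneg_left ((nF hδ hG _ _).trans ?_) (abs_nonneg _)
    rw [sq, mul_assoc]
    exact mul_le_mul_of_nonneg_left (nF hδ hG _ _) hε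
  · intro ha
    simp only [HV, inner_smul_right]
    rw [integral_const_mul, ← mul_sub, abs_mul]
    rcases (abs_nonneg a.1).eq_or_lt with h0 | h0
    · rw [← h0, zero_mul]; positivity
    have s1 : ∀ τ : ℝ, sg τ ≤ 1 := fun τ => Real.sqrt_le_one.2 (by nlinarith [sq_nonneg τ])
    have s0 : ∀ τ : ℝ, 0 ≤ sg τ := fun τ => Real.sqrt_nonneg _
    have h3 := h0.trans_le ha
    have hs : 0 < sg a.2.1 := (s0 _).lt_of_ne fun h => by rw [← h] at h3; simp at h3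
    have hs' : 0 < sg a.2.2.1 := (s0 _).lt_of_ne fun h => by rw [← h] at h3; simp at h3
    have hθ : 0 < Real.cos a.2.2.2 := pos_of_mul_pos_right h3 (by positivity)
    have h4 := main (h2 d) hε hε1 hδ hG u ξ (a.2.1 • w) (a.2.2.1 • w) _ _ _ hs hs' hθ
    have h5 := s1 a.2.1
    have h6 := s1 a.2.2.1
    calc _ ≤ 7 * sg a.2.1 * sg a.2.2.1 * Real.cos a.2.2.2 *
          (2 * δ * ‖u‖ * ‖ξ‖ ^ 2 / (sg a.2.1 * Real.cos a.2.2.2) +
            2 * δ * ‖u‖ * ‖ξ‖ ^ 2 / (sg a.2.2.1 * Real.cos a.2.2.2)) := by gcongr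
      _ = 14 * δ * ‖u‖ * ‖ξ‖ ^ 2 * (sg a.2.2.1 + sg a.2.1) := by field_simp; ring
      _ ≤ 14 * δ * ‖u‖ * ‖ξ‖ ^ 2 * (1 + 1) := by gcongr
      _ = _ := by ring

end Vale.Agent.P347
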