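import Vale.Agent.P347.Flux1

open MeasureTheory ProbabilityTheory Finset
open scoped RealInnerProductSpace ENNReal

namespace Vale.Agent.P347

namespace Fluxm

noncomputable section

variable {d : ℕ}

def ff (W : E d → ℝ) (G : E d → E d) (h z0 : ℝ) (p : E d × E d) : ℝ :=
  -W p.1 - z0 - (2 - h)⁻¹ * ⟪G p.1, p.2 - (1 - h) • p.1⟫ - (2 - h)⁻¹ * h * ‖G p.1‖ ^ 2 / 2

def TT (G : E d → E d) (h : ℝ) (p : E d × E d) : E d :=
  (1 - h) • p.1 - (1 - (1 - h)) • G p.1 + sg (1 - h) • p.2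

def UU (B h l : ℝ) (p : E d × E d) : ℝ :=
  l * ‖p.2 - p.1‖ * (‖p.2 - p.1‖ ^ 2 + 3 * h * (1 + B + ‖p.1‖ + ‖p.2‖) * ‖p.2 - p.1‖)

lemma sg_sq {h : ℝ} (h0 : 0 < h) (h1 : h ≤ 1 / 2) : sg (1 - h) ^ 2 = h * (2 - h) := by
  unfold sg
  rw [Real.sq_sqrt (by nlinarith)]; ring

lemma sg_pos {h : ℝ} (h0 : 0 < h) (h1 : h ≤ 1 / 2) : 0 < sg (1 - h) := by
  unfold sg
  exact Real.sqrt_pos.2 (by nlinarith)

lemma joint (h1 : Gau1 d) {W : E d → ℝ} {G : E d → E d} (cW : Continuous W) (cG : Continuous G)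
    (zp : 0 < ∫ y, Real.exp (-W y) ∂gs d) {h : ℝ} (h0 : 0 < h) (h2 : h ≤ 1 / 2) :
    ((mu W).prod (gs d)).map (fun p => (p.1, TT G h p)) =
      (((gs d).prod (gs d)).map fun p => (p.1, (1 - h) • p.1 + sg (1 - h) • p.2)).withDensity
        fun p => ENNReal.ofReal (Real.exp (ff W G h (Real.log (∫ y, Real.exp (-W y) ∂gs d)) p)) := by
  have s0 := sg_pos h0 h2
  have s2 := sg_sq h0 h2
  set σ := sg (1 - h) with hσ
  set Z := ∫ y, Real.exp (-W y) ∂gs d with hZ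
  have mT : Measurable (TT G h) := by unfold TT; fun_prop
  have mf : Measurable (ff W G h (Real.log Z)) := by unfold ff; fun_prop
  refine Measure.ext_of_lintegral _ fun Φ hΦ => ?_
  rw [lintegral_map hΦ (by fun_prop), lintegral_prod _ (by fun_prop),
    lintegral_withDensity_eq_lintegral_mul _ (by fun_prop) hΦ,
    lintegral_map (by fun_prop) (by fun_prop), lintegral_prod _ (by fun_prop)]
  unfold mu
  rw [lintegral_tilted]
  refine lintegral_congr fun z => ?_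
  set a : E d := (-(h / σ)) • G z with ha
  have m2 : Measurable fun ξ : E d => Φ (z, (1 - h) • z + σ • ξ) := by fun_prop
  have e := lintegral_withDensity_eq_lintegral_mul (gs d)
    (f := fun x => ENNReal.ofReal (Real.exp (⟪a, x⟫ - ‖a‖ ^ 2 / 2))) (by fun_prop) m2
  rw [← h1.cm a, lintegral_map m2 (by fun_prop)] at e
  have e2 : ∀ ξ : E d, TT G h (z, ξ) = (1 - h) • z + σ • (ξ + a) := by
    intro ξ
    unfold TT
    rw [ha, smul_add, smul_smul]
    have : σ * -(h / σ) = -(1 - (1 - h)) := by field_simp; ring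
    rw [this, neg_smul]
    abel
  simp only [e2]
  rw [e, ← lintegral_const_mul _ (by fun_prop)]
  refine lintegral_congr fun ξ => ?_
  simp only [Pi.mul_apply]
  rw [← mul_assoc, ← ENNReal.ofReal_mul (by positivity)]
  congr 2
  unfold ff
  have c0 : (2 - h) ≠ 0 := by linarith
  rw [← hZ, ← Real.exp_log zp, ← Real.exp_sub, ← Real.exp_add, Real.log_exp]
  congr 1
  simp only [ha, add_sub_cancel_left, inner_smul_left, inner_smul_right, norm_smul, conj_trivial,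
    norm_neg, Real.norm_eq_abs, mul_pow, sq_abs]
  have k1 : h / σ = (2 - h)⁻¹ * σ := by
    field_simp; linarith
  have k2 : (h / σ) ^ 2 = (2 - h)⁻¹ * h := by
    rw [div_pow, s2]; field_simp
  rw [k2, k1]; ring

lemma lam_bd {W : E d → ℝ} {G : E d → E d} {B : ℝ} (hP : Pot W G) (hL : LipF (1 / 2) G)
    (hB : ‖G 0‖ ≤ B) {h : ℝ} (h0 : 0 < h) (h2 : h ≤ 1 / 2) (z0 : ℝ) (z v : E d) :
    |ff W G h z0 (z, z + v) - ff W G h z0 (z + v, z)| ≤
      ‖v‖ ^ 2 + 3 * h * (1 + B + ‖z‖ + ‖z + v‖) * ‖v‖ := by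
  have B0 : 0 ≤ B := (norm_nonneg _).trans hB
  set N := 1 + B + ‖z‖ + ‖z + v‖ with hN
  have r1 := abs_le.1 (taylor hP hL z v)
  have r2 := abs_le.1 (taylor hP hL (z + v) (-v))
  rw [add_neg_cancel_right, inner_neg_right, norm_neg] at r2
  have g1 : ‖G z‖ ≤ N := by linarith [G_bd hL hB z, norm_nonneg z, norm_nonneg (z + v)]
  have g2 : ‖G (z + v)‖ ≤ N := by
    linarith [G_bd hL hB (z + v), norm_nonneg z, norm_nonneg (z + v)]
  have g3 : ‖G (z + v) - G z‖ ≤ 1 / 2 * ‖v‖ := by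
    have := hL (z + v) z
    rwa [add_sub_cancel_left] at this
  have zN : ‖z‖ ≤ N := by linarith [norm_nonneg (z + v)]
  have v0 := norm_nonneg v
  have t1 : |⟪G z, v⟫| ≤ N * ‖v‖ := (abs_real_inner_le_norm _ _).trans (by gcongr)
  have t2 : |⟪G (z + v), v⟫| ≤ N * ‖v‖ := (abs_real_inner_le_norm _ _).trans (by gcongr)
  have t3 : |⟪G (z + v), z⟫ - ⟪G z, z⟫| ≤ N * ‖v‖ / 2 := by
    rw [← inner_sub_left]
    calc _ ≤ ‖G (z + v) - G z‖ * ‖z‖ := abs_real_inner_le_norm _ _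
      _ ≤ (1 / 2 * ‖v‖) * N := by gcongr
      _ = _ := by ring
  have t4 : |‖G (z + v)‖ ^ 2 - ‖G z‖ ^ 2| ≤ N * ‖v‖ := by
    rw [sq_sub_sq, abs_mul, abs_of_nonneg (by positivity)]
    calc _ ≤ (N + N) * (1 / 2 * ‖v‖) := by
          gcongr
          exact (abs_norm_sub_norm_le _ _).trans g3
      _ = _ := by ring
  have c0 : 0 < 2 - h := by linarith
  set c := (2 - h)⁻¹ with hc
  have c1 : c * (2 - h) = 1 := inv_mul_cancel₀ c0.ne'
  have cp : 0 < c := inv_pos.2 c0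
  have c2 : c ≤ 1 := by nlinarith
  have e : ff W G h z0 (z, z + v) - ff W G h z0 (z + v, z) =
      ((W (z + v) - W z - ⟪G z, v⟫) - (W z - W (z + v) - -⟪G (z + v), v⟫)) / 2 +
      (c * h) * (-⟪G z, v⟫ / 2 + ⟪G (z + v), v⟫ / 2 + (⟪G (z + v), z⟫ - ⟪G z, z⟫) +
        (‖G (z + v)‖ ^ 2 - ‖G z‖ ^ 2) / 2) := by
    unfold ff
    simp only [← hc, inner_sub_right, inner_add_right, inner_smul_right]
    have : c * h = 2 * c - 1 := by linarith
    linear_combination (⟪G z, v⟫ / 2 + ⟪G (z + v), v⟫ / 2) * c1 * (-1)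
  have t5 : |-⟪G z, v⟫ / 2 + ⟪G (z + v), v⟫ / 2 + (⟪G (z + v), z⟫ - ⟪G z, z⟫) +
        (‖G (z + v)‖ ^ 2 - ‖G z‖ ^ 2) / 2| ≤ 3 * (N * ‖v‖) := by
    have := abs_le.1 t1
    have := abs_le.1 t2
    have := abs_le.1 t3
    have := abs_le.1 t4
    have : 0 ≤ N * ‖v‖ := by positivity
    rw [abs_le]; constructor <;> linarith
  rw [e]
  refine (abs_add_le _ _).trans (add_le_add ?_ ?_)
  · rw [abs_le]; constructor <;> nlinarith [sq_nonneg ‖v‖]
  · rw [abs_mul, abs_of_pos (mul_pos cp h0)]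
    calc _ ≤ (1 * h) * (3 * (N * ‖v‖)) := by gcongr
      _ = _ := by ring

lemma U_bd {G : E d → E d} {B : ℝ} (hL : LipF (1 / 2) G) (hB : ‖G 0‖ ≤ B) {h l : ℝ} (h0 : 0 < h)
    (h2 : h ≤ 1 / 2) (l0 : 0 ≤ l) (p : E d × E d) :
    UU B h l (p.1, TT G h p) ≤
      l * (56 * (1 + B) ^ 3) * (h * √h) * ((1 + ‖p.1‖) ^ 3 * (1 + ‖p.2‖) ^ 3) := by
  obtain ⟨z, ξ⟩ := p
  have B0 : 0 ≤ B := (norm_nonneg _).trans hB
  have s0 := sg_pos h0 h2
  have s2 := sg_sq h0 h2
  set r := √h with hr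
  have r0 : 0 < r := Real.sqrt_pos.2 h0
  have r2 : r ^ 2 = h := Real.sq_sqrt h0.le
  have r1 : r ≤ 1 := by nlinarith
  have hr' : h ≤ r := by nlinarith
  have s3 : sg (1 - h) ≤ 2 * r := by nlinarith
  have z0 := norm_nonneg z
  have x0 := norm_nonneg ξ
  set M := (1 + B) * (1 + ‖z‖) * (1 + ‖ξ‖) with hM
  have M1 : 1 + B + ‖z‖ + ‖ξ‖ ≤ M := by
    rw [hM]
    nlinarith [mul_nonneg B0 z0, mul_nonneg B0 x0, mul_nonneg z0 x0, mul_nonneg (mul_nonneg B0 z0) x0]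
  have dl : ‖TT G h (z, ξ) - z‖ ≤ 2 * r * M := by
    have e : TT G h (z, ξ) - z = -(h • z) - h • G z + sg (1 - h) • ξ := by
      unfold TT; simp only [sub_smul, one_smul]; abel
    rw [e]
    have g := G_bd hL hB z
    calc _ ≤ ‖-(h • z)‖ + ‖h • G z‖ + ‖sg (1 - h) • ξ‖ :=
          (norm_add_le _ _).trans (by gcongr; exact norm_sub_le _ _)
      _ = h * ‖z‖ + h * ‖G z‖ + sg (1 - h) * ‖ξ‖ := by
          rw [norm_neg, norm_smul, norm_smul, norm_smul, Real.norm_of_nonneg h0.le,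
            Real.norm_of_nonneg s0.le]
      _ ≤ r * ‖z‖ + r * (B + ‖z‖ / 2) + 2 * r * ‖ξ‖ := by gcongr
      _ ≤ 2 * r * (1 + B + ‖z‖ + ‖ξ‖) := by nlinarith [mul_nonneg r0.le z0, mul_nonneg r0.le B0]
      _ ≤ _ := by gcongr
  have M0 : 0 ≤ M := by positivity
  have nT : 1 + B + ‖z‖ + ‖TT G h (z, ξ)‖ ≤ 4 * M := by
    have := norm_le_norm_add_norm_sub' (TT G h (z, ξ)) z
    nlinarith
  unfold UU
  dsimp only
  calc _ ≤ l * (2 * r * M) * ((2 * r * M) ^ 2 + 3 * h * (4 * M) * (2 * r * M)) := by gcongr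
    _ = l * M ^ 3 * (h * r) * (8 + 48 * r) := by rw [← r2]; ring
    _ ≤ l * M ^ 3 * (h * r) * (8 + 48 * 1) := by gcongr
    _ = _ := by rw [hM]; ring

lemma gs_mom (h1 : Gau1 d) : Integrable (fun x : E d => (1 + ‖x‖) ^ 3) (gs d) := by
  refine ((h1.big 1).const_mul 18).mono' (by fun_prop) (ae_of_all _ fun x => ?_)
  rw [Real.norm_of_nonneg (by positivity)]
  refine (cube_le _ (norm_nonneg x)).trans ?_
  gcongr
  nlinarith [sq_nonneg ‖x‖]

lemma main (h1 : Gau1 d) (h2 : Gau2 d) {W : E d → ℝ} {G : E d → E d} {B : ℝ} (hP : Pot W G)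
    (hL : LipF (1 / 2) G) (hB : ‖G 0‖ ≤ B) (h l : ℝ) (ψ : E d → ℝ) (h0 : 0 < h) (hh : h ≤ 1 / 2)
    (l0 : 0 ≤ l) (hψ : LipF l ψ) (b : ℝ) (hb : ∀ x, |ψ x| ≤ b) :
    |∫ x, ψ x ∂stepM G (1 - h) (mu W) - ∫ x, ψ x ∂mu W| ≤
      l * (56 * (1 + B) ^ 3) * (h * √h) * (K3 d B * ∫ x, (1 + ‖x‖) ^ 3 ∂gs d) := by
  have B0 : 0 ≤ B := (norm_nonneg _).trans hB
  have cW := pot_cont hP
  have cG := lip_cont (by norm_num) hL
  have cψ := lip_cont l0 hψ
  have iW := expW_int h1 hP hL hB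
  have zp : 0 < ∫ y, Real.exp (-W y) ∂gs d := integral_exp_pos iW
  have : IsProbabilityMeasure (mu W) := isProbabilityMeasure_tilted iW
  obtain ⟨im, bm⟩ := mom h1 hP hL hB
  have cT : Continuous (TT G h) := by unfold TT; fun_prop
  have mJ : Measurable fun p : E d × E d => (p.1, TT G h p) := by fun_prop
  have cU : Continuous (UU (d := d) B h l) := by unfold UU; fun_prop
  have U0 : ∀ p : E d × E d, 0 ≤ UU B h l p := fun p => by unfold UU; positivity
  have iP : Integrable (fun p : E d × E d => l * (56 * (1 + B) ^ 3) * (h * √h) *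
      ((1 + ‖p.1‖) ^ 3 * (1 + ‖p.2‖) ^ 3)) ((mu W).prod (gs d)) :=
    (im.mul_prod (gs_mom h1)).const_mul _
  have iU0 : Integrable (fun p : E d × E d => UU B h l (p.1, TT G h p)) ((mu W).prod (gs d)) :=
    iP.mono' (by fun_prop) (ae_of_all _ fun p => by
      rw [Real.norm_of_nonneg (U0 _)]; exact U_bd hL hB h0 hh l0 p)
  have iU : Integrable (UU B h l) (((mu W).prod (gs d)).map fun p => (p.1, TT G h p)) :=
    (integrable_map_measure cU.aestronglyMeasurable mJ.aemeasurable).2 iU0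
  have bdd : ∀ (f : E d × E d → E d) (ν : Measure (E d × E d)) [IsFiniteMeasure ν], Continuous f →
      Integrable (fun p => ψ (f p)) ν := fun f ν _ hf =>
    (integrable_const b).mono' (by fun_prop) (ae_of_all _ fun p => hb _)
  have iD : Integrable (fun p : E d × E d => ψ p.2 - ψ p.1)
      (((mu W).prod (gs d)).map fun p => (p.1, TT G h p)) :=
    (bdd _ _ continuous_snd).sub (bdd _ _ continuous_fst)
  have hΓ : (((gs d).prod (gs d)).map fun p => (p.1, (1 - h) • p.1 + sg (1 - h) • p.2)).map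
      Prod.swap = ((gs d).prod (gs d)).map fun p => (p.1, (1 - h) • p.1 + sg (1 - h) • p.2) := by
    rw [Measure.map_map measurable_swap (by fun_prop), h2.swap (1 - h) (by nlinarith)]
    rfl
  have J := joint h1 cW cG zp h0 hh
  have key := flux_abs _ hΓ (ff W G h (Real.log (∫ y, Real.exp (-W y) ∂gs d)))
    (fun p => ψ p.2 - ψ p.1) (UU B h l) (by unfold ff; fun_prop) (fun p => by simp)
    (fun p => by
      unfold UU
      simp only [Prod.fst_swap, Prod.snd_swap]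
      rw [norm_sub_rev p.1 p.2]; ring)
    (fun p => by
      obtain ⟨z, z'⟩ := p
      have := lam_bd hP hL hB h0 hh (Real.log (∫ y, Real.exp (-W y) ∂gs d)) z (z' - z)
      rw [add_sub_cancel] at this
      exact mul_le_mul (hψ z' z) this (abs_nonneg _) (by positivity))
    (J ▸ iD) (J ▸ iU)
  rw [← J, integral_map mJ.aemeasurable (by fun_prop),
    integral_map mJ.aemeasurable cU.aestronglyMeasurable] at key
  dsimp only at key
  rw [integral_sub (bdd _ _ cT) (bdd _ _ continuous_fst), integral_prod _ (bdd _ _ continuous_fst)]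
    at key
  simp only [integral_const, probReal_univ, one_smul] at key
  have e : ∫ x, ψ x ∂stepM G (1 - h) (mu W) = ∫ p, ψ (TT G h p) ∂(mu W).prod (gs d) :=
    integral_map cT.measurable.aemeasurable cψ.aestronglyMeasurable
  rw [e]
  refine key.trans ((integral_mono iU0 iP (U_bd hL hB h0 hh l0)).trans ?_)
  rw [integral_const_mul, integral_prod_mul (fun x : E d => (1 + ‖x‖) ^ 3) fun x : E d => (1 + ‖x‖) ^ 3]
  have : 0 ≤ ∫ x, (1 + ‖x‖) ^ 3 ∂gs d := integral_nonneg fun x => by positivity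
  gcongr

end

end Fluxm

open Fluxm in
theorem stmtFlux (h1 : StmtG1) (h2 : StmtG2) : StmtFlux := by
  intro d B
  rcases lt_or_ge B 0 with B0 | B0
  · exact ⟨0, le_rfl, fun W G _ _ hB => absurd ((norm_nonneg _).trans hB) (not_le.2 B0)⟩
  have z0 : 0 < Z0 d B := Z0_pos B0
  have k0 : 0 ≤ K3 d B := integral_nonneg fun x => by positivity
  have g0 : 0 ≤ ∫ x, (1 + ‖x‖) ^ 3 ∂gs d := integral_nonneg fun x => by positivity
  have q0 : 0 ≤ 56 * (1 + B) ^ 3 * (K3 d B * ∫ x, (1 + ‖x‖) ^ 3 ∂gs d) := by positivity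
  refine ⟨K3 d B + 56 * (1 + B) ^ 3 * (K3 d B * ∫ x, (1 + ‖x‖) ^ 3 ∂gs d), by positivity,
    fun W G hP hL hB => ?_⟩
  obtain ⟨im, bm⟩ := mom (h1 d) hP hL hB
  have hle : ∀ x : E d, ‖x‖ ≤ (1 + ‖x‖) ^ 3 := fun x => by
    have := norm_nonneg x
    nlinarith [mul_nonneg this this, mul_nonneg (mul_nonneg this this) this]
  have i1 : Integrable (fun x : E d => ‖x‖) (mu W) :=
    im.mono' (by fun_prop) (ae_of_all _ fun x => by rw [norm_norm]; exact hle x)
  refine ⟨isProbabilityMeasure_tilted (expW_int (h1 d) hP hL hB), i1, ?_, ?_⟩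
  · have := integral_mono i1 im hle
    linarith
  · rintro h l ψ h0 hh l0 hψ ⟨b, hb⟩
    refine (main (h1 d) (h2 d) hP hL hB h l ψ h0 hh l0 hψ b hb).trans ?_
    have : 0 ≤ l * K3 d B * (h * √h) := by positivity
    nlinarith

end Vale.Agent.P347
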