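import Vale.Agent.P347.Spec

open MeasureTheory ProbabilityTheory Finset
open scoped RealInnerProductSpace ENNReal

namespace Vale.Agent.P347.Fluxm

noncomputable section

variable {d : ℕ}

lemma taylor {W : E d → ℝ} {G : E d → E d} (hP : Pot W G) (hL : LipF (1 / 2) G) (x v : E d) :
    |W (x + v) - W x - ⟪G x, v⟫| ≤ ‖v‖ ^ 2 / 4 := by
  have hd : ∀ s : ℝ, HasDerivAt (fun s : ℝ => W (x + s • v) - W x - s * ⟪G x, v⟫)
      (⟪G (x + s • v) - G x, v⟫) s := by
    intro s
    have h1 : HasDerivAt (fun s : ℝ => x + s • v) v s := by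
      simpa using ((hasDerivAt_id s).smul_const v).const_add x
    have h2 := (hP (x + s • v)).hasFDerivAt.comp_hasDerivAt s h1
    have h3 := (h2.sub_const (W x)).sub ((hasDerivAt_id s).mul_const ⟪G x, v⟫)
    refine h3.congr_deriv ?_
    simp [inner_sub_left]
  have hB : ∀ s : ℝ, HasDerivAt (fun s : ℝ => s ^ 2 * (‖v‖ ^ 2 / 4)) (s * ‖v‖ ^ 2 / 2) s := by
    intro s
    refine ((hasDerivAt_pow 2 s).mul_const (‖v‖ ^ 2 / 4)).congr_deriv ?_
    simp; ring
  have := image_norm_le_of_norm_deriv_right_le_deriv_boundary (a := 0) (b := 1)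
    (fun s _ => (hd s).continuousAt.continuousWithinAt)
    (fun s _ => (hd s).hasDerivWithinAt) (by simp) hB (fun s hs => by
      have h1 := hL (x + s • v) x
      rw [add_sub_cancel_left, norm_smul, Real.norm_of_nonneg hs.1] at h1
      calc _ ≤ ‖G (x + s • v) - G x‖ * ‖v‖ := norm_inner_le_norm _ _
        _ ≤ (1 / 2 * (s * ‖v‖)) * ‖v‖ := by gcongr
        _ = _ := by ring) (x := 1) (by simp)
  simpa using this

lemma lip_cont {X Y : Type} [NormedAddCommGroup X] [NormedAddCommGroup Y] {K : ℝ} (hK : 0 ≤ K)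
    {F : X → Y} (h : LipF K F) : Continuous F := by
  have : LipschitzWith ⟨K, hK⟩ F := LipschitzWith.of_dist_le_mul fun x y => by
    rw [dist_eq_norm, dist_eq_norm]; exact h x y
  exact this.continuous

lemma pot_cont {W : E d → ℝ} {G : E d → E d} (hP : Pot W G) : Continuous W :=
  continuous_iff_continuousAt.2 fun x => (hP x).hasFDerivAt.continuousAt

lemma W_bd {W : E d → ℝ} {G : E d → E d} {B : ℝ} (hP : Pot W G) (hL : LipF (1 / 2) G)
    (hB : ‖G 0‖ ≤ B) (x : E d) : |W x - W 0| ≤ B * ‖x‖ + ‖x‖ ^ 2 / 4 := by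
  have h1 := abs_le.1 (taylor hP hL 0 x)
  have h2 := abs_le.1 ((abs_real_inner_le_norm (G 0) x).trans
    (mul_le_mul_of_nonneg_right hB (norm_nonneg x)))
  rw [zero_add] at h1
  rw [abs_le]
  constructor <;> linarith [h1.1, h1.2, h2.1, h2.2]

lemma G_bd {G : E d → E d} {B : ℝ} (hL : LipF (1 / 2) G) (hB : ‖G 0‖ ≤ B) (x : E d) :
    ‖G x‖ ≤ B + ‖x‖ / 2 := by
  have h1 := hL x 0
  have h2 := norm_le_norm_add_norm_sub' (G x) (G 0)
  rw [sub_zero] at h1
  linarith

def Z0 (d : ℕ) (B : ℝ) : ℝ := ∫ x, Real.exp (-(B * ‖x‖ + ‖x‖ ^ 2 / 4)) ∂gs d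

def K3 (d : ℕ) (B : ℝ) : ℝ :=
  ∫ x, 18 * Real.exp ((B + 1) * ‖x‖ + ‖x‖ ^ 2 / 3) / Z0 d B ∂gs d

lemma Z0_int {B : ℝ} (hB : 0 ≤ B) :
    Integrable (fun x : E d => Real.exp (-(B * ‖x‖ + ‖x‖ ^ 2 / 4))) (gs d) := by
  refine (integrable_const (1 : ℝ)).mono' (by fun_prop) (ae_of_all _ fun x => ?_)
  rw [Real.norm_of_nonneg (Real.exp_pos _).le, Real.exp_le_one_iff, neg_nonpos]
  positivity

lemma Z0_pos {B : ℝ} (hB : 0 ≤ B) : 0 < Z0 d B := integral_exp_pos (Z0_int hB)

lemma cube_le (y : ℝ) (hy : 0 ≤ y) : (1 + y) ^ 3 ≤ 18 * Real.exp y := by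
  have h1 := Real.pow_div_factorial_le_exp (1 + y) (by positivity) 3
  rw [Real.exp_add] at h1
  have h2 := Real.exp_one_lt_three
  have h3 := Real.exp_pos y
  simp only [Nat.factorial] at h1
  norm_num at h1
  nlinarith

lemma expW_int (h1 : Gau1 d) {W : E d → ℝ} {G : E d → E d} {B : ℝ} (hP : Pot W G)
    (hL : LipF (1 / 2) G) (hB : ‖G 0‖ ≤ B) :
    Integrable (fun x => Real.exp (-W x)) (gs d) := by
  have hc := pot_cont hP
  refine ((h1.big B).const_mul (Real.exp (-W 0))).mono' (by fun_prop) (ae_of_all _ fun x => ?_)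
  rw [Real.norm_of_nonneg (Real.exp_pos _).le, ← Real.exp_add, Real.exp_le_exp]
  have := abs_le.1 (W_bd hP hL hB x)
  nlinarith [sq_nonneg ‖x‖]

lemma dens_le (h1 : Gau1 d) {W : E d → ℝ} {G : E d → E d} {B : ℝ} (hP : Pot W G)
    (hL : LipF (1 / 2) G) (hB : ‖G 0‖ ≤ B) (x : E d) :
    Real.exp (-W x) / (∫ y, Real.exp (-W y) ∂gs d) ≤ Real.exp (B * ‖x‖ + ‖x‖ ^ 2 / 3) / Z0 d B := by
  have B0 : 0 ≤ B := (norm_nonneg _).trans hB
  have hZ : Real.exp (-W 0) * Z0 d B ≤ ∫ y, Real.exp (-W y) ∂gs d := by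
    unfold Z0
    rw [← integral_const_mul]
    refine integral_mono ((Z0_int B0).const_mul _) (expW_int h1 hP hL hB) fun y => ?_
    dsimp only
    rw [← Real.exp_add, Real.exp_le_exp]
    have := abs_le.1 (W_bd hP hL hB y)
    linarith [this.2]
  have z0 : 0 < Z0 d B := Z0_pos B0
  calc _ ≤ Real.exp (-W x) / (Real.exp (-W 0) * Z0 d B) := by gcongr
    _ = Real.exp (-W x - -W 0) / Z0 d B := by rw [Real.exp_sub]; field_simp
    _ ≤ _ := by
      gcongr
      have := abs_le.1 (W_bd hP hL hB x)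
      nlinarith [sq_nonneg ‖x‖]

lemma mom (h1 : Gau1 d) {W : E d → ℝ} {G : E d → E d} {B : ℝ} (hP : Pot W G)
    (hL : LipF (1 / 2) G) (hB : ‖G 0‖ ≤ B) :
    Integrable (fun x : E d => (1 + ‖x‖) ^ 3) (mu W) ∧ ∫ x, (1 + ‖x‖) ^ 3 ∂mu W ≤ K3 d B := by
  have B0 : 0 ≤ B := (norm_nonneg _).trans hB
  have z0 : 0 < Z0 d B := Z0_pos B0
  have hc := pot_cont hP
  have iK : Integrable (fun x : E d => 18 * Real.exp ((B + 1) * ‖x‖ + ‖x‖ ^ 2 / 3) / Z0 d B)
      (gs d) := ((h1.big (B + 1)).const_mul 18).div_const _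
  have hb : ∀ x : E d, (Real.exp (-W x) / (∫ y, Real.exp (-W y) ∂gs d)) * (1 + ‖x‖) ^ 3 ≤
      18 * Real.exp ((B + 1) * ‖x‖ + ‖x‖ ^ 2 / 3) / Z0 d B := by
    intro x
    calc _ ≤ (Real.exp (B * ‖x‖ + ‖x‖ ^ 2 / 3) / Z0 d B) * (18 * Real.exp ‖x‖) :=
          mul_le_mul (dens_le h1 hP hL hB x) (cube_le _ (norm_nonneg x)) (by positivity)
            (by positivity)
      _ = _ := by
          have : (B + 1) * ‖x‖ + ‖x‖ ^ 2 / 3 = (B * ‖x‖ + ‖x‖ ^ 2 / 3) + ‖x‖ := by ring
          rw [this, Real.exp_add _ ‖x‖]; ring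
  have zp : 0 < ∫ y, Real.exp (-W y) ∂gs d := integral_exp_pos (expW_int h1 hP hL hB)
  have i2 : Integrable (fun x : E d =>
      (Real.exp (-W x) / (∫ y, Real.exp (-W y) ∂gs d)) * (1 + ‖x‖) ^ 3) (gs d) :=
    iK.mono' (by fun_prop) (ae_of_all _ fun x => by
      rw [Real.norm_of_nonneg (by positivity)]; exact hb x)
  constructor
  · unfold mu
    rw [integrable_tilted_iff (expW_int h1 hP hL hB)]
    refine (i2.const_mul (∫ y, Real.exp (-W y) ∂gs d)).congr (ae_of_all _ fun x => ?_)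
    simp only [smul_eq_mul]
    field_simp
  · unfold mu K3
    rw [integral_tilted]
    exact integral_mono i2 iK hb

lemma flux_abs {X : Type} [MeasurableSpace X] (Γ : Measure (X × X))
    (hΓ : Γ.map Prod.swap = Γ) (f D U : X × X → ℝ) (mf : Measurable f)
    (hD : ∀ p, D p.swap = -D p) (hU : ∀ p, U p.swap = U p)
    (hb : ∀ p, |D p| * |f p - f p.swap| ≤ U p)
    (iD : Integrable D (Γ.withDensity fun p => ENNReal.ofReal (Real.exp (f p))))
    (iU : Integrable U (Γ.withDensity fun p => ENNReal.ofReal (Real.exp (f p)))) :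
    |∫ p, D p ∂Γ.withDensity fun p => ENNReal.ofReal (Real.exp (f p))| ≤
      ∫ p, U p ∂Γ.withDensity fun p => ENNReal.ofReal (Real.exp (f p)) := by
  have mF : Measurable fun p => ENNReal.ofReal (Real.exp (f p)) := by fun_prop
  have fin : ∀ᵐ p ∂Γ, ENNReal.ofReal (Real.exp (f p)) < ⊤ :=
    ae_of_all _ fun p => ENNReal.ofReal_lt_top
  rw [integrable_withDensity_iff_integrable_smul' mF fin] at iD iU
  rw [integral_withDensity_eq_integral_toReal_smul mF fin,
    integral_withDensity_eq_integral_toReal_smul mF fin]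
  simp only [ENNReal.toReal_ofReal (Real.exp_pos _).le, smul_eq_mul] at iD iU ⊢
  have mp : MeasurePreserving (MeasurableEquiv.prodComm : X × X ≃ᵐ X × X) Γ Γ :=
    ⟨measurable_swap, hΓ⟩
  have iD' : Integrable (fun p : X × X => Real.exp (f p.swap) * D p.swap) Γ :=
    (mp.integrable_comp_emb MeasurableEquiv.prodComm.measurableEmbedding).2 iD
  have iU' : Integrable (fun p : X × X => Real.exp (f p.swap) * U p.swap) Γ :=
    (mp.integrable_comp_emb MeasurableEquiv.prodComm.measurableEmbedding).2 iU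
  have eD : ∫ p, Real.exp (f p.swap) * D p.swap ∂Γ = ∫ p, Real.exp (f p) * D p ∂Γ :=
    mp.integral_comp' fun p => Real.exp (f p) * D p
  have eU : ∫ p, Real.exp (f p.swap) * U p.swap ∂Γ = ∫ p, Real.exp (f p) * U p ∂Γ :=
    mp.integral_comp' fun p => Real.exp (f p) * U p
  have key : |∫ p, (Real.exp (f p) * D p + Real.exp (f p.swap) * D p.swap) ∂Γ| ≤
      ∫ p, (Real.exp (f p) * U p + Real.exp (f p.swap) * U p.swap) ∂Γ := by
    refine abs_integral_le_integral_abs.trans (integral_mono (iD.add iD').abs (iU.add iU') ?_)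
    intro p
    dsimp only
    rw [hD, hU]
    have p1 := Real.exp_pos (f p)
    have p2 := Real.exp_pos (f p.swap)
    have e1 : |Real.exp (f p) - Real.exp (f p.swap)| ≤
        (Real.exp (f p) + Real.exp (f p.swap)) * |f p - f p.swap| := by
      have a1 := Real.add_one_le_exp (f p - f p.swap)
      have a2 := Real.add_one_le_exp (f p.swap - f p)
      rw [Real.exp_sub, le_div_iff₀ p2] at a1
      rw [Real.exp_sub, le_div_iff₀ p1] at a2
      have b1 := le_abs_self (f p - f p.swap)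
      have b2 := neg_abs_le (f p - f p.swap)
      have b0 := abs_nonneg (f p - f p.swap)
      rw [abs_le]
      constructor <;> nlinarith
    calc _ = |D p| * |Real.exp (f p) - Real.exp (f p.swap)| := by
          rw [← abs_mul]; congr 1; ring
      _ ≤ |D p| * ((Real.exp (f p) + Real.exp (f p.swap)) * |f p - f p.swap|) := by gcongr
      _ = (Real.exp (f p) + Real.exp (f p.swap)) * (|D p| * |f p - f p.swap|) := by ring
      _ ≤ (Real.exp (f p) + Real.exp (f p.swap)) * U p := by gcongr; exact hb p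
      _ = _ := by ring
  rw [integral_add iD iD', integral_add iU iU', eD, eU, ← two_mul, abs_mul, abs_two] at key
  linarith

end

end Vale.Agent.P347.Fluxm
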