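import Vale.Agent.P347.Spec

open MeasureTheory ProbabilityTheory Finset
open scoped RealInnerProductSpace ENNReal

namespace Vale.Agent.P347

noncomputable section

namespace G1m

/-- Gaussian integral constant -/
def II (d : ℕ) (b : ℝ) : ℝ := (Real.pi / b) ^ (d / 2 : ℝ)

theorem II_pos (d : ℕ) {b : ℝ} (hb : 0 < b) : 0 < II d b := by
  have := Real.pi_pos
  unfold II; positivity

theorem cint (d : ℕ) {b : ℝ} (hb : 0 < b) (c : ℂ) (w : E d) :
    ∫ v : E d, Complex.exp (-b * ‖v‖ ^ 2 + c * ⟪w, v⟫) =
      II d b * Complex.exp (c ^ 2 * ‖w‖ ^ 2 / (4 * b)) := by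
  have := Real.pi_pos
  rw [GaussianFourier.integral_cexp_neg_mul_sq_norm_add (by simpa using hb), II,
    Complex.ofReal_cpow (by positivity)]
  simp

theorem rint (d : ℕ) {b : ℝ} (hb : 0 < b) (w : E d) :
    ∫⁻ v : E d, ENNReal.ofReal (Real.exp (-b * ‖v‖ ^ 2 + ⟪w, v⟫)) =
      ENNReal.ofReal (II d b * Real.exp (‖w‖ ^ 2 / (4 * b))) := by
  have i := (GaussianFourier.integrable_cexp_neg_mul_sq_norm_add (b := b) (by simpa using hb) 1 w).norm
  have e := cint d hb 1 w
  simp only [one_mul, one_pow] at i e
  norm_cast at i e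
  simp only [Real.norm_eq_abs, Real.abs_exp] at i
  rw [← ofReal_integral_eq_lintegral_ofReal i (Filter.Eventually.of_forall fun _ => (Real.exp_pos _).le),
    ← e]

theorem dens (d : ℕ) : gs d = (volume : Measure (E d)).withDensity
    fun x => ENNReal.ofReal ((II d (1 / 2))⁻¹ * Real.exp (-‖x‖ ^ 2 / 2)) := by
  have p := II_pos d one_half_pos
  have : IsFiniteMeasure ((volume : Measure (E d)).withDensity
      fun x => ENNReal.ofReal ((II d (1 / 2))⁻¹ * Real.exp (-‖x‖ ^ 2 / 2))) := by
    refine isFiniteMeasure_withDensity ?_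
    have := rint d one_half_pos 0
    simp only [inner_zero_left, add_zero] at this
    simp only [ENNReal.ofReal_mul (inv_pos.2 p).le, show ∀ y : ℝ, -y / 2 = -(1 / 2) * y from
      fun y => by ring]
    rw [lintegral_const_mul _ (by fun_prop), this]
    exact ENNReal.mul_ne_top ENNReal.ofReal_ne_top ENNReal.ofReal_ne_top
  refine Measure.ext_of_charFun (funext fun t => ?_)
  rw [charFun_stdGaussian, charFun_apply, integral_withDensity_eq_integral_toReal_smul (by fun_prop)
    (Filter.Eventually.of_forall fun _ => ENNReal.ofReal_lt_top)]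
  have e := cint d one_half_pos Complex.I t
  have p' : ((II d (1 / 2) : ℝ) : ℂ) ≠ 0 := Complex.ofReal_ne_zero.2 p.ne'
  rw [integral_congr_ae (g := fun v : E d => ((II d (1 / 2) : ℝ) : ℂ)⁻¹ *
    Complex.exp (-(1 / 2 : ℝ) * ‖v‖ ^ 2 + Complex.I * ⟪t, v⟫)) (Filter.Eventually.of_forall fun v => by
      simp only
      rw [ENNReal.toReal_ofReal (by positivity), Complex.real_smul, Complex.exp_add, real_inner_comm]
      push_cast
      ring_nf), integral_const_mul, e, inv_mul_cancel_left₀ p', Complex.I_sq]
  congr 1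
  push_cast
  ring

theorem lint (d : ℕ) {s : ℝ} (hs : s < 1 / 2) (u : E d) :
    ∫⁻ x, ENNReal.ofReal (Real.exp (s * ‖x‖ ^ 2 + ⟪u, x⟫)) ∂gs d = ENNReal.ofReal
      ((II d (1 / 2))⁻¹ * (II d (1 / 2 - s) * Real.exp (‖u‖ ^ 2 / (4 * (1 / 2 - s))))) := by
  have p := II_pos d one_half_pos
  rw [dens, lintegral_withDensity_eq_lintegral_mul _ (by fun_prop) (by fun_prop),
    ENNReal.ofReal_mul (inv_pos.2 p).le, ← rint d (by linarith) u, ← lintegral_const_mul _ (by fun_prop)]
  refine lintegral_congr fun x => ?_
  rw [Pi.mul_apply, ← ENNReal.ofReal_mul (by positivity), ← ENNReal.ofReal_mul (by positivity),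
    mul_assoc, ← Real.exp_add]
  ring_nf

theorem der (p q : ℝ → ℝ) (h : ∀ t, HasDerivAt p (q t) t) :
    deriv (fun t => p t * Real.exp (t ^ 2 / 2)) = fun t => (q t + t * p t) * Real.exp (t ^ 2 / 2) := by
  ext t
  rw [((h t).fun_mul (((hasDerivAt_pow 2 t).div_const 2).exp)).deriv]
  norm_num
  ring

theorem mom : ∫ x, x ^ 2 ∂gaussianReal 0 1 = 1 ∧ ∫ x, x ^ 4 ∂gaussianReal 0 1 = 3 := by
  have h := iteratedDeriv_mgf_zero (X := fun x : ℝ => x) (μ := gaussianReal 0 1) (by simp)
  have e : mgf (fun x : ℝ => x) (gaussianReal 0 1) = fun t => 1 * Real.exp (t ^ 2 / 2) := by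
    rw [mgf_fun_id_gaussianReal]; simp
  have d1 := der (fun _ => 1) (fun _ => 0) fun t => hasDerivAt_const t 1
  have d2 := der (fun t => 0 + t * 1) (fun _ => 1) fun t => by simpa using hasDerivAt_id' t
  have d3 := der (fun t => 1 + t * (0 + t * 1)) (fun t => 2 * t) fun t => by
    simpa [← sq] using (hasDerivAt_pow 2 t).const_add 1
  have d4 := der (fun t => 2 * t + t * (1 + t * (0 + t * 1))) (fun t => 3 + 3 * t ^ 2) fun t => by
    have := ((hasDerivAt_id' t).const_mul 3).fun_add (hasDerivAt_pow 3 t)
    rw [show (fun t : ℝ => 2 * t + t * (1 + t * (0 + t * 1))) = fun t => 3 * t + t ^ 3 by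
      ext; ring]
    simpa using this
  have h2 := h 2
  have h4 := h 4
  simp only [iteratedDeriv_succ, iteratedDeriv_zero, e, d1, d2, d3, d4, Pi.pow_apply] at h2 h4
  rw [← h2, ← h4]
  norm_num

theorem coord (d : ℕ) (i : Fin d) (k : ℕ) :
    ∫ x, x i ^ k ∂gs d = ∫ x, x ^ k ∂gaussianReal 0 1 := by
  have := measurePreserving_eval_multivariateGaussian (μ := (0 : E d)) Matrix.PosSemidef.one (i := i)
  rw [multivariateGaussian_zero_one] at this
  simp only [PiLp.zero_apply, Matrix.one_apply_eq, Real.toNNReal_one] at this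
  rw [← this.map_eq, integral_map this.aemeasurable (by fun_prop)]

theorem i2 (d k : ℕ) : Integrable (fun x : E d => ‖x‖ ^ k) (gs d) := by
  rcases k.eq_zero_or_pos with rfl | h
  · simp
  · exact (IsGaussian.memLp_id (gs d) k (by simp)).integrable_norm_pow h.ne'

theorem ic (d : ℕ) (i : Fin d) (k : ℕ) : Integrable (fun x : E d => x i ^ k) (gs d) :=
  (i2 d k).mono' (by fun_prop) (Filter.Eventually.of_forall fun x => by
    rw [norm_pow]
    exact pow_le_pow_left₀ (norm_nonneg _) (PiLp.norm_apply_le x i) k)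

end G1m

open G1m in
theorem stmtG1 : StmtG1 := fun d => by
  have p := II_pos d one_half_pos
  refine ⟨fun u => ?_, fun a => ?_, fun s h0 h1 => ?_, fun B => ?_, i2 d, ?_, ?_,
    _, inv_pos.2 p, dens d⟩
  · have := lint d (s := 0) (by norm_num) u
    simp only [zero_mul, zero_add, sub_zero, inv_mul_cancel_left₀ p.ne'] at this
    rw [this]
    norm_num
  · ext s hs
    have m : Measurable fun x : E d => x + a := by fun_prop
    rw [← lintegral_indicator_one hs, ← lintegral_indicator_one hs,
      lintegral_map (measurable_one.indicator hs) m,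
      lintegral_withDensity_eq_lintegral_mul _ (by fun_prop) (measurable_one.indicator hs), dens,
      lintegral_withDensity_eq_lintegral_mul _ (by fun_prop)
        (g := fun x => s.indicator 1 (x + a)) ((measurable_one.indicator hs).comp m),
      lintegral_withDensity_eq_lintegral_mul _ (by fun_prop)
        (Measurable.mul (by fun_prop) (measurable_one.indicator hs)),
      ← lintegral_add_right_eq_self _ (-a)]
    refine lintegral_congr fun x => ?_
    simp only [Pi.mul_apply, neg_add_cancel_right]
    rw [← mul_assoc, ← ENNReal.ofReal_mul (by positivity), mul_assoc, ← Real.exp_add,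
      ← sub_eq_add_neg, norm_sub_sq_real, real_inner_comm]
    ring_nf
  · have := lint d (s := s) (by linarith) 0
    simp only [inner_zero_left, add_zero, norm_zero] at this
    rw [this]
    refine ENNReal.ofReal_le_ofReal ?_
    have q := Real.pi_pos
    have h2 : 0 < 1 / 2 - s := by linarith
    rw [inv_mul_le_iff₀ p, show 2 * s * d = 4 * s * (d / 2) by ring, Real.exp_mul, II, II,
      ← Real.mul_rpow (by positivity) (by positivity)]
    norm_num
    refine Real.rpow_le_rpow (by positivity) ?_ (by positivity)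
    rw [div_le_iff₀ (by linarith)]
    have := Real.add_one_le_exp (4 * s)
    have : 1 ≤ 2 * Real.exp (4 * s) * (1 / 2 - s) := by nlinarith
    nlinarith
  · have i : Integrable (fun x : E d => Real.exp (5 / 12 * ‖x‖ ^ 2)) (gs d) := by
      refine ⟨by fun_prop, (hasFiniteIntegral_iff_ofReal
        (Filter.Eventually.of_forall fun _ => (Real.exp_pos _).le)).2 ?_⟩
      have := lint d (s := 5 / 12) (by norm_num) 0
      simp only [inner_zero_left, add_zero] at this
      rw [this]
      exact ENNReal.ofReal_lt_top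
    refine (i.const_mul (Real.exp (3 * B ^ 2))).mono' (by fun_prop)
      (Filter.Eventually.of_forall fun x => ?_)
    rw [Real.norm_of_nonneg (Real.exp_pos _).le, ← Real.exp_add]
    exact Real.exp_le_exp.2 (by nlinarith [sq_nonneg (6 * B - ‖x‖)])
  · simp only [EuclideanSpace.real_norm_sq_eq]
    rw [integral_finsetSum _ fun i _ => ic d i 2]
    simp [coord, mom.1]
  · calc _ ≤ ∫ x : E d, d * ∑ i, x i ^ 4 ∂gs d := by
          refine integral_mono (i2 d 4) ((integrable_finsetSum _ fun i _ => ic d i 4).const_mul _)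
            fun x => ?_
          have := sq_sum_le_card_mul_sum_sq (s := (univ : Finset (Fin d))) (f := fun i => x i ^ 2)
          simp only [← pow_mul, Finset.card_univ, Fintype.card_fin] at this
          simp only
          rwa [show 4 = 2 * 2 from rfl, pow_mul, EuclideanSpace.real_norm_sq_eq]
      _ = _ := by
          rw [integral_const_mul, integral_finsetSum _ fun i _ => ic d i 4]
          simp [coord, mom.2]
          ring

end

end Vale.Agent.P347
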