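import Vale.Agent.P347.Spec

open MeasureTheory ProbabilityTheory Finset
open scoped RealInnerProductSpace ENNReal

namespace Vale.Agent.P347

noncomputable section

namespace G2m

variable {d : ℕ}

theorem ext2 {Ω : Type} [MeasurableSpace Ω] (μ : Measure Ω) [IsFiniteMeasure μ]
    {f g : Ω → E d × E d} (hf : Measurable f) (hg : Measurable g)
    (h : ∀ u v : E d, ∫ z, Complex.exp ((⟪u, (f z).1⟫ + ⟪v, (f z).2⟫ : ℝ) * Complex.I) ∂μ =
      ∫ z, Complex.exp ((⟪u, (g z).1⟫ + ⟪v, (g z).2⟫ : ℝ) * Complex.I) ∂μ) : μ.map f = μ.map g := by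
  refine Measure.ext_of_charFunDual (funext fun L => ?_)
  have e : ∀ p : E d × E d, L p = ⟪(InnerProductSpace.toDual ℝ (E d)).symm
      (L.comp (ContinuousLinearMap.inl ℝ _ _)), p.1⟫ + ⟪(InnerProductSpace.toDual ℝ (E d)).symm
      (L.comp (ContinuousLinearMap.inr ℝ _ _)), p.2⟫ := fun p => by
    simp [← map_add]
  rw [charFunDual_apply, charFunDual_apply, integral_map hf.aemeasurable (by fun_prop),
    integral_map hg.aemeasurable (by fun_prop)]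
  simp only [e, h]

theorem c1 (p : E d) : ∫ z, Complex.exp ((⟪p, z⟫ : ℝ) * Complex.I) ∂gs d =
    Complex.exp (-‖p‖ ^ 2 / 2) := by
  rw [← charFun_stdGaussian, charFun_apply]
  simp only [real_inner_comm]

theorem c2 (p q : E d) : ∫ z, Complex.exp ((⟪p, z.1⟫ + ⟪q, z.2⟫ : ℝ) * Complex.I) ∂(gs d).prod (gs d) =
    Complex.exp (-((‖p‖ ^ 2 + ‖q‖ ^ 2 : ℝ) / 2)) := by
  simp only [Complex.ofReal_add, add_mul, Complex.exp_add]
  rw [integral_prod_mul (fun z : E d => Complex.exp ((⟪p, z⟫ : ℝ) * Complex.I))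
    fun z : E d => Complex.exp ((⟪q, z⟫ : ℝ) * Complex.I), c1, c1, ← Complex.exp_add]
  push_cast
  ring_nf

theorem c3 (p q r : E d) :
    ∫ z, Complex.exp ((⟪p, z.1⟫ + (⟪q, z.2.1⟫ + ⟪r, z.2.2⟫) : ℝ) * Complex.I) ∂g3 d =
    Complex.exp (-((‖p‖ ^ 2 + ‖q‖ ^ 2 + ‖r‖ ^ 2 : ℝ) / 2)) := by
  simp only [Complex.ofReal_add ⟪p, _⟫, add_mul, Complex.exp_add]
  rw [integral_prod_mul (fun z : E d => Complex.exp ((⟪p, z⟫ : ℝ) * Complex.I))
    fun z : E d × E d => Complex.exp ((⟪q, z.1⟫ + ⟪r, z.2⟫ : ℝ) * Complex.I), c1, c2,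
    ← Complex.exp_add]
  push_cast
  ring_nf

theorem nsq (a b : ℝ) (u v : E d) :
    ‖a • u + b • v‖ ^ 2 = a ^ 2 * ‖u‖ ^ 2 + 2 * (a * b) * ⟪u, v⟫ + b ^ 2 * ‖v‖ ^ 2 := by
  rw [norm_add_sq_real, norm_smul, norm_smul, mul_pow, mul_pow, Real.norm_eq_abs, Real.norm_eq_abs,
    sq_abs, sq_abs, real_inner_smul_left, real_inner_smul_right]
  ring

theorem pair2 (a1 a2 b1 b2 c1 c2 d1 d2 : ℝ) (h1 : a1 ^ 2 + a2 ^ 2 = c1 ^ 2 + c2 ^ 2)
    (h2 : b1 ^ 2 + b2 ^ 2 = d1 ^ 2 + d2 ^ 2) (h3 : a1 * b1 + a2 * b2 = c1 * d1 + c2 * d2) :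
    ((gs d).prod (gs d)).map (fun z => (a1 • z.1 + a2 • z.2, b1 • z.1 + b2 • z.2)) =
    ((gs d).prod (gs d)).map (fun z => (c1 • z.1 + c2 • z.2, d1 • z.1 + d2 • z.2)) := by
  refine ext2 _ (by fun_prop) (by fun_prop) fun u v => ?_
  have e : ∀ (a1 a2 b1 b2 : ℝ) (z : E d × E d), ⟪u, a1 • z.1 + a2 • z.2⟫ + ⟪v, b1 • z.1 + b2 • z.2⟫ =
      ⟪a1 • u + b1 • v, z.1⟫ + ⟪a2 • u + b2 • v, z.2⟫ := fun _ _ _ _ _ => by
    simp only [inner_add_left, inner_add_right, real_inner_smul_left, real_inner_smul_right]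
    ring
  simp only [e, G2m.c2, nsq]
  congr 4
  linear_combination ‖u‖ ^ 2 * h1 + ‖v‖ ^ 2 * h2 + 2 * ⟪u, v⟫ * h3

theorem mgfI (h : Gau1 d) (u : E d) : Integrable (fun x => Real.exp ⟪u, x⟫) (gs d) ∧
    ∫ x, Real.exp ⟪u, x⟫ ∂gs d = Real.exp (‖u‖ ^ 2 / 2) := by
  have n : 0 ≤ᵐ[gs d] fun x => Real.exp ⟪u, x⟫ :=
    Filter.Eventually.of_forall fun _ => (Real.exp_pos _).le
  refine ⟨⟨by fun_prop, (hasFiniteIntegral_iff_ofReal n).2 ?_⟩, ?_⟩
  · rw [h.mgf]; exact ENNReal.ofReal_lt_top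
  · rw [integral_eq_lintegral_of_nonneg_ae n (by fun_prop), h.mgf,
      ENNReal.toReal_ofReal (Real.exp_pos _).le]

theorem shift (h : Gau1 d) (a : E d) (ψ : E d → ℝ) (hm : Measurable ψ) (hb : ∀ z, |ψ z| ≤ 1) :
    |∫ g, ψ (g + a) ∂gs d - ∫ g, ψ g ∂gs d| ≤ 2 * ‖a‖ := by
  have bd : ∀ f : E d → ℝ, (∀ z, |f z| ≤ 1) → |∫ g, f g ∂gs d| ≤ 1 := fun f hf => by
    simpa using norm_integral_le_of_norm_le_const (μ := gs d) (f := f) (C := 1)
      (Filter.Eventually.of_forall hf)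
  by_cases r1 : 1 ≤ ‖a‖
  · exact (abs_sub _ _).trans (by linarith [bd _ hb, bd (fun g => ψ (g + a)) fun _ => hb _])
  rcases eq_or_ne a 0 with rfl | a0
  · simp
  have r0 : 0 < ‖a‖ := norm_pos_iff.2 a0
  obtain ⟨i1, e1⟩ := mgfI h a
  obtain ⟨i2, e2⟩ := mgfI h ((2 : ℝ) • a)
  set c := Real.exp (-(‖a‖ ^ 2 / 2)) with hc
  have ib : ∀ f : E d → ℝ, Integrable f (gs d) → Integrable (fun g => f g * ψ g) (gs d) :=
    fun f hf => hf.mul_bdd hm.aestronglyMeasurable (Filter.Eventually.of_forall hb)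
  have e : ∫ g, ψ (g + a) ∂gs d - ∫ g, ψ g ∂gs d = ∫ g, (c * Real.exp ⟪a, g⟫ - 1) * ψ g ∂gs d := by
    rw [← integral_map (f := ψ) (φ := fun g => g + a) (by fun_prop) hm.aestronglyMeasurable, h.cm,
      integral_withDensity_eq_integral_toReal_smul (by fun_prop)
        (Filter.Eventually.of_forall fun _ => ENNReal.ofReal_lt_top)]
    simp only [sub_mul]
    rw [integral_sub (ib _ (i1.const_mul c)) (ib _ (integrable_const 1))]
    simp only [ENNReal.toReal_ofReal (Real.exp_pos _).le, smul_eq_mul, one_mul, hc, ← Real.exp_add,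
      neg_add_eq_sub]
  have i3 : Integrable (fun g => c ^ 2 * Real.exp ⟪(2 : ℝ) • a, g⟫ - 2 * c * Real.exp ⟪a, g⟫) (gs d) :=
    (i2.const_mul _).sub (i1.const_mul _)
  have i4 : Integrable (fun g => c ^ 2 * Real.exp ⟪(2 : ℝ) • a, g⟫ - 2 * c * Real.exp ⟪a, g⟫ + 1)
      (gs d) := i3.add (integrable_const 1)
  rw [e, ← Real.norm_eq_abs]
  refine (norm_integral_le_of_norm_le (g := fun g => ‖a‖ / 2 + (2 * ‖a‖)⁻¹ *
    (c ^ 2 * Real.exp ⟪(2 : ℝ) • a, g⟫ - 2 * c * Real.exp ⟪a, g⟫ + 1))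
    ((integrable_const _).add (i4.const_mul _))
    (Filter.Eventually.of_forall fun g => ?_)).trans ?_
  · rw [real_inner_smul_left, two_mul ⟪a, g⟫, Real.exp_add, norm_mul]
    refine (mul_le_of_le_one_right (norm_nonneg _) (hb g)).trans ?_
    rw [show c ^ 2 * (Real.exp ⟪a, g⟫ * Real.exp ⟪a, g⟫) - 2 * c * Real.exp ⟪a, g⟫ + 1 =
      (c * Real.exp ⟪a, g⟫ - 1) ^ 2 by ring, Real.norm_eq_abs, ← sq_abs]
    generalize |c * Real.exp ⟪a, g⟫ - 1| = y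
    rw [← sub_nonneg, show ‖a‖ / 2 + (2 * ‖a‖)⁻¹ * y ^ 2 - y = (2 * ‖a‖)⁻¹ * (y - ‖a‖) ^ 2 by
      field_simp; ring]
    positivity
  · rw [integral_add (integrable_const _) (i4.const_mul _),
      integral_const_mul, integral_add i3 (integrable_const 1),
      integral_sub (i2.const_mul _) (i1.const_mul _), integral_const_mul, integral_const_mul, e1, e2,
      mul_assoc 2 c, hc, ← Real.exp_nat_mul, ← Real.exp_add, ← Real.exp_add, norm_smul]
    have := Real.abs_exp_sub_one_le (x := ‖a‖ ^ 2) (by rw [abs_of_nonneg (by positivity)]; nlinarith)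
    rw [abs_of_nonneg (sq_nonneg ‖a‖), abs_le] at this
    rw [show ((2 : ℕ) : ℝ) * -(‖a‖ ^ 2 / 2) + (‖(2 : ℝ)‖ * ‖a‖) ^ 2 / 2 = ‖a‖ ^ 2 by
      rw [Real.norm_ofNat]; push_cast; ring]
    simp only [neg_add_cancel, Real.exp_zero, integral_const, probReal_univ, smul_eq_mul, one_mul]
    have h2 : (2 * ‖a‖)⁻¹ * (Real.exp (‖a‖ ^ 2) - 2 * 1 + 1) ≤ ‖a‖ := by
      rw [inv_mul_le_iff₀ (by positivity)]
      linarith [this.2]
    linarith

end G2m

open G2m in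
theorem stmtG2 (h1 : StmtG1) : StmtG2 := fun d => by
  refine ⟨fun a b h => ?_, fun a b => ?_, fun ρ h => ?_,
    fun a1 a2 a3 b1 b2 b3 c1 c2 c3 d1 d2 d3 h1 h2 h3 => ?_, fun t x y φ ht hm hb => ?_⟩
  · rw [pair2 a b (-b) a 1 0 0 1 (by linarith) (by linarith) (by ring)]
    simp
  · have := congrArg (Measure.map Prod.fst) (pair2 (d := d) a b 0 0 √(a ^ 2 + b ^ 2) 0 0 0
      (by rw [Real.sq_sqrt (by positivity)]; ring) rfl (by ring))
    rw [Measure.map_map measurable_fst (by fun_prop), Measure.map_map measurable_fst (by fun_prop)]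
      at this
    refine this.trans ?_
    conv_rhs => rw [← Measure.fst_prod (μ := gs d) (ν := gs d), Measure.fst,
      Measure.map_map (by fun_prop) measurable_fst]
    simp [Function.comp_def]
  · have s : sg ρ ^ 2 = 1 - ρ ^ 2 := Real.sq_sqrt (by linarith)
    simpa using pair2 (d := d) 1 0 ρ (sg ρ) ρ (sg ρ) 1 0 (by linarith) (by linarith) (by ring)
  · refine ext2 _ (by fun_prop) (by fun_prop) fun u v => ?_
    have e : ∀ (a1 a2 a3 b1 b2 b3 : ℝ) (z : E d × E d × E d),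
        ⟪u, a1 • z.1 + a2 • z.2.1 + a3 • z.2.2⟫ + ⟪v, b1 • z.1 + b2 • z.2.1 + b3 • z.2.2⟫ =
        ⟪a1 • u + b1 • v, z.1⟫ + (⟪a2 • u + b2 • v, z.2.1⟫ + ⟪a3 • u + b3 • v, z.2.2⟫) :=
      fun _ _ _ _ _ _ _ => by
        simp only [inner_add_left, inner_add_right, real_inner_smul_left, real_inner_smul_right]
        ring
    simp only [e, G2m.c3, nsq]
    congr 4
    linear_combination ‖u‖ ^ 2 * h1 + ‖v‖ ^ 2 * h2 + 2 * ⟪u, v⟫ * h3
  · have := shift (h1 d) (t⁻¹ • (x - y)) (fun g => φ (y + t • g)) (by fun_prop) fun _ => hb _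
    simp only [smul_add, smul_inv_smul₀ ht.ne', norm_smul, norm_inv, Real.norm_of_nonneg ht.le] at this
    simp only [show ∀ g : E d, y + (t • g + (x - y)) = x + t • g from fun g => by abel] at this
    exact this.trans_eq (by ring)

end

end Vale.Agent.P347
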