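import Vale.Agent.P347.Spec

/-! Gaussian concentration for Lipschitz functions (discrete rotation and Rademacher). -/

open MeasureTheory ProbabilityTheory Finset Filter Topology
open scoped RealInnerProductSpace ENNReal

namespace Vale.Agent.P347

namespace GCm

variable {d : ℕ}

theorem intE (h1 : Gau1 d) (B : ℝ) : Integrable (fun x : E d => Real.exp (B * ‖x‖)) (gs d) :=
  (h1.big B).mono' (by fun_prop) (Eventually.of_forall fun x => by
    rw [Real.norm_of_nonneg (Real.exp_pos _).le]
    exact Real.exp_le_exp.2 (le_add_of_nonneg_right (by positivity)))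

theorem jensen (h1 : Gau1 d) {K : ℝ} {F : E d → ℝ} (hK : 0 ≤ K) (hF : LipF K F)
    (hc : Continuous F) (x : E d) : ENNReal.ofReal (Real.exp (F x - ∫ y, F y ∂gs d)) ≤
      ∫⁻ y, ENNReal.ofReal (Real.exp (F x - F y)) ∂gs d := by
  have i1 : Integrable F (gs d) := by
    refine ((integrable_const ‖F 0‖).add ((h1.i2 1).const_mul K)).mono' hc.aestronglyMeasurable
      (Eventually.of_forall fun y => ?_)
    have := hF y 0
    have := norm_le_norm_add_norm_sub' (F y) (F 0)
    simp only [Pi.add_apply, pow_one, sub_zero] at *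
    linarith
  have i2 : Integrable (fun y => Real.exp (F x - F y)) (gs d) := by
    refine ((intE h1 K).const_mul (Real.exp (K * ‖x‖))).mono' (by fun_prop)
      (Eventually.of_forall fun y => ?_)
    rw [Real.norm_of_nonneg (Real.exp_pos _).le, ← Real.exp_add, ← mul_add]
    exact Real.exp_le_exp.2 ((le_abs_self _).trans ((hF x y).trans
      (mul_le_mul_of_nonneg_left (norm_sub_le _ _) hK)))
  rw [← ofReal_integral_eq_lintegral_ofReal i2 (Eventually.of_forall fun y => (Real.exp_pos _).le)]
  refine ENNReal.ofReal_le_ofReal ?_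
  have := convexOn_exp.map_integral_le (μ := gs d) (f := fun y => F x - F y)
    Real.continuous_exp.continuousOn isClosed_univ (Eventually.of_forall fun _ => trivial)
    ((integrable_const _).sub i1) i2
  rwa [integral_sub (integrable_const _) i1, integral_const, probReal_univ, one_smul] at this

/-- the discrete rotation step -/
theorem rot (h2 : Gau2 d) {F : E d → ℝ} (hc : Continuous F) (n : ℕ) (δ : ℝ)
    (h : (n + 1 : ℝ) * δ = Real.pi / 2) :
    ∫⁻ p, ENNReal.ofReal (Real.exp (F p.2 - F p.1)) ∂(gs d).prod (gs d) ≤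
      ∫⁻ p, ENNReal.ofReal (Real.exp ((n + 1) *
        (F (Real.cos δ • p.1 + Real.sin δ • p.2) - F p.1))) ∂(gs d).prod (gs d) := by
  set g : E d × E d → ℝ≥0∞ := fun p => ENNReal.ofReal (Real.exp ((n + 1) *
    (F (Real.cos δ • p.1 + Real.sin δ • p.2) - F p.1))) with hg
  have mg : Measurable g := ENNReal.measurable_ofReal.comp (Continuous.measurable (by fun_prop))
  set R : ℕ → E d × E d → E d × E d := fun k p =>
    (Real.cos (k * δ) • p.1 + Real.sin (k * δ) • p.2,
      -Real.sin (k * δ) • p.1 + Real.cos (k * δ) • p.2) with hR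
  have mR : ∀ k, Measurable (R k) := fun k => Continuous.measurable (by fun_prop)
  have e : ∀ k, ∫⁻ p, g (R k p) ∂(gs d).prod (gs d) = ∫⁻ p, g p ∂(gs d).prod (gs d) := fun k => by
    rw [← lintegral_map mg (mR k), hR, h2.rot _ _ (Real.cos_sq_add_sin_sq _)]
  have n0 : (0 : ℝ) < n + 1 := by positivity
  calc _ ≤ ∫⁻ p, ∑ k ∈ range (n + 1), ENNReal.ofReal (n + 1 : ℝ)⁻¹ * g (R k p)
        ∂(gs d).prod (gs d) := lintegral_mono fun p => by
        set a : ℕ → ℝ := fun k => F (Real.cos (k * δ) • p.1 + Real.sin (k * δ) • p.2) with ha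
        have e1 : ∀ k, g (R k p) = ENNReal.ofReal (Real.exp ((n + 1) * (a (k + 1) - a k))) := by
          intro k
          simp only [hg, hR, ha]
          congr 5
          rw [Nat.cast_succ, add_mul, one_mul, Real.cos_add, Real.sin_add]
          module
        have e2 : F p.2 - F p.1 =
            ∑ k ∈ range (n + 1), (n + 1 : ℝ)⁻¹ • ((n + 1) * (a (k + 1) - a k)) := by
          simp only [smul_eq_mul, inv_mul_cancel_left₀ n0.ne']
          rw [sum_range_sub]
          simp only [ha]
          rw [Nat.cast_succ, h]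
          simp
        simp only [e1, ← ENNReal.ofReal_mul (inv_pos.2 n0).le]
        rw [← ENNReal.ofReal_sum_of_nonneg fun _ _ => by positivity, e2]
        exact ENNReal.ofReal_le_ofReal (convexOn_exp.map_sum_le (fun _ _ => by positivity)
          (by simp [n0.ne']) fun _ _ => trivial)
    _ = _ := by
        have m : ∀ k, Measurable fun p => g (R k p) := fun k => mg.comp (mR k)
        rw [lintegral_finsetSum _ fun k _ => (m k).const_mul _]
        simp only [lintegral_const_mul _ (m _), e]
        rw [sum_const, card_range, nsmul_eq_mul, ← mul_assoc, ← ENNReal.ofReal_natCast,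
          ← ENNReal.ofReal_mul (by positivity), Nat.cast_succ, mul_inv_cancel₀ n0.ne']
        simp

end GCm

open GCm in
theorem stmtGC (h1 : StmtG1) (h2 : StmtG2) : StmtGC := by
  intro d K F hK hF
  have hL : LipschitzWith ⟨K, hK⟩ F := LipschitzWith.of_dist_le_mul fun x y => by
    rw [dist_eq_norm, dist_eq_norm]; exact hF x y
  have hc := hL.continuous
  set δ : ℕ → ℝ := fun n => Real.pi / 2 / (n + 1) with hδ
  have δ0 : ∀ n, 0 < δ n := fun n => by have := Real.pi_pos; positivity
  have δ1 : ∀ n : ℕ, (n + 1 : ℝ) * δ n = Real.pi / 2 := fun n => mul_div_cancel₀ _ (by positivity)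
  have ae : ∀ᵐ x ∂gs d, DifferentiableAt ℝ F x := by
    obtain ⟨c, -, h⟩ := (h1 d).dens
    rw [h]
    exact (withDensity_absolutelyContinuous _ _).ae_le hL.ae_differentiableAt
  have lim := tendsto_lintegral_of_dominated_convergence (μ := (gs d).prod (gs d))
    (F := fun n p => ENNReal.ofReal (Real.exp ((n + 1) *
      (F (Real.cos (δ n) • p.1 + Real.sin (δ n) • p.2) - F p.1))))
    (f := fun p => ENNReal.ofReal (Real.exp (Real.pi / 2 * fderiv ℝ F p.1 p.2)))
    (fun p => ENNReal.ofReal (Real.exp (Real.pi / 2 * K * ‖p.1‖) *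
      Real.exp (Real.pi / 2 * K * ‖p.2‖)))
    (fun n => ENNReal.measurable_ofReal.comp (Continuous.measurable (by fun_prop)))
    (fun n => Eventually.of_forall fun p => ENNReal.ofReal_le_ofReal (by
      rw [← Real.exp_add, ← δ1 n]
      refine Real.exp_le_exp.2 ?_
      have a1 := (le_abs_self _).trans (hF (Real.cos (δ n) • p.1 + Real.sin (δ n) • p.2) p.1)
      have a2 : ‖Real.cos (δ n) • p.1 + Real.sin (δ n) • p.2 - p.1‖ ≤
          δ n * ‖p.1‖ + δ n * ‖p.2‖ := by
        rw [show Real.cos (δ n) • p.1 + Real.sin (δ n) • p.2 - p.1 =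
          (Real.cos (δ n) - Real.cos 0) • p.1 + Real.sin (δ n) • p.2 by
            rw [Real.cos_zero]; module]
        refine (norm_add_le _ _).trans ?_
        rw [norm_smul, norm_smul]
        have b1 := Real.abs_cos_sub_cos_le (δ n) 0
        have b2 := Real.abs_sin_le_abs (x := δ n)
        rw [sub_zero] at b1
        rw [abs_of_pos (δ0 n)] at b1 b2
        gcongr <;> assumption
      calc _ ≤ (n + 1 : ℝ) * (K * (δ n * ‖p.1‖ + δ n * ‖p.2‖)) := by
            gcongr; exact a1.trans (mul_le_mul_of_nonneg_left a2 hK)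
        _ = _ := by ring))
    ((intE (h1 d) _).mul_prod (intE (h1 d) _)).lintegral_lt_top.ne (by
      filter_upwards [Measure.quasiMeasurePreserving_fst.ae ae] with p hp
      refine (ENNReal.continuous_ofReal.tendsto _).comp ((Real.continuous_exp.tendsto _).comp ?_)
      have a1 : HasDerivAt (fun t => Real.cos t • p.1 + Real.sin t • p.2) p.2 0 := by
        have := ((Real.hasDerivAt_cos 0).smul_const p.1).fun_add
          ((Real.hasDerivAt_sin 0).smul_const p.2)
        rwa [Real.sin_zero, Real.cos_zero, neg_zero, zero_smul, zero_add, one_smul] at this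
      have a2 := (hp.hasFDerivAt.comp_hasDerivAt_of_eq 0 a1 (by simp)).tendsto_slope_zero_right
      have a3 : Tendsto δ atTop (𝓝[>] 0) := tendsto_nhdsWithin_iff.2
        ⟨tendsto_const_nhds.div_atTop (tendsto_natCast_atTop_atTop.atTop_add tendsto_const_nhds),
          Eventually.of_forall δ0⟩
      refine ((a2.comp a3).const_mul (Real.pi / 2)).congr fun n => ?_
      simp only [Function.comp, zero_add, Real.cos_zero, Real.sin_zero, one_smul, zero_smul,
        add_zero, smul_eq_mul]
      rw [← δ1 n, mul_assoc, mul_inv_cancel_left₀ (δ0 n).ne'])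
  calc _ ≤ ∫⁻ x, ∫⁻ y, ENNReal.ofReal (Real.exp (F x - F y)) ∂gs d ∂gs d :=
        lintegral_mono fun x => jensen (h1 d) hK hF hc x
    _ = ∫⁻ p, ENNReal.ofReal (Real.exp (F p.2 - F p.1)) ∂(gs d).prod (gs d) :=
        (lintegral_prod_symm (fun p : E d × E d => ENNReal.ofReal (Real.exp (F p.2 - F p.1)))
          (ENNReal.measurable_ofReal.comp (Continuous.measurable (by fun_prop))).aemeasurable).symm
    _ ≤ _ := ge_of_tendsto' lim fun n => rot (h2 d) hc n _ (δ1 n)
    _ ≤ ∫⁻ x, ∫⁻ y, ENNReal.ofReal (Real.exp (Real.pi / 2 * fderiv ℝ F x y)) ∂gs d ∂gs d :=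
        lintegral_prod_le _
    _ ≤ ∫⁻ _x, ENNReal.ofReal (Real.exp (2 * K ^ 2)) ∂gs d := lintegral_mono fun x => by
        have e : ∀ y, Real.pi / 2 * fderiv ℝ F x y = ⟪(Real.pi / 2) • gradient F x, y⟫ := fun y => by
          rw [real_inner_smul_left, gradient, InnerProductSpace.toDual_symm_apply]
        simp only [e]
        rw [(h1 d).mgf]
        refine ENNReal.ofReal_le_ofReal (Real.exp_le_exp.2 ?_)
        have a1 : ‖gradient F x‖ ≤ K := by
          rw [gradient, LinearIsometryEquiv.norm_map]
          exact norm_fderiv_le_of_lipschitz ℝ hL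
        have a2 : ‖(Real.pi / 2) • gradient F x‖ ≤ 2 * K := by
          rw [norm_smul, Real.norm_of_nonneg (by positivity)]
          exact mul_le_mul (by linarith [Real.pi_le_four]) a1 (norm_nonneg _) (by norm_num)
        nlinarith [norm_nonneg ((Real.pi / 2) • gradient F x)]
    _ = _ := by simp

end Vale.Agent.P347
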