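import Vale.Agent.P347.Spec

open MeasureTheory ProbabilityTheory Finset
open scoped RealInnerProductSpace ENNReal

namespace Vale.Agent.P347

namespace GCTm

variable {d : ℕ}

theorem tl {N : ℕ} {K : Fin (N + 1) → ℝ} {F : (Fin (N + 1) → E d) → ℝ}
    (h : ∀ g r x, |F (Function.update g r x) - F g| ≤ K r * ‖x - g r‖) (y : E d)
    (g : Fin N → E d) (r : Fin N) (x : E d) :
    |F (Fin.cons y (Function.update g r x)) - F (Fin.cons y g)| ≤ K r.succ * ‖x - g r‖ := by
  rw [Fin.cons_update]
  exact h _ _ _

theorem hd {N : ℕ} {K : Fin (N + 1) → ℝ} {F : (Fin (N + 1) → E d) → ℝ}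
    (h : ∀ g r x, |F (Function.update g r x) - F g| ≤ K r * ‖x - g r‖) (x y : E d)
    (g : Fin N → E d) : |F (Fin.cons x g) - F (Fin.cons y g)| ≤ K 0 * ‖x - y‖ := by
  have := h (Fin.cons y g) 0 x
  rwa [Fin.update_cons_zero] at this

theorem glob (N : ℕ) : ∀ (K : Fin N → ℝ) (F : (Fin N → E d) → ℝ),
    (∀ g r x, |F (Function.update g r x) - F g| ≤ K r * ‖x - g r‖) →
    ∀ g g', |F g - F g'| ≤ ∑ r, K r * ‖g r - g' r‖ := by
  induction N with
  | zero => intro K F _ g g'; simp [Subsingleton.elim g g']
  | succ N ih =>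
    intro K F h g g'
    have h1 := hd h (g 0) (g' 0) (Fin.tail g)
    have h2 := ih (fun r => K r.succ) (fun t => F (Fin.cons (g' 0) t)) (tl h (g' 0))
      (Fin.tail g) (Fin.tail g')
    rw [Fin.cons_self_tail] at h1 h2
    rw [Fin.sum_univ_succ]
    exact (abs_sub_le _ _ _).trans (add_le_add h1 h2)

theorem cont {N : ℕ} {K : Fin N → ℝ} {F : (Fin N → E d) → ℝ}
    (h : ∀ g r x, |F (Function.update g r x) - F g| ≤ K r * ‖x - g r‖) : Continuous F := by
  refine continuous_iff_continuousAt.2 fun g => tendsto_iff_norm_sub_tendsto_zero.2 ?_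
  refine squeeze_zero (fun _ => norm_nonneg _) (fun g' => glob N K F h g' g) ?_
  have c : Continuous fun g' : Fin N → E d => ∑ r, K r * ‖g' r - g r‖ := by fun_prop
  simpa using c.tendsto g

theorem int (h1 : StmtG1) {N : ℕ} {K : Fin N → ℝ} {F : (Fin N → E d) → ℝ}
    (h : ∀ g r x, |F (Function.update g r x) - F g| ≤ K r * ‖x - g r‖) :
    Integrable F (gN d N) := by
  have a : ∀ r : Fin N, Integrable (fun g : Fin N → E d => K r * ‖g r‖) (gN d N) := fun r =>
    ((measurePreserving_eval (fun _ : Fin N => gs d) r).integrable_comp_of_integrable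
      (by simpa using (h1 d).i2 1 : Integrable (fun x : E d => ‖x‖) (gs d))).const_mul _
  refine ((integrable_const |F 0|).add (integrable_finsetSum univ fun r _ => a r)).mono'
    (cont h).aestronglyMeasurable (ae_of_all _ fun g => ?_)
  have b := glob N K F h g 0
  simp only [Pi.zero_apply, sub_zero] at b
  have c := abs_add_le (F g - F 0) (F 0)
  rw [sub_add_cancel] at c
  exact c.trans (by simp only [Pi.add_apply]; linarith)

theorem mp (d N : ℕ) : MeasurePreserving
    (fun p : E d × (Fin N → E d) => (Fin.cons p.1 p.2 : Fin (N + 1) → E d))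
    ((gs d).prod (gN d N)) (gN d (N + 1)) := by
  have h := (measurePreserving_piFinSuccAbove (fun _ : Fin (N + 1) => gs d) 0).symm
  have e : ⇑(MeasurableEquiv.piFinSuccAbove (fun _ : Fin (N + 1) => E d) 0).symm =
      fun p : E d × (Fin N → E d) => (Fin.cons p.1 p.2 : Fin (N + 1) → E d) :=
    funext fun p => Fin.insertNth_zero' p.1 p.2
  rw [e] at h
  exact h

end GCTm

open GCTm in
theorem stmtGCT (h1 : StmtG1) (hGC : StmtGC) : StmtGCT := by
  intro d N
  induction N with
  | zero =>
    intro K F _ _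
    have e : ∀ g, F g = F 0 := fun g => by rw [Subsingleton.elim g 0]
    simp [e]
  | succ N ih =>
    intro K F hK h
    have c := cont h
    have ip : Integrable (fun p : E d × (Fin N → E d) => F (Fin.cons p.1 p.2))
        ((gs d).prod (gN d N)) := (mp d N).integrable_comp_of_integrable (int h1 h)
    have e : ∫ y, F y ∂gN d (N + 1) = ∫ x, ∫ g, F (Fin.cons x g) ∂gN d N ∂gs d := by
      rw [← (mp d N).map_eq,
        integral_map (mp d N).measurable.aemeasurable c.aestronglyMeasurable, integral_prod _ ip]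
    have hL : LipF (K 0) fun x : E d => ∫ g, F (Fin.cons x g) ∂gN d N := fun x y => by
      rw [← integral_sub (int h1 (tl h x)) (int h1 (tl h y))]
      simpa using norm_integral_le_of_norm_le_const (μ := gN d N)
        (f := fun g => F (Fin.cons x g) - F (Fin.cons y g)) (ae_of_all _ fun g => hd h x y g)
    have m : Measurable fun g => ENNReal.ofReal (Real.exp (F g - ∫ y, F y ∂gN d (N + 1))) :=
      (Real.continuous_exp.comp (c.sub continuous_const)).measurable.ennreal_ofReal
    have m2 : Measurable fun p : E d × (Fin N → E d) =>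
        ENNReal.ofReal (Real.exp (F (Fin.cons p.1 p.2) - ∫ y, F y ∂gN d (N + 1))) :=
      m.comp (mp d N).measurable
    rw [← (mp d N).lintegral_comp m, lintegral_prod _ m2.aemeasurable, e,
      Fin.sum_univ_succ, mul_add, Real.exp_add, ENNReal.ofReal_mul (Real.exp_pos _).le]
    refine le_trans (lintegral_mono fun x => ?_) ((lintegral_mul_const' _ _ ENNReal.ofReal_ne_top).le.trans
      (mul_le_mul_left (hGC d (K 0) _ (hK 0) hL) _))
    refine le_trans (le_of_eq ?_) (mul_le_mul_right
      (ih (fun r => K r.succ) (fun g => F (Fin.cons x g)) (fun r => hK _) (tl h x)) _)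
    rw [← lintegral_const_mul' _ _ ENNReal.ofReal_ne_top]
    refine lintegral_congr fun g => ?_
    rw [← ENNReal.ofReal_mul (Real.exp_pos _).le, ← Real.exp_add]
    congr 2
    ring

end Vale.Agent.P347
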