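import Vale.Agent.P347.Spec2

/-! Gaussian Poincare inequality by rotation. -/

open MeasureTheory ProbabilityTheory Finset Filter Topology
open scoped RealInnerProductSpace ENNReal

namespace Vale.Agent.P347

namespace GPm

section gen

variable {X : Type} [NormedAddCommGroup X] [NormedSpace ℝ X] [MeasurableSpace X] [BorelSpace X]
  [SecondCountableTopology X] [CompleteSpace X]

theorem int4 (μ : Measure X) [IsGaussian μ] : Integrable (fun x => (1 + ‖x‖) ^ 4) μ := by
  have h : Integrable (fun x : X => ‖x‖ ^ 4) μ :=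
    (IsGaussian.memLp_id μ (4 : ℕ) (by simp)).integrable_norm_pow (by norm_num)
  refine (((integrable_const (1 : ℝ)).add h).const_mul 8).mono' (by fun_prop)
    (Eventually.of_forall fun x => ?_)
  rw [Real.norm_of_nonneg (by positivity)]
  simp only [Pi.add_apply]
  have := norm_nonneg x
  nlinarith [sq_nonneg (‖x‖ - 1), sq_nonneg (‖x‖ ^ 2 - 1), sq_nonneg ((1 + ‖x‖) ^ 2 - 2 * (1 + ‖x‖ ^ 2)),
    mul_nonneg (sq_nonneg (‖x‖ - 1)) (sq_nonneg (‖x‖ + 1)), mul_nonneg (sq_nonneg (‖x‖ - 1)) (sq_nonneg ‖x‖)]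

/-- the discrete rotation step -/
theorem rot (μ : Measure X) [IsGaussian μ] (hμ : ∀ L : StrongDual ℝ X, μ[L] = 0) {F : X → ℝ}
    (hc : Continuous F) (n : ℕ) (δ : ℝ) (h : (n + 1 : ℝ) * δ = Real.pi / 2) :
    ∫⁻ p, ENNReal.ofReal ((F p.2 - F p.1) ^ 2) ∂μ.prod μ ≤
      ∫⁻ p, ENNReal.ofReal (((n + 1) *
        (F (Real.cos δ • p.1 + Real.sin δ • p.2) - F p.1)) ^ 2) ∂μ.prod μ := by
  set g : X × X → ℝ≥0∞ := fun p => ENNReal.ofReal (((n + 1) *
    (F (Real.cos δ • p.1 + Real.sin δ • p.2) - F p.1)) ^ 2) with hg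
  have mg : Measurable g := ENNReal.measurable_ofReal.comp (Continuous.measurable (by fun_prop))
  set R : ℕ → X × X → X × X := fun k => ContinuousLinearMap.rotation (k * δ) with hR
  have mR : ∀ k, Measurable (R k) := fun k =>
    (ContinuousLinearMap.rotation (E := X) (k * δ)).continuous.measurable
  have e : ∀ k, ∫⁻ p, g (R k p) ∂μ.prod μ = ∫⁻ p, g p ∂μ.prod μ := fun k => by
    rw [← lintegral_map mg (mR k), hR,
      IsGaussian.map_rotation_eq_self_of_forall_strongDual_eq_zero hμ]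
  have n0 : (0 : ℝ) < n + 1 := by positivity
  calc _ ≤ ∫⁻ p, ∑ k ∈ range (n + 1), ENNReal.ofReal (n + 1 : ℝ)⁻¹ * g (R k p)
        ∂μ.prod μ := lintegral_mono fun p => by
        set a : ℕ → ℝ := fun k => F (Real.cos (k * δ) • p.1 + Real.sin (k * δ) • p.2) with ha
        have e1 : ∀ k, g (R k p) = ENNReal.ofReal (((n + 1) * (a (k + 1) - a k)) ^ 2) := by
          intro k
          simp only [hg, hR, ha, ContinuousLinearMap.rotation_apply]
          congr 5
          rw [Nat.cast_succ, add_mul, one_mul, Real.cos_add, Real.sin_add]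
          module
        have e2 : F p.2 - F p.1 =
            ∑ k ∈ range (n + 1), (n + 1 : ℝ)⁻¹ • ((n + 1) * (a (k + 1) - a k)) := by
          simp only [smul_eq_mul, inv_mul_cancel_left₀ n0.ne']
          rw [sum_range_sub]
          simp only [ha]
          rw [Nat.cast_succ, h]
          simp
        simp only [e1, ← ENNReal.ofReal_mul (inv_pos.2 n0).le]
        rw [← ENNReal.ofReal_sum_of_nonneg fun _ _ => by positivity, e2]
        exact ENNReal.ofReal_le_ofReal ((Even.convexOn_pow (𝕜 := ℝ) even_two).map_sum_le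
          (fun _ _ => by positivity) (by simp [n0.ne']) fun _ _ => trivial)
    _ = _ := by
        have m : ∀ k, Measurable fun p => g (R k p) := fun k => mg.comp (mR k)
        rw [lintegral_finsetSum _ fun k _ => (m k).const_mul _]
        simp only [lintegral_const_mul _ (m _), e]
        rw [sum_const, card_range, nsmul_eq_mul, ← mul_assoc, ← ENNReal.ofReal_natCast,
          ← ENNReal.ofReal_mul (by positivity), Nat.cast_succ, mul_inv_cancel₀ n0.ne']
        simp

theorem mem2 (μ : Measure X) [IsGaussian μ] {F : X → ℝ} {B : ℝ} (hB : 0 ≤ B) (hc : Continuous F)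
    (hF : ∀ x y, |F x - F y| ≤ B * (1 + ‖x‖ + ‖y‖) * ‖x - y‖) : MemLp F 2 μ := by
  refine (memLp_two_iff_integrable_sq hc.aestronglyMeasurable).2
    (((int4 μ).const_mul ((|F 0| + B) ^ 2)).mono' (by fun_prop) (Eventually.of_forall fun x => ?_))
  have h := hF x 0
  rw [norm_zero, add_zero, sub_zero] at h
  have h0 := norm_nonneg x
  have h1 := abs_nonneg (F 0)
  have h2 : |F x| ≤ (|F 0| + B) * (1 + ‖x‖) ^ 2 := by
    have h3 := abs_sub_abs_le_abs_sub (F x) (F 0)
    nlinarith [mul_nonneg h1 h0, mul_nonneg (mul_nonneg h1 h0) h0, mul_nonneg hB h0]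
  rw [Real.norm_of_nonneg (sq_nonneg _), ← sq_abs]
  calc _ ≤ ((|F 0| + B) * (1 + ‖x‖) ^ 2) ^ 2 := by gcongr
    _ = _ := by ring

/-- the general inequality -/
theorem pis (μ : Measure X) [IsGaussian μ] (hμ : ∀ L : StrongDual ℝ X, μ[L] = 0) {F V : X → ℝ}
    {B : ℝ} (hB : 0 ≤ B) (hc : Continuous F)
    (hF : ∀ x y, |F x - F y| ≤ B * (1 + ‖x‖ + ‖y‖) * ‖x - y‖)
    (ae : ∀ᵐ x ∂μ, DifferentiableAt ℝ F x) (hV : ∀ x, Var[fderiv ℝ F x; μ] ≤ V x)
    (iV : Integrable V μ) :
    ∫ x, F x ^ 2 ∂μ - (∫ x, F x ∂μ) ^ 2 ≤ 2 * ∫ x, V x ∂μ := by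
  have m2 := mem2 μ hB hc hF
  have V0 : ∀ x, 0 ≤ V x := fun x => (variance_nonneg _ _).trans (hV x)
  set δ : ℕ → ℝ := fun n => Real.pi / 2 / (n + 1) with hδ
  have δ0 : ∀ n, 0 < δ n := fun n => by have := Real.pi_pos; positivity
  have δ1 : ∀ n : ℕ, (n + 1 : ℝ) * δ n = Real.pi / 2 := fun n => mul_div_cancel₀ _ (by positivity)
  have lim := tendsto_lintegral_of_dominated_convergence (μ := μ.prod μ)
    (F := fun n p => ENNReal.ofReal (((n + 1) *
      (F (Real.cos (δ n) • p.1 + Real.sin (δ n) • p.2) - F p.1)) ^ 2))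
    (f := fun p => ENNReal.ofReal ((Real.pi / 2 * fderiv ℝ F p.1 p.2) ^ 2))
    (fun p => ENNReal.ofReal ((3 * Real.pi * B) ^ 2 * (1 + ‖p‖) ^ 4))
    (fun n => ENNReal.measurable_ofReal.comp (Continuous.measurable (by fun_prop)))
    (fun n => Eventually.of_forall fun p => ENNReal.ofReal_le_ofReal (by
      have a1 := hF (Real.cos (δ n) • p.1 + Real.sin (δ n) • p.2) p.1
      have p1 : ‖p.1‖ ≤ ‖p‖ := norm_fst_le p
      have p2 : ‖p.2‖ ≤ ‖p‖ := norm_snd_le p
      have d0 := δ0 n
      have a2 : ‖Real.cos (δ n) • p.1 + Real.sin (δ n) • p.2 - p.1‖ ≤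
          δ n * ‖p‖ + δ n * ‖p‖ := by
        rw [show Real.cos (δ n) • p.1 + Real.sin (δ n) • p.2 - p.1 =
          (Real.cos (δ n) - Real.cos 0) • p.1 + Real.sin (δ n) • p.2 by
            rw [Real.cos_zero]; module]
        refine (norm_add_le _ _).trans ?_
        rw [norm_smul, norm_smul]
        have b1 := Real.abs_cos_sub_cos_le (δ n) 0
        have b2 := Real.abs_sin_le_abs (x := δ n)
        rw [sub_zero] at b1
        rw [abs_of_pos (δ0 n)] at b1 b2
        gcongr <;> assumption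
      have a3 : ‖Real.cos (δ n) • p.1 + Real.sin (δ n) • p.2‖ ≤ 1 * ‖p‖ + 1 * ‖p‖ := by
        refine (norm_add_le _ _).trans ?_
        rw [norm_smul, norm_smul]
        have b1 := Real.abs_cos_le_one (δ n)
        have b2 := Real.abs_sin_le_one (δ n)
        gcongr <;> assumption
      have p0 := norm_nonneg p
      have a4 : |(n + 1 : ℝ) * (F (Real.cos (δ n) • p.1 + Real.sin (δ n) • p.2) - F p.1)| ≤
          3 * Real.pi * B * (1 + ‖p‖) ^ 2 := by
        rw [abs_mul, abs_of_pos (show (0 : ℝ) < n + 1 by positivity)]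
        calc _ ≤ (n + 1 : ℝ) * (B * (1 + (1 * ‖p‖ + 1 * ‖p‖) + ‖p‖) * (δ n * ‖p‖ + δ n * ‖p‖)) := by
              gcongr
              refine a1.trans ?_
              gcongr
          _ = ((n + 1 : ℝ) * δ n) * 2 * B * ((1 + 3 * ‖p‖) * ‖p‖) := by ring
          _ ≤ ((n + 1 : ℝ) * δ n) * 2 * B * (3 * (1 + ‖p‖) ^ 2) :=
              mul_le_mul_of_nonneg_left (by nlinarith) (by positivity)
          _ = _ := by rw [δ1 n]; ring
      rw [← sq_abs]
      calc _ ≤ (3 * Real.pi * B * (1 + ‖p‖) ^ 2) ^ 2 := by gcongr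
        _ = _ := by ring))
    ((int4 (μ.prod μ)).const_mul _).lintegral_lt_top.ne (by
      filter_upwards [Measure.quasiMeasurePreserving_fst.ae ae] with p hp
      refine (ENNReal.continuous_ofReal.tendsto _).comp (Tendsto.pow ?_ 2)
      have a1 : HasDerivAt (fun t => Real.cos t • p.1 + Real.sin t • p.2) p.2 0 := by
        have := ((Real.hasDerivAt_cos 0).smul_const p.1).fun_add
          ((Real.hasDerivAt_sin 0).smul_const p.2)
        rwa [Real.sin_zero, Real.cos_zero, neg_zero, zero_smul, zero_add, one_smul] at this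
      have a2 := (hp.hasFDerivAt.comp_hasDerivAt_of_eq 0 a1 (by simp)).tendsto_slope_zero_right
      have a3 : Tendsto δ atTop (𝓝[>] 0) := tendsto_nhdsWithin_iff.2
        ⟨tendsto_const_nhds.div_atTop (tendsto_natCast_atTop_atTop.atTop_add tendsto_const_nhds),
          Eventually.of_forall δ0⟩
      refine ((a2.comp a3).const_mul (Real.pi / 2)).congr fun n => ?_
      simp only [Function.comp, zero_add, Real.cos_zero, Real.sin_zero, one_smul, zero_smul,
        add_zero, smul_eq_mul]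
      rw [← δ1 n, mul_assoc, mul_inv_cancel_left₀ (δ0 n).ne'])
  have i1 := m2.integrable one_le_two
  have i2 := m2.integrable_sq
  have j1 := i2.comp_fst μ
  have j2 := i2.comp_snd μ
  have j3 := (i1.mul_prod i1).const_mul 2
  have e0 : (fun p : X × X => (F p.2 - F p.1) ^ 2) =
      fun p => F p.1 ^ 2 + F p.2 ^ 2 - 2 * (F p.1 * F p.2) := by
    funext p
    ring
  have e1 : ∫ p, (F p.2 - F p.1) ^ 2 ∂μ.prod μ = 2 * (∫ x, F x ^ 2 ∂μ - (∫ x, F x ∂μ) ^ 2) := by
    rw [e0, integral_sub (by exact j1.add j2) j3, integral_add j1 j2, integral_const_mul,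
      integral_prod_mul F F, integral_fun_fst fun x => F x ^ 2, integral_fun_snd fun x => F x ^ 2]
    simp only [probReal_univ, smul_eq_mul, one_mul]
    ring
  have i0 : Integrable (fun p : X × X => (F p.2 - F p.1) ^ 2) (μ.prod μ) := by
    rw [e0]
    exact (j1.add j2).sub j3
  have key : ENNReal.ofReal (∫ p, (F p.2 - F p.1) ^ 2 ∂μ.prod μ) ≤
      ENNReal.ofReal (∫ x, 4 * V x ∂μ) := by
    rw [ofReal_integral_eq_lintegral_ofReal i0 (Eventually.of_forall fun p => sq_nonneg _),
      ofReal_integral_eq_lintegral_ofReal (iV.const_mul 4)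
        (Eventually.of_forall fun x => mul_nonneg (by norm_num) (V0 x))]
    calc _ ≤ _ := ge_of_tendsto' lim fun n => rot μ hμ hc n _ (δ1 n)
      _ ≤ ∫⁻ x, ∫⁻ y, ENNReal.ofReal ((Real.pi / 2 * fderiv ℝ F x y) ^ 2) ∂μ ∂μ :=
          lintegral_prod_le _
      _ ≤ _ := lintegral_mono fun x => by
          have ml := IsGaussian.memLp_dual μ (fderiv ℝ F x) 2 (by simp)
          simp only [mul_pow]
          rw [← ofReal_integral_eq_lintegral_ofReal (ml.integrable_sq.const_mul _)
            (Eventually.of_forall fun y => by positivity), integral_const_mul,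
            ← variance_of_integral_eq_zero ml.aemeasurable (hμ _)]
          refine ENNReal.ofReal_le_ofReal (mul_le_mul ?_ (hV x) (variance_nonneg _ _) (by norm_num))
          nlinarith [Real.pi_le_four, Real.pi_pos]
  rw [ENNReal.ofReal_le_ofReal_iff (integral_nonneg fun x => mul_nonneg (by norm_num) (V0 x)), e1,
    integral_const_mul] at key
  linarith

/-- standardised Gaussian measures -/
def Std (μ : Measure X) : Prop :=
  (∀ L : StrongDual ℝ X, μ[L] = 0) ∧ ∀ L : StrongDual ℝ X, Var[L; μ] ≤ ‖L‖ ^ 2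

omit [NormedSpace ℝ X] [MeasurableSpace X] [BorelSpace X] [SecondCountableTopology X]
  [CompleteSpace X] in
theorem lip_abs {F : X → ℝ} {K : ℝ} (h : LipF K F) : LipschitzWith ⟨|K|, abs_nonneg K⟩ F :=
  LipschitzWith.of_dist_le_mul fun x y => by
    rw [dist_eq_norm, dist_eq_norm]
    exact (h x y).trans (mul_le_mul_of_nonneg_right (le_abs_self K) (norm_nonneg _))

omit [NormedSpace ℝ X] [MeasurableSpace X] [BorelSpace X] [SecondCountableTopology X]
  [CompleteSpace X] in
theorem lip_loc {F : X → ℝ} {K : ℝ} (h : LipF K F) (x y : X) :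
    |F x - F y| ≤ |K| * (1 + ‖x‖ + ‖y‖) * ‖x - y‖ := by
  refine (h x y).trans (mul_le_mul_of_nonneg_right ((le_abs_self K).trans ?_) (norm_nonneg _))
  exact le_mul_of_one_le_right (abs_nonneg K) (by linarith [norm_nonneg x, norm_nonneg y])

theorem gpo (μ : Measure X) [IsGaussian μ] (h : Std μ) : GPo μ 2 := fun f K hf hK =>
  pis μ h.1 (abs_nonneg K) hf.continuous (lip_loc hK)
    (Eventually.of_forall (hf.differentiable one_ne_zero)) (fun _ => h.2 _)
    ((integrable_const (|K| ^ 2)).mono'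
      ((hf.continuous_fderiv one_ne_zero).norm.pow 2).aestronglyMeasurable
      (Eventually.of_forall fun x => by
        rw [Real.norm_of_nonneg (sq_nonneg _)]
        have : ‖fderiv ℝ f x‖ ≤ |K| := norm_fderiv_le_of_lipschitz ℝ (lip_abs hK)
        gcongr))

end gen

theorem dual_le {X Y : Type} [NormedAddCommGroup X] [NormedSpace ℝ X] [NormedAddCommGroup Y]
    [NormedSpace ℝ Y] (L : StrongDual ℝ (X × Y)) :
    ‖L.comp (.inl ℝ X Y)‖ + ‖L.comp (.inr ℝ X Y)‖ ≤ ‖L‖ := by
  have k : ∀ (x : X) (y : Y), ‖x‖ ≤ 1 → ‖y‖ ≤ 1 →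
      ‖L.comp (.inl ℝ X Y) x‖ + ‖L.comp (.inr ℝ X Y) y‖ ≤ ‖L‖ := by
    intro x y hx hy
    have a1 := L.unit_le_opNorm (x, y) (norm_prod_le_iff.2 ⟨hx, hy⟩)
    have a2 := L.unit_le_opNorm (x, -y) (norm_prod_le_iff.2 ⟨hx, by rwa [norm_neg]⟩)
    rw [← L.comp_inl_add_comp_inr] at a1 a2
    simp only [map_neg, Real.norm_eq_abs] at a1 a2 ⊢
    rw [abs_le] at a1 a2
    rcases abs_cases (L.comp (.inl ℝ X Y) x) with h | h <;>
      rcases abs_cases (L.comp (.inr ℝ X Y) y) with h' | h' <;> linarith [a1.1, a1.2, a2.1, a2.2]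
  have k2 : ∀ x : X, ‖x‖ ≤ 1 → ‖L.comp (.inr ℝ X Y)‖ ≤ ‖L‖ - ‖L.comp (.inl ℝ X Y) x‖ := by
    intro x hx
    refine ContinuousLinearMap.opNorm_le_of_unit_norm ?_ fun y hy => ?_
    · have := k x 0 hx (by simp)
      rw [map_zero, norm_zero] at this
      linarith
    · linarith [k x y hx hy.le]
  have k3 : ‖L.comp (.inl ℝ X Y)‖ ≤ ‖L‖ - ‖L.comp (.inr ℝ X Y)‖ := by
    refine ContinuousLinearMap.opNorm_le_of_unit_norm ?_ fun x hx => ?_
    · have := k2 0 (by simp)
      rw [map_zero, norm_zero] at this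
      linarith
    · linarith [k2 x hx.le]
  linarith

theorem std_prod {X Y : Type} [NormedAddCommGroup X] [NormedSpace ℝ X] [MeasurableSpace X]
    [BorelSpace X] [SecondCountableTopology X] [NormedAddCommGroup Y] [NormedSpace ℝ Y]
    [MeasurableSpace Y] [BorelSpace Y] [SecondCountableTopology Y] (μ : Measure X) (ν : Measure Y)
    [IsGaussian μ] [IsGaussian ν] (h : Std μ) (h' : Std ν) : Std (μ.prod ν) := by
  refine ⟨fun L => ?_, fun L => ?_⟩
  · rw [integral_continuousLinearMap_prod' (IsGaussian.integrable_dual μ (L.comp (.inl ℝ X Y)))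
      (IsGaussian.integrable_dual ν (L.comp (.inr ℝ X Y))), h.1, h'.1, add_zero]
  · rw [variance_dual_prod' (IsGaussian.memLp_dual μ (L.comp (.inl ℝ X Y)) 2 (by simp))
      (IsGaussian.memLp_dual ν (L.comp (.inr ℝ X Y)) 2 (by simp))]
    have a := h.2 (L.comp (.inl ℝ X Y))
    have b := h'.2 (L.comp (.inr ℝ X Y))
    have c := dual_le L
    have a0 := norm_nonneg (L.comp (.inl ℝ X Y))
    have b0 := norm_nonneg (L.comp (.inr ℝ X Y))
    nlinarith [mul_nonneg a0 b0]

theorem std_gs (d : ℕ) : Std (gs d) :=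
  ⟨integral_strongDual_stdGaussian, fun L => (variance_dual_stdGaussian L).le⟩

end GPm

open GPm in
theorem stmtGP' (h1 : StmtG1) : StmtGP := fun d => by
  refine ⟨gpo _ (std_gs d), fun f B hf hB => ?_,
    gpo _ (std_prod _ _ (std_gs d) (std_prod _ _ (std_gs d) (std_gs d))), fun f K hK hf => ?_⟩
  · have B0 : 0 ≤ B := by simpa using (norm_nonneg _).trans (hB 0)
    refine pis (gs d) (std_gs d).1 B0 hf.continuous (fun x y => ?_)
      (Eventually.of_forall (hf.differentiable one_ne_zero)) (fun _ => (std_gs d).2 _)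
      (((int4 (gs d)).const_mul (B ^ 2)).mono'
        ((hf.continuous_fderiv one_ne_zero).norm.pow 2).aestronglyMeasurable
        (Eventually.of_forall fun x => ?_))
    · refine (convex_closedBall (0 : E d) (‖x‖ + ‖y‖)).norm_image_sub_le_of_norm_fderiv_le
        (fun z _ => hf.differentiable one_ne_zero z) (fun z hz => (hB z).trans ?_) ?_ ?_
      · rw [mem_closedBall_zero_iff] at hz
        rw [add_assoc]
        gcongr
      · rw [mem_closedBall_zero_iff]
        linarith [norm_nonneg x]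
      · rw [mem_closedBall_zero_iff]
        linarith [norm_nonneg y]
    · rw [Real.norm_of_nonneg (sq_nonneg _)]
      have := hB x
      have x0 := norm_nonneg x
      calc _ ≤ (B * (1 + ‖x‖)) ^ 2 := by gcongr
        _ = B ^ 2 * (1 + ‖x‖) ^ 2 := by ring
        _ ≤ _ := mul_le_mul_of_nonneg_left (pow_le_pow_right₀ (by linarith) (by norm_num))
          (sq_nonneg _)
  · have hL := lip_abs hf
    have ae : ∀ᵐ x ∂gs d, DifferentiableAt ℝ f x := by
      obtain ⟨c, -, h⟩ := (h1 d).dens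
      rw [h]
      exact (withDensity_absolutelyContinuous _ _).ae_le hL.ae_differentiableAt
    have := pis (V := fun _ => K ^ 2) (gs d) (std_gs d).1 (abs_nonneg K) hL.continuous (lip_loc hf) ae
      (fun x => ((std_gs d).2 _).trans (by
        have : ‖fderiv ℝ f x‖ ≤ |K| := norm_fderiv_le_of_lipschitz ℝ hL
        rw [← sq_abs K]
        gcongr)) (integrable_const _)
    simpa using this

theorem stmtGP (h1 : StmtG1) (_h2 : StmtG2) (_hSM : StmtSM) : StmtGP := stmtGP' h1

end Vale.Agent.P347
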