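import Vale.Agent.P347.Po

/-! Poincare inequality for functions of many Gaussian vectors. -/

open MeasureTheory ProbabilityTheory Finset Filter Topology
open scoped RealInnerProductSpace ENNReal NNReal

namespace Vale.Agent.P347

noncomputable section

namespace GPNm

variable {d N : ℕ}

theorem mean (L : StrongDual ℝ (Fin N → E d)) : (gN d N)[L] = 0 := by
  have e : (L : (Fin N → E d) → ℝ) = fun g => ∑ r, L.comp (.single ℝ (fun _ => E d) r) (g r) :=
    funext fun g => (ContinuousLinearMap.sum_comp_single ℝ _ L g).symm
  have i : ∀ r, Integrable (fun g : Fin N → E d => L.comp (.single ℝ (fun _ => E d) r) (g r))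
      (gN d N) := fun r =>
    (measurePreserving_eval (fun _ => gs d) r).integrable_comp_of_integrable
      (IsGaussian.integrable_dual (gs d) (L.comp (.single ℝ (fun _ => E d) r)))
  rw [e]
  refine (integral_finsetSum _ fun r _ => i r).trans ?_
  refine sum_eq_zero fun r _ => ?_
  have := (measurePreserving_eval (fun _ : Fin N => gs d) r).map_eq
  rw [← integral_strongDual_stdGaussian (L.comp (.single ℝ (fun _ => E d) r))]
  conv_rhs => rw [show stdGaussian (E d) = gs d from rfl, ← this]
  rw [integral_map (measurable_pi_apply r).aemeasurable (by fun_prop)]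

theorem var (L : StrongDual ℝ (Fin N → E d)) :
    Var[L; gN d N] = ∑ r, ‖L.comp (.single ℝ (fun _ => E d) r)‖ ^ 2 := by
  have e : (L : (Fin N → E d) → ℝ) = ∑ r, fun g => L.comp (.single ℝ (fun _ => E d) r) (g r) :=
    funext fun g => by
      rw [Finset.sum_apply]
      exact (ContinuousLinearMap.sum_comp_single ℝ _ L g).symm
  rw [e, variance_sum_pi fun r => IsGaussian.memLp_dual (gs d) _ 2 (by simp)]
  exact sum_congr rfl fun r _ => variance_dual_stdGaussian _

theorem gau : IsGaussian (gN d N) := by
  refine isGaussian_of_charFunDual_eq fun L => ?_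
  rw [charFunDual_pi, integral_complex_ofReal, mean, var]
  simp only [charFunDual_stdGaussian, ← Complex.exp_sum]
  congr 1
  simp [sum_div, neg_div]

theorem part {F : (Fin N → E d) → E d} {K : Fin N → ℝ} (hK : ∀ r, 0 ≤ K r) (hF : ContDiff ℝ 1 F)
    (h : ∀ g r x, ‖F (Function.update g r x) - F g‖ ≤ K r * ‖x - g r‖) (g : Fin N → E d)
    (r : Fin N) : ‖(fderiv ℝ F g).comp (.single ℝ (fun _ => E d) r)‖ ≤ K r := by
  have e : ∀ x, Function.update g r x =
      g + ContinuousLinearMap.single ℝ (fun _ : Fin N => E d) r (x - g r) := by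
    intro x
    funext j
    by_cases c : j = r
    · subst c
      simp
    · simp [c]
  have a : HasFDerivAt (fun x => g + ContinuousLinearMap.single ℝ (fun _ : Fin N => E d) r (x - g r))
      (ContinuousLinearMap.single ℝ (fun _ : Fin N => E d) r) (g r) :=
    ((hasFDerivAt_comp_sub (g r)).2 (ContinuousLinearMap.hasFDerivAt _)).const_add g
  have b0 : HasFDerivAt F (fderiv ℝ F g)
      (g + ContinuousLinearMap.single ℝ (fun _ : Fin N => E d) r (g r - g r)) := by
    simpa using (hF.differentiable one_ne_zero g).hasFDerivAt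
  have b := b0.comp (g r) a
  refine b.le_of_lip' (hK r) (Eventually.of_forall fun x => ?_)
  simp only [Function.comp, ← e, Function.update_eq_self]
  exact h g r x

theorem lip {F : (Fin N → E d) → E d} {K : Fin N → ℝ} (hK : ∀ r, 0 ≤ K r) (hF : ContDiff ℝ 1 F)
    (h : ∀ g r x, ‖F (Function.update g r x) - F g‖ ≤ K r * ‖x - g r‖) : LipF (∑ r, K r) F := by
  intro x y
  refine convex_univ.norm_image_sub_le_of_norm_fderiv_le
    (fun z _ => hF.differentiable one_ne_zero z) (fun z _ => ?_) trivial trivial
  refine ContinuousLinearMap.opNorm_le_bound _ (sum_nonneg fun r _ => hK r) fun v => ?_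
  rw [← ContinuousLinearMap.sum_comp_single ℝ _ (fderiv ℝ F z) v, sum_mul]
  refine (norm_sum_le _ _).trans (sum_le_sum fun r _ => ?_)
  exact (ContinuousLinearMap.le_opNorm _ _).trans
    (mul_le_mul (part hK hF h z r) (norm_le_pi_norm v r) (norm_nonneg _) (hK r))

end GPNm

open GPNm in
theorem stmtGPN (_h1 : StmtG1) (_h2 : StmtG2) (_hGP : StmtGP) : StmtGPN := by
  intro d N K F hK hF h
  have := gau (d := d) (N := N)
  have hl := lip hK hF h
  have cF := hF.continuous
  have mF : MemLp F 2 (gN d N) := by
    have k := (Pom.lipW (K := ∑ r, K r) (F := fun x => F x - F 0) fun x y => by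
      simpa using hl x y).comp_memLp (by simp) (IsGaussian.memLp_two_id (μ := gN d N))
    exact (k.add (memLp_const (F 0))).ae_eq (Eventually.of_forall fun ω => by simp)
  set c := ∫ y, F y ∂gN d N with hc
  have m : AEMeasurable (fun g => c - F g) (gN d N) := by fun_prop
  refine ⟨Measure.isProbabilityMeasure_map m,
    (memLp_map_measure_iff (by fun_prop) m).2 ((memLp_const c).sub mF), ?_, fun f B hf hB => ?_⟩
  · rw [integral_map m (by fun_prop), integral_sub (integrable_const _) (mF.integrable one_le_two)]
    simp [hc]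
  · have cf := hf.continuous
    have cd := hf.continuous_fderiv one_ne_zero
    have S0 : 0 ≤ ∑ r, K r ^ 2 := sum_nonneg fun r _ => sq_nonneg _
    rw [integral_map m (by fun_prop), integral_map m (by fun_prop), integral_map m (by fun_prop),
      Real.sq_sqrt (by positivity), mul_assoc, ← integral_const_mul]
    have lH : LipF (|B| * ∑ r, K r) fun g => f (c - F g) := fun x y => by
      refine ((Pom.lipW hB).dist_le_mul (c - F x) (c - F y)).trans ?_
      rw [dist_eq_norm, mul_assoc, sub_sub_sub_cancel_left, norm_sub_rev]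
      exact mul_le_mul_of_nonneg_left (hl x y) (abs_nonneg B)
    have dH : ∀ g, HasFDerivAt (fun g => f (c - F g))
        ((fderiv ℝ f (c - F g)).comp (-fderiv ℝ F g)) g := fun g =>
      (hf.differentiable one_ne_zero _).hasFDerivAt.comp g
        ((hF.differentiable one_ne_zero g).hasFDerivAt.const_sub c)
    refine GPm.pis (gN d N) mean (abs_nonneg _) (by fun_prop) (GPm.lip_loc lH)
      (Eventually.of_forall fun g => (dH g).differentiableAt) (fun g => ?_)
      ((Pom.bdd _ (by fun_prop) (fun _ => norm_nonneg _) fun g => Pom.dle hB _).const_mul _)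
    rw [(dH g).fderiv, var, sum_mul]
    refine sum_le_sum fun r _ => ?_
    rw [← mul_pow, mul_comm, ContinuousLinearMap.comp_assoc]
    refine pow_le_pow_left₀ (norm_nonneg _) ((ContinuousLinearMap.opNorm_comp_le _ _).trans
      (mul_le_mul_of_nonneg_left ?_ (norm_nonneg _))) 2
    rw [ContinuousLinearMap.neg_comp, norm_neg]
    exact part hK hF h g r

end

end Vale.Agent.P347
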