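import Vale.Agent.P347.Spec2
import Vale.Agent.P347.Aa
import Vale.Agent.P347.B2

open MeasureTheory ProbabilityTheory Finset
open scoped RealInnerProductSpace ENNReal

namespace Vale.Agent.P347

namespace GamHm

variable {d : ℕ}

def res (m : ℕ) : (n : ℕ) → (Fin (m + n) → E d) → (Fin n → E d)
  | 0, _ => Fin.elim0
  | n + 1, g => Fin.cons (g 0) (res m n (Fin.tail (n := m + n) g))

theorem mp_cons (n : ℕ) : MeasurePreserving
    (fun p : E d × (Fin n → E d) => (Fin.cons p.1 p.2 : Fin (n + 1) → E d))
    ((gs d).prod (gN d n)) (gN d (n + 1)) := by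
  have := (measurePreserving_piFinSuccAbove (fun _ : Fin (n + 1) => gs d) 0).symm
  convert this using 1
  funext p
  simp [MeasurableEquiv.piFinSuccAbove, Fin.insertNthEquiv, Fin.insertNth_zero']

theorem mp_res (m : ℕ) : ∀ n, MeasurePreserving (res (d := d) m n) (gN d (m + n)) (gN d n)
  | 0 => by
    have hm : Measurable (res (d := d) m 0) := measurable_const
    refine ⟨hm, ?_⟩
    show Measure.map (fun _ => Fin.elim0) _ = _
    rw [Measure.map_const, measure_univ, one_smul]
    exact (Measure.pi_of_empty _ _).symm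
  | n + 1 => (mp_cons n).comp (((MeasurePreserving.id (gs d)).prod (mp_res m n)).comp (Revm.mp_tail d (m + n)))

theorem cont_res (m : ℕ) : ∀ n, Continuous (res (d := d) m n)
  | 0 => continuous_const
  | n + 1 => Continuous.finCons (continuous_apply 0)
      ((cont_res m n).comp (continuous_pi fun i => continuous_apply _))

end GamHm

open Aam GamHm in
theorem stmtGamH (h1 : StmtG1) (h2 : StmtG2) (hAa : StmtAa) : StmtGamH := by
  intro d ε ρ G hd e0 e1 r0 r1 hN
  have A := hAa d ε ρ G hd e0 e1 r0 r1 hN
  have H1 : Hy ε ρ 1 G := ⟨e0, e1, r0, r1, zero_le_one, le_rfl, hN⟩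
  have hG : Continuous G := hN.c1.continuous
  have hρ : ρ ^ 2 ≤ 1 := by nlinarith
  have hr' : 0 ≤ 1 - ρ := by linarith
  have cR : ∀ m n, Continuous fun p : E d × (Fin (m + n) → E d) => AA G ρ n p.1 (res m n p.2) := fun m n =>
    (A.cont n).comp (continuous_fst.prodMk ((cont_res m n).comp continuous_snd))
  have D : ∀ m n, eLpNorm (fun p : E d × (Fin (m + n) → E d) =>
      AA G ρ n p.1 (res m n p.2) - AA G ρ (m + n) p.1 p.2) 2 ((gs d).prod (gN d (m + n))) ≤
      ENNReal.ofReal (4 * ε * √d * ((1 + ρ) / 2) ^ n) := by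
    intro m n
    induction n with
    | zero =>
      simp only [AA, zero_sub, pow_zero, mul_one]
      exact (eLpNorm_neg (fun p : E d × (Fin m → E d) => AA G ρ m p.1 p.2) _ _).le.trans (A.l2 m)
    | succ n ih =>
      have hst : Continuous fun p : E d × (Fin (m + n) → E d) =>
          (ρ • AA G ρ n p.1 (res m n p.2) + (1 - ρ) • G (p.1 - AA G ρ n p.1 (res m n p.2))) -
            (ρ • AA G ρ (m + n) p.1 p.2 + (1 - ρ) • G (p.1 - AA G ρ (m + n) p.1 p.2)) :=
        (((cR m n).const_smul ρ).add ((hG.comp (continuous_fst.sub (cR m n))).const_smul (1 - ρ))).sub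
          (((A.cont _).const_smul ρ).add ((hG.comp (continuous_fst.sub (A.cont _))).const_smul (1 - ρ)))
      refine (eLpNorm_comp_measurePreserving hst.aestronglyMeasurable
        (mp_step h2 hρ (m + n))).le.trans ?_
      have c := ((cR m n).sub (A.cont (m + n))).aestronglyMeasurable (μ := (gs d).prod (gN d (m + n)))
      refine (eLp_le2 (α := (1 + ρ) / 2) (β := 0) c c (by positivity) le_rfl (by positivity) (by positivity)
        ih ih fun p => ?_).trans (ENNReal.ofReal_le_ofReal (le_of_eq (by ring)))
      have := H1.step p.1 p.1 (AA G ρ n p.1 (res m n p.2)) (AA G ρ (m + n) p.1 p.2)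
      simp only [one_smul, sub_self, norm_zero, mul_zero, add_zero] at this
      refine this.trans ?_
      simp only [Pi.sub_apply, zero_mul, add_zero]
      exact mul_le_mul_of_nonneg_right (by nlinarith) (norm_nonneg _)
  have it : ∀ N w, Integrable (fun g => G (w - AA G ρ N w g)) (gN d N) := fun N w => by
    have c : Continuous fun g => G (w - AA G ρ N w g) :=
      hG.comp (continuous_const.sub ((A.cont N).comp (Continuous.prodMk_right w)))
    refine (((integrable_const (1 + ‖w‖)).add ((A.mem N w).integrable (by norm_num)).norm).const_mul ε).mono'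
      c.aestronglyMeasurable (Filter.Eventually.of_forall fun g => (nG hN _).trans ?_)
    refine mul_le_mul_of_nonneg_left ?_ e0
    simp only [Pi.add_apply]
    linarith [norm_sub_le w (AA G ρ N w g)]
  have key : ∀ (N : ℕ) (a b : E d × (Fin N → E d) → E d) (B : ℝ), Continuous a → Continuous b → 0 ≤ B →
      eLpNorm (fun p => a p - b p) 2 ((gs d).prod (gN d N)) ≤ ENNReal.ofReal B →
      eLpNorm (fun w => ∫ g, (G (w - a (w, g)) - G (w - b (w, g))) ∂gN d N) 2 (gs d) ≤
        ENNReal.ofReal (ε * B) := by
    intro N a b B ha hb hB h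
    have c : Continuous fun p : E d × (Fin N → E d) => G (p.1 - a p) - G (p.1 - b p) :=
      (hG.comp (continuous_fst.sub ha)).sub (hG.comp (continuous_fst.sub hb))
    refine (B2m.jen (gN d N) c.stronglyMeasurable).trans ?_
    have c' := (ha.sub hb).aestronglyMeasurable (μ := (gs d).prod (gN d N))
    refine (eLp_le2 (α := ε) (β := 0) c' c' e0 le_rfl hB hB h h fun p => ?_).trans
      (ENNReal.ofReal_le_ofReal (le_of_eq (by ring)))
    have := hN.lip (p.1 - a p) (p.1 - b p)
    rw [sub_sub_sub_cancel_left, norm_sub_rev (b p)] at this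
    simpa using this
  intro n m
  constructor
  · have := key n (fun p => AA G ρ n p.1 p.2) (fun _ => 0) (4 * ε * √d) (A.cont n) continuous_const
      (by positivity) (by simpa using A.l2 n)
    refine (le_of_eq ?_).trans (this.trans (ENNReal.ofReal_le_ofReal (le_of_eq (by ring))))
    congr 1
    funext w
    rw [integral_sub (it n w) (integrable_const _)]
    simp [Gam]
  · have := key (m + n) _ _ _ (cR m n) (A.cont (m + n)) (by positivity) (D m n)
    rw [add_comm n m]
    refine (le_of_eq ?_).trans (this.trans (ENNReal.ofReal_le_ofReal (le_of_eq (by ring))))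
    congr 1
    funext w
    have i1 := (mp_res (d := d) m n).integrable_comp_of_integrable (it n w)
    have e := (mp_res (d := d) m n).map_eq
    have c : Continuous fun g => G (w - AA G ρ n w g) :=
      hG.comp (continuous_const.sub ((A.cont n).comp (Continuous.prodMk_right w)))
    have i2 : Gam G ρ n w = ∫ g, G (w - AA G ρ n w (res m n g)) ∂gN d (m + n) := by
      rw [Gam, ← e, integral_map (cont_res m n).measurable.aemeasurable c.aestronglyMeasurable]
    rw [i2]
    exact (integral_sub i1 (it (m + n) w)).symm

end Vale.Agent.P347
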