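import Vale.Agent.P347.Spec

open MeasureTheory ProbabilityTheory Finset Filter
open scoped RealInnerProductSpace ENNReal

namespace Vale.Agent.P347

noncomputable section

namespace Gib1m

theorem map_t {X : Type} [MeasurableSpace X] (e : X ≃ᵐ X) (μ : Measure X) (f : X → ℝ) :
    (μ.tilted fun x => f (e x)).map e = (μ.map e).tilted f := by
  ext s hs
  rw [e.map_apply, tilted_apply' _ _ (e.measurable hs), tilted_apply' _ _ hs, e.restrict_map,
    lintegral_map_equiv, integral_map_equiv]

theorem scale {X : Type} [MeasurableSpace X] (μ : Measure X) (f : X → ℝ) {κ : ℝ} (hκ : 0 < κ)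
    (K : ℝ) : (ENNReal.ofReal κ • μ).tilted (fun x => f x + K) = μ.tilted f := by
  ext s hs
  rw [tilted_apply' _ _ hs, tilted_apply' _ _ hs, Measure.restrict_smul, lintegral_smul_measure,
    integral_smul_measure, smul_eq_mul, ← lintegral_const_mul' _ _ ENNReal.ofReal_ne_top]
  refine lintegral_congr fun x => ?_
  simp only [Real.exp_add, integral_mul_const, ENNReal.toReal_ofReal hκ.le, smul_eq_mul]
  rw [← ENNReal.ofReal_mul hκ.le, ← mul_div_assoc, mul_div_mul_left _ _ hκ.ne',
    mul_div_mul_right _ _ (Real.exp_pos K).ne']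

theorem int (d : ℕ) : Integrable (fun x : E d => Real.exp (-‖x‖ ^ 2 / 2)) := by
  have := Real.pi_pos
  simp only [show ∀ y : ℝ, -y / 2 = -(1 / 2) * y from fun y => by ring]
  refine Integrable.of_integral_ne_zero ?_
  rw [GaussianFourier.integral_rexp_neg_mul_sq_norm one_half_pos]
  positivity

theorem gs_eq {d : ℕ} (h : Gau1 d) :
    gs d = (volume : Measure (E d)).tilted fun x => -‖x‖ ^ 2 / 2 := by
  obtain ⟨c, hc, e⟩ := h.dens
  have u : gs d Set.univ = 1 := measure_univ
  rw [e, withDensity_apply _ MeasurableSet.univ, Measure.restrict_univ,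
    ← ofReal_integral_eq_lintegral_ofReal ((int d).const_mul c)
      (Eventually.of_forall fun _ => by positivity), integral_const_mul, ENNReal.ofReal_eq_one] at u
  rw [e, Measure.tilted, eq_inv_of_mul_eq_one_right u]
  simp only [div_inv_eq_mul, mul_comm]

end Gib1m

open Gib1m in
theorem stmtGib1 (h1 : StmtG1) (hCls : StmtCls) : StmtGib1 := fun d V hV => by
  have lo := (hCls d V hV).lo
  have c : Continuous V := hV.1.continuous
  have P : ∀ f : E d → ℝ, Continuous f → (∀ x, f x ≤ -V x) →
      IsProbabilityMeasure ((volume : Measure (E d)).tilted f) := fun f hf h =>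
    isProbabilityMeasure_tilted ((int d).mono' (by fun_prop) (Eventually.of_forall fun x => by
      rw [Real.norm_of_nonneg (Real.exp_pos _).le]
      exact Real.exp_le_exp.2 (by linarith [h x, lo x])))
  refine ⟨P _ c.neg fun _ => le_rfl, fun η hη => ?_⟩
  have m : Measurable (prox η V) := Measure.measurable_of_measurable_coe _ fun s hs => by
    simp only [prox, tilted_apply' _ _ hs]
    have z : StronglyMeasurable fun y : E d => ∫ x, Real.exp (-V x - ‖x - y‖ ^ 2 / (2 * η)) :=
      StronglyMeasurable.integral_prod_right' (f := fun p : E d × E d =>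
        Real.exp (-V p.2 - ‖p.2 - p.1‖ ^ 2 / (2 * η))) (Continuous.stronglyMeasurable (by fun_prop))
    have z' := z.measurable
    exact Measurable.lintegral_prod_right' (f := fun p : E d × E d => ENNReal.ofReal
      (Real.exp (-V p.2 - ‖p.2 - p.1‖ ^ 2 / (2 * η)) /
        ∫ x, Real.exp (-V x - ‖x - p.1‖ ^ 2 / (2 * η))))
      (Measurable.ennreal_ofReal (Measurable.div (by fun_prop) (z'.comp measurable_fst)))
  refine ⟨fun y => P _ (by fun_prop) fun x => sub_le_self _ (by positivity), m, fun t => ?_,
    fun y a => ?_⟩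
  · refine Measure.measurable_of_measurable_coe _ fun s hs => ?_
    have f : Measurable fun p : E d × E d => p.1 + t • p.2 := by fun_prop
    simp only [sm, Measure.map_apply f hs, Measure.prod_apply (f hs)]
    exact (Measure.measurable_lintegral (measurable_measure_prodMk_left (f hs))).comp m
  · have r : 0 < √η := Real.sqrt_pos.2 hη
    set e : E d ≃ᵐ E d := (MeasurableEquiv.smul₀ √η r.ne').trans (MeasurableEquiv.addLeft a) with he
    have e1 : ∀ z, e z = a + √η • z := fun _ => rfl
    have e2 : (volume : Measure (E d)).map e =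
        ENNReal.ofReal |(√η ^ Module.finrank ℝ (E d))⁻¹| • volume := by
      rw [show (e : E d → E d) = (fun x => a + x) ∘ fun z => √η • z from rfl,
        ← Measure.map_map (by fun_prop) (by fun_prop), Measure.map_addHaar_smul _ r.ne',
        Measure.map_smul, map_add_left_eq_self]
    rw [prox, ← scale _ _ (κ := |(√η ^ Module.finrank ℝ (E d))⁻¹|) (by positivity)
      (‖a - y‖ ^ 2 / (2 * η)), ← e2, ← map_t, mu, gs_eq (h1 d), tilted_tilted (int d)]
    congr 2
    ext z
    rw [e1, Pi.add_apply, WW, add_sub_right_comm, norm_add_sq_real, norm_smul, mul_pow,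
      Real.norm_eq_abs, sq_abs, real_inner_smul_right]
    have k : ∀ q : ℝ, 0 < q → ∀ A B C D : ℝ, -A - (B + 2 * (q * C) + q ^ 2 * D) / (2 * q ^ 2) +
        B / (2 * q ^ 2) = -D / 2 + -(A + q⁻¹ * C) := fun q _ A B C D => by
      field_simp
      ring
    have := k _ r
    simp only [Real.sq_sqrt hη.le] at this ⊢
    exact this _ _ _ _

end

end Vale.Agent.P347
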