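import Vale.Agent.P347.Spec

open MeasureTheory ProbabilityTheory Finset
open scoped RealInnerProductSpace ENNReal

namespace Vale.Agent.P347

namespace Gib2m

variable {d : ℕ}

theorem gi {b : ℝ} (hb : 0 < b) : ∫ x : E d, Real.exp (-b * ‖x‖ ^ 2) = (Real.pi / b) ^ (d / 2 : ℝ) := by
  rw [GaussianFourier.integral_rexp_neg_mul_sq_norm hb, finrank_euclideanSpace_fin]

theorem gint {b : ℝ} (hb : 0 < b) : Integrable fun x : E d => Real.exp (-b * ‖x‖ ^ 2) :=
  Integrable.of_integral_ne_zero (by rw [gi hb]; positivity)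

theorem ker (h1 : StmtG1) {η : ℝ} (hη : 0 < η) : ∃ C : ℝ≥0∞, C ≠ ⊤ ∧
    ∀ (x : E d) (f : E d → ℝ≥0∞), Measurable f → ∫⁻ g, f (x + √η • g) ∂gs d =
      C * ∫⁻ y, ENNReal.ofReal (Real.exp (-(‖x - y‖ ^ 2 / (2 * η)))) * f y := by
  obtain ⟨c, hc, e⟩ := (h1 d).dens
  have t0 : 0 < √η := Real.sqrt_pos.2 hη
  refine ⟨ENNReal.ofReal c * ENNReal.ofReal |(√η ^ Module.finrank ℝ (E d))⁻¹|, by finiteness,
    fun x f hf => ?_⟩
  have m : Measurable fun y : E d =>
      ENNReal.ofReal (Real.exp (-(‖x - (x + y)‖ ^ 2 / (2 * η)))) * f (x + y) := by fun_prop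
  rw [e, lintegral_withDensity_eq_lintegral_mul _ (by fun_prop) (by fun_prop), mul_assoc,
    ← lintegral_add_left_eq_self
      (fun y => ENNReal.ofReal (Real.exp (-(‖x - y‖ ^ 2 / (2 * η)))) * f y) x, ← smul_eq_mul (ENNReal.ofReal |_|), ← lintegral_smul_measure,
    ← Measure.map_addHaar_smul _ t0.ne', lintegral_map m (by fun_prop),
    ← lintegral_const_mul' _ _ ENNReal.ofReal_ne_top]
  refine lintegral_congr fun g => ?_
  rw [Pi.mul_apply, ENNReal.ofReal_mul hc.le, mul_assoc, sub_add_cancel_left, norm_neg, norm_smul,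
    mul_pow, Real.norm_of_nonneg t0.le, Real.sq_sqrt hη.le]
  congr 4
  field_simp

end Gib2m

open Gib2m in
theorem stmtGib2 (h1 : StmtG1) (hCls : StmtCls) (hGib1 : StmtGib1) : StmtGib2 := by
  intro d V hV
  have hc := hCls d V hV
  have cV : Continuous V := hV.1.continuous
  obtain ⟨pr, hG⟩ := hGib1 d V hV
  have iV : Integrable fun x => Real.exp (-V x) :=
    (gint (b := 1 / 2) (by norm_num)).mono' (by fun_prop) (ae_of_all _ fun x => by
      rw [Real.norm_of_nonneg (Real.exp_pos _).le]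
      exact Real.exp_le_exp.2 (by linarith [hc.lo x]))
  have Z0 : 0 < ∫ x, Real.exp (-V x) := integral_exp_pos iV
  refine ⟨?_, fun η hη => ?_⟩
  · have pw : ∀ x, Real.exp (-V x) * Real.exp (‖x‖ ^ 2 / 4) ≤ Real.exp (-(1 / 4) * ‖x‖ ^ 2) :=
      fun x => by
        rw [← Real.exp_add]
        exact Real.exp_le_exp.2 (by linarith [hc.lo x])
    have i4 : Integrable fun x => Real.exp (-V x) * Real.exp (‖x‖ ^ 2 / 4) :=
      (gint (b := 1 / 4) (by norm_num)).mono' (by fun_prop) (ae_of_all _ fun x => by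
        rw [Real.norm_of_nonneg (by positivity)]
        exact pw x)
    have j4 : Integrable (fun x : E d => Real.exp (‖x‖ ^ 2 / 4)) (gibbs V) :=
      (integrable_tilted_iff iV _).2 i4
    have Z1 : Real.pi ^ (d / 2 : ℝ) ≤ ∫ x, Real.exp (-V x) := by
      have := integral_mono (gint one_pos) iV fun x => Real.exp_le_exp.2 (by linarith [hc.hi x])
      rwa [gi one_pos, div_one] at this
    have b4 : ∫ x, Real.exp (‖x‖ ^ 2 / 4) ∂gibbs V ≤ Real.exp d := by
      have a := integral_mono i4 (gint (b := 1 / 4) (by norm_num)) pw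
      rw [gi (by norm_num), div_div_eq_mul_div, div_one,
        Real.mul_rpow Real.pi_pos.le (by norm_num)] at a
      have a2 : (4 : ℝ) ^ (d / 2 : ℝ) ≤ Real.exp d := by
        rw [show (4 : ℝ) = 2 ^ (2 : ℝ) by norm_num, ← Real.rpow_mul (by norm_num),
          mul_div_cancel₀ _ two_ne_zero, ← Real.exp_one_rpow]
        exact Real.rpow_le_rpow (by norm_num) (by linarith [Real.add_one_le_exp 1])
          (Nat.cast_nonneg _)
      rw [gibbs, integral_tilted]
      simp only [smul_eq_mul, div_mul_eq_mul_div]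
      rw [integral_div, div_le_iff₀ Z0, mul_comm]
      exact a.trans (mul_le_mul Z1 a2 (by positivity) Z0.le)
    have jn : Integrable (fun x : E d => ‖x‖) (gibbs V) :=
      j4.mono' (by fun_prop) (ae_of_all _ fun x => by
        rw [norm_norm]
        nlinarith [Real.add_one_le_exp (‖x‖ ^ 2 / 4), sq_nonneg (‖x‖ - 2)])
    refine ⟨jn, ?_⟩
    rcases Nat.eq_zero_or_pos d with rfl | hd
    · simp [Subsingleton.elim _ (0 : E 0)]
    have s0 : 0 < √(d : ℝ) := Real.sqrt_pos.2 (by exact_mod_cast hd)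
    have s2 : √(d : ℝ) ^ 2 = d := Real.sq_sqrt (Nat.cast_nonneg _)
    have pt : ∀ x : E d, ‖x‖ ≤ (2 * √d - 1 / √d) +
        1 / √d / Real.exp d * Real.exp (‖x‖ ^ 2 / 4) := fun x => by
      have a := Real.add_one_le_exp (‖x‖ ^ 2 / 4 - d)
      rw [Real.exp_sub] at a
      rw [div_mul_eq_mul_div, mul_div_assoc]
      refine le_of_mul_le_mul_left ?_ s0
      field_simp
      field_simp at a
      nlinarith [sq_nonneg (‖x‖ - 2 * √d), Real.exp_pos (d : ℝ),
        mul_nonneg (sq_nonneg (‖x‖ - 2 * √d)) (Real.exp_pos (d : ℝ)).le]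
    refine (integral_mono jn ((integrable_const _).add (j4.const_mul _)) pt).trans ?_
    simp only [Pi.add_apply]
    rw [integral_add (integrable_const _) (j4.const_mul _), integral_const_mul, integral_const,
      probReal_univ, one_smul]
    have := mul_le_mul_of_nonneg_left b4 (by positivity : 0 ≤ 1 / √(d : ℝ) / Real.exp d)
    rw [div_mul_cancel₀ _ (Real.exp_pos _).ne'] at this
    linarith
  · obtain ⟨p1, p2, -⟩ := hG η hη
    obtain ⟨C, hC, k⟩ := ker (d := d) h1 hη
    obtain ⟨ρ, hρ⟩ : ∃ ρ : E d → ℝ≥0∞,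
      ρ = fun x => ENNReal.ofReal (Real.exp (-V x) / ∫ x, Real.exp (-V x)) := ⟨_, rfl⟩
    obtain ⟨κ, hκ⟩ : ∃ κ : E d → E d → ℝ≥0∞,
      κ = fun x y => ENNReal.ofReal (Real.exp (-(‖x - y‖ ^ 2 / (2 * η)))) := ⟨_, rfl⟩
    have mρ : Measurable ρ := by rw [hρ]; fun_prop
    have mκ : Measurable fun p : E d × E d => κ p.1 p.2 := by rw [hκ]; fun_prop
    have k1 : ∀ x, C * ∫⁻ y, κ x y = 1 := fun x => by
      simpa [hκ] using (k x (fun _ => 1) measurable_const).symm
    have J : ∀ y, ∃ A : ℝ≥0∞, ∀ s, MeasurableSet s →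
        ∫⁻ x in s, ρ x * κ x y = prox η V y s * A := fun y => by
      have iy : Integrable fun x => Real.exp (-V x - ‖x - y‖ ^ 2 / (2 * η)) :=
        iV.mono' (by fun_prop) (ae_of_all _ fun x => by
          rw [Real.norm_of_nonneg (Real.exp_pos _).le]
          exact Real.exp_le_exp.2 (sub_le_self _ (by positivity)))
      have Zy := integral_exp_pos iy
      refine ⟨ENNReal.ofReal ((∫ x, Real.exp (-V x - ‖x - y‖ ^ 2 / (2 * η))) /
        ∫ x, Real.exp (-V x)), fun s hs => ?_⟩
      rw [prox, tilted_apply' _ _ hs, ← lintegral_mul_const' _ _ ENNReal.ofReal_ne_top]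
      refine lintegral_congr fun x => ?_
      rw [hρ, hκ, ← ENNReal.ofReal_mul (by positivity), ← ENNReal.ofReal_mul (by positivity),
        div_mul_div_cancel₀ Zy.ne', sub_eq_add_neg (-V x), Real.exp_add, div_mul_eq_mul_div]
    ext s hs
    have mP : Measurable fun y => prox η V y s := (Measure.measurable_coe hs).comp p2
    have e1 : ∀ y, ∫⁻ x, ρ x * (κ x y * prox η V y s) = ∫⁻ x in s, ρ x * κ x y := fun y => by
      obtain ⟨A, hA⟩ := J y
      have a := hA _ MeasurableSet.univ
      have := p1 y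
      rw [Measure.restrict_univ, measure_univ, one_mul] at a
      simp only [← mul_assoc]
      rw [lintegral_mul_const' _ _ (measure_ne_top _ _), a, hA s hs, mul_comm]
    have mx : ∀ x, Measurable (κ x) := fun x => mκ.comp (measurable_const.prodMk measurable_id)
    have mQ : Measurable fun a : E d × E d => prox η V (a.1 + √η • a.2) s :=
      mP.comp (by fun_prop)
    rw [Measure.bind_apply hs p2.aemeasurable, sm, lintegral_map mP (by fun_prop),
      lintegral_prod _ mQ.aemeasurable]
    simp only [fun x => k x _ mP]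
    rw [gibbs, lintegral_tilted, tilted_apply' _ _ hs]
    calc _ = ∫⁻ x, C * ∫⁻ y, ρ x * (κ x y * prox η V y s) := lintegral_congr fun x => by
          rw [lintegral_const_mul _ (f := fun y => κ x y * prox η V y s) ((mx x).mul mP),
            mul_left_comm, hρ, hκ]
      _ = C * ∫⁻ y, ∫⁻ x in s, ρ x * κ x y := by
          rw [lintegral_const_mul' _ _ hC, lintegral_lintegral_swap
            (f := fun x y => ρ x * (κ x y * prox η V y s)) ((mρ.comp measurable_fst).mul (mκ.mul (mP.comp measurable_snd))).aemeasurable]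
          simp only [e1]
      _ = _ := by
          rw [← lintegral_lintegral_swap (f := fun x y => ρ x * κ x y)
            ((mρ.comp measurable_fst).mul mκ).aemeasurable,
            ← lintegral_const_mul' _ _ hC]
          refine lintegral_congr fun x => ?_
          rw [lintegral_const_mul _ (mx x), mul_left_comm, k1, mul_one, hρ]

end Vale.Agent.P347
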