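import Vale.Agent.P347.Spec2
import Vale.Agent.P347.FD
import Vale.Agent.P347.PA0

open MeasureTheory ProbabilityTheory Finset
open scoped RealInnerProductSpace ENNReal

namespace Vale.Agent.P347

noncomputable section

namespace HNm

variable {d : ℕ}

lemma cm {Ω : Type} [MeasurableSpace Ω] {μ : Measure Ω} (f : Ω → ℝ) (c b : ℝ) (hc : 0 ≤ c)
    (h : eLpNorm f 2 μ ≤ ENNReal.ofReal b) :
    eLpNorm (fun x => c * f x) 2 μ ≤ ENNReal.ofReal (c * b) := by
  have e : (fun x => c * f x) = c • f := rfl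
  rw [e, eLpNorm_const_smul, ENNReal.ofReal_mul hc, Real.enorm_eq_ofReal hc]
  gcongr

lemma nHH {ε : ℝ} {G : E d → E d} (hε : 0 ≤ ε) (hG : Nice ε G) (a : ℝ × ℝ × ℝ × ℝ) (w : E d)
    (z : E d × E d × E d) : ‖HH G a w z‖ ≤ |a.1| * ε ^ 2 := by
  have h : ∀ q, ‖fderiv ℝ G q‖ ≤ ε := fun q =>
    ContinuousLinearMap.opNorm_le_bound _ hε (FDm.nD hε hG q)
  unfold HH
  rw [norm_smul, Real.norm_eq_abs, sq]
  refine mul_le_mul_of_nonneg_left ((ContinuousLinearMap.opNorm_comp_le _ _).trans ?_) (abs_nonneg _)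
  exact mul_le_mul (h _) (h _) (norm_nonneg _) hε

lemma cov0 : CovF ((g3 d).map fun _ => (0 : E d)) = 0 := by
  rw [Measure.map_const, measure_univ, one_smul]
  unfold CovF
  rw [Measure.map_dirac' (by fun_prop)]
  simp [Fr]

lemma n3 (h : Gau1 d) : eLpNorm (fun x : E d => ‖x‖ ^ 3) 2 (gs d) ≤ ENNReal.ofReal (m6 d) := by
  have e : (fun x : E d => (‖x‖ ^ 3) ^ 2) = fun x => ‖x‖ ^ 6 := by
    funext x
    ring
  refine PA0m.eLp_le (by fun_prop) (by rw [e]; exact h.i2 6) (Real.sqrt_nonneg _) ?_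
  rw [e, m6, Real.sq_sqrt (integral_nonneg fun x => by positivity)]

end HNm

open HNm in
theorem stmtHN (h1 : StmtG1) (hFD : StmtFD) (hCv : StmtCv) (hHN0 : StmtHN0) (hHN1 : StmtHN1)
    (hMeas : StmtMeas) : StmtHN := by
  obtain ⟨C0, hC0, h0⟩ := hHN0
  obtain ⟨C1, hC1, hv⟩ := hHN1
  refine ⟨9 * C0 + 3 * C1, by linarith, fun d n ε κ δ G nd w hε hε1 hG hκ hδ hnd => ?_⟩
  have cG : Continuous G := hG.c1.continuous
  have cH : Continuous fun q : S3 d × E d => HV δ G w q.1 q.2 :=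
    ((hMeas d ⟨0, Fin.elim0, Fin.elim0, 0, δ⟩).1 G w cG).2
  have cH1 : ∀ a ξ, Continuous fun z => HV δ G w (a, z) ξ := fun a ξ =>
    cH.comp ((continuous_const.prodMk continuous_id).prodMk continuous_const)
  have bH : ∀ a ξ z, ‖HV δ G w (a, z) ξ‖ ≤ |a.1| * ε ^ 2 * ‖ξ‖ := fun a ξ =>
    (hFD d ε δ G w 0 ξ a hε hε1 hδ hG).1
  have mH : ∀ a ξ, MemLp (fun z => HV δ G w (a, z) ξ) 2 (g3 d) := fun a ξ =>
    MemLp.of_bound (cH1 a ξ).aestronglyMeasurable _ (Filter.Eventually.of_forall (bH a ξ))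
  have e2 : 0 ≤ ε ^ 2 := sq_nonneg _
  have mC : Measurable fun ξ => CovF ((g3 d).map fun z => HV2 δ nd G w z ξ) := by
    refine (hCv d).meas _ _ (g3 d) (fun q : E d × (E d × E d × E d) => HV2 δ nd G w q.2 q.1) ?_
    refine Continuous.measurable (continuous_finsetSum _ fun i _ => ?_)
    exact cH.comp ((continuous_const.prodMk continuous_snd).prodMk continuous_fst)
  refine ⟨?_, fun z ξ => ?_, fun ξ => ?_, mC, ?_⟩
  · refine (norm_sum_le _ _).trans ((sum_le_sum (g := fun i => |(nd i).1| * ε ^ 2) fun i _ => ?_).trans ?_)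
    · have := norm_integral_le_of_norm_le_const (μ := g3 d)
        (Filter.Eventually.of_forall (nHH hε hG (nd i) w))
      simpa using this
    · rw [← sum_mul]
      exact mul_le_mul_of_nonneg_right hnd.1 e2
  · refine (norm_sum_le _ _).trans ((sum_le_sum fun i _ => bH (nd i) ξ z).trans ?_)
    rw [← sum_mul, ← sum_mul]
    gcongr
    exact hnd.1
  · unfold HV2 Mh
    rw [integral_finsetSum _ fun i _ => (mH (nd i) ξ).integrable one_le_two,
      ContinuousLinearMap.sum_apply, ← sum_sub_distrib]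
    refine (norm_sum_le _ _).trans ((sum_le_card_nsmul _ _ _ fun i _ =>
      (hv d ε κ δ G (nd i) w ξ hε hε1 hG hκ hδ (hnd.2 i).1 (hnd.2 i).2).1).trans ?_)
    rw [card_univ, Fintype.card_fin, nsmul_eq_mul]
    calc _ = C1 * (n * δ * ‖ξ‖ ^ 2 / κ ^ 3) := by ring
      _ ≤ (9 * C0 + 3 * C1) * (n * δ * ‖ξ‖ ^ 2 / κ ^ 3) := by gcongr; linarith
      _ = _ := by ring
  · set y : Fin n → E d → ℝ := fun i ξ => √(CovF ((g3 d).map fun z => HH G (nd i) w z ξ)) with hy
    set f : Fin n → E d → ℝ := fun i ξ => 3 * |(nd i).1|⁻¹ * y i ξ + 3 * (C1 * δ / κ ^ 3) * ‖ξ‖ ^ 3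
      with hf
    have pt : ∀ ξ, √(CovF ((g3 d).map fun z => HV2 δ nd G w z ξ)) ≤ (∑ i, f i) ξ := by
      intro ξ
      have s := (hCv d).sum _ (g3 d) n (fun i z => HV δ G w (nd i, z) ξ)
        (fun i => (cH1 _ _).measurable) (fun i => mH _ _)
      have p : ∀ i, 0 ≤ |(nd i).1|⁻¹ * y i ξ + C1 * δ / κ ^ 3 * ‖ξ‖ ^ 3 := fun i => by
        have : 0 ≤ y i ξ := Real.sqrt_nonneg _
        positivity
      have t : ∀ i ∈ (univ : Finset (Fin n)), √(√(CovF ((g3 d).map fun z => HV δ G w (nd i, z) ξ))) ≤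
          √|(nd i).1| * √(|(nd i).1|⁻¹ * y i ξ + C1 * δ / κ ^ 3 * ‖ξ‖ ^ 3) := by
        intro i _
        rw [← Real.sqrt_mul (abs_nonneg _)]
        refine Real.sqrt_le_sqrt ?_
        by_cases hc : (nd i).1 = 0
        · have : (fun z => HV δ G w (nd i, z) ξ) = fun _ => 0 := by
            funext z
            simp [HV, hc]
          rw [this, cov0, hc]
          simp
        · refine (hv d ε κ δ G (nd i) w ξ hε hε1 hG hκ hδ (hnd.2 i).1 (hnd.2 i).2).2.trans_eq ?_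
          have := abs_pos.2 hc
          simp only [hy]
          field_simp
      have u := (s.trans (sum_le_sum t)).trans
        (Real.sum_sqrt_mul_sqrt_le _ (fun i => abs_nonneg _) p)
      rw [← Real.sqrt_mul (sum_nonneg fun i _ => abs_nonneg _),
        Real.sqrt_le_sqrt_iff (mul_nonneg (sum_nonneg fun i _ => abs_nonneg _)
          (sum_nonneg fun i _ => p i))] at u
      refine u.trans ((mul_le_mul_of_nonneg_right hnd.1 (sum_nonneg fun i _ => p i)).trans_eq ?_)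
      rw [Finset.sum_apply, mul_sum]
      refine sum_congr rfl fun i _ => ?_
      simp only [hf]
      ring
    have my : ∀ i, AEStronglyMeasurable (y i) (gs d) := fun i =>
      ((h0 d ε κ G (nd i) w hε hG hκ (hnd.2 i).1).1.sqrt).aestronglyMeasurable
    have m1 : ∀ i, AEStronglyMeasurable (fun ξ => 3 * |(nd i).1|⁻¹ * y i ξ) (gs d) := fun i =>
      (my i).const_mul _
    have m2 : AEStronglyMeasurable (fun ξ : E d => 3 * (C1 * δ / κ ^ 3) * ‖ξ‖ ^ 3) (gs d) := by fun_prop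
    have m60 : 0 ≤ m6 d := Real.sqrt_nonneg _
    have b : ∀ i ∈ (univ : Finset (Fin n)), eLpNorm (f i) 2 (gs d) ≤ ENNReal.ofReal
        (|(nd i).1| * (3 * C0 * ε ^ 4 * √d / κ) + 3 * (C1 * δ / κ ^ 3) * m6 d) := by
      intro i _
      have a1 := cm (y i) (3 * |(nd i).1|⁻¹) _ (by positivity) (h0 d ε κ G (nd i) w hε hG hκ (hnd.2 i).1).2
      have a2 := cm _ (3 * (C1 * δ / κ ^ 3)) _ (by positivity) (n3 (h1 d))
      refine (eLpNorm_add_le (m1 i) m2 one_le_two).trans ((add_le_add a1 a2).trans_eq ?_)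
      rw [← ENNReal.ofReal_add (by positivity) (by positivity)]
      congr 2
      rw [← sq_abs]
      by_cases hc : |(nd i).1| = 0
      · rw [hc]; simp
      · field_simp
    refine (eLpNorm_mono_real (g := ∑ i, f i) fun ξ => ?_).trans ?_
    · rw [Real.norm_of_nonneg (Real.sqrt_nonneg _)]
      exact pt ξ
    refine (eLpNorm_sum_le (fun i _ => (m1 i).add m2) one_le_two).trans ((sum_le_sum b).trans ?_)
    rw [← ENNReal.ofReal_sum_of_nonneg fun i _ => by positivity]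
    refine ENNReal.ofReal_le_ofReal ?_
    rw [sum_add_distrib, ← sum_mul, sum_const, card_univ, Fintype.card_fin, nsmul_eq_mul]
    have q1 : 0 ≤ ε ^ 4 * √d / κ := by positivity
    have q2 : 0 ≤ n * δ * m6 d / κ ^ 3 := by positivity
    calc _ ≤ 3 * (3 * C0 * ε ^ 4 * √d / κ) + n * (3 * (C1 * δ / κ ^ 3) * m6 d) := by
          gcongr
          exact hnd.1
      _ = 9 * C0 * (ε ^ 4 * √d / κ) + 3 * C1 * (n * δ * m6 d / κ ^ 3) := by ring
      _ ≤ _ := by nlinarith [mul_nonneg (by linarith : (0 : ℝ) ≤ C0) q2, mul_nonneg (by linarith : (0 : ℝ) ≤ C1) q1]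

end

end Vale.Agent.P347
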