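import Vale.Agent.P347.Spec2

open MeasureTheory ProbabilityTheory Finset
open scoped RealInnerProductSpace ENNReal

namespace Vale.Agent.P347

namespace HN0m

variable {d : ℕ}

theorem eLp {Ω : Type} [MeasurableSpace Ω] {μ : Measure Ω} {f : Ω → ℝ} {e : ℝ} (f0 : ∀ x, 0 ≤ f x)
    (hi : Integrable f μ) (he : 0 ≤ e) (h : ∫ x, f x ∂μ ≤ e ^ 2) :
    eLpNorm (fun x => √(f x)) 2 μ ≤ ENNReal.ofReal e := by
  have m : MemLp (fun x => √(f x)) 2 μ := (memLp_two_iff_integrable_sq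
    (Real.continuous_sqrt.comp_aestronglyMeasurable hi.1)).2 (by simpa only [Real.sq_sqrt (f0 _)] using hi)
  rw [m.eLpNorm_eq_integral_rpow_norm two_ne_zero ENNReal.ofNat_ne_top]
  refine ENNReal.ofReal_le_ofReal ?_
  simp only [ENNReal.toReal_ofNat, Real.rpow_ofNat, Real.norm_eq_abs, sq_abs, Real.sq_sqrt (f0 _)]
  refine (Real.rpow_le_rpow (integral_nonneg f0) h (by norm_num)).trans (le_of_eq ?_)
  exact_mod_cast Real.pow_rpow_inv_natCast (x := e) (n := 2) he two_ne_zero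

theorem ctr (A : E d →L[ℝ] E d) : ∃ L : (E d →L[ℝ] E d) →L[ℝ] ℝ, ∀ B, L B = trc (A.comp B) :=
  ⟨∑ i, ((innerSL ℝ (ee i)).comp A).comp (ContinuousLinearMap.apply ℝ (E d) (ee i)), fun B => by simp [trc]⟩

theorem main (h1 : Gau1 d) (hF : FoApi d) (hC : CvApi d) {Ω : Type} [TopologicalSpace Ω] [MeasurableSpace Ω]
    [BorelSpace Ω] [SecondCountableTopology Ω] (P : Measure Ω) [IsProbabilityMeasure P]
    {H : Ω → E d →L[ℝ] E d} (hH : Continuous H) {b V e : ℝ} (hb : ∀ z, ‖H z‖ ≤ b) (V0 : 0 ≤ V)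
    (hV : ∀ A : E d →L[ℝ] E d, ∫ z, trc (A.comp (H z)) ^ 2 ∂P - (∫ z, trc (A.comp (H z)) ∂P) ^ 2 ≤ V * Fo A)
    (he : 0 ≤ e) (he' : V * (d * (2 * b) ^ 2) + 8 * (d * (2 * b) ^ 4) ≤ e ^ 2) :
    eLpNorm (fun ξ => √(CovF (P.map fun z => H z ξ))) 2 (gs d) ≤ ENNReal.ofReal e := by
  have iH : Integrable H P := Integrable.of_bound hH.aestronglyMeasurable b (ae_of_all _ hb)
  obtain ⟨M, hM⟩ : ∃ M, M = ∫ z, H z ∂P := ⟨_, rfl⟩
  have nM : ‖M‖ ≤ b := by simpa [hM] using norm_integral_le_of_norm_le_const (μ := P) (ae_of_all _ hb)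
  have nD : ∀ z, ‖H z - M‖ ≤ 2 * b := fun z => (norm_sub_le _ _).trans (by linarith [hb z])
  have b0 : 0 ≤ b := (norm_nonneg _).trans nM
  have cQ : Continuous fun q : E d × Ω × Ω => ⟪(H q.2.1 - M) q.1, (H q.2.2 - M) q.1⟫ ^ 2 := by fun_prop
  have e1 : ∀ ξ, CovF (P.map fun z => H z ξ) = ∫ p, ⟪(H p.1 - M) ξ, (H p.2 - M) ξ⟫ ^ 2 ∂P.prod P := fun ξ => by
    have m : Measurable fun z => H z ξ := Continuous.measurable (by fun_prop)
    have := Measure.isProbabilityMeasure_map (μ := P) m.aemeasurable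
    rw [hC.two _ ((memLp_map_measure_iff aestronglyMeasurable_id m.aemeasurable).2
      (MemLp.of_bound m.aestronglyMeasurable (b * ‖ξ‖) (ae_of_all _ fun z =>
        ((H z).le_opNorm ξ).trans (by gcongr; exact hb z)))), Measure.map_prod_map _ _ m m,
      integral_map (m.prodMap m).aemeasurable (Continuous.aestronglyMeasurable (by fun_prop)),
      integral_map (f := fun y => y) m.aemeasurable aestronglyMeasurable_id, ← ContinuousLinearMap.integral_apply iH, ← hM]
    rfl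
  have iQ : Integrable (Function.uncurry fun (ξ : E d) (p : Ω × Ω) => ⟪(H p.1 - M) ξ, (H p.2 - M) ξ⟫ ^ 2)
      ((gs d).prod (P.prod P)) :=
    (((h1.i2 4).const_mul ((2 * b) ^ 4)).comp_fst _).mono' cQ.aestronglyMeasurable (ae_of_all _ fun q => by
      have a : ∀ z, ‖(H z - M) q.1‖ ≤ 2 * b * ‖q.1‖ := fun z =>
        ((H z - M).le_opNorm _).trans (by gcongr; exact nD z)
      calc _ = ‖⟪(H q.2.1 - M) q.1, (H q.2.2 - M) q.1⟫‖ ^ 2 := norm_pow _ _
        _ ≤ (2 * b * ‖q.1‖ * (2 * b * ‖q.1‖)) ^ 2 := by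
          gcongr; exact (norm_inner_le_norm _ _).trans (by gcongr <;> exact a _)
        _ = _ := by ring)
  simp only [e1]
  refine eLp (fun ξ => integral_nonneg fun _ => sq_nonneg _) iQ.integral_prod_left he (le_trans ?_ he')
  rw [integral_integral_swap iQ]
  have cT : Continuous fun p : Ω × Ω => trc ((ContinuousLinearMap.adjoint (H p.1 - M)).comp (H p.2 - M)) := by
    simp only [trc, ContinuousLinearMap.comp_apply, ContinuousLinearMap.adjoint_inner_right]
    fun_prop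
  have fD : ∀ z, Fo (H z - M) ≤ d * (2 * b) ^ 2 := fun z => (hF.dim _).trans (by gcongr; exact nD z)
  have iT : Integrable (fun p : Ω × Ω => trc ((ContinuousLinearMap.adjoint (H p.1 - M)).comp (H p.2 - M)) ^ 2)
      (P.prod P) := Integrable.of_bound (cT.pow 2).aestronglyMeasurable
        ((√(d * (2 * b) ^ 2) * √(d * (2 * b) ^ 2)) ^ 2) (ae_of_all _ fun p => by
      rw [norm_pow]
      refine pow_le_pow_left₀ (norm_nonneg _) ((hF.trcs _ _).trans ?_) 2
      rw [hF.adj]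
      exact mul_le_mul (Real.sqrt_le_sqrt (fD _)) (Real.sqrt_le_sqrt (fD _)) (Real.sqrt_nonneg _) (Real.sqrt_nonneg _))
  have i6 : Integrable (fun p : Ω × Ω => trc ((ContinuousLinearMap.adjoint (H p.1 - M)).comp (H p.2 - M)) ^ 2 +
      8 * (d * (2 * b) ^ 4)) (P.prod P) := iT.add (integrable_const _)
  refine (integral_mono_of_nonneg (ae_of_all _ fun p => integral_nonneg fun _ => sq_nonneg _) i6
    (ae_of_all _ fun p => ?_)).trans ?_
  · have := hF.quart ((ContinuousLinearMap.adjoint (H p.1 - M)).comp (H p.2 - M))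
    simp only [ContinuousLinearMap.comp_apply, ContinuousLinearMap.adjoint_inner_right] at this
    refine this.trans (add_le_add_right (mul_le_mul_of_nonneg_left ((hF.left _ _).trans ?_) (by norm_num)) _)
    rw [LinearIsometryEquiv.norm_map]
    calc _ ≤ (2 * b) ^ 2 * (d * (2 * b) ^ 2) :=
          mul_le_mul (pow_le_pow_left₀ (norm_nonneg _) (nD _) 2) (fD _)
            ((sq_nonneg _).trans (hF.op _)) (by positivity)
      _ = _ := by ring
  · rw [integral_add iT (integrable_const _), integral_prod _ iT]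
    simp only [integral_const, probReal_univ, one_smul]
    gcongr
    refine le_trans (integral_mono iT.integral_prod_left (integrable_const (V * (d * (2 * b) ^ 2))) fun z => ?_)
      (by simp)
    obtain ⟨L, hL⟩ := ctr (ContinuousLinearMap.adjoint (H z - M))
    have k := hV (ContinuousLinearMap.adjoint (H z - M))
    simp only [← hL, map_sub L] at k ⊢
    have m : MemLp (fun y => L (H y)) 2 P := L.comp_memLp' (MemLp.of_bound hH.aestronglyMeasurable b (ae_of_all _ hb))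
    have j1 := m.integrable one_le_two
    have e2 : ∀ y, (L (H y) - L M) ^ 2 = L (H y) ^ 2 - 2 * L M * L (H y) + L M ^ 2 := fun y => by ring
    have j2 : Integrable (fun y => L (H y) ^ 2 - 2 * L M * L (H y)) P := m.integrable_sq.sub (j1.const_mul _)
    simp only [e2]
    rw [integral_add j2 (integrable_const _), integral_sub m.integrable_sq (j1.const_mul _), integral_const_mul]
    rw [L.integral_comp_comm iH, ← hM, hF.adj] at k
    rw [L.integral_comp_comm iH, ← hM]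
    simp only [integral_const, probReal_univ, one_smul]
    nlinarith [mul_le_mul_of_nonneg_left (fD z) V0]

end HN0m

open HN0m in
theorem stmtHN0 (h1 : StmtG1) (hFo : StmtFo) (hCv : StmtCv) (hVT : StmtVT) : StmtHN0 := by
  obtain ⟨C, C1, hC⟩ := hVT
  refine ⟨2 * C + 12, by linarith, fun d ε κ G a w e0 hG k0 k1 => ?_⟩
  have cD : Continuous (fderiv ℝ G) := hG.c1.continuous_fderiv one_ne_zero
  have cH : Continuous (HH G a w) := by unfold HH qa qb; fun_prop
  have nD : ∀ x, ‖fderiv ℝ G x‖ ≤ ε := fun x =>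
    norm_fderiv_le_of_lip' ℝ e0 (Filter.Eventually.of_forall fun y => hG.lip y x)
  have k2 : κ ≤ 1 := k1.trans (Real.cos_le_one _)
  refine ⟨(hCv d).meas _ _ (g3 d) (fun q => HH G a w q.2 q.1) (Continuous.measurable (by fun_prop)),
    main (h1 d) (hFo d) (hCv d) (g3 d) cH (b := |a.1| * ε ^ 2) (V := C * a.1 ^ 2 * ε ^ 4 / κ ^ 2) (fun z => ?_)
      (by positivity) (fun A => (hC d ε κ G a w A e0 hG k0 k1).trans (le_of_eq (by ring))) (by positivity) ?_⟩
  · rw [HH, norm_smul, Real.norm_eq_abs, sq]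
    gcongr
    exact (ContinuousLinearMap.opNorm_comp_le _ _).trans (mul_le_mul (nD _) (nD _) (norm_nonneg _) e0)
  · have s : √(d : ℝ) ^ 2 = d := Real.sq_sqrt (by positivity)
    have t : (|a.1| * ε ^ 2) ^ 2 = a.1 ^ 2 * ε ^ 4 := by rw [mul_pow, sq_abs]; ring
    calc _ = (4 * C / κ ^ 2 + 128 / 1) * (d * (a.1 ^ 2 * ε ^ 4) ^ 2) := by
          rw [mul_pow 2, show (2 * (|a.1| * ε ^ 2)) ^ 4 = 16 * ((|a.1| * ε ^ 2) ^ 2) ^ 2 by ring, t]; ring
      _ ≤ (4 * C / κ ^ 2 + 128 / κ ^ 2) * (d * (a.1 ^ 2 * ε ^ 4) ^ 2) := by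
          gcongr; exact pow_le_one₀ k0.le k2
      _ = (4 * C + 128) * (d * (a.1 ^ 2 * ε ^ 4) ^ 2 / κ ^ 2) := by ring
      _ ≤ (2 * C + 12) ^ 2 * (d * (a.1 ^ 2 * ε ^ 4) ^ 2 / κ ^ 2) := by gcongr; nlinarith
      _ = _ := by rw [div_pow, mul_pow _ √(d : ℝ), s]; ring

end Vale.Agent.P347
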