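import Vale.Agent.P347.Spec2
import Vale.Agent.P347.FD

open MeasureTheory ProbabilityTheory Finset
open scoped RealInnerProductSpace ENNReal

namespace Vale.Agent.P347

noncomputable section

namespace HN1m

open FDm

variable {d : ℕ}

structure PS (B : E d →L[ℝ] E d) : Prop where
  sym : ∀ u v, ⟪B u, v⟫ = ⟪u, B v⟫
  psd : ∀ u, 0 ≤ ⟪u, B u⟫
  nrm : ∀ u, ‖B u‖ ≤ ‖u‖

lemma PS.bd {B : E d →L[ℝ] E d} (h : PS B) {y : E d} {b : ℝ} (hy : ‖y‖ ≤ b) : |⟪y, B y⟫| ≤ b ^ 2 :=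
  (abs_real_inner_le_norm _ _).trans (by
    rw [sq]; exact mul_le_mul hy ((h.nrm y).trans hy) (norm_nonneg _) ((norm_nonneg _).trans hy))

lemma leI {X : Type} [MeasurableSpace X] (μ : Measure X) [IsProbabilityMeasure μ] (F : X → ℝ)
    {K : ℝ} (hK : 0 ≤ K) (h : ∀ z, F z ≤ K) : ∫ z, F z ∂μ ≤ K := by
  by_cases hi : Integrable F μ
  · simpa using integral_mono hi (integrable_const K) h
  · rwa [integral_undef hi]

variable {ε δ : ℝ} {G : E d → E d}

lemma nD' (hε : 0 ≤ ε) (hε1 : ε ≤ 1) (hG : Nice ε G) (q v : E d) : ‖fderiv ℝ G q v‖ ≤ ‖v‖ :=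
  (nD hε hG q v).trans (mul_le_of_le_one_left (norm_nonneg v) hε1)

lemma nF' (hε1 : ε ≤ 1) (hδ : 0 < δ) (hG : Nice ε G) (q v : E d) : ‖FD G δ q v‖ ≤ ‖v‖ :=
  (nF hδ hG q v).trans (mul_le_of_le_one_left (norm_nonneg v) hε1)

lemma jen (hδ : 0 < δ) (hG : Nice ε G) {B : E d →L[ℝ] E d} (hB : PS B) (q v : E d) :
    ⟪FD G δ q v, B (FD G δ q v)⟫ ≤ ∫ r in (0 : ℝ)..1,
      ⟪fderiv ℝ G (q + (r * δ) • v) v, B (fderiv ℝ G (q + (r * δ) • v) v)⟫ := by
  have hc := cD hG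
  have h := ftc hδ hG (B (FD G δ q v)) q v
  generalize FD G δ q v = m at h ⊢
  have := intervalIntegral.integral_mono_on (μ := volume) zero_le_one
    (f := fun r : ℝ => 2 * ⟪B m, fderiv ℝ G (q + (r * δ) • v) v⟫ - ⟪m, B m⟫)
    (g := fun r : ℝ => ⟪fderiv ℝ G (q + (r * δ) • v) v, B (fderiv ℝ G (q + (r * δ) • v) v)⟫)
    (Continuous.intervalIntegrable (by fun_prop) _ _)
    (Continuous.intervalIntegrable (by fun_prop) _ _) fun r _ => by
      have := hB.psd (fderiv ℝ G (q + (r * δ) • v) v - m)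
      generalize fderiv ℝ G (q + (r * δ) • v) v = y at this ⊢
      rw [map_sub, inner_sub_left, inner_sub_right, inner_sub_right, ← hB.sym m y,
        real_inner_comm (B m) y] at this
      linarith
  rw [intervalIntegral.integral_sub (Continuous.intervalIntegrable (by fun_prop) _ _)
    (Continuous.intervalIntegrable (by fun_prop) _ _), intervalIntegral.integral_const_mul, ← h,
    intervalIntegral.integral_const, hB.sym] at this
  simp only [sub_zero, one_smul] at this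
  linarith

lemma key2 (h2 : Gau2 d) (hε : 0 ≤ ε) (hε1 : ε ≤ 1) (hδ : 0 < δ) (hG : Nice ε G)
    {B : E d →L[ℝ] E d} (hB : PS B) (x v : E d) {t b : ℝ} (ht : 0 < t) (hv : ‖v‖ ≤ b) :
    ∫ g, (⟪FD G δ (x + t • g) v, B (FD G δ (x + t • g) v)⟫ -
      ⟪fderiv ℝ G (x + t • g) v, B (fderiv ℝ G (x + t • g) v)⟫) ∂gs d ≤ 2 * δ * b ^ 3 / t := by
  have hc := cD hG
  have cG := hG.c1.continuous
  have b0 : 0 ≤ b := (norm_nonneg _).trans hv
  set φ : E d → ℝ := fun q => ⟪fderiv ℝ G q v, B (fderiv ℝ G q v)⟫ with hφ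
  have cφ : Continuous φ := by rw [hφ]; fun_prop
  have bφ : ∀ q, |φ q| ≤ b ^ 2 := fun q => hB.bd ((nD' hε hε1 hG q v).trans hv)
  have hi : Integrable (Function.uncurry fun (r : ℝ) (g : E d) =>
      φ (x + (r * δ) • v + t • g) - φ (x + t • g)) ((volume.restrict (Set.uIoc 0 1)).prod (gs d)) := by
    rw [Set.uIoc_of_le zero_le_one]
    refine intg _ _ (b ^ 2 + b ^ 2) ?_ fun z => ?_
    · unfold Function.uncurry; fun_prop
    · exact (abs_sub _ _).trans (add_le_add (bφ _) (bφ _))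
  refine (integral_mono (g := fun g => ∫ r in (0 : ℝ)..1,
    (φ (x + (r * δ) • v + t • g) - φ (x + t • g))) (intg _ _ (b ^ 2 + b ^ 2) (by unfold FD; fun_prop)
      fun g => (abs_sub _ _).trans (add_le_add (hB.bd ((nF' hε1 hδ hG _ v).trans hv)) (bφ _))) ?_
      fun g => ?_).trans ?_
  · have := hi.integral_prod_right
    simp only [intervalIntegral.integral_of_le zero_le_one]
    rwa [Set.uIoc_of_le zero_le_one] at this
  · have := jen hδ hG hB (x + t • g) v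
    simp only
    rw [intervalIntegral.integral_sub (Continuous.intervalIntegrable (by fun_prop) _ _)
      (Continuous.intervalIntegrable (by fun_prop) _ _)]
    simp only [intervalIntegral.integral_const, sub_zero, one_smul, hφ, ← add_right_comm x (t • g)]
    linarith
  rw [← intervalIntegral_integral_swap hi]
  have := intervalIntegral.norm_integral_le_of_norm_le_const (a := 0) (b := 1)
    (f := fun r : ℝ => ∫ g, (φ (x + (r * δ) • v + t • g) - φ (x + t • g)) ∂gs d)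
    (C := 2 * δ * b ^ 3 / t) fun r hr => by
      rw [Set.uIoc_of_le zero_le_one] at hr
      rw [integral_sub (intg _ _ _ (by fun_prop) fun g => bφ _)
        (intg _ _ _ (by fun_prop) fun g => bφ _)]
      refine (shiftM h2 _ t _ _ φ ht cφ.measurable bφ).trans ?_
      rw [add_sub_cancel_left, norm_smul, Real.norm_of_nonneg (mul_nonneg hr.1.le hδ.le)]
      have h3 : r * δ ≤ δ := mul_le_of_le_one_left hδ.le hr.2
      calc _ ≤ b ^ 2 * (2 * (δ * b) / t) := by gcongr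
        _ = _ := by ring
  exact (le_abs_self _).trans (by simpa using this)

lemma main2 (h2 : Gau2 d) (hε : 0 ≤ ε) (hε1 : ε ≤ 1) (hδ : 0 < δ) (hG : Nice ε G)
    {A : E d →L[ℝ] E d} (hA : PS A) (ξ x x' : E d) (s s' θ : ℝ) (hs : 0 < s) (hs' : 0 < s')
    (hθ : 0 < Real.cos θ) :
    ∫ z, ⟪FD G δ (qa x s θ z) (FD G δ (qb x' s' θ z) ξ),
        A (FD G δ (qa x s θ z) (FD G δ (qb x' s' θ z) ξ))⟫ ∂g3 d -
      ∫ z, ⟪fderiv ℝ G (qa x s θ z) (fderiv ℝ G (qb x' s' θ z) ξ),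
        A (fderiv ℝ G (qa x s θ z) (fderiv ℝ G (qb x' s' θ z) ξ))⟫ ∂g3 d ≤
      2 * δ * ‖ξ‖ ^ 3 / (s * Real.cos θ) + 2 * δ * ‖ξ‖ ^ 3 / (s' * Real.cos θ) := by
  have hc := cD hG
  have cG := hG.c1.continuous
  have ca : Continuous (qa x s θ) := by unfold qa; fun_prop
  have cb : Continuous (qb x' s' θ) := by unfold qb; fun_prop
  have nF1 := nF' hε1 hδ hG
  have nD1 := nD' hε hε1 hG
  set f0 : E d × E d × E d → ℝ := fun z => ⟪FD G δ (qa x s θ z) (FD G δ (qb x' s' θ z) ξ),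
    A (FD G δ (qa x s θ z) (FD G δ (qb x' s' θ z) ξ))⟫ with hf0
  set f1 : E d × E d × E d → ℝ := fun z => ⟪fderiv ℝ G (qa x s θ z) (FD G δ (qb x' s' θ z) ξ),
    A (fderiv ℝ G (qa x s θ z) (FD G δ (qb x' s' θ z) ξ))⟫ with hf1
  set f2 : E d × E d × E d → ℝ := fun z => ⟪fderiv ℝ G (qa x s θ z) (fderiv ℝ G (qb x' s' θ z) ξ),
    A (fderiv ℝ G (qa x s θ z) (fderiv ℝ G (qb x' s' θ z) ξ))⟫ with hf2
  have c0 : Continuous f0 := by rw [hf0]; unfold FD; fun_prop
  have c1 : Continuous f1 := by rw [hf1]; unfold FD; fun_prop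
  have c2 : Continuous f2 := by rw [hf2]; fun_prop
  have b0 : ∀ z, |f0 z| ≤ ‖ξ‖ ^ 2 := fun z => hA.bd ((nF1 _ _).trans (nF1 _ _))
  have b1 : ∀ z, |f1 z| ≤ ‖ξ‖ ^ 2 := fun z => hA.bd ((nD1 _ _).trans (nF1 _ _))
  have b2 : ∀ z, |f2 z| ≤ ‖ξ‖ ^ 2 := fun z => hA.bd ((nD1 _ _).trans (nD1 _ _))
  have ea : ∀ z1 z2 z3 : E d, qa x s θ (z1, z2, z3) =
      x + (s * Real.sin θ) • z1 + (s * Real.cos θ) • z2 := by
    intro z1 z2 z3
    simp only [qa, smul_add, smul_smul, add_assoc]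
  have eb : ∀ z1 z2 z3 : E d, qb x' s' θ (z1, z2, z3) =
      x' + (s' * Real.sin θ) • z1 + (s' * Real.cos θ) • z3 := by
    intro z1 z2 z3
    simp only [qb, smul_add, smul_smul, add_assoc]
  have p1 := mul_pos hs hθ
  have p2 := mul_pos hs' hθ
  have bA : ∀ z, |f0 z - f1 z| ≤ _ := fun z => (abs_sub _ _).trans (add_le_add (b0 z) (b1 z))
  have bB : ∀ z, |f1 z - f2 z| ≤ _ := fun z => (abs_sub _ _).trans (add_le_add (b1 z) (b2 z))
  have A1 : ∫ z, (f0 z - f1 z) ∂g3 d ≤ 2 * δ * ‖ξ‖ ^ 3 / (s * Real.cos θ) := by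
    rw [integral_prod _ (intg _ (fun z => f0 z - f1 z) _ (c0.sub c1) bA)]
    refine leI _ _ (by positivity) fun z1 => ?_
    rw [integral_prod_symm _ (intg _ (fun p => f0 (z1, p) - f1 (z1, p)) _ (by fun_prop) fun p => bA _)]
    refine leI _ _ (by positivity) fun z3 => ?_
    simp only [hf0, hf1, ea, eb]
    exact key2 h2 hε hε1 hδ hG hA _ _ p1 (nF1 _ _)
  have B1 : ∫ z, (f1 z - f2 z) ∂g3 d ≤ 2 * δ * ‖ξ‖ ^ 3 / (s' * Real.cos θ) := by
    rw [integral_prod _ (intg _ (fun z => f1 z - f2 z) _ (c1.sub c2) bB)]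
    refine leI _ _ (by positivity) fun z1 => ?_
    rw [integral_prod _ (intg _ (fun p => f1 (z1, p) - f2 (z1, p)) _ (by fun_prop) fun p => bB _)]
    refine leI _ _ (by positivity) fun z2 => ?_
    simp only [hf1, hf2, ea, eb]
    generalize x + (s * Real.sin θ) • z1 + (s * Real.cos θ) • z2 = q
    have := key2 h2 hε hε1 hδ hG (B := (fderiv ℝ G q).comp (A.comp (fderiv ℝ G q)))
      ⟨fun u v => by simp only [ContinuousLinearMap.comp_apply]; rw [hG.sym, hA.sym, hG.sym],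
        fun u => by simp only [ContinuousLinearMap.comp_apply]; rw [← hG.sym]; exact hA.psd _,
        fun u => (nD1 _ _).trans ((hA.nrm _).trans (nD1 _ _))⟩
      (x' + (s' * Real.sin θ) • z1) ξ p2 le_rfl
    simpa only [ContinuousLinearMap.comp_apply, ← hG.sym q] using this
  rw [integral_sub (intg _ _ _ c0 b0) (intg _ _ _ c1 b1)] at A1
  rw [integral_sub (intg _ _ _ c1 b1) (intg _ _ _ c2 b2)] at B1
  linarith

lemma cov (cv : CvApi d) (fo : FoApi d) {X Y : E d × E d × E d → E d} (cX : Continuous X)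
    (cY : Continuous Y) {b e e' : ℝ} (bX : ∀ z, ‖X z‖ ≤ b) (bY : ∀ z, ‖Y z‖ ≤ b)
    (h1 : ‖∫ z, X z ∂g3 d - ∫ z, Y z ∂g3 d‖ ≤ e)
    (h2 : ∀ A, PS A → ∫ z, ⟪X z, A (X z)⟫ ∂g3 d - ∫ z, ⟪Y z, A (Y z)⟫ ∂g3 d ≤ e') :
    √(CovF ((g3 d).map X)) ≤ √(CovF ((g3 d).map Y)) + (e' + 2 * b * e) := by
  have mX := cX.measurable.aemeasurable (μ := g3 d)
  have mY := cY.measurable.aemeasurable (μ := g3 d)
  have := Measure.isProbabilityMeasure_map mX
  have := Measure.isProbabilityMeasure_map mY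
  obtain ⟨A, a1, a2, a3, a4⟩ := cv.dual ((g3 d).map X) ((memLp_map_measure_iff
    aestronglyMeasurable_id mX).2 (.of_bound cX.aestronglyMeasurable b (.of_forall bX)))
  have a5 := cv.le ((g3 d).map Y) A ((memLp_map_measure_iff
    aestronglyMeasurable_id mY).2 (.of_bound cY.aestronglyMeasurable b (.of_forall bY))) a3
  have n : ∀ u, ‖A u‖ ≤ ‖u‖ := fun u => (A.le_opNorm u).trans (mul_le_of_le_one_left (norm_nonneg _)
    ((sq_le_one_iff₀ (norm_nonneg _)).1 ((fo.op A).trans a3)))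
  have h3 := h2 A ⟨a1, a2, n⟩
  have cq : Continuous fun x : E d => ⟪x, A x⟫ := by fun_prop
  rw [integral_map mX cq.aestronglyMeasurable, integral_map mX continuous_id'.aestronglyMeasurable]
    at a4
  rw [integral_map mY cq.aestronglyMeasurable, integral_map mY continuous_id'.aestronglyMeasurable]
    at a5
  have nX : ‖∫ z, X z ∂g3 d‖ ≤ b := by
    simpa using norm_integral_le_of_norm_le_const (μ := g3 d) (.of_forall bX)
  have nY : ‖∫ z, Y z ∂g3 d‖ ≤ b := by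
    simpa using norm_integral_le_of_norm_le_const (μ := g3 d) (.of_forall bY)
  generalize ∫ z, X z ∂g3 d = p at *
  generalize ∫ z, Y z ∂g3 d = q at *
  have e1 : ⟪q, A q⟫ - ⟪p, A p⟫ = -⟪p - q, A q⟫ - ⟪p - q, A p⟫ := by
    rw [inner_sub_left, inner_sub_left, ← a1 p q, real_inner_comm q (A p)]
    ring
  have e0 : 0 ≤ e := (norm_nonneg _).trans h1
  have c1 : |⟪p - q, A q⟫| ≤ e * b := (abs_real_inner_le_norm _ _).trans
    (mul_le_mul h1 ((n _).trans nY) (norm_nonneg _) e0)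
  have c2 : |⟪p - q, A p⟫| ≤ e * b := (abs_real_inner_le_norm _ _).trans
    (mul_le_mul h1 ((n _).trans nX) (norm_nonneg _) e0)
  linarith [neg_abs_le ⟪p - q, A q⟫, neg_abs_le ⟪p - q, A p⟫]

end HN1m

open HN1m FDm in
theorem stmtHN1 (_h1 : StmtG1) (h2 : StmtG2) (_hFD : StmtFD) (hFo : StmtFo) (hCv : StmtCv)
    (_hMeas : StmtMeas) : StmtHN1 := by
  refine ⟨24, by norm_num, fun d ε κ δ G a w ξ hε hε1 hG h0 hδ hκ ha => ?_⟩
  obtain ⟨c, τ, τ', θ⟩ := a
  simp only at hκ ha ⊢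
  rcases (abs_nonneg c).eq_or_lt with c0 | c0
  · obtain rfl : c = 0 := abs_eq_zero.1 c0.symm
    have e1 : ∀ z, HV δ G w ((0, τ, τ', θ), z) ξ = 0 := fun z => zero_smul _ _
    have e2 : ∀ z, HH G (0, τ, τ', θ) w z = 0 := fun z => by ext1 v; exact zero_smul ℝ _
    simp only [e1, e2, integral_zero, zero_apply, sub_self, norm_zero, abs_zero, mul_zero,
      zero_mul, zero_div, add_zero, le_refl, and_true]
    positivity
  have s1 : ∀ τ : ℝ, sg τ ≤ 1 := fun τ => Real.sqrt_le_one.2 (by nlinarith [sq_nonneg τ])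
  have s0 : ∀ τ : ℝ, 0 ≤ sg τ := fun τ => Real.sqrt_nonneg _
  have h3 : 0 < 2 * sg τ * sg τ' := lt_of_lt_of_le (by positivity) ha
  have hs : 0 < sg τ := (s0 _).lt_of_ne fun h => by rw [← h] at h3; simp at h3
  have hs' : 0 < sg τ' := (s0 _).lt_of_ne fun h => by rw [← h] at h3; simp at h3
  have hθ : 0 < Real.cos θ := h0.trans_le hκ
  have k : ∀ y : ℝ, 0 ≤ y →
      |c| * (y / (sg τ * Real.cos θ) + y / (sg τ' * Real.cos θ)) ≤ 4 * y / κ ^ 3 := fun y hy => by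
    have c1 : |c| ≤ 2 * sg τ * sg τ' / κ ^ 2 := by rw [le_div_iff₀ (by positivity)]; linarith
    have := s1 τ
    have := s1 τ'
    calc _ ≤ 2 * sg τ * sg τ' / κ ^ 2 * (y / (sg τ * κ) + y / (sg τ' * κ)) := by gcongr
      _ = 2 * y / κ ^ 3 * (sg τ' + sg τ) := by field_simp
      _ ≤ 2 * y / κ ^ 3 * (1 + 1) := by gcongr
      _ = _ := by ring
  have hc := cD hG
  have cG := hG.c1.continuous
  have ca : Continuous (qa (τ • w) (sg τ) θ) := by unfold qa; fun_prop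
  have cb : Continuous (qb (τ' • w) (sg τ') θ) := by unfold qb; fun_prop
  have cX : Continuous fun z => HV δ G w ((c, τ, τ', θ), z) ξ := by simp only [HV, FD]; fun_prop
  have cH : Continuous fun z => HH G (c, τ, τ', θ) w z :=
    ((hc.comp ca).clm_comp (hc.comp cb)).const_smul c
  have cY : Continuous fun z => HH G (c, τ, τ', θ) w z ξ := cH.clm_apply continuous_const
  have bX : ∀ z, ‖HV δ G w ((c, τ, τ', θ), z) ξ‖ ≤ |c| * ‖ξ‖ := fun z => by
    rw [HV, norm_smul, Real.norm_eq_abs]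
    exact mul_le_mul_of_nonneg_left ((nF' hε1 hδ hG _ _).trans (nF' hε1 hδ hG _ _)) c0.le
  have bH : ∀ z v, ‖HH G (c, τ, τ', θ) w z v‖ ≤ |c| * ‖v‖ := fun z v => by
    rw [HH, smul_apply, norm_smul, Real.norm_eq_abs]
    exact mul_le_mul_of_nonneg_left ((nD' hε hε1 hG _ _).trans (nD' hε hε1 hG _ _)) c0.le
  have iX : Integrable (fun z => HV δ G w ((c, τ, τ', θ), z) ξ) (g3 d) :=
    .of_bound cX.aestronglyMeasurable _ (.of_forall bX)
  have iY : Integrable (fun z => HH G (c, τ, τ', θ) w z ξ) (g3 d) :=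
    .of_bound cY.aestronglyMeasurable _ (.of_forall fun z => bH z ξ)
  have iH : Integrable (fun z => HH G (c, τ, τ', θ) w z) (g3 d) :=
    .of_bound cH.aestronglyMeasurable _ (.of_forall fun z =>
      ContinuousLinearMap.opNorm_le_bound _ c0.le (bH z))
  have m1 : ‖∫ z, HV δ G w ((c, τ, τ', θ), z) ξ ∂g3 d - ∫ z, HH G (c, τ, τ', θ) w z ξ ∂g3 d‖ ≤
      8 * δ * ‖ξ‖ ^ 2 / κ ^ 3 := by
    have q : ∀ u : E d, ⟪u, ∫ z, HV δ G w ((c, τ, τ', θ), z) ξ ∂g3 d -
        ∫ z, HH G (c, τ, τ', θ) w z ξ ∂g3 d⟫ ≤ 8 * δ * ‖ξ‖ ^ 2 / κ ^ 3 * ‖u‖ := fun u => by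
      have h4 := main (h2 d) hε hε1 hδ hG u ξ (τ • w) (τ' • w) _ _ θ hs hs' hθ
      rw [inner_sub_right, ← integral_inner iX, ← integral_inner iY]
      simp only [HV, HH, smul_apply, inner_smul_right, ContinuousLinearMap.comp_apply]
      rw [integral_const_mul, integral_const_mul, ← mul_sub]
      refine (le_abs_self _).trans ?_
      rw [abs_mul]
      exact ((mul_le_mul_of_nonneg_left h4 c0.le).trans (k _ (by positivity))).trans_eq (by ring)
    have := q (∫ z, HV δ G w ((c, τ, τ', θ), z) ξ ∂g3 d - ∫ z, HH G (c, τ, τ', θ) w z ξ ∂g3 d)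
    rw [real_inner_self_eq_norm_mul_norm] at this
    rcases (norm_nonneg (∫ z, HV δ G w ((c, τ, τ', θ), z) ξ ∂g3 d -
      ∫ z, HH G (c, τ, τ', θ) w z ξ ∂g3 d)).eq_or_lt with h | h
    · rw [← h]; positivity
    · exact le_of_mul_le_mul_right this h
  refine ⟨?_, (cov (hCv d) (hFo d) cX cY bX (fun z => bH z ξ) m1
    (e' := |c| * (4 * (2 * δ * ‖ξ‖ ^ 3) / κ ^ 3)) fun A hA => ?_).trans_eq (by ring)⟩
  · rw [ContinuousLinearMap.integral_apply iH]
    exact m1.trans (by gcongr; norm_num)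
  · have h4 := main2 (h2 d) hε hε1 hδ hG hA ξ (τ • w) (τ' • w) _ _ θ hs hs' hθ
    simp only [HV, HH, smul_apply, map_smul, inner_smul_right, real_inner_smul_left,
      ContinuousLinearMap.comp_apply, integral_const_mul]
    rw [← mul_sub, ← mul_sub, ← mul_assoc, ← abs_mul_abs_self c, mul_assoc]
    exact mul_le_mul_of_nonneg_left ((mul_le_mul_of_nonneg_left h4 c0.le).trans
      (k _ (by positivity))) c0.le

end

end Vale.Agent.P347
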