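import Vale.Agent.P347.Spec2

open MeasureTheory ProbabilityTheory Finset Filter
open scoped RealInnerProductSpace ENNReal

namespace Vale.Agent.P347

namespace Hbm

variable {d : ℕ} {ε : ℝ} {G : E d → E d}

theorem dle {Y : Type} [NormedAddCommGroup Y] [NormedSpace ℝ Y] {F : E d → Y} {K : ℝ} (hK : 0 ≤ K)
    (h : LipF K F) (x : E d) : ‖fderiv ℝ F x‖ ≤ K := by
  have : LipschitzWith ⟨K, hK⟩ F := LipschitzWith.of_dist_le_mul fun x y => by
    rw [dist_eq_norm, dist_eq_norm]; exact h x y
  exact norm_fderiv_le_of_lipschitz ℝ this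

theorem cD (h : Nice ε G) : Continuous (fderiv ℝ G) := h.c1.continuous_fderiv one_ne_zero

theorem iD (hε : 0 ≤ ε) (h : Nice ε G) {X : Type} [MeasurableSpace X] [TopologicalSpace X]
    [OpensMeasurableSpace X] [SecondCountableTopology X] (μ : Measure X) [IsFiniteMeasure μ]
    {f : X → E d} (hf : Continuous f) : Integrable (fun g => fderiv ℝ G (f g)) μ :=
  (integrable_const ε).mono' ((cD h).comp hf).aestronglyMeasurable
    (Eventually.of_forall fun _ => dle hε h.lip _)

theorem two (h2 : Gau2 d) (hε : 0 ≤ ε) (h : Nice ε G) (x : E d) (a b : ℝ) :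
    ∫ g, ∫ g', fderiv ℝ G (x + (a • g + b • g')) ∂gs d ∂gs d =
      ∫ g, fderiv ℝ G (x + √(a ^ 2 + b ^ 2) • g) ∂gs d := by
  have c := cD h
  have s := h2.sum a b
  have c1 : Continuous fun y : E d => fderiv ℝ G (x + y) := by fun_prop
  have m1 : Measurable fun p : E d × E d => a • p.1 + b • p.2 := by fun_prop
  have m2 : Measurable fun y : E d => √(a ^ 2 + b ^ 2) • y := by fun_prop
  have i1 : Integrable (fun p : E d × E d => fderiv ℝ G (x + (a • p.1 + b • p.2)))
      ((gs d).prod (gs d)) := iD hε h _ (by fun_prop)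
  have i2 := integral_map (μ := (gs d).prod (gs d)) m1.aemeasurable c1.aestronglyMeasurable
  rw [s, integral_map m2.aemeasurable c1.aestronglyMeasurable] at i2
  rw [i2, integral_prod _ i1]

theorem gle (h : Nice ε G) (y : E d) : ‖G y‖ ≤ ε * (1 + ‖y‖) := by
  have a := h.lip y 0
  have b := norm_sub_norm_le (G y) (G 0)
  rw [sub_zero] at a
  linarith [h.zero]

theorem sg_sq {τ : ℝ} (hτ : τ ^ 2 ≤ 1) : sg τ ^ 2 = 1 - τ ^ 2 := Real.sq_sqrt (by linarith)

theorem ent (hε : 0 ≤ ε) (h : Nice ε G) (x : E d) (σ : ℝ) (u v : E d) :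
    ⟪u, (∫ g, fderiv ℝ G (x + σ • g) ∂gs d) v⟫ = ∫ g, ⟪u, fderiv ℝ G (x + σ • g) v⟫ ∂gs d := by
  have i := iD hε h (gs d) (f := fun g => x + σ • g) (by fun_prop)
  rw [ContinuousLinearMap.integral_apply i, ← integral_inner (i.apply_continuousLinearMap v)]

theorem flip0 (hS : SMApi d) (hε : 0 ≤ ε) (h : Nice ε G) (σ : ℝ) (hσ : 0 < σ) (x y : E d) :
    σ ^ 2 * Fo (∫ g, fderiv ℝ G (x + σ • g) ∂gs d - ∫ g, fderiv ℝ G (y + σ • g) ∂gs d) ≤
      ε ^ 2 * ‖x - y‖ ^ 2 := by
  have c1 := h.c1
  have cG := c1.continuous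
  have dG := c1.differentiable one_ne_zero
  let φ : Fin d → E d → ℝ := fun i z => ⟪ee i, G (x + z) - G (y + z)⟫
  have ne : ∀ i : Fin d, ‖(ee i : E d)‖ = 1 := fun i => by simp [ee]
  have nb : ∀ z, ‖G (x + z) - G (y + z)‖ ≤ ε * ‖x - y‖ := fun z => by
    simpa using h.lip (x + z) (y + z)
  have pb : ∀ i z, |φ i z| ≤ ε * ‖x - y‖ := fun i z =>
    (abs_real_inner_le_norm _ _).trans (by rw [ne, one_mul]; exact nb z)
  have pc : ∀ i, ContDiff ℝ 1 (φ i) := fun i =>
    contDiff_const.inner ℝ ((c1.comp (contDiff_const.add contDiff_id)).sub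
      (c1.comp (contDiff_const.add contDiff_id)))
  have pl : ∀ i, LipF (2 * ε) (φ i) := fun i z z' => by
    have a := h.lip (x + z) (x + z')
    have b := h.lip (y + z) (y + z')
    rw [add_sub_add_left_eq_sub] at a b
    simp only [φ]
    rw [← inner_sub_right, Real.norm_eq_abs]
    refine (abs_real_inner_le_norm _ _).trans ?_
    rw [ne, one_mul, sub_sub_sub_comm]
    linarith [norm_sub_le (G (x + z) - G (x + z')) (G (y + z) - G (y + z'))]
  have lg : ∀ i, LG (φ i) := fun i => ⟨(pc i).continuous.measurable, ε * ‖x - y‖, fun z =>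
    (pb i z).trans (le_mul_of_one_le_right (by positivity) (by linarith [norm_nonneg z]))⟩
  have der : ∀ i z v, fderiv ℝ (φ i) z v =
      ⟪ee i, fderiv ℝ G (x + z) v⟫ - ⟪ee i, fderiv ℝ G (y + z) v⟫ := fun i z v => by
    have a : HasFDerivAt (fun z => G (x + z)) (fderiv ℝ G (x + z)) z :=
      by
        have q := (dG (x + z)).hasFDerivAt.comp z ((hasFDerivAt_id z).const_add x)
        rw [ContinuousLinearMap.comp_id] at q
        exact q
    have b : HasFDerivAt (fun z => G (y + z)) (fderiv ℝ G (y + z)) z :=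
      by
        have q := (dG (y + z)).hasFDerivAt.comp z ((hasFDerivAt_id z).const_add y)
        rw [ContinuousLinearMap.comp_id] at q
        exact q
    have c := (innerSL ℝ (ee i : E d)).hasFDerivAt.comp z (a.sub b)
    have e : fderiv ℝ (φ i) z = _ := c.fderiv
    rw [e]
    simp [inner_sub_right]
  have en : ∀ i j, ⟪ee i, (∫ g, fderiv ℝ G (x + σ • g) ∂gs d -
      ∫ g, fderiv ℝ G (y + σ • g) ∂gs d) (ee j)⟫ = Si σ j (φ i) 0 := fun i j => by
    have ia := (iD hε h (gs d) (f := fun g => x + σ • g) (by fun_prop)).apply_continuousLinearMap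
      (ee j)
    have ib := (iD hε h (gs d) (f := fun g => y + σ • g) (by fun_prop)).apply_continuousLinearMap
      (ee j)
    rw [hS.c1 σ _ _ hσ (pc i) (pl i), ContinuousLinearMap.sub_apply, inner_sub_right, ent hε h,
      ent hε h, ← integral_sub (ia.const_inner _) (ib.const_inner _)]
    simp only [der, zero_add]
  have ip : ∀ i, Integrable (fun g => φ i (0 + σ • g) ^ 2) (gs d) := fun i =>
    (hS.sqi σ _ (lg i) 0).integrable_sq
  unfold Fo Fq
  simp only [en]
  have b1 : ∀ i, σ ^ 2 * ∑ j, Si σ j (φ i) 0 ^ 2 ≤ ∫ g, φ i (0 + σ • g) ^ 2 ∂gs d := fun i => by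
    have := hS.bes σ _ hσ (lg i) 0
    rw [le_div_iff₀ (by positivity)] at this
    nlinarith [sq_nonneg (SS σ (φ i) 0)]
  rw [Finset.mul_sum]
  refine (Finset.sum_le_sum fun i _ => b1 i).trans ?_
  rw [← integral_finsetSum _ fun i _ => ip i]
  have := integral_mono (μ := gs d) (integrable_finsetSum _ fun i _ => ip i)
    (integrable_const (ε ^ 2 * ‖x - y‖ ^ 2)) fun g => by
      have e : ∑ i, φ i (0 + σ • g) ^ 2 = ‖G (x + (0 + σ • g)) - G (y + (0 + σ • g))‖ ^ 2 := by
        rw [EuclideanSpace.real_norm_sq_eq]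
        refine Finset.sum_congr rfl fun i _ => ?_
        simp only [φ, ee, EuclideanSpace.inner_single_left, map_one, one_mul]
      simp only
      rw [e, ← mul_pow]
      exact pow_le_pow_left₀ (norm_nonneg _) (nb _) 2
  simpa using this

theorem flip1 (h2 : Gau2 d) (hS : SMApi d) (hε : 0 ≤ ε) (h : Nice ε G) (σ : ℝ) (x y : E d) :
    σ ^ 2 * Fo (∫ g, fderiv ℝ G (x + σ • g) ∂gs d - ∫ g, fderiv ℝ G (y + σ • g) ∂gs d) ≤
      ε ^ 2 * ‖x - y‖ ^ 2 := by
  by_cases h0 : σ = 0
  · subst h0
    simp only [ne_eq, OfNat.ofNat_ne_zero, not_false_eq_true, zero_pow, zero_mul]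
    positivity
  have e : ∀ x : E d, ∫ g, fderiv ℝ G (x + σ • g) ∂gs d = ∫ g, fderiv ℝ G (x + |σ| • g) ∂gs d :=
    fun x => by
      have := two h2 hε h x σ 0
      simpa [Real.sqrt_sq_eq_abs] using this
  rw [e x, e y, ← sq_abs]
  exact flip0 hS hε h |σ| (abs_pos.2 h0) x y

end Hbm

open Hbm in
theorem stmtHb (h1 : StmtG1) (h2 : StmtG2) (hSM : StmtSM) (_hFo : StmtFo) : StmtHb := by
  intro d ε G hε h
  have c := cD h
  have cG := h.c1.continuous
  have dG := h.c1.differentiable one_ne_zero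
  refine ⟨fun τ w => ?_, fun τ => ?_, fun τ w => ?_, fun τ w u v => ?_, fun w => ?_,
    fun τ τ' w hτ hτ' => ?_, fun τ x y hτ => ?_, flip1 (h2 d) (hSM d) hε h⟩
  · have i1 : Integrable (fun g : E d => G (τ • w + sg τ • g)) (gs d) := by
      have j := (h1 d).i2 1
      simp only [pow_one] at j
      refine (((integrable_const (1 + ‖τ • w‖)).add (j.const_mul |sg τ|)).const_mul ε).mono'
        (Continuous.aestronglyMeasurable (by fun_prop)) (Eventually.of_forall fun g => ?_)
      refine (gle h _).trans (mul_le_mul_of_nonneg_left ?_ hε)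
      have := norm_add_le (τ • w) (sg τ • g)
      rw [norm_smul (sg τ), Real.norm_eq_abs] at this
      simp only [Pi.add_apply]
      linarith
    have := hasFDerivAt_integral_of_dominated_of_fderiv_le (μ := gs d) (x₀ := w)
      (F := fun x g => G (τ • x + sg τ • g)) (F' := fun x g => τ • fderiv ℝ G (τ • x + sg τ • g))
      (bound := fun _ => |τ| * ε) univ_mem
      (Eventually.of_forall fun x => Continuous.aestronglyMeasurable (by fun_prop)) i1
      (Continuous.aestronglyMeasurable (by fun_prop))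
      (Eventually.of_forall fun g x _ => by
        rw [norm_smul, Real.norm_eq_abs]
        exact mul_le_mul_of_nonneg_left (dle hε h.lip _) (abs_nonneg _))
      (integrable_const _) (Eventually.of_forall fun g x _ => by
        have a : HasFDerivAt (fun x : E d => τ • x + sg τ • g)
            (τ • ContinuousLinearMap.id ℝ (E d)) x :=
          ((hasFDerivAt_id x).const_smul τ).add_const _
        have b := (dG (τ • x + sg τ • g)).hasFDerivAt.comp x a
        rw [ContinuousLinearMap.comp_smul, ContinuousLinearMap.comp_id] at b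
        exact b)
    rw [integral_smul] at this
    exact this
  · exact continuous_of_dominated (bound := fun _ => ε)
      (fun x => Continuous.aestronglyMeasurable (by fun_prop))
      (fun x => Eventually.of_forall fun g => dle hε h.lip _) (integrable_const _)
      (Eventually.of_forall fun g => by fun_prop)
  · unfold Hb
    simpa using norm_integral_le_of_norm_le_const (μ := gs d) (C := ε)
      (f := fun g => fderiv ℝ G (τ • w + sg τ • g)) (Eventually.of_forall fun g => dle hε h.lip _)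
  · unfold Hb
    rw [real_inner_comm, ent hε h, ent hε h]
    congr 1
    funext g
    rw [real_inner_comm, h.sym]
  · simp [Hb, sg]
  · have e : √((τ' * sg τ) ^ 2 + sg τ' ^ 2) = sg (τ * τ') := by
      rw [mul_pow, sg_sq hτ, sg_sq hτ', sg]; congr 1; ring
    unfold OM Hb
    rw [← e, ← two (h2 d) hε h]
    congr 1; funext g; congr 1; funext g'; congr 1
    simp only [smul_add, smul_smul]
    rw [mul_comm τ' τ, add_assoc]
  · refine (flip1 (h2 d) (hSM d) hε h (sg τ) (τ • x) (τ • y)).trans ?_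
    rw [← smul_sub, norm_smul, mul_pow, Real.norm_eq_abs, sq_abs]
    exact mul_le_mul_of_nonneg_left (mul_le_of_le_one_left (sq_nonneg _) hτ) (sq_nonneg _)

end Vale.Agent.P347
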