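import Vale.Agent.P347.Spec

open MeasureTheory ProbabilityTheory
open scoped RealInnerProductSpace

namespace Vale.Agent.P347

namespace IBPm

variable {d : ℕ}

lemma lip_abs {X Y : Type} [NormedAddCommGroup X] [NormedAddCommGroup Y] {K : ℝ} {F : X → Y}
    (h : LipF K F) : LipF |K| F := fun x y =>
  (h x y).trans (mul_le_mul_of_nonneg_right (le_abs_self K) (norm_nonneg _))

lemma fderiv_le {Y : Type} [NormedAddCommGroup Y] [NormedSpace ℝ Y] {K : ℝ} {F : E d → Y}
    (h : LipF K F) (x : E d) : ‖fderiv ℝ F x‖ ≤ |K| :=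
  norm_fderiv_le_of_lip' ℝ (abs_nonneg K) (Filter.Eventually.of_forall fun y => lip_abs h y x)

lemma grow {Y : Type} [NormedAddCommGroup Y] {K : ℝ} {F : E d → Y} (h : LipF K F) (x : E d) :
    ‖F x‖ ≤ ‖F 0‖ + |K| * ‖x‖ := by
  have h1 := lip_abs h x 0
  rw [sub_zero] at h1
  have h2 := norm_le_insert' (F x) (F 0)
  linarith

lemma hasF (c : ℝ) (x : E d) : HasFDerivAt (fun x : E d => c * Real.exp (-‖x‖ ^ 2 / 2))
    ((-(c * Real.exp (-‖x‖ ^ 2 / 2))) • innerSL ℝ x) x := by
  have h1 : HasFDerivAt (fun x : E d => ‖x‖ ^ 2) (2 • innerSL ℝ x) x :=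
    (hasStrictFDerivAt_norm_sq x).hasFDerivAt
  have h2 := (((h1.neg).mul_const (1 / 2 : ℝ)).exp).const_mul c
  have e1 : (fun x : E d => c * Real.exp (-‖x‖ ^ 2 / 2)) =
      fun y => c * Real.exp ((-fun x : E d => ‖x‖ ^ 2) y * (1 / 2)) := by
    ext y; simp [div_eq_mul_inv]
  rw [e1]
  refine h2.congr_fderiv ?_
  ext y
  simp [div_eq_mul_inv]
  ring

end IBPm

open IBPm in
theorem stmtIBP (h1 : StmtG1) : StmtIBP := by
  intro d K F v hF hL
  obtain ⟨c, hc, hd⟩ := (h1 d).dens
  set ρ : E d → ℝ := fun x => c * Real.exp (-‖x‖ ^ 2 / 2) with hρ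
  have hρ0 : ∀ x, 0 ≤ ρ x := fun x => by positivity
  have hρc : Continuous ρ := by fun_prop
  have hm : Measurable fun x => ENNReal.ofReal (ρ x) := hρc.measurable.ennreal_ofReal
  have hlt : ∀ᵐ x ∂(volume : Measure (E d)), ENNReal.ofReal (ρ x) < ⊤ :=
    Filter.Eventually.of_forall fun x => ENNReal.ofReal_lt_top
  have hI : ∀ g : E d → ℝ, ∫ x, g x ∂gs d = ∫ x, ρ x * g x := by
    intro g
    rw [hd, integral_withDensity_eq_integral_toReal_smul hm hlt]
    simp only [ENNReal.toReal_ofReal (hρ0 _), smul_eq_mul]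
  have hJ : ∀ g : E d → ℝ, Integrable g (gs d) → Integrable fun x => ρ x * g x := by
    intro g hg
    rw [hd, integrable_withDensity_iff_integrable_smul' hm hlt] at hg
    simpa only [ENNReal.toReal_ofReal (hρ0 _), smul_eq_mul] using hg
  have hFc : Continuous F := hF.continuous
  have hDc : Continuous fun x => fderiv ℝ F x v :=
    (hF.continuous_fderiv one_ne_zero).clm_apply continuous_const
  have i0 := (h1 d).i2 0
  have i1 := (h1 d).i2 1
  have i2 := (h1 d).i2 2
  have a1 : Integrable F (gs d) := by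
    refine ((i0.const_mul ‖F 0‖).add (i1.const_mul |K|)).mono' hFc.aestronglyMeasurable
      (Filter.Eventually.of_forall fun x => ?_)
    simpa using grow hL x
  have a2 : Integrable (fun x => fderiv ℝ F x v) (gs d) := by
    refine (integrable_const (|K| * ‖v‖)).mono' hDc.aestronglyMeasurable
      (Filter.Eventually.of_forall fun x => ?_)
    exact ((fderiv ℝ F x).le_opNorm v).trans
      (mul_le_mul_of_nonneg_right (fderiv_le hL x) (norm_nonneg _))
  have a3 : Integrable (fun x => ⟪v, x⟫ * F x) (gs d) := by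
    refine ((i1.const_mul (‖v‖ * ‖F 0‖)).add (i2.const_mul (‖v‖ * |K|))).mono'
      (by fun_prop) (Filter.Eventually.of_forall fun x => ?_)
    rw [norm_mul]
    have e1 := norm_inner_le_norm (𝕜 := ℝ) v x
    have e2 := grow hL x
    calc ‖⟪v, x⟫‖ * ‖F x‖ ≤ (‖v‖ * ‖x‖) * (‖F 0‖ + |K| * ‖x‖) :=
          mul_le_mul e1 e2 (norm_nonneg _) (by positivity)
      _ = _ := by simp only [Pi.add_apply]; ring
  have hD : ∀ x, fderiv ℝ ρ x v * F x = -(ρ x * (⟪v, x⟫ * F x)) := by
    intro x
    rw [(hasF c x).fderiv]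
    simp only [hρ, ContinuousLinearMap.smul_apply, innerSL_apply_apply, smul_eq_mul,
      real_inner_comm v x]
    ring
  have key := integral_mul_fderiv_eq_neg_fderiv_mul_of_integrable (μ := (volume : Measure (E d)))
    (f := ρ) (g := F) (v := v) (by simp only [hD]; exact (hJ _ a3).neg) (hJ _ a2) (hJ _ a1)
    (fun x _ => (hasF c x).differentiableAt)
    (fun x _ => (hF.differentiable one_ne_zero) x)
  rw [hI, hI, key]
  simp only [hD, integral_neg, neg_neg]

end Vale.Agent.P347
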