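import Vale.Agent.P347.IBP
import Vale.Agent.P347.Spec2

open MeasureTheory ProbabilityTheory
open scoped RealInnerProductSpace

namespace Vale.Agent.P347

open IBPm in
theorem stmtIBP2 (h1 : StmtG1) : StmtIBP2 := by
  intro d B F v hF hB hB2
  obtain ⟨c, hc, hd⟩ := (h1 d).dens
  set ρ : E d → ℝ := fun x => c * Real.exp (-‖x‖ ^ 2 / 2) with hρ
  have hρ0 : ∀ x, 0 ≤ ρ x := fun x => by positivity
  have hρc : Continuous ρ := by fun_prop
  have hm : Measurable fun x => ENNReal.ofReal (ρ x) := hρc.measurable.ennreal_ofReal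
  have hlt : ∀ᵐ x ∂(volume : Measure (E d)), ENNReal.ofReal (ρ x) < ⊤ :=
    Filter.Eventually.of_forall fun x => ENNReal.ofReal_lt_top
  have hI : ∀ g : E d → ℝ, ∫ x, g x ∂gs d = ∫ x, ρ x * g x := by
    intro g
    rw [hd, integral_withDensity_eq_integral_toReal_smul hm hlt]
    simp only [ENNReal.toReal_ofReal (hρ0 _), smul_eq_mul]
  have hJ : ∀ g : E d → ℝ, Integrable g (gs d) → Integrable fun x => ρ x * g x := by
    intro g hg
    rw [hd, integrable_withDensity_iff_integrable_smul' hm hlt] at hg
    simpa only [ENNReal.toReal_ofReal (hρ0 _), smul_eq_mul] using hg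
  have hFc : Continuous F := hF.continuous
  have hDc : Continuous fun x => fderiv ℝ F x v :=
    (hF.continuous_fderiv one_ne_zero).clm_apply continuous_const
  have i0 := (h1 d).i2 0
  have i1 := (h1 d).i2 1
  have i2 := (h1 d).i2 2
  have i3 := (h1 d).i2 3
  have j2 : Integrable (fun x : E d => (1 + ‖x‖) ^ 2) (gs d) := by
    have := (i0.add (i1.const_mul 2)).add i2
    refine this.congr (Filter.Eventually.of_forall fun x => ?_)
    simp only [Pi.add_apply]; ring
  have j3 : Integrable (fun x : E d => ‖x‖ * (1 + ‖x‖) ^ 2) (gs d) := by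
    have := (i1.add (i2.const_mul 2)).add i3
    refine this.congr (Filter.Eventually.of_forall fun x => ?_)
    simp only [Pi.add_apply]; ring
  have a1 : Integrable F (gs d) :=
    (j2.const_mul B).mono' hFc.aestronglyMeasurable (Filter.Eventually.of_forall fun x => hB x)
  have a2 : Integrable (fun x => fderiv ℝ F x v) (gs d) := by
    refine ((j2.const_mul B).mul_const ‖v‖).mono' hDc.aestronglyMeasurable
      (Filter.Eventually.of_forall fun x => ?_)
    exact ((fderiv ℝ F x).le_opNorm v).trans
      (mul_le_mul_of_nonneg_right (hB2 x) (norm_nonneg _))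
  have a3 : Integrable (fun x => ⟪v, x⟫ * F x) (gs d) := by
    refine (j3.const_mul (‖v‖ * B)).mono'
      (by fun_prop) (Filter.Eventually.of_forall fun x => ?_)
    rw [norm_mul]
    have e1 := norm_inner_le_norm (𝕜 := ℝ) v x
    calc ‖⟪v, x⟫‖ * ‖F x‖ ≤ (‖v‖ * ‖x‖) * (B * (1 + ‖x‖) ^ 2) :=
          mul_le_mul e1 (hB x) (norm_nonneg _) (by positivity)
      _ = _ := by ring
  have hD : ∀ x, fderiv ℝ ρ x v * F x = -(ρ x * (⟪v, x⟫ * F x)) := by
    intro x
    rw [(hasF c x).fderiv]
    simp only [hρ, ContinuousLinearMap.smul_apply, innerSL_apply_apply, smul_eq_mul,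
      real_inner_comm v x]
    ring
  have key := integral_mul_fderiv_eq_neg_fderiv_mul_of_integrable (μ := (volume : Measure (E d)))
    (f := ρ) (g := F) (v := v) (by simp only [hD]; exact (hJ _ a3).neg) (hJ _ a2) (hJ _ a1)
    (fun x _ => (hasF c x).differentiableAt)
    (fun x _ => (hF.differentiable one_ne_zero) x)
  rw [hI, hI, key]
  simp only [hD, integral_neg, neg_neg]

end Vale.Agent.P347
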