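import Vale.Agent.P347.Spec

open MeasureTheory Filter Topology

namespace Vale.Agent.P347

namespace Idem

variable {d : ℕ}

theorem lip_cont {X Y : Type} [NormedAddCommGroup X] [NormedAddCommGroup Y] {K : ℝ} {F : X → Y}
    (h : LipF K F) : Continuous F :=
  (LipschitzWith.of_dist_le' (K := K) fun x y => by
    rw [dist_eq_norm, dist_eq_norm]; exact h x y).continuous

/-- the transition operator -/
noncomputable def TT (G : E d → E d) (ρ : ℝ) (ψ : E d → ℝ) (x : E d) : ℝ :=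
  ∫ ξ, ψ (ρ • x - (1 - ρ) • G x + sg ρ • ξ) ∂gs d

theorem step_prob {G : E d → E d} (hG : Continuous G) (ρ : ℝ) (α : Measure (E d))
    [IsProbabilityMeasure α] : IsProbabilityMeasure (stepM G ρ α) :=
  Measure.isProbabilityMeasure_map (Continuous.measurable (by fun_prop)).aemeasurable

theorem ch_prob {G : E d → E d} (hG : Continuous G) (ρ : ℝ) (N : ℕ) :
    IsProbabilityMeasure (ch G ρ N) := by
  induction N with
  | zero => exact inferInstanceAs (IsProbabilityMeasure (gs d))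
  | succ N ih => exact step_prob hG ρ _

theorem int_step {G : E d → E d} (hG : Continuous G) (ρ : ℝ) (α : Measure (E d))
    [IsProbabilityMeasure α] {ψ : E d → ℝ} (hψ : Continuous ψ) {b : ℝ} (hb : ∀ x, |ψ x| ≤ b) :
    ∫ x, ψ x ∂stepM G ρ α = ∫ x, TT G ρ ψ x ∂α := by
  have hc : Continuous fun p : E d × E d => ρ • p.1 - (1 - ρ) • G p.1 + sg ρ • p.2 := by fun_prop
  rw [stepM, integral_map hc.measurable.aemeasurable hψ.aestronglyMeasurable, integral_prod]
  · rfl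
  · exact Integrable.of_bound (hψ.comp hc).aestronglyMeasurable b (ae_of_all _ fun p => hb _)

theorem TT_bd (G : E d → E d) (ρ : ℝ) {ψ : E d → ℝ} {b : ℝ} (hb : ∀ x, |ψ x| ≤ b) (x : E d) :
    |TT G ρ ψ x| ≤ b := by
  have := norm_integral_le_of_norm_le_const (μ := gs d)
    (f := fun ξ => ψ (ρ • x - (1 - ρ) • G x + sg ρ • ξ)) (C := b) (ae_of_all _ fun ξ => hb _)
  simpa [TT] using this

theorem TT_diff (G G' : E d → E d) (ρ : ℝ) {l b : ℝ} {ψ : E d → ℝ} (hψ : LipF l ψ)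
    (hb : ∀ x, |ψ x| ≤ b) (x y : E d) : |TT G ρ ψ x - TT G' ρ ψ y| ≤
      l * ‖(ρ • x - (1 - ρ) • G x) - (ρ • y - (1 - ρ) • G' y)‖ := by
  have hc := lip_cont hψ
  have hi : ∀ z : E d, Integrable (fun ξ => ψ (z + sg ρ • ξ)) (gs d) := fun z =>
    Integrable.of_bound (Continuous.aestronglyMeasurable (by fun_prop)) b
      (ae_of_all _ fun p => hb _)
  rw [TT, TT, ← integral_sub (hi _) (hi _)]
  have := norm_integral_le_of_norm_le_const (μ := gs d)
    (f := fun ξ => ψ (ρ • x - (1 - ρ) • G x + sg ρ • ξ) - ψ (ρ • y - (1 - ρ) • G' y + sg ρ • ξ))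
    (C := l * ‖(ρ • x - (1 - ρ) • G x) - (ρ • y - (1 - ρ) • G' y)‖) (ae_of_all _ fun ξ => by
      have := hψ (ρ • x - (1 - ρ) • G x + sg ρ • ξ) (ρ • y - (1 - ρ) • G' y + sg ρ • ξ)
      rwa [add_sub_add_right_eq_sub] at this)
  simpa using this

theorem TT_lip {G : E d → E d} (hG : LipF (1 / 2) G) {h l b : ℝ} (h0 : 0 ≤ h) (h1 : h ≤ 1)
    (hl : 0 ≤ l) {ψ : E d → ℝ} (hψ : LipF l ψ) (hb : ∀ x, |ψ x| ≤ b) :
    LipF (l * (1 - h / 2)) (TT G (1 - h) ψ) := fun x y => by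
  refine (TT_diff G G (1 - h) hψ hb x y).trans ?_
  rw [mul_assoc]
  refine mul_le_mul_of_nonneg_left ?_ hl
  have e : ((1 - h) • x - (1 - (1 - h)) • G x) - ((1 - h) • y - (1 - (1 - h)) • G y) =
      (1 - h) • (x - y) - h • (G x - G y) := by module
  rw [e]
  refine (norm_sub_le _ _).trans ?_
  rw [norm_smul, norm_smul, Real.norm_of_nonneg h0, Real.norm_of_nonneg (by linarith)]
  have := mul_le_mul_of_nonneg_left (hG x y) h0
  linarith

theorem ctr (α : Measure (E d)) [IsProbabilityMeasure α] (hi : Integrable (fun x : E d => ‖x‖) α)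
    {l b : ℝ} {ψ : E d → ℝ} (hψ : LipF l ψ) (hb : ∀ x, |ψ x| ≤ b) :
    |∫ x, ψ x ∂α - ψ 0| ≤ l * ∫ x, ‖x‖ ∂α := by
  have i1 : Integrable ψ α :=
    Integrable.of_bound (lip_cont hψ).aestronglyMeasurable b (ae_of_all _ hb)
  have e : ∫ x, ψ x ∂α - ψ 0 = ∫ x, (ψ x - ψ 0) ∂α := by
    rw [integral_sub i1 (integrable_const _)]; simp
  rw [e, ← integral_const_mul]
  refine abs_integral_le_integral_abs.trans (integral_mono (i1.sub (integrable_const _)).abs
    (hi.const_mul _) fun x => ?_)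
  simpa using hψ x 0

end Idem

open Idem in
theorem stmtIde (h1 : StmtG1) (hFlux : StmtFlux) : StmtIde := by
  intro d B δ hδ
  obtain ⟨K, hK, hF⟩ := hFlux d B
  set h : ℝ := min (1 / 2) ((δ / (4 * (K + 1))) ^ 2) with hh
  have h0 : 0 < h := lt_min (by norm_num) (by positivity)
  have h2 : h ≤ 1 / 2 := min_le_left _ _
  have h3 : 2 * K * √h ≤ δ / 2 := by
    have : √h ≤ δ / (4 * (K + 1)) := Real.sqrt_le_iff.mpr ⟨by positivity, min_le_right _ _⟩
    rw [le_div_iff₀ (by positivity)] at this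
    nlinarith [Real.sqrt_nonneg h]
  set A : ℝ := ∫ x, ‖x‖ ∂gs d + K with hA
  have t1 : Tendsto (fun N : ℕ => (1 - h / 2) ^ N * A) atTop (𝓝 (0 * A)) :=
    (tendsto_pow_atTop_nhds_zero_of_lt_one (by linarith) (by linarith)).mul_const A
  have t2 : Tendsto (fun N : ℕ => (N : ℝ) * (1 - h) ^ N + (1 - h) ^ N) atTop (𝓝 (0 + 0)) :=
    (tendsto_self_mul_const_pow_of_lt_one (by linarith) (by linarith)).add
      (tendsto_pow_atTop_nhds_zero_of_lt_one (by linarith) (by linarith))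
  obtain ⟨N, n1, n2⟩ := ((t1.eventually (gt_mem_nhds (show 0 * A < δ / 2 by linarith))).and
    (t2.eventually (gt_mem_nhds (show 0 + 0 < δ by linarith)))).exists
  refine ⟨1 - h, N, by linarith, by linarith, by linarith, fun W G hW hG hB => ?_⟩
  obtain ⟨hp, hi, hm, hf⟩ := hF W G hW hG hB
  have hc := lip_cont hG
  refine ⟨hp, fun l ψ hl hψ hb => ?_⟩
  have key : ∀ (n : ℕ) (l : ℝ) (ψ : E d → ℝ), 0 ≤ l → LipF l ψ → (∃ b, ∀ x, |ψ x| ≤ b) →
      |∫ x, ψ x ∂ch G (1 - h) n - ∫ x, ψ x ∂mu W| ≤ l * ((1 - h / 2) ^ n * A + 2 * K * √h) := by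
    intro n
    induction n with
    | zero =>
      rintro l ψ hl hψ ⟨b, hb⟩
      have e1 := ctr (gs d) (by simpa using (h1 d).i2 1) hψ hb
      have e2 := ctr (mu W) hi hψ hb
      have e3 := mul_le_mul_of_nonneg_left hm hl
      have e4 := abs_sub_le (∫ x, ψ x ∂gs d) (ψ 0) (∫ x, ψ x ∂mu W)
      rw [abs_sub_comm (ψ 0)] at e4
      have e5 : 0 ≤ l * (2 * K * √h) := by positivity
      show |∫ x, ψ x ∂gs d - _| ≤ _
      rw [pow_zero, one_mul, hA]
      nlinarith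
    | succ n ih =>
      rintro l ψ hl hψ ⟨b, hb⟩
      have := ch_prob hc (1 - h) n
      have e1 := ih _ _ (mul_nonneg hl (by linarith)) (TT_lip hG h0.le (by linarith) hl hψ hb)
        ⟨b, TT_bd G _ hb⟩
      have e2 := hf h l ψ h0 h2 hl hψ ⟨b, hb⟩
      rw [int_step hc _ _ (lip_cont hψ) hb] at e2
      show |∫ x, ψ x ∂stepM G (1 - h) (ch G (1 - h) n) - _| ≤ _
      rw [int_step hc _ _ (lip_cont hψ) hb]
      refine (abs_sub_le _ _ _).trans ((add_le_add e1 e2).trans (le_of_eq ?_))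
      ring
  exact (key N l ψ hl hψ hb).trans (mul_le_mul_of_nonneg_left (by linarith) hl)

end Vale.Agent.P347
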