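import Vale.Agent.P347.Ide
import Vale.Agent.P347.Spec2

open MeasureTheory Filter Topology

namespace Vale.Agent.P347

open Idem in
theorem stmtIde2 (h1 : StmtG1) (hFlux : StmtFlux) : StmtIde2 := by
  intro d B κ η δ hd hκ hκ1 hη hη1 hδ
  obtain ⟨K, hK, hF⟩ := hFlux d B
  have hd2 : (2 : ℝ) ≤ d := by exact_mod_cast hd
  have hd4 : (16 : ℝ) ≤ (d : ℝ) ^ 4 := by
    have := pow_le_pow_left₀ (by norm_num : (0 : ℝ) ≤ 2) hd2 4
    linarith
  obtain ⟨h, h0, ha, hb'⟩ : ∃ h : ℝ, 0 < h ∧ h ≤ (η * κ ^ 2) ^ 2 / (d : ℝ) ^ 4 ∧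
      h ≤ (δ / (4 * (K + 1))) ^ 2 :=
    ⟨min _ _, lt_min (by positivity) (by positivity), min_le_left _ _, min_le_right _ _⟩
  have hfine : h * (d : ℝ) ^ 4 ≤ (η * κ ^ 2) ^ 2 := by rwa [le_div_iff₀ (by positivity)] at ha
  have hκ2 : κ ^ 2 ≤ 1 / 4 := by nlinarith
  have h4 : 4 * h ≤ κ ^ 2 := by
    have e1 : η * κ ^ 2 ≤ 1 / 2 * κ ^ 2 := by gcongr
    have e2 : (η * κ ^ 2) ^ 2 ≤ (1 / 2 * κ ^ 2) ^ 2 := pow_le_pow_left₀ (by positivity) e1 2
    have e3 : h * 16 ≤ h * (d : ℝ) ^ 4 := by gcongr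
    nlinarith [sq_nonneg κ]
  have h2 : h ≤ 1 / 2 := by linarith
  have h3 : 2 * K * √h ≤ δ / 2 := by
    have : √h ≤ δ / (4 * (K + 1)) := Real.sqrt_le_iff.mpr ⟨by positivity, hb'⟩
    rw [le_div_iff₀ (by positivity)] at this
    nlinarith [Real.sqrt_nonneg h]
  have hex : ∃ r : ℕ, ((1 - h) ^ r) ^ 2 ≤ 1 - κ ^ 2 := by
    obtain ⟨r, hr⟩ := exists_pow_lt_of_lt_one (show (0 : ℝ) < 1 / 2 by norm_num)
      (show 1 - h < 1 by linarith)
    have : 0 ≤ (1 - h) ^ r := pow_nonneg (by linarith) r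
    exact ⟨r, by nlinarith⟩
  obtain ⟨r0, hlo, hhi⟩ : ∃ r0 : ℕ, ((1 - h) ^ r0) ^ 2 ≤ 1 - κ ^ 2 ∧
      1 - 2 * κ ^ 2 ≤ ((1 - h) ^ (r0 + 1)) ^ 2 := by
    classical
    refine ⟨Nat.find hex, Nat.find_spec hex, ?_⟩
    have hne : Nat.find hex ≠ 0 := by
      intro h0'
      have := Nat.find_spec hex
      rw [h0'] at this
      have : 0 < κ ^ 2 := by positivity
      simp only [pow_zero, one_pow] at *
      linarith
    obtain ⟨m, hm⟩ := Nat.exists_eq_succ_of_ne_zero hne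
    have hmin := Nat.find_min hex (show m < Nat.find hex by omega)
    push Not at hmin
    rw [hm]
    have e : ((1 - h) ^ (m.succ + 1)) ^ 2 = ((1 - h) ^ m) ^ 2 * (1 - h) ^ 4 := by
      rw [Nat.succ_eq_add_one]; ring
    have e4 : 1 - 4 * h ≤ (1 - h) ^ 4 := by
      have := one_add_mul_le_pow (show (-2 : ℝ) ≤ -h by linarith) 4
      push_cast at this
      rw [← sub_eq_add_neg] at this
      linarith
    rw [e]
    have : (1 - κ ^ 2) * (1 - 4 * h) ≤ ((1 - h) ^ m) ^ 2 * (1 - h) ^ 4 :=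
      mul_le_mul hmin.le e4 (by linarith) (by positivity)
    nlinarith [mul_nonneg (sq_nonneg κ) h0.le]
  set A : ℝ := ∫ x, ‖x‖ ∂gs d + K with hA
  have t1 : Tendsto (fun N : ℕ => (1 - h / 2) ^ N * A) atTop (𝓝 (0 * A)) :=
    (tendsto_pow_atTop_nhds_zero_of_lt_one (by linarith) (by linarith)).mul_const A
  have t2 : Tendsto (fun N : ℕ => (N : ℝ) * (1 - h / 2) ^ N + (1 - h / 2) ^ N) atTop (𝓝 (0 + 0)) :=
    (tendsto_self_mul_const_pow_of_lt_one (by linarith) (by linarith)).add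
      (tendsto_pow_atTop_nhds_zero_of_lt_one (by linarith) (by linarith))
  obtain ⟨N, ⟨n1, n2⟩, n3⟩ := (((t1.eventually (gt_mem_nhds (show 0 * A < δ / 2 by linarith))).and
    (t2.eventually (gt_mem_nhds (show 0 + 0 < η by linarith)))).and
      (eventually_ge_atTop (r0 + 1))).exists
  refine ⟨1 - h, N, r0, ⟨hd, hκ, hκ1, hη, hη1, by linarith, by linarith, hlo, hhi, ?_, ?_, n3⟩,
    fun W G hW hG hB => ?_⟩
  · rw [show (1 + (1 - h)) / 2 = 1 - h / 2 by ring]; linarith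
  · rw [show 1 - (1 - h) = h by ring]; exact hfine
  obtain ⟨hp, hi, hm, hf⟩ := hF W G hW hG hB
  have hc := lip_cont hG
  refine ⟨hp, fun l ψ hl hψ hb => ?_⟩
  have key : ∀ (n : ℕ) (l : ℝ) (ψ : E d → ℝ), 0 ≤ l → LipF l ψ → (∃ b, ∀ x, |ψ x| ≤ b) →
      |∫ x, ψ x ∂ch G (1 - h) n - ∫ x, ψ x ∂mu W| ≤ l * ((1 - h / 2) ^ n * A + 2 * K * √h) := by
    intro n
    induction n with
    | zero =>
      rintro l ψ hl hψ ⟨b, hb⟩
      have e1 := ctr (gs d) (by simpa using (h1 d).i2 1) hψ hb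
      have e2 := ctr (mu W) hi hψ hb
      have e3 := mul_le_mul_of_nonneg_left hm hl
      have e4 := abs_sub_le (∫ x, ψ x ∂gs d) (ψ 0) (∫ x, ψ x ∂mu W)
      rw [abs_sub_comm (ψ 0)] at e4
      have e5 : 0 ≤ l * (2 * K * √h) := by positivity
      show |∫ x, ψ x ∂gs d - _| ≤ _
      rw [pow_zero, one_mul, hA]
      nlinarith
    | succ n ih =>
      rintro l ψ hl hψ ⟨b, hb⟩
      have := ch_prob hc (1 - h) n
      have e1 := ih _ _ (mul_nonneg hl (by linarith)) (TT_lip hG h0.le (by linarith) hl hψ hb)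
        ⟨b, TT_bd G _ hb⟩
      have e2 := hf h l ψ h0 h2 hl hψ ⟨b, hb⟩
      rw [int_step hc _ _ (lip_cont hψ) hb] at e2
      show |∫ x, ψ x ∂stepM G (1 - h) (ch G (1 - h) n) - _| ≤ _
      rw [int_step hc _ _ (lip_cont hψ) hb]
      refine (abs_sub_le _ _ _).trans ((add_le_add e1 e2).trans (le_of_eq ?_))
      ring
  exact (key N l ψ hl hψ hb).trans (mul_le_mul_of_nonneg_left (by linarith) hl)

end Vale.Agent.P347
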