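import Vale.Agent.P347.Spec

open MeasureTheory ProbabilityTheory

namespace Vale.Agent.P347.Inst

variable {d : ℕ}

instance c3 : SecondCountableTopology (E d × E d × E d) := inferInstance
instance b3 : BorelSpace (E d × E d × E d) := inferInstance
instance s3 : StandardBorelSpace (E d × E d × E d) := inferInstance
instance cS2 : SecondCountableTopology (S2 d) := inferInstance
instance cS3 : SecondCountableTopology (S3 d) := inferInstance
instance bS2 : BorelSpace (S2 d) := inferInstance
instance bS3 : BorelSpace (S3 d) := inferInstance
instance sS2 : StandardBorelSpace (S2 d) := inferInstance
instance sS3 : StandardBorelSpace (S3 d) := inferInstance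
instance cS23 : SecondCountableTopology (S2 d × S3 d) := inferInstance
instance bS23 : BorelSpace (S2 d × S3 d) := inferInstance
instance sS23 : StandardBorelSpace (S2 d × S3 d) := inferInstance
instance cS4 : SecondCountableTopology ((S2 d × S3 d) × E d) := inferInstance
instance bS4 : BorelSpace ((S2 d × S3 d) × E d) := inferInstance
instance sS4 : StandardBorelSpace ((S2 d × S3 d) × E d) := inferInstance
instance cSw : SecondCountableTopology (Sw d) := inferInstance
instance bSw : BorelSpace (Sw d) := inferInstance
instance sSw : StandardBorelSpace (Sw d) := inferInstance
instance cSd : SecondCountableTopology (Sd d) := inferInstance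
instance bSd : BorelSpace (Sd d) := inferInstance
instance sSd : StandardBorelSpace (Sd d) := inferInstance
instance bESd : BorelSpace (E d × Sd d) := inferInstance
instance oS2 : OpensMeasurableSpace (S2 d) := inferInstance
instance oS3 : OpensMeasurableSpace (S3 d) := inferInstance
instance oSw : OpensMeasurableSpace (Sw d) := inferInstance
instance oSd : OpensMeasurableSpace (Sd d) := inferInstance
instance oESd : OpensMeasurableSpace (E d × Sd d) := inferInstance

end Vale.Agent.P347.Inst
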