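import Vale.Agent.P347.Spec2

open MeasureTheory ProbabilityTheory Finset
open scoped RealInnerProductSpace ENNReal

namespace Vale.Agent.P347

namespace KHm

variable {d : ℕ}

lemma nrm {ε : ℝ} {G : E d → E d} (hε : 0 ≤ ε) (hG : Nice ε G) (x : E d) :
    ‖fderiv ℝ G x‖ ≤ ε :=
  norm_fderiv_le_of_lip' ℝ hε (Filter.Eventually.of_forall fun y => hG.lip y x)

lemma cont {ε : ℝ} {G : E d → E d} (hG : Nice ε G) : Continuous (fderiv ℝ G) :=
  hG.c1.continuous_fderiv one_ne_zero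

lemma intD {ε : ℝ} {G : E d → E d} (hε : 0 ≤ ε) (hG : Nice ε G) (x : E d) (s : ℝ) :
    Integrable (fun g => fderiv ℝ G (x + s • g)) (gs d) := by
  refine Integrable.of_bound (C := ε) ?_ (Filter.Eventually.of_forall fun g => nrm hε hG _)
  exact ((cont hG).comp (by fun_prop)).aestronglyMeasurable

lemma int2 {X : Type} [TopologicalSpace X] [MeasurableSpace X] [OpensMeasurableSpace X]
    (μ : Measure X) [IsFiniteMeasure μ] {ε : ℝ} {G : E d → E d} (hε : 0 ≤ ε) (hG : Nice ε G)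
    (p q : X → E d) (hp : Continuous p) (hq : Continuous q) :
    Integrable (fun z => (fderiv ℝ G (p z)).comp (fderiv ℝ G (q z))) μ := by
  refine Integrable.of_bound (C := ε * ε) ?_ (Filter.Eventually.of_forall fun z => ?_)
  · exact (((cont hG).comp hp).clm_comp ((cont hG).comp hq)).aestronglyMeasurable
  · exact (ContinuousLinearMap.opNorm_comp_le _ _).trans
      (mul_le_mul (nrm hε hG _) (nrm hε hG _) (norm_nonneg _) hε)

lemma key (h2 : Gau2 d) {ε : ℝ} {G : E d → E d} (hε : 0 ≤ ε) (hG : Nice ε G) (x x' : E d)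
    (a1 a2 b1 b3 c1 c2 d1 d3 : ℝ) (ha : a1 ^ 2 + a2 ^ 2 = c1 ^ 2 + c2 ^ 2)
    (hb : b1 ^ 2 + b3 ^ 2 = d1 ^ 2 + d3 ^ 2) (hab : a1 * b1 = c1 * d1) :
    ∫ z, (fderiv ℝ G (x + (a1 • z.1 + a2 • z.2.1))).comp
        (fderiv ℝ G (x' + (b1 • z.1 + b3 • z.2.2))) ∂g3 d =
      ∫ g, (∫ h, fderiv ℝ G (x + c1 • g + c2 • h) ∂gs d).comp
        (∫ h, fderiv ℝ G (x' + d1 • g + d3 • h) ∂gs d) ∂gs d := by
  have hp := h2.pair a1 a2 0 b1 0 b3 c1 c2 0 d1 0 d3 (by linarith) (by linarith) (by linarith)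
  simp only [zero_smul, add_zero] at hp
  set F : E d × E d → (E d →L[ℝ] E d) :=
    fun p => (fderiv ℝ G (x + p.1)).comp (fderiv ℝ G (x' + p.2)) with hF
  have hFc : Continuous F :=
    ((cont hG).comp (by fun_prop)).clm_comp ((cont hG).comp (by fun_prop))
  have e1 : ∀ (u1 u2 v1 v3 : ℝ), ∫ p, F p ∂(g3 d).map
      (fun z => (u1 • z.1 + u2 • z.2.1, v1 • z.1 + v3 • z.2.2)) =
      ∫ z, F (u1 • z.1 + u2 • z.2.1, v1 • z.1 + v3 • z.2.2) ∂g3 d := fun u1 u2 v1 v3 =>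
    integral_map (by fun_prop) hFc.aestronglyMeasurable
  have e2 := e1 a1 a2 b1 b3
  rw [hp, e1] at e2
  refine e2.symm.trans ?_
  simp only [hF]
  rw [integral_prod _ (int2 _ hε hG _ _ (by fun_prop) (by fun_prop))]
  refine integral_congr_ae (Filter.Eventually.of_forall fun g => ?_)
  have := integral_prod_bilin (ContinuousLinearMap.compL ℝ (E d) (E d) (E d))
    (intD hε hG (x + c1 • g) c2) (intD hε hG (x' + d1 • g) d3)
  simpa only [ContinuousLinearMap.compL_apply, add_assoc] using this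

lemma sg_sq {t : ℝ} (h : t ^ 2 ≤ 1) : sg t ^ 2 = 1 - t ^ 2 := Real.sq_sqrt (by linarith)

end KHm

open KHm in
theorem stmtKH (_h1 : StmtG1) (h2 : StmtG2) : StmtKH := by
  intro β α α' κ hβ0 hβ1 hα hα' hκ ha ha'
  have hβ2 : β ^ 2 ≤ 1 := by nlinarith
  have hk2 : 0 < κ ^ 2 := by positivity
  have hs : ∀ a : ℝ, a ^ 2 ≤ 1 - κ ^ 2 → (β * a) ^ 2 ≤ 1 - κ ^ 2 := fun a h => by
    rw [mul_pow]; nlinarith [sq_nonneg a, sq_nonneg β]
  have hks : ∀ a : ℝ, a ^ 2 ≤ 1 - κ ^ 2 → κ ≤ sg (β * a) := fun a h =>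
    Real.le_sqrt_of_sq_le (by linarith [hs a h])
  have hq : ∀ a : ℝ, a ^ 2 ≤ 1 - κ ^ 2 →
      a ^ 2 * (1 - β ^ 2) ≤ (1 - κ ^ 2) * sg (β * a) ^ 2 := fun a h => by
    rw [sg_sq (by linarith [hs a h]), mul_pow]
    nlinarith [mul_nonneg (mul_nonneg (sq_nonneg a) (sq_nonneg β)) hk2.le]
  set s := sg (β * α) with hs1
  set s' := sg (β * α') with hs2
  have s0 : 0 < s := hκ.trans_le (hks α ha)
  have s0' : 0 < s' := hκ.trans_le (hks α' ha')
  have q0 : 0 ≤ 1 - κ ^ 2 := (sq_nonneg α).trans ha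
  set r := α * α' * (1 - β ^ 2) / (s * s') with hr
  have r0 : 0 ≤ r := div_nonneg (mul_nonneg (mul_nonneg hα hα') (by linarith)) (by positivity)
  have r1 : r ≤ 1 - κ ^ 2 := by
    rw [hr, div_le_iff₀ (by positivity)]
    refine abs_le_of_sq_le_sq' ?_ (by positivity) |>.2
    have h3 := mul_le_mul (hq α ha) (hq α' ha') (mul_nonneg (sq_nonneg _) (by linarith))
      (mul_nonneg q0 (sq_nonneg _))
    calc (α * α' * (1 - β ^ 2)) ^ 2 = α ^ 2 * (1 - β ^ 2) * (α' ^ 2 * (1 - β ^ 2)) := by ring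
      _ ≤ _ := h3
      _ = _ := by ring
  have hsr : √r ≤ 1 := Real.sqrt_le_one.2 (by linarith)
  have hsin : Real.sin (Real.arcsin √r) = √r :=
    Real.sin_arcsin (by linarith [Real.sqrt_nonneg r]) hsr
  have hcos : Real.cos (Real.arcsin √r) = √(1 - r) := by
    rw [Real.cos_arcsin, Real.sq_sqrt r0]
  refine ⟨Real.arcsin √r, ?_, hks α ha, hks α' ha', ?_⟩
  · rw [hcos]; exact Real.le_sqrt_of_sq_le (by linarith)
  intro d ε G hε hG c w
  have e1 : (√r) ^ 2 = r := Real.sq_sqrt r0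
  have e2 : (√(1 - r)) ^ 2 = 1 - r := Real.sq_sqrt (by linarith)
  have hk := key (h2 d) hε hG ((β * α) • w) ((β * α') • w) (s * √r) (s * √(1 - r)) (s' * √r)
    (s' * √(1 - r)) (α * sg β) (sg α) (α' * sg β) (sg α') ?_ ?_ ?_
  · simp only [HH, qa, qb, hsin, hcos, OM, Hb]
    rw [integral_smul]
    congr 1
    simp only [smul_add, smul_smul, ← hs1, ← hs2]
    rw [hk]
    simp only [mul_comm α β, mul_comm α' β]
  · rw [mul_pow, mul_pow, e1, e2, mul_pow, sg_sq hβ2, sg_sq (t := α) (by linarith), hs1,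
      sg_sq (by linarith [hs α ha])]
    ring
  · rw [mul_pow, mul_pow, e1, e2, mul_pow, sg_sq hβ2, sg_sq (t := α') (by linarith), hs2,
      sg_sq (by linarith [hs α' ha'])]
    ring
  · have : s * √r * (s' * √r) = s * s' * r := by linear_combination (s * s') * e1
    rw [this, hr, mul_div_cancel₀ _ (by positivity)]
    have : α * sg β * (α' * sg β) = α * α' * sg β ^ 2 := by ring
    rw [this, sg_sq hβ2]

end Vale.Agent.P347
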