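import Vale.Agent.P347.Rel

open MeasureTheory ProbabilityTheory
open scoped RealInnerProductSpace

namespace Vale.Agent.P347

namespace L2m

variable {d : ℕ}

noncomputable def Lu (u ξ : E d) : ℝ := Real.exp (⟪u, ξ⟫ - ‖u‖ ^ 2 / 2)

theorem iexp (h : Gau1 d) (u : E d) : Integrable (fun ξ => Real.exp ⟪u, ξ⟫) (gs d) ∧
    ∫ ξ, Real.exp ⟪u, ξ⟫ ∂gs d = Real.exp (‖u‖ ^ 2 / 2) := by
  have hm : AEStronglyMeasurable (fun ξ : E d => Real.exp ⟪u, ξ⟫) (gs d) :=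
    Continuous.aestronglyMeasurable (by fun_prop)
  have h0 : 0 ≤ᵐ[gs d] fun ξ : E d => Real.exp ⟪u, ξ⟫ := ae_of_all _ fun _ => (Real.exp_pos _).le
  refine ⟨⟨hm, (hasFiniteIntegral_iff_ofReal h0).mpr ?_⟩, ?_⟩
  · rw [h.mgf]; exact ENNReal.ofReal_lt_top
  · rw [integral_eq_lintegral_of_nonneg_ae h0 hm, h.mgf, ENNReal.toReal_ofReal (Real.exp_pos _).le]

theorem Lsq (u ξ : E d) : Lu u ξ ^ 2 = Real.exp (-‖u‖ ^ 2) * Real.exp ⟪(2 : ℝ) • u, ξ⟫ := by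
  rw [Lu, ← Real.exp_nat_mul, ← Real.exp_add, real_inner_smul_left]; congr 1; push_cast; ring

theorem cL (u : E d) : Continuous (Lu u) := by unfold Lu; fun_prop

theorem mL (h : Gau1 d) (u : E d) : MemLp (Lu u) 2 (gs d) := by
  rw [memLp_two_iff_integrable_sq (cL u).aestronglyMeasurable]
  simp only [Lsq]
  exact (iexp h _).1.const_mul _

theorem iL2 (h : Gau1 d) (u : E d) : ∫ ξ, Lu u ξ ^ 2 ∂gs d = Real.exp (‖u‖ ^ 2) := by
  simp only [Lsq]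
  rw [integral_const_mul, (iexp h _).2, ← Real.exp_add, norm_smul]
  congr 1; simp; ring

theorem shift (h : Gau1 d) (u : E d) {F : E d → ℝ} (hF : Measurable F) :
    ∫ ξ, F (ξ + u) ∂gs d = ∫ ξ, Lu u ξ * F ξ ∂gs d := by
  rw [← integral_map (measurable_add_const u).aemeasurable hF.aestronglyMeasurable, h.cm,
    integral_withDensity_eq_integral_toReal_smul (Measurable.ennreal_ofReal (by fun_prop))
      (ae_of_all _ fun _ => ENNReal.ofReal_lt_top)]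
  refine integral_congr_ae (ae_of_all _ fun ξ => ?_)
  simp only [ENNReal.toReal_ofReal (Real.exp_pos _).le, smul_eq_mul, Lu]

theorem mI (u : E d) : MemLp (fun ξ => ⟪u, ξ⟫) 2 (gs d) :=
  IsGaussian.memLp_dual (gs d) (innerSL ℝ u) 2 (by simp)

theorem iI (u : E d) : ∫ ξ, ⟪u, ξ⟫ ∂gs d = 0 := integral_strongDual_stdGaussian (innerSL ℝ u)

theorem iI2 (u : E d) : ∫ ξ, ⟪u, ξ⟫ ^ 2 ∂gs d = ‖u‖ ^ 2 := by
  have := variance_dual_stdGaussian (innerSL ℝ u)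
  rw [variance_of_integral_eq_zero (innerSL ℝ u).continuous.aemeasurable (iI u),
    innerSL_apply_norm] at this
  exact this

theorem R2 (h : Gau1 d) (u : E d) :
    ∫ ξ, (Lu u ξ - 1 - ⟪u, ξ⟫) ^ 2 ∂gs d = Real.exp (‖u‖ ^ 2) - 1 - ‖u‖ ^ 2 := by
  have e1 : ∫ ξ, Lu u ξ ∂gs d = 1 := by
    have := shift h u (F := fun _ => 1) measurable_const
    simpa using this.symm
  have j1 := (mI u).integrable one_le_two
  have e2 : ∫ ξ, Lu u ξ * ⟪u, ξ⟫ ∂gs d = ‖u‖ ^ 2 := by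
    rw [← shift h u (F := fun ξ => ⟪u, ξ⟫) (by fun_prop)]
    simp only [inner_add_right]
    rw [integral_add j1 (integrable_const _), iI]
    simp
  have j2 := (mL h u).integrable one_le_two
  have j3 := (mL h u).integrable_sq
  have j4 := (mI u).integrable_sq
  have j5 : Integrable (fun ξ => Lu u ξ * ⟪u, ξ⟫) (gs d) := (mL h u).integrable_mul (mI u)
  have e : ∀ ξ, (Lu u ξ - 1 - ⟪u, ξ⟫) ^ 2 = (Lu u ξ ^ 2 + ⟪u, ξ⟫ ^ 2) +
      ((1 + 2 * ⟪u, ξ⟫) - (2 * Lu u ξ + 2 * (Lu u ξ * ⟪u, ξ⟫))) := fun ξ => by ring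
  have k1 : Integrable (fun ξ => 1 + 2 * ⟪u, ξ⟫) (gs d) := (integrable_const _).add (j1.const_mul _)
  have k2 : Integrable (fun ξ => 2 * Lu u ξ + 2 * (Lu u ξ * ⟪u, ξ⟫)) (gs d) :=
    (j2.const_mul _).add (j5.const_mul _)
  have k3 : Integrable (fun ξ => Lu u ξ ^ 2 + ⟪u, ξ⟫ ^ 2) (gs d) := j3.add j4
  have k4 : Integrable (fun ξ => (1 + 2 * ⟪u, ξ⟫) - (2 * Lu u ξ + 2 * (Lu u ξ * ⟪u, ξ⟫))) (gs d) :=
    k1.sub k2
  simp only [e]
  rw [integral_add k3 k4, integral_add j3 j4, integral_sub k1 k2,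
    integral_add (integrable_const _) (j1.const_mul _), integral_add (j2.const_mul _) (j5.const_mul _),
    integral_const_mul, integral_const_mul, integral_const_mul, iL2 h, iI2, iI, e1, e2]
  simp; ring

theorem cs1 {X : Type} [MeasurableSpace X] (μ : Measure X) [IsProbabilityMeasure μ] {ψ g : X → ℝ}
    (hm : Measurable ψ) (hb : ∀ x, |ψ x| ≤ 1) (hg : MemLp g 2 μ) {e : ℝ} (he : 0 ≤ e)
    (h : ∫ x, g x ^ 2 ∂μ ≤ e ^ 2) : |∫ x, g x * ψ x ∂μ| ≤ e * √(∫ x, ψ x ^ 2 ∂μ) := by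
  have i3 : Integrable (fun x => |g x| * √(ψ x ^ 2)) μ := by
    refine (hg.integrable one_le_two).abs.mul_bdd (c := 1)
      (Measurable.aestronglyMeasurable (by fun_prop)) (ae_of_all _ fun x => ?_)
    rw [Real.sqrt_sq_eq_abs, Real.norm_eq_abs, abs_abs]; exact hb x
  refine abs_integral_le_integral_abs.trans (le_trans (le_of_eq ?_)
    (Relm.cs μ (e := fun x => |g x|) (fun _ => abs_nonneg _) (fun _ => sq_nonneg _)
      (by simpa using hg.integrable_sq) (Relm.int1 μ (hm.pow_const 2) (Relm.sqb hb)) i3 he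
      (by simpa using h)))
  simp only [abs_mul, Real.sqrt_sq_eq_abs]

theorem lin {ψ : E d → ℝ} (hm : Measurable ψ) (hb : ∀ x, |ψ x| ≤ 1) (u : E d) :
    ⟪u, ∫ ξ, ψ ξ • ξ ∂gs d⟫ = ∫ ξ, ⟪u, ξ⟫ * ψ ξ ∂gs d ∧
      |⟪u, ∫ ξ, ψ ξ • ξ ∂gs d⟫| ≤ ‖u‖ * √(∫ x, ψ x ^ 2 ∂gs d) := by
  have hi : Integrable (fun ξ : E d => ψ ξ • ξ) (gs d) :=
    Integrable.bdd_smul (IsGaussian.integrable_id (μ := gs d)) 1 hm.aestronglyMeasurable
      (ae_of_all _ hb)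
  have e : ⟪u, ∫ ξ, ψ ξ • ξ ∂gs d⟫ = ∫ ξ, ⟪u, ξ⟫ * ψ ξ ∂gs d := by
    rw [← integral_inner hi]
    simp only [real_inner_smul_right, mul_comm]
  exact ⟨e, e ▸ cs1 _ hm hb (mI u) (norm_nonneg _) (iI2 u).le⟩

theorem pt (h : Gau1 d) {ψ : E d → ℝ} (hm : Measurable ψ) (hb : ∀ x, |ψ x| ≤ 1) (u z : E d)
    (hu : ‖u‖ ≤ 2 * ‖z‖) : |∫ ξ, ψ (ξ + u) ∂gs d - ∫ ξ, ψ ξ ∂gs d - ⟪u, ∫ ξ, ψ ξ • ξ ∂gs d⟫| ≤
      4 * Real.exp 2 * √(∫ x, ψ x ^ 2 ∂gs d) * ‖z‖ ^ 2 + 2 * ‖z‖ ^ 4 := by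
  obtain ⟨l1, l2⟩ := lin hm hb u
  have s0 := Real.sqrt_nonneg (∫ x, ψ x ^ 2 ∂gs d)
  have x1 : 1 ≤ Real.exp 2 := Real.one_le_exp (by norm_num)
  have u0 := norm_nonneg u
  by_cases hz : ‖z‖ ≤ 1
  · have j0 := Relm.int1 (gs d) hm hb
    have jm : ∀ g : E d → ℝ, MemLp g 2 (gs d) → Integrable (fun ξ => g ξ * ψ ξ) (gs d) :=
      fun g hg => (hg.integrable one_le_two).mul_bdd (c := 1) hm.aestronglyMeasurable
        (ae_of_all _ hb)
    have k0 : Integrable (fun ξ => Lu u ξ * ψ ξ - ψ ξ) (gs d) := (jm _ (mL h u)).sub j0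
    rw [shift h u hm, l1, ← integral_sub (jm _ (mL h u)) j0, ← integral_sub k0 (jm _ (mI u))]
    have e : ∀ ξ, Lu u ξ * ψ ξ - ψ ξ - ⟪u, ξ⟫ * ψ ξ = (Lu u ξ - 1 - ⟪u, ξ⟫) * ψ ξ :=
      fun ξ => by ring
    simp only [e]
    have hg : MemLp (fun ξ => Lu u ξ - 1 - ⟪u, ξ⟫) 2 (gs d) :=
      ((mL h u).sub (memLp_const 1)).sub (mI u)
    have hR : ∫ ξ, (Lu u ξ - 1 - ⟪u, ξ⟫) ^ 2 ∂gs d ≤ (Real.exp 2 * ‖u‖ ^ 2) ^ 2 := by
      rw [R2 h]
      set a := ‖u‖ ^ 2 with ha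
      have a0 : 0 ≤ a := sq_nonneg _
      have a4 : a ≤ 4 := by nlinarith
      have b1 : Real.exp a - 1 ≤ a * Real.exp a := by
        have := mul_le_mul_of_nonneg_left (Real.add_one_le_exp (-a)) (Real.exp_pos a).le
        rw [← Real.exp_add, add_neg_cancel, Real.exp_zero] at this
        linarith
      have b2 : Real.exp a ≤ Real.exp 2 ^ 2 := by
        rw [← Real.exp_nat_mul]; exact Real.exp_le_exp.mpr (by push_cast; linarith)
      have b3 := mul_le_mul_of_nonneg_left b1 a0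
      have b4 := mul_le_mul_of_nonneg_left b2 (sq_nonneg a)
      nlinarith
    refine (cs1 _ hm hb hg (by positivity) hR).trans ?_
    have : ‖u‖ ^ 2 ≤ 4 * ‖z‖ ^ 2 := by nlinarith
    have := mul_le_mul_of_nonneg_left this
      (show 0 ≤ Real.exp 2 * √(∫ x, ψ x ^ 2 ∂gs d) by positivity)
    nlinarith [pow_nonneg (norm_nonneg z) 4]
  · push Not at hz
    have e1 := Relm.abs_int (gs d) (φ := fun ξ => ψ (ξ + u)) fun _ => hb _
    have e2 := Relm.abs_int (gs d) hb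
    have e3 : 1 ≤ ‖z‖ ^ 4 := one_le_pow₀ hz.le
    have e4 : ‖u‖ ≤ 4 * Real.exp 2 * ‖z‖ ^ 2 := by nlinarith
    have e5 := mul_le_mul_of_nonneg_right e4 s0
    refine (abs_sub _ _).trans ?_
    have e6 := abs_sub (∫ ξ, ψ (ξ + u) ∂gs d) (∫ ξ, ψ ξ ∂gs d)
    linarith

theorem int_sm (α : Measure (E d)) [IsProbabilityMeasure α] (t : ℝ) {φ : E d → ℝ}
    (hm : Measurable φ) (hb : ∀ x, |φ x| ≤ 1) :
    Integrable (fun x => ∫ ξ, φ (x + t • ξ) ∂gs d) α ∧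
      ∫ x, φ x ∂sm α t = ∫ x, ∫ ξ, φ (x + t • ξ) ∂gs d ∂α := by
  have hf : Measurable fun p : E d × E d => p.1 + t • p.2 := by fun_prop
  have j := Relm.int1 (α.prod (gs d)) (hm.comp hf) fun x => hb _
  refine ⟨j.integral_prod_left, ?_⟩
  rw [sm, integral_map hf.aemeasurable hm.aestronglyMeasurable]
  exact integral_prod _ j

theorem sm_prob (α : Measure (E d)) [IsProbabilityMeasure α] (t : ℝ) :
    IsProbabilityMeasure (sm α t) :=
  Measure.isProbabilityMeasure_map (Measurable.aemeasurable (by fun_prop))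

theorem fin {A B c r s S X : ℝ} (r0 : 0 ≤ r) (s0 : 0 ≤ s) (S0 : 0 ≤ S) (x1 : 1 ≤ X)
    (main : |A - B - c| ≤ 4 * X * S * (2 * (r + s)) + 2 * (8 * (r + s) ^ 2))
    (l2 : |c| ≤ 2 * r * S) : |B - A| ≤ 10 * X * (r + s) * S + (10 * X * (r + s)) ^ 2 := by
  have a1 := abs_le.mp main
  have a2 := abs_le.mp l2
  have a3 : 2 * r * S ≤ 2 * X * S * (r + s) := by
    nlinarith [mul_nonneg r0 S0, mul_nonneg s0 S0]
  have a4 : 16 * (r + s) ^ 2 ≤ (10 * X * (r + s)) ^ 2 := by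
    rw [mul_pow]; gcongr; nlinarith
  rw [abs_le]
  constructor <;> linarith [a1.1, a1.2, a2.1, a2.2]

end L2m

open L2m in
theorem stmtL2 (h1 : StmtG1) (hRel : RelApi) : StmtL2 := by
  have x1 : 1 ≤ Real.exp 2 := Real.one_le_exp (by norm_num)
  refine ⟨10 * Real.exp 2, by linarith, fun d β _ x0 t ht hi => ?_⟩
  set m := ∫ y, y ∂β with hmm
  set r := ‖m - x0‖ with hr
  set s := √(∫ x, ‖x - m‖ ^ 4 ∂β) with hs
  have r0 : 0 ≤ r := norm_nonneg _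
  have s0 : 0 ≤ s := Real.sqrt_nonneg _
  have := sm_prob (Measure.dirac x0) t
  have := sm_prob β t
  by_cases hr1 : 1 < r
  · exact hRel.mono _ _ _ 2 _ (by norm_num) (by nlinarith) (hRel.triv _ _ _)
  push Not at hr1
  intro φ hm hb
  have t0 : 0 < t := by linarith
  have m4 : MemLp (fun x : E d => x) 4 β := by
    refine (integrable_norm_rpow_iff (f := fun x : E d => x) (p := 4) aestronglyMeasurable_id
      (by norm_num) (by simp)).mp ?_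
    have : ((4 : ENNReal).toReal) = ((4 : ℕ) : ℝ) := by norm_num
    simpa only [this, Real.rpow_natCast] using hi
  have p4 : ∀ c : E d, Integrable (fun x : E d => ‖x - c‖ ^ 4) β := fun c =>
    (m4.sub (memLp_const c)).integrable_norm_pow (by norm_num)
  have p2 : ∀ c : E d, Integrable (fun x : E d => ‖x - c‖ ^ 2) β := fun c =>
    ((m4.sub (memLp_const c)).mono_exponent (p := 2) (by norm_num)).integrable_norm_pow (by norm_num)
  have p1 : Integrable (fun x : E d => x) β := m4.integrable (by norm_num)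
  have tri : ∀ x : E d, ‖x - x0‖ ≤ ‖x - m‖ + r := fun x => norm_sub_le_norm_sub_add_norm_sub _ _ _
  have ss : ∫ x, ‖x - m‖ ^ 4 ∂β = s ^ 2 :=
    (Real.sq_sqrt (integral_nonneg fun _ => by positivity)).symm
  have q2 : ∫ x, ‖x - m‖ ^ 2 ∂β ≤ s := by
    have := cs1 β (ψ := fun _ => 1) (g := fun x => ‖x - m‖ ^ 2) measurable_const (by simp)
      ((memLp_two_iff_integrable_sq (p2 m).1).mpr (by simpa [← pow_mul] using p4 m)) s0
      (by simpa [← pow_mul] using ss.le)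
    simpa using (le_abs_self _).trans this
  have z2 : ∫ x, ‖x - x0‖ ^ 2 ∂β ≤ 2 * (r + s) := by
    calc _ ≤ ∫ x, (2 * ‖x - m‖ ^ 2 + 2 * r) ∂β :=
          integral_mono (p2 _) (((p2 m).const_mul _).add (integrable_const _)) fun x => by
            have := pow_le_pow_left₀ (norm_nonneg _) (tri x) 2
            show ‖x - x0‖ ^ 2 ≤ 2 * ‖x - m‖ ^ 2 + 2 * r
            nlinarith [sq_nonneg (‖x - m‖ - r)]
      _ ≤ _ := by
          rw [integral_add ((p2 m).const_mul _) (integrable_const _), integral_const_mul]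
          simp; linarith
  have z4 : ∫ x, ‖x - x0‖ ^ 4 ∂β ≤ 8 * (r + s) ^ 2 := by
    calc _ ≤ ∫ x, (8 * ‖x - m‖ ^ 4 + 8 * r ^ 2) ∂β :=
          integral_mono (p4 _) (((p4 m).const_mul _).add (integrable_const _)) fun x => by
            have h3 := pow_le_pow_left₀ (norm_nonneg _) (tri x) 4
            have h4 : r ^ 4 ≤ r ^ 2 := pow_le_pow_of_le_one r0 hr1 (by norm_num)
            have h5 := add_pow_le (norm_nonneg (x - m)) r0 4
            show ‖x - x0‖ ^ 4 ≤ 8 * ‖x - m‖ ^ 4 + 8 * r ^ 2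
            norm_num at h5
            linarith
      _ ≤ _ := by
          rw [integral_add ((p4 m).const_mul _) (integrable_const _), integral_const_mul, ss]
          simp; nlinarith [mul_nonneg r0 s0]
  set ψ : E d → ℝ := fun ξ => φ (x0 + t • ξ) with hψ
  have mψ : Measurable ψ := hm.comp (by fun_prop)
  have bψ : ∀ x, |ψ x| ≤ 1 := fun _ => hb _
  obtain ⟨iβ, eβ⟩ := int_sm β t hm hb
  rw [eβ, (int_sm _ t hm hb).2, (int_sm _ t (hm.pow_const 2) (Relm.sqb hb)).2, integral_dirac,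
    integral_dirac]
  change |∫ ξ, ψ ξ ∂gs d - _| ≤ _ * √(∫ ξ, ψ ξ ^ 2 ∂gs d) + _
  set S := √(∫ ξ, ψ ξ ^ 2 ∂gs d) with hS
  have S0 : 0 ≤ S := Real.sqrt_nonneg _
  set v := ∫ ξ, ψ ξ • ξ ∂gs d with hv
  have nu : ∀ z : E d, ‖t⁻¹ • z‖ ≤ 2 * ‖z‖ := fun z => by
    rw [norm_smul, Real.norm_of_nonneg (inv_pos.mpr t0).le]
    exact mul_le_mul_of_nonneg_right (by rw [inv_le_comm₀ t0 (by norm_num)]; linarith)
      (norm_nonneg _)
  have hp : ∀ x : E d, |∫ ξ, φ (x + t • ξ) ∂gs d - ∫ ξ, ψ ξ ∂gs d - ⟪t⁻¹ • (x - x0), v⟫| ≤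
      4 * Real.exp 2 * S * ‖x - x0‖ ^ 2 + 2 * ‖x - x0‖ ^ 4 := fun x => by
    have := pt (h1 d) mψ bψ _ _ (nu (x - x0))
    have e : ∀ ξ : E d, ψ (ξ + t⁻¹ • (x - x0)) = φ (x + t • ξ) := fun ξ => by
      simp only [hψ, smul_add, smul_inv_smul₀ t0.ne']
      congr 1; abel
    simpa only [e] using this
  have pu : Integrable (fun x : E d => t⁻¹ • (x - x0)) β := (p1.sub (integrable_const x0)).smul t⁻¹
  have il : Integrable (fun x : E d => ⟪t⁻¹ • (x - x0), v⟫) β := pu.inner_const v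
  have el : ∫ x, ⟪t⁻¹ • (x - x0), v⟫ ∂β = ⟪t⁻¹ • (m - x0), v⟫ := by
    simp only [real_inner_comm v]
    rw [integral_inner pu, integral_smul, integral_sub p1 (integrable_const _)]
    simp [hmm]
  have k1 : Integrable (fun x => ∫ ξ, φ (x + t • ξ) ∂gs d - ∫ ξ, ψ ξ ∂gs d) β :=
    iβ.sub (integrable_const _)
  have main : |∫ x, ∫ ξ, φ (x + t • ξ) ∂gs d ∂β - ∫ ξ, ψ ξ ∂gs d - ⟪t⁻¹ • (m - x0), v⟫| ≤
      4 * Real.exp 2 * S * (2 * (r + s)) + 2 * (8 * (r + s) ^ 2) := by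
    have e : ∫ x, ∫ ξ, φ (x + t • ξ) ∂gs d ∂β - ∫ ξ, ψ ξ ∂gs d - ⟪t⁻¹ • (m - x0), v⟫ =
        ∫ x, (∫ ξ, φ (x + t • ξ) ∂gs d - ∫ ξ, ψ ξ ∂gs d - ⟪t⁻¹ • (x - x0), v⟫) ∂β := by
      rw [integral_sub k1 il, integral_sub iβ (integrable_const _), el]; simp
    rw [e]
    have k2 : Integrable (fun x : E d => 4 * Real.exp 2 * S * ‖x - x0‖ ^ 2 + 2 * ‖x - x0‖ ^ 4) β :=
      ((p2 x0).const_mul _).add ((p4 x0).const_mul _)
    refine abs_integral_le_integral_abs.trans ((integral_mono (k1.sub il).abs k2 hp).trans ?_)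
    rw [integral_add ((p2 x0).const_mul _) ((p4 x0).const_mul _), integral_const_mul,
      integral_const_mul]
    gcongr
  have l2 := (lin mψ bψ (t⁻¹ • (m - x0))).2.trans (mul_le_mul_of_nonneg_right (nu _) S0)
  rw [← hv, ← hr] at l2
  exact fin r0 s0 S0 x1 main l2

end Vale.Agent.P347
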