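import Vale.Agent.P347.Spec2
import Vale.Agent.P347.L2

open MeasureTheory ProbabilityTheory
open scoped RealInnerProductSpace

namespace Vale.Agent.P347

namespace L2bm

open L2m

variable {d : ℕ}

theorem e1 (h : Gau1 d) (u : E d) : ∫ ξ, Lu u ξ ∂gs d = 1 := by
  simpa using (shift h u (F := fun _ => 1) measurable_const).symm

theorem cov (h : Gau1 d) (u v : E d) :
    ∫ ξ, (Lu u ξ - 1) * (Lu v ξ - 1) ∂gs d = Real.exp ⟪u, v⟫ - 1 := by
  have j := (mL h v).integrable one_le_two
  have j1 : Integrable (fun ξ => Lu v ξ - 1) (gs d) := j.sub (integrable_const _)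
  have j2 : Integrable (fun ξ => Lu u ξ * (Lu v ξ - 1)) (gs d) :=
    (mL h u).integrable_mul ((mL h v).sub (memLp_const 1))
  have e : ∀ ξ, Lu v (ξ + u) = Real.exp ⟪u, v⟫ * Lu v ξ := fun ξ => by
    rw [Lu, Lu, ← Real.exp_add, inner_add_right, real_inner_comm u v]; congr 1; ring
  simp only [sub_mul, one_mul]
  rw [integral_sub j2 j1, ← shift h u (F := fun ξ => Lu v ξ - 1) ((cL v).measurable.sub_const 1)]
  simp only [e]
  rw [integral_sub (j.const_mul _) (integrable_const _), integral_sub j (integrable_const _),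
    integral_const_mul, e1 h]
  simp

theorem ex4 {a : ℝ} (h : a ≤ 4) : Real.exp a - 1 ≤ a + Real.exp 2 ^ 2 * a ^ 2 := by
  have b1 : Real.exp a - 1 ≤ a * Real.exp a := by
    have := mul_le_mul_of_nonneg_left (Real.add_one_le_exp (-a)) (Real.exp_pos a).le
    rw [← Real.exp_add, add_neg_cancel, Real.exp_zero] at this
    linarith
  have b2 : Real.exp a ≤ Real.exp 2 ^ 2 := by
    rw [← Real.exp_nat_mul]; exact Real.exp_le_exp.mpr (by push_cast; linarith)
  have b3 : 1 ≤ Real.exp 2 ^ 2 := one_le_pow₀ (Real.one_le_exp (by norm_num))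
  rcases le_total 0 a with a0 | a0
  · nlinarith [mul_le_mul_of_nonneg_left b1 a0, mul_le_mul_of_nonneg_left b2 (sq_nonneg a)]
  · nlinarith [mul_le_mul_of_nonpos_left (Real.add_one_le_exp a) a0, mul_le_mul_of_nonneg_left b3 (sq_nonneg a)]

theorem chi (h : Gau1 d) (β : Measure (E d)) [IsProbabilityMeasure β] {u : E d → E d} (hu : Measurable u)
    (hb : ∀ x, ‖u x‖ ≤ 2) (h0 : ∫ x, u x ∂β = 0) {ψ : E d → ℝ} (hm : Measurable ψ) (hψ : ∀ x, |ψ x| ≤ 1)
    {e : ℝ} (he : 0 ≤ e) (h2 : ∫ p, ⟪u p.1, u p.2⟫ ^ 2 ∂β.prod β ≤ e ^ 2) :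
    |∫ x, (∫ ξ, ψ (ξ + u x) ∂gs d - ∫ ξ, ψ ξ ∂gs d) ∂β| ≤ Real.exp 2 * e * √(∫ x, ψ x ^ 2 ∂gs d) := by
  set F : E d → E d → ℝ := fun x ξ => Lu (u x) ξ - 1 with hF
  have mF : Measurable fun p : E d × E d => F p.1 p.2 := by
    simp only [hF, Lu]; fun_prop
  have bF : ∀ x ξ, |F x ξ| ≤ Real.exp (2 * ‖ξ‖) := fun x ξ => by
    have a : 1 ≤ Real.exp (2 * ‖ξ‖) := Real.one_le_exp (by positivity)
    have b : Lu (u x) ξ ≤ Real.exp (2 * ‖ξ‖) := Real.exp_le_exp.2 (by
      nlinarith [real_inner_le_norm (u x) ξ, hb x, norm_nonneg ξ, sq_nonneg ‖u x‖])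
    have c : 0 < Lu (u x) ξ := Real.exp_pos _
    exact abs_le.2 ⟨by simp only [hF]; linarith, by simp only [hF]; linarith⟩
  have iB : ∀ B : ℝ, Integrable (fun ξ : E d => Real.exp (B * ‖ξ‖)) (gs d) := fun B =>
    (h.big B).mono' (Continuous.aestronglyMeasurable (by fun_prop)) (ae_of_all _ fun ξ => by
      rw [Real.norm_of_nonneg (Real.exp_pos _).le]
      exact Real.exp_le_exp.2 (le_add_of_nonneg_right (by positivity)))
  have sq : ∀ ξ : E d, Real.exp (2 * ‖ξ‖) * Real.exp (2 * ‖ξ‖) = Real.exp (4 * ‖ξ‖) := fun ξ => by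
    rw [← Real.exp_add]; congr 1; ring
  set g : E d → ℝ := fun ξ => ∫ x, F x ξ ∂β with hg
  have mg : StronglyMeasurable g := mF.stronglyMeasurable.integral_prod_left
  have bg : ∀ ξ, |g ξ| ≤ Real.exp (2 * ‖ξ‖) := fun ξ => by
    simpa using norm_integral_le_of_norm_le_const (μ := β) (f := fun x => F x ξ) (ae_of_all _ fun x => bF x ξ)
  have Lg : MemLp g 2 (gs d) := (memLp_two_iff_integrable_sq mg.aestronglyMeasurable).2
    ((iB 4).mono' (mg.measurable.pow_const 2).aestronglyMeasurable (ae_of_all _ fun ξ => by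
      rw [← sq, norm_pow, ← pow_two]; exact pow_le_pow_left₀ (norm_nonneg _) (bg ξ) 2))
  have iu : Integrable u β := Integrable.of_bound hu.aestronglyMeasurable 2 (ae_of_all _ hb)
  have a4 : ∀ p : E d × E d, |⟪u p.1, u p.2⟫| ≤ 4 := fun p => by
    nlinarith [abs_real_inner_le_norm (u p.1) (u p.2), hb p.1, hb p.2, norm_nonneg (u p.1), norm_nonneg (u p.2)]
  have mi : Measurable fun p : E d × E d => ⟪u p.1, u p.2⟫ := by fun_prop
  have i1 : Integrable (fun p : E d × E d => ⟪u p.1, u p.2⟫) (β.prod β) :=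
    Integrable.of_bound mi.aestronglyMeasurable 4 (ae_of_all _ a4)
  have i2 : Integrable (fun p : E d × E d => ⟪u p.1, u p.2⟫ ^ 2) (β.prod β) :=
    Integrable.of_bound (mi.pow_const 2).aestronglyMeasurable (4 ^ 2) (ae_of_all _ fun p => by
      rw [norm_pow]; exact pow_le_pow_left₀ (norm_nonneg _) (a4 p) 2)
  have g2 : ∫ ξ, g ξ ^ 2 ∂gs d ≤ (Real.exp 2 * e) ^ 2 := by
    have e1 : ∀ ξ, g ξ ^ 2 = ∫ p, F p.1 ξ * F p.2 ξ ∂β.prod β := fun ξ => by
      rw [integral_prod_mul (fun x => F x ξ) fun x => F x ξ, pow_two]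
    have i3 : Integrable (Function.uncurry fun (ξ : E d) (p : E d × E d) => F p.1 ξ * F p.2 ξ)
        ((gs d).prod (β.prod β)) :=
      ((iB 4).comp_fst _).mono' ((mF.comp (measurable_snd.fst.prodMk measurable_fst)).mul
        (mF.comp (measurable_snd.snd.prodMk measurable_fst))).aestronglyMeasurable (ae_of_all _ fun q => by
          rw [← sq]
          exact (norm_mul_le _ _).trans (mul_le_mul (bF _ _) (bF _ _) (norm_nonneg _) (by positivity)))
    simp only [e1]
    rw [integral_integral_swap i3]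
    have e3 : ∀ p : E d × E d, ∫ ξ, F p.1 ξ * F p.2 ξ ∂gs d = Real.exp ⟪u p.1, u p.2⟫ - 1 := fun p => cov h _ _
    have i5 : Integrable (fun p : E d × E d => Real.exp ⟪u p.1, u p.2⟫ - 1) (β.prod β) :=
      (Integrable.of_bound mi.exp.aestronglyMeasurable (Real.exp 4) (ae_of_all _ fun p => by
        rw [Real.norm_of_nonneg (Real.exp_pos _).le]
        exact Real.exp_le_exp.2 ((le_abs_self _).trans (a4 p)))).sub (integrable_const 1)
    have i6 : Integrable (fun p : E d × E d => ⟪u p.1, u p.2⟫ + Real.exp 2 ^ 2 * ⟪u p.1, u p.2⟫ ^ 2) (β.prod β) :=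
      i1.add (i2.const_mul _)
    simp only [e3]
    refine (integral_mono i5 i6 fun p => ex4 ((le_abs_self _).trans (a4 p))).trans ?_
    · rw [integral_add i1 (i2.const_mul _), integral_const_mul, integral_prod _ i1]
      simp only [integral_inner iu, h0, inner_zero_right, integral_zero, zero_add, mul_pow]
      gcongr
  have i4 : Integrable (Function.uncurry fun x ξ => F x ξ * ψ ξ) (β.prod (gs d)) :=
    ((iB 2).comp_snd _).mono' (mF.mul (hm.comp measurable_snd)).aestronglyMeasurable (ae_of_all _ fun q =>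
      (norm_mul_le _ _).trans ((mul_le_of_le_one_right (norm_nonneg _) (hψ _)).trans (bF _ _)))
  have e2 : ∀ x, ∫ ξ, ψ (ξ + u x) ∂gs d - ∫ ξ, ψ ξ ∂gs d = ∫ ξ, F x ξ * ψ ξ ∂gs d := fun x => by
    rw [shift h _ hm, ← integral_sub (((mL h _).integrable one_le_two).mul_bdd (c := 1) hm.aestronglyMeasurable
      (ae_of_all _ hψ)) (Relm.int1 (gs d) hm hψ)]
    simp only [hF, sub_mul, one_mul]
  simp only [e2]
  rw [integral_integral_swap i4]
  simp only [integral_mul_const]
  exact cs1 _ hm hψ Lg (by positivity) g2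

end L2bm

open L2m L2bm in
theorem stmtL2b (h1 : StmtG1) (hRel : RelApi) (hCv : StmtCv) : StmtL2b := by
  obtain ⟨C, C1, hC⟩ := stmtL2 h1 hRel
  have x1 : 1 ≤ Real.exp 2 := Real.one_le_exp (by norm_num)
  refine ⟨C + 4 * Real.exp 2, by linarith, fun d β _ x0 t ht hi => ?_⟩
  set m := ∫ y, y ∂β with hmm
  have := sm_prob (Measure.dirac x0) t
  have := sm_prob (Measure.dirac m) t
  have := sm_prob β t
  have t0 : 0 < t := by linarith
  have r0 := norm_nonneg (m - x0)
  have s0 := Real.sqrt_nonneg (CovF β)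
  have a := hC d (Measure.dirac m) x0 t ht (integrable_dirac (by simp))
  simp only [integral_dirac, sub_self, norm_zero, ne_eq, OfNat.ofNat_ne_zero, not_false_eq_true, zero_pow,
    Real.sqrt_zero, add_zero] at a
  refine hRel.mono _ _ _ _ _ (by positivity) (by nlinarith) (hRel.tri _ _ _ _ _ (4 * Real.exp 2 * √(CovF β))
    (by positivity) (by positivity) a fun φ hm hb => le_add_of_le_of_nonneg ?_ (sq_nonneg _))
  have m2 : MemLp (fun x : E d => x) 2 β := MemLp.of_bound aestronglyMeasurable_id (1 + ‖m‖)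
    (hi.mono fun x hx => by linarith [norm_le_insert' x m])
  have p1 := m2.integrable one_le_two
  set u : E d → E d := fun x => if ‖x - m‖ ≤ 1 then t⁻¹ • (x - m) else 0 with hu
  have ti : t⁻¹ ≤ 2 := by rw [inv_le_comm₀ t0 (by norm_num)]; linarith
  have ue : ∀ᵐ x ∂β, u x = t⁻¹ • (x - m) := hi.mono fun x hx => if_pos hx
  set ψ : E d → ℝ := fun ξ => φ (m + t • ξ) with hψ
  have key := chi (h1 d) β (u := u) (Measurable.ite (measurableSet_le (by fun_prop) measurable_const)
    (by fun_prop) measurable_const) (fun x => by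
      simp only [hu]; split_ifs with c
      · rw [norm_smul, Real.norm_of_nonneg (inv_pos.2 t0).le]; nlinarith [norm_nonneg (x - m), inv_pos.2 t0]
      · simp)
    (by rw [integral_congr_ae ue, integral_smul, integral_sub p1 (integrable_const _)]; simp [hmm])
    (ψ := ψ) (hm.comp (by fun_prop)) (fun _ => hb _) (e := 4 * √(CovF β)) (by positivity) (by
      have c0 : 0 ≤ CovF β := by rw [(hCv d).two β m2]; exact integral_nonneg fun _ => sq_nonneg _
      rw [mul_pow, Real.sq_sqrt c0, integral_congr_ae (g := fun p => (t⁻¹ ^ 2) ^ 2 * ⟪p.1 - m, p.2 - m⟫ ^ 2),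
        integral_const_mul, ← (hCv d).two β m2]
      · have := inv_pos.2 t0
        gcongr
        nlinarith
      · filter_upwards [Measure.quasiMeasurePreserving_fst.ae ue, Measure.quasiMeasurePreserving_snd.ae ue]
          with p a b
        rw [a, b, real_inner_smul_left, real_inner_smul_right]; ring)
  obtain ⟨iβ, eβ⟩ := int_sm β t hm hb
  rw [eβ, (int_sm _ t hm hb).2, (int_sm _ t (hm.pow_const 2) (Relm.sqb hb)).2, integral_dirac,
    integral_dirac, abs_sub_comm]
  rw [integral_congr_ae (g := fun x => ∫ ξ, φ (x + t • ξ) ∂gs d - ∫ ξ, ψ ξ ∂gs d),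
    integral_sub iβ (integrable_const _)] at key
  · simp only [integral_const, probReal_univ, one_smul] at key
    exact key.trans (le_of_eq (by ring))
  · filter_upwards [ue] with x hx
    simp only [hx, hψ, smul_add, smul_inv_smul₀ t0.ne']
    congr 3; ext ξ; congr 1; abel

end Vale.Agent.P347
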