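import Vale.Agent.P347.Spec

open MeasureTheory ProbabilityTheory Finset

namespace Vale.Agent.P347

namespace Lastm

lemma incr {d : ℕ} {ε : ℝ} {W : E d → ℝ} {G : E d → E d} (hε : 0 ≤ ε) (hW : Pot W G)
    (hG : Nice ε G) (x : E d) : |W x - W 0| ≤ ε / 2 + 3 / 2 * ε * ‖x‖ ^ 2 := by
  have h := (convex_closedBall (0 : E d) ‖x‖).norm_image_sub_le_of_norm_hasFDerivWithin_le
    (f := W) (C := ε * (1 + ‖x‖)) (fun y _ => (hW y).hasFDerivAt.hasFDerivWithinAt)
    (fun y hy => by
      rw [LinearIsometryEquiv.norm_map]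
      have h1 := hG.lip y 0
      have h2 := norm_le_norm_add_norm_sub' (G y) (G 0)
      rw [sub_zero] at h1
      rw [mem_closedBall_zero_iff] at hy
      linarith [hG.zero, mul_le_mul_of_nonneg_left hy hε])
    (Metric.mem_closedBall_self (norm_nonneg x)) (mem_closedBall_zero_iff.2 le_rfl)
  rw [sub_zero, Real.norm_eq_abs] at h
  nlinarith [mul_nonneg hε (sq_nonneg (‖x‖ - 1))]

lemma fin {A B Z a c : ℝ} (hB : |B| ≤ 1) (h1 : |A - B| ≤ a) (h2 : |Z - 1| ≤ a) (hZ : 3 / 4 ≤ Z)
    (hc : 0 ≤ c) (ha : a ≤ 6 * c) : |A / Z - B| ≤ 16 * c := by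
  have hZ0 : 0 < Z := by linarith
  rw [show A / Z - B = ((A - B) - (Z - 1) * B) / Z by field_simp; ring, abs_div, abs_of_pos hZ0,
    div_le_iff₀ hZ0]
  have h3 : |(Z - 1) * B| ≤ a * 1 := by
    rw [abs_mul]
    exact mul_le_mul h2 hB (abs_nonneg _) ((abs_nonneg _).trans h2)
  linarith [abs_sub (A - B) ((Z - 1) * B), mul_le_mul_of_nonneg_left hZ hc]

end Lastm

open Lastm in
theorem stmtLast (h1 : StmtG1) : StmtLast := by
  intro d ε W G hd hε hεd hW hG φ hφ hφ1
  have hd1 : (1 : ℝ) ≤ d := by exact_mod_cast hd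
  have hε1 : ε ≤ ε * d := le_mul_of_one_le_right hε hd1
  have hsq := (h1 d).sq (3 / 2 * ε) (by positivity) (by linarith)
  have hc : Continuous fun x : E d => Real.exp (3 / 2 * ε * ‖x‖ ^ 2) := by fun_prop
  have hi : Integrable (fun x : E d => Real.exp (3 / 2 * ε * ‖x‖ ^ 2)) (gs d) :=
    ⟨hc.aestronglyMeasurable, (hasFiniteIntegral_iff_ofReal
      (.of_forall fun _ => (Real.exp_pos _).le)).2 (hsq.trans_lt ENNReal.ofReal_lt_top)⟩
  have hI : ∫ x, Real.exp (3 / 2 * ε * ‖x‖ ^ 2) ∂gs d ≤ Real.exp (2 * (3 / 2 * ε) * d) := by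
    rw [integral_eq_lintegral_of_nonneg_ae (.of_forall fun _ => (Real.exp_pos _).le)
      hc.aestronglyMeasurable]
    exact ENNReal.toReal_le_of_le_ofReal (Real.exp_pos _).le hsq
  have hWc : Continuous W := continuous_iff_continuousAt.2 fun x => (hW x).continuousAt
  set h : E d → ℝ := fun x => Real.exp (-(W x - W 0)) with hh
  set g : E d → ℝ := fun x => Real.exp (ε / 2) * Real.exp (3 / 2 * ε * ‖x‖ ^ 2) - 1 with hg
  have hgi : Integrable g (gs d) := (hi.const_mul _).sub (integrable_const _)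
  have hhg : ∀ x, |h x - 1| ≤ g x := fun x => by
    obtain ⟨b1, b2⟩ := abs_le.1 (incr hε hW hG x)
    simp only [hh, hg, ← Real.exp_add]
    have b3 := Real.exp_le_exp.2 (show -(W x - W 0) ≤ ε / 2 + 3 / 2 * ε * ‖x‖ ^ 2 by linarith)
    rw [abs_le]
    constructor <;> linarith [Real.add_one_le_exp (-(W x - W 0)),
      Real.add_one_le_exp (ε / 2 + 3 / 2 * ε * ‖x‖ ^ 2)]
  have hhm : Measurable h := (by fun_prop : Continuous h).measurable
  have hh1 : Integrable (fun x => h x - 1) (gs d) :=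
    hgi.mono' (hhm.sub_const 1).aestronglyMeasurable (.of_forall hhg)
  have hhi : Integrable h (gs d) := 
    (hh1.add (integrable_const 1)).congr (.of_forall fun x => by simp)
  have hφi : Integrable φ (gs d) :=
    (integrable_const (1 : ℝ)).mono' hφ.aestronglyMeasurable (.of_forall hφ1)
  have hb : ∀ x, ‖(h x - 1) * φ x‖ ≤ g x := fun x => by
    rw [Real.norm_eq_abs, abs_mul]
    exact (mul_le_of_le_one_right (abs_nonneg _) (hφ1 x)).trans (hhg x)
  have hpi : Integrable (fun x => (h x - 1) * φ x) (gs d) :=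
    hgi.mono' ((hhm.sub_const 1).mul hφ).aestronglyMeasurable (.of_forall hb)
  have ha : ∫ x, g x ∂gs d ≤ 6 * (ε * d) := by
    rw [hg, integral_sub (hi.const_mul _) (integrable_const _), integral_const_mul]
    have a1 := mul_le_mul_of_nonneg_left hI (Real.exp_pos (ε / 2)).le
    rw [← Real.exp_add] at a1
    have a2 := Real.exp_le_exp.2 (show ε / 2 + 2 * (3 / 2 * ε) * d ≤ 7 / 2 * (ε * d) by linarith)
    have a3 := (abs_le.1 (Real.abs_exp_sub_one_sub_id_le (x := 7 / 2 * (ε * d))
      (by rw [abs_of_nonneg (by positivity)]; linarith))).2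
    have a4 := mul_le_mul_of_nonneg_left hεd (by positivity : 0 ≤ ε * d)
    simp only [integral_const, probReal_univ, smul_eq_mul]
    nlinarith
  have hZ : 3 / 4 ≤ ∫ x, h x ∂gs d := by
    have i2 := (h1 d).i2 2
    have := integral_mono (((integrable_const (1 - ε / 2)).sub (i2.const_mul (3 / 2 * ε)))) hhi
      fun x => by
        simp only [Pi.sub_apply, hh]
        linarith [(abs_le.1 (incr hε hW hG x)).2, Real.add_one_le_exp (-(W x - W 0))]
    simp only [Pi.sub_apply] at this
    rw [integral_sub (integrable_const _) (i2.const_mul _), integral_const_mul, (h1 d).m2] at this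
    simp only [integral_const, probReal_univ, smul_eq_mul] at this
    linarith
  have e1 : ∫ x, φ x ∂mu W = (∫ x, h x * φ x ∂gs d) / ∫ x, h x ∂gs d := by
    have e : ∀ x, Real.exp (-W x) = Real.exp (-W 0) * h x := fun x => by
      rw [hh, ← Real.exp_add]
      congr 1
      ring
    rw [mu, integral_tilted, ← integral_div, funext e, integral_const_mul]
    congr 1
    funext x
    rw [e x, smul_eq_mul, mul_div_mul_left _ _ (Real.exp_pos _).ne', div_mul_eq_mul_div]
  rw [e1, mul_assoc]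
  refine fin (a := ∫ x, g x ∂gs d) ?_ ?_ ?_ hZ (by positivity) ha
  · simpa using norm_integral_le_of_norm_le_const (μ := gs d) (f := φ) (C := 1) (.of_forall hφ1)
  · have := norm_integral_le_of_norm_le hgi (.of_forall hb)
    have e : ∫ x, h x * φ x ∂gs d = ∫ x, (h x - 1) * φ x ∂gs d + ∫ x, φ x ∂gs d := by
      rw [← integral_add hpi hφi]
      congr 1
      funext x
      ring
    rwa [e, add_sub_cancel_right]
  · have := norm_integral_le_of_norm_le hgi (f := fun x => h x - 1) (.of_forall hhg)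
    rw [integral_sub hhi (integrable_const _)] at this
    simpa using this

end Vale.Agent.P347
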