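import Vale.Agent.P347.MM2

open MeasureTheory ProbabilityTheory Finset
open scoped RealInnerProductSpace ENNReal

namespace Vale.Agent.P347

namespace MMm

noncomputable section

variable {d : ℕ}

lemma LL_meas (α : Measure (E d)) [SFinite α] : Measurable (LL α) := by
  have mk : Measurable fun p : E d × E d =>
      ENNReal.ofReal (Real.exp (⟪p.2, p.1⟫ - ‖p.2‖ ^ 2 / 2)) := by fun_prop
  exact mk.lintegral_prod_right'

lemma sm_one (h1 : Gau1 d) (α : Measure (E d)) [SFinite α] :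
    sm α 1 = (gs d).withDensity (LL α) := by
  refine Measure.ext_of_lintegral _ fun f hf => ?_
  unfold sm
  rw [lintegral_map hf (by fun_prop), lintegral_prod _ (by fun_prop),
    lintegral_withDensity_eq_lintegral_mul _ (LL_meas α) hf]
  have e : ∀ a : E d, ∫⁻ g, f (a + (1 : ℝ) • g) ∂gs d =
      ∫⁻ z, ENNReal.ofReal (Real.exp (⟪a, z⟫ - ‖a‖ ^ 2 / 2)) * f z ∂gs d := by
    intro a
    have := lintegral_withDensity_eq_lintegral_mul (gs d)
      (f := fun x => ENNReal.ofReal (Real.exp (⟪a, x⟫ - ‖a‖ ^ 2 / 2))) (by fun_prop) hf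
    rw [← h1.cm a, lintegral_map hf (by fun_prop)] at this
    simp only [one_smul, add_comm a]
    exact this
  simp only [e]
  rw [lintegral_lintegral_swap (by fun_prop)]
  refine lintegral_congr fun z => ?_
  rw [lintegral_mul_const _ (by fun_prop)]
  rfl

lemma qq_add (hS : SGApi d) {Ω : Type} [MeasurableSpace Ω] {ν : Measure Ω}
    {S : Ω → E d} {X : Ω → ℝ} {F : E d → ℝ≥0∞} {M v c B : ℝ} (h : Inv ν S X F M v c B)
    (β γ : Measure (E d)) (L : ℝ) (hb : SG β L) (hL : 0 ≤ L) (hM : 0 ≤ M) :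
    qq ((ν.prod β).map fun p => S p.1 + p.2) γ = qq (ν.map S) γ + qq β γ := by
  have := h.prob
  have := hb.1
  rw [map_add ν S h.mS β]
  unfold qq
  simp only [(hS.add _ _ M L hM hL h.sg hb).2, add_mul, Finset.sum_add_distrib]

def AL (α : Measure (E d)) (z : E d) : ℝ := (LL α z).toReal

lemma two (h1 : Gau1 d) (hS : SGApi d) (hd : 2 ≤ d) (α β : Measure (E d)) (L lam : ℝ)
    (ha : SG α L) (hb : SG β L) (hL : 0 ≤ L) (h0 : 0 ≤ lam) (h8 : lam ≤ 1 / 16)
    (hM : L ^ 4 * d ≤ lam ^ 2) : Integrable (fun z => AL α z * AL β z) (gs d) ∧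
      |∫ z, AL α z * AL β z ∂gs d - (1 + qq α β / 2)| ≤ 2304 * lam ^ 3 := by
  have I2 := (Inv.base α L (2 * 1) ha).step hS hd β L lam hb hL le_rfl (by norm_num) (by norm_num)
    le_rfl h0 h8 hM
  obtain ⟨m, f, b⟩ := I2.int h1 le_rfl (by positivity)
  have i := integrable_toReal_of_lintegral_ne_top m.aemeasurable f
  simp only [ENNReal.toReal_mul, Measure.map_id', zero_add] at i b
  exact ⟨i, b.trans (le_of_eq (by ring))⟩

lemma one (h1 : Gau1 d) (α : Measure (E d)) (L : ℝ) (ha : SG α L) :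
    ∫⁻ z, LL α z ∂gs d ≠ ⊤ ∧ Integrable (AL α) (gs d) ∧ ∫ z, AL α z ∂gs d = 1 := by
  obtain ⟨m, f, b⟩ := (Inv.base α L 1 ha).int h1 le_rfl le_rfl
  refine ⟨f, integrable_toReal_of_lintegral_ne_top m.aemeasurable f, ?_⟩
  have := abs_nonpos_iff.1 b
  unfold AL
  linarith

lemma four (h1 : Gau1 d) (hS : SGApi d) (hd : 2 ≤ d) (α : Measure (E d)) (L lam : ℝ)
    (ha : SG α L) (hL : 0 ≤ L) (h0 : 0 ≤ lam) (h8 : lam ≤ 1 / 16)
    (hM : (3 * L) ^ 4 * d ≤ lam ^ 2) : Integrable (fun z => (AL α z - 1) ^ 4) (gs d) ∧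
      ∫ z, (AL α z - 1) ^ 4 ∂gs d ≤ 264960 * lam ^ 3 := by
  have hd0 : (0 : ℝ) ≤ d := Nat.cast_nonneg d
  have hM1 : L ^ 4 * d ≤ lam ^ 2 := le_trans (by gcongr; linarith) hM
  have hM2 : (L + L) ^ 4 * d ≤ lam ^ 2 := le_trans (by gcongr; linarith) hM
  have hM3 : (L + L + L) ^ 4 * d ≤ lam ^ 2 := le_trans (by gcongr; linarith) hM
  have I1 := Inv.base α L (2 * (2 * (2 * 1))) ha
  have I2 := I1.step hS hd α L lam ha hL le_rfl (by norm_num) (by norm_num) le_rfl h0 h8 hM1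
  have I3 := I2.step hS hd α L lam ha hL (by linarith) (by norm_num) (by norm_num)
    (by positivity) h0 h8 hM2
  have I4 := I3.step hS hd α L lam ha hL (by linarith) (by norm_num) (by norm_num)
    (by positivity) h0 h8 hM3
  have q2 := qq_add hS I1 α α L ha hL hL
  have q3 := qq_add hS I2 α α L ha hL (by linarith)
  obtain ⟨-, i1, b1⟩ := one h1 α L ha
  obtain ⟨m2, f2, b2⟩ := I2.int h1 (by norm_num) (by positivity)
  obtain ⟨m3, f3, b3⟩ := I3.int h1 (by norm_num) (by positivity)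
  obtain ⟨m4, f4, b4⟩ := I4.int h1 (by norm_num) (by positivity)
  have i2 := integrable_toReal_of_lintegral_ne_top m2.aemeasurable f2
  have i3 := integrable_toReal_of_lintegral_ne_top m3.aemeasurable f3
  have i4 := integrable_toReal_of_lintegral_ne_top m4.aemeasurable f4
  rw [q3, q2] at b4
  rw [q2] at b3
  simp only [ENNReal.toReal_mul, Measure.map_id', zero_add] at i2 i3 i4 b2 b3 b4
  change Integrable (fun z => AL α z * AL α z) _ at i2
  change Integrable (fun z => AL α z * AL α z * AL α z) _ at i3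
  change Integrable (fun z => AL α z * AL α z * AL α z * AL α z) _ at i4
  change |∫ z, AL α z * AL α z ∂gs d - _| ≤ _ at b2
  change |∫ z, AL α z * AL α z * AL α z ∂gs d - _| ≤ _ at b3
  change |∫ z, AL α z * AL α z * AL α z * AL α z ∂gs d - _| ≤ _ at b4
  have e : (fun z => (AL α z - 1) ^ 4) = fun z => (AL α z * AL α z * AL α z * AL α z -
      4 * (AL α z * AL α z * AL α z)) + (6 * (AL α z * AL α z) + (1 - 4 * AL α z)) := by
    funext z; ring
  have j1 : Integrable (fun z => AL α z * AL α z * AL α z * AL α z -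
      4 * (AL α z * AL α z * AL α z)) (gs d) := i4.sub (i3.const_mul 4)
  have j2 : Integrable (fun z => 1 - 4 * AL α z) (gs d) := (integrable_const _).sub (i1.const_mul 4)
  have j3 : Integrable (fun z => 6 * (AL α z * AL α z) + (1 - 4 * AL α z)) (gs d) :=
    (i2.const_mul 6).add j2
  rw [e]
  refine ⟨j1.add j3, ?_⟩
  rw [integral_add j1 j3, integral_sub i4 (i3.const_mul 4), integral_add (i2.const_mul 6) j2,
    integral_sub (integrable_const _) (i1.const_mul 4), integral_const_mul, integral_const_mul,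
    integral_const_mul, b1]
  simp only [integral_const, probReal_univ, smul_eq_mul]
  have := abs_le.1 b2
  have := abs_le.1 b3
  have := abs_le.1 b4
  linarith

lemma fr_eq (α β : Measure (E d)) : Fr α β = qq α α - 2 * qq α β + qq β β := by
  unfold Fr qq
  simp only [Finset.mul_sum, ← Finset.sum_sub_distrib, ← Finset.sum_add_distrib]
  refine Finset.sum_congr rfl fun i _ => Finset.sum_congr rfl fun j _ => ?_
  ring

lemma dtwo (h1 : Gau1 d) (hS : SGApi d) (hd : 2 ≤ d) (α β : Measure (E d)) (L lam : ℝ)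
    (ha : SG α L) (hb : SG β L) (hL : 0 ≤ L) (h0 : 0 ≤ lam) (h8 : lam ≤ 1 / 16)
    (hM : L ^ 4 * d ≤ lam ^ 2) : Integrable (fun z => (AL α z - AL β z) ^ 2) (gs d) ∧
      ∫ z, (AL α z - AL β z) ^ 2 ∂gs d ≤ Fr α β / 2 + 9216 * lam ^ 3 := by
  obtain ⟨i1, b1⟩ := two h1 hS hd α α L lam ha ha hL h0 h8 hM
  obtain ⟨i2, b2⟩ := two h1 hS hd α β L lam ha hb hL h0 h8 hM
  obtain ⟨i3, b3⟩ := two h1 hS hd β β L lam hb hb hL h0 h8 hM
  have e : (fun z => (AL α z - AL β z) ^ 2) = fun z => (AL α z * AL α z -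
      2 * (AL α z * AL β z)) + AL β z * AL β z := by funext z; ring
  have j1 : Integrable (fun z => AL α z * AL α z - 2 * (AL α z * AL β z)) (gs d) :=
    i1.sub (i2.const_mul 2)
  rw [e]
  refine ⟨j1.add i3, ?_⟩
  rw [integral_add j1 i3, integral_sub i1 (i2.const_mul 2), integral_const_mul, fr_eq]
  have := abs_le.1 b1
  have := abs_le.1 b2
  have := abs_le.1 b3
  linarith

lemma rep (h1 : Gau1 d) (α : Measure (E d)) (L : ℝ) (ha : SG α L) (ψ : E d → ℝ) :
    ∫ x, ψ x ∂sm α 1 = ∫ z, AL α z * ψ z ∂gs d := by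
  have := ha.1
  rw [sm_one h1, integral_withDensity_eq_integral_toReal_smul (LL_meas α)
    (ae_lt_top (LL_meas α) (one h1 α L ha).1)]
  rfl

lemma core (h1 : Gau1 d) (hS : SGApi d) (hd : 2 ≤ d) (α β : Measure (E d)) (L lam r : ℝ)
    (ha : SG α L) (hb : SG β L) (hL : 0 ≤ L) (h0 : 0 ≤ lam) (h8 : lam ≤ 1 / 16)
    (hM : (3 * L) ^ 4 * d ≤ lam ^ 2) (hr : 0 ≤ r) (hr1 : 264960 * lam ^ 3 ≤ r ^ 2)
    (hr2 : Fr α β / 2 + 9216 * lam ^ 3 ≤ r ^ 2) : Rel (sm α 1) (sm β 1) (2 * r) := by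
  intro φ mφ bφ
  have hd0 : (0 : ℝ) ≤ d := Nat.cast_nonneg d
  have hM1 : L ^ 4 * d ≤ lam ^ 2 := le_trans (by gcongr; linarith) hM
  obtain ⟨i4, b4⟩ := four h1 hS hd α L lam ha hL h0 h8 hM
  obtain ⟨i2, b2⟩ := dtwo h1 hS hd α β L lam ha hb hL h0 h8 hM1
  obtain ⟨-, ia, -⟩ := one h1 α L ha
  obtain ⟨-, ib, -⟩ := one h1 β L hb
  have s1 : ∀ x, φ x ^ 2 ≤ 1 := fun x => by
    have := abs_le.1 (bφ x); nlinarith
  have ja : Integrable (fun z => AL α z * φ z) (gs d) :=
    ia.mul_bdd mφ.aestronglyMeasurable (ae_of_all _ bφ)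
  have jb : Integrable (fun z => AL β z * φ z) (gs d) :=
    ib.mul_bdd mφ.aestronglyMeasurable (ae_of_all _ bφ)
  have jc : Integrable (fun z => AL α z * φ z ^ 2) (gs d) :=
    ia.mul_bdd (c := 1) (mφ.pow_const 2).aestronglyMeasurable (ae_of_all _ fun x => by
      rw [Real.norm_eq_abs, abs_of_nonneg (sq_nonneg _)]; exact s1 x)
  have jφ : Integrable (fun z => φ z ^ 2) (gs d) :=
    (integrable_const (1 : ℝ)).mono' (mφ.pow_const 2).aestronglyMeasurable (ae_of_all _ fun x => by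
      rw [Real.norm_eq_abs, abs_of_nonneg (sq_nonneg _)]; exact s1 x)
  rw [rep h1 α L ha, rep h1 β L hb, rep h1 α L ha, ← integral_sub ja jb]
  have e : (fun z => AL α z * φ z - AL β z * φ z) = fun z => φ z * (AL α z - AL β z) := by
    funext z; ring
  have jd : Integrable (fun z => φ z * (AL α z - AL β z)) (gs d) := by
    rw [← e]; exact ja.sub jb
  rw [e]
  refine (cs _ φ _ jφ i2 jd).trans ?_
  have hy0 : 0 ≤ ∫ z, AL α z * φ z ^ 2 ∂gs d :=
    integral_nonneg fun z => mul_nonneg ENNReal.toReal_nonneg (sq_nonneg _)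
  have k1 : ∫ z, φ z ^ 2 ∂gs d ≤ 2 * ∫ z, AL α z * φ z ^ 2 ∂gs d +
      16 * ∫ z, (AL α z - 1) ^ 4 ∂gs d := by
    rw [← integral_const_mul, ← integral_const_mul,
      ← integral_add (jc.const_mul 2) (i4.const_mul 16)]
    refine integral_mono jφ ((jc.const_mul 2).add (i4.const_mul 16)) fun z => ?_
    have a0 : 0 ≤ AL α z := ENNReal.toReal_nonneg
    have p0 := sq_nonneg (φ z)
    have p1 := s1 z
    have p4 : 0 ≤ (AL α z - 1) ^ 4 := by positivity
    dsimp only
    rcases le_total (1 / 2) (AL α z) with h | h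
    · nlinarith
    · have t1 : (1 / 2 : ℝ) ^ 4 ≤ (1 - AL α z) ^ 4 := by gcongr; linarith
      have t2 : (1 - AL α z) ^ 4 = (AL α z - 1) ^ 4 := by ring
      have t3 := mul_nonneg a0 p0
      linarith
  set y := √(∫ z, AL α z * φ z ^ 2 ∂gs d) with hy
  have y0 : 0 ≤ y := Real.sqrt_nonneg _
  have y2 : y ^ 2 = ∫ z, AL α z * φ z ^ 2 ∂gs d := Real.sq_sqrt hy0
  have k2 : √(∫ z, φ z ^ 2 ∂gs d) ≤ 2 * y + 4 * r := by
    rw [Real.sqrt_le_left (by positivity)]
    nlinarith [mul_nonneg y0 hr]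
  have k3 : √(∫ z, (AL α z - AL β z) ^ 2 ∂gs d) ≤ r := by
    rw [Real.sqrt_le_left hr]; linarith
  calc _ ≤ (2 * y + 4 * r) * r := by gcongr
    _ = _ := by ring

lemma cv_scale (α : Measure (E d)) (c : ℝ) (u v : E d) :
    Cv (α.map fun x => c • x) u v = c ^ 2 * Cv α u v := by
  unfold Cv
  rw [integral_map (by fun_prop) (by fun_prop), ← integral_const_mul]
  refine integral_congr_ae (ae_of_all _ fun x => ?_)
  simp only [inner_smul_right]
  ring

lemma fr_scale (α β : Measure (E d)) (c : ℝ) :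
    Fr (α.map fun x => c • x) (β.map fun x => c • x) = c ^ 4 * Fr α β := by
  unfold Fr
  simp only [cv_scale, Finset.mul_sum]
  refine Finset.sum_congr rfl fun i _ => Finset.sum_congr rfl fun j _ => ?_
  ring

lemma sm_scale (α : Measure (E d)) [SFinite α] (t : ℝ) (ht : t ≠ 0) :
    sm α t = (sm (α.map fun x => t⁻¹ • x) 1).map fun x => t • x := by
  unfold sm
  have h : (α.map fun x => t⁻¹ • x).prod (gs d) =
      (α.prod (gs d)).map (Prod.map (fun x => t⁻¹ • x) id) := by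
    rw [← Measure.map_prod_map _ _ (by fun_prop) measurable_id, Measure.map_id]
  rw [h, Measure.map_map (by fun_prop) (by fun_prop), Measure.map_map (by fun_prop) (by fun_prop)]
  congr 1
  funext p
  simp [smul_add, smul_smul, mul_inv_cancel₀ ht]

end

end MMm

open MMm in
theorem stmtMM (h1 : StmtG1) (hSG : StmtSG) (hRel : RelApi) : StmtMM := by
  refine ⟨400000, by norm_num, fun d α β L t e hd ha hb ht1 ht2 hC he hF hl => ?_⟩
  have := ha.1
  have := hb.1
  have hS := hSG d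
  have t0 : 0 < t := by linarith
  have ti0 : 0 < t⁻¹ := inv_pos.2 t0
  have ti : t⁻¹ ≤ 2 := by rw [inv_le_comm₀ t0 (by norm_num)]; linarith
  have sg : ∀ γ : Measure (E d), SG γ L → SG (γ.map fun x => t⁻¹ • x) (2 * |L|) := by
    intro γ hγ
    have h2 : SG γ |L| := ⟨hγ.1, fun u => by rw [sq_abs]; exact hγ.2 u⟩
    exact hS.mono _ _ _ (by positivity) (by gcongr) (hS.scale γ |L| t⁻¹ h2)
  rw [sm_scale α t t0.ne', sm_scale β t t0.ne']
  refine hRel.map _ _ _ _ _ _ (by fun_prop) ?_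
  have l0 : 0 ≤ L ^ 4 * d := by positivity
  set w := √(L ^ 4 * d) with hw
  have w0 : 0 ≤ w := Real.sqrt_nonneg _
  have w2 : w ^ 2 = L ^ 4 * d := Real.sq_sqrt l0
  have w3 : w ^ 3 ≤ e ^ 2 := by
    refine le_of_sq_le_sq ?_ (by positivity)
    calc (w ^ 3) ^ 2 = (w ^ 2) ^ 3 := by ring
      _ ≤ e ^ 4 := by rw [w2]; exact hl
      _ = _ := by ring
  have w4 : w ≤ 1 / 576 := by
    refine le_of_sq_le_sq ?_ (by positivity)
    rw [w2]; nlinarith
  have hF0 : 0 ≤ Fr α β := by unfold Fr; positivity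
  have := core (h1 d) hS hd _ _ (2 * |L|) (36 * w) (200000 * e) (sg α ha) (sg β hb) (by positivity)
    (by positivity) (by linarith) (by
      have : |L| ^ 4 = L ^ 4 := by rw [show (4 : ℕ) = 2 * 2 from rfl, pow_mul, pow_mul, sq_abs]
      calc (3 * (2 * |L|)) ^ 4 * d = 1296 * (|L| ^ 4 * d) := by ring
        _ = (36 * w) ^ 2 := by rw [this, ← w2]; ring
        _ ≤ _ := le_rfl) (by positivity) (by nlinarith [sq_nonneg e]) (by
      rw [fr_scale]
      have : t⁻¹ ^ 4 * Fr α β ≤ 2 ^ 4 * e ^ 2 := by gcongr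
      nlinarith [sq_nonneg e])
  convert this using 1
  ring

end Vale.Agent.P347
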