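import Vale.Agent.P347.Spec

open MeasureTheory ProbabilityTheory Finset
open scoped RealInnerProductSpace ENNReal

namespace Vale.Agent.P347.MMm

noncomputable section

variable {d : ℕ}

def hc (c x : ℝ) : ℝ := |x| ^ 3 * Real.exp (c * |x|)

lemma hc_nonneg (c x : ℝ) : 0 ≤ hc c x := by unfold hc; positivity

lemma hc_cont (c : ℝ) : Continuous (hc c) := by unfold hc; fun_prop

lemma hc_mono {c c' : ℝ} (h : c ≤ c') (x : ℝ) : hc c x ≤ hc c' x := by
  unfold hc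
  gcongr

lemma hc_abs_mono {c x y : ℝ} (hc0 : 0 ≤ c) (h : |x| ≤ |y|) : hc c x ≤ hc c y := by
  unfold hc
  gcongr

lemma hc_two (c x : ℝ) : hc c (2 * x) = 8 * hc (2 * c) x := by
  unfold hc
  rw [abs_mul, abs_two]
  have : c * (2 * |x|) = 2 * c * |x| := by ring
  rw [this]; ring

lemma hc_add {c : ℝ} (hc0 : 0 ≤ c) (x y : ℝ) :
    hc c (x + y) ≤ 8 * (hc (2 * c) x + hc (2 * c) y) := by
  have h1 := hc_nonneg (2 * c) x
  have h2 := hc_nonneg (2 * c) y
  have h3 := abs_add_le x y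
  rcases le_total |x| |y| with h | h
  · have : hc c (x + y) ≤ hc c (2 * y) := hc_abs_mono hc0 (by rw [abs_mul, abs_two]; linarith)
    rw [hc_two] at this; linarith
  · have : hc c (x + y) ≤ hc c (2 * x) := hc_abs_mono hc0 (by rw [abs_mul, abs_two]; linarith)
    rw [hc_two] at this; linarith

lemma cube_le {c : ℝ} (hc0 : 0 ≤ c) (x : ℝ) : |x| ^ 3 ≤ hc c x := by
  unfold hc
  have : 1 ≤ Real.exp (c * |x|) := Real.one_le_exp (by positivity)
  have h3 : 0 ≤ |x| ^ 3 := by positivity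
  nlinarith

lemma abs_le_hc {c : ℝ} (hc0 : 0 ≤ c) (x : ℝ) : |x| ≤ 1 + hc c x := by
  have := cube_le hc0 x
  have h0 := abs_nonneg x
  nlinarith [mul_nonneg h0 (sq_nonneg (|x| - 1)), sq_nonneg (|x| - 1)]

lemma sq_le_hc {c : ℝ} (hc0 : 0 ≤ c) (x : ℝ) : x ^ 2 ≤ 1 + hc c x := by
  have := cube_le hc0 x
  have h0 := abs_nonneg x
  rw [← sq_abs]
  nlinarith [mul_nonneg h0 (sq_nonneg (|x| - 1)), sq_nonneg (|x| - 1)]

lemma rem_le (x : ℝ) : |Real.exp x - (1 + x + x ^ 2 / 2)| ≤ hc 1 x := by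
  have h := Complex.norm_exp_sub_sum_le_norm_mul_exp (x : ℂ) 3
  simp only [Finset.sum_range_succ, Finset.sum_range_zero, Complex.norm_real,
    Real.norm_eq_abs] at h
  unfold hc
  rw [one_mul]
  refine le_trans (le_of_eq ?_) h
  rw [← Real.norm_eq_abs, ← Complex.norm_real]
  congr 1
  push_cast
  simp [Nat.factorial]

lemma cs {X : Type} [MeasurableSpace X] (μ : Measure X) (f g : X → ℝ)
    (hf : Integrable (fun x => f x ^ 2) μ) (hg : Integrable (fun x => g x ^ 2) μ)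
    (hfg : Integrable (fun x => f x * g x) μ) :
    |∫ x, f x * g x ∂μ| ≤ √(∫ x, f x ^ 2 ∂μ) * √(∫ x, g x ^ 2 ∂μ) := by
  have key : ∀ r : ℝ, 0 ≤ (∫ x, f x ^ 2 ∂μ) * (r * r) + (2 * ∫ x, f x * g x ∂μ) * r +
      ∫ x, g x ^ 2 ∂μ := by
    intro r
    have h0 : 0 ≤ ∫ x, (r * f x + g x) ^ 2 ∂μ := integral_nonneg fun x => sq_nonneg _
    have h1 : (fun x => (r * f x + g x) ^ 2) =
        fun x => (r * r * f x ^ 2 + 2 * r * (f x * g x)) + g x ^ 2 := by funext x; ring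
    have h2 : Integrable (fun x => r * r * f x ^ 2 + 2 * r * (f x * g x)) μ :=
      (hf.const_mul _).add (hfg.const_mul _)
    rw [h1, integral_add h2 hg,
      integral_add (hf.const_mul _) (hfg.const_mul _), integral_const_mul, integral_const_mul] at h0
    linarith
  have hd := discrim_le_zero key
  unfold discrim at hd
  rw [← Real.sqrt_mul (integral_nonneg fun x => sq_nonneg _)]
  apply Real.abs_le_sqrt
  nlinarith

def LL (α : Measure (E d)) (z : E d) : ℝ≥0∞ :=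
  ∫⁻ a, ENNReal.ofReal (Real.exp (⟪a, z⟫ - ‖a‖ ^ 2 / 2)) ∂α

def qq (α β : Measure (E d)) : ℝ := ∑ i, ∑ j, Cv α (ee i) (ee j) * Cv β (ee i) (ee j)

lemma inner_ee (i : Fin d) (x : E d) : ⟪ee i, x⟫ = x i := by
  unfold ee; simp [EuclideanSpace.inner_single_left]

lemma int_co (α : Measure (E d)) (h : Integrable (fun x : E d => ‖x‖ ^ 2) α) (i j : Fin d) :
    Integrable (fun x : E d => ⟪ee i, x⟫ * ⟪ee j, x⟫) α := by
  refine h.mono' (by fun_prop) (ae_of_all _ fun x => ?_)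
  rw [inner_ee, inner_ee, norm_mul, sq]
  exact mul_le_mul (PiLp.norm_apply_le x i) (PiLp.norm_apply_le x j) (norm_nonneg _) (norm_nonneg _)

lemma sq_pair (α β : Measure (E d)) [SFinite α] [SFinite β]
    (ha : Integrable (fun x : E d => ‖x‖ ^ 2) α) (hb : Integrable (fun x : E d => ‖x‖ ^ 2) β) :
    ∫ p, ⟪p.1, p.2⟫ ^ 2 ∂α.prod β = qq α β := by
  have h1 : (fun p : E d × E d => ⟪p.1, p.2⟫ ^ 2) = fun p => ∑ i, ∑ j,
      (⟪ee i, p.1⟫ * ⟪ee j, p.1⟫) * (⟪ee i, p.2⟫ * ⟪ee j, p.2⟫) := by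
    funext p
    simp only [inner_ee]
    rw [PiLp.inner_apply, sq, Finset.sum_mul_sum]
    refine Finset.sum_congr rfl fun i _ => Finset.sum_congr rfl fun j _ => ?_
    simp only [RCLike.inner_apply, conj_trivial]
    ring
  have h2 : ∀ i j : Fin d, Integrable (fun p : E d × E d =>
      (⟪ee i, p.1⟫ * ⟪ee j, p.1⟫) * (⟪ee i, p.2⟫ * ⟪ee j, p.2⟫)) (α.prod β) :=
    fun i j => (int_co α ha i j).mul_prod (int_co β hb i j)
  rw [h1, integral_finsetSum _ fun i _ => integrable_finsetSum _ fun j _ => h2 i j]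
  unfold qq
  refine Finset.sum_congr rfl fun i _ => ?_
  rw [integral_finsetSum _ fun j _ => h2 i j]
  refine Finset.sum_congr rfl fun j _ => ?_
  exact integral_prod_mul (fun x : E d => ⟪ee i, x⟫ * ⟪ee j, x⟫) fun x : E d => ⟪ee i, x⟫ * ⟪ee j, x⟫

lemma hc_le_exp {lam : ℝ} (h0 : 0 < lam) (h8 : lam ≤ 1 / 16) (x : ℝ) :
    hc 8 x ≤ 48 * lam ^ 3 * (Real.exp (lam⁻¹ * x) + Real.exp (-lam⁻¹ * x)) := by
  unfold hc
  set y := |x| / (2 * lam) with hy
  have hy0 : 0 ≤ y := by positivity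
  have hx : |x| = 2 * lam * y := by rw [hy]; field_simp
  have h1 : y ^ 3 / 6 ≤ Real.exp y := by
    have := Real.pow_div_factorial_le_exp y hy0 3
    simpa [Nat.factorial] using this
  have h2 : Real.exp (8 * |x|) ≤ Real.exp y := by
    apply Real.exp_le_exp.2
    rw [hx]; nlinarith
  have h3 : Real.exp y * Real.exp y ≤ Real.exp (lam⁻¹ * x) + Real.exp (-lam⁻¹ * x) := by
    rw [← Real.exp_add]
    have e1 : y + y = lam⁻¹ * |x| := by rw [hy]; field_simp; ring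
    rw [e1]
    have p1 := Real.exp_pos (lam⁻¹ * x)
    have p2 := Real.exp_pos (-lam⁻¹ * x)
    rcases abs_cases x with ⟨h, _⟩ | ⟨h, _⟩
    · rw [h]; linarith
    · rw [h]
      have : lam⁻¹ * -x = -lam⁻¹ * x := by ring
      rw [this]; linarith
  have h4 : |x| ^ 3 ≤ 48 * lam ^ 3 * Real.exp y := by
    rw [hx]
    have : 0 < lam ^ 3 := by positivity
    nlinarith
  calc |x| ^ 3 * Real.exp (8 * |x|) ≤ (48 * lam ^ 3 * Real.exp y) * Real.exp y := by gcongr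
    _ = 48 * lam ^ 3 * (Real.exp y * Real.exp y) := by ring
    _ ≤ _ := by gcongr

lemma pair3' (hS : SGApi d) (hd : 2 ≤ d) (α β : Measure (E d)) (M lam : ℝ) (ha : SG α M)
    (hb : SG β M) (h0 : 0 < lam) (h8 : lam ≤ 1 / 16) (hM : M ^ 4 * d ≤ lam ^ 2) :
    ∫⁻ p, ENNReal.ofReal (hc 8 ⟪p.1, p.2⟫) ∂α.prod β ≤ ENNReal.ofReal (288 * lam ^ 3) := by
  have hd' : (2 : ℝ) ≤ d := by exact_mod_cast hd
  have hM4 : 0 ≤ M ^ 4 := by positivity
  have key : ∀ s : ℝ, s ^ 2 = lam⁻¹ ^ 2 →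
      ∫⁻ p, ENNReal.ofReal (Real.exp (s * ⟪p.1, p.2⟫)) ∂α.prod β ≤ ENNReal.ofReal 3 := by
    intro s hs
    have h1 : s ^ 2 * M ^ 4 * d ≤ 1 := by
      rw [hs, mul_assoc]
      calc lam⁻¹ ^ 2 * (M ^ 4 * d) ≤ lam⁻¹ ^ 2 * lam ^ 2 := by gcongr
        _ = 1 := by field_simp
    have h2 : s ^ 2 * M ^ 4 ≤ 1 / 2 := by
      have : 0 ≤ s ^ 2 * M ^ 4 := by positivity
      nlinarith
    refine (hS.pair α β M s ha hb h2).trans (ENNReal.ofReal_le_ofReal ?_)
    exact (Real.exp_le_exp.2 h1).trans (Real.exp_one_lt_three).le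
  calc _ ≤ ∫⁻ p, ENNReal.ofReal (48 * lam ^ 3) * (ENNReal.ofReal (Real.exp (lam⁻¹ * ⟪p.1, p.2⟫)) +
        ENNReal.ofReal (Real.exp (-lam⁻¹ * ⟪p.1, p.2⟫))) ∂α.prod β := by
        refine lintegral_mono fun p => ?_
        rw [← ENNReal.ofReal_add (Real.exp_pos _).le (Real.exp_pos _).le,
          ← ENNReal.ofReal_mul (by positivity)]
        exact ENNReal.ofReal_le_ofReal (hc_le_exp h0 h8 _)
    _ ≤ ENNReal.ofReal (48 * lam ^ 3) * (ENNReal.ofReal 3 + ENNReal.ofReal 3) := by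
        rw [lintegral_const_mul _ (by fun_prop), lintegral_add_left (by fun_prop)]
        gcongr
        · exact key _ rfl
        · exact key _ (by ring)
    _ = _ := by
        rw [← ENNReal.ofReal_add (by norm_num) (by norm_num), ← ENNReal.ofReal_mul (by positivity)]
        congr 1; ring

lemma pair3 (hS : SGApi d) (hd : 2 ≤ d) (α β : Measure (E d)) (M lam : ℝ) (ha : SG α M)
    (hb : SG β M) (h0 : 0 ≤ lam) (h8 : lam ≤ 1 / 16) (hM : M ^ 4 * d ≤ lam ^ 2) :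
    ∫⁻ p, ENNReal.ofReal (hc 8 ⟪p.1, p.2⟫) ∂α.prod β ≤ ENNReal.ofReal (288 * lam ^ 3) := by
  rcases h0.lt_or_eq with h | h
  · exact pair3' hS hd α β M lam ha hb h h8 hM
  · subst h
    refine ENNReal.le_of_forall_pos_le_add fun η hη _ => ?_
    have hη' : (0 : ℝ) < η := hη
    have hm : 0 < min (1 / 8 : ℝ) η := lt_min (by norm_num) hη'
    have h1 := min_le_left (1 / 8 : ℝ) η
    have h2 := min_le_right (1 / 8 : ℝ) η
    set m := min (1 / 8 : ℝ) η
    have := pair3' hS hd α β M (m / 8) ha hb (by positivity) (by linarith)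
      (hM.trans (by nlinarith))
    refine this.trans (le_add_left ?_)
    rw [← ENNReal.ofReal_coe_nnreal]
    apply ENNReal.ofReal_le_ofReal
    have : m ^ 2 ≤ 1 := by nlinarith
    nlinarith

end

end Vale.Agent.P347.MMm
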