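import Vale.Agent.P347.MM1

open MeasureTheory ProbabilityTheory Finset
open scoped RealInnerProductSpace ENNReal

namespace Vale.Agent.P347.MMm

noncomputable section

variable {d : ℕ}

structure Inv {Ω : Type} [MeasurableSpace Ω] (ν : Measure Ω) (S : Ω → E d) (X : Ω → ℝ)
    (F : E d → ℝ≥0∞) (M v c B : ℝ) : Prop where
  prob : IsProbabilityMeasure ν
  mS : Measurable S
  mX : Measurable X
  sg : SG (ν.map S) M
  b3 : ∫⁻ ω, ENNReal.ofReal (hc c (X ω)) ∂ν ≤ ENNReal.ofReal B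
  m1 : ∫ ω, X ω ∂ν = 0
  m2 : ∫ ω, X ω ^ 2 ∂ν = v
  eq : ∀ z, ∫⁻ ω, ENNReal.ofReal (Real.exp (⟪S ω, z⟫ - ‖S ω‖ ^ 2 / 2 + X ω)) ∂ν = F z

lemma hc_meas {Ω : Type} [MeasurableSpace Ω] (c : ℝ) {X : Ω → ℝ} (mX : Measurable X) :
    Measurable fun ω => ENNReal.ofReal (hc c (X ω)) :=
  ((hc_cont c).measurable.comp mX).ennreal_ofReal

lemma int_hc {Ω : Type} [MeasurableSpace Ω] {ν : Measure Ω} {X : Ω → ℝ} {c B : ℝ}
    (mX : Measurable X) (b3 : ∫⁻ ω, ENNReal.ofReal (hc c (X ω)) ∂ν ≤ ENNReal.ofReal B) :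
    Integrable (fun ω => hc c (X ω)) ν := by
  refine ⟨((hc_cont c).measurable.comp mX).aestronglyMeasurable, ?_⟩
  rw [hasFiniteIntegral_iff_ofReal (ae_of_all _ fun ω => hc_nonneg c _)]
  exact b3.trans_lt ENNReal.ofReal_lt_top

lemma int_one {Ω : Type} [MeasurableSpace Ω] {ν : Measure Ω} [IsProbabilityMeasure ν] {X : Ω → ℝ}
    {c B : ℝ} (hc0 : 0 ≤ c)
    (mX : Measurable X) (b3 : ∫⁻ ω, ENNReal.ofReal (hc c (X ω)) ∂ν ≤ ENNReal.ofReal B) :
    Integrable X ν :=
  ((integrable_const (1 : ℝ)).add (int_hc mX b3)).mono' mX.aestronglyMeasurable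
    (ae_of_all _ fun ω => abs_le_hc hc0 (X ω))

lemma int_two {Ω : Type} [MeasurableSpace Ω] {ν : Measure Ω} [IsProbabilityMeasure ν] {X : Ω → ℝ}
    {c B : ℝ} (hc0 : 0 ≤ c)
    (mX : Measurable X) (b3 : ∫⁻ ω, ENNReal.ofReal (hc c (X ω)) ∂ν ≤ ENNReal.ofReal B) :
    Integrable (fun ω => X ω ^ 2) ν :=
  ((integrable_const (1 : ℝ)).add (int_hc mX b3)).mono' (mX.pow_const 2).aestronglyMeasurable
    (ae_of_all _ fun ω => by
      rw [Real.norm_eq_abs, abs_of_nonneg (sq_nonneg _)]; exact sq_le_hc hc0 (X ω))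

lemma Inv.base (α : Measure (E d)) (L c : ℝ) (ha : SG α L) :
    Inv α (fun a => a) (fun _ => 0) (LL α) L 0 c 0 where
  prob := ha.1
  mS := measurable_id
  mX := measurable_const
  sg := by rw [Measure.map_id']; exact ha
  b3 := by simp [hc]
  m1 := by simp
  m2 := by simp
  eq := fun z => by simp [LL]

lemma map_add {Ω : Type} [MeasurableSpace Ω] (ν : Measure Ω) [SFinite ν] (S : Ω → E d)
    (mS : Measurable S) (β : Measure (E d)) [SFinite β] :
    (ν.prod β).map (fun p => S p.1 + p.2) = ((ν.map S).prod β).map fun p => p.1 + p.2 := by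
  have h : (ν.map S).prod β = (ν.prod β).map (Prod.map S id) := by
    rw [← Measure.map_prod_map _ _ mS measurable_id, Measure.map_id]
  rw [h, Measure.map_map (by fun_prop) (mS.prodMap measurable_id)]
  rfl

lemma Inv.step (hS : SGApi d) (hd : 2 ≤ d) {Ω : Type} [MeasurableSpace Ω] {ν : Measure Ω}
    {S : Ω → E d} {X : Ω → ℝ} {F : E d → ℝ≥0∞} {M v c B : ℝ} (h : Inv ν S X F M v (2 * c) B)
    (β : Measure (E d)) (L lam : ℝ) (hb : SG β L) (hL : 0 ≤ L) (hLM : L ≤ M) (hc0 : 0 ≤ c)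
    (hc2 : c ≤ 4) (hB : 0 ≤ B) (h0 : 0 ≤ lam) (h8 : lam ≤ 1 / 16) (hM : M ^ 4 * d ≤ lam ^ 2) :
    Inv (ν.prod β) (fun p => S p.1 + p.2) (fun p => X p.1 + ⟪S p.1, p.2⟫) (fun z => F z * LL β z)
      (M + L) (v + qq (ν.map S) β) c (8 * (B + 288 * lam ^ 3)) := by
  have := h.prob
  have := hb.1
  have mS := h.mS
  have mX := h.mX
  have hmap : (ν.map S).prod β = (ν.prod β).map (Prod.map S id) := by
    rw [← Measure.map_prod_map _ _ mS measurable_id, Measure.map_id]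
  have mY : Measurable fun p : Ω × E d => ⟪S p.1, p.2⟫ := by fun_prop
  have mX1 : Measurable fun p : Ω × E d => X p.1 := by fun_prop
  have bY : ∫⁻ p, ENNReal.ofReal (hc (2 * c) ⟪S p.1, p.2⟫) ∂ν.prod β ≤
      ENNReal.ofReal (288 * lam ^ 3) := by
    have := pair3 hS hd (ν.map S) β M lam h.sg (hS.mono β L M hL hLM hb) h0 h8 hM
    have mI : Measurable fun p : E d × E d => ⟪p.1, p.2⟫ := by fun_prop
    rw [hmap, lintegral_map (hc_meas 8 mI) (mS.prodMap measurable_id)] at this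
    refine le_trans (lintegral_mono fun p => ENNReal.ofReal_le_ofReal ?_) this
    exact hc_mono (by linarith) _
  have bX : ∫⁻ p, ENNReal.ofReal (hc (2 * c) (X p.1)) ∂ν.prod β ≤ ENNReal.ofReal B := by
    rw [lintegral_prod _ (hc_meas _ mX1).aemeasurable]
    simpa using h.b3
  have c2 : 0 ≤ 2 * c := by linarith
  have iY := int_one c2 mY bY
  have iX := int_one c2 mX1 bX
  have iY2 := int_two c2 mY bY
  have iX2 := int_two c2 mX1 bX
  have iXY : Integrable (fun p : Ω × E d => X p.1 * ⟪S p.1, p.2⟫) (ν.prod β) := by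
    refine (iX2.add iY2).mono' (mX1.mul mY).aestronglyMeasurable (ae_of_all _ fun p => ?_)
    rw [Real.norm_eq_abs, abs_le]
    simp only [Pi.add_apply]
    constructor <;> nlinarith [sq_nonneg (X p.1 + ⟪S p.1, p.2⟫), sq_nonneg (X p.1 - ⟪S p.1, p.2⟫)]
  have ib : Integrable (fun a : E d => a) β := by
    have := hS.int β L hb 1
    simp only [pow_one] at this
    exact (integrable_norm_iff measurable_id.aestronglyMeasurable).1 this
  have hin : ∀ s : E d, ∫ a, ⟪s, a⟫ ∂β = 0 := fun s => by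
    rw [integral_inner ib, hS.mean β L hb, inner_zero_right]
  refine ⟨inferInstance, by fun_prop, by fun_prop, ?_, ?_, ?_, ?_, ?_⟩
  · rw [map_add ν S mS β]
    exact (hS.add _ _ M L (hL.trans hLM) hL h.sg hb).1
  · calc _ ≤ ∫⁻ p, ENNReal.ofReal 8 * (ENNReal.ofReal (hc (2 * c) (X p.1)) +
          ENNReal.ofReal (hc (2 * c) ⟪S p.1, p.2⟫)) ∂ν.prod β := by
          refine lintegral_mono fun p => ?_
          rw [← ENNReal.ofReal_add (hc_nonneg _ _) (hc_nonneg _ _),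
            ← ENNReal.ofReal_mul (by norm_num)]
          exact ENNReal.ofReal_le_ofReal (hc_add hc0 _ _)
      _ ≤ ENNReal.ofReal 8 * (ENNReal.ofReal B + ENNReal.ofReal (288 * lam ^ 3)) := by
          have e1 := hc_meas (2 * c) mX1
          have e2 := hc_meas (2 * c) mY
          rw [lintegral_const_mul _ (e1.fun_add e2), lintegral_add_left e1]
          gcongr
      _ = _ := by
          rw [← ENNReal.ofReal_add hB (by positivity), ← ENNReal.ofReal_mul (by norm_num)]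
  · rw [integral_add iX iY, integral_prod _ iX, integral_prod _ iY]
    simp [hin, h.m1]
  · have e : (fun p : Ω × E d => (X p.1 + ⟪S p.1, p.2⟫) ^ 2) =
        fun p => (X p.1 ^ 2 + ⟪S p.1, p.2⟫ ^ 2) + 2 * (X p.1 * ⟪S p.1, p.2⟫) := by
      funext p; ring
    have i12 : Integrable (fun p : Ω × E d => X p.1 ^ 2 + ⟪S p.1, p.2⟫ ^ 2) (ν.prod β) :=
      iX2.add iY2
    rw [e, integral_add i12 (iXY.const_mul 2), integral_add iX2 iY2, integral_const_mul,
      integral_prod _ iXY, integral_prod _ iX2]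
    have e2 : ∫ p, ⟪S p.1, p.2⟫ ^ 2 ∂ν.prod β = qq (ν.map S) β := by
      have := h.sg.1
      rw [← sq_pair _ _ (hS.int _ M h.sg 2) (hS.int β L hb 2), hmap,
        integral_map (mS.prodMap measurable_id).aemeasurable (by fun_prop)]
      rfl
    rw [e2]
    simp [integral_const_mul, hin, h.m2]
  · intro z
    rw [← h.eq z]
    unfold LL
    rw [← lintegral_prod_mul (by fun_prop) (by fun_prop)]
    refine lintegral_congr fun p => ?_
    rw [← ENNReal.ofReal_mul (Real.exp_pos _).le, ← Real.exp_add, inner_add_left, norm_add_sq_real]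
    congr 2
    ring

lemma Inv.int (h1 : Gau1 d) {Ω : Type} [MeasurableSpace Ω] {ν : Measure Ω}
    {S : Ω → E d} {X : Ω → ℝ} {F : E d → ℝ≥0∞} {M v c B : ℝ} (h : Inv ν S X F M v c B)
    (hc1 : 1 ≤ c) (hB : 0 ≤ B) : Measurable F ∧ ∫⁻ z, F z ∂gs d ≠ ⊤ ∧
      |∫ z, (F z).toReal ∂gs d - (1 + v / 2)| ≤ B := by
  have := h.prob
  have mS := h.mS
  have mX := h.mX
  have hF : F = fun z => ∫⁻ ω, ENNReal.ofReal (Real.exp (⟪S ω, z⟫ - ‖S ω‖ ^ 2 / 2 + X ω)) ∂ν :=
    funext fun z => (h.eq z).symm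
  have mk : Measurable fun p : E d × Ω =>
      ENNReal.ofReal (Real.exp (⟪S p.2, p.1⟫ - ‖S p.2‖ ^ 2 / 2 + X p.2)) := by fun_prop
  have mF : Measurable F := by rw [hF]; exact mk.lintegral_prod_right'
  have c0 : 0 ≤ c := by linarith
  have iX := int_one c0 mX h.b3
  have iX2 := int_two c0 mX h.b3
  have iH := int_hc mX h.b3
  have iP : Integrable (fun ω => 1 + X ω + X ω ^ 2 / 2) ν :=
    ((integrable_const (1 : ℝ)).add iX).add (iX2.div_const 2)
  have hR : ∀ ω, |Real.exp (X ω) - (1 + X ω + X ω ^ 2 / 2)| ≤ hc c (X ω) := fun ω =>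
    (rem_le _).trans (hc_mono hc1 _)
  have iR : Integrable (fun ω => Real.exp (X ω) - (1 + X ω + X ω ^ 2 / 2)) ν :=
    iH.mono' (by fun_prop) (ae_of_all _ hR)
  have iE : Integrable (fun ω => Real.exp (X ω)) ν := by
    have := iR.add iP
    refine this.congr (ae_of_all _ fun ω => ?_)
    simp
  have hI : ∫⁻ z, F z ∂gs d = ENNReal.ofReal (∫ ω, Real.exp (X ω) ∂ν) := by
    rw [hF, lintegral_lintegral_swap mk.aemeasurable,
      ofReal_integral_eq_lintegral_ofReal iE (ae_of_all _ fun ω => (Real.exp_pos _).le)]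
    refine lintegral_congr fun ω => ?_
    have e : ∀ z : E d, ENNReal.ofReal (Real.exp (⟪S ω, z⟫ - ‖S ω‖ ^ 2 / 2 + X ω)) =
        ENNReal.ofReal (Real.exp (-‖S ω‖ ^ 2 / 2 + X ω)) * ENNReal.ofReal (Real.exp ⟪S ω, z⟫) := by
      intro z
      rw [← ENNReal.ofReal_mul (Real.exp_pos _).le, ← Real.exp_add]
      congr 2; ring
    simp_rw [e]
    rw [lintegral_const_mul _ (by fun_prop), h1.mgf, ← ENNReal.ofReal_mul (Real.exp_pos _).le,
      ← Real.exp_add]
    congr 2; ring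
  have hfin : ∫⁻ z, F z ∂gs d ≠ ⊤ := by rw [hI]; exact ENNReal.ofReal_ne_top
  refine ⟨mF, hfin, ?_⟩
  rw [integral_toReal mF.aemeasurable (ae_lt_top mF hfin), hI,
    ENNReal.toReal_ofReal (integral_nonneg fun ω => (Real.exp_pos _).le)]
  have e1 : ∫ ω, (1 + X ω + X ω ^ 2 / 2) ∂ν = 1 + v / 2 := by
    have i1 : Integrable (fun ω => 1 + X ω) ν := (integrable_const (1 : ℝ)).add iX
    rw [integral_add i1 (iX2.div_const 2), integral_add (integrable_const _) iX, integral_div,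
      h.m1, h.m2]
    simp
  rw [← e1, ← integral_sub iE iP]
  refine (abs_integral_le_integral_abs).trans ((integral_mono iR.abs iH hR).trans ?_)
  rw [integral_eq_lintegral_of_nonneg_ae (ae_of_all _ fun ω => hc_nonneg c _) iH.1]
  exact ENNReal.toReal_le_of_le_ofReal hB h.b3

end

end Vale.Agent.P347.MMm
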