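import Vale.Agent.P347.Spec2

open MeasureTheory ProbabilityTheory Finset
open scoped RealInnerProductSpace ENNReal

namespace Vale.Agent.P347

noncomputable section

namespace MMbm

variable {d : ℕ}

/-- bounded measurable -/
def BM {X : Type} [MeasurableSpace X] (f : X → ℝ) : Prop := Measurable f ∧ ∃ b, ∀ x, |f x| ≤ b

lemma BM.int {X : Type} [MeasurableSpace X] {f : X → ℝ} (h : BM f) (μ : Measure X) [IsFiniteMeasure μ] :
    Integrable f μ := by
  obtain ⟨m, b, hb⟩ := h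
  exact Integrable.of_bound m.aestronglyMeasurable b (.of_forall hb)

lemma BM.comp {X Y : Type} [MeasurableSpace X] [MeasurableSpace Y] {f : X → ℝ} (h : BM f) {T : Y → X}
    (hT : Measurable T) : BM fun y => f (T y) :=
  ⟨h.1.comp hT, h.2.imp fun _ hb _ => hb _⟩

lemma BM.sq {X : Type} [MeasurableSpace X] {f : X → ℝ} (h : BM f) : BM fun x => f x ^ 2 := by
  obtain ⟨m, b, hb⟩ := h
  exact ⟨m.pow_const 2, b ^ 2, fun x => by
    rw [abs_pow]; exact pow_le_pow_left₀ (abs_nonneg _) (hb x) 2⟩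

lemma BM.lg {f : E d → ℝ} (h : BM f) : LG f := by
  obtain ⟨m, b, hb⟩ := h
  exact ⟨m, b, fun x => (hb x).trans (le_mul_of_one_le_right ((abs_nonneg _).trans (hb x))
    (by linarith [norm_nonneg x]))⟩

lemma BM.S (hS : SMApi d) {s : ℝ} (hs : 0 < s) {f : E d → ℝ} (h : BM f) : BM (SS s f) :=
  ⟨(hS.lg s f hs h.lg).1.1, h.2.imp fun b hb => (hS.bd s b f hs h.1 hb).1⟩

lemma BM.D (hS : SMApi d) {s : ℝ} (hs : 0 < s) {f : E d → ℝ} (h : BM f) (i : Fin d) : BM (Si s i f) := by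
  obtain ⟨b, hb⟩ := h.2
  exact ⟨((hS.lg s f hs h.lg).2 i).1, _, (hS.bd s b f hs h.1 hb).2.1 i⟩

lemma step (hS : SMApi d) {s c : ℝ} (hs : 0 < s) {ι : Type} [Fintype ι] {f : ι → E d → ℝ}
    {F : E d → ℝ} (hf : ∀ a, BM (f a)) (hF : BM F) (h : ∀ x, ∑ a, f a x ^ 2 ≤ c * F x) (x : E d) :
    ∑ a, SS s (f a) x ^ 2 ≤ c * SS s F x ∧ ∑ a, ∑ k, Si s k (f a) x ^ 2 ≤ c / s ^ 2 * SS s F x := by
  have m : Measurable fun g : E d => x + s • g := by fun_prop
  have i := fun a => ((hf a).sq.comp m).int (gs d)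
  have k : ∑ a, ∫ g, f a (x + s • g) ^ 2 ∂gs d ≤ c * SS s F x := by
    rw [← integral_finsetSum _ fun a _ => i a, SS, ← integral_const_mul]
    exact integral_mono (integrable_finsetSum _ fun a _ => i a) (((hF.comp m).int _).const_mul c)
      fun g => h _
  have b := fun a => hS.bes s (f a) hs (hf a).lg x
  constructor
  · refine le_trans (Finset.sum_le_sum fun a _ => ?_) k
    have := (Finset.sum_nonneg fun i _ => sq_nonneg _).trans (b a)
    rw [le_div_iff₀ (by positivity)] at this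
    linarith
  · rw [div_mul_eq_mul_div, le_div_iff₀ (by positivity), Finset.sum_mul]
    refine le_trans (Finset.sum_le_sum fun a _ => ?_) k
    have := b a
    rw [le_div_iff₀ (by positivity)] at this
    linarith [sq_nonneg (SS s (f a) x)]

structure Jet (ψ : E d → ℝ) (h : Fin d → E d → ℝ) (h' : Fin d → Fin d → E d → ℝ)
    (h'' : Fin d → Fin d → Fin d → E d → ℝ) (Q : E d → ℝ) (B c2 c3 : ℝ) : Prop where
  d0 : ∀ x, HasFDerivAt ψ (∑ i, h i x • innerSL ℝ (ee i)) x
  d1 : ∀ i x, HasFDerivAt (h i) (∑ j, h' i j x • innerSL ℝ (ee j)) x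
  d2 : ∀ i j x, HasFDerivAt (h' i j) (∑ k, h'' i j k x • innerSL ℝ (ee k)) x
  ct : ∀ i j k, Continuous (h'' i j k)
  b0 : BM ψ
  b1 : ∀ i x, |h i x| ≤ B
  b2 : ∀ i j x, |h' i j x| ≤ B
  b3 : ∀ i j k x, |h'' i j k x| ≤ B
  bQ : BM Q
  q0 : ∀ x, 0 ≤ Q x
  q2 : ∀ x, ∑ i, ∑ j, h' i j x ^ 2 ≤ c2 ^ 2 * Q x
  q3 : ∀ x, ∑ i, ∑ j, ∑ k, h'' i j k x ^ 2 ≤ c3 ^ 2 * Q x

lemma jet (hS : SMApi d) {t : ℝ} (ht : 1 / 2 ≤ t) {φ : E d → ℝ} (hm : Measurable φ)
    (hb : ∀ x, |φ x| ≤ 1) :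
    ∃ h h' h'' B, Jet (SS t φ) h h' h'' (SS t fun x => φ x ^ 2) B 12 42 := by
  obtain ⟨s, hs, hst⟩ : ∃ s : ℝ, 0 < s ∧ 3 * s ^ 2 = t ^ 2 :=
    ⟨t / √3, by positivity, by rw [div_pow, Real.sq_sqrt (by norm_num)]; ring⟩
  have s2 : 1 / 12 ≤ s ^ 2 := by nlinarith
  have s1 : 1 / 4 ≤ s := by nlinarith
  have tri : ∀ f : E d → ℝ, BM f → SS s (SS s (SS s f)) = SS t f := fun f hf => by
    rw [hS.semi s s f hf.lg, hS.semi s _ f hf.lg, Real.sq_sqrt (by positivity),
      show s ^ 2 + (s ^ 2 + s ^ 2) = t ^ 2 by linarith, Real.sqrt_sq (by linarith)]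
  have b : BM φ := ⟨hm, 1, hb⟩
  have bi := fun i => b.D hS hs i
  have bij := fun i j => (bi i).D hS hs j
  have n1 := fun i => (hS.bd s 1 φ hs hm hb).2.1 i
  have n2 := fun i j => (hS.bd s _ _ hs (bi i).1 (n1 i)).2.1 j
  have n3 := fun i j k => (hS.bd s _ _ hs (bij i j).1 (n2 i j)).2.1 k
  have p1 : ∀ x, ∑ i, Si s i φ x ^ 2 ≤ 1 / s ^ 2 * SS s (fun x => φ x ^ 2) x := fun x => by
    simpa using (step hS hs (ι := Unit) (f := fun _ => φ) (c := 1) (fun _ => b) b.sq
      (fun x => by simp) x).2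
  have p2 := fun x => (step hS hs bi (b.sq.S hS hs) p1 x).2
  have p3 := step hS hs (ι := Fin d × Fin d) (f := fun a => Si s a.2 (Si s a.1 φ))
    (fun a => bij a.1 a.2) ((b.sq.S hS hs).S hS hs) fun x => by
      rw [Fintype.sum_prod_type]; exact p2 x
  have q0 : ∀ x, 0 ≤ SS t (fun x => φ x ^ 2) x := fun x => integral_nonneg fun g => sq_nonneg _
  have e1 : 1 / s ≤ 4 := by rw [div_le_iff₀ hs]; linarith
  have e2 : 1 / s / s ≤ 16 := by rw [div_le_iff₀ hs]; linarith
  have e3 : 1 / s / s / s ≤ 64 := by rw [div_le_iff₀ hs]; linarith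
  have f1 : 1 / s ^ 2 ≤ 12 := by rw [div_le_iff₀ (by positivity)]; linarith
  have f2 : 1 / s ^ 2 / s ^ 2 ≤ 144 := by rw [div_le_iff₀ (by positivity)]; linarith
  have f3 : 1 / s ^ 2 / s ^ 2 / s ^ 2 ≤ 1728 := by rw [div_le_iff₀ (by positivity)]; linarith
  refine ⟨fun i => SS s (SS s (Si s i φ)), fun i j => SS s (Si s j (Si s i φ)),
    fun i j k => Si s k (Si s j (Si s i φ)), 64, fun x => ?_, fun i x => ?_,
    fun i j x => hS.der s _ hs (bij i j).lg x, fun i j k => hS.cont s _ hs (bij i j).lg k,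
    b.S hS (by linarith), fun i x => ?_, fun i j x => ?_, fun i j k x => (n3 i j k x).trans e3,
    b.sq.S hS (by linarith), q0, fun x => ?_, fun x => ?_⟩
  · have := hS.der s _ hs ((b.S hS hs).S hS hs).lg x
    simp only [hS.comm s s _ hs hs (b.S hS hs).lg, hS.comm s s _ hs hs b.lg] at this
    rwa [tri φ b] at this
  · have := hS.der s _ hs ((bi i).S hS hs).lg x
    simpa only [hS.comm s s _ hs hs (bi i).lg] using this
  · exact ((hS.bd s _ _ hs ((bi i).S hS hs).1 (hS.bd s _ _ hs (bi i).1 (n1 i)).1).1 x).trans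
      (by linarith)
  · exact ((hS.bd s _ _ hs (bij i j).1 (n2 i j)).1 x).trans (by linarith)
  · have := (p3 x).1
    rw [Fintype.sum_prod_type, tri _ b.sq] at this
    nlinarith [q0 x]
  · have := (p3 x).2
    rw [Fintype.sum_prod_type, tri _ b.sq] at this
    nlinarith [q0 x]

lemma chain {f : E d → ℝ} {g : Fin d → E d → ℝ}
    (hf : ∀ x, HasFDerivAt f (∑ j, g j x • innerSL ℝ (ee j)) x) (κ σ : ℝ) (y x : E d) :
    HasFDerivAt (fun x => κ * f (σ • x + y)) (∑ j, (κ * σ * g j (σ • x + y)) • innerSL ℝ (ee j)) x := by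
  have h1 : HasFDerivAt (fun x : E d => σ • x + y) (σ • ContinuousLinearMap.id ℝ (E d)) x :=
    ((hasFDerivAt_id x).const_smul σ).add_const y
  refine (((hf (σ • x + y)).comp x h1).const_mul κ).congr_fderiv ?_
  ext v
  simp [Finset.mul_sum, mul_assoc, mul_left_comm]

lemma jen {X : Type} [MeasurableSpace X] {μ : Measure X} [IsProbabilityMeasure μ] {q : X → ℝ}
    (hq : Integrable q μ) (h0 : ∀ x, 0 ≤ q x) :
    Integrable (fun x => √(q x)) μ ∧ ∫ x, √(q x) ∂μ ≤ √(∫ x, q x ∂μ) := by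
  have m : MemLp (fun x => √(q x)) 2 μ := by
    rw [memLp_two_iff_integrable_sq (Real.continuous_sqrt.comp_aestronglyMeasurable hq.1)]
    simpa only [Real.sq_sqrt (h0 _)] using hq
  refine ⟨m.integrable one_le_two, Real.le_sqrt_of_sq_le ?_⟩
  have := variance_nonneg (fun x => √(q x)) μ
  rw [variance_eq_sub m] at this
  simp only [Pi.pow_apply, Real.sq_sqrt (h0 _)] at this
  linarith

lemma ee_le (i : Fin d) (v : E d) : |⟪ee i, v⟫| ≤ ‖v‖ := by
  simpa [ee] using abs_real_inner_le_norm (ee i) v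

variable {ψ : E d → ℝ} {h : Fin d → E d → ℝ} {h' : Fin d → Fin d → E d → ℝ}
  {h'' : Fin d → Fin d → Fin d → E d → ℝ} {Q : E d → ℝ} {B c2 c3 : ℝ}

lemma Jet.m1 (J : Jet ψ h h' h'' Q B c2 c3) (i : Fin d) : BM (h i) :=
  ⟨(continuous_iff_continuousAt.2 fun x => (J.d1 i x).continuousAt).measurable, B, J.b1 i⟩
lemma Jet.m2 (J : Jet ψ h h' h'' Q B c2 c3) (i j : Fin d) : BM (h' i j) :=
  ⟨(continuous_iff_continuousAt.2 fun x => (J.d2 i j x).continuousAt).measurable, B, J.b2 i j⟩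

lemma Jet.i1 (J : Jet ψ h h' h'' Q B c2 c3) {Ω : Type} [MeasurableSpace Ω] {P : Measure Ω} {a z : Ω → E d}
    (ha : Integrable a P) (hz : Measurable z) (i : Fin d) :
    Integrable (fun p => ⟪ee i, a p⟫ * h i (z p)) P :=
  (ha.const_inner (ee i)).mul_bdd ((J.m1 i).1.comp hz).aestronglyMeasurable (.of_forall fun p => J.b1 i _)

lemma half (hSL : StmtSL) (J : Jet ψ h h' h'' Q B c2 c3) (hc : 0 ≤ c3) {α β : Measure (E d)} {L σ : ℝ}
    (hα : Poi α L) [IsProbabilityMeasure β] (hσ : |σ| ≤ 1) (c : ℝ) :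
    |∑ i, ∫ p, ⟪ee i, p.1⟫ * h i (σ • p.1 + c • p.2) ∂α.prod β -
      σ * ∑ i, ∑ j, Cv α (ee i) (ee j) * ∫ p, h' i j (σ • p.1 + c • p.2) ∂α.prod β| ≤
      |L| ^ 3 * √d * c3 * √(∫ p, Q (σ • p.1 + c • p.2) ∂α.prod β) := by
  haveI := hα.1
  have m : Measurable fun p : E d × E d => σ • p.1 + c • p.2 := by fun_prop
  have i1 := fun i => J.i1 (P := α.prod β) ((hα.2.1.integrable one_le_two).comp_fst β) m i
  have i2 := fun i j => ((J.m2 i j).comp m).int (α.prod β)
  have i3 := (J.bQ.comp m).int (α.prod β)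
  obtain ⟨j1, j2⟩ := jen i3.integral_prod_right fun y => integral_nonneg fun x => J.q0 _
  have k1 : ∀ i, Integrable (fun y => ∫ x, ⟪ee i, x⟫ * h i (σ • x + c • y) ∂α) β :=
    fun i => (i1 i).integral_prod_right
  have k2 : ∀ i j, Integrable (fun y => Cv α (ee i) (ee j) * ∫ x, h' i j (σ • x + c • y) ∂α) β :=
    fun i j => ((i2 i j).integral_prod_right).const_mul _
  have k3 := fun i => integrable_finsetSum Finset.univ fun j _ => k2 i j
  have e : ∑ i, ∫ p, ⟪ee i, p.1⟫ * h i (σ • p.1 + c • p.2) ∂α.prod β -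
      σ * ∑ i, ∑ j, Cv α (ee i) (ee j) * ∫ p, h' i j (σ • p.1 + c • p.2) ∂α.prod β =
      ∫ y, (∑ i, ∫ x, ⟪ee i, x⟫ * h i (σ • x + c • y) ∂α -
        σ * ∑ i, ∑ j, Cv α (ee i) (ee j) * ∫ x, h' i j (σ • x + c • y) ∂α) ∂β := by
    rw [integral_sub (integrable_finsetSum _ fun i _ => k1 i)
      ((integrable_finsetSum _ fun i _ => k3 i).const_mul σ), integral_const_mul,
      integral_finsetSum _ fun i _ => k1 i, integral_finsetSum _ fun i _ => k3 i]
    congr 2
    · exact funext fun i => integral_prod_symm _ (i1 i)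
    · refine Finset.sum_congr rfl fun i _ => ?_
      rw [integral_finsetSum _ fun j _ => k2 i j]
      refine Finset.sum_congr rfl fun j _ => ?_
      rw [integral_const_mul, integral_prod_symm _ (i2 i j)]
  rw [e, integral_prod_symm _ i3, ← Real.norm_eq_abs]
  refine le_trans (norm_integral_le_of_norm_le (j1.const_mul (|L| ^ 3 * √d * c3)) (.of_forall fun y => ?_))
    (by rw [integral_const_mul]; exact mul_le_mul_of_nonneg_left j2 (by positivity))
  have bσ : ∀ u : ℝ, |u| ≤ B → |σ * u| ≤ B := fun u hu => by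
    rw [abs_mul]; exact (mul_le_of_le_one_left (abs_nonneg _) hσ).trans hu
  have my : Measurable fun x : E d => σ • x + c • y := by fun_prop
  have s := hSL d α L (fun i x => h i (σ • x + c • y)) (fun i j x => σ * h' i j (σ • x + c • y))
    (fun i j k x => σ * σ * h'' i j k (σ • x + c • y)) B hα
    (fun i x => by simpa only [one_mul] using chain (J.d1 i) 1 σ (c • y) x)
    (fun i j x => chain (J.d2 i j) σ σ (c • y) x)
    (fun i j k => continuous_const.mul ((J.ct i j k).comp (by fun_prop)))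
    (fun i j x => bσ _ (J.b2 i j _)) fun i j k x => by
      rw [mul_assoc]; exact bσ _ (bσ _ (J.b3 i j k _))
  simp only [integral_const_mul] at s
  refine le_trans (le_of_eq ?_) (s.trans ?_)
  · rw [Real.norm_eq_abs]
    simp only [Finset.mul_sum, mul_left_comm σ]
  · rw [mul_assoc _ c3, ← Real.sqrt_sq hc, ← Real.sqrt_mul (sq_nonneg _), ← integral_const_mul]
    refine mul_le_mul_of_nonneg_left (Real.sqrt_le_sqrt (integral_mono_of_nonneg
      (.of_forall fun x => by positivity) (((J.bQ.comp my).int α).const_mul _)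
      (.of_forall fun x => le_trans ?_ (J.q3 _)))) (by positivity)
    refine Finset.sum_le_sum fun i _ => Finset.sum_le_sum fun j _ => Finset.sum_le_sum fun k _ => ?_
    have a : σ ^ 2 ≤ 1 := by rw [← sq_abs]; exact pow_le_one₀ (abs_nonneg _) hσ
    have a' : (σ * σ) ^ 2 ≤ 1 := by nlinarith [sq_nonneg σ]
    rw [mul_pow]
    exact mul_le_of_le_one_left (sq_nonneg _) a'

/-- interpolation -/
def PP (α β : Measure (E d)) (f : E d → ℝ) (θ : ℝ) : ℝ :=
  ∫ p, f (Real.sin θ • p.1 + Real.cos θ • p.2) ∂α.prod β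

lemma der (hSL : StmtSL) (J : Jet ψ h h' h'' Q B 12 42) {α β : Measure (E d)} {L e : ℝ}
    (hα : Poi α L) (hβ : Poi β L) (he : 0 ≤ e) (hF : Fr α β ≤ e ^ 2) (hL : L ^ 6 * d ≤ e ^ 2) (θ : ℝ) :
    ∃ D, HasDerivAt (PP α β ψ) D θ ∧ |D| ≤ 96 * e * √(PP α β Q θ) := by
  haveI := hα.1
  haveI := hβ.1
  have m : ∀ θ, Measurable fun p : E d × E d => Real.sin θ • p.1 + Real.cos θ • p.2 := fun θ => by
    fun_prop
  have a1 := (hα.2.1.integrable one_le_two).comp_fst β
  have a2 := (hβ.2.1.integrable one_le_two).comp_snd α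
  have i1 := fun i => J.i1 a1 (m θ) i
  have i2 := fun i => J.i1 a2 (m θ) i
  have j1 := (integrable_finsetSum Finset.univ fun i _ => i1 i).const_mul (Real.cos θ)
  have j2 := (integrable_finsetSum Finset.univ fun i _ => i2 i).const_mul (Real.sin θ)
  have D := (hasDerivAt_integral_of_dominated_loc_of_deriv_le (μ := α.prod β) (x₀ := θ)
    (F := fun θ p => ψ (Real.sin θ • p.1 + Real.cos θ • p.2))
    (F' := fun θ p => Real.cos θ * ∑ i, ⟪ee i, p.1⟫ * h i (Real.sin θ • p.1 + Real.cos θ • p.2) -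
      Real.sin θ * ∑ i, ⟪ee i, p.2⟫ * h i (Real.sin θ • p.1 + Real.cos θ • p.2))
    (bound := fun p => ∑ _i : Fin d, ‖p.1‖ * B + ∑ _i : Fin d, ‖p.2‖ * B) Filter.univ_mem
    (.of_forall fun θ => (J.b0.1.comp (m θ)).aestronglyMeasurable) ((J.b0.comp (m θ)).int _)
    (j1.sub j2).1 (.of_forall fun p x _ => ?_)
    ((integrable_finsetSum _ fun i _ => a1.norm.mul_const B).add
      (integrable_finsetSum _ fun i _ => a2.norm.mul_const B)) (.of_forall fun p x _ => ?_)).2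
  · refine ⟨_, D, ?_⟩
    rw [integral_sub j1 j2, integral_const_mul, integral_const_mul, integral_finsetSum _ fun i _ => i1 i,
      integral_finsetSum _ fun i _ => i2 i]
    have h1 := half hSL J (by norm_num) (β := β) hα (Real.abs_sin_le_one θ) (Real.cos θ)
    have h2 := half hSL J (by norm_num) (β := α) hβ (Real.abs_cos_le_one θ) (Real.sin θ)
    simp only [← integral_prod_swap (μ := β) (ν := α), Prod.fst_swap, Prod.snd_swap,
      add_comm (Real.cos θ • _)] at h2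
    have hK : |L| ^ 3 * √d ≤ e := by
      refine le_of_pow_le_pow_left₀ two_ne_zero he ?_
      rw [mul_pow, Real.sq_sqrt (Nat.cast_nonneg _), ← pow_mul, show 3 * 2 = 6 from rfl,
        ← abs_pow, abs_of_nonneg (by positivity)]
      exact hL
    have i3 := fun i j => ((J.m2 i j).sq.comp (m θ)).int (α.prod β)
    have k3 := fun i => integrable_finsetSum Finset.univ fun j _ => i3 i j
    obtain ⟨M, hM⟩ : ∃ M : Fin d → Fin d → ℝ, M = fun i j =>
      ∫ p, h' i j (Real.sin θ • p.1 + Real.cos θ • p.2) ∂α.prod β := ⟨_, rfl⟩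
    have h3 : ∑ i, ∑ j, M i j ^ 2 ≤ 12 ^ 2 * PP α β Q θ := by
      have : ∑ i, ∑ j, M i j ^ 2 ≤ ∫ p, ∑ i, ∑ j,
          h' i j (Real.sin θ • p.1 + Real.cos θ • p.2) ^ 2 ∂α.prod β := by
        rw [integral_finsetSum _ fun i _ => k3 i]
        refine Finset.sum_le_sum fun i _ => ?_
        rw [integral_finsetSum _ fun j _ => i3 i j]
        refine Finset.sum_le_sum fun j _ => ?_
        have mm := ((J.m2 i j).comp (m θ))
        have ml := (memLp_two_iff_integrable_sq mm.1.aestronglyMeasurable).2 (i3 i j)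
        have := variance_nonneg (fun p : E d × E d => h' i j (Real.sin θ • p.1 + Real.cos θ • p.2))
          (α.prod β)
        rw [variance_eq_sub ml] at this
        simp only [Pi.pow_apply] at this
        rw [hM]
        linarith
      rw [PP, ← integral_const_mul]
      exact this.trans (integral_mono (integrable_finsetSum _ fun i _ => k3 i)
        (((J.bQ.comp (m θ)).int _).const_mul _) fun p => J.q2 _)
    have P0 : 0 ≤ PP α β Q θ := integral_nonneg fun p => J.q0 _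
    have h4 : |∑ i, ∑ j, Cv α (ee i) (ee j) * M i j - ∑ i, ∑ j, Cv β (ee i) (ee j) * M i j| ≤
        e * (12 * √(PP α β Q θ)) := by
      refine abs_le_of_sq_le_sq ?_ (by positivity)
      have := Finset.sum_mul_sq_le_sq_mul_sq (Finset.univ : Finset (Fin d × Fin d))
        (fun a => Cv α (ee a.1) (ee a.2) - Cv β (ee a.1) (ee a.2)) fun a => M a.1 a.2
      simp only [Fintype.sum_prod_type, sub_mul, Finset.sum_sub_distrib] at this
      rw [mul_pow, mul_pow, Real.sq_sqrt P0]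
      exact this.trans (mul_le_mul hF h3 (by positivity) (sq_nonneg _))
    have hM' : ∀ i j, ∫ p, h' i j (Real.sin θ • p.1 + Real.cos θ • p.2) ∂α.prod β = M i j :=
      fun i j => by rw [hM]
    simp only [hM'] at h1 h2
    rw [← PP] at h1 h2
    have r := mul_le_mul_of_nonneg_right hK (by positivity : 0 ≤ 42 * √(PP α β Q θ))
    have c1 := Real.abs_cos_le_one θ
    have s1 := Real.abs_sin_le_one θ
    generalize ∑ i, ∑ j, Cv α (ee i) (ee j) * M i j = U at *
    generalize ∑ i, ∑ j, Cv β (ee i) (ee j) * M i j = V at *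
    generalize ∑ i, ∫ p : E d × E d, ⟪ee i, p.1⟫ * h i (Real.sin θ • p.1 + Real.cos θ • p.2) ∂α.prod β =
      A at *
    generalize ∑ i, ∫ p : E d × E d, ⟪ee i, p.2⟫ * h i (Real.sin θ • p.1 + Real.cos θ • p.2) ∂α.prod β =
      A' at *
    rw [show Real.cos θ * A - Real.sin θ * A' = Real.cos θ * (A - Real.sin θ * U) -
      Real.sin θ * (A' - Real.cos θ * V) + Real.cos θ * (Real.sin θ * (U - V)) by ring]
    have n : ∀ c u : ℝ, |c| ≤ 1 → |c * u| ≤ |u| := fun c u hc => by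
      rw [abs_mul]; exact mul_le_of_le_one_left (abs_nonneg _) hc
    have t1 := n _ (A - Real.sin θ * U) c1
    have t2 := n _ (A' - Real.cos θ * V) s1
    have t3 := (n _ _ c1).trans (n _ (U - V) s1)
    refine (abs_add_le _ _).trans ((add_le_add (abs_sub _ _) le_rfl).trans ?_)
    linarith
  · have n : ∀ (c : ℝ) (v z : E d), |c| ≤ 1 → |c * ∑ i, ⟪ee i, v⟫ * h i z| ≤ ∑ _i : Fin d, ‖v‖ * B := by
      intro c v z hc
      rw [abs_mul]
      refine (mul_le_of_le_one_left (abs_nonneg _) hc).trans ((Finset.abs_sum_le_sum_abs _ _).trans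
        (Finset.sum_le_sum fun i _ => ?_))
      rw [abs_mul]
      exact mul_le_mul (ee_le i v) (J.b1 i z) (abs_nonneg _) (norm_nonneg _)
    exact (abs_sub _ _).trans (add_le_add (n _ _ _ (Real.abs_cos_le_one x)) (n _ _ _ (Real.abs_sin_le_one x)))
  · have := (J.d0 _).comp_hasDerivAt x (((Real.hasDerivAt_sin x).smul_const p.1).add
      ((Real.hasDerivAt_cos x).smul_const p.2))
    refine this.congr_deriv ?_
    simp [inner_add_right, inner_smul_right, Finset.mul_sum, ← Finset.sum_sub_distrib]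
    exact Finset.sum_congr rfl fun i _ => by ring

lemma sm_eq {α : Measure (E d)} [IsProbabilityMeasure α] (t : ℝ) {f : E d → ℝ} (hf : BM f) :
    ∫ x, f x ∂sm α t = ∫ x, SS t f x ∂α := by
  have m : Measurable fun p : E d × E d => p.1 + t • p.2 := by fun_prop
  rw [sm, integral_map m.aemeasurable hf.1.aestronglyMeasurable, integral_prod _ ((hf.comp m).int _)]
  rfl

end MMbm

open MMbm in
theorem stmtMM2 (_h1 : StmtG1) (_h2 : StmtG2) (hSM : StmtSM) (_hPo : StmtPo) (hSL : StmtSL)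
    (_hFo : StmtFo) : StmtMM2 := by
  refine ⟨384, by norm_num, fun d α β L t e hα hβ ht he hF hL φ hm hb => ?_⟩
  haveI := hα.1
  haveI := hβ.1
  have hS := hSM d
  have t0 : 0 < t := by linarith
  have b : BM φ := ⟨hm, 1, hb⟩
  have hb2 : ∀ x, |φ x ^ 2| ≤ 1 := fun x => by
    rw [abs_pow]; exact pow_le_one₀ (abs_nonneg _) (hb x)
  obtain ⟨h, h', h'', B, J⟩ := jet hS ht hm hb
  obtain ⟨g, g', g'', B', J'⟩ := jet hS ht b.sq.1 hb2
  choose D hD using der hSL J hα hβ he hF hL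
  choose D' hD' using der hSL J' hα hβ he hF hL
  have pi := Real.pi_pos
  have pi4 := Real.pi_lt_four
  have mem : Real.pi / 2 ∈ Set.Icc 0 (Real.pi / 2) := ⟨by linarith, le_rfl⟩
  obtain ⟨θ0, h0, hmax⟩ := (isCompact_Icc (a := 0) (b := Real.pi / 2)).exists_isMaxOn ⟨_, mem⟩
    (f := PP α β (SS t fun x => φ x ^ 2)) fun θ _ => (hD' θ).1.continuousAt.continuousWithinAt
  obtain ⟨m, hm'⟩ : ∃ m, m = PP α β (SS t fun x => φ x ^ 2) θ0 := ⟨_, rfl⟩
  have le1 : ∀ θ ∈ Set.Icc 0 (Real.pi / 2), √(PP α β (SS t fun x => φ x ^ 2) θ) ≤ √m :=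
    fun θ hθ => Real.sqrt_le_sqrt (hm' ▸ hmax hθ)
  have le2 : ∀ θ, PP α β (SS t fun x => (φ x ^ 2) ^ 2) θ ≤ PP α β (SS t fun x => φ x ^ 2) θ := fun θ => by
    have mz : Measurable fun p : E d × E d => Real.sin θ • p.1 + Real.cos θ • p.2 := by fun_prop
    refine integral_mono ((J'.bQ.comp mz).int _) ((J.bQ.comp mz).int _) fun p => ?_
    have mg : Measurable fun g : E d => Real.sin θ • p.1 + Real.cos θ • p.2 + t • g := by fun_prop
    refine integral_mono ((b.sq.sq.comp mg).int _) ((b.sq.comp mg).int _) fun g => ?_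
    have := (abs_le.1 (hb2 (Real.sin θ • p.1 + Real.cos θ • p.2 + t • g))).2
    simp only
    nlinarith [sq_nonneg (φ (Real.sin θ • p.1 + Real.cos θ • p.2 + t • g))]
  have mv : ∀ (f f' : ℝ → ℝ), (∀ θ, HasDerivAt f (f' θ) θ) →
      (∀ θ ∈ Set.Icc 0 (Real.pi / 2), |f' θ| ≤ 96 * e * √m) → ∀ x ∈ Set.Icc 0 (Real.pi / 2),
      |f (Real.pi / 2) - f x| ≤ 192 * e * √m := fun f f' h1 h2 x hx => by
    refine ((convex_Icc _ _).norm_image_sub_le_of_norm_hasDerivWithin_le
      (fun θ _ => (h1 θ).hasDerivWithinAt) h2 hx mem).trans ?_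
    rw [Real.norm_of_nonneg (by linarith [hx.2])]
    have : 0 ≤ 96 * e * √m := by positivity
    nlinarith [hx.1]
  have m1 := mv _ D (fun θ => (hD θ).1) (fun θ hθ => (hD θ).2.trans
    (mul_le_mul_of_nonneg_left (le1 θ hθ) (by positivity))) 0 ⟨le_rfl, by linarith⟩
  have m2 := mv _ D' (fun θ => (hD' θ).1) (fun θ hθ => (hD' θ).2.trans
    (mul_le_mul_of_nonneg_left ((Real.sqrt_le_sqrt (le2 θ)).trans (le1 θ hθ)) (by positivity))) θ0 h0
  have e1 : ∀ f : E d → ℝ, BM f → PP α β (SS t f) (Real.pi / 2) = ∫ x, f x ∂sm α t := fun f hf => by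
    rw [sm_eq t hf, PP]
    simp only [Real.sin_pi_div_two, Real.cos_pi_div_two, one_smul, zero_smul, add_zero]
    rw [integral_fun_fst (SS t f)]
    simp
  have e2 : PP α β (SS t φ) 0 = ∫ x, φ x ∂sm β t := by
    rw [sm_eq t b, PP]
    simp only [Real.sin_zero, Real.cos_zero, one_smul, zero_smul, zero_add]
    rw [integral_fun_snd (SS t φ)]
    simp
  rw [e1 φ b, e2] at m1
  rw [e1 _ b.sq, ← hm'] at m2
  have m0 : 0 ≤ m := hm' ▸ integral_nonneg fun p => J.q0 _
  have P0 : 0 ≤ ∫ x, φ x ^ 2 ∂sm α t := integral_nonneg fun x => sq_nonneg _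
  have a1 := Real.sq_sqrt m0
  have a2 := Real.sq_sqrt P0
  have a3 := Real.sqrt_nonneg m
  have a4 := Real.sqrt_nonneg (∫ x, φ x ^ 2 ∂sm α t)
  have a5 := (abs_le.1 m2).1
  have a6 : √m ≤ √(∫ x, φ x ^ 2 ∂sm α t) + 192 * e := by
    by_contra c
    nlinarith [not_le.1 c]
  have a7 := mul_le_mul_of_nonneg_left a6 (by positivity : 0 ≤ 192 * e)
  nlinarith [mul_nonneg he a4, sq_nonneg e]

end

end Vale.Agent.P347
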