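import Vale.Agent.P347.Spec2

open MeasureTheory ProbabilityTheory Finset
open scoped RealInnerProductSpace ENNReal

namespace Vale.Agent.P347

noncomputable section

namespace MQm

variable {d : ℕ}

theorem mCv {Ω : Type} [MeasurableSpace Ω] [TopologicalSpace Ω] [BorelSpace Ω]
    [SecondCountableTopology Ω] (μ : Measure Ω) [SFinite μ] (F : E d → Ω → E d)
    (hF : Continuous fun q : E d × Ω => F q.1 q.2) (u v : E d) :
    Measurable fun w => Cv (μ.map fun g => ∫ y, F w y ∂μ - F w g) u v := by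
  have h1 : StronglyMeasurable fun w => ∫ y, F w y ∂μ :=
    hF.stronglyMeasurable.integral_prod_right'
  have h2 : Measurable fun q : E d × Ω => ∫ y, F q.1 y ∂μ - F q.1 q.2 :=
    (h1.measurable.comp measurable_fst).sub hF.measurable
  have e : ∀ w, Cv (μ.map fun g => ∫ y, F w y ∂μ - F w g) u v =
      ∫ g, ⟪u, ∫ y, F w y ∂μ - F w g⟫ * ⟪v, ∫ y, F w y ∂μ - F w g⟫ ∂μ := fun w =>
    integral_map (h2.comp measurable_prodMk_left).aemeasurable
      (Continuous.aestronglyMeasurable (by fun_prop))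
  simp only [e]
  exact (((measurable_const.inner h2).mul
    (measurable_const.inner h2)).stronglyMeasurable.integral_prod_right').measurable

theorem mMh {n : ℕ} (nd : Fin n → ℝ × ℝ × ℝ × ℝ) {G : E d → E d} (hG : ContDiff ℝ 1 G) (u v : E d) :
    Measurable fun w => ⟪u, Mh nd G w v⟫ := by
  have c := hG.continuous_fderiv one_ne_zero
  have h1 : ∀ i, StronglyMeasurable fun w => ∫ z, HH G (nd i) w z ∂g3 d := fun i => by
    have : Continuous fun q : E d × (E d × E d × E d) => HH G (nd i) q.1 q.2 := by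
      have a1 : Continuous fun q : E d × (E d × E d × E d) =>
          qa ((nd i).2.1 • q.1) (sg (nd i).2.1) (nd i).2.2.2 q.2 := by unfold qa; fun_prop
      have a2 : Continuous fun q : E d × (E d × E d × E d) =>
          qb ((nd i).2.2.1 • q.1) (sg (nd i).2.2.1) (nd i).2.2.2 q.2 := by unfold qb; fun_prop
      exact Continuous.const_smul ((c.comp a1).clm_comp (c.comp a2)) (nd i).1
    exact this.stronglyMeasurable.integral_prod_right'
  have h2 : StronglyMeasurable (Mh nd G) := by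
    unfold Mh
    exact Finset.stronglyMeasurable_fun_sum _ fun i _ => h1 i
  have h3 : Continuous fun A : E d →L[ℝ] E d => ⟪u, A v⟫ := by fun_prop
  exact (h3.comp_stronglyMeasurable h2).measurable

theorem mFq {B : E d → E d → E d → ℝ} (h : ∀ u v, Measurable fun w => B w u v) :
    Measurable fun w => √(Fq (B w)) := by
  unfold Fq
  exact (Finset.measurable_sum _ fun i _ => Finset.measurable_sum _ fun j _ =>
    (h _ _).pow_const 2).sqrt

end MQm

open MQm in
theorem stmtMQ (_h1 : StmtG1) (hFo : StmtFo) (hAa : StmtAa) (hOU : StmtOU) (hMQA : StmtMQA)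
    (hMQB : StmtMQB) : StmtMQ := by
  obtain ⟨CA, ca, hA⟩ := hMQA
  obtain ⟨CB, cb, hB⟩ := hMQB
  refine ⟨CA + CB, by linarith, fun d η ρ δ c0 N r0 p hR hδ hQ => ?_⟩
  obtain ⟨nA, oA, hA⟩ := hA d p.ka η ρ δ N r0 p.J p.om p.tau hR hδ hQ
  obtain ⟨nB, oB, hB⟩ := hB d p.ka η ρ δ N r0 p hR hδ hQ
  refine ⟨Fin.append nA nB, ⟨?_, fun i => ?_⟩, fun ε de G e0 e1 hG => ?_⟩
  · rw [Fin.sum_univ_add]
    simp only [Fin.append_left, Fin.append_right]
    linarith [oA.1, oB.1]
  · refine Fin.addCases (fun i => ?_) (fun i => ?_) i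
    · rw [Fin.append_left]; exact oA.2 i
    · rw [Fin.append_right]; exact oB.2 i
  have aa := hAa d ε ρ G (by linarith [hR.d2]) e0 e1 hR.r1 hR.r2 hG
  have m0 : ∀ u v, Measurable fun w => Cv (al0 G ρ N w) u v := fun u v =>
    mCv (gN d N) (A0 G ρ N) (aa.cont0 N) u v
  have m1 : ∀ u v, Measurable fun w => Cv (be1 p G w) u v := fun u v =>
    mCv (gs d) (F1 p G) ((hOU d).f1c p G hG.c1.continuous) u v
  have eM : ∀ w, Mh (Fin.append nA nB) G w = Mh nA G w + Mh nB G w := fun w => by
    unfold Mh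
    rw [Fin.sum_univ_add]
    simp only [Fin.append_left, Fin.append_right]
  have ec : cer ⟨{ p with de := de }, c0, _, Fin.append nA nB⟩ G ρ N = fun w =>
      √(Fq fun u v => Cv (al0 G ρ N w) u v - Cv (be1 p G w) u v -
        ⟪u, Mh (Fin.append nA nB) G w v⟫) := rfl
  rw [ec]
  refine ⟨mFq fun u v => ((m0 u v).sub (m1 u v)).sub (mMh _ hG.c1 u v), ?_⟩
  have X0 : 0 ≤ ε ^ 2 * √d * (p.ka ^ 2 + δ + η) := by have := hR.e0; positivity
  have mA : Measurable fun w => √(Fq fun u v => Cv (al0 G ρ N w) u v - ⟪u, Mh nA G w v⟫) :=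
    mFq fun u v => (m0 u v).sub (mMh _ hG.c1 u v)
  have b0 : 0 ≤ CB * ε ^ 2 * √d * (p.ka ^ 2 + δ + η) := by have := hR.e0; positivity
  calc _ ≤ eLpNorm ((fun w => √(Fq fun u v => Cv (al0 G ρ N w) u v - ⟪u, Mh nA G w v⟫)) +
        fun _ => CB * ε ^ 2 * √d * (p.ka ^ 2 + δ + η)) 2 (gs d) := by
        refine eLpNorm_mono_real fun w => ?_
        rw [Real.norm_of_nonneg (Real.sqrt_nonneg _)]
        have t := (hFo d).tri (fun u v => Cv (al0 G ρ N w) u v - ⟪u, Mh nA G w v⟫)
          (fun u v => (-1) * (Cv (be1 p G w) u v + ⟪u, Mh nB G w v⟫))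
        rw [(hFo d).smul, abs_neg, abs_one, one_mul] at t
        have e : (fun u v => Cv (al0 G ρ N w) u v - Cv (be1 p G w) u v -
            ⟪u, Mh (Fin.append nA nB) G w v⟫) = fun u v =>
            (Cv (al0 G ρ N w) u v - ⟪u, Mh nA G w v⟫) +
              (-1) * (Cv (be1 p G w) u v + ⟪u, Mh nB G w v⟫) := by
          funext u v
          rw [eM, add_apply, inner_add_right]
          ring
        rw [e]
        exact t.trans (add_le_add le_rfl (hB ε G e0 hG w))
    _ ≤ _ := eLpNorm_add_le mA.aestronglyMeasurable aestronglyMeasurable_const (by norm_num)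
    _ ≤ ENNReal.ofReal (CA * ε ^ 2 * √d * (p.ka ^ 2 + δ + η)) +
        ENNReal.ofReal (CB * ε ^ 2 * √d * (p.ka ^ 2 + δ + η)) := by
        refine add_le_add (hA ε G e0 e1 hG) ?_
        refine (eLpNorm_le_of_ae_bound (C := CB * ε ^ 2 * √d * (p.ka ^ 2 + δ + η))
          (Filter.Eventually.of_forall fun _ => by rw [Real.norm_of_nonneg b0])).trans ?_
        simp
    _ = _ := by
        rw [← ENNReal.ofReal_add (by have := hR.e0; positivity) b0]
        congr 1; ring

end

end Vale.Agent.P347
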