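import Vale.Agent.P347.Spec2

open MeasureTheory ProbabilityTheory Finset
open scoped RealInnerProductSpace ENNReal

namespace Vale.Agent.P347

namespace MQAm

variable {d : ℕ}

lemma intH {ε : ℝ} {G : E d → E d} (hε : 0 ≤ ε) (hH : HbApi ε G) (a a' τ : ℝ) (w : E d) :
    Integrable (fun g => (Hb G a (τ • w + sg τ • g)).comp (Hb G a' (τ • w + sg τ • g))) (gs d) := by
  refine Integrable.of_bound (C := ε * ε) ?_ (Filter.Eventually.of_forall fun z => ?_)
  · exact (((hH.cont a).comp (by fun_prop)).clm_comp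
      ((hH.cont a').comp (by fun_prop))).aestronglyMeasurable
  · exact (ContinuousLinearMap.opNorm_comp_le _ _).trans
      (mul_le_mul (hH.nrm _ _) (hH.nrm _ _) (norm_nonneg _) hε)

lemma omS {ε : ℝ} {G : E d → E d} (hε : 0 ≤ ε) (hH : HbApi ε G) {J : ℕ} (b a : Fin J → ℝ)
    (τ : ℝ) (w : E d) :
    OM τ (fun x => (∑ j, b j • Hb G (a j) x).comp (∑ j, b j • Hb G (a j) x)) w =
      ∑ j, ∑ l, (b j * b l) • OM τ (fun x => (Hb G (a j) x).comp (Hb G (a l) x)) w := by
  have e : ∀ x, (∑ j, b j • Hb G (a j) x).comp (∑ j, b j • Hb G (a j) x) =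
      ∑ j, ∑ l, (b j * b l) • (Hb G (a j) x).comp (Hb G (a l) x) := fun x => by
    rw [ContinuousLinearMap.finsetSum_comp]
    refine Finset.sum_congr rfl fun j _ => ?_
    rw [ContinuousLinearMap.comp_finsetSum]
    refine Finset.sum_congr rfl fun l _ => ?_
    rw [ContinuousLinearMap.smul_comp, ContinuousLinearMap.comp_smul, smul_smul]
  simp only [OM, e]
  rw [integral_finsetSum]
  · refine Finset.sum_congr rfl fun j _ => ?_
    rw [integral_finsetSum]
    · refine Finset.sum_congr rfl fun l _ => ?_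
      rw [integral_smul]
    · exact fun l _ => (intH hε hH _ _ _ _).smul (b j * b l)
  · exact fun j _ => integrable_finsetSum _ fun l _ => (intH hε hH _ _ _ _).smul (b j * b l)

end MQAm

open MQAm in
theorem stmtMQA (hMQA1 : StmtMQA1) (hKH : StmtKH) (hHb : StmtHb) : StmtMQA := by
  obtain ⟨C, hC, h1⟩ := hMQA1
  refine ⟨C, hC, fun d κ η ρ δ N r0 J om tau hR hδ hQ => ?_⟩
  obtain ⟨ho, hs, ht, hq⟩ := hQ
  have hρ : 0 < ρ := by linarith [hR.r1]
  set c0 := ρ ^ r0 with hc0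
  have c00 : 0 ≤ c0 := by positivity
  have c01 : c0 ≤ 1 := pow_le_one₀ hρ.le hR.r2.le
  have a0 : ∀ j, 0 ≤ c0 * tau j := fun j => mul_nonneg c00 (ht j).1
  have a1 : ∀ j, (c0 * tau j) ^ 2 ≤ 1 - κ ^ 2 := fun j => by
    refine le_trans ?_ hR.lo
    exact pow_le_pow_left₀ (a0 j) (mul_le_of_le_one_right c00 (ht j).2) 2
  have hk := fun t : Fin J × Fin J × Fin J => hKH (tau t.1) (c0 * tau t.2.1) (c0 * tau t.2.2) κ
    (ht _).1 (ht _).2 (a0 _) (a0 _) hR.k0 (a1 _) (a1 _)
  choose θ hθ1 hθ2 hθ3 hθ4 using hk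
  have e : Fin (J ^ 3) ≃ Fin J × Fin J × Fin J := Fintype.equivOfCardEq (by simp; ring)
  set b : Fin J → ℝ := fun j => ρ * c0 * (om j * (c0 * tau j)) with hb
  set f : Fin J → ℝ := fun i => (1 + ρ) / ρ * (om i * tau i) with hf
  have b0 : ∀ j, 0 ≤ b j := fun j => mul_nonneg (mul_nonneg hρ.le c00) (mul_nonneg (ho j) (a0 j))
  have b1 : ∀ j, b j ≤ ρ * om j := fun j => by
    have h3 : c0 * (c0 * tau j) ≤ 1 :=
      mul_le_one₀ c01 (a0 j) (mul_le_one₀ c01 (ht j).1 (ht j).2)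
    have h4 := mul_le_mul_of_nonneg_left h3 (mul_nonneg hρ.le (ho j))
    simp only [hb]; nlinarith
  have bs : ∑ j, b j ≤ ρ := by
    refine (Finset.sum_le_sum fun j _ => b1 j).trans ?_
    rw [← Finset.mul_sum]; exact mul_le_of_le_one_right hρ.le hs
  have bs0 : 0 ≤ ∑ j, b j := Finset.sum_nonneg fun j _ => b0 j
  have f0 : ∀ i, 0 ≤ f i := fun i => mul_nonneg (by positivity) (mul_nonneg (ho i) (ht i).1)
  have fs : ∑ i, f i ≤ (1 + ρ) / ρ := by
    simp only [hf]
    rw [← Finset.mul_sum]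
    refine mul_le_of_le_one_right (by positivity) (le_trans (Finset.sum_le_sum fun i _ => ?_) hs)
    exact mul_le_of_le_one_right (ho i) (ht i).2
  set c : Fin J × Fin J × Fin J → ℝ := fun t => f t.1 * (b t.2.1 * b t.2.2) with hc
  have cc0 : ∀ t, 0 ≤ c t := fun t => mul_nonneg (f0 _) (mul_nonneg (b0 _) (b0 _))
  have cs : ∑ t, c t ≤ 2 := by
    have : ∑ t, c t = (∑ i, f i) * ((∑ j, b j) * ∑ j, b j) := by
      simp only [hc, Fintype.sum_prod_type]
      rw [Finset.sum_mul_sum, Finset.sum_mul]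
      refine Finset.sum_congr rfl fun i _ => ?_
      simp only [Finset.mul_sum]
    rw [this]
    calc _ ≤ (1 + ρ) / ρ * (ρ * ρ) :=
          mul_le_mul fs (mul_le_mul bs bs bs0 hρ.le) (mul_nonneg bs0 bs0) (by positivity)
      _ = (1 + ρ) * ρ := by field_simp
      _ ≤ 2 := by nlinarith [hR.r2]
  refine ⟨fun k => (c (e k), tau (e k).1 * (c0 * tau (e k).2.1),
    tau (e k).1 * (c0 * tau (e k).2.2), θ (e k)), ⟨?_, fun k => ⟨hθ1 _, ?_⟩⟩, ?_⟩
  · simp only [abs_of_nonneg (cc0 _)]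
    rw [e.sum_comp c]; exact cs
  · simp only [abs_of_nonneg (cc0 _)]
    have h3 : c (e k) ≤ 2 := (Finset.single_le_sum (fun t _ => cc0 t) (Finset.mem_univ _)).trans cs
    have h4 := mul_le_mul (hθ2 (e k)) (hθ3 (e k)) hR.k0.le (hR.k0.le.trans (hθ2 (e k)))
    nlinarith [sq_nonneg κ]
  · intro ε G hε hε4 hG
    have h5 := h1 d ε κ η ρ δ G N r0 J om tau hε hε4 hG hR hδ ⟨ho, hs, ht, hq⟩
    refine le_of_eq_of_le ?_ h5
    congr 1
    funext w
    congr 2
    funext u v
    congr 1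
    have h6 : Mh (fun k => (c (e k), tau (e k).1 * (c0 * tau (e k).2.1),
        tau (e k).1 * (c0 * tau (e k).2.2), θ (e k))) G w =
        ∑ i, f i • OM (tau i) (fun x => (DP G ρ c0 om tau x).comp (DP G ρ c0 om tau x)) w := by
      simp only [Mh, hθ4 _ d ε G hε hG]
      rw [e.sum_comp (fun t => c t • OM (tau t.1)
        (fun x => (Hb G (c0 * tau t.2.1) x).comp (Hb G (c0 * tau t.2.2) x)) w)]
      simp only [Fintype.sum_prod_type]
      refine Finset.sum_congr rfl fun i _ => ?_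
      have := omS hε (hHb d ε G hε hG) b (fun j => c0 * tau j) (tau i) w
      simp only [DP]
      rw [this]
      simp only [Finset.smul_sum, smul_smul, hc]
    rw [h6, ContinuousLinearMap.sum_apply, inner_sum]
    refine Finset.sum_congr rfl fun i _ => ?_
    rw [ContinuousLinearMap.smul_apply, real_inner_smul_right]

end Vale.Agent.P347
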