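import Vale.Agent.P347.Spec

open MeasureTheory ProbabilityTheory Finset
open scoped RealInnerProductSpace ENNReal

namespace Vale.Agent.P347

namespace OUm

variable {d : ℕ}

lemma lipc {X Y : Type} [NormedAddCommGroup X] [NormedAddCommGroup Y] {K : ℝ} {F : X → Y}
    (h : LipF K F) : Continuous F :=
  (LipschitzWith.of_dist_le' (K := K) fun x y => by simpa [dist_eq_norm] using h x y).continuous

lemma mem {K : ℝ} {Φ : E d → E d} (h : LipF K Φ) (x : E d) (s : ℝ) :
    MemLp (fun g => Φ (x + s • g)) 2 (gs d) := by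
  have c := lipc h
  have b0 : MemLp (fun g : E d => ‖g‖) 2 (gs d) := (IsGaussian.memLp_two_id (μ := gs d)).norm
  have b : MemLp (fun g : E d => ‖Φ x‖ + |K| * |s| * ‖g‖) 2 (gs d) :=
    (memLp_const ‖Φ x‖).add (b0.const_mul (|K| * |s|))
  refine b.mono' (by fun_prop) (Filter.Eventually.of_forall fun g => ?_)
  have e := h (x + s • g) x
  rw [add_sub_cancel_left, norm_smul, Real.norm_eq_abs] at e
  have e2 := norm_le_insert' (Φ (x + s • g)) (Φ x)
  have e3 : K * (|s| * ‖g‖) ≤ |K| * (|s| * ‖g‖) := by gcongr; exact le_abs_self K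
  linarith

lemma mem0 {K : ℝ} {Φ : E d → E d} (h : LipF K Φ) : MemLp Φ 2 (gs d) := by
  simpa using mem h 0 1

lemma int1 {K : ℝ} {Φ : E d → E d} (h : LipF K Φ) (x : E d) (s : ℝ) :
    Integrable (fun g => Φ (x + s • g)) (gs d) := (mem h x s).integrable one_le_two

lemma sg_sq {τ : ℝ} (h : τ ^ 2 ≤ 1) : sg τ ^ 2 = 1 - τ ^ 2 := Real.sq_sqrt (by linarith)

lemma sg_le (τ : ℝ) : sg τ ≤ 1 := Real.sqrt_le_one.2 (by nlinarith [sq_nonneg τ])

lemma sg0 (τ : ℝ) : 0 ≤ sg τ := Real.sqrt_nonneg _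

lemma lip {K τ : ℝ} {Φ : E d → E d} (hK : 0 ≤ K) (hτ : τ ^ 2 ≤ 1) (h : LipF K Φ) :
    LipF K (OU τ Φ) := by
  intro x y
  unfold OU
  rw [← integral_sub (int1 h _ _) (int1 h _ _)]
  have a : |τ| ≤ 1 := by rwa [← sq_le_one_iff_abs_le_one]
  refine (norm_integral_le_of_norm_le_const (C := K * ‖x - y‖)
    (Filter.Eventually.of_forall fun g => (h _ _).trans ?_)).trans (by simp)
  rw [add_sub_add_right_eq_sub, ← smul_sub, norm_smul, Real.norm_eq_abs]
  gcongr
  exact mul_le_of_le_one_left (norm_nonneg _) a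

lemma mp (h2 : Gau2 d) {τ : ℝ} (hτ : τ ^ 2 ≤ 1) :
    MeasurePreserving (fun p : E d × E d => τ • p.1 + sg τ • p.2) ((gs d).prod (gs d)) (gs d) :=
  ⟨by fun_prop, by rw [h2.sum, sg_sq hτ]; simp⟩

lemma semi (h2 : Gau2 d) {K τ τ' : ℝ} {Φ : E d → E d} (hτ : τ ^ 2 ≤ 1) (hτ' : τ' ^ 2 ≤ 1)
    (h : LipF K Φ) : OU τ (OU τ' Φ) = OU (τ * τ') Φ := by
  funext w
  have c := lipc h
  have e : √((τ' * sg τ) ^ 2 + sg τ' ^ 2) = sg (τ * τ') := by
    rw [mul_pow, sg_sq hτ, sg_sq hτ', sg]; congr 1; ring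
  have s := h2.sum (τ' * sg τ) (sg τ')
  rw [e] at s
  have c1 : Continuous fun y : E d => Φ ((τ * τ') • w + y) := by fun_prop
  have m1 : Measurable fun p : E d × E d => (τ' * sg τ) • p.1 + sg τ' • p.2 := by fun_prop
  have m2 : Measurable fun x : E d => sg (τ * τ') • x := by fun_prop
  have i1 : Integrable (fun y : E d => Φ ((τ * τ') • w + y))
      (((gs d).prod (gs d)).map fun p => (τ' * sg τ) • p.1 + sg τ' • p.2) := by
    rw [s, integrable_map_measure c1.aestronglyMeasurable m2.aemeasurable]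
    exact int1 h _ _
  rw [integrable_map_measure c1.aestronglyMeasurable m1.aemeasurable] at i1
  have i2 := integral_map (μ := (gs d).prod (gs d)) m1.aemeasurable c1.aestronglyMeasurable
  rw [s, integral_map m2.aemeasurable c1.aestronglyMeasurable] at i2
  unfold OU
  simp only [Function.comp_def] at i1
  rw [i2, integral_prod _ i1]
  congr 1; funext g; congr 1; funext g'; congr 1
  simp only [smul_add, smul_smul]
  rw [mul_comm τ' τ, add_assoc]

lemma contr (h2 : Gau2 d) {K τ : ℝ} {Φ : E d → E d} (hτ : τ ^ 2 ≤ 1) (h : LipF K Φ) :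
    eLpNorm (OU τ Φ) 2 (gs d) ≤ eLpNorm Φ 2 (gs d) := by
  have c := lipc h
  rw [eLpNorm_eq_lintegral_rpow_enorm_toReal two_ne_zero ENNReal.ofNat_ne_top,
    eLpNorm_eq_lintegral_rpow_enorm_toReal two_ne_zero ENNReal.ofNat_ne_top]
  refine ENNReal.rpow_le_rpow ?_ (by norm_num)
  have m : Measurable fun y : E d => ‖Φ y‖ₑ ^ (2 : ℝ≥0∞).toReal := by fun_prop
  rw [← (mp h2 hτ).lintegral_comp m, lintegral_prod _ (by fun_prop)]
  refine lintegral_mono fun w => ?_
  have a : ‖OU τ Φ w‖ₑ ≤ eLpNorm (fun g => Φ (τ • w + sg τ • g)) 2 (gs d) := by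
    refine (enorm_integral_le_lintegral_enorm _).trans ?_
    rw [← eLpNorm_one_eq_lintegral_enorm]
    exact eLpNorm_le_eLpNorm_of_exponent_le one_le_two (by fun_prop)
  rw [eLpNorm_eq_lintegral_rpow_enorm_toReal two_ne_zero ENNReal.ofNat_ne_top] at a
  refine (ENNReal.rpow_le_rpow a (by norm_num)).trans (le_of_eq ?_)
  rw [← ENNReal.rpow_mul]
  norm_num

lemma iin {X : Type} [MeasurableSpace X] {μ : Measure X} {f g : X → E d} (hf : MemLp f 2 μ)
    (hg : MemLp g 2 μ) : Integrable (fun x => ⟪f x, g x⟫) μ :=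
  (hf.norm.integrable_mul hg.norm).mono' (hf.1.inner hg.1)
    (Filter.Eventually.of_forall fun _ => norm_inner_le_norm _ _)

lemma symm (h2 : Gau2 d) {K K' τ : ℝ} {Φ Ψ : E d → E d} (hτ : τ ^ 2 ≤ 1) (h : LipF K Φ)
    (h' : LipF K' Ψ) : ∫ x, ⟪OU τ Φ x, Ψ x⟫ ∂gs d = ∫ x, ⟪Φ x, OU τ Ψ x⟫ ∂gs d := by
  have c := lipc h
  have c' := lipc h'
  have pf : MeasurePreserving Prod.fst ((gs d).prod (gs d)) (gs d) := measurePreserving_fst
  have i1 := iin ((mem0 h').comp_measurePreserving pf) ((mem0 h).comp_measurePreserving (mp h2 hτ))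
  have i2 := iin ((mem0 h).comp_measurePreserving pf) ((mem0 h').comp_measurePreserving (mp h2 hτ))
  have cF : Continuous fun q : E d × E d => ⟪Ψ q.1, Φ q.2⟫ := by fun_prop
  have s := congrArg (fun μ => ∫ q : E d × E d, ⟪Ψ q.1, Φ q.2⟫ ∂μ) (h2.swap τ hτ)
  rw [integral_map (by fun_prop) cF.aestronglyMeasurable,
    integral_map (by fun_prop) cF.aestronglyMeasurable] at s
  simp only [Function.comp_def] at i1 i2
  calc _ = ∫ x, ∫ g, ⟪Ψ x, Φ (τ • x + sg τ • g)⟫ ∂gs d ∂gs d := by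
        congr 1; funext x
        rw [integral_inner (int1 h _ _), real_inner_comm]; rfl
    _ = ∫ p : E d × E d, ⟪Φ p.1, Ψ (τ • p.1 + sg τ • p.2)⟫ ∂(gs d).prod (gs d) := by
        rw [← integral_prod _ i1, s]
        simp only [real_inner_comm]
    _ = _ := by
        rw [integral_prod _ i2]
        congr 1; funext x
        exact integral_inner (int1 h' (τ • x) (sg τ)) (Φ x)

lemma gle {ε : ℝ} {G : E d → E d} (h : Nice ε G) (x : E d) : ‖G x‖ ≤ ε * (1 + ‖x‖) := by
  have a := h.lip x 0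
  have b := norm_le_insert' (G x) (G 0)
  rw [sub_zero] at a
  linarith [h.zero]

lemma nG (h1 : Gau1 d) {ε : ℝ} {G : E d → E d} (hd : 1 ≤ d) (hε : 0 ≤ ε) (h : Nice ε G) :
    eLpNorm G 2 (gs d) ≤ ENNReal.ofReal (2 * ε * √d) := by
  have m := mem0 h.lip
  rw [m.eLpNorm_eq_integral_rpow_norm two_ne_zero ENNReal.ofNat_ne_top]
  refine ENNReal.ofReal_le_ofReal ?_
  have hd' : (1 : ℝ) ≤ d := by exact_mod_cast hd
  have a : ∫ x, ‖G x‖ ^ (2 : ℝ≥0∞).toReal ∂gs d ≤ (2 * ε * √d) ^ 2 := by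
    have i := h1.i2 2
    refine (integral_mono_of_nonneg (g := fun x => 2 * ε ^ 2 + 2 * ε ^ 2 * ‖x‖ ^ 2)
      (Filter.Eventually.of_forall fun x => by positivity)
      ((integrable_const _).add (i.const_mul _))
      (Filter.Eventually.of_forall fun x => ?_)).trans ?_
    · have b := pow_le_pow_left₀ (norm_nonneg _) (gle h x) 2
      simp only [ENNReal.toReal_ofNat, Real.rpow_ofNat]
      nlinarith [mul_nonneg (sq_nonneg ε) (sq_nonneg (1 - ‖x‖))]
    · rw [integral_add (integrable_const _) (i.const_mul _), integral_const_mul _ fun x : E d => ‖x‖ ^ 2,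
        h1.m2, mul_pow (2 * ε),
        Real.sq_sqrt (by positivity)]
      simp only [integral_const, probReal_univ, smul_eq_mul, one_mul]
      nlinarith [sq_nonneg ε]
  refine (Real.rpow_le_rpow (integral_nonneg fun x => by positivity) a (by norm_num)).trans
    (le_of_eq ?_)
  simp only [ENNReal.toReal_ofNat]
  exact_mod_cast Real.pow_rpow_inv_natCast (x := 2 * ε * √d) (n := 2) (by positivity) two_ne_zero

lemma wsum {p : Par} (hp : p.Ok) {v : Fin p.J → E d} {B : ℝ} (hB : 0 ≤ B) (hv : ∀ j, ‖v j‖ ≤ B) :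
    ‖∑ j, p.om j • v j‖ ≤ B := by
  refine (norm_sum_le_of_le _ (n := fun j => p.om j * B) fun j _ => ?_).trans ?_
  · rw [norm_smul, Real.norm_of_nonneg (hp.1 j)]
    exact mul_le_mul_of_nonneg_left (hv j) (hp.1 j)
  · rw [← sum_mul]
    exact mul_le_of_le_one_left hB hp.2.1

lemma f1m (p : Par) {K : ℝ} {G : E d → E d} (h : LipF K G) (w : E d) :
    m1 p G w = ∑ j, p.om j • OU (p.tau j) G w := by
  unfold m1 F1 OU
  rw [integral_finsetSum (f := fun j ζ => p.om j • G (p.tau j • w + sg (p.tau j) • ζ)) _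
    fun j _ => (int1 h _ _).smul (p.om j)]
  simp only [integral_smul]

lemma f1s (hGC : StmtGC) {p : Par} {ε : ℝ} {G : E d → E d} (hp : p.Ok) (hε : 0 ≤ ε)
    (h : Nice ε G) (w : E d) : SG (be1 p G w) (4 * ε) := by
  have c := lipc h.lip
  have L : LipF ε (F1 p G w) := by
    intro x y
    unfold F1
    rw [← sum_sub_distrib]
    simp only [← smul_sub]
    refine wsum hp (by positivity) fun j => (h.lip _ _).trans ?_
    rw [add_sub_add_left_eq_sub, ← smul_sub, norm_smul, Real.norm_of_nonneg (sg0 _)]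
    gcongr
    exact mul_le_of_le_one_left (norm_nonneg _) (sg_le _)
  have cF := lipc L
  have m : Measurable fun ζ => m1 p G w - F1 p G w ζ := by fun_prop
  refine ⟨Measure.isProbabilityMeasure_map m.aemeasurable, fun u => ?_⟩
  unfold be1
  rw [lintegral_map (by fun_prop) m]
  have g := hGC d (ε * ‖u‖) (fun ζ => -⟪u, F1 p G w ζ⟫) (by positivity) fun x y => by
    rw [neg_sub_neg, ← inner_sub_right]
    refine (norm_inner_le_norm _ _).trans ?_
    rw [norm_sub_rev]
    have := L x y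
    calc _ ≤ ‖u‖ * (ε * ‖x - y‖) := by gcongr
      _ = _ := by ring
  rw [integral_neg, integral_inner ((mem0 L).integrable one_le_two)] at g
  refine le_trans (le_of_eq ?_) (g.trans (ENNReal.ofReal_le_ofReal (Real.exp_le_exp.2 ?_)))
  · congr 1; funext ζ
    rw [inner_sub_right]; congr 2; unfold m1; ring
  · nlinarith [sq_nonneg (ε * ‖u‖)]

end OUm

open OUm in
theorem stmtOU (h1 : StmtG1) (h2 : StmtG2) (hGC : StmtGC) : StmtOU := fun d =>
  { int := fun _ _ h x s => mem h x s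
    lip := fun _ _ _ hK hτ h => lip hK hτ h
    semi := fun _ _ _ _ hτ hτ' h => semi (h2 d) hτ hτ' h
    contr := fun _ _ _ hτ h => contr (h2 d) hτ h
    symm := fun _ _ _ _ _ hτ h h' => symm (h2 d) hτ h h'
    nG := fun _ _ hd hε h => nG (h1 d) hd hε h
    f1c := fun p G hG => by unfold F1; fun_prop
    f1g := fun p ε G hp hε h w ζ => by
      refine wsum hp (by positivity) fun j => (gle h _).trans ?_
      have a := norm_add_le (p.tau j • w) (sg (p.tau j) • ζ)
      rw [norm_smul, norm_smul, Real.norm_of_nonneg (hp.2.2 j).1,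
        Real.norm_of_nonneg (sg0 _)] at a
      have b := mul_le_of_le_one_left (norm_nonneg w) (hp.2.2 j).2
      have c := mul_le_of_le_one_left (norm_nonneg ζ) (sg_le (p.tau j))
      exact mul_le_mul_of_nonneg_left (by linarith) hε
    f1m := fun p _ _ h w => f1m p h w
    f1l := fun p ε G hp hε h x y => by
      rw [f1m p h.lip, f1m p h.lip, ← sum_sub_distrib]
      simp only [← smul_sub]
      exact wsum hp (by positivity) fun j =>
        lip hε (pow_le_one₀ (hp.2.2 j).1 (hp.2.2 j).2) h.lip x y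
    f1s := fun _ _ _ hp hε h w => f1s hGC hp hε h w }

end Vale.Agent.P347
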