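import Vale.Agent.P347.Spec2
import Vale.Agent.P347.OU

open MeasureTheory ProbabilityTheory Finset
open scoped RealInnerProductSpace ENNReal

namespace Vale.Agent.P347

namespace MQA1m

open OUm

variable {d : ℕ}

def Bd (f : E d → ℝ) (a : ℝ) : Prop :=
  Measurable f ∧ 0 ≤ a ∧ eLpNorm f 2 (gs d) ≤ ENNReal.ofReal a

theorem Bd.add {f g : E d → ℝ} {a b : ℝ} (h : Bd f a) (k : Bd g b) :
    Bd (fun w => f w + g w) (a + b) :=
  ⟨h.1.add k.1, add_nonneg h.2.1 k.2.1, by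
    rw [ENNReal.ofReal_add h.2.1 k.2.1]
    exact (eLpNorm_add_le h.1.aestronglyMeasurable k.1.aestronglyMeasurable one_le_two).trans
      (add_le_add h.2.2 k.2.2)⟩

theorem Bd.smul {f : E d → ℝ} {a c : ℝ} (h : Bd f a) (hc : 0 ≤ c) :
    Bd (fun w => c * f w) (c * a) :=
  ⟨h.1.const_mul c, mul_nonneg hc h.2.1, by
    rw [ENNReal.ofReal_mul hc]
    refine (eLpNorm_const_smul c f 2 (gs d)).trans_le ?_
    rw [Real.enorm_eq_ofReal hc]
    exact mul_le_mul_right h.2.2 _⟩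

theorem Bd.sum (s : Finset ℕ) {f : ℕ → E d → ℝ} {a : ℕ → ℝ} (h : ∀ r ∈ s, Bd (f r) (a r)) :
    Bd (fun w => ∑ r ∈ s, f r w) (∑ r ∈ s, a r) := by
  induction s using Finset.induction_on with
  | empty => exact ⟨by simp, by simp, by simp⟩
  | insert r s hr ih =>
    simp only [sum_insert hr]
    exact (h r (mem_insert_self _ _)).add (ih fun x hx => h x (mem_insert_of_mem hx))

theorem contr (h2 : Gau2 d) {τ a : ℝ} {f : E d → ℝ} (hτ : τ ^ 2 ≤ 1) (c : Continuous f) (ha : 0 ≤ a)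
    (h : eLpNorm f 2 (gs d) ≤ ENNReal.ofReal a) : Bd (fun w => ∫ g, f (τ • w + sg τ • g) ∂gs d) a := by
  refine ⟨(StronglyMeasurable.integral_prod_right (f := fun w g => f (τ • w + sg τ • g))
    (Continuous.stronglyMeasurable (by fun_prop))).measurable, ha, le_trans ?_ h⟩
  rw [eLpNorm_eq_lintegral_rpow_enorm_toReal two_ne_zero ENNReal.ofNat_ne_top,
    eLpNorm_eq_lintegral_rpow_enorm_toReal two_ne_zero ENNReal.ofNat_ne_top]
  refine ENNReal.rpow_le_rpow ?_ (by norm_num)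
  have m : Measurable fun y : E d => ‖f y‖ₑ ^ (2 : ℝ≥0∞).toReal := by fun_prop
  rw [← (mp h2 hτ).lintegral_comp m, lintegral_prod _ (by fun_prop)]
  refine lintegral_mono fun w => ?_
  have a : ‖∫ g, f (τ • w + sg τ • g) ∂gs d‖ₑ ≤ eLpNorm (fun g => f (τ • w + sg τ • g)) 2 (gs d) := by
    refine (enorm_integral_le_lintegral_enorm _).trans ?_
    rw [← eLpNorm_one_eq_lintegral_enorm]
    exact eLpNorm_le_eLpNorm_of_exponent_le one_le_two (by fun_prop)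
  rw [eLpNorm_eq_lintegral_rpow_enorm_toReal two_ne_zero ENNReal.ofNat_ne_top] at a
  refine (ENNReal.rpow_le_rpow a (by norm_num)).trans (le_of_eq ?_)
  rw [← ENNReal.rpow_mul]
  norm_num

theorem k2 {Y : Type} [NormedAddCommGroup Y] (g : E d → Y) {c : ℝ} (hc : 0 ≤ c) :
    eLpNorm g 2 (gs d) ≤ ENNReal.ofReal c ↔
      ∫⁻ x, ENNReal.ofReal (‖g x‖ ^ 2) ∂gs d ≤ ENNReal.ofReal (c ^ 2) := by
  rw [eLpNorm_eq_lintegral_rpow_enorm_toReal two_ne_zero ENNReal.ofNat_ne_top, ENNReal.toReal_ofNat, one_div,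
    ENNReal.rpow_inv_le_iff two_pos, ENNReal.ofReal_rpow_of_nonneg hc zero_le_two, Real.rpow_two]
  simp_rw [← ofReal_norm, ENNReal.ofReal_rpow_of_nonneg (norm_nonneg _) zero_le_two, Real.rpow_two]

theorem col {Q : Fin d → E d → E d} (hc : ∀ j, Continuous (Q j)) {c : ℝ} (c0 : 0 ≤ c)
    (h : ∀ j, eLpNorm (Q j) 2 (gs d) ≤ ENNReal.ofReal c) : Bd (fun w => √(∑ j, ‖Q j w‖ ^ 2)) (√d * c) := by
  refine ⟨Continuous.measurable (by fun_prop), by positivity, (k2 _ (by positivity)).2 ?_⟩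
  have e : ∀ w, ENNReal.ofReal (‖√(∑ j, ‖Q j w‖ ^ 2)‖ ^ 2) = ∑ j, ENNReal.ofReal (‖Q j w‖ ^ 2) := fun w => by
    rw [Real.norm_eq_abs, sq_abs, Real.sq_sqrt (by positivity),
      ENNReal.ofReal_sum_of_nonneg fun j _ => by positivity]
  simp_rw [e]
  rw [lintegral_finsetSum _ fun j _ => (Continuous.measurable (by fun_prop)).ennreal_ofReal]
  refine (sum_le_sum fun j _ => (k2 _ c0).1 (h j)).trans_eq ?_
  rw [mul_pow, Real.sq_sqrt (by positivity), ENNReal.ofReal_mul (by positivity)]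
  simp

theorem fq (Q : E d → E d) : (Fq fun u v => ⟪u, Q v⟫) = ∑ j, ‖Q (ee j)‖ ^ 2 := by
  rw [Fq, sum_comm]
  refine sum_congr rfl fun j _ => ?_
  rw [EuclideanSpace.real_norm_sq_eq]
  simp [ee, EuclideanSpace.inner_single_left]

theorem num {κ η ρ δ ε C1 C2 : ℝ} {N r0 : ℕ} (hR : Reg d κ η ρ N r0) (c1 : 1 ≤ C1) (c2 : 1 ≤ C2) (e0 : 0 ≤ ε)
    (δ0 : 0 ≤ δ) : ∑ k ∈ range N, (ρ ^ k) ^ 2 * (C1 * (1 - ρ ^ 2) * ε *
      (C2 * ε * √d * (κ ^ 2 + δ + ρ ^ (N - 1 - k)) + ε / κ * sg ρ * d)) + 3 * (√d * (δ * (ε * ε))) ≤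
      (3 * C1 * C2 + 3) * ε ^ 2 * √d * (κ ^ 2 + δ + η) := by
  have k0 := hR.k0
  have η0 := hR.e0
  have r1 := hR.r1
  have r2 := hR.r2
  have ρ0 : 0 < ρ := by linarith
  have d1 : 1 ≤ d := one_le_two.trans hR.d2
  have q1 : ρ ^ 2 ≤ 1 := pow_le_one₀ ρ0.le r2.le
  have D1 : (1 : ℝ) ≤ d := by exact_mod_cast d1
  have s1 : 1 ≤ √(d : ℝ) := Real.one_le_sqrt.2 D1
  have a : sg ρ * d ≤ η * κ := by
    refine (pow_le_pow_iff_left₀ (by have := sg0 ρ; positivity) (by positivity) two_ne_zero).1 ?_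
    have f := hR.fine
    have b : (d : ℝ) ^ 2 ≤ d ^ 4 := pow_le_pow_right₀ D1 (by norm_num)
    have c : κ ^ 2 ≤ 1 / 4 := by nlinarith [hR.k1]
    rw [mul_pow, sg_sq q1]
    calc _ ≤ 2 * ((1 - ρ) * d ^ 2) := by nlinarith [mul_nonneg (sq_nonneg (1 - ρ)) (sq_nonneg (d : ℝ))]
      _ ≤ 2 * ((1 - ρ) * d ^ 4) := by gcongr
      _ ≤ _ := by nlinarith [mul_le_mul_of_nonneg_left c (sq_nonneg (η * κ))]
  have a' : ε / κ * sg ρ * d ≤ C2 * ε * √d * η := by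
    rw [mul_assoc, div_mul_eq_mul_div, div_le_iff₀ k0]
    calc _ ≤ 1 * ε * 1 * (η * κ) := by simpa using mul_le_mul_of_nonneg_left a e0
      _ ≤ C2 * ε * √d * (η * κ) := by gcongr
      _ = _ := by ring
  have h : (N : ℝ) * ρ ^ N ≤ η := le_trans (by gcongr <;> linarith) hR.hor
  have t : ∑ k ∈ range N, (ρ ^ k) ^ 2 * (C1 * (1 - ρ ^ 2) * ε * (C2 * ε * √d * (κ ^ 2 + δ + ρ ^ (N - 1 - k)) +
      ε / κ * sg ρ * d)) ≤ ∑ k ∈ range N, C1 * C2 * ε ^ 2 * √d *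
      (((ρ ^ k) ^ 2 - (ρ ^ (k + 1)) ^ 2) * (κ ^ 2 + δ + η) + 2 * ρ ^ N) := by
    refine sum_le_sum fun k hk => ?_
    have q0 := sub_nonneg.2 q1
    have b : (ρ ^ k) ^ 2 * (1 - ρ ^ 2) * ρ ^ (N - 1 - k) ≤ 2 * ρ ^ N := by
      have e : ρ ^ N = ρ ^ k * ρ ^ (N - 1 - k) * ρ := by
        rw [← pow_add, ← pow_succ]
        congr 1
        have := mem_range.1 hk
        omega
      calc _ ≤ ρ ^ k * 1 * ρ ^ (N - 1 - k) := by
            gcongr
            · exact pow_le_of_le_one (by positivity) (pow_le_one₀ ρ0.le r2.le) two_ne_zero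
            · nlinarith
        _ ≤ _ := by
            rw [e]
            nlinarith [show 0 ≤ ρ ^ k * ρ ^ (N - 1 - k) by positivity]
    have b' := mul_le_mul_of_nonneg_left b (show 0 ≤ C1 * C2 * ε ^ 2 * √d by positivity)
    have a'' := mul_le_mul_of_nonneg_left a' (show 0 ≤ (ρ ^ k) ^ 2 * (C1 * (1 - ρ ^ 2) * ε) by positivity)
    rw [pow_succ ρ k]
    linarith
  rw [← mul_sum, sum_add_distrib, ← sum_mul, sum_range_sub' fun k => (ρ ^ k) ^ 2, sum_const, card_range,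
    nsmul_eq_mul] at t
  have u : ((ρ ^ 0) ^ 2 - (ρ ^ N) ^ 2) * (κ ^ 2 + δ + η) + N * (2 * ρ ^ N) ≤ 3 * (κ ^ 2 + δ + η) := by
    have := mul_nonneg (sq_nonneg (ρ ^ N)) (show 0 ≤ κ ^ 2 + δ + η by positivity)
    simp only [pow_zero]
    nlinarith [sq_nonneg κ]
  have u' := mul_le_mul_of_nonneg_left u (show 0 ≤ C1 * C2 * ε ^ 2 * √d by positivity)
  have v : 0 ≤ ε ^ 2 * √d * (κ ^ 2 + η) := by positivity
  linarith

end MQA1m

open MQA1m OUm

theorem stmtMQA1 (_h1 : StmtG1) (h2 : StmtG2) (hOU : StmtOU) (hFo : StmtFo) (hCovR : StmtCovR)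
    (hDPh : StmtDPh) (hCov1 : StmtCov1) : StmtMQA1 := by
  obtain ⟨C2, c2, hD⟩ := hDPh
  obtain ⟨C1, c1, hC⟩ := hCov1
  refine ⟨3 * C1 * C2 + 3, by nlinarith, fun d ε κ η ρ δ G N r0 J om tau e0 e1 hG hR δ0 hQ => ?_⟩
  obtain ⟨Dn, Dl, Ds, hP⟩ := hD d ε κ η ρ δ G N r0 J om tau e0 e1 hG hR δ0 hQ
  generalize DP G ρ (ρ ^ r0) om tau = D at *
  have k0 := hR.k0
  have η0 := hR.e0
  have r1 := hR.r1
  have r2 := hR.r2
  have ρ0 : 0 < ρ := by linarith
  have d1 : 1 ≤ d := one_le_two.trans hR.d2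
  have p1 : ∀ k, (ρ ^ k) ^ 2 ≤ 1 := fun k => pow_le_one₀ (by positivity) (pow_le_one₀ ρ0.le r2.le)
  have q1 : ρ ^ 2 ≤ 1 := by simpa using p1 1
  have hV := hCovR d ε ρ G d1 e0 e1 r1 r2 hG
  have cD := lipc Dl
  obtain ⟨Φ, hΦ⟩ : ∃ Φ : E d → E d → E d, Φ = fun v x => D x (D x v) := ⟨_, rfl⟩
  have nD : ∀ x v, ‖D x v‖ ≤ ε * ‖v‖ := fun x v => (D x).le_of_opNorm_le (Dn x) v
  have L : ∀ v, LipF (2 * ε * (ε / κ) * ‖v‖) (Φ v) := fun v x y => by
    have a := nD x ((D x - D y) v)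
    have b := (D x - D y).le_of_opNorm_le_of_le (Dl x y) (nD y v)
    have c := mul_le_mul_of_nonneg_left ((D x - D y).le_of_opNorm_le (Dl x y) v) e0
    rw [show Φ v x - Φ v y = D x ((D x - D y) v) + (D x - D y) (D y v) by simp [hΦ]]
    refine (norm_add_le _ _).trans ?_
    linarith
  have LO : ∀ v τ, τ ^ 2 ≤ 1 → LipF _ (OU τ (Φ v)) := fun v τ h => (hOU d).lip _ τ _ (by positivity) h (L v)
  have eO : ∀ τ y v, OM τ (fun x => (D x).comp (D x)) y v = OU τ (Φ v) y := fun τ y v => by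
    rw [OM, ContinuousLinearMap.integral_apply, hΦ]
    · rfl
    · refine (integrable_const (ε * ε)).mono' (Continuous.aestronglyMeasurable (by fun_prop))
        (ae_of_all _ fun g => ((D _).opNorm_comp_le _).trans ?_)
      exact mul_le_mul (Dn _) (Dn _) (norm_nonneg _) e0
  obtain ⟨R, hRe⟩ : ∃ R : ℕ → E d → E d → E d → ℝ, R = fun k y u v => cv1 (Ph G ρ (N - 1 - k)) ρ y u v -
    (1 - ρ ^ 2) * ⟪u, OM ρ (fun x => (D x).comp (D x)) y v⟫ := ⟨_, rfl⟩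
  have cR : ∀ k u v, Continuous fun y => R k y u v := fun k u v => by
    simp only [hRe, eO]
    exact ((hV u v).1 _).1.sub (continuous_const.mul (continuous_const.inner (lipc (LO v ρ q1))))
  have i1 : ∀ n (x : E d) (s : ℝ) u v, Integrable (fun g => cv1 (Ph G ρ n) ρ (x + s • g) u v) (gs d) :=
    fun n x s u v => by
      obtain ⟨c, b, hb⟩ := (hV u v).1 n
      exact (integrable_const b).mono' (c.comp (by fun_prop)).aestronglyMeasurable (ae_of_all _ fun g => hb _)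
  have i2 : ∀ (x : E d) (s : ℝ) (u v : E d), Integrable (fun g => (1 - ρ ^ 2) * ⟪u, OU ρ (Φ v) (x + s • g)⟫) (gs d) :=
    fun x s u v => ((int1 (LO v ρ q1) x s).const_inner u).const_mul _
  obtain ⟨Q, hQe⟩ : ∃ Q : E d → E d → E d, Q = fun v w =>
    ∑ r ∈ range N, (aw ρ r * (ρ ^ (r + 1)) ^ 1) • OU (ρ ^ (r + 1)) (Φ v) w -
      ∑ j, (om j * tau j ^ 1) • OU (tau j) (Φ v) w := ⟨_, rfl⟩
  have key : ∀ w, (fun u v => Cv (al0 G ρ N w) u v - ∑ i, (1 + ρ) / ρ * (om i * tau i) *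
      ⟪u, OM (tau i) (fun x => (D x).comp (D x)) w v⟫) = fun u v => (∑ k ∈ range N, (ρ ^ k) ^ 2 *
      ∫ g, R k (ρ ^ k • w + sg (ρ ^ k) • g) u v ∂gs d) + (1 + ρ) / ρ * ⟪u, Q v w⟫ := fun w => by
    funext u v
    simp only [hQe, hRe, eO, inner_sub_right, inner_sum, inner_smul_right, mul_sub ((1 + ρ) / ρ), mul_sum,
      pow_one, mul_assoc ((1 + ρ) / ρ)]
    rw [(hV u v).2, ← add_sub_assoc, ← sum_add_distrib]
    congr 1
    refine sum_congr rfl fun k _ => ?_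
    rw [integral_sub (i1 _ _ _ u v) (i2 _ _ u v), integral_const_mul, integral_inner (int1 (LO v ρ q1) _ _),
      pow_succ ρ k, ← (hOU d).semi _ _ _ _ (p1 k) q1 (L v), OU.eq_1 (ρ ^ k), aw]
    field_simp
    ring
  have B1 := Bd.sum (range N) fun k _ => (contr (h2 d) (p1 k) (f := fun y => √(Fq (R k y)))
    (a := C1 * (1 - ρ ^ 2) * ε * (C2 * ε * √d * (κ ^ 2 + δ + ρ ^ (N - 1 - k)) + ε / κ * sg ρ * d)) (by
      unfold Fq
      fun_prop) (by have := sg0 ρ; have := sub_nonneg.2 q1; positivity) (by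
      obtain ⟨a, b, c⟩ := hP (N - 1 - k) (by omega)
      rw [hRe]
      exact hC d ε (ε / κ) ρ _ _ D e0 (by positivity) (by positivity) q1 a b Dn Dl Ds c)).smul
      (sq_nonneg (ρ ^ k))
  have B2 := (col (Q := fun j => Q (ee j)) (c := δ * (ε * ε)) (fun j => by
      rw [hQe]
      exact (continuous_finsetSum _ fun r _ => (lipc (LO _ _ (p1 _))).const_smul (aw ρ r * (ρ ^ (r + 1)) ^ 1)).sub
        (continuous_finsetSum _ fun i _ => (lipc (LO _ _ (pow_le_one₀ (hQ.2.2.1 i).1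
          (hQ.2.2.1 i).2))).const_smul (om i * tau i ^ 1))) (by positivity) fun j => by
      rw [hQe, ENNReal.ofReal_mul δ0]
      refine (hQ.2.2.2 1 le_rfl d _ _ (L (ee j))).trans (mul_le_mul_right ?_ _)
      refine (eLpNorm_le_of_ae_bound (C := ε * ε) (ae_of_all _ fun x => ?_)).trans_eq (by simp)
      have := mul_le_mul_of_nonneg_left (nD x (ee j)) e0
      rw [show ‖ee j‖ = 1 by simp [ee], mul_one] at this
      rw [hΦ]
      exact (nD _ _).trans this).smul (show (0 : ℝ) ≤ 3 by norm_num)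
  refine (eLpNorm_mono_real fun w => ?_).trans ((B1.add B2).2.2.trans (ENNReal.ofReal_le_ofReal ?_))
  · rw [key, Real.norm_of_nonneg (Real.sqrt_nonneg _)]
    refine ((hFo d).tri _ _).trans (add_le_add (((hFo d).sum ℕ (range N) fun k u v => (ρ ^ k) ^ 2 *
      ∫ g, R k (ρ ^ k • w + sg (ρ ^ k) • g) u v ∂gs d).trans (sum_le_sum fun k _ => ?_)) ?_)
    · rw [(hFo d).smul, abs_of_nonneg (sq_nonneg _)]
      refine mul_le_mul_of_nonneg_left ((hFo d).jen _ (gs d) (fun g => R k (ρ ^ k • w + sg (ρ ^ k) • g))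
        fun u v => ?_) (sq_nonneg _)
      simp only [hRe, eO]
      exact (i1 _ _ _ u v).sub (i2 _ _ u v)
    · rw [(hFo d).smul, fq fun v => Q v w, abs_of_nonneg (by positivity)]
      gcongr
      rw [div_le_iff₀ ρ0]
      linarith
  exact num hR c1 c2 e0 δ0

end Vale.Agent.P347
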