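import Vale.Agent.P347.Spec2

open MeasureTheory ProbabilityTheory Finset
open scoped RealInnerProductSpace ENNReal

namespace Vale.Agent.P347

namespace MQBm

variable {d : ℕ}

theorem nD {ε : ℝ} {G : E d → E d} (hε : 0 ≤ ε) (hG : Nice ε G) (q : E d) : ‖fderiv ℝ G q‖ ≤ ε :=
  norm_fderiv_le_of_lip' ℝ hε (.of_forall fun y => hG.lip y q)

theorem cH {ε : ℝ} {G : E d → E d} (hG : Nice ε G) (a : ℝ × ℝ × ℝ × ℝ) (w : E d) :
    Continuous (HH G a w) := by
  have := hG.c1.continuous_fderiv one_ne_zero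
  unfold HH qa qb
  fun_prop

theorem nH {ε : ℝ} {G : E d → E d} (hε : 0 ≤ ε) (hG : Nice ε G) (a : ℝ × ℝ × ℝ × ℝ) (w : E d)
    (z : E d × E d × E d) : ‖HH G a w z‖ ≤ |a.1| * (ε * ε) := by
  rw [HH, norm_smul, Real.norm_eq_abs]
  exact mul_le_mul_of_nonneg_left ((ContinuousLinearMap.opNorm_comp_le _ _).trans
    (mul_le_mul (nD hε hG _) (nD hε hG _) (norm_nonneg _) hε)) (abs_nonneg _)

theorem iH {ε : ℝ} {G : E d → E d} (hε : 0 ≤ ε) (hG : Nice ε G) (a : ℝ × ℝ × ℝ × ℝ) (w : E d) :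
    Integrable (HH G a w) (g3 d) :=
  .of_bound (cH hG a w).aestronglyMeasurable _ (.of_forall (nH hε hG a w))

theorem inH {ε : ℝ} {G : E d → E d} (hε : 0 ≤ ε) (hG : Nice ε G) (a : ℝ × ℝ × ℝ × ℝ)
    (w u v : E d) : ⟪u, (∫ z, HH G a w z ∂g3 d) v⟫ =
      a.1 * hh G u v (a.2.1 • w) (a.2.2.1 • w) (sg a.2.1) (sg a.2.2.1) a.2.2.2 := by
  rw [ContinuousLinearMap.integral_apply (iH hε hG a w),
    ← integral_inner ((iH hε hG a w).apply_continuousLinearMap v), hh, ← integral_const_mul]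
  refine integral_congr_ae (.of_forall fun z => ?_)
  simp [HH, inner_smul_right]

theorem sg_le (τ : ℝ) : 0 ≤ sg τ ∧ sg τ ≤ 1 :=
  ⟨Real.sqrt_nonneg _, Real.sqrt_le_one.2 (by nlinarith)⟩

end MQBm

open MQBm in
theorem stmtMQB (hS1 : StmtS1) (hCI : StmtCI) (hFo : StmtFo) (hMQB1 : StmtMQB1) : StmtMQB := by
  obtain ⟨C, C1, hM⟩ := hMQB1
  refine ⟨C, C1, fun d κ η ρ δ N r0 p hR hδ hQ => ?_⟩
  obtain ⟨o0, o1, t0, -⟩ := id hQ
  obtain ⟨c, hc⟩ : ∃ c, c = (ρ ^ r0) ^ 2 := ⟨_, rfl⟩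
  have c0 : 0 ≤ c := hc ▸ sq_nonneg _
  have c1 : c ≤ 1 - κ ^ 2 := hc ▸ hR.lo
  have k0 := hR.k0
  have k1 := hR.k1
  have o2 : ∀ j, p.om j ≤ 1 := fun j =>
    (single_le_sum (fun i _ => o0 i) (mem_univ j)).trans o1
  have o3 : 0 ≤ ∑ j, p.om j := sum_nonneg fun j _ => o0 j
  let e : Fin p.J × Fin p.J × Fin p.J ≃ Fin (p.J ^ 3) :=
    Fintype.equivFinOfCardEq (by simp [pow_succ, mul_assoc])
  let f : Fin p.J × Fin p.J × Fin p.J → ℝ × ℝ × ℝ × ℝ := fun x =>
    (-(p.om x.1 * p.om x.2.1 * (sg (p.tau x.1) * sg (p.tau x.2.1)) * (c * p.om x.2.2)),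
      p.tau x.1, p.tau x.2.1, Real.arcsin √(c * p.tau x.2.2))
  have fa : ∀ x, |(f x).1| =
      p.om x.1 * p.om x.2.1 * (sg (p.tau x.1) * sg (p.tau x.2.1)) * (c * p.om x.2.2) := fun x => by
    have := o0 x.1
    have := o0 x.2.1
    have := o0 x.2.2
    have := (sg_le (p.tau x.1)).1
    have := (sg_le (p.tau x.2.1)).1
    simp only [f, abs_neg]
    exact abs_of_nonneg (by positivity)
  have cc : c ≤ 1 := by nlinarith
  refine ⟨fun k => f (e.symm k), ⟨?_, fun k => ⟨?_, ?_⟩⟩, fun ε G e0 hG w => ?_⟩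
  · rw [e.symm.sum_comp fun x => |(f x).1|]
    calc _ ≤ ∑ x : Fin p.J × Fin p.J × Fin p.J, p.om x.1 * (p.om x.2.1 * p.om x.2.2) := by
          refine sum_le_sum fun x _ => ?_
          have := o0 x.1
          have := o0 x.2.1
          have := o0 x.2.2
          obtain ⟨a1, a2⟩ := sg_le (p.tau x.1)
          obtain ⟨a3, a4⟩ := sg_le (p.tau x.2.1)
          rw [fa]
          calc _ ≤ p.om x.1 * p.om x.2.1 * (1 * 1) * (1 * p.om x.2.2) := by gcongr
            _ = _ := by ring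
      _ = (∑ j, p.om j) * ((∑ j, p.om j) * ∑ j, p.om j) := by
          simp only [Fintype.sum_prod_type, ← mul_sum, ← sum_mul]
      _ ≤ 1 * (1 * 1) := by gcongr
      _ = 1 := by ring
  · obtain ⟨a1, a2⟩ := t0 (e.symm k).2.2
    simp only [f]
    rw [Real.cos_arcsin, Real.sq_sqrt (by positivity)]
    exact Real.le_sqrt_of_sq_le (by nlinarith)
  · have := o0 (e.symm k).1
    have := o0 (e.symm k).2.1
    have := o0 (e.symm k).2.2
    have a1 := (sg_le (p.tau (e.symm k).1)).1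
    have a3 := (sg_le (p.tau (e.symm k).2.1)).1
    have k2 : κ ^ 2 ≤ 1 := by nlinarith
    rw [fa]
    calc _ ≤ 1 * (1 * 1 * (sg (p.tau (e.symm k).1) * sg (p.tau (e.symm k).2.1)) * (1 * 1)) := by
          gcongr <;> exact o2 _
      _ ≤ _ := by
          have := mul_nonneg a1 a3
          simp only [f]; linarith
  · let B : Fin p.J × Fin p.J → E d → E d → ℝ := fun x u v =>
      (∫ φ in (0 : ℝ)..(Real.pi / 2), 2 * Real.sin φ * Real.cos φ *
        hh G u v (p.tau x.1 • w) (p.tau x.2 • w) (sg (p.tau x.1)) (sg (p.tau x.2)) φ) -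
      ∑ i, (ρ ^ r0) ^ 2 * p.om i * hh G u v (p.tau x.1 • w) (p.tau x.2 • w) (sg (p.tau x.1))
        (sg (p.tau x.2)) (Real.arcsin √((ρ ^ r0) ^ 2 * p.tau i))
    have h1 : (fun u v => Cv (be1 p G w) u v + ⟪u, Mh (fun k => f (e.symm k)) G w v⟫) =
        fun u v => ∑ x : Fin p.J × Fin p.J,
          p.om x.1 * p.om x.2 * (sg (p.tau x.1) * sg (p.tau x.2)) * B x u v := by
      funext u v
      rw [hS1 d ε G p w u v hG, Mh, e.symm.sum_comp fun x => ∫ z, HH G (f x) w z ∂g3 d,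
        ContinuousLinearMap.sum_apply, inner_sum]
      simp only [inH e0 hG, Fintype.sum_prod_type, ← sum_add_distrib, f, B, ← hc,
        (hCI d ε G u v _ _ _ _ hG).2, mul_sub, mul_sum]
      refine sum_congr rfl fun j _ => sum_congr rfl fun l _ => ?_
      rw [sub_eq_add_neg, ← sum_neg_distrib]
      congr 1
      · ring
      · exact sum_congr rfl fun i _ => by ring
    rw [h1]
    refine ((hFo d).sum _ _ _).trans ?_
    have K0 : 0 ≤ C * ε ^ 2 * √d * (κ ^ 2 + δ + η) := by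
      have := hR.e0
      have : 0 ≤ C := by linarith
      positivity
    calc _ ≤ ∑ x : Fin p.J × Fin p.J, p.om x.1 * p.om x.2 * (C * ε ^ 2 * √d * (κ ^ 2 + δ + η)) := by
          refine sum_le_sum fun x _ => ?_
          have := o0 x.1
          have := o0 x.2
          obtain ⟨a1, a2⟩ := sg_le (p.tau x.1)
          obtain ⟨a3, a4⟩ := sg_le (p.tau x.2)
          rw [(hFo d).smul, abs_of_nonneg (by positivity)]
          calc _ ≤ p.om x.1 * p.om x.2 * (1 * 1) * (C * ε ^ 2 * √d * (κ ^ 2 + δ + η)) := by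
                gcongr
                exact hM d ε κ η ρ δ G N r0 p.J p.om p.tau _ _ _ _ e0 hG hR hδ hQ
            _ = _ := by ring
      _ = (∑ j, p.om j) * (∑ j, p.om j) * (C * ε ^ 2 * √d * (κ ^ 2 + δ + η)) := by
          simp only [Fintype.sum_prod_type, ← mul_sum, ← sum_mul]
      _ ≤ 1 * 1 * (C * ε ^ 2 * √d * (κ ^ 2 + δ + η)) := by gcongr
      _ = _ := by ring

end Vale.Agent.P347
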