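import Vale.Agent.P347.Fo
import Vale.Agent.P347.B2a
import Vale.Agent.P347.OU

open MeasureTheory ProbabilityTheory Finset
open scoped RealInnerProductSpace ENNReal

namespace Vale.Agent.P347

noncomputable section

namespace MQB1m

variable {d : ℕ}

/-- bounded continuous -/
def BC {Y : Type} [NormedAddCommGroup Y] (ε : ℝ) (B : E d → Y) : Prop := Continuous B ∧ ∀ z, ‖B z‖ ≤ ε

def K3 (D : E d → E d →L[ℝ] E d) (B : E d → E d) (a b c : ℝ) : E d :=
  ∫ z, D z.1 (B (a • z.1 + b • z.2.1 + c • z.2.2)) ∂g3 d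

def KK (D : E d → E d →L[ℝ] E d) (B : E d → E d) (c : ℝ) : E d := K3 D B c (sg c) 0

lemma ibd {X Y : Type} [TopologicalSpace X] [MeasurableSpace X] [OpensMeasurableSpace X]
    [SecondCountableTopology X] [NormedAddCommGroup Y] {μ : Measure X} [IsFiniteMeasure μ]
    {F : X → Y} (hc : Continuous F) {b : ℝ} (hb : ∀ z, ‖F z‖ ≤ b) : Integrable F μ :=
  (integrable_const b).mono' hc.aestronglyMeasurable (Filter.Eventually.of_forall hb)

lemma nbd {X Y : Type} [MeasurableSpace X] [NormedAddCommGroup Y] [NormedSpace ℝ Y] {μ : Measure X}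
    [IsProbabilityMeasure μ] {F : X → Y} {b : ℝ} (hb : ∀ z, ‖F z‖ ≤ b) : ‖∫ z, F z ∂μ‖ ≤ b := by
  simpa using norm_integral_le_of_norm_le_const (μ := μ) (Filter.Eventually.of_forall hb)

variable {ε : ℝ} {D : E d → E d →L[ℝ] E d} {B : E d → E d}

lemma ap (hD : BC ε D) (x y : E d) : ‖D x y‖ ≤ ε * ‖y‖ :=
  ((D x).le_opNorm y).trans (mul_le_mul_of_nonneg_right (hD.2 x) (norm_nonneg _))

lemma e0 (hD : BC ε D) : 0 ≤ ε := (norm_nonneg _).trans (hD.2 0)

lemma ap2 (hD : BC ε D) (hB : BC ε B) (x y : E d) : ‖D x (B y)‖ ≤ ε ^ 2 :=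
  (ap hD x _).trans (by rw [sq]; exact mul_le_mul_of_nonneg_left (hB.2 y) (e0 hD))

lemma i3 (hD : BC ε D) (hB : BC ε B) (a b c : ℝ) :
    Integrable (fun z : E d × E d × E d => D z.1 (B (a • z.1 + b • z.2.1 + c • z.2.2))) (g3 d) := by
  have := hD.1
  have := hB.1
  exact ibd (by fun_prop) fun z => ap2 hD hB _ _

lemma pair2 (h2 : Gau2 d) (hD : BC ε D) (hB : BC ε B) {a1 a2 a3 b1 b2 b3 c1 c2 c3 : ℝ}
    (e1 : a1 ^ 2 + a2 ^ 2 + a3 ^ 2 = 1) (e2 : b1 ^ 2 + b2 ^ 2 + b3 ^ 2 = c1 ^ 2 + c2 ^ 2 + c3 ^ 2)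
    (e3 : a1 * b1 + a2 * b2 + a3 * b3 = c1) :
    ∫ z, D (a1 • z.1 + a2 • z.2.1 + a3 • z.2.2) (B (b1 • z.1 + b2 • z.2.1 + b3 • z.2.2)) ∂g3 d =
      K3 D B c1 c2 c3 := by
  have := hD.1
  have := hB.1
  have cF : Continuous fun q : E d × E d => D q.1 (B q.2) := by fun_prop
  have s := congrArg (fun μ => ∫ q : E d × E d, D q.1 (B q.2) ∂μ)
    (h2.pair a1 a2 a3 b1 b2 b3 1 0 0 c1 c2 c3 (by linarith) e2 (by linarith))
  rw [integral_map (by fun_prop) cF.aestronglyMeasurable,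
    integral_map (by fun_prop) cF.aestronglyMeasurable] at s
  simpa [K3] using s

lemma k3p (h2 : Gau2 d) (hD : BC ε D) (hB : BC ε B) (a : ℝ) {b c b' c' : ℝ}
    (e : b ^ 2 + c ^ 2 = b' ^ 2 + c' ^ 2) : K3 D B a b c = K3 D B a b' c' := by
  rw [← pair2 h2 hD hB (a1 := 1) (a2 := 0) (a3 := 0) (b1 := a) (b2 := b) (b3 := c) (c1 := a)
    (c2 := b') (c3 := c') (by norm_num) (by linarith) (by ring)]
  simp [K3]

lemma fub (hD : BC ε D) (hB : BC ε B) (a b c : ℝ) : K3 D B a b c =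
    ∫ z1, ∫ z2, D z1 (∫ z3, B (a • z1 + b • z2 + c • z3) ∂gs d) ∂gs d ∂gs d := by
  have := hD.1
  have := hB.1
  rw [K3, integral_prod _ (i3 hD hB a b c)]
  congr 1; funext z1
  rw [integral_prod _ (ibd (by fun_prop) fun z => ap2 hD hB _ _)]
  congr 1; funext z2
  exact (D z1).integral_comp_comm (ibd (by fun_prop) fun z => hB.2 _)

lemma kou (h2 : Gau2 d) (hD : BC ε D) (hB : BC ε B) (τ : ℝ) :
    KK D B τ = ∫ z, D z (OU τ B z) ∂gs d := by
  rw [KK, k3p h2 hD hB τ (b' := 0) (c' := sg τ) (by ring), fub hD hB]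
  simp [OU]

lemma kcont (hD : BC ε D) (hB : BC ε B) : Continuous (KK D B) := by
  have := hD.1
  have := hB.1
  refine continuous_of_dominated (bound := fun _ => ε ^ 2) (fun c => (i3 hD hB _ _ _).1)
    (fun c => Filter.Eventually.of_forall fun z => ap2 hD hB _ _) (integrable_const _)
    (Filter.Eventually.of_forall fun z => ?_)
  unfold sg
  fun_prop

lemma kbd (hD : BC ε D) (hB : BC ε B) (c : ℝ) : ‖KK D B c‖ ≤ ε ^ 2 := nbd fun _ => ap2 hD hB _ _

lemma lipB (h2 : Gau2 d) (hε : 0 ≤ ε) (hB : BC ε B) {c κ : ℝ} (c0 : 0 ≤ c) (c1 : c ≤ 1) (hκ : 0 < κ)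
    (hs : κ ≤ sg c) : LipF (2 * ε / κ) (OU c B) := by
  intro w w'
  have := hB.1
  set y := OU c B w - OU c B w' with hy
  have b : ∀ w, ‖OU c B w‖ ≤ ε := fun w => nbd fun _ => hB.2 _
  rcases hε.eq_or_lt with rfl | hε'
  · have := norm_sub_le (OU c B w) (OU c B w')
    have := b w
    have := b w'
    simp only [mul_zero, zero_div, zero_mul]
    linarith
  rcases (norm_nonneg y).eq_or_lt with y0 | y0
  · rw [← y0]; positivity
  have s := h2.shift (sg c) (c • w) (c • w') (fun z => ⟪y, B z⟫ / (ε * ‖y‖)) (by linarith)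
    (by fun_prop) fun z => by
      rw [abs_div, abs_of_pos (mul_pos hε' y0), div_le_one (mul_pos hε' y0), mul_comm]
      exact (abs_real_inner_le_norm _ _).trans (mul_le_mul_of_nonneg_left (hB.2 z) y0.le)
  have i : ∀ w : E d, ∫ g, ⟪y, B (c • w + sg c • g)⟫ / (ε * ‖y‖) ∂gs d = ⟪y, OU c B w⟫ / (ε * ‖y‖) :=
    fun w => by
      rw [integral_div, integral_inner (ibd (by fun_prop) fun z => hB.2 _)]; rfl
  rw [i, i, ← sub_div, ← inner_sub_right, ← hy, real_inner_self_eq_norm_sq, ← smul_sub, norm_smul,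
    Real.norm_of_nonneg c0, abs_of_nonneg (by positivity), div_le_iff₀ (by positivity)] at s
  have t : 2 * (c * ‖w - w'‖) / sg c ≤ 2 * ‖w - w'‖ / κ := by
    gcongr
    exact mul_le_of_le_one_left (norm_nonneg _) c1
  have u : ‖y‖ * ‖y‖ ≤ (2 * ε / κ * ‖w - w'‖) * ‖y‖ := by
    calc _ ≤ 2 * ‖w - w'‖ / κ * (ε * ‖y‖) := by
          rw [← sq]; exact s.trans (mul_le_mul_of_nonneg_right t (by positivity))
      _ = _ := by ring
  exact le_of_mul_le_mul_right u y0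

lemma ksemi (h2 : Gau2 d) (hD : BC ε D) (hB : BC ε B) {c c' : ℝ} (hΨ : BC ε (OU c B))
    (h : c ^ 2 ≤ 1) (h' : c' ^ 2 ≤ 1) : KK D B (c * c') = KK D (OU c B) c' := by
  have h3 : (c * c') ^ 2 ≤ 1 := by rw [mul_pow]; exact mul_le_one₀ h (sq_nonneg _) h'
  rw [KK, k3p h2 hD hB _ (b' := c * sg c') (c' := sg c) (by
    rw [mul_pow c (sg c'), OUm.sg_sq h, OUm.sg_sq h', OUm.sg_sq h3]; ring), fub hD hB, KK, fub hD hΨ]
  simp only [zero_smul, add_zero, integral_const, probReal_univ, one_smul, OU, smul_add, smul_smul]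

lemma near (h1 : Gau1 d) (h2 : Gau2 d) (hd : 1 ≤ d) (hD : BC ε D) (hB : BC ε B) {L c τ r : ℝ}
    (hL : 0 ≤ L) (hl : LipF L B) (c0 : 0 ≤ c) (c1 : c ≤ 1) (t0 : 0 ≤ τ) (t1 : τ ≤ 1) (r0 : 0 ≤ r)
    (hr : 1 - τ ≤ r ^ 2) (r1 : r ≤ 1) : ‖KK D B c - KK D B (c * τ)‖ ≤ ε * L * (4 * r * √d) := by
  have h : c ^ 2 ≤ 1 := pow_le_one₀ c0 c1
  have h' : τ ^ 2 ≤ 1 := pow_le_one₀ t0 t1
  have h3 : (c * τ) ^ 2 ≤ 1 := by rw [mul_pow]; exact mul_le_one₀ h (sq_nonneg _) h'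
  have ε0 := e0 hD
  rw [KK, KK, k3p h2 hD hB (c * τ) (b' := τ * sg c) (c' := sg τ) (by
    rw [mul_pow τ (sg c), OUm.sg_sq h, OUm.sg_sq h', OUm.sg_sq h3]; ring), K3, K3,
    ← integral_sub (i3 hD hB _ _ _) (i3 hD hB _ _ _)]
  have g := B2am.int_gs h1
  have j1 : Integrable (fun z : E d × E d × E d => ‖z.1‖) (g3 d) := g.comp_fst _
  have j2 : Integrable (fun z : E d × E d × E d => ‖z.2.1‖) (g3 d) := (g.comp_fst (gs d)).comp_snd _
  have j3 : Integrable (fun z : E d × E d × E d => ‖z.2.2‖) (g3 d) := (g.comp_snd (gs d)).comp_snd _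
  have s2 : sg τ ≤ 2 * r := by
    refine Real.sqrt_le_iff.2 ⟨by positivity, ?_⟩
    nlinarith
  have s3 : 1 - τ ≤ r := by nlinarith
  refine (norm_integral_le_of_norm_le (((j1.add j2).add (j3.const_mul 2)).const_mul (ε * L * r))
    (Filter.Eventually.of_forall fun z => ?_)).trans ?_
  · rw [← map_sub]
    refine (ap hD _ _).trans ?_
    rw [mul_assoc, mul_assoc]
    refine mul_le_mul_of_nonneg_left ((hl _ _).trans (mul_le_mul_of_nonneg_left ?_ hL)) ε0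
    have e : c • z.1 + sg c • z.2.1 + (0 : ℝ) • z.2.2 - ((c * τ) • z.1 + (τ * sg c) • z.2.1 + sg τ • z.2.2) =
        ((1 - τ) * c) • z.1 + ((1 - τ) * sg c) • z.2.1 - sg τ • z.2.2 := by module
    rw [e]
    refine (norm_sub_le _ _).trans ((add_le_add_left (norm_add_le _ _) _).trans ?_)
    have u0 : 0 ≤ 1 - τ := by linarith
    have u1 := OUm.sg0 c
    have u2 := OUm.sg_le c
    rw [norm_smul, norm_smul, norm_smul, Real.norm_of_nonneg (mul_nonneg u0 c0),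
      Real.norm_of_nonneg (mul_nonneg u0 u1), Real.norm_of_nonneg (OUm.sg0 τ)]
    have v1 : (1 - τ) * c ≤ r := by nlinarith
    have v2 : (1 - τ) * sg c ≤ r := by nlinarith
    have w1 := mul_le_mul_of_nonneg_right v1 (norm_nonneg z.1)
    have w2 := mul_le_mul_of_nonneg_right v2 (norm_nonneg z.2.1)
    have w3 := mul_le_mul_of_nonneg_right s2 (norm_nonneg z.2.2)
    simp only [Pi.add_apply]
    linarith
  · have m := B2am.m1_le h1 hd
    have q1 : ∫ z : E d × E d × E d, ‖z.1‖ ∂g3 d = ∫ x, ‖x‖ ∂gs d := by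
      rw [integral_prod _ j1]; simp
    have q2 : ∫ z : E d × E d × E d, ‖z.2.1‖ ∂g3 d = ∫ x, ‖x‖ ∂gs d := by
      rw [integral_prod _ j2]
      simp only [integral_const, probReal_univ, one_smul]
      rw [integral_prod _ (g.comp_fst (gs d))]; simp
    have q3 : ∫ z : E d × E d × E d, ‖z.2.2‖ ∂g3 d = ∫ x, ‖x‖ ∂gs d := by
      rw [integral_prod _ j3]
      simp only [integral_const, probReal_univ, one_smul]
      rw [integral_prod _ (g.comp_snd (gs d))]; simp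
    simp only [Pi.add_apply]
    have j12 : Integrable (fun z : E d × E d × E d => ‖z.1‖ + ‖z.2.1‖) (g3 d) := j1.add j2
    rw [integral_const_mul, integral_add j12 (j3.const_mul 2), integral_add j1 j2,
      integral_const_mul, q1, q2, q3]
    calc _ ≤ ε * L * r * (4 * √d) := mul_le_mul_of_nonneg_left (by linarith) (by positivity)
      _ = _ := by ring

lemma quad (h2 : Gau2 d) (hD : BC ε D) (hB : BC ε B) {L δ ρ : ℝ} {N J : ℕ} {om tau : Fin J → ℝ}
    (hL : 0 ≤ L) (hl : LipF L B) (hδ : 0 ≤ δ) (r0 : 0 ≤ ρ) (r1 : ρ ≤ 1) (hQ : QOk δ ρ N J om tau) :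
    ‖∑ r ∈ range N, aw ρ r • KK D B (ρ ^ (r + 1)) - ∑ j, om j • KK D B (tau j)‖ ≤ ε ^ 2 * δ := by
  have ε0 := e0 hD
  have cD := hD.1
  have q := hQ.2.2.2 0 zero_le_one d L B hl
  simp only [pow_zero, mul_one] at q
  have c : ∀ τ : ℝ, 0 ≤ τ → τ ≤ 1 → Continuous (OU τ B) := fun τ a b =>
    OUm.lipc (OUm.lip hL (pow_le_one₀ a b) hl)
  have c1 : ∀ r : ℕ, Continuous (OU (ρ ^ (r + 1)) B) := fun r => c _ (by positivity) (pow_le_one₀ r0 r1)
  have c2 : ∀ j, Continuous (OU (tau j) B) := fun j => c _ (hQ.2.2.1 j).1 (hQ.2.2.1 j).2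
  have b : ∀ τ w, ‖OU τ B w‖ ≤ ε := fun τ w => nbd fun _ => hB.2 _
  have i : ∀ τ, Continuous (OU τ B) → Integrable (OU τ B) (gs d) := fun τ h => ibd h (b τ)
  have i' : ∀ τ, Continuous (OU τ B) → Integrable (fun z => D z (OU τ B z)) (gs d) := fun τ h =>
    ibd (by fun_prop) fun z => (ap hD _ _).trans (mul_le_mul_of_nonneg_left (b τ z) ε0)
  set R := fun w => ∑ r ∈ range N, aw ρ r • OU (ρ ^ (r + 1)) B w - ∑ j, om j • OU (tau j) B w with hR
  have iR : Integrable R (gs d) :=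
    (integrable_finsetSum _ fun r _ => (i _ (c1 r)).smul (aw ρ r)).sub
      (integrable_finsetSum _ fun j _ => (i _ (c2 j)).smul (om j))
  have e : ∑ r ∈ range N, aw ρ r • KK D B (ρ ^ (r + 1)) - ∑ j, om j • KK D B (tau j) =
      ∫ z, D z (R z) ∂gs d := by
    simp only [hR, map_sub, map_sum, map_smul, kou h2 hD hB]
    have j1 : ∀ r ∈ range N, Integrable (fun z => aw ρ r • D z (OU (ρ ^ (r + 1)) B z)) (gs d) :=
      fun r _ => (i' _ (c1 r)).smul (aw ρ r)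
    have j2 : ∀ j ∈ (univ : Finset (Fin J)), Integrable (fun z => om j • D z (OU (tau j) B z)) (gs d) :=
      fun j _ => (i' _ (c2 j)).smul (om j)
    rw [integral_sub (integrable_finsetSum _ j1) (integrable_finsetSum _ j2),
      integral_finsetSum _ j1, integral_finsetSum _ j2]
    simp only [integral_smul]
  have n : ∫ z, ‖R z‖ ∂gs d ≤ δ * ε := by
    rw [← ENNReal.ofReal_le_ofReal_iff (by positivity), ofReal_integral_norm_eq_lintegral_enorm iR,
      ← eLpNorm_one_eq_lintegral_enorm, ENNReal.ofReal_mul hδ]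
    refine (eLpNorm_le_eLpNorm_of_exponent_le one_le_two iR.1).trans (q.trans ?_)
    gcongr
    simpa using eLpNorm_le_of_ae_bound (μ := gs d) (p := 2) (Filter.Eventually.of_forall hB.2)
  rw [e]
  refine (norm_integral_le_of_norm_le (iR.norm.const_mul ε)
    (Filter.Eventually.of_forall fun z => ap hD _ _)).trans ?_
  rw [integral_const_mul]
  nlinarith

lemma sub1 {K : ℝ → E d} (hK : Continuous K) :
    ∫ φ in (0 : ℝ)..(Real.pi / 2), (2 * Real.sin φ * Real.cos φ) • K (Real.sin φ ^ 2) =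
      ∫ c in (0 : ℝ)..1, K c := by
  have := intervalIntegral.integral_deriv_smul_comp (a := 0) (b := Real.pi / 2)
    (f := fun φ => Real.sin φ ^ 2) (f' := fun φ => 2 * Real.sin φ * Real.cos φ) (g := K)
    (fun x _ => by simpa using (Real.hasDerivAt_sin x).fun_pow 2) (by fun_prop) hK
  simpa using this

lemma riem {K : ℝ → E d} (hK : Continuous K) {c ρ e : ℝ} (c0 : 0 ≤ c) (r0 : 0 ≤ ρ) (r1 : ρ ≤ 1)
    (h : ∀ (r : ℕ) (t : ℝ), c * ρ ^ (r + 1) < t → t ≤ c * ρ ^ r → ‖K t - K (c * ρ ^ (r + 1))‖ ≤ e)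
    (N : ℕ) : ‖(∫ t in (c * ρ ^ N)..c, K t) - ∑ r ∈ range N, (c * aw ρ r) • K (c * ρ ^ (r + 1))‖ ≤
      e * (c - c * ρ ^ N) := by
  induction N with
  | zero => simp
  | succ N ih =>
    have le : c * ρ ^ (N + 1) ≤ c * ρ ^ N :=
      mul_le_mul_of_nonneg_left (pow_le_pow_of_le_one r0 r1 (Nat.le_succ N)) c0
    have s := intervalIntegral.norm_integral_le_of_norm_le_const (a := c * ρ ^ (N + 1)) (b := c * ρ ^ N)
      (f := fun t => K t - K (c * ρ ^ (N + 1))) (C := e) fun t ht => by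
        rw [Set.uIoc_of_le le] at ht; exact h N t ht.1 ht.2
    rw [intervalIntegral.integral_sub (hK.intervalIntegrable _ _) intervalIntegrable_const,
      intervalIntegral.integral_const, abs_of_nonneg (sub_nonneg.2 le),
      show c * ρ ^ N - c * ρ ^ (N + 1) = c * aw ρ N by rw [aw]; ring] at s
    rw [← intervalIntegral.integral_add_adjacent_intervals (b := c * ρ ^ N)
      (hK.intervalIntegrable _ _) (hK.intervalIntegrable _ _), sum_range_succ, add_comm (∑ r ∈ range N, _),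
      add_sub_add_comm]
    refine (norm_add_le _ _).trans ((add_le_add s ih).trans_eq ?_)
    rw [aw]; ring

lemma colm (h1 : Gau1 d) (h2 : Gau2 d) (hD : BC ε D) (hB : BC ε B) {κ η ρ δ : ℝ} {N r0 J : ℕ}
    {om tau : Fin J → ℝ} (hR : Reg d κ η ρ N r0) (hδ : 0 ≤ δ) (hQ : QOk δ ρ N J om tau) :
    ‖(∫ c in (0 : ℝ)..1, KK D B c) - ∑ i, ((ρ ^ r0) ^ 2 * om i) • KK D B ((ρ ^ r0) ^ 2 * tau i)‖ ≤
      9 * ε ^ 2 * (κ ^ 2 + δ + η) := by
  have ε0 := e0 hD
  have k0 := hR.k0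
  have η0 := hR.e0
  have ρ0 : 0 < ρ := by linarith [hR.r1]
  have ρ1 := hR.r2.le
  have d1 : 1 ≤ d := le_trans one_le_two hR.d2
  have d1' : (1 : ℝ) ≤ d := by exact_mod_cast d1
  have hi : 1 - 2 * κ ^ 2 ≤ (ρ ^ r0) ^ 2 := hR.hi.trans
    (pow_le_pow_left₀ (by positivity) (pow_le_pow_of_le_one ρ0.le ρ1 (Nat.le_succ _)) 2)
  have lo := hR.lo
  have c0 : 0 < (ρ ^ r0) ^ 2 := by positivity
  generalize (ρ ^ r0) ^ 2 = c at hi lo c0 ⊢
  have c1 : c ≤ 1 := by nlinarith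
  have c2 : c ^ 2 ≤ 1 := pow_le_one₀ c0.le c1
  have hl := lipB h2 ε0 hB c0.le c1 k0 (Real.le_sqrt_of_sq_le (by nlinarith))
  have L0 : 0 ≤ 2 * ε / κ := by positivity
  have hΨ : BC ε (OU c B) := ⟨OUm.lipc hl, fun w => nbd fun _ => hB.2 _⟩
  have kc := kcont hD hB
  have pN : ρ ^ N ≤ η := by
    have a : ρ ^ N ≤ ((1 + ρ) / 2) ^ N := pow_le_pow_left₀ ρ0.le (by linarith) N
    have b : 0 ≤ (N : ℝ) * ((1 + ρ) / 2) ^ N := by positivity
    have := hR.hor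
    linarith
  have pN1 : ρ ^ N ≤ 1 := pow_le_one₀ ρ0.le ρ1
  have pN0 : 0 < ρ ^ N := by positivity
  set r := √(1 - ρ) with hr
  have r2 : r ^ 2 = 1 - ρ := Real.sq_sqrt (by linarith)
  have r0' : 0 ≤ r := Real.sqrt_nonneg _
  have r1 : r ≤ 1 := Real.sqrt_le_one.2 (by linarith)
  have fine : r * √d ≤ η * κ ^ 2 := by
    refine le_of_sq_le_sq (le_trans ?_ hR.fine) (by positivity)
    rw [mul_pow, r2, Real.sq_sqrt (by linarith)]
    refine mul_le_mul_of_nonneg_left ?_ (by linarith)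
    simpa using pow_le_pow_right₀ d1' (show 1 ≤ 4 by norm_num)
  have eb : ε * (2 * ε / κ) * (4 * r * √d) ≤ 8 * ε ^ 2 * η := by
    have k1 := hR.k1
    calc _ = 8 * ε ^ 2 * (r * √d / κ) := by ring
      _ ≤ _ := by
        gcongr
        rw [div_le_iff₀ k0]
        nlinarith [mul_pos η0 k0]
  have a1 := riem kc c0.le ρ0.le ρ1 (e := 8 * ε ^ 2 * η) (fun n t t0 t1 => by
    have p0 : 0 < ρ ^ (n + 1) := by positivity
    have tp : 0 < t := (mul_pos c0 p0).trans t0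
    have u1 : t / c ≤ 1 := by
      rw [div_le_one c0]; exact t1.trans (mul_le_of_le_one_right c0.le (pow_le_one₀ ρ0.le ρ1))
    have u0 : 0 ≤ t / c := by positivity
    have v1 : c * ρ ^ (n + 1) / t ≤ 1 := (div_le_one tp).2 t0.le
    have v2 : ρ ≤ c * ρ ^ (n + 1) / t := by
      rw [le_div_iff₀ tp, pow_succ]; nlinarith
    have := near h1 h2 d1 hD hΨ L0 hl u0 u1 (by positivity) v1 r0' (by linarith) r1
    rw [← ksemi h2 hD hB hΨ c2 (pow_le_one₀ u0 u1), show t / c * (c * ρ ^ (n + 1) / t) = ρ ^ (n + 1) by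
      field_simp, ← ksemi h2 hD hB hΨ c2 (pow_le_one₀ p0.le (pow_le_one₀ ρ0.le ρ1)),
      show c * (t / c) = t by field_simp] at this
    exact this.trans eb) N
  have a2 := quad h2 hD hΨ L0 hl hδ ρ0.le ρ1 hQ
  have a3 : ‖∑ n ∈ range N, (c * aw ρ n) • KK D B (c * ρ ^ (n + 1)) -
      ∑ i, (c * om i) • KK D B (c * tau i)‖ ≤ ε ^ 2 * δ := by
    have e1 : ∀ n : ℕ, KK D B (c * ρ ^ (n + 1)) = KK D (OU c B) (ρ ^ (n + 1)) := fun n =>
      ksemi h2 hD hB hΨ c2 (pow_le_one₀ (by positivity) (pow_le_one₀ ρ0.le ρ1))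
    have e2 : ∀ i, KK D B (c * tau i) = KK D (OU c B) (tau i) := fun i =>
      ksemi h2 hD hB hΨ c2 (pow_le_one₀ (hQ.2.2.1 i).1 (hQ.2.2.1 i).2)
    simp only [e1, e2, mul_smul, ← smul_sum, ← smul_sub]
    rw [norm_smul, Real.norm_of_nonneg c0.le]
    exact (mul_le_of_le_one_left (norm_nonneg _) c1).trans a2
  have a4 := intervalIntegral.norm_integral_le_of_norm_le_const (a := 0) (b := c * ρ ^ N)
    (f := KK D B) fun t _ => kbd hD hB t
  have a5 := intervalIntegral.norm_integral_le_of_norm_le_const (a := c) (b := 1)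
    (f := KK D B) fun t _ => kbd hD hB t
  rw [sub_zero, abs_of_nonneg (by positivity)] at a4
  rw [abs_of_nonneg (by linarith)] at a5
  rw [← intervalIntegral.integral_add_adjacent_intervals (b := c) (kc.intervalIntegrable _ _)
    (kc.intervalIntegrable _ _), ← intervalIntegral.integral_add_adjacent_intervals (b := c * ρ ^ N)
    (kc.intervalIntegrable _ _) (kc.intervalIntegrable _ _)]
  generalize ∫ t in (0 : ℝ)..(c * ρ ^ N), KK D B t = x1 at a4 ⊢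
  generalize ∫ t in (c * ρ ^ N)..c, KK D B t = x2 at a1 ⊢
  generalize ∫ t in c..1, KK D B t = x3 at a5 ⊢
  generalize ∑ n ∈ range N, (c * aw ρ n) • KK D B (c * ρ ^ (n + 1)) = x4 at a1 a3
  generalize ∑ i, (c * om i) • KK D B (c * tau i) = x5 at a3 ⊢
  rw [show x1 + x2 + x3 - x5 = x1 + x3 + ((x2 - x4) + (x4 - x5)) by abel]
  have b1 := norm_add_le (x1 + x3) ((x2 - x4) + (x4 - x5))
  have b2 := norm_add_le x1 x3
  have b3 := norm_add_le (x2 - x4) (x4 - x5)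
  have s0 := sq_nonneg ε
  have f1 : ε ^ 2 * (c * ρ ^ N) ≤ ε ^ 2 * η := mul_le_mul_of_nonneg_left (by nlinarith) s0
  have f2 : ε ^ 2 * (1 - c) ≤ ε ^ 2 * (2 * κ ^ 2) := mul_le_mul_of_nonneg_left (by linarith) s0
  have f3 : 8 * ε ^ 2 * η * (c - c * ρ ^ N) ≤ 8 * ε ^ 2 * η :=
    mul_le_of_le_one_right (by positivity) (by nlinarith)
  have f4 : 0 ≤ ε ^ 2 * κ ^ 2 := by positivity
  have f5 : 0 ≤ ε ^ 2 * δ := by positivity
  nlinarith

end MQB1m

open MQB1m in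
theorem stmtMQB1 (h1 : StmtG1) (h2 : StmtG2) (_hOU : StmtOU) (_hFo : StmtFo) : StmtMQB1 := by
  refine ⟨9, by norm_num, fun d ε κ η ρ δ G N r0 J om tau x x' s s' hε hG hR hδ hQ => ?_⟩
  have cG : Continuous (fderiv ℝ G) := hG.c1.continuous_fderiv one_ne_zero
  have bG : ∀ y, ‖fderiv ℝ G y‖ ≤ ε := fun y =>
    norm_fderiv_le_of_lip' ℝ hε (Filter.Eventually.of_forall fun z => hG.lip z y)
  have hD : BC ε fun z => fderiv ℝ G (x + s • z) := ⟨by fun_prop, fun z => bG _⟩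
  have hB : ∀ k, BC ε fun z => fderiv ℝ G (x' + s' • z) (ee k) := fun k => ⟨by fun_prop, fun z => by
    simpa [Fom.ne] using ((fderiv ℝ G _).le_opNorm (ee k)).trans
      (mul_le_mul_of_nonneg_right (bG _) (norm_nonneg _))⟩
  obtain ⟨K, hK⟩ : ∃ K : Fin d → ℝ → E d, K = fun k =>
    KK (fun z => fderiv ℝ G (x + s • z)) (fun z => fderiv ℝ G (x' + s' • z) (ee k)) := ⟨_, rfl⟩
  have kc : ∀ k, Continuous (K k) := fun k => by rw [hK]; exact kcont hD (hB k)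
  have e1 : ∀ u k θ, hh G u (ee k) x x' s s' θ = ⟪u, K k (Real.sin θ ^ 2)⟫ := by
    intro u k θ
    have t := Real.sin_sq_add_cos_sq θ
    have t1 : (Real.sin θ ^ 2) ^ 2 ≤ 1 := pow_le_one₀ (sq_nonneg _) (Real.sin_sq_le_one θ)
    have p := pair2 (h2 d) hD (hB k) (a1 := Real.sin θ) (a2 := Real.cos θ) (a3 := 0) (b1 := Real.sin θ)
      (b2 := 0) (b3 := Real.cos θ) (c1 := Real.sin θ ^ 2) (c2 := sg (Real.sin θ ^ 2)) (c3 := 0)
      (by linarith) (by rw [OUm.sg_sq t1]; linarith) (by ring)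
    rw [hK]
    simp only [KK]
    rw [← p, ← integral_inner (ibd (by fun_prop) fun z => ap2 hD (hB k) _ _)]
    simp [hh, qa, qb]
  obtain ⟨V, hV⟩ : ∃ V : Fin d → E d, V = fun k => (∫ c in (0 : ℝ)..1, K k c) -
    ∑ i, ((ρ ^ r0) ^ 2 * om i) • K k ((ρ ^ r0) ^ 2 * tau i) := ⟨_, rfl⟩
  have bV : ∀ k, ‖V k‖ ≤ 9 * ε ^ 2 * (κ ^ 2 + δ + η) := fun k => by
    rw [hV, hK]; exact colm (h1 d) (h2 d) hD (hB k) hR hδ hQ
  have c1 : (ρ ^ r0) ^ 2 ≤ 1 := by nlinarith [hR.lo]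
  have e2 : ∀ u k, (∫ φ in (0 : ℝ)..(Real.pi / 2), 2 * Real.sin φ * Real.cos φ * hh G u (ee k) x x' s s' φ) -
      ∑ i, (ρ ^ r0) ^ 2 * om i * hh G u (ee k) x x' s s' (Real.arcsin √((ρ ^ r0) ^ 2 * tau i)) =
      ⟪u, V k⟫ := by
    intro u k
    have := kc k
    have q := (innerSL ℝ u).intervalIntegral_comp_comm (μ := volume) (a := 0) (b := Real.pi / 2)
      (f := fun φ => (2 * Real.sin φ * Real.cos φ) • K k (Real.sin φ ^ 2))
      (Continuous.intervalIntegrable (by fun_prop) _ _)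
    rw [sub1 (kc k)] at q
    simp only [innerSL_apply_apply, inner_smul_right] at q
    rw [hV]
    simp only [e1, inner_sub_right, inner_sum, inner_smul_right]
    rw [q]
    congr 1
    refine sum_congr rfl fun i _ => ?_
    have a0 : 0 ≤ (ρ ^ r0) ^ 2 * tau i := mul_nonneg (sq_nonneg _) (hQ.2.2.1 i).1
    have a1 : (ρ ^ r0) ^ 2 * tau i ≤ 1 := mul_le_one₀ c1 (hQ.2.2.1 i).1 (hQ.2.2.1 i).2
    rw [Real.sin_arcsin ((Real.sqrt_nonneg _).trans' (by norm_num)) (Real.sqrt_le_one.2 a1),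
      Real.sq_sqrt a0]
  have p0 : 0 ≤ κ ^ 2 + δ + η := by have := hR.e0; positivity
  refine Real.sqrt_le_iff.2 ⟨by positivity, ?_⟩
  simp only [Fq, e2]
  rw [sum_comm]
  simp only [← Fom.nsq]
  refine (sum_le_card_nsmul _ _ ((9 * ε ^ 2 * (κ ^ 2 + δ + η)) ^ 2) fun k _ =>
    pow_le_pow_left₀ (norm_nonneg _) (bV k) 2).trans (le_of_eq ?_)
  rw [card_univ, Fintype.card_fin, nsmul_eq_mul, mul_right_comm _ (√d), mul_pow _ (√d),
    Real.sq_sqrt (Nat.cast_nonneg _), mul_comm]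

end

end Vale.Agent.P347
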