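import Vale.Agent.P347.Spec

open MeasureTheory ProbabilityTheory Finset

namespace Vale.Agent.P347

namespace Measm

variable {d : ℕ} {Y : Type} [TopologicalSpace Y] {G : Y → E d → E d}

lemma cG (hG : Continuous fun q : Y × E d => G q.1 q.2) {z : Y → E d} (hz : Continuous z) :
    Continuous fun y => G y (z y) := hG.comp (continuous_id.prodMk hz)

lemma cF1 (p : Par) (hG : Continuous fun q : Y × E d => G q.1 q.2) {w ζ : Y → E d}
    (hw : Continuous w) (hζ : Continuous ζ) : Continuous fun y => F1 p (G y) (w y) (ζ y) := by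
  refine continuous_finset_sum _ fun j _ => ?_
  have := cG hG (z := fun y => p.tau j • w y + sg (p.tau j) • ζ y) (by fun_prop)
  fun_prop

lemma cF2 (p : Par) (hG : Continuous fun q : Y × E d => G q.1 q.2) {w : Y → E d} {a : Y → S2 d}
    (hw : Continuous w) (ha : Continuous a) : Continuous fun y => F2 p (G y) (w y) (a y) := by
  have hb : Continuous fun y => b2 p (w y) (a y) := by
    unfold b2
    fun_prop
  have h1 := cF1 p hG (w := fun y => (sg p.ka)⁻¹ • b2 p (w y) (a y)) (by fun_prop) ha.snd.snd.snd
  have h2 : Continuous fun y => b2 p (w y) (a y) + p.ka • (a y).2.2.1 := by fun_prop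
  have h3 := cG hG (h2.fun_sub h1)
  have h4 := cG hG h2
  exact ha.fst.fst.fun_smul (h3.fun_sub h4)

lemma cFD (δ : ℝ) (hG : Continuous fun q : Y × E d => G q.1 q.2) {x v : Y → E d}
    (hx : Continuous x) (hv : Continuous v) : Continuous fun y => FD (G y) δ (x y) (v y) := by
  have h1 := cG hG (z := fun y => x y + δ • v y) (by fun_prop)
  have h2 := cG hG hx
  exact (h1.fun_sub h2).fun_const_smul _

lemma cHV (δ : ℝ) (hG : Continuous fun q : Y × E d => G q.1 q.2) {w ξ : Y → E d} {a : Y → S3 d}
    (hw : Continuous w) (ha : Continuous a) (hξ : Continuous ξ) :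
    Continuous fun y => HV δ (G y) (w y) (a y) (ξ y) := by
  have h1 : Continuous fun y => qa ((a y).1.2.1 • w y) (sg (a y).1.2.1) (a y).1.2.2.2 (a y).2 := by
    unfold qa sg
    fun_prop
  have h2 : Continuous fun y =>
      qb ((a y).1.2.2.1 • w y) (sg (a y).1.2.2.1) (a y).1.2.2.2 (a y).2 := by
    unfold qb sg
    fun_prop
  exact ha.fst.fst.fun_smul (cFD δ hG h1 (cFD δ hG h2 hξ))

lemma cprim (p : Par) (t : ℝ) (hG : Continuous fun q : Y × E d => G q.1 q.2) {s : Y → Sd d}
    (hs : Continuous s) : Continuous fun y => prim p (G y) t (s y) := by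
  have h1 := cF1 p hG hs.fst hs.snd.fst.fst
  have h2 := cF2 p hG hs.fst hs.snd.snd.fst.fst
  have h3 := cHV p.de hG hs.fst hs.snd.snd.fst.snd hs.snd.fst.snd
  unfold prim primW
  exact ((((hs.fst.fun_sub h1).fun_sub h2).fun_add (hs.snd.fst.snd.fun_const_smul t)).fun_add
    (h3.fun_const_smul _)).fun_add (hs.snd.snd.snd.fun_const_smul t)

lemma ccen (η : ℝ) {D : E d → E d} (hD : Continuous D) (k : ℕ) :
    Continuous fun y => cen η D y k := by
  induction k with
  | zero => exact continuous_id
  | succ k ih => exact continuous_id.sub ((hD.comp ih).const_smul η)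

end Measm

open Measm in
theorem stmtMeas : StmtMeas := by
  intro d p
  refine ⟨fun G w hG => ⟨cF2 (G := fun _ => G) p (hG.comp continuous_snd) continuous_const
      continuous_id, cHV (G := fun _ => G) p.de (hG.comp continuous_snd) continuous_const
      continuous_fst continuous_snd⟩,
    fun G hG => cF2 (G := fun _ => G) p (hG.comp continuous_snd) continuous_fst continuous_snd,
    fun G t hG => cprim (G := fun _ => G) p t (hG.comp continuous_snd) continuous_id,
    fun η η' D hD => ?_⟩
  have hc : Continuous fun q : E d × Sd d => cen η D q.1 13 := (ccen η hD 13).comp continuous_fst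
  unfold stp
  split_ifs
  · exact hc.fun_add (continuous_snd.fst.fun_const_smul _)
  · refine hc.fun_add ((cprim (G := fun q : E d × Sd d => GG η D q.1 (cen η D q.1 13)) p _ ?_
      continuous_snd).fun_const_smul _)
    have hc' : Continuous fun q : (E d × Sd d) × E d => cen η D q.1.1 13 := hc.comp continuous_fst
    unfold GG
    fun_prop

end Vale.Agent.P347
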