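import Vale.Agent.P347.Spec

open MeasureTheory ProbabilityTheory Finset
open scoped RealInnerProductSpace ENNReal

namespace Vale.Agent.P347

namespace PA1m

theorem cen_le {Ω F : Type} [MeasurableSpace Ω] [NormedAddCommGroup F] [NormedSpace ℝ F]
    (P : Measure Ω) [IsProbabilityMeasure P] (X : Ω → F) (h : MemLp X 2 P) :
    ∫ ω, ‖(∫ y, X y ∂P) - X ω‖ ^ 2 ∂P ≤ 4 * ∫ ω, ‖X ω‖ ^ 2 ∂P := by
  have i2 : Integrable (fun ω => ‖X ω‖ ^ 2) P := h.norm.integrable_sq
  have j : ‖∫ y, X y ∂P‖ ^ 2 ≤ ∫ ω, ‖X ω‖ ^ 2 ∂P := by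
    have v := variance_nonneg (fun ω => ‖X ω‖) P
    rw [variance_eq_sub h.norm] at v
    have := pow_le_pow_left₀ (norm_nonneg _) (norm_integral_le_integral_norm (μ := P) X) 2
    simp only [Pi.pow_apply] at v
    linarith
  calc _ ≤ ∫ ω, (2 * ‖∫ y, X y ∂P‖ ^ 2 + 2 * ‖X ω‖ ^ 2) ∂P := by
        refine integral_mono_of_nonneg (.of_forall fun _ => by positivity)
          ((integrable_const _).add (i2.const_mul _)) (.of_forall fun ω => ?_)
        have := pow_le_pow_left₀ (norm_nonneg _) (norm_sub_le (∫ y, X y ∂P) (X ω)) 2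
        nlinarith [sq_nonneg (‖∫ y, X y ∂P‖ - ‖X ω‖)]
    _ = 2 * ‖∫ y, X y ∂P‖ ^ 2 + 2 * ∫ ω, ‖X ω‖ ^ 2 ∂P := by
        rw [integral_add (integrable_const _) (i2.const_mul _), integral_const_mul,
          integral_const_mul]
        simp
    _ ≤ _ := by linarith

end PA1m

open PA1m in
theorem stmtPA1 (_h1 : StmtG1) (hRel : RelApi) (hSG : StmtSG) (hAS : StmtAS) (hAa : StmtAa)
    (hOU : StmtOU) (hPA0 : StmtPA0) (hMeas : StmtMeas) : StmtPA1 := by
  obtain ⟨A, hA, hAS⟩ := hAS
  obtain ⟨B, hB, hP⟩ := hPA0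
  refine ⟨256 * A + B, by linarith, ?_⟩
  intro d ε ρ t e G p N π2 π3 _ _ w hd h0 h4 r1 r2 hG hp k0 k1 de a2 a3 t1 t2 hC he he4 hI
  have aa := hAa d ε ρ G (by omega) h0 h4 r1 r2 hG
  have s1 := aa.sgA N w
  have s0 := aa.sg0 N w
  have sb := (hOU d).f1s p ε G hp h0 hG w
  obtain ⟨M, hM, nM⟩ := (hSG d).exM _ _ _ s0 sb
  have cA : Continuous (AA G ρ N w) := (aa.cont N).comp (Continuous.prodMk_right w)
  have c0 : Continuous (A0 G ρ N w) := (aa.cont0 N).comp (Continuous.prodMk_right w)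
  have mA' : Measurable fun g => mA G ρ N w - AA G ρ N w g := (continuous_const.sub cA).measurable
  have D0 : 0 ≤ DD G ρ N w := integral_nonneg fun _ => by positivity
  have q0 := Real.sqrt_nonneg (DD G ρ N w)
  have fr : Fr (alA G ρ N w) (al0 G ρ N w) ≤ (64 * e + 32 * (ε * √(DD G ρ N w))) ^ 2 := by
    have m0 : Measurable fun g => mA0 G ρ N w - A0 G ρ N w g := (continuous_const.sub c0).measurable
    have c := (hSG d).coup _ (gN d N) _ _ _ mA' m0 s1 s0
    have c' := cen_le (gN d N) _ ((aa.mem N w).sub (aa.mem0 N w))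
    simp only [Pi.sub_apply] at c'
    rw [integral_sub ((aa.mem N w).integrable one_le_two) ((aa.mem0 N w).integrable one_le_two)]
      at c'
    have e1 : ∀ g, mA G ρ N w - AA G ρ N w g - (mA0 G ρ N w - A0 G ρ N w g) =
        mA G ρ N w - mA0 G ρ N w - (AA G ρ N w g - A0 G ρ N w g) := fun g => by abel
    simp only [e1] at c
    have c2 := mul_le_mul_of_nonneg_left c' (show 0 ≤ 8 * (4 * ε) ^ 2 by positivity)
    have e2 : (ε * √(DD G ρ N w)) ^ 2 = ε ^ 2 * DD G ρ N w := by rw [mul_pow, Real.sq_sqrt D0]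
    have := c.trans c2
    change _ ≤ 8 * (4 * ε) ^ 2 * (4 * DD G ρ N w) at this
    have x0 : 0 ≤ ε * √(DD G ρ N w) := by positivity
    have y0 : 0 ≤ ε ^ 2 * DD G ρ N w := by positivity
    refine this.trans ?_
    nlinarith [mul_nonneg he x0, sq_nonneg e]
  have x0 : 0 ≤ ε * √(DD G ρ N w) := by positivity
  have y0 : 0 ≤ ε ^ 4 * d := by positivity
  have R1 := hAS d _ _ _ M (4 * ε) t _ hd (by positivity) s1 s0 sb t1 t2 hM nM (by nlinarith)
    (by positivity) fr (by
      calc ((4 * ε) ^ 4 * d) ^ 3 = 64 ^ 4 * (ε ^ 4 * d) ^ 3 := by ring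
        _ ≤ 64 ^ 4 * e ^ 4 := by gcongr
        _ = (64 * e) ^ 4 := by ring
        _ ≤ _ := pow_le_pow_left₀ (by positivity) (by linarith) 4)
  have mf : Measurable fun x : E d => w - mA G ρ N w + x := by fun_prop
  have R2 := hRel.map _ _ _ _ _ _ mf R1
  have R3 := hP d ε t G p π2 π3 M w (mA G ρ N w) (by omega) h0 h4 hG hp k0 k1 de a2 a3 t1 t2
    fun ξ => by
      have := hI (∫ a, HV p.de G w a ξ ∂π3.prod (g3 d) - M ξ) ξ
      rw [← hM, ← inner_sub_right, real_inner_self_eq_norm_sq, abs_of_nonneg (sq_nonneg _)] at this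
      rcases (norm_nonneg (∫ a, HV p.de G w a ξ ∂π3.prod (g3 d) - M ξ)).eq_or_lt with h | h
      · rw [← h]; positivity
      · exact le_of_mul_le_mul_left (by nlinarith) h
  have ms : ∀ s : ℝ, Measurable fun q : E d × E d => q.1 + s • q.2 := fun s => by fun_prop
  have eL : (sm (alA G ρ N w) (√2 * t)).map (fun x => w - mA G ρ N w + x) =
      ((gN d N).prod (gs d)).map fun q => w - AA G ρ N w q.1 + (√2 * t) • q.2 := by
    rw [sm, alA, ← Measure.map_id (μ := gs d), Measure.map_prod_map _ _ mA' measurable_id,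
      Measure.map_map (ms _) (mA'.prodMap measurable_id),
      Measure.map_map mf ((ms _).comp (mA'.prodMap measurable_id)), Measure.map_id]
    congr 1
    funext q
    simp only [Function.comp, Prod.map, id]
    abel
  have p1 := s1.1
  have p2 := sb.1
  have p3 : IsProbabilityMeasure (sm (alA G ρ N w) (√2 * t)) :=
    Measure.isProbabilityMeasure_map (ms _).aemeasurable
  have p4 : IsProbabilityMeasure (((be1 p G w).prod (gs d)).map
      fun q => q.1 + t • q.2 + (2 * t)⁻¹ • M q.2) :=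
    Measure.isProbabilityMeasure_map (by fun_prop)
  have p5 : IsProbabilityMeasure (sm (((be1 p G w).prod (gs d)).map
      fun q => q.1 + t • q.2 + (2 * t)⁻¹ • M q.2) t) :=
    Measure.isProbabilityMeasure_map (ms _).aemeasurable
  have p6 := Measure.isProbabilityMeasure_map (μ := sm (alA G ρ N w) (√2 * t)) mf.aemeasurable
  have p7 := Measure.isProbabilityMeasure_map (μ := sm (((be1 p G w).prod (gs d)).map
      fun q => q.1 + t • q.2 + (2 * t)⁻¹ • M q.2) t) mf.aemeasurable
  have p8 : IsProbabilityMeasure (swM d π2 π3) := by unfold swM; infer_instance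
  have o2 : OpensMeasurableSpace (S2 d) := inferInstance
  have o3 : OpensMeasurableSpace (S3 d) := inferInstance
  have o4 : SecondCountableTopology (S2 d) := inferInstance
  have o5 : SecondCountableTopology (S3 d) := inferInstance
  have o6 : OpensMeasurableSpace ((S2 d × S3 d) × E d) := inferInstance
  have o7 : OpensMeasurableSpace (Sw d) := inferInstance
  have p9 : IsProbabilityMeasure ((swM d π2 π3).map (primW p G t w)) :=
    Measure.isProbabilityMeasure_map ((((hMeas d p).2.2.1 G t hG.c1.continuous).comp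
      (Continuous.prodMk_right w)).measurable.aemeasurable)
  have z0 : 0 ≤ ‖bias p G ρ N π2 w‖ + p.de * d + ε ^ 4 * (d + ‖w‖ ^ 2) := by positivity
  have R4 := hRel.tri _ _ _ _ _ _ (by positivity) (mul_nonneg (by linarith) z0) R2 R3
  rw [eL] at R4
  refine hRel.mono _ _ _ _ _ (add_nonneg (by positivity) (mul_nonneg (by linarith) z0)) ?_ R4
  nlinarith [mul_nonneg (show 0 ≤ A by linarith) he, mul_nonneg (show 0 ≤ A by linarith) x0,
    mul_nonneg (show 0 ≤ A by linarith) z0, mul_nonneg (show 0 ≤ B by linarith) he,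
    mul_nonneg (show 0 ≤ B by linarith) x0]

end Vale.Agent.P347
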