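import Vale.Agent.P347.Spec

open MeasureTheory ProbabilityTheory Finset
open scoped RealInnerProductSpace ENNReal

namespace Vale.Agent.P347

namespace PIm

abbrev X4 := ℝ × ℝ × ℝ × ℝ

theorem mix {ι : Type} [Fintype ι] (c : ι → ℝ) (hc : ∀ i, 0 ≤ c i) (hs : ∑ i, c i = 1)
    (γ : ι → ℝ → X4) (hγ : ∀ i, Continuous (γ i)) : ∃ π : Measure X4, IsProbabilityMeasure π ∧
      (∀ s, MeasurableSet s → (∀ i r, γ i r ∈ s) → ∀ᵐ a ∂π, a ∈ s) ∧
      ∀ f : X4 → ℝ, StronglyMeasurable f → (∀ i, Continuous fun r => f (γ i r)) →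
        ∫ a, f a ∂π = ∑ i, c i * ∫ r in (0 : ℝ)..1, f (γ i r) := by
  let U : Measure ℝ := volume.restrict (Set.Ioc 0 1)
  refine ⟨∑ i, ENNReal.ofReal (c i) • U.map (γ i), ⟨?_⟩, fun s hs' h => ?_, fun f hf h => ?_⟩
  · simp only [Measure.coe_finset_sum, Finset.sum_apply, Measure.smul_apply,
      Measure.map_apply (hγ _).measurable MeasurableSet.univ, Set.preimage_univ, U]
    simp [← ENNReal.ofReal_sum_of_nonneg fun i _ => hc i, hs]
  · rw [ae_iff]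
    simp only [Measure.coe_finset_sum, Finset.sum_apply, Measure.smul_apply]
    refine sum_eq_zero fun i _ => ?_
    have : γ i ⁻¹' {a | ¬ a ∈ s} = ∅ := by ext r; simp [h i r]
    rw [Measure.map_apply (hγ _).measurable (show MeasurableSet {a | ¬ a ∈ s} from hs'.compl), this]
    simp
  · rw [integral_finsetSum_measure fun i _ => ?_]
    · refine sum_congr rfl fun i _ => ?_
      rw [integral_smul_measure, integral_map (hγ i).aemeasurable hf.aestronglyMeasurable,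
        intervalIntegral.integral_of_le zero_le_one, ENNReal.toReal_ofReal (hc i), smul_eq_mul]
    · refine Integrable.smul_measure ?_ ENNReal.ofReal_ne_top
      rw [integrable_map_measure hf.aestronglyMeasurable (hγ i).aemeasurable]
      exact ((h i).integrableOn_Icc (a := 0) (b := 1)).mono_set Set.Ioc_subset_Icc_self

noncomputable def cv (q : X4) (r : ℝ) : X4 :=
  (q.1 * (4 * sg q.2.1 * sg q.2.2.1 * Real.sin (q.2.2.2 * r) * Real.cos (q.2.2.2 * r) * q.2.2.2),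
    q.2.1, q.2.2.1, q.2.2.2 * r)

theorem sg_le (τ : ℝ) : 0 ≤ sg τ ∧ sg τ ≤ 1 :=
  ⟨Real.sqrt_nonneg _, Real.sqrt_le_one.2 (by nlinarith)⟩

theorem cv_le {q : X4} (h : |q.1| ≤ 1) (h0 : 0 ≤ q.2.2.2) (h1 : q.2.2.2 ≤ Real.pi / 2) (r : ℝ) :
    |(cv q r).1| ≤ 7 * sg q.2.1 * sg q.2.2.1 * |Real.cos (q.2.2.2 * r)| := by
  obtain ⟨a, -⟩ := sg_le q.2.1
  obtain ⟨b, -⟩ := sg_le q.2.2.1
  have := Real.abs_sin_le_one (q.2.2.2 * r)
  have := Real.pi_lt_d2
  simp only [cv, abs_mul, abs_of_nonneg a, abs_of_nonneg b, abs_of_nonneg h0, Nat.abs_ofNat]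
  calc _ ≤ 1 * (4 * sg q.2.1 * sg q.2.2.1 * 1 * |Real.cos (q.2.2.2 * r)| * (7 / 4)) := by
        gcongr; linarith
    _ = _ := by ring

theorem cv_le7 {q : X4} (h : |q.1| ≤ 1) (h0 : 0 ≤ q.2.2.2) (h1 : q.2.2.2 ≤ Real.pi / 2) (r : ℝ) :
    |(cv q r).1| ≤ 7 := by
  obtain ⟨a, a'⟩ := sg_le q.2.1
  obtain ⟨b, b'⟩ := sg_le q.2.2.1
  have := Real.abs_cos_le_one (q.2.2.2 * r)
  calc _ ≤ _ := cv_le h h0 h1 r
    _ ≤ 7 * 1 * 1 * 1 := by gcongr
    _ = _ := by ring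

theorem cv_cont (q : X4) : Continuous (cv q) := by unfold cv; fun_prop

theorem one (hCI : StmtCI) (hFD : StmtFD) {d : ℕ} {ε δ : ℝ} {G : E d → E d} (w u ξ : E d)
    (e0 : 0 ≤ ε) (e1 : ε ≤ 1) (hδ : 0 < δ) (hG : Nice ε G) {q : X4} (h : |q.1| ≤ 1)
    (h0 : 0 ≤ q.2.2.2) (h1 : q.2.2.2 ≤ Real.pi / 2)
    (hc : Continuous fun r => ∫ z, ⟪u, HV δ G w (cv q r, z) ξ⟫ ∂g3 d) :
    |(∫ r in (0 : ℝ)..1, ∫ z, ⟪u, HV δ G w (cv q r, z) ξ⟫ ∂g3 d) - 2 * q.1 *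
      (bb G u ξ (q.2.1 • w) (q.2.2.1 • w) (sg q.2.1) (sg q.2.2.1) q.2.2.2 -
        bb G u ξ (q.2.1 • w) (q.2.2.1 • w) (sg q.2.1) (sg q.2.2.1) 0)| ≤ 28 * δ * ‖u‖ * ‖ξ‖ ^ 2 := by
  obtain ⟨c1, c2⟩ := hCI d ε G u ξ (q.2.1 • w) (q.2.2.1 • w) (sg q.2.1) (sg q.2.2.1) hG
  set H := hh G u ξ (q.2.1 • w) (q.2.2.1 • w) (sg q.2.1) (sg q.2.2.1)
  have e := intervalIntegral.smul_integral_comp_mul_left (a := 0) (b := 1)
    (fun t => 2 * Real.sin t * Real.cos t * H t) q.2.2.2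
  rw [mul_zero, mul_one, smul_eq_mul] at e
  have e2 : 2 * q.1 * (sg q.2.1 * sg q.2.2.1 * (q.2.2.2 * ∫ r in (0 : ℝ)..1,
      2 * Real.sin (q.2.2.2 * r) * Real.cos (q.2.2.2 * r) * H (q.2.2.2 * r))) =
      ∫ r in (0 : ℝ)..1, (cv q r).1 * H (q.2.2.2 * r) := by
    simp only [← intervalIntegral.integral_const_mul]
    exact intervalIntegral.integral_congr fun r _ => by simp only [cv]; ring
  have c3 : Continuous fun r => (cv q r).1 * H (q.2.2.2 * r) := by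
    have := cv_cont q
    fun_prop
  rw [c2, ← e, e2, ← intervalIntegral.integral_sub (hc.intervalIntegrable _ _)
    (c3.intervalIntegrable _ _)]
  have := intervalIntegral.norm_integral_le_of_norm_le_const (a := 0) (b := 1)
    (C := 28 * δ * ‖u‖ * ‖ξ‖ ^ 2) (f := fun r => ∫ z, ⟪u, HV δ G w (cv q r, z) ξ⟫ ∂g3 d -
      (cv q r).1 * H (q.2.2.2 * r)) fun r hr => by
    rw [Set.uIoc_of_le zero_le_one] at hr
    refine (hFD d ε δ G w u ξ (cv q r) e0 e1 hδ hG).2 ((cv_le h h0 h1 r).trans_eq ?_)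
    have := Real.pi_pos
    rw [abs_of_nonneg (Real.cos_nonneg_of_mem_Icc ⟨by nlinarith [hr.1], by nlinarith [hr.2]⟩)]
    rfl
  simpa using this

end PIm

open PIm in
theorem stmtPI (_h1 : StmtG1) (hCI : StmtCI) (hS0 : StmtS0) (hS1 : StmtS1) (hFD : StmtFD)
    (hMeas : StmtMeas) : StmtPI := by
  intro ρ N p r0 r1 hp hδ
  obtain ⟨θ, hθ, hS0⟩ := hS0 ρ r0 r1
  have a0 : ∀ r, 0 ≤ aw ρ r := fun r => mul_nonneg (by linarith) (by positivity)
  have a1 : ∑ r ∈ range N, aw ρ r ≤ 1 := by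
    simp only [aw, ← mul_sum, mul_neg_geom_sum]
    have : 0 ≤ ρ ^ N := by positivity
    linarith
  have a2 : 0 ≤ ∑ r ∈ range N, aw ρ r := sum_nonneg fun r _ => a0 r
  have o2 : 0 ≤ ∑ j, p.om j := sum_nonneg fun j _ => hp.1 j
  let q : (Fin N × Fin N) ⊕ (Fin p.J × Fin p.J) ⊕ Unit → X4 :=
    Sum.elim (fun x => (1, ρ ^ (x.1 + 1 : ℕ), ρ ^ (x.2 + 1 : ℕ), θ x.1 x.2))
      (Sum.elim (fun x => (-1, p.tau x.1, p.tau x.2, Real.pi / 2)) fun _ => (0, 0, 0, 0))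
  let c : (Fin N × Fin N) ⊕ (Fin p.J × Fin p.J) ⊕ Unit → ℝ :=
    Sum.elim (fun x => aw ρ x.1 * aw ρ x.2 / 2) (Sum.elim (fun x => p.om x.1 * p.om x.2 / 2)
      fun _ => 1 - (∑ r ∈ range N, aw ρ r) ^ 2 / 2 - (∑ j, p.om j) ^ 2 / 2)
  have hq : ∀ i, |(q i).1| ≤ 1 ∧ 0 ≤ (q i).2.2.2 ∧ (q i).2.2.2 ≤ Real.pi / 2 := by
    have := Real.pi_pos
    rintro (x | x | x)
    · exact ⟨by simp [q], hθ _ _⟩
    · exact ⟨by simp [q], by simp only [q, Sum.elim_inr, Sum.elim_inl]; positivity, le_rfl⟩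
    · exact ⟨by simp [q], le_rfl, by simp only [q, Sum.elim_inr]; positivity⟩
  have hc : ∀ i, 0 ≤ c i := by
    rintro (x | x | x)
    · exact div_nonneg (mul_nonneg (a0 _) (a0 _)) zero_le_two
    · exact div_nonneg (mul_nonneg (hp.1 _) (hp.1 _)) zero_le_two
    · have := hp.2.1
      simp only [c, Sum.elim_inr]
      nlinarith
  have hs : ∑ i, c i = 1 := by
    simp only [c, Fintype.sum_sum_type, Fintype.sum_prod_type, Sum.elim_inl, Sum.elim_inr,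
      sum_range, sq, sum_mul_sum, ← sum_div, Fintype.sum_unique]
    ring
  obtain ⟨π, hπ, p1, p2⟩ := mix c hc hs (fun i => cv (q i)) fun i => cv_cont _
  have ae7 : ∀ᵐ a ∂π, |a.1| ≤ 7 := p1 {a | |a.1| ≤ 7}
    (measurableSet_le (by fun_prop) measurable_const) fun i r =>
      cv_le7 (hq i).1 (hq i).2.1 (hq i).2.2 r
  refine ⟨π, hπ, ae7, fun d ε G d1 e0 e1 hG w u ξ => ?_⟩
  have hv : Continuous fun a : S3 d => HV p.de G w a ξ :=
    ((hMeas d p).1 G w hG.c1.continuous).2.comp (continuous_id.prodMk continuous_const)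
  have bd : ∀ (a : X4) z, |a.1| ≤ 7 → ‖HV p.de G w (a, z) ξ‖ ≤ 7 * ε ^ 2 * ‖ξ‖ := fun a z h =>
    ((hFD d ε _ G w u ξ a e0 (by linarith) hδ hG).1 z).trans (by gcongr)
  have hi : Integrable (fun a : S3 d => HV p.de G w a ξ) (π.prod (g3 d)) :=
    .of_bound hv.aestronglyMeasurable (7 * ε ^ 2 * ‖ξ‖) <| by
      filter_upwards [Measure.quasiMeasurePreserving_fst.ae ae7] with a ha using bd a.1 a.2 ha
  have hu : Continuous fun a : S3 d => ⟪u, HV p.de G w a ξ⟫ := continuous_const.inner hv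
  have ct : ∀ i, Continuous fun r => ∫ z, ⟪u, HV p.de G w (cv (q i) r, z) ξ⟫ ∂g3 d := fun i =>
    continuous_of_dominated (bound := fun _ => ‖u‖ * (7 * ε ^ 2 * ‖ξ‖))
      (fun r => (hu.comp (continuous_const.prodMk continuous_id)).aestronglyMeasurable)
      (fun r => .of_forall fun z => (norm_inner_le_norm _ _).trans (mul_le_mul_of_nonneg_left
        (bd _ z (cv_le7 (hq i).1 (hq i).2.1 (hq i).2.2 r)) (norm_nonneg _)))
      (integrable_const _) (.of_forall fun z => hu.comp ((cv_cont _).prodMk continuous_const))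
  rw [← integral_inner hi, integral_prod _ (hi.const_inner u),
    p2 _ hu.stronglyMeasurable.integral_prod_right' ct]
  have e : Cv (al0 G ρ N w) u ξ - Cv (be1 p G w) u ξ = ∑ i, c i * (2 * (q i).1 *
      (bb G u ξ ((q i).2.1 • w) ((q i).2.2.1 • w) (sg (q i).2.1) (sg (q i).2.2.1) (q i).2.2.2 -
        bb G u ξ ((q i).2.1 • w) ((q i).2.2.1 • w) (sg (q i).2.1) (sg (q i).2.2.1) 0)) := by
    rw [hS0 d ε G N w u ξ d1 e0 e1 hG, hS1 d ε G p w u ξ hG]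
    simp only [c, q, Fintype.sum_sum_type, Fintype.sum_prod_type, Sum.elim_inl, Sum.elim_inr,
      sum_range, Fintype.sum_unique, mul_zero, zero_mul, add_zero, sub_eq_add_neg (∑ _, _),
      ← sum_neg_distrib]
    congr 1 <;> exact sum_congr rfl fun _ _ => sum_congr rfl fun _ _ => by ring
  rw [e, ← sum_sub_distrib]
  calc _ ≤ ∑ i, c i * (28 * p.de * ‖u‖ * ‖ξ‖ ^ 2) := by
        refine (abs_sum_le_sum_abs _ _).trans (sum_le_sum fun i _ => ?_)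
        rw [← mul_sub, abs_mul, abs_of_nonneg (hc i)]
        exact mul_le_mul_of_nonneg_left (one hCI hFD w u ξ e0 (by linarith) hδ hG (hq i).1
          (hq i).2.1 (hq i).2.2 (ct i)) (hc i)
    _ = _ := by rw [← sum_mul, hs, one_mul]

end Vale.Agent.P347
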