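import Vale.Agent.P347.Spec

open MeasureTheory ProbabilityTheory Finset

namespace Vale.Agent.P347

theorem stmtPi2 : StmtPi2 := by
  intro ρ κ N h0 h1
  have ha : ∀ r, 0 ≤ aw ρ r := fun r => mul_nonneg (by linarith) (by positivity)
  constructor
  · constructor
    simp only [pi2, Measure.add_apply, Measure.finset_sum_apply, Measure.smul_apply, measure_univ,
      smul_eq_mul, mul_one]
    rw [← ENNReal.ofReal_sum_of_nonneg fun r _ => ha r,
      ← ENNReal.ofReal_add (sum_nonneg fun r _ => ha r) (by positivity)]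
    have : ∑ r ∈ range N, aw ρ r + ρ ^ N = 1 := by
      simp only [aw, ← mul_sum]
      rw [mul_neg_geom_sum]
      ring
    rw [this, ENNReal.ofReal_one]
  · have hm : MeasurableSet {a : ℝ × ℝ | |a.1| ≤ 1 ∧ |a.2| ≤ 1} := by measurability
    rw [pi2, ae_add_measure_iff, ae_finsetSum_measure_iff]
    refine ⟨fun r _ => Measure.ae_smul_measure ((ae_dirac_iff hm).2 ?_) _,
      Measure.ae_smul_measure ((ae_dirac_iff hm).2 (by simp)) _⟩
    split_ifs
    · exact ⟨by simp, by rw [abs_of_nonneg (by positivity)]; exact pow_le_one₀ h0 h1⟩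
    · simp

end Vale.Agent.P347
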