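import Vale.Agent.P347.PA0

open MeasureTheory ProbabilityTheory Finset
open scoped RealInnerProductSpace ENNReal

namespace Vale.Agent.P347

noncomputable section

namespace Primm

open PA0m

variable {d : ℕ}

lemma cmul {Ω : Type} [MeasurableSpace Ω] {μ : Measure Ω} {f : Ω → ℝ} {a c : ℝ} (hc : 0 ≤ c)
    (h : eLpNorm f 2 μ ≤ ENNReal.ofReal a) :
    eLpNorm (fun x => c * f x) 2 μ ≤ ENNReal.ofReal (c * a) := by
  have e : (fun x => c * f x) = c • f := rfl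
  rw [e, eLpNorm_const_smul, ENNReal.ofReal_mul hc, Real.enorm_eq_ofReal hc]
  gcongr

lemma add3 {Ω : Type} [MeasurableSpace Ω] {μ : Measure Ω} {f g h : Ω → ℝ} {a b c : ℝ}
    (mf : Measurable f) (mg : Measurable g) (mh : Measurable h) (ha : 0 ≤ a) (hb : 0 ≤ b) (hc : 0 ≤ c)
    (h1 : eLpNorm f 2 μ ≤ ENNReal.ofReal a) (h2 : eLpNorm g 2 μ ≤ ENNReal.ofReal b)
    (h3 : eLpNorm h 2 μ ≤ ENNReal.ofReal c) :
    eLpNorm (fun x => f x + g x + h x) 2 μ ≤ ENNReal.ofReal (a + b + c) := by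
  have e : (fun x => f x + g x + h x) = f + g + h := rfl
  rw [e, ENNReal.ofReal_add (add_nonneg ha hb) hc, ENNReal.ofReal_add ha hb]
  exact (eLpNorm_add_le (mf.add mg).aestronglyMeasurable mh.aestronglyMeasurable one_le_two).trans
    (add_le_add ((eLpNorm_add_le mf.aestronglyMeasurable mg.aestronglyMeasurable one_le_two).trans
      (add_le_add h1 h2)) h3)

lemma eLp_ge {Ω F : Type} [MeasurableSpace Ω] [NormedAddCommGroup F] {μ : Measure Ω} {f : Ω → F} {c : ℝ}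
    (hm : AEStronglyMeasurable f μ) (hc : 0 ≤ c) (h : eLpNorm f 2 μ ≤ ENNReal.ofReal c) :
    Integrable (fun x => ‖f x‖ ^ 2) μ ∧ ∫ x, ‖f x‖ ^ 2 ∂μ ≤ c ^ 2 := by
  have h1 : MemLp f 2 μ := ⟨hm, h.trans_lt ENNReal.ofReal_lt_top⟩
  refine ⟨(memLp_two_iff_integrable_sq_norm hm).mp h1, ?_⟩
  rw [h1.eLpNorm_eq_integral_rpow_norm two_ne_zero ENNReal.ofNat_ne_top,
    ENNReal.ofReal_le_ofReal_iff hc] at h
  simp only [ENNReal.toReal_ofNat, Real.rpow_two] at h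
  rw [← one_div, ← Real.sqrt_eq_rpow] at h
  exact (Real.sqrt_le_iff.mp h).2

lemma e_norm1 (h : Gau1 d) (A B : ℝ) (hA : 0 ≤ A) (hB : 0 ≤ B) :
    eLpNorm (fun w : E d => A + B * ‖w‖ ^ 2) 2 (gs d) ≤ ENNReal.ofReal (A + 2 * B * d) := by
  have p2 : MeasurePreserving Prod.snd ((gs d).prod (gs d)) (gs d) := measurePreserving_snd
  rw [← eLpNorm_comp_measurePreserving (by fun_prop) p2]
  exact e_norm h A B hA hB

lemma DD_norm {ε ρ : ℝ} {G : E d → E d} (hA : AaApi ε ρ G) (N : ℕ) :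
    Measurable (DD G ρ N) ∧
      eLpNorm (fun w => √(DD G ρ N w)) 2 (gs d) ≤ ENNReal.ofReal (4 * ε ^ 2 * √d) := by
  have hc : Continuous fun p : E d × (Fin N → E d) => AA G ρ N p.1 p.2 - A0 G ρ N p.1 p.2 :=
    (hA.cont N).sub (hA.cont0 N)
  have hm : Measurable (DD G ρ N) :=
    ((hc.norm.pow 2).measurable.stronglyMeasurable.integral_prod_right' (ν := gN d N)).measurable
  obtain ⟨hi, hb⟩ := eLp_ge hc.measurable.aestronglyMeasurable (by positivity) (hA.l2D N)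
  have e : (fun w => √(DD G ρ N w) ^ 2) = DD G ρ N := by
    funext w
    exact Real.sq_sqrt (integral_nonneg fun g => by positivity)
  refine ⟨hm, eLp_le hm.sqrt.aestronglyMeasurable ?_ (by positivity) ?_⟩
  · rw [e]; exact hi.integral_prod_left
  · rw [e]
    rw [integral_prod _ hi] at hb
    exact hb

lemma int_sm (α : Measure (E d)) [IsProbabilityMeasure α] (t : ℝ) (φ : E d → ℝ) (hφ : Measurable φ)
    (hb : ∀ x, |φ x| ≤ 1) : ∫ x, φ x ∂sm α t = ∫ x, (∫ g, φ (x + t • g) ∂gs d) ∂α := by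
  have hm : Measurable fun p : E d × E d => p.1 + t • p.2 := Continuous.measurable (by fun_prop)
  unfold sm
  rw [integral_map hm.aemeasurable hφ.aestronglyMeasurable, integral_prod]
  exact (integrable_const (1 : ℝ)).mono' (hφ.comp hm).aestronglyMeasurable (ae_of_all _ fun p => hb _)

lemma sm_prob (α : Measure (E d)) [IsProbabilityMeasure α] (t : ℝ) : IsProbabilityMeasure (sm α t) :=
  Measure.isProbabilityMeasure_map (Continuous.measurable (by fun_prop)).aemeasurable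

lemma rel_tv (h2 : Gau2 d) (hRel : RelApi) (α β : Measure (E d)) [IsProbabilityMeasure α]
    [IsProbabilityMeasure β] (t e δ : ℝ) (ht : 1 / 2 ≤ t) (he : 0 ≤ e) (hδ : δ ≤ e ^ 2 / 4)
    (h : ∀ (l : ℝ) (ψ : E d → ℝ), 0 ≤ l → LipF l ψ → (∃ b, ∀ x, |ψ x| ≤ b) →
      |∫ x, ψ x ∂β - ∫ x, ψ x ∂α| ≤ l * δ) : Rel (sm α (√2 * t)) (sm β (√2 * t)) e := by
  refine hRel.tv _ _ _ _ he fun φ hφ hb => ?_
  have h1 : 1 ≤ √2 := Real.one_le_sqrt.mpr one_le_two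
  have h3 : 1 / 2 ≤ √2 * t := by nlinarith
  rw [int_sm α _ φ hφ hb, int_sm β _ φ hφ hb, abs_sub_comm]
  refine (h 4 _ (by norm_num) (fun x y => ?_) ⟨1, fun x => ?_⟩).trans (by linarith)
  · refine (h2.shift _ x y φ (by linarith) hφ hb).trans ?_
    rw [div_le_iff₀ (by linarith)]
    nlinarith [norm_nonneg (x - y)]
  · simpa using norm_integral_le_of_norm_le_const (μ := gs d) (C := 1)
      (f := fun g => φ (x + (√2 * t) • g)) (ae_of_all _ fun g => hb _)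

lemma meas_f {ε ρ : ℝ} {G : E d → E d} (hA : AaApi ε ρ G) (N : ℕ) (t : ℝ) :
    Measurable fun q : E d × (Fin N → E d) × E d => q.1 - AA G ρ N q.1 q.2.1 + t • q.2.2 := by
  have h : Continuous fun q : E d × (Fin N → E d) × E d => AA G ρ N q.1 q.2.1 :=
    ((hA.cont N).comp (f := fun q : E d × (Fin N → E d) × E d => (q.1, q.2.1)) (by fun_prop)).congr
      fun _ => rfl
  exact Continuous.measurable (by fun_prop)

lemma sm_ch (hRev : StmtRev) {ε ρ : ℝ} {G : E d → E d} (hA : AaApi ε ρ G) (hG : Continuous G)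
    (hρ : ρ ^ 2 ≤ 1) (N : ℕ) (t : ℝ) : IsProbabilityMeasure (ch G ρ N) ∧ sm (ch G ρ N) t =
      ((gs d).prod ((gN d N).prod (gs d))).map fun q => q.1 - AA G ρ N q.1 q.2.1 + t • q.2.2 := by
  have hm : Measurable fun p : E d × (Fin N → E d) => p.1 - AA G ρ N p.1 p.2 :=
    (continuous_fst.sub (hA.cont N)).measurable
  rw [← hRev d G ρ N hG hρ]
  refine ⟨Measure.isProbabilityMeasure_map hm.aemeasurable, ?_⟩
  rw [sm_map _ _ hm, ← Measure.prodAssoc_prod,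
    Measure.map_map (meas_f hA N t) MeasurableEquiv.prodAssoc.measurable]
  rfl

/-- the numerical facts -/
structure Num (ε e D s ka Cb : ℝ) : Prop where
  k4 : Cb * ε ^ 4 * D ≤ ka ^ 4
  k0 : ε ≤ ka
  k1 : ka ≤ 1 / 2
  a1 : ε ^ 4 * D ≤ e
  a2 : ε * (ε ^ 2 * s) ≤ e
  a3 : ε ^ 2 * ka * s ≤ Cb * e
  a4 : ε * ka ≤ Cb * e
  a5 : D⁻¹ * (2 * ε * s) ≤ 2 * e

lemma num (ε e D Cb : ℝ) (hε : 0 < ε) (he : 0 < e) (hD : 1 ≤ D) (hCb : 1 ≤ Cb) (h1 : 1 ≤ ε ^ 2 * D)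
    (h2 : 16 * Cb * ε ^ 4 * D ≤ 1) (h3 : (ε ^ 4 * D) ^ 3 ≤ e ^ 4) : ∃ ka, Num ε e D √D ka Cb := by
  obtain ⟨r, hr0, hr⟩ : ∃ r : ℝ, 0 ≤ r ∧ r ^ 2 = √D := ⟨√(√D), Real.sqrt_nonneg _, Real.sq_sqrt (Real.sqrt_nonneg _)⟩
  obtain ⟨k, hk0, hk⟩ : ∃ k : ℝ, 0 ≤ k ∧ k ^ 4 = Cb := ⟨√(√Cb), Real.sqrt_nonneg _, by
    rw [show (4 : ℕ) = 2 * 2 from rfl, pow_mul, Real.sq_sqrt (Real.sqrt_nonneg _), Real.sq_sqrt (by linarith)]⟩
  have hD4 : r ^ 4 = D := by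
    rw [show (4 : ℕ) = 2 * 2 from rfl, pow_mul, hr, Real.sq_sqrt (by linarith)]
  have hr1 : 1 ≤ r := by
    rw [← one_le_pow_iff_of_nonneg hr0 (n := 4) (by norm_num), hD4]; exact hD
  have hk1 : 1 ≤ k := by
    rw [← one_le_pow_iff_of_nonneg hk0 (n := 4) (by norm_num), hk]; exact hCb
  have hkC : k ≤ Cb := hk ▸ le_self_pow₀ hk1 (by norm_num)
  have hx : ε ^ 3 * r ^ 3 ≤ e := by
    rw [← pow_le_pow_iff_left₀ (by positivity) he.le (n := 4) (by norm_num)]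
    refine le_of_eq_of_le ?_ h3
    rw [← hD4]; ring
  have hs : 1 ≤ ε * r ^ 2 := by
    rw [← one_le_pow_iff_of_nonneg (by positivity) (n := 2) (by norm_num)]
    refine h1.trans_eq ?_
    rw [← hD4]; ring
  have h4 : 0 ≤ ε ^ 4 * D := by positivity
  have h5 : ε ^ 4 * D ≤ 1 := by nlinarith
  have h6 : ε * (ε ^ 2 * r ^ 2) ≤ e := by
    refine le_trans ?_ hx
    have := mul_le_mul_of_nonneg_left hr1 (show 0 ≤ ε ^ 3 * r ^ 2 by positivity)
    linarith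
  have h7 : ε ^ 2 * (k * ε * r) * r ^ 2 ≤ Cb * e := by
    have := mul_le_mul hkC hx (by positivity) (by linarith)
    linarith
  rw [← hr]
  refine ⟨k * ε * r, ?_, ?_, ?_, ?_, h6, h7, ?_, ?_⟩
  · rw [← hk, ← hD4]; exact le_of_eq (by ring)
  · have := mul_le_mul_of_nonneg_left (one_le_mul_of_one_le_of_one_le hk1 hr1) hε.le
    linarith
  · rw [← pow_le_pow_iff_left₀ (by positivity) (by norm_num) (n := 4) (by norm_num)]
    have : (k * ε * r) ^ 4 = Cb * ε ^ 4 * D := by rw [← hk, ← hD4]; ring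
    rw [this]; linarith
  · rw [← pow_le_pow_iff_left₀ h4 he.le (n := 4) (by norm_num)]
    exact (pow_le_pow_of_le_one h4 h5 (by norm_num)).trans h3
  · have := mul_le_mul_of_nonneg_left hs (show 0 ≤ ε * (k * ε * r) by positivity)
    linarith
  · rw [inv_mul_le_iff₀ (by linarith)]
    have a1 := mul_le_mul_of_nonneg_left h1 (show 0 ≤ ε * r ^ 2 by positivity)
    have a2 := mul_le_mul_of_nonneg_left h6 (show 0 ≤ D by linarith)
    linarith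

lemma d1 (hMean : StmtMean) (hO : OUApi d) {ε ρ δ : ℝ} {G : E d → E d} {p : Par} {N : ℕ} (hd : 1 ≤ d)
    (hε : 0 ≤ ε) (hε' : ε ≤ 1 / 4) (hρ : 1 / 2 ≤ ρ) (hρ' : ρ < 1) (hG : Nice ε G) (hδ : 0 ≤ δ)
    (hq : eLpNorm (fun w => ∑ r ∈ range N, aw ρ r • OU (ρ ^ (r + 1)) G w - ∑ j, p.om j • OU (p.tau j) G w) 2
      (gs d) ≤ ENNReal.ofReal δ * eLpNorm G 2 (gs d)) :
    eLpNorm (fun w => mA0 G ρ N w - m1 p G w) 2 (gs d) ≤ ENNReal.ofReal (δ * (2 * ε * √d)) := by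
  have e : (fun w => mA0 G ρ N w - m1 p G w) =
      fun w => ∑ r ∈ range N, aw ρ r • OU (ρ ^ (r + 1)) G w - ∑ j, p.om j • OU (p.tau j) G w := by
    funext w
    rw [((hMean d ε ρ G hd hε hε' hρ hρ' hG N).2.2.2 w).1, hO.f1m p ε G hG.lip w]
  rw [e, ENNReal.ofReal_mul hδ]
  exact hq.trans (by gcongr; exact hO.nG ε G hd hε hG)

lemma err (h : Gau1 d) {ε e ka Cb Ca ρ δ de : ℝ} {G : E d → E d} {N : ℕ} {b : E d → E d}
    (hA : AaApi ε ρ G) (hn : Num ε e d √d ka Cb) (hε : 0 < ε) (he : 0 < e) (hCa : 1 ≤ Ca) (hCb : 1 ≤ Cb)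
    (hδ0 : 0 ≤ δ) (hδ : δ ≤ ε) (hde : de * d = e) (mb : Measurable b)
    (hb : eLpNorm b 2 (gs d) ≤ ENNReal.ofReal
      (Cb * (ε ^ 2 * ka * √d + ε * ka + (d : ℝ)⁻¹ * (2 * ε * √d) + δ * ε ^ 2 * √d))) :
    Measurable (fun w => Ca * (e + ε * √(DD G ρ N w) + ‖b w‖ + de * d + ε ^ 4 * (d + ‖w‖ ^ 2))) ∧
    eLpNorm (fun w => Ca * (e + ε * √(DD G ρ N w) + ‖b w‖ + de * d + ε ^ 4 * (d + ‖w‖ ^ 2))) 2 (gs d) ≤
      ENNReal.ofReal (Ca * ((9 + Cb * (2 * Cb + 3)) * e)) := by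
  obtain ⟨mD, nD⟩ := DD_norm hA N
  have hk : 0 ≤ ka := hε.le.trans hn.k0
  have e1 : (fun w => Ca * (e + ε * √(DD G ρ N w) + ‖b w‖ + de * d + ε ^ 4 * (d + ‖w‖ ^ 2))) =
      fun w => Ca * ((2 * e + ε ^ 4 * d + ε ^ 4 * ‖w‖ ^ 2) + ε * √(DD G ρ N w) + ‖b w‖) := by
    funext w; rw [hde]; ring
  have m1 : Measurable fun w : E d => 2 * e + ε ^ 4 * d + ε ^ 4 * ‖w‖ ^ 2 :=
    Continuous.measurable (by fun_prop)
  have m2 : Measurable fun w => ε * √(DD G ρ N w) := mD.sqrt.const_mul ε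
  rw [e1]
  refine ⟨((m1.add m2).add mb.norm).const_mul Ca, cmul (by linarith) ?_⟩
  rw [← eLpNorm_norm] at hb
  refine (add3 m1 m2 mb.norm (by positivity) (by positivity) (by positivity)
    (e_norm1 h _ _ (by positivity) (by positivity)) (cmul hε.le nD) hb).trans (ENNReal.ofReal_le_ofReal ?_)
  have b1 : δ * ε ^ 2 * √d ≤ e := by
    have := mul_le_mul_of_nonneg_right hδ (show 0 ≤ ε ^ 2 * √d by positivity)
    linarith [hn.a2]
  have b2 := mul_le_mul_of_nonneg_left (add_le_add (add_le_add (add_le_add hn.a3 hn.a4) hn.a5) b1)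
    (show 0 ≤ Cb by linarith)
  linarith [hn.a1, hn.a2]

lemma mixed (hRel : RelApi) (hRev : StmtRev) (hMeas : StmtMeas) {ε ρ t e0 : ℝ} {G : E d → E d} {N : ℕ}
    {p : Par} (π2 : Measure (ℝ × ℝ)) (π3 : Measure (ℝ × ℝ × ℝ × ℝ)) [IsProbabilityMeasure π2]
    [IsProbabilityMeasure π3] (hA : AaApi ε ρ G) (hG : Continuous G) (hρ : ρ ^ 2 ≤ 1) (e : E d → ℝ)
    (me : Measurable e) (h0 : ∀ w, 0 ≤ e w) (h0' : 0 ≤ e0)
    (h : ∀ w, Rel (((gN d N).prod (gs d)).map fun q => w - AA G ρ N w q.1 + (√2 * t) • q.2)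
      ((swM d π2 π3).map (primW p G t w)) (e w)) (ne : eLpNorm e 2 (gs d) ≤ ENNReal.ofReal e0) :
    IsProbabilityMeasure ((sdM d π2 π3).map (prim p G t)) ∧
      Rel (sm (ch G ρ N) (√2 * t)) ((sdM d π2 π3).map (prim p G t)) e0 := by
  have iw : IsProbabilityMeasure (swM d π2 π3) := by unfold swM; infer_instance
  have id : IsProbabilityMeasure (sdM d π2 π3) := by unfold sdM; infer_instance
  have mp := meas_prim hMeas p G t hG
  refine ⟨Measure.isProbabilityMeasure_map mp.aemeasurable, ?_⟩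
  rw [(sm_ch hRev hA hG hρ N (√2 * t)).2]
  exact hRel.mix (E d) ((Fin N → E d) × E d) (Sw d) (E d) (gs d) ((gN d N).prod (gs d))
    (swM d π2 π3) _ (prim p G t) e e0 (meas_f hA N _) mp me h0 h0' h ne

end Primm

open PA0m Primm in
theorem stmtPrim (h1 : StmtG1) (h2 : StmtG2) (hRel : RelApi) (hIde : StmtIde) (hRev : StmtRev)
    (hQuad : StmtQuad) (hB2 : StmtB2) (hPi2 : StmtPi2) (hPI : StmtPI) (hPA1 : StmtPA1) (hAa : StmtAa)
    (hMean : StmtMean) (hOU : StmtOU) (hMeas : StmtMeas) : StmtPrim := by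
  obtain ⟨Cq, hCq, hq⟩ := hQuad
  obtain ⟨Cb, hCb, hb⟩ := hB2
  obtain ⟨Ca, hCa, ha⟩ := hPA1
  have hK : 0 ≤ Ca * (9 + Cb * (2 * Cb + 3)) := by positivity
  refine ⟨256 + 16 * Cb + Ca + Cq + 1 + Ca * (9 + Cb * (2 * Cb + 3)), by linarith, ?_⟩
  intro d ε e hd hε hεd hC he h3
  have hd1 : 1 ≤ d := by omega
  have hD : (2 : ℝ) ≤ d := by exact_mod_cast hd
  have h4 : 0 ≤ ε ^ 4 * d := by positivity
  have mono : ∀ c : ℝ, c ≤ 256 + 16 * Cb + Ca + Cq + 1 + Ca * (9 + Cb * (2 * Cb + 3)) →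
      c * ε ^ 4 * d ≤ 1 := fun c hc => by
    have := mul_le_mul_of_nonneg_right hc h4
    linarith
  have hε' : ε ≤ 1 / 4 := by
    rw [← pow_le_pow_iff_left₀ hε.le (by norm_num) (n := 4) (by norm_num)]
    have a1 := mono 256 (by linarith)
    have a2 := mul_le_mul_of_nonneg_left hD (show 0 ≤ ε ^ 4 by positivity)
    have a3 : 0 ≤ ε ^ 4 := by positivity
    linarith
  obtain ⟨ka, hn⟩ := num ε e d Cb hε he (by linarith) hCb hεd (mono _ (by linarith)) h3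
  have hδ : 0 < min ε (e ^ 2 / 4) := lt_min hε (by positivity)
  obtain ⟨ρ, N, hρ, hρ', hN, hI⟩ := hIde d 1 _ hδ
  have hdi : (d : ℝ)⁻¹ ≤ 1 / 2 := by rw [inv_le_comm₀ (by linarith) (by norm_num)]; linarith
  obtain ⟨J, om, tau, hJ, o1, o2, o3, hQ⟩ := hq (d : ℝ)⁻¹ ρ N (by positivity) hdi hρ hρ'
  let p : Par := ⟨J, om, tau, ka, e / d⟩
  have hp : p.Ok := ⟨o1, o2, o3⟩
  have hde : 0 < p.de := div_pos he (by linarith)
  obtain ⟨π3, i3, a3, hπ⟩ := hPI ρ N p hρ hρ' hp hde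
  obtain ⟨i2, a2⟩ := hPi2 ρ ka N (by linarith) hρ'.le
  refine ⟨p, pi2 ρ ka N, π3, i2, i3, ?_, fun t W G ht ht' hW hG => ?_⟩
  · rw [inv_inv] at hJ
    exact hJ.trans (mul_le_mul_of_nonneg_right (by linarith) (sq_nonneg _))
  have hGc : Continuous G := hG.c1.continuous
  have hA := hAa d ε ρ G hd1 hε.le hε' hρ hρ' hG
  obtain ⟨iμ, hI'⟩ := hI W G hW (fun x y => (hG.lip x y).trans
    (mul_le_mul_of_nonneg_right (by linarith) (norm_nonneg _))) (hG.zero.trans (by linarith))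
  have ic := (sm_ch hRev hA hGc (by nlinarith) N (√2 * t)).1
  have r1 := rel_tv (h2 d) hRel (mu W) (ch G ρ N) t e _ ht he.le (min_le_right _ _) hI'
  obtain ⟨mb, nb⟩ := hb d ε ρ _ _ G p N hd1 hε hε' hρ hρ' hG hp hn.k0 hn.k1 hn.k4 (by positivity) hN
    (d1 hMean (hOU d) hd1 hε.le hε' hρ hρ' hG (by positivity) (hQ d ε G hG.lip))
  obtain ⟨me, ne⟩ := err (N := N) (h1 d) hA hn hε he hCa hCb hδ.le (min_le_left _ _)
    (show p.de * d = e from div_mul_cancel₀ e (by linarith)) mb nb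
  obtain ⟨j3, r2⟩ := mixed hRel hRev hMeas (pi2 ρ ka N) π3 hA hGc (by nlinarith) _ me
    (fun w => by positivity) (by positivity)
    (fun w => ha d ε ρ t e G p N (pi2 ρ ka N) π3 w hd hε.le hε' hρ hρ' hG hp (hε.le.trans hn.k0) hn.k1 hde
      a2 a3 ht ht' (mono _ (by linarith)) he.le h3 (hπ d ε G hd1 hε.le hε' hG w)) ne
  have j1 := sm_prob (mu W) (√2 * t)
  have j2 := sm_prob (ch G ρ N) (√2 * t)
  refine hRel.mono _ _ _ _ _ (by positivity) ?_ (hRel.tri _ _ _ _ _ _ he.le (by positivity) r1 r2)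
  have := mul_nonneg (show 0 ≤ 256 + 16 * Cb + Ca + Cq by linarith) he.le
  linarith

end

end Vale.Agent.P347
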