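import Vale.Agent.P347.Spec

open Finset

namespace Vale.Agent.P347

namespace QA1m

variable {L : Type} [AddCommGroup L] [Module ℝ L] (B : L →ₗ[ℝ] L →ₗ[ℝ] ℝ) (S : L →ₗ[ℝ] L)

theorem adj (h3 : ∀ x y, B (S x) y = B x (S y)) (k : ℕ) (x y : L) :
    B ((S ^ k) x) y = B x ((S ^ k) y) := by
  induction k generalizing x y with
  | zero => simp
  | succ k ih =>
    rw [pow_succ, Module.End.mul_apply, ih, h3, ← Module.End.mul_apply, ← pow_succ', ← pow_succ]

theorem contr (h4 : ∀ x, B (S x) (S x) ≤ B x x) (k : ℕ) (x : L) :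
    B ((S ^ k) x) ((S ^ k) x) ≤ B x x := by
  induction k with
  | zero => simp
  | succ k ih => rw [pow_succ', Module.End.mul_apply]; exact (h4 _).trans ih

theorem one (h1 : ∀ x y, B x y = B y x) (h2 : ∀ x, 0 ≤ B x x) (h3 : ∀ x y, B (S x) y = B x (S y))
    (h4 : ∀ x, B (S x) (S x) ≤ B x x) (k : ℕ) (x : L) :
    (k : ℝ) ^ 2 * B (((1 - S * S) * (S * S) ^ k) x) (((1 - S * S) * (S * S) ^ k) x) ≤ B x x := by
  set a : ℕ → ℝ := fun j => B ((S ^ j) x) ((S ^ j) x) with ha
  set y := (1 - S * S) x with hy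
  set c : ℕ → ℝ := fun j => B ((S ^ j) y) ((S ^ j) y) with hc
  have hcm : ∀ j, (S ^ j) y = (S ^ j) x - (S ^ (j + 2)) x := fun j => by
    rw [hy, LinearMap.sub_apply, map_sub, Module.End.one_apply, ← Module.End.mul_apply, pow_add, sq]
  have hac : ∀ j, c j = a j - 2 * a (j + 1) + a (j + 2) := fun j => by
    have e : B ((S ^ j) x) ((S ^ (j + 2)) x) = a (j + 1) := by
      rw [pow_succ' S (j + 1), Module.End.mul_apply, ← h3, ← Module.End.mul_apply, ← pow_succ']
    simp only [hc, hcm, map_sub, LinearMap.sub_apply]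
    rw [e, h1 ((S ^ (j + 2)) x), e]; ring
  have a0 : ∀ j, 0 ≤ a j := fun j => h2 _
  have c0 : ∀ j, 0 ≤ c j := fun j => h2 _
  have ad : ∀ j, a (j + 1) ≤ a j := fun j => by
    simp only [ha]; rw [pow_succ', Module.End.mul_apply]; exact h4 _
  have cd : Antitone c := antitone_nat_of_succ_le fun j => by
    simp only [hc]; rw [pow_succ', Module.End.mul_apply]; exact h4 _
  have bd : Antitone fun j => a j - a (j + 1) := antitone_nat_of_succ_le fun j => by
    have := c0 j; have := hac j; linarith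
  have s1 : ∀ n : ℕ, (n : ℝ) * (a k - a (k + 1)) ≤ a (k - n) - a k ∨ k < n := fun n => by
    induction n with
    | zero => simp
    | succ n ih =>
      by_cases h : k < n + 1
      · exact Or.inr h
      · left
        have h5 := ih.resolve_right (by omega)
        have h6 : a k - a (k + 1) ≤ a (k - (n + 1)) - a (k - (n + 1) + 1) :=
          bd (show k - (n + 1) ≤ k by omega)
        rw [show k - (n + 1) + 1 = k - n by omega] at h6
        push_cast; linarith
  have s2 : ∀ n : ℕ, n ≤ k → (n : ℝ) * c (2 * k) ≤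
      (a k - a (k + 1)) - (a (k + n) - a (k + n + 1)) := fun n => by
    induction n with
    | zero => simp
    | succ n ih =>
      intro h
      have h5 := ih (by omega)
      have h6 : c (2 * k) ≤ c (k + n) := cd (by omega)
      have h7 := hac (k + n)
      rw [← add_assoc]
      push_cast; linarith
  have h5 := (s1 k).resolve_right (lt_irrefl _)
  have h6 := s2 k le_rfl
  rw [Nat.sub_self] at h5
  have e : ((1 - S * S) * (S * S) ^ k) x = (S ^ (2 * k)) y := by
    rw [hy, ← Module.End.mul_apply, pow_mul, sq]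
    congr 1
    exact (((Commute.one_left _).sub_left (Commute.refl (S * S))).pow_right k).eq
  rw [e]
  have h7 : a 0 = B x x := by simp [ha]
  have h8 := ad (k + k)
  have h9 := a0 k
  have hk : (0 : ℝ) ≤ k := Nat.cast_nonneg k
  have h10 : (k : ℝ) * (k * c (2 * k)) ≤ k * (a k - a (k + 1)) :=
    mul_le_mul_of_nonneg_left (by linarith) hk
  show (k : ℝ) ^ 2 * c (2 * k) ≤ _
  nlinarith

end QA1m

theorem stmtQA1 : StmtQA1 := by
  intro L _ _ B S h1 h2 h3 h4 i n x hi hn
  set k := n / i with hk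
  have hk1 : 1 ≤ k := (Nat.le_div_iff_mul_le (by omega)).mpr (by omega)
  have hkr : (0 : ℝ) < k := by exact_mod_cast hk1
  set T := (1 - S * S) * (S * S) ^ k with hT
  have it : ∀ (j : ℕ) (z : L), ((k : ℝ) ^ j) ^ 2 * B ((T ^ j) z) ((T ^ j) z) ≤ B z z := fun j => by
    induction j with
    | zero => simp
    | succ j ih =>
      intro z
      have e1 := QA1m.one B S h1 h2 h3 h4 k ((T ^ j) z)
      have e2 := ih z
      rw [pow_succ' T, Module.End.mul_apply]
      have e3 := mul_le_mul_of_nonneg_left e1 (sq_nonneg ((k : ℝ) ^ j))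
      calc _ = ((k : ℝ) ^ j) ^ 2 * ((k : ℝ) ^ 2 * B (T ((T ^ j) z)) (T ((T ^ j) z))) := by ring
        _ ≤ _ := e3.trans e2
  have hc : Commute (1 - S * S) ((S * S) ^ k) :=
    ((Commute.one_left _).sub_left (Commute.refl (S * S))).pow_right k
  have e : ((1 - S * S) ^ i * (S * S) ^ n) x = (T ^ i) ((S ^ (2 * (n % i))) x) := by
    rw [hT, hc.mul_pow, ← Module.End.mul_apply, ← pow_mul, pow_mul S 2, sq, mul_assoc, ← pow_add,
      hk, Nat.div_add_mod']
  rw [e]
  have e1 := (it i ((S ^ (2 * (n % i))) x)).trans (QA1m.contr B S h4 _ x)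
  have hn0 : (0 : ℝ) < n := by exact_mod_cast (show 0 < n by omega)
  have e2 : (n : ℝ) ≤ 2 * i * k := by
    have h5 := Nat.div_add_mod n i
    have h6 := Nat.mod_lt n (show 0 < i by omega)
    have : n ≤ 2 * i * k := by rw [← hk] at h5; nlinarith
    exact_mod_cast this
  have e3 : (k : ℝ)⁻¹ ≤ 2 * i / n := by
    rw [le_div_iff₀ hn0, inv_mul_le_iff₀ hkr]; linarith
  refine le_trans ?_ (mul_le_mul_of_nonneg_right (pow_le_pow_left₀ (by positivity) e3 i)
    (Real.sqrt_nonneg _))
  rw [← Real.sqrt_sq (show 0 ≤ ((k : ℝ)⁻¹) ^ i by positivity), ← Real.sqrt_mul (sq_nonneg _)]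
  refine Real.sqrt_le_sqrt ?_
  rw [inv_pow, inv_pow, le_inv_mul_iff₀ (by positivity)]
  exact e1

end Vale.Agent.P347
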