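import Vale.Agent.P347.Spec

open MeasureTheory ProbabilityTheory Finset
open scoped RealInnerProductSpace

namespace Vale.Agent.P347

namespace Quadm

/-- Lipschitz maps -/
def LL (d : ℕ) : Submodule ℝ (E d → E d) where
  carrier := {Φ | ∃ K, 0 ≤ K ∧ LipF K Φ}
  zero_mem' := ⟨0, le_rfl, fun x y => by simp⟩
  add_mem' := by
    rintro Φ Ψ ⟨K, hK, h⟩ ⟨K', hK', h'⟩
    refine ⟨K + K', by positivity, fun x y => ?_⟩
    simp only [Pi.add_apply]
    rw [add_sub_add_comm]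
    linarith [norm_add_le (Φ x - Φ y) (Ψ x - Ψ y), h x y, h' x y]
  smul_mem' := by
    rintro c Φ ⟨K, hK, h⟩
    refine ⟨|c| * K, by positivity, fun x y => ?_⟩
    simp only [Pi.smul_apply]
    rw [← smul_sub, norm_smul, Real.norm_eq_abs, mul_assoc]
    exact mul_le_mul_of_nonneg_left (h x y) (abs_nonneg c)

variable {d : ℕ} (h : OUApi d)

include h in
lemma mem (Φ : LL d) : MemLp Φ.1 2 (gs d) := by
  obtain ⟨K, -, hK⟩ := Φ.2
  simpa using h.int K Φ.1 hK 0 1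

include h in
lemma intg (Φ : LL d) (x : E d) (s : ℝ) : Integrable (fun g => Φ.1 (x + s • g)) (gs d) := by
  obtain ⟨K, -, hK⟩ := Φ.2
  exact (h.int K Φ.1 hK x s).integrable one_le_two

/-- the map into the Hilbert space -/
noncomputable def TT : LL d →ₗ[ℝ] Lp (E d) 2 (gs d) where
  toFun Φ := (mem h Φ).toLp Φ.1
  map_add' Φ Ψ := MemLp.toLp_add (mem h Φ) (mem h Ψ)
  map_smul' c Φ := MemLp.toLp_const_smul c (mem h Φ)

/-- the smoothing operator -/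
noncomputable def SS {τ : ℝ} (hτ : τ ^ 2 ≤ 1) : LL d →ₗ[ℝ] LL d where
  toFun Φ := ⟨OU τ Φ.1, by
    obtain ⟨K, hK0, hK⟩ := Φ.2
    exact ⟨K, hK0, h.lip K τ Φ.1 hK0 hτ hK⟩⟩
  map_add' Φ Ψ := Subtype.ext (funext fun w => integral_add (intg h Φ _ _) (intg h Ψ _ _))
  map_smul' c Φ := Subtype.ext (funext fun w => integral_smul c fun g => Φ.1 (τ • w + sg τ • g))

lemma TT_norm (Φ : LL d) : eLpNorm Φ.1 2 (gs d) = ENNReal.ofReal ‖TT h Φ‖ := by
  rw [show ‖TT h Φ‖ = _ from Lp.norm_toLp Φ.1 (mem h Φ),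
    ENNReal.ofReal_toReal (mem h Φ).eLpNorm_ne_top]

lemma TT_inner (Φ Ψ : LL d) : ⟪TT h Φ, TT h Ψ⟫ = ∫ x, ⟪Φ.1 x, Ψ.1 x⟫ ∂gs d := by
  rw [L2.inner_def]
  refine integral_congr_ae ?_
  filter_upwards [(mem h Φ).coeFn_toLp, (mem h Ψ).coeFn_toLp] with x h1 h2
  rw [← h1, ← h2]
  rfl

lemma contr {τ : ℝ} (hτ : τ ^ 2 ≤ 1) (Φ : LL d) : ‖TT h (SS h hτ Φ)‖ ≤ ‖TT h Φ‖ := by
  obtain ⟨K, -, hK⟩ := Φ.2
  rw [← ENNReal.ofReal_le_ofReal_iff (norm_nonneg _), ← TT_norm, ← TT_norm]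
  exact h.contr K τ Φ.1 hτ hK

lemma symm {τ : ℝ} (hτ : τ ^ 2 ≤ 1) (Φ Ψ : LL d) :
    ⟪TT h (SS h hτ Φ), TT h Ψ⟫ = ⟪TT h Φ, TT h (SS h hτ Ψ)⟫ := by
  obtain ⟨K, -, hK⟩ := Φ.2
  obtain ⟨K', -, hK'⟩ := Ψ.2
  rw [TT_inner, TT_inner]
  exact h.symm K K' τ Φ.1 Ψ.1 hτ hK hK'

lemma pow_eq {ρ : ℝ} (h0 : 0 ≤ ρ) (h1 : ρ ≤ 1) (hτ : √ρ ^ 2 ≤ 1) (Φ : LL d) (k : ℕ) :
    (((SS h hτ * SS h hτ) ^ k) Φ).1 = OU (ρ ^ k) Φ.1 := by
  obtain ⟨K, hK0, hK⟩ := Φ.2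
  induction k with
  | zero =>
    funext w
    simp [OU, sg]
  | succ k ih =>
    have hk : (ρ ^ k) ^ 2 ≤ 1 := pow_le_one₀ (by positivity) (pow_le_one₀ h0 h1)
    rw [pow_succ', Module.End.mul_apply, Module.End.mul_apply]
    change OU √ρ (OU √ρ (((SS h hτ * SS h hτ) ^ k) Φ).1) = _
    rw [ih, h.semi K _ _ _ hτ hτ (h.lip K _ _ hK0 hk hK), Real.mul_self_sqrt h0,
      h.semi K _ _ _ (pow_le_one₀ h0 h1) hk hK, pow_succ']

lemma pow_contr {τ : ℝ} (hτ : τ ^ 2 ≤ 1) (Φ : LL d) (k : ℕ) :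
    ‖TT h (((SS h hτ * SS h hτ) ^ k) Φ)‖ ≤ ‖TT h Φ‖ := by
  induction k with
  | zero => simp
  | succ k ih =>
    rw [pow_succ', Module.End.mul_apply, Module.End.mul_apply]
    exact (contr h hτ _).trans ((contr h hτ _).trans ih)

end Quadm

open Quadm in
theorem stmtQuad (hQA1 : StmtQA1) (hQA2 : StmtQA2) (hOU : StmtOU) : StmtQuad := by
  obtain ⟨C, hC, hQ⟩ := hQA2
  refine ⟨C, hC, fun δ ρ N hδ hδ2 hρ hρ1 => ?_⟩
  obtain ⟨J, om, n, hJ, hom, hsum, hν⟩ := hQ δ ρ N hδ hδ2 hρ hρ1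
  have hρ0 : 0 ≤ ρ := by linarith
  refine ⟨J, om, fun j => ρ ^ n j, hJ, hom, hsum,
    fun j => ⟨by positivity, pow_le_one₀ hρ0 hρ1.le⟩, fun d K Φ hΦ => ?_⟩
  have h := hOU d
  have hτ : √ρ ^ 2 ≤ 1 := by rw [Real.sq_sqrt hρ0]; exact hρ1.le
  let x : LL d := ⟨Φ, |K|, abs_nonneg K, fun a b =>
    (hΦ a b).trans (mul_le_mul_of_nonneg_right (le_abs_self K) (norm_nonneg _))⟩
  set P := SS h hτ * SS h hτ with hP
  have hA := hQA1 (LL d) ((innerₗ _).compl₁₂ (TT h) (TT h)) (SS h hτ)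
    (fun a b => by simp [real_inner_comm]) (fun a => by simp)
    (fun a b => by simpa using symm h hτ a b)
    (fun a => by simpa using pow_le_pow_left₀ (norm_nonneg _) (contr h hτ a) 2)
  have key : ∀ c : ℝ, 0 < c → ‖TT h x‖ ≤ c → ‖TT h (Polynomial.aeval P
      (∑ r ∈ range N, aw ρ r • Polynomial.X ^ (r + 1) - ∑ j, om j • Polynomial.X ^ n j :
        Polynomial ℝ) x)‖ ≤ δ * c := by
    intro c hc hx
    refine (div_le_iff₀ hc).1 (hν (fun q => ‖TT h (Polynomial.aeval P q x)‖ / c) (fun p q => ?_)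
      (fun a p => ?_) (fun k => ?_) fun i k hi hik => ?_)
    · rw [← add_div, map_add, LinearMap.add_apply, map_add]
      exact div_le_div_of_nonneg_right (norm_add_le _ _) hc.le
    · rw [map_smul, LinearMap.smul_apply, map_smul, norm_smul, Real.norm_eq_abs, mul_div_assoc]
    · rw [div_le_one hc, map_pow, Polynomial.aeval_X]
      exact (pow_contr h hτ x k).trans hx
    · have := hA i k x hi hik
      simp only [LinearMap.compl₁₂_apply, innerₗ_apply_apply, real_inner_self_eq_norm_sq,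
        Real.sqrt_sq (norm_nonneg _)] at this
      rw [div_le_iff₀ hc, map_mul, map_pow, map_pow, map_sub, map_one, Polynomial.aeval_X]
      exact this.trans (mul_le_mul_of_nonneg_left hx (by positivity))
  have e : (fun w => ∑ r ∈ range N, aw ρ r • OU (ρ ^ (r + 1)) Φ w - ∑ j, om j • OU (ρ ^ n j) Φ w) =
      (Polynomial.aeval P (∑ r ∈ range N, aw ρ r • Polynomial.X ^ (r + 1) -
        ∑ j, om j • Polynomial.X ^ n j : Polynomial ℝ) x).1 := by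
    funext w
    simp only [map_sub, map_sum, map_smul, map_pow, Polynomial.aeval_X, LinearMap.sub_apply,
      LinearMap.sum_apply, LinearMap.smul_apply, Submodule.coe_sub, Submodule.coe_sum,
      Submodule.coe_smul, hP, pow_eq h hρ0 hρ1.le hτ, Pi.sub_apply, Finset.sum_apply,
      Pi.smul_apply, x]
  rw [e, TT_norm h, show eLpNorm Φ 2 (gs d) = _ from TT_norm h x, ← ENNReal.ofReal_mul hδ.le]
  refine ENNReal.ofReal_le_ofReal (le_of_forall_pos_le_add fun ε hε => ?_)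
  refine (key (‖TT h x‖ + ε / δ) (by positivity) (le_add_of_nonneg_right (by positivity))).trans
    (le_of_eq ?_)
  field_simp

end Vale.Agent.P347
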