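import Vale.Agent.P347.Spec

open MeasureTheory ProbabilityTheory

namespace Vale.Agent.P347

namespace Revm

variable {d : ℕ}

theorem mp_tail (d N : ℕ) : MeasurePreserving (fun g : Fin (N + 1) → E d => (g 0, Fin.tail g))
    (gN d (N + 1)) ((gs d).prod (gN d N)) :=
  measurePreserving_piFinSuccAbove (fun _ : Fin (N + 1) => gs d) 0

theorem mp_split (d N : ℕ) : MeasurePreserving
    (fun p : E d × (Fin (N + 1) → E d) => ((p.1, p.2 0), Fin.tail p.2))
    ((gs d).prod (gN d (N + 1))) (((gs d).prod (gs d)).prod (gN d N)) :=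
  (MeasureTheory.measurePreserving_prodAssoc (gs d) (gs d) (gN d N)).symm.comp
    ((MeasurePreserving.id (gs d)).prod (mp_tail d N))

theorem mp_rearr {X Y Z : Type} [MeasurableSpace X] [MeasurableSpace Y] [MeasurableSpace Z]
    (μ : Measure X) (ν : Measure Y) (κ : Measure Z) [SFinite μ] [SFinite ν] [SFinite κ] :
    MeasurePreserving (fun p : (X × Y) × Z => ((p.1.1, p.2), p.1.2)) ((μ.prod ν).prod κ)
      ((μ.prod κ).prod ν) :=
  (MeasureTheory.measurePreserving_prodAssoc μ κ ν).symm.comp
    (((MeasurePreserving.id μ).prod (Measure.measurePreserving_swap (μ := ν) (ν := κ))).comp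
      (MeasureTheory.measurePreserving_prodAssoc μ ν κ))

theorem cont_tail (N : ℕ) : Continuous fun g : Fin (N + 1) → E d => Fin.tail g :=
  continuous_pi fun i => continuous_apply i.succ

theorem cont_AA {G : E d → E d} (hG : Continuous G) (ρ : ℝ) :
    ∀ N, Continuous fun p : E d × (Fin N → E d) => AA G ρ N p.1 p.2
  | 0 => continuous_const
  | N + 1 => by
    have h1 : Continuous fun p : E d × (Fin (N + 1) → E d) => ρ • p.1 + sg ρ • p.2 0 := by fun_prop
    have h2 := (cont_AA hG ρ N).comp (h1.prodMk ((cont_tail N).comp continuous_snd))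
    exact (h2.const_smul ρ).add ((hG.comp (h1.sub h2)).const_smul (1 - ρ))

theorem cont_A0 {G : E d → E d} (hG : Continuous G) (ρ : ℝ) :
    ∀ N, Continuous fun p : E d × (Fin N → E d) => A0 G ρ N p.1 p.2
  | 0 => continuous_const
  | N + 1 => by
    have h1 : Continuous fun p : E d × (Fin (N + 1) → E d) => ρ • p.1 + sg ρ • p.2 0 := by fun_prop
    have h2 := (cont_A0 hG ρ N).comp (h1.prodMk ((cont_tail N).comp continuous_snd))
    exact (h2.const_smul ρ).add ((hG.comp h1).const_smul (1 - ρ))

end Revm

open Revm in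
theorem stmtRev (h2 : StmtG2) : StmtRev := by
  intro d G ρ N hG hρ
  induction N with
  | zero => simp [AA, ch]
  | succ N ih =>
    have hA := cont_AA hG ρ N
    let Φ : (E d × E d) × (Fin N → E d) → E d := fun q =>
      q.1.1 - (ρ • AA G ρ N q.1.2 q.2 + (1 - ρ) • G (q.1.2 - AA G ρ N q.1.2 q.2))
    have hA' : Continuous fun q : (E d × E d) × (Fin N → E d) => AA G ρ N q.1.2 q.2 :=
      hA.comp (continuous_fst.snd.prodMk continuous_snd)
    have hΦ : Measurable Φ := (continuous_fst.fst.sub ((hA'.const_smul ρ).add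
      ((hG.comp (continuous_fst.snd.sub hA')).const_smul (1 - ρ)))).measurable
    let S : E d × E d → E d × E d := fun p => (p.1, ρ • p.1 + sg ρ • p.2)
    let S' : E d × E d → E d × E d := fun p => (ρ • p.1 + sg ρ • p.2, p.1)
    have hS : Measurable S := by fun_prop
    have hS' : Measurable S' := by fun_prop
    let f : E d × (Fin N → E d) → E d := fun p => p.1 - AA G ρ N p.1 p.2
    have hf : Measurable f := (continuous_fst.sub hA).measurable
    let st : E d × E d → E d := fun p => ρ • p.1 - (1 - ρ) • G p.1 + sg ρ • p.2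
    have hst : Measurable st := by
      have : Continuous st := by fun_prop
      exact this.measurable
    have e1 : (fun p : E d × (Fin (N + 1) → E d) => p.1 - AA G ρ (N + 1) p.1 p.2) =
        Φ ∘ (Prod.map S id) ∘ fun p => ((p.1, p.2 0), Fin.tail p.2) := rfl
    have e2 : Φ ∘ (Prod.map S' id) = st ∘ (Prod.map f id) ∘ fun p => ((p.1.1, p.2), p.1.2) := by
      funext q
      simp only [Φ, S', st, f, Function.comp, Prod.map, id, smul_sub]
      abel
    rw [e1, ← Measure.map_map hΦ ((hS.prodMap measurable_id).comp (mp_split d N).measurable),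
      ← Measure.map_map (hS.prodMap measurable_id) (mp_split d N).measurable,
      (mp_split d N).map_eq, ← Measure.map_prod_map _ _ hS measurable_id, (h2 d).swap ρ hρ,
      Measure.map_prod_map _ _ hS' measurable_id, Measure.map_map hΦ (hS'.prodMap measurable_id), e2,
      ← Measure.map_map hst ((hf.prodMap measurable_id).comp (mp_rearr (gs d) (gs d) (gN d N)).measurable),
      ← Measure.map_map (hf.prodMap measurable_id) (mp_rearr (gs d) (gs d) (gN d N)).measurable,
      (mp_rearr _ _ _).map_eq, ← Measure.map_prod_map _ _ hf measurable_id, Measure.map_id, ih]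
    rfl

end Vale.Agent.P347
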