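import Vale.Agent.P347.Spec

open MeasureTheory ProbabilityTheory Finset
open scoped RealInnerProductSpace ENNReal

namespace Vale.Agent.P347

namespace S0m

noncomputable section

variable {d : ℕ}

theorem dual2 (L : StrongDual ℝ (E d × E d)) :
    ∃ p q : E d, ∀ y y' : E d, L (y, y') = ⟪y, p⟫ + ⟪y', q⟫ := by
  refine ⟨(InnerProductSpace.toDual ℝ (E d)).symm (L.comp (ContinuousLinearMap.inl ℝ _ _)),
    (InnerProductSpace.toDual ℝ (E d)).symm (L.comp (ContinuousLinearMap.inr ℝ _ _)), ?_⟩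
  intro y y'
  rw [real_inner_comm, real_inner_comm _ y', InnerProductSpace.toDual_symm_apply,
    InnerProductSpace.toDual_symm_apply]
  simp only [ContinuousLinearMap.comp_apply, ContinuousLinearMap.inl_apply,
    ContinuousLinearMap.inr_apply]
  rw [← map_add]
  simp

theorem cf_gs (t : E d) : ∫ x, Complex.exp ((⟪x, t⟫ : ℝ) * Complex.I) ∂gs d =
    Complex.exp (((-(‖t‖ ^ 2) / 2 : ℝ) : ℂ)) := by
  have h := charFun_stdGaussian (E := E d) t
  rw [charFun_apply] at h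
  rw [h]
  push_cast
  rfl

theorem nsq (p q : E d) (a b : ℝ) :
    ‖a • p + b • q‖ ^ 2 = a ^ 2 * ‖p‖ ^ 2 + 2 * (a * b) * ⟪p, q⟫ + b ^ 2 * ‖q‖ ^ 2 := by
  rw [norm_add_sq_real, norm_smul, norm_smul, real_inner_smul_left, real_inner_smul_right,
    mul_pow, mul_pow, Real.norm_eq_abs, Real.norm_eq_abs, sq_abs, sq_abs]
  ring

theorem law (N : ℕ) (a b : Fin N → ℝ) (s s' θ : ℝ) (ha : ∑ k, a k ^ 2 = s ^ 2)
    (hb : ∑ k, b k ^ 2 = s' ^ 2) (hab : ∑ k, a k * b k = s * s' * Real.sin θ ^ 2) :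
    (gN d N).map (fun g => (∑ k, a k • g k, ∑ k, b k • g k)) =
    (g3 d).map (fun z => (s • (Real.sin θ • z.1 + Real.cos θ • z.2.1),
      s' • (Real.sin θ • z.1 + Real.cos θ • z.2.2))) := by
  have m1 : Measurable fun g : Fin N → E d => (∑ k, a k • g k, ∑ k, b k • g k) := by fun_prop
  have m2 : Measurable fun z : E d × E d × E d => (s • (Real.sin θ • z.1 + Real.cos θ • z.2.1),
      s' • (Real.sin θ • z.1 + Real.cos θ • z.2.2)) := by fun_prop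
  refine Measure.ext_of_charFunDual ?_
  funext L
  obtain ⟨p, q, hL⟩ := dual2 L
  rw [charFunDual_apply, charFunDual_apply, integral_map m1.aemeasurable (by fun_prop),
    integral_map m2.aemeasurable (by fun_prop)]
  have e1 : ∀ g : Fin N → E d, Complex.exp ((L (∑ k, a k • g k, ∑ k, b k • g k) : ℝ) * Complex.I) =
      ∏ k, Complex.exp ((⟪g k, a k • p + b k • q⟫ : ℝ) * Complex.I) := by
    intro g
    rw [← Complex.exp_sum, ← Finset.sum_mul, hL, sum_inner, sum_inner, ← Finset.sum_add_distrib]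
    push_cast
    congr 2
    refine Finset.sum_congr rfl fun k _ => ?_
    rw [inner_add_right, real_inner_smul_left, real_inner_smul_left, real_inner_smul_right,
      real_inner_smul_right]
    push_cast
    rfl
  have e2 : ∀ z : E d × E d × E d, Complex.exp ((L (s • (Real.sin θ • z.1 + Real.cos θ • z.2.1),
      s' • (Real.sin θ • z.1 + Real.cos θ • z.2.2)) : ℝ) * Complex.I) =
      Complex.exp ((⟪z.1, (s * Real.sin θ) • p + (s' * Real.sin θ) • q⟫ : ℝ) * Complex.I) *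
      (Complex.exp ((⟪z.2.1, (s * Real.cos θ) • p + (0 : ℝ) • q⟫ : ℝ) * Complex.I) *
       Complex.exp ((⟪z.2.2, (0 : ℝ) • p + (s' * Real.cos θ) • q⟫ : ℝ) * Complex.I)) := by
    intro z
    rw [← Complex.exp_add, ← Complex.exp_add, hL, ← add_mul, ← add_mul, ← Complex.ofReal_add,
      ← Complex.ofReal_add]
    congr 3
    simp only [inner_add_left, inner_add_right, real_inner_smul_left, real_inner_smul_right]
    ring
  simp_rw [e1, e2]
  rw [integral_fintype_prod_eq_prod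
    (f := fun k (x : E d) => Complex.exp ((⟪x, a k • p + b k • q⟫ : ℝ) * Complex.I))]
  rw [integral_prod_mul (f := fun x : E d =>
      Complex.exp ((⟪x, (s * Real.sin θ) • p + (s' * Real.sin θ) • q⟫ : ℝ) * Complex.I))
    (g := fun z : E d × E d =>
      Complex.exp ((⟪z.1, (s * Real.cos θ) • p + (0 : ℝ) • q⟫ : ℝ) * Complex.I) *
       Complex.exp ((⟪z.2, (0 : ℝ) • p + (s' * Real.cos θ) • q⟫ : ℝ) * Complex.I))]
  rw [integral_prod_mul (f := fun x : E d =>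
      Complex.exp ((⟪x, (s * Real.cos θ) • p + (0 : ℝ) • q⟫ : ℝ) * Complex.I))
    (g := fun x : E d =>
       Complex.exp ((⟪x, (0 : ℝ) • p + (s' * Real.cos θ) • q⟫ : ℝ) * Complex.I))]
  simp_rw [cf_gs]
  rw [← Complex.exp_sum, ← Complex.exp_add, ← Complex.exp_add, ← Complex.ofReal_sum,
    ← Complex.ofReal_add, ← Complex.ofReal_add]
  congr 2
  simp_rw [nsq]
  have e3 : ∑ k, -(a k ^ 2 * ‖p‖ ^ 2 + 2 * (a k * b k) * ⟪p, q⟫ + b k ^ 2 * ‖q‖ ^ 2) / 2 =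
      -((∑ k, a k ^ 2) * ‖p‖ ^ 2 + 2 * (∑ k, a k * b k) * ⟪p, q⟫ + (∑ k, b k ^ 2) * ‖q‖ ^ 2) / 2 := by
    rw [Finset.sum_mul, Finset.mul_sum, Finset.sum_mul, Finset.sum_mul, ← Finset.sum_add_distrib,
      ← Finset.sum_add_distrib, ← Finset.sum_neg_distrib, Finset.sum_div]
  rw [e3, ha, hb, hab]
  have hsc := Real.sin_sq_add_cos_sq θ
  linear_combination (s ^ 2 * ‖p‖ ^ 2 / 2 + s' ^ 2 * ‖q‖ ^ 2 / 2) * hsc

def cf (ρ : ℝ) (r k : ℕ) : ℝ := if k ≤ r then sg ρ * ρ ^ (r - k) else 0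

def pt (ρ : ℝ) (N : ℕ) (w : E d) (g : Fin N → E d) (r : ℕ) : E d :=
  ρ ^ (r + 1) • w + ∑ k : Fin N, cf ρ r k • g k

theorem cf_succ (ρ : ℝ) (r k : ℕ) : cf ρ (r + 1) (k + 1) = cf ρ r k := by
  simp [cf]

theorem cf_zero (ρ : ℝ) (r : ℕ) : cf ρ r 0 = sg ρ * ρ ^ r := by
  simp [cf]

theorem cf_zero_succ (ρ : ℝ) (k : ℕ) : cf ρ 0 (k + 1) = 0 := by
  simp [cf]

theorem pt_zero (ρ : ℝ) (N : ℕ) (w : E d) (g : Fin (N + 1) → E d) :
    pt ρ (N + 1) w g 0 = ρ • w + sg ρ • g 0 := by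
  simp [pt, Fin.sum_univ_succ, cf_zero, cf_zero_succ]

theorem pt_succ (ρ : ℝ) (N : ℕ) (w : E d) (g : Fin (N + 1) → E d) (r : ℕ) :
    pt ρ (N + 1) w g (r + 1) = pt ρ N (ρ • w + sg ρ • g 0) (Fin.tail g) r := by
  simp only [pt, Fin.sum_univ_succ, Fin.val_zero, Fin.val_succ, cf_zero, cf_succ, Fin.tail,
    smul_add, smul_smul]
  rw [← pow_succ, mul_comm (sg ρ), ← add_assoc]

theorem A0_eq (G : E d → E d) (ρ : ℝ) : ∀ (N : ℕ) (w : E d) (g : Fin N → E d),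
    A0 G ρ N w g = ∑ r ∈ range N, aw ρ r • G (pt ρ N w g r)
  | 0, _, _ => by simp [A0]
  | N + 1, w, g => by
    rw [A0, A0_eq G ρ N, Finset.sum_range_succ', pt_zero, Finset.smul_sum]
    congr 1
    · refine Finset.sum_congr rfl fun r _ => ?_
      rw [pt_succ, smul_smul]
      congr 1
      simp only [aw]
      ring
    · simp [aw]

def cv (ρ : ℝ) (r r' : ℕ) : ℝ := ∑ k ∈ range (r + 1), cf ρ r k * cf ρ r' k

theorem cv_eq (ρ : ℝ) (N r r' : ℕ) (h : r < N) :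
    ∑ k : Fin N, cf ρ r k * cf ρ r' k = cv ρ r r' := by
  rw [Fin.sum_univ_eq_sum_range (fun k => cf ρ r k * cf ρ r' k) N, cv]
  symm
  refine Finset.sum_subset (Finset.range_subset_range.2 (by omega)) fun k _ hk => ?_
  have : ¬ k ≤ r := by
    intro h'
    exact hk (Finset.mem_range.2 (by omega))
  simp [cf, this]

theorem sg_sq (τ : ℝ) (h : τ ^ 2 ≤ 1) : sg τ ^ 2 = 1 - τ ^ 2 := by
  rw [sg, Real.sq_sqrt (by linarith)]

theorem cv_diag (ρ : ℝ) (h : ρ ^ 2 ≤ 1) : ∀ r : ℕ, cv ρ r r = 1 - (ρ ^ (r + 1)) ^ 2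
  | 0 => by
    have := sg_sq ρ h
    simp only [cv, zero_add, Finset.sum_range_one, cf_zero, pow_zero, mul_one, pow_one]
    nlinarith
  | r + 1 => by
    have h1 := sg_sq ρ h
    have h2 := cv_diag ρ h r
    rw [cv, Finset.sum_range_succ']
    simp only [cf_succ, cf_zero]
    rw [cv] at h2
    rw [h2]
    have : sg ρ * ρ ^ (r + 1) * (sg ρ * ρ ^ (r + 1)) = sg ρ ^ 2 * (ρ ^ (r + 1)) ^ 2 := by ring
    rw [this, h1]
    ring

theorem cf_nonneg (ρ : ℝ) (h : 0 ≤ ρ) (r k : ℕ) : 0 ≤ cf ρ r k := by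
  unfold cf
  split_ifs
  · exact mul_nonneg (Real.sqrt_nonneg _) (pow_nonneg h _)
  · exact le_rfl

theorem sq_cf (ρ : ℝ) (h0 : 0 ≤ ρ) (h1 : ρ < 1) (N r : ℕ) (h : r < N) :
    ∑ k : Fin N, cf ρ r k ^ 2 = sg (ρ ^ (r + 1)) ^ 2 := by
  have hρ : ρ ^ 2 ≤ 1 := by nlinarith
  have hp : (ρ ^ (r + 1)) ^ 2 ≤ 1 := pow_le_one₀ (pow_nonneg h0 _) (pow_le_one₀ h0 h1.le)
  rw [sg_sq _ hp, ← cv_diag ρ hρ r, ← cv_eq ρ N r r h]
  exact Finset.sum_congr rfl fun k _ => by ring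

theorem sg_pos (ρ : ℝ) (h0 : 0 ≤ ρ) (h1 : ρ < 1) (r : ℕ) : 0 < sg (ρ ^ (r + 1)) := by
  have h2 : ρ ^ (r + 1) < 1 := pow_lt_one₀ h0 h1 (by omega)
  have h3 : 0 ≤ ρ ^ (r + 1) := pow_nonneg h0 _
  exact Real.sqrt_pos.2 (by nlinarith)

def th (ρ : ℝ) (r r' : ℕ) : ℝ :=
  Real.arcsin √(cv ρ r r' / (sg (ρ ^ (r + 1)) * sg (ρ ^ (r' + 1))))

theorem th_sin (ρ : ℝ) (h0 : 0 ≤ ρ) (h1 : ρ < 1) (r r' : ℕ) :
    cv ρ r r' = sg (ρ ^ (r + 1)) * sg (ρ ^ (r' + 1)) * Real.sin (th ρ r r') ^ 2 := by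
  have hs := sg_pos ρ h0 h1 r
  have hs' := sg_pos ρ h0 h1 r'
  have hss := mul_pos hs hs'
  have hc0 : 0 ≤ cv ρ r r' :=
    Finset.sum_nonneg fun k _ => mul_nonneg (cf_nonneg ρ h0 _ _) (cf_nonneg ρ h0 _ _)
  have hcs : cv ρ r r' ≤ sg (ρ ^ (r + 1)) * sg (ρ ^ (r' + 1)) := by
    have h := Finset.sum_mul_sq_le_sq_mul_sq (Finset.univ : Finset (Fin (r + r' + 1)))
      (fun k => cf ρ r k) (fun k => cf ρ r' k)
    rw [cv_eq ρ _ r r' (by omega), sq_cf ρ h0 h1 _ r (by omega), sq_cf ρ h0 h1 _ r' (by omega),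
      ← mul_pow] at h
    exact (pow_le_pow_iff_left₀ hc0 hss.le (by norm_num)).1 h
  have hq0 : 0 ≤ cv ρ r r' / (sg (ρ ^ (r + 1)) * sg (ρ ^ (r' + 1))) := div_nonneg hc0 hss.le
  have hq1 : cv ρ r r' / (sg (ρ ^ (r + 1)) * sg (ρ ^ (r' + 1))) ≤ 1 := (div_le_one hss).2 hcs
  have hq2 := Real.sqrt_nonneg (cv ρ r r' / (sg (ρ ^ (r + 1)) * sg (ρ ^ (r' + 1))))
  rw [th, Real.sin_arcsin (by linarith) (Real.sqrt_le_one.2 hq1), Real.sq_sqrt hq0]
  field_simp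

theorem cont_of_lip {K : ℝ} {G : E d → E d} (h : LipF K G) : Continuous G := by
  have : LipschitzWith (Real.toNNReal K) G := by
    refine LipschitzWith.of_dist_le_mul fun x y => ?_
    rw [dist_eq_norm, dist_eq_norm]
    exact (h x y).trans (mul_le_mul_of_nonneg_right (Real.le_coe_toNNReal K) (norm_nonneg _))
  exact this.continuous

theorem mem_pt (ε ρ : ℝ) (G : E d → E d) (_hε : 0 ≤ ε) (hG : Nice ε G) (N : ℕ) (w u : E d) (r : ℕ) :
    MemLp (fun g : Fin N → E d => ⟪u, G (pt ρ N w g r)⟫) 2 (gN d N) := by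
  have hc := cont_of_lip hG.lip
  have h1 : ∀ k : Fin N, MemLp (fun g : Fin N → E d => g k) 2 (gN d N) := fun k =>
    (IsGaussian.memLp_id (gs d) 2 (by simp)).comp_measurePreserving
      (measurePreserving_eval (fun _ : Fin N => gs d) k)
  have h2 : MemLp (fun g : Fin N → E d => pt ρ N w g r) 2 (gN d N) := by
    have h21 : ∀ k : Fin N, MemLp (fun g : Fin N → E d => cf ρ r k • g k) 2 (gN d N) :=
      fun k => (h1 k).const_smul (cf ρ r k)
    have h22 : MemLp (fun g : Fin N → E d => ∑ k : Fin N, cf ρ r k • g k) 2 (gN d N) :=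
      memLp_finsetSum _ fun k _ => h21 k
    exact (memLp_const (ρ ^ (r + 1) • w)).add h22
  have h3 : MemLp (fun g : Fin N → E d => ‖u‖ * (ε + ε * ‖pt ρ N w g r‖)) 2 (gN d N) :=
    ((memLp_const ε).add (h2.norm.const_mul ε)).const_mul _
  have h4 : Continuous fun g : Fin N → E d => ⟪u, G (pt ρ N w g r)⟫ := by
    unfold pt
    fun_prop
  refine h3.of_le h4.aestronglyMeasurable (Filter.Eventually.of_forall fun g => ?_)
  have h5 : ‖G (pt ρ N w g r)‖ ≤ ε + ε * ‖pt ρ N w g r‖ := by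
    have h6 := hG.lip (pt ρ N w g r) 0
    have h7 := hG.zero
    have h8 := norm_sub_norm_le (G (pt ρ N w g r)) (G 0)
    rw [sub_zero] at h6
    linarith
  calc ‖⟪u, G (pt ρ N w g r)⟫‖ ≤ ‖u‖ * ‖G (pt ρ N w g r)‖ := norm_inner_le_norm _ _
    _ ≤ ‖u‖ * (ε + ε * ‖pt ρ N w g r‖) := mul_le_mul_of_nonneg_left h5 (norm_nonneg _)
    _ ≤ _ := Real.le_norm_self _

theorem int_pair (ρ : ℝ) (h0 : 0 ≤ ρ) (h1 : ρ < 1) (G : E d → E d) (hc : Continuous G) (N : ℕ)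
    (w u v : E d) (r r' : ℕ) (hr : r < N) (hr' : r' < N) :
    ∫ g, ⟪u, G (pt ρ N w g r)⟫ * ⟪v, G (pt ρ N w g r')⟫ ∂gN d N =
    bb G u v (ρ ^ (r + 1) • w) (ρ ^ (r' + 1) • w) (sg (ρ ^ (r + 1))) (sg (ρ ^ (r' + 1)))
      (th ρ r r') := by
  have hl := law (d := d) N (fun k => cf ρ r k) (fun k => cf ρ r' k) (sg (ρ ^ (r + 1)))
    (sg (ρ ^ (r' + 1))) (th ρ r r') (sq_cf ρ h0 h1 N r hr) (sq_cf ρ h0 h1 N r' hr')
    (by rw [cv_eq ρ N r r' hr, th_sin ρ h0 h1])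
  have hF : Continuous fun y : E d × E d =>
      ⟪u, G (ρ ^ (r + 1) • w + y.1)⟫ * ⟪v, G (ρ ^ (r' + 1) • w + y.2)⟫ := by fun_prop
  have h := congrArg (fun μ : Measure (E d × E d) => ∫ y,
      ⟪u, G (ρ ^ (r + 1) • w + y.1)⟫ * ⟪v, G (ρ ^ (r' + 1) • w + y.2)⟫ ∂μ) hl
  rw [integral_map (Measurable.aemeasurable (by fun_prop)) hF.aestronglyMeasurable,
    integral_map (Measurable.aemeasurable (by fun_prop)) hF.aestronglyMeasurable] at h
  exact h

theorem bb_zero (hOU : OUApi d) (K : ℝ) (G : E d → E d) (hG : LipF K G) (w u v : E d) (τ τ' : ℝ) :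
    bb G u v (τ • w) (τ' • w) (sg τ) (sg τ') 0 = ⟪u, OU τ G w⟫ * ⟪v, OU τ' G w⟫ := by
  have i1 : Integrable (fun g => G (τ • w + sg τ • g)) (gs d) :=
    (hOU.int K G hG _ _).integrable (by norm_num)
  have i2 : Integrable (fun g => G (τ' • w + sg τ' • g)) (gs d) :=
    (hOU.int K G hG _ _).integrable (by norm_num)
  rw [OU, OU, ← integral_inner i1, ← integral_inner i2, bb]
  simp only [qa, qb, Real.sin_zero, Real.cos_zero, zero_smul, one_smul, zero_add]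
  have h := integral_prod_mul (μ := gs d) (ν := (gs d).prod (gs d)) (fun _ : E d => (1 : ℝ))
    (fun z : E d × E d => ⟪u, G (τ • w + sg τ • z.1)⟫ * ⟪v, G (τ' • w + sg τ' • z.2)⟫)
  simp only [one_mul, integral_const, probReal_univ, smul_eq_mul, mul_one] at h
  rw [h]
  exact integral_prod_mul (μ := gs d) (ν := gs d) (fun y : E d => ⟪u, G (τ • w + sg τ • y)⟫)
    (fun y : E d => ⟪v, G (τ' • w + sg τ' • y)⟫)

theorem cov_expand {Ω : Type} [MeasurableSpace Ω] (P : Measure Ω) [IsProbabilityMeasure P]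
    (A : Ω → E d) (hA : MemLp A 2 P) (u v : E d) :
    ∫ ω, ⟪u, (∫ x, A x ∂P) - A ω⟫ * ⟪v, (∫ x, A x ∂P) - A ω⟫ ∂P =
    ∫ ω, ⟪u, A ω⟫ * ⟪v, A ω⟫ ∂P - ⟪u, ∫ x, A x ∂P⟫ * ⟪v, ∫ x, A x ∂P⟫ := by
  have hi : Integrable A P := hA.integrable (by norm_num)
  have hu : MemLp (fun ω => ⟪u, A ω⟫) 2 P := MemLp.const_inner u hA
  have hv : MemLp (fun ω => ⟪v, A ω⟫) 2 P := MemLp.const_inner v hA
  have huv : Integrable (fun ω => ⟪u, A ω⟫ * ⟪v, A ω⟫) P := hu.integrable_mul hv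
  have iu : Integrable (fun ω => ⟪u, A ω⟫) P := hu.integrable (by norm_num)
  have iv : Integrable (fun ω => ⟪v, A ω⟫) P := hv.integrable (by norm_num)
  set a := ⟪u, ∫ x, A x ∂P⟫ with ha
  set b := ⟪v, ∫ x, A x ∂P⟫ with hb
  have e : ∀ ω, ⟪u, (∫ x, A x ∂P) - A ω⟫ * ⟪v, (∫ x, A x ∂P) - A ω⟫ =
      (⟪u, A ω⟫ * ⟪v, A ω⟫ - a * ⟪v, A ω⟫) - (b * ⟪u, A ω⟫ - a * b) := by
    intro ω
    rw [inner_sub_right, inner_sub_right]
    ring
  simp_rw [e]
  have j1 : Integrable (fun ω => ⟪u, A ω⟫ * ⟪v, A ω⟫ - a * ⟪v, A ω⟫) P := huv.sub (iv.const_mul a)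
  have j2 : Integrable (fun ω => b * ⟪u, A ω⟫ - a * b) P :=
    (iu.const_mul b).sub (integrable_const _)
  rw [integral_sub j1 j2,
    integral_sub huv (iv.const_mul a), integral_sub (iu.const_mul b) (integrable_const _),
    integral_const_mul, integral_const_mul, integral_inner hi, integral_inner hi]
  simp only [integral_const, probReal_univ, smul_eq_mul, one_mul]
  ring

end

end S0m

open S0m in
theorem stmtS0 (_h1 : StmtG1) (_h2 : StmtG2) (hOU : StmtOU) (hAa : StmtAa) (hMean : StmtMean) :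
    StmtS0 := by
  intro ρ hρ0 hρ1
  have h0 : 0 ≤ ρ := by linarith
  refine ⟨th ρ, fun r r' => ⟨Real.arcsin_nonneg.2 (Real.sqrt_nonneg _), Real.arcsin_le_pi_div_two _⟩,
    ?_⟩
  intro d ε G N w u v hd hε hε4 hG
  have hA := hAa d ε ρ G hd hε hε4 hρ0 hρ1 hG
  have hm := ((hMean d ε ρ G hd hε hε4 hρ0 hρ1 hG N).2.2.2 w).1
  have hc := cont_of_lip hG.lip
  have hcA : Continuous (A0 G ρ N w) := (hA.cont0 N).comp (Continuous.prodMk_right w)
  have hcm : Measurable fun g => mA0 G ρ N w - A0 G ρ N w g :=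
    (continuous_const.sub hcA).measurable
  rw [Cv, al0, integral_map hcm.aemeasurable (by fun_prop)]
  have h1 := cov_expand (gN d N) (A0 G ρ N w) (hA.mem0 N w) u v
  rw [show ∫ x, A0 G ρ N w x ∂gN d N = mA0 G ρ N w from rfl] at h1
  rw [h1, hm]
  have e1 : ∀ g, ⟪u, A0 G ρ N w g⟫ * ⟪v, A0 G ρ N w g⟫ = ∑ r ∈ range N, ∑ r' ∈ range N,
      aw ρ r * aw ρ r' * (⟪u, G (pt ρ N w g r)⟫ * ⟪v, G (pt ρ N w g r')⟫) := by
    intro g
    rw [A0_eq, inner_sum, inner_sum, Finset.sum_mul_sum]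
    refine Finset.sum_congr rfl fun r _ => Finset.sum_congr rfl fun r' _ => ?_
    rw [real_inner_smul_right, real_inner_smul_right]
    ring
  have i1 : ∀ r r', Integrable (fun g => aw ρ r * aw ρ r' *
      (⟪u, G (pt ρ N w g r)⟫ * ⟪v, G (pt ρ N w g r')⟫)) (gN d N) := fun r r' =>
    ((mem_pt ε ρ G hε hG N w u r).integrable_mul (mem_pt ε ρ G hε hG N w v r')).const_mul _
  simp_rw [e1]
  rw [integral_finsetSum _ fun r _ => integrable_finsetSum _ fun r' _ => i1 r r', inner_sum,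
    inner_sum, Finset.sum_mul_sum, ← Finset.sum_sub_distrib]
  refine Finset.sum_congr rfl fun r hr => ?_
  rw [integral_finsetSum _ fun r' _ => i1 r r', ← Finset.sum_sub_distrib]
  refine Finset.sum_congr rfl fun r' hr' => ?_
  rw [integral_const_mul, int_pair ρ h0 hρ1 G hc N w u v r r' (Finset.mem_range.1 hr)
    (Finset.mem_range.1 hr'), bb_zero (hOU d) ε G hG.lip, real_inner_smul_right,
    real_inner_smul_right]
  ring

end Vale.Agent.P347
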