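import Vale.Agent.P347.Spec

open MeasureTheory ProbabilityTheory Finset
open scoped RealInnerProductSpace ENNReal

namespace Vale.Agent.P347

theorem stmtS1 (_h1 : StmtG1) (hOU : StmtOU) : StmtS1 := by
  intro d ε G p w u v hG
  have hc : Continuous G := hG.c1.continuous
  have m : ∀ (u : E d) j, MemLp (fun ζ => ⟪u, G (p.tau j • w + sg (p.tau j) • ζ)⟫) 2 (gs d) :=
    fun u j => ((hOU d).int ε G hG.lip _ _).const_inner u
  have f : ∀ u ζ : E d, ⟪u, F1 p G w ζ⟫ = ∑ j, p.om j * ⟪u, G (p.tau j • w + sg (p.tau j) • ζ)⟫ :=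
    fun u ζ => by simp only [F1, inner_sum, real_inner_smul_right]
  have i : Integrable (F1 p G w) (gs d) := integrable_finsetSum _ fun j _ =>
    (((hOU d).int ε G hG.lip _ _).integrable one_le_two).smul (p.om j)
  have c : Continuous (F1 p G w) := by
    unfold F1
    fun_prop
  have e : Cv (be1 p G w) u v = cov[fun ζ => ⟪u, F1 p G w ζ⟫, fun ζ => ⟪v, F1 p G w ζ⟫; gs d] := by
    rw [Cv, be1, integral_map (by fun_prop) (by fun_prop), covariance, integral_inner i, integral_inner i]
    refine integral_congr_ae (.of_forall fun ζ => ?_)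
    simp only [inner_sub_right, m1]
    ring
  rw [e]
  simp only [f]
  rw [covariance_fun_sum_fun_sum (fun j => (m u j).const_mul _) fun j => (m v j).const_mul _]
  refine sum_congr rfl fun j _ => sum_congr rfl fun l _ => ?_
  rw [covariance_const_mul_left, covariance_const_mul_right, ← mul_assoc,
    covariance_eq_sub (m u j) (m v l)]
  congr 2
  · simp only [bb, qa, qb, Real.sin_pi_div_two, Real.cos_pi_div_two, one_smul, zero_smul, add_zero]
    rw [integral_fun_fst fun ζ => ⟪u, G (p.tau j • w + sg (p.tau j) • ζ)⟫ *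
      ⟪v, G (p.tau l • w + sg (p.tau l) • ζ)⟫]
    simp
  · simp only [bb, qa, qb, Real.sin_zero, Real.cos_zero, one_smul, zero_smul, zero_add]
    rw [← integral_prod_mul, integral_fun_snd fun z : E d × E d =>
      ⟪u, G (p.tau j • w + sg (p.tau j) • z.1)⟫ * ⟪v, G (p.tau l • w + sg (p.tau l) • z.2)⟫]
    simp

end Vale.Agent.P347
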