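import Vale.Agent.P347.Spec

open MeasureTheory ProbabilityTheory Finset Filter Topology
open scoped RealInnerProductSpace ENNReal NNReal

namespace Vale.Agent.P347

noncomputable section

namespace SGm

variable {d : ℕ} {α : Measure (E d)} {L : ℝ}

theorem ex (h : SG α L) (u : E d) (s : ℝ) : Integrable (fun x => Real.exp (s * ⟪u, x⟫)) α ∧
    ∫ x, Real.exp (s * ⟪u, x⟫) ∂α ≤ Real.exp (s ^ 2 * (L ^ 2 * ‖u‖ ^ 2) / 2) := by
  have n : 0 ≤ᵐ[α] fun x => Real.exp (s * ⟪u, x⟫) := Eventually.of_forall fun _ => (Real.exp_pos _).le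
  have b := h.2 (s • u)
  simp only [real_inner_smul_left, norm_smul, mul_pow, Real.norm_eq_abs, sq_abs] at b
  refine ⟨⟨by fun_prop, (hasFiniteIntegral_iff_ofReal n).2 (b.trans_lt ENNReal.ofReal_lt_top)⟩, ?_⟩
  rw [integral_eq_lintegral_of_nonneg_ae n (by fun_prop)]
  exact (ENNReal.toReal_le_of_le_ofReal (Real.exp_pos _).le b).trans_eq (by ring_nf)

theorem mem (h : SG α L) (p : ℝ≥0) : MemLp (fun x : E d => x) p α := by
  refine MemLp.of_eval_piLp fun i => memLp_of_mem_interior_integrableExpSet ?_ p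
  have : integrableExpSet (fun x : E d => x i) α = Set.univ := Set.eq_univ_of_forall fun s => by
    simpa [integrableExpSet, ee, EuclideanSpace.inner_single_left] using (ex h (ee i) s).1
  simp [this]

theorem mem2 (h : SG α L) : MemLp (fun x : E d => x) 2 α := mem h 2

theorem i1 (h : SG α L) : Integrable (fun x : E d => x) α := memLp_one_iff_integrable.1 (mem h 1)

theorem i2 (h : SG α L) (u v : E d) : Integrable (fun x : E d => ⟪u, x⟫ * ⟪v, x⟫) α :=
  ((mem2 h).const_inner u).integrable_mul ((mem2 h).const_inner v)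

theorem mean1 (h : SG α L) (u : E d) : ∫ x, ⟪u, x⟫ ∂α = 0 := by
  have := h.1
  set m := ∫ x, ⟪u, x⟫ ∂α with hm
  set c := L ^ 2 * ‖u‖ ^ 2
  have a : ∀ s : ℝ, 1 ≤ Real.exp (s ^ 2 * c / 2) - s * m := fun s => by
    have i := ((i1 h).const_inner (𝕜 := ℝ) u).const_mul s
    have := (integral_mono (i.add (integrable_const 1)) (ex h u s).1
      fun x => Real.add_one_le_exp _).trans (ex h u s).2
    simp only [Pi.add_apply] at this
    rw [integral_add i (integrable_const 1), integral_const_mul] at this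
    simp only [integral_const, probReal_univ, smul_eq_mul, mul_one] at this
    linarith
  have dv := ((((hasDerivAt_pow 2 (0 : ℝ)).mul_const c).div_const 2).exp).fun_sub
    ((hasDerivAt_id' (0 : ℝ)).mul_const m)
  have := IsLocalMin.hasDerivAt_eq_zero (Eventually.of_forall fun s => by simpa using a s) dv
  simpa using this

theorem cosh_ge (y : ℝ) : y ^ 2 + 2 ≤ Real.exp y + Real.exp (-y) := by
  have h1 : |y / 2| ≤ |Real.sinh (y / 2)| := by
    rw [Real.abs_sinh]; exact Real.self_le_sinh_iff.2 (abs_nonneg _)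
  have h2 := sq_le_sq.2 h1
  have h3 := Real.cosh_two_mul (y / 2)
  have h4 := Real.cosh_sq (y / 2)
  rw [show 2 * (y / 2) = y by ring, Real.cosh_eq y] at h3
  linarith

theorem var1 (h : SG α L) (u : E d) : Cv α u u ≤ L ^ 2 * ‖u‖ ^ 2 := by
  have := h.1
  set c := L ^ 2 * ‖u‖ ^ 2
  have a : ∀ s : ℝ, 0 < s → Cv α u u ≤ c * Real.exp (s ^ 2 * c / 2) := fun s hs => by
    have i := (i2 h u u).const_mul (s ^ 2)
    obtain ⟨j1, b1⟩ := ex h u s
    obtain ⟨j2, b2⟩ := ex h u (-s)
    have := integral_mono (i.add (integrable_const 2)) (j1.add j2) fun x => by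
      have := cosh_ge (s * ⟪u, x⟫)
      simp only [Pi.add_apply, neg_mul]
      linarith
    simp only [Pi.add_apply] at this
    rw [integral_add i (integrable_const 2), integral_add j1 j2, integral_const_mul] at this
    simp only [integral_const, probReal_univ, smul_eq_mul, one_mul] at this
    rw [neg_sq] at b2
    have e1 := Real.add_one_le_exp (-(s ^ 2 * c / 2))
    have e2 := mul_le_mul_of_nonneg_left e1 (Real.exp_pos (s ^ 2 * c / 2)).le
    rw [← Real.exp_add, add_neg_cancel, Real.exp_zero] at e2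
    refine le_of_mul_le_mul_left ?_ (pow_pos hs 2)
    unfold Cv
    linarith
  have t : Tendsto (fun s : ℝ => c * Real.exp (s ^ 2 * c / 2)) (𝓝[>] 0) (𝓝 c) := by
    have : Continuous fun s : ℝ => c * Real.exp (s ^ 2 * c / 2) := by fun_prop
    simpa using (this.tendsto 0).mono_left nhdsWithin_le_nhds
  exact ge_of_tendsto t (eventually_mem_nhdsWithin.mono a)

theorem cv_le (h : SG α L) (u v : E d) : Cv α u v ≤ L ^ 2 * ‖u‖ * ‖v‖ := by
  rcases eq_or_ne u 0 with rfl | hu
  · simp [Cv]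
  rcases eq_or_ne v 0 with rfl | hv
  · simp [Cv]
  have p : 0 < 2 * ‖u‖ * ‖v‖ := by positivity
  have i := (i2 h u u).const_mul (‖v‖ ^ 2)
  have j := (i2 h v v).const_mul (‖u‖ ^ 2)
  have := integral_mono ((i2 h u v).const_mul (2 * ‖u‖ * ‖v‖)) (i.add j) fun x => by
    simp only [Pi.add_apply]
    nlinarith [sq_nonneg (‖v‖ * ⟪u, x⟫ - ‖u‖ * ⟪v, x⟫)]
  simp only [Pi.add_apply] at this
  rw [integral_add i j, integral_const_mul, integral_const_mul, integral_const_mul] at this
  have a := mul_le_mul_of_nonneg_left (var1 h u) (sq_nonneg ‖v‖)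
  have b := mul_le_mul_of_nonneg_left (var1 h v) (sq_nonneg ‖u‖)
  refine le_of_mul_le_mul_left ?_ p
  unfold Cv at *
  linarith

theorem exA (h : SG α L) : ∃ A : E d →L[ℝ] E d, (∀ u v, ⟪u, A v⟫ = Cv α u v) ∧ ‖A‖ ≤ L ^ 2 := by
  have i : Integrable (fun x : E d => (innerSL ℝ x).smulRight x) α :=
    ((memLp_two_iff_integrable_sq_norm (by fun_prop)).1 (mem2 h)).mono' (by fun_prop)
      (Eventually.of_forall fun x => by simp [sq])
  have e : ∀ u v, ⟪u, (∫ x, (innerSL ℝ x).smulRight x ∂α) v⟫ = Cv α u v := fun u v => by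
    rw [ContinuousLinearMap.integral_apply i, ← integral_inner (i.apply_continuousLinearMap v), Cv]
    simp only [ContinuousLinearMap.smulRight_apply, innerSL_apply_apply, real_inner_smul_right,
      real_inner_comm v, mul_comm]
  refine ⟨_, e, ContinuousLinearMap.opNorm_le_bound _ (sq_nonneg _) fun v => ?_⟩
  have := cv_le h ((∫ x, (innerSL ℝ x).smulRight x ∂α) v) v
  rw [← e, real_inner_self_eq_norm_sq] at this
  generalize (∫ x, (innerSL ℝ x).smulRight x ∂α) v = w at this ⊢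
  rcases (norm_nonneg w).eq_or_lt with h0 | h0
  · rw [← h0]; positivity
  · exact le_of_mul_le_mul_left (by linarith) h0

theorem coup {Ω : Type} [MeasurableSpace Ω] (P : Measure Ω) (a b : Ω → E d) (ha : Measurable a)
    (hb : Measurable b) (h : SG (P.map a) L) (h' : SG (P.map b) L) :
    Fr (P.map a) (P.map b) ≤ 8 * L ^ 2 * ∫ ω, ‖a ω - b ω‖ ^ 2 ∂P := by
  have ma : MemLp a 2 P := (mem2 h).comp_of_map ha.aemeasurable
  have mb : MemLp b 2 P := (mem2 h').comp_of_map hb.aemeasurable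
  have cv : ∀ {f : Ω → E d}, Measurable f → ∀ u v, Cv (P.map f) u v = ∫ ω, ⟪u, f ω⟫ * ⟪v, f ω⟫ ∂P :=
    fun hf u v => integral_map hf.aemeasurable (by fun_prop)
  have im : ∀ {f : Ω → E d}, MemLp f 2 P → ∀ u v, Integrable (fun ω => ⟪u, f ω⟫ * ⟪v, f ω⟫) P :=
    fun hf u v => (hf.const_inner u).integrable_mul (hf.const_inner v)
  have S0 : 0 ≤ ∫ ω, ‖a ω - b ω‖ ^ 2 ∂P := integral_nonneg fun _ => sq_nonneg _
  set T : Fin d → Fin d → ℝ := fun i j => Cv (P.map a) (ee i) (ee j) - Cv (P.map b) (ee i) (ee j)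
    with hT
  have hF : Fr (P.map a) (P.map b) = ∑ i, ∑ j, T i j ^ 2 := rfl
  rcases eq_or_ne L 0 with rfl | L0
  · have z : ∀ {β : Measure (E d)}, SG β 0 → ∀ u v, Cv β u v = 0 := fun hβ u v => by
      obtain ⟨A, h1, h2⟩ := exA hβ
      rw [← h1, norm_le_zero_iff.1 (h2.trans_eq (by simp))]
      simp
    simp [Fr, z h, z h']
  set r : Fin d → E d := fun i => WithLp.toLp 2 fun j => T i j with hr
  set c : Fin d → E d := fun j => WithLp.toLp 2 fun i => T i j with hc
  have iT : ∀ i j, Integrable (fun ω => T i j * (⟪ee i, a ω⟫ * ⟪ee j, a ω⟫ - ⟪ee i, b ω⟫ * ⟪ee j, b ω⟫))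
      P := fun i j => ((im ma _ _).sub (im mb _ _)).const_mul _
  have e1 : Fr (P.map a) (P.map b) = ∫ ω, ∑ i, ∑ j,
      T i j * (⟪ee i, a ω⟫ * ⟪ee j, a ω⟫ - ⟪ee i, b ω⟫ * ⟪ee j, b ω⟫) ∂P := by
    rw [integral_finsetSum _ fun i _ => integrable_finsetSum _ fun j _ => iT i j]
    refine sum_congr rfl fun i _ => ?_
    rw [integral_finsetSum _ fun j _ => iT i j]
    refine sum_congr rfl fun j _ => ?_
    rw [integral_const_mul, integral_sub (im ma _ _) (im mb _ _), ← cv ha, ← cv hb, sq]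
  have j1 := ((memLp_two_iff_integrable_sq_norm (ma.sub mb).1).1 (ma.sub mb)).const_mul
    (2 * (2 * L ^ 2) ^ 2)
  simp only [Pi.sub_apply] at j1
  have j2 : Integrable (fun ω => ∑ i, ⟪r i, a ω⟫ * ⟪r i, a ω⟫) P :=
    integrable_finsetSum _ fun i _ => im ma _ _
  have j3 : Integrable (fun ω => ∑ i, ⟪c i, b ω⟫ * ⟪c i, b ω⟫) P :=
    integrable_finsetSum _ fun i _ => im mb _ _
  have j4 : Integrable (fun ω => ∑ i, ⟪r i, a ω⟫ * ⟪r i, a ω⟫ + ∑ i, ⟪c i, b ω⟫ * ⟪c i, b ω⟫) P :=
    j2.add j3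
  have key := integral_mono ((integrable_finsetSum univ fun i _ => integrable_finsetSum univ
    fun j _ => iT i j).const_mul (2 * (2 * L ^ 2))) (j1.add j4) fun ω => by
      have e : ∑ i, ∑ j, T i j * (⟪ee i, a ω⟫ * ⟪ee j, a ω⟫ - ⟪ee i, b ω⟫ * ⟪ee j, b ω⟫) =
          ∑ i, ((a ω - b ω) i * ⟪r i, a ω⟫ + (a ω - b ω) i * ⟪c i, b ω⟫) := by
        simp only [ee, EuclideanSpace.inner_single_left, conj_trivial, one_mul]
        simp only [hr, hc, PiLp.inner_apply, PiLp.sub_apply, RCLike.inner_apply, conj_trivial,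
          mul_sum, sum_add_distrib]
        rw [sum_comm (f := fun x y => (a ω x - b ω x) * (b ω y * T y x)), ← sum_add_distrib]
        refine sum_congr rfl fun i _ => ?_
        rw [← sum_add_distrib]
        exact sum_congr rfl fun j _ => by ring
      simp only [Pi.add_apply]
      rw [e, EuclideanSpace.real_norm_sq_eq, mul_sum, mul_sum, ← sum_add_distrib, ← sum_add_distrib]
      refine sum_le_sum fun i _ => ?_
      nlinarith [sq_nonneg (2 * L ^ 2 * (a ω - b ω) i - ⟪r i, a ω⟫),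
        sq_nonneg (2 * L ^ 2 * (a ω - b ω) i - ⟪c i, b ω⟫)]
  simp only [Pi.add_apply] at key
  rw [integral_const_mul, ← e1, integral_add j1 j4, integral_add j2 j3, integral_const_mul,
    integral_finsetSum _ fun i _ => im ma _ _, integral_finsetSum _ fun i _ => im mb _ _] at key
  have b1 : ∑ i, ∫ ω, ⟪r i, a ω⟫ * ⟪r i, a ω⟫ ∂P ≤ L ^ 2 * Fr (P.map a) (P.map b) := by
    rw [hF, mul_sum]
    refine sum_le_sum fun i _ => ?_
    rw [← cv ha]
    exact (var1 h _).trans_eq (by rw [EuclideanSpace.real_norm_sq_eq])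
  have b2 : ∑ i, ∫ ω, ⟪c i, b ω⟫ * ⟪c i, b ω⟫ ∂P ≤ L ^ 2 * Fr (P.map a) (P.map b) := by
    rw [hF, sum_comm, mul_sum]
    refine sum_le_sum fun i _ => ?_
    rw [← cv hb]
    exact (var1 h' _).trans_eq (by rw [EuclideanSpace.real_norm_sq_eq])
  have p : 0 < L ^ 2 := by positivity
  refine le_of_mul_le_mul_left ?_ p
  nlinarith [mul_nonneg (sq_nonneg (L ^ 2)) S0]

end SGm

open SGm in
theorem stmtSG (h1 : StmtG1) : StmtSG := fun d => by
  refine ⟨fun α L h k => ?_, fun α L h => ?_, fun α L h u => ?_, fun α L L' h0 hl h => ⟨h.1, fun u => ?_⟩,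
    fun α β L L' h0 h0' h h' => ?_, fun α L c h => ?_, fun α β L s h h' hs => ?_,
    fun α β L h h' => ?_, fun Ω _ P a b L => coup P a b⟩
  · have := h.1
    rcases k.eq_zero_or_pos with rfl | hk
    · simp
    · exact MemLp.integrable_norm_pow (by simpa using mem h k) hk.ne'
  · exact ext_inner_left ℝ fun u => by rw [← integral_inner (i1 h), mean1 h, inner_zero_right]
  · exact (var1 h u).trans (by nlinarith [mul_nonneg (sq_nonneg L) (sq_nonneg ‖u‖)])
  · exact (h.2 u).trans (by gcongr)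
  · have := h.1
    have := h'.1
    have m : Measurable fun p : E d × E d => p.1 + p.2 := by fun_prop
    refine ⟨⟨Measure.isProbabilityMeasure_map m.aemeasurable, fun u => ?_⟩, fun u v => ?_⟩
    · rw [lintegral_map (by fun_prop) m]
      simp only [inner_add_right, Real.exp_add, ENNReal.ofReal_mul (Real.exp_pos _).le]
      rw [lintegral_prod_mul (f := fun x => ENNReal.ofReal (Real.exp ⟪u, x⟫))
        (g := fun x => ENNReal.ofReal (Real.exp ⟪u, x⟫)) (by fun_prop) (by fun_prop)]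
      refine (mul_le_mul' (h.2 u) (h'.2 u)).trans ?_
      rw [← ENNReal.ofReal_mul (Real.exp_pos _).le, ← Real.exp_add]
      gcongr
      nlinarith [mul_nonneg (mul_nonneg h0 h0') (sq_nonneg ‖u‖)]
    · have j : ∀ u v : E d, Integrable (fun p : E d × E d => ⟪u, p.1⟫ * ⟪v, p.2⟫) (α.prod β) :=
        fun u v => ((i1 h).const_inner u).mul_prod ((i1 h').const_inner v)
      have z : ∀ u v : E d, ∫ p : E d × E d, ⟪u, p.1⟫ * ⟪v, p.2⟫ ∂α.prod β = 0 := fun u v => by
        rw [integral_prod_mul (fun x => ⟪u, x⟫) fun x => ⟪v, x⟫, mean1 h, zero_mul]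
      have a1 := (i2 h u v).comp_fst β
      have a2 := (i2 h' u v).comp_snd α
      rw [Cv, integral_map m.aemeasurable (by fun_prop), integral_congr_ae
        (g := fun p => (⟪u, p.1⟫ * ⟪v, p.1⟫ + ⟪u, p.2⟫ * ⟪v, p.2⟫) +
          (⟪u, p.1⟫ * ⟪v, p.2⟫ + ⟪v, p.1⟫ * ⟪u, p.2⟫)) (Eventually.of_forall fun p => by
          simp only [inner_add_right]; ring),
        integral_add (by exact a1.add a2) (by exact (j u v).add (j v u)), integral_add a1 a2,
        integral_add (j u v) (j v u), z, z, integral_fun_fst fun x => ⟪u, x⟫ * ⟪v, x⟫,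
        integral_fun_snd fun x => ⟪u, x⟫ * ⟪v, x⟫]
      simp [Cv]
  · have := h.1
    have m : Measurable fun x : E d => c • x := by fun_prop
    refine ⟨Measure.isProbabilityMeasure_map m.aemeasurable, fun u => ?_⟩
    rw [lintegral_map (by fun_prop) m]
    have b := h.2 (c • u)
    simp only [real_inner_smul_left, norm_smul, mul_pow, Real.norm_eq_abs, sq_abs] at b
    simp only [real_inner_smul_right]
    exact b.trans_eq (by ring_nf)
  · have := h.1
    have := h'.1
    have n : ∀ (c : ℝ) (x : E d), ‖c • x‖ ^ 2 = c ^ 2 * ‖x‖ ^ 2 := fun c x => by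
      rw [norm_smul, mul_pow, Real.norm_eq_abs, sq_abs]
    rw [lintegral_prod_symm _ (by fun_prop)]
    calc _ ≤ ∫⁻ y, ∫⁻ g, ENNReal.ofReal (Real.exp ⟪(s * L) • g, y⟫) ∂gs d ∂β := by
          refine lintegral_mono fun y => ?_
          have a := h.2 (s • y)
          have b := (h1 d).mgf ((s * L) • y)
          simp only [real_inner_smul_left, n] at a b ⊢
          simp only [real_inner_comm y, b]
          exact a.trans_eq (by ring_nf)
      _ ≤ ∫⁻ g, ENNReal.ofReal (Real.exp (s ^ 2 * L ^ 4 / 2 * ‖g‖ ^ 2)) ∂gs d := by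
          rw [lintegral_lintegral_swap (by fun_prop)]
          exact lintegral_mono fun g => (h'.2 _).trans_eq (by rw [n]; ring_nf)
      _ ≤ _ := ((h1 d).sq _ (by positivity) (by linarith)).trans_eq (by ring_nf)
  · obtain ⟨A, a1, a2⟩ := exA h
    obtain ⟨B, b1, b2⟩ := exA h'
    exact ⟨A - B, fun u v => by rw [sub_apply, inner_sub_right, a1, b1],
      (norm_sub_le _ _).trans (by linarith)⟩

end

end Vale.Agent.P347
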