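import Vale.Agent.P347.Top1
import Vale.Agent.P347.Inst

open MeasureTheory ProbabilityTheory Finset
open scoped RealInnerProductSpace ENNReal

namespace Vale.Agent.P347.Topm

variable {d : ℕ}

instance smP (α : Measure (E d)) [IsProbabilityMeasure α] (t : ℝ) :
    IsProbabilityMeasure (sm α t) :=
  Measure.isProbabilityMeasure_map (by fun_prop)

lemma sm_aff (α : Measure (E d)) [IsProbabilityMeasure α] (c : E d) (r a : ℝ) :
    sm (α.map fun z => c + r • z) (r * a) = (sm α a).map fun z => c + r • z := by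
  unfold sm
  have h : (α.map fun z => c + r • z).prod (gs d) =
      (α.prod (gs d)).map (Prod.map (fun z => c + r • z) id) := by
    rw [← Measure.map_prod_map _ _ (by fun_prop) measurable_id, Measure.map_id]
  rw [h, Measure.map_map (by fun_prop) (by fun_prop), Measure.map_map (by fun_prop) (by fun_prop)]
  congr 1
  funext p
  simp only [Function.comp, Prod.map, id, smul_add, mul_smul, add_assoc]

lemma sm_zero (α : Measure (E d)) [IsProbabilityMeasure α] : sm α 0 = α := by
  unfold sm
  simp only [zero_smul, add_zero]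
  exact Measure.fst_prod

lemma mu_prob (hG : StmtGib1) {V : E d → ℝ} (hV : InClass V) {η : ℝ} (hη : 0 < η) (y c : E d) :
    IsProbabilityMeasure (mu (WW η V y c)) := by
  obtain ⟨h1, -, -, h4⟩ := (hG d V hV).2 η hη
  have := h1 y
  rw [h4 y c] at this
  constructor
  have h := this.measure_univ
  rwa [Measure.map_apply (by fun_prop) MeasurableSet.univ, Set.preimage_univ] at h

lemma step1 (hRel : RelApi) (hG : StmtGib1) (hCls : StmtCls) (hMeas : StmtMeas) (p : Par)
    (ν : Measure (Sd d)) {ε e : ℝ} (hP : ∀ (t : ℝ) (W : E d → ℝ) (G : E d → E d), 1 / 2 ≤ t → t ≤ 1 →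
      Pot W G → Nice ε G → Rel (sm (mu W) (√2 * t)) (ν.map (prim p G t)) e)
    {V : E d → ℝ} (hV : InClass V) {η η' : ℝ} (hη : 0 < η) (h1 : η ≤ 2 * η') (h2 : η' ≤ η)
    (h3 : 2 * η ≤ ε) (h4 : ε ≤ 1 / 2) (y : E d) (hy : 2 * ‖y‖ * (2 * η) ^ 12 ≤ 1) :
    Rel (sm (prox η V y) √η') (ν.map fun a => stp p η η' (gradient V) y a) e := by
  have hη' : 0 < η' := by linarith
  set c := cen η (gradient V) y 13 with hc
  have hN := (hCls d V hV).nice η ε y hη h3 h4 hy
  have hPo := (hCls d V hV).pot η y c hη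
  have := mu_prob hG hV hη y c
  have ht1 : 1 / 2 ≤ √(η' / (2 * η)) := by
    apply Real.le_sqrt_of_sq_le
    rw [le_div_iff₀ (by positivity)]; linarith
  have ht2 : √(η' / (2 * η)) ≤ 1 := by
    rw [Real.sqrt_le_one, div_le_iff₀ (by positivity)]; linarith
  have hR := hRel.map _ _ _ _ _ (fun z => c + √η • z) (by fun_prop) (hP _ _ _ ht1 ht2 hPo hN)
  have e1 : √η' = √η * (√2 * √(η' / (2 * η))) := by
    rw [← Real.sqrt_mul (by norm_num), ← Real.sqrt_mul hη.le]
    congr 1; field_simp
  rw [((hG d V hV).2 η hη).2.2.2 y c, e1, sm_aff]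
  have hm : Measurable (prim p (GG η (gradient V) y c) √(η' / (2 * η))) :=
    ((hMeas d p).2.2.1 _ _ hN.c1.continuous).measurable
  rw [Measure.map_map (by fun_prop) hm] at hR
  have e2 : (fun a => stp p η η' (gradient V) y a) =
      (fun z => c + √η • z) ∘ prim p (GG η (gradient V) y c) √(η' / (2 * η)) := by
    funext a
    simp only [stp, hη'.ne', if_false, Function.comp, hc]
  rw [e2]; exact hR

lemma step2 (hRel : RelApi) (hG : StmtGib1) (hCls : StmtCls) (hLast : StmtLast) (p : Par)
    (ν : Measure (Sw d)) [IsProbabilityMeasure ν] (hd : 1 ≤ d)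
    {V : E d → ℝ} (hV : InClass V) {η : ℝ} (hη : 0 < η)
    (h3 : 16 * (2 * η) * d ≤ 1 / 6400) (y : E d) (hy : 2 * ‖y‖ * (2 * η) ^ 12 ≤ 1) :
    Rel (sm (prox η V y) √0) (((gs d).prod ν).map fun a => stp p η 0 (gradient V) y a) (1 / 80) := by
  set c := cen η (gradient V) y 13 with hc
  have hd1 : (1 : ℝ) ≤ d := by exact_mod_cast hd
  have hN := (hCls d V hV).nice η (2 * η) y hη le_rfl (by nlinarith) hy
  have hPo := (hCls d V hV).pot η y c hη
  have := ((hG d V hV).2 η hη).1 y
  have hR : Rel (mu (WW η V y c)) (gs d) (1 / 80) := by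
    refine hRel.tv _ _ _ _ (by norm_num) fun φ hφ hb => ?_
    have := hLast d (2 * η) _ _ hd (by positivity) (by nlinarith) hPo hN φ hφ hb
    linarith
  have hR2 := hRel.map _ _ _ _ _ (fun z => c + √η • z) (by fun_prop) hR
  rw [Real.sqrt_zero, sm_zero, ((hG d V hV).2 η hη).2.2.2 y c]
  have e2 : (fun a : Sd d => stp p η 0 (gradient V) y a) = (fun z => c + √η • z) ∘ Prod.fst := by
    funext a
    simp only [stp, if_true, Function.comp, hc]
  rw [e2, ← Measure.map_map (by fun_prop) measurable_fst]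
  have : ((gs d).prod ν).map Prod.fst = gs d := Measure.fst_prod
  rw [this]; exact hR2

/-- the schedule -/
noncomputable def sch (ε : ℝ) (T1 T t : ℕ) : ℝ := if t < T then ε / 2 / 2 ^ (t - (T1 + 1)) else 0

lemma sch_pos {ε : ℝ} (hε : 0 < ε) {T1 T t : ℕ} (h : t < T) :
    0 < sch ε T1 T t ∧ 2 * sch ε T1 T t ≤ ε := by
  simp only [sch, h, if_true]
  refine ⟨by positivity, ?_⟩
  have : (1 : ℝ) ≤ 2 ^ (t - (T1 + 1)) := one_le_pow₀ (by norm_num)
  rw [← mul_div_assoc, div_le_iff₀ (by positivity)]
  nlinarith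

lemma sch_step {ε : ℝ} (hε : 0 < ε) {T1 T t : ℕ} (h : t + 1 < T) :
    sch ε T1 T t ≤ 2 * sch ε T1 T (t + 1) ∧ sch ε T1 T (t + 1) ≤ sch ε T1 T t := by
  have h' : t < T := by omega
  simp only [sch, h, h', if_true]
  rcases le_or_gt (T1 + 1) t with h1 | h1
  · rw [show t + 1 - (T1 + 1) = t - (T1 + 1) + 1 by omega, pow_succ]
    have : (0 : ℝ) < ε / 2 / 2 ^ (t - (T1 + 1)) := by positivity
    rw [← div_div (ε / 2) _ 2]
    constructor <;> linarith
  · rw [show t + 1 - (T1 + 1) = 0 by omega, show t - (T1 + 1) = 0 by omega]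
    simp only [pow_zero, div_one]
    constructor <;> linarith

lemma lawP_prob {X : Type} [MeasurableSpace X] (y0 : X) (P : ℕ → X → Measure X) (T : ℕ)
    (h1 : ∀ t < T, Measurable (P t)) (h2 : ∀ t < T, ∀ y, IsProbabilityMeasure (P t y)) :
    ∀ t ≤ T, IsProbabilityMeasure (lawP y0 P t) := by
  intro t
  induction t with
  | zero => intro _; simp only [lawP]; infer_instance
  | succ t ih =>
    intro ht
    have := ih (by omega)
    simp only [lawP]
    constructor
    rw [Measure.bind_apply MeasurableSet.univ (h1 t (by omega)).aemeasurable]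
    have : ∀ y, P t y Set.univ = 1 := fun y => (h2 t (by omega) y).measure_univ
    simp [this]

lemma int_err (μ : Measure (E d)) [IsProbabilityMeasure μ] (R a : ℝ) :
    ∫ y, (if ‖y‖ ≤ R then a else 2) ^ 2 ∂μ ≤ a ^ 2 + 4 * μ.real {y | R < ‖y‖} := by
  have hS : MeasurableSet {y : E d | R < ‖y‖} := measurableSet_lt measurable_const measurable_norm
  have h1 : ∀ y : E d, (if ‖y‖ ≤ R then a else 2) ^ 2 ≤
      a ^ 2 + {y : E d | R < ‖y‖}.indicator (fun _ => (4 : ℝ)) y := by
    intro y
    by_cases h : ‖y‖ ≤ R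
    · simp only [h, if_true]
      have : 0 ≤ {y : E d | R < ‖y‖}.indicator (fun _ => (4 : ℝ)) y :=
        Set.indicator_nonneg (fun _ _ => by norm_num) _
      linarith
    · simp only [h, if_false]
      rw [Set.indicator_of_mem (show y ∈ {y : E d | R < ‖y‖} from lt_of_not_ge h)]
      nlinarith [sq_nonneg a]
  have hi : Integrable ({y : E d | R < ‖y‖}.indicator fun _ => (4 : ℝ)) μ :=
    (integrable_const _).indicator hS
  calc _ ≤ ∫ y, (a ^ 2 + {y : E d | R < ‖y‖}.indicator (fun _ => (4 : ℝ)) y) ∂μ :=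
        integral_mono_of_nonneg (ae_of_all _ fun y => sq_nonneg _) ((integrable_const _).add hi)
          (ae_of_all _ h1)
    _ = _ := by
        rw [integral_add (integrable_const _) hi, integral_indicator hS]
        simp [mul_comm]

end Vale.Agent.P347.Topm

namespace Vale.Agent.P347

open Topm

theorem stmtTop (hChain : StmtChain) (hRel : RelApi) (hPrim : StmtPrim) (hLast : StmtLast)
    (hTopI : StmtTopI) (hG : StmtGib1) (hCls : StmtCls) (hAlg : StmtAlg) (hMeas : StmtMeas) :
    StmtTop := by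
  obtain ⟨Cp, hCp, hP⟩ := hPrim
  have hCp2 : Cp ≤ Cp ^ 2 := by nlinarith
  have hC1 : 1680 * Cp ≤ (10 ^ 8 * Cp ^ 2) ^ 2 := by nlinarith
  refine ⟨(10 ^ 8 * Cp ^ 2) ^ 2, by linarith, fun d ε hd hε h1 h2 => ?_⟩
  obtain ⟨T1, K, e0, he0, he1, hε2, hc4, hT, hA1, hA2, hA3, hA4⟩ := arith Cp hCp d ε hd hε h1 h2
  obtain ⟨p, π2, π3, hπ2, hπ3, hJ, hR⟩ := hP d ε e0 hd hε h1 hc4 he0 he1
  set T := T1 + 2 + K with hTd
  have hd1 : (2 : ℝ) ≤ d := by exact_mod_cast hd
  have hlog : 0 ≤ Real.log d := Real.log_nonneg (by linarith)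
  refine ⟨T * (2 * p.J + 19), ?_, ?_⟩
  · have hl : 1 ≤ (1 + Real.log d) ^ 2 := one_le_pow₀ (by linarith)
    have h3 : (2 * p.J + 19 : ℝ) ≤ 21 * Cp * (1 + Real.log d) ^ 2 := by nlinarith
    rw [Nat.cast_mul]
    calc _ ≤ 80 * (1 + Real.log d) / ε * (21 * Cp * (1 + Real.log d) ^ 2) := by
          apply mul_le_mul hT _ (by positivity) (by positivity)
          push_cast; exact h3
      _ = 1680 * Cp * (1 + Real.log d) ^ 3 / ε := by ring
      _ ≤ _ := by gcongr
  obtain ⟨qr, out, hq, ho, hF⟩ := hAlg d p (sch ε T1 T) T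
  have : IsProbabilityMeasure (swM d π2 π3) := by unfold swM; infer_instance
  have : IsProbabilityMeasure (sdM d π2 π3) := by unfold sdM; infer_instance
  refine ⟨Fin T → Sd d, inferInstance, inferInstance, Measure.pi fun _ => sdM d π2 π3,
    inferInstance, qr, out, hq, ho, fun V hV B hB => ?_⟩
  set η := sch ε T1 T with hη
  have hηp : ∀ t < T, 0 < η t ∧ η t ≤ 1 / 4 := fun t ht => by
    have := sch_pos (T1 := T1) hε ht
    exact ⟨this.1, by linarith [this.2]⟩
  have hηT : η T = 0 := by simp [hη, sch]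
  obtain ⟨hI1, hI2⟩ := hTopI d V hV η T hηp hηT
  set R : ℝ := 1 / (2 * ε ^ 12) with hRd
  have hm : ∀ t < T, Measurable (PK η V t) := fun t ht =>
    ((hG d V hV).2 _ (hηp t ht).1).2.2.1 _
  have hp : ∀ t < T, ∀ y, IsProbabilityMeasure (PK η V t y) := fun t ht y => by
    have := ((hG d V hV).2 _ (hηp t ht).1).1 y
    unfold PK; infer_instance
  have hT1 : (1 : ℝ) ≤ (T : ℕ) := by exact_mod_cast (show 1 ≤ T by omega)
  have hce : Cp * e0 ≤ 1 := by
    have : (Cp * e0) ^ 2 ≤ 1 := by nlinarith [sq_nonneg (Cp * e0)]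
    by_contra h
    push Not at h
    nlinarith
  have hce0 : 0 ≤ Cp * e0 := by positivity
  have hch := hChain (E d) (Sd d) 0 (PK η V)
    (fun t q => stp p (η t) (η (t + 1)) (gradient V) q.1 q.2) (sdM d π2 π3)
    (fun t y => if ‖y‖ ≤ R then (if t + 1 < T then Cp * e0 else 1 / 80) else 2) T (1 / 40) hm hp
    (fun t => ((hMeas d p).2.2.2 _ _ _ (hCls d V hV).cont).measurable)
    (fun t => Measurable.ite (measurableSet_le measurable_norm measurable_const) measurable_const
      measurable_const)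
    (fun t y => by
      constructor <;> split_ifs <;> linarith)
    (fun t ht y => by
      by_cases hy : ‖y‖ ≤ R
      · have hs := sch_pos (T1 := T1) hε ht
        have hy2 : 2 * ‖y‖ * (2 * η t) ^ 12 ≤ 1 := by
          have a1 : (2 * η t) ^ 12 ≤ ε ^ 12 := pow_le_pow_left₀ (by linarith [hs.1]) hs.2 12
          calc _ ≤ 2 * R * ε ^ 12 := by gcongr
            _ = 1 := by rw [hRd]; field_simp
        simp only [hy, if_true]
        by_cases h3 : t + 1 < T
        · simp only [h3, if_true]
          have h5 := sch_step (T1 := T1) hε h3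
          exact step1 hRel hG hCls hMeas p _ hR hV hs.1 h5.1 h5.2 hs.2 hε2 y hy2
        · simp only [h3, if_false]
          have h4 : t + 1 = T := by omega
          unfold PK
          rw [h4, hηT]
          refine step2 hRel hG hCls hLast p _ (by omega) hV hs.1 ?_ y hy2
          have : 2 * sch ε T1 T t = ε / 2 ^ K := by
            simp only [sch, ht, if_true]
            rw [show t - (T1 + 1) = K by omega]; ring
          rw [this]; exact hA3
      · simp only [hy, if_false]
        have := hp t ht y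
        have : IsProbabilityMeasure ((sdM d π2 π3).map fun a =>
            stp p (η t) (η (t + 1)) (gradient V) y a) :=
          Measure.isProbabilityMeasure_map
            (((hMeas d p).2.2.2 _ _ _ (hCls d V hV).cont).comp
              (Continuous.prodMk_right y)).measurable.aemeasurable
        exact hRel.triv _ _ _)
    (by norm_num) (by norm_num)
    (by
      have hb : ∀ t ∈ range T, ∫ y, (if ‖y‖ ≤ R then (if t + 1 < T then Cp * e0 else 1 / 80) else 2) ^ 2
          ∂lawP 0 (PK η V) t ≤ ((Cp * e0) ^ 2 + 4 * (6 * √d / R)) +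
            (if t = T - 1 then 1 / 6400 else 0) := by
        intro t ht
        have ht' := mem_range.1 ht
        have := lawP_prob 0 (PK η V) T hm hp t ht'.le
        have a1 := int_err (lawP 0 (PK η V) t) R (if t + 1 < T then Cp * e0 else 1 / 80)
        have a2 := hI1 t ht' R (by positivity)
        refine a1.trans ?_
        by_cases h3 : t + 1 < T
        · have : t ≠ T - 1 := by omega
          simp only [h3, this, if_true, if_false]
          linarith
        · have : t = T - 1 := by omega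
          simp only [h3, if_false]
          rw [if_pos this]
          nlinarith [sq_nonneg (Cp * e0)]
      refine (sum_le_sum hb).trans ?_
      rw [sum_add_distrib, sum_const, card_range, sum_ite_eq', nsmul_eq_mul, mul_add]
      split_ifs <;> linarith)
  obtain ⟨hrm, hch⟩ := hch
  have hφm : Measurable (B.indicator fun _ : E d => (1 : ℝ)) := measurable_const.indicator hB
  have hφb : ∀ x, 0 ≤ B.indicator (fun _ : E d => (1 : ℝ)) x ∧
      B.indicator (fun _ : E d => (1 : ℝ)) x ≤ 1 := fun x => by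
    by_cases hx : x ∈ B <;> simp [hx]
  have b1 := hch _ hφm hφb
  have b2 := hI2 T1 (ε / 2) (by omega) (fun t ht => by
    simp only [hη, sch, show t < T by omega, if_true]
    rw [show t - (T1 + 1) = 0 by omega]; simp) _ hφm
    (fun x => by rw [abs_of_nonneg (hφb x).1]; exact (hφb x).2)
  have e1 : (fun ω => out (ω, hist qr (fun x => (V x, gradient V x)) ω (T * (2 * p.J + 19)))) =
      run (0 : E d) (fun t q => stp p (η t) (η (t + 1)) (gradient V) q.1 q.2) T := by
    funext ω; exact hF _ ω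
  rw [e1]
  rw [← integral_map hrm.aemeasurable hφm.aestronglyMeasurable] at b1
  have e2 : ∀ μ : Measure (E d), ∫ x, B.indicator (fun _ : E d => (1 : ℝ)) x ∂μ = μ.real B :=
    fun μ => by rw [integral_indicator hB]; simp
  rw [e2, e2] at b1 b2
  rw [abs_le] at b1 b2 ⊢
  constructor <;> linarith [b1.1, b1.2, b2.1, b2.2]

end Vale.Agent.P347
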