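import Vale.Agent.P347.Spec

open MeasureTheory ProbabilityTheory Finset
open scoped RealInnerProductSpace ENNReal

namespace Vale.Agent.P347

namespace TopIm

variable {d : ℕ}

theorem cont {K : ℝ} {f : E d → ℝ} (hK : 0 ≤ K) (h : LipF K f) : Continuous f :=
  (LipschitzWith.of_dist_le_mul (K := ⟨K, hK⟩) fun x y => by
    rw [dist_eq_norm, dist_eq_norm]
    exact h x y).continuous

theorem ibd {X : Type} [MeasurableSpace X] {ψ : X → ℝ} {b : ℝ} (μ : Measure X) [IsProbabilityMeasure μ]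
    (hm : Measurable ψ) (hb : ∀ x, |ψ x| ≤ b) : Integrable ψ μ :=
  .of_bound hm.aestronglyMeasurable b (.of_forall hb)

theorem abd {X : Type} [MeasurableSpace X] {ψ : X → ℝ} {b : ℝ} (μ : Measure X) [IsProbabilityMeasure μ]
    (hb : ∀ x, |ψ x| ≤ b) : |∫ x, ψ x ∂μ| ≤ b := by
  simpa using norm_integral_le_of_norm_le_const (μ := μ) (f := ψ) (C := b) (.of_forall hb)

theorem bind_int {κ : E d → Measure (E d)} (hκ : Measurable κ) (μ : Measure (E d)) {ψ : E d → ℝ}
    (h : Integrable ψ (μ.bind κ)) : ∫ x, ψ x ∂μ.bind κ = ∫ y, ∫ x, ψ x ∂κ y ∂μ := by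
  have e := Measure.comp_eq_comp_const_apply (κ := ⟨κ, hκ⟩) (μ := μ)
  change μ.bind κ = _ at e
  rw [e] at h ⊢
  exact Kernel.integral_comp h

theorem ker_meas {κ : E d → Measure (E d)} (hκ : Measurable κ) {ψ : E d → ℝ} (h : Measurable ψ) :
    Measurable fun y => ∫ x, ψ x ∂κ y :=
  (h.stronglyMeasurable.integral_kernel (κ := ⟨κ, hκ⟩)).measurable

theorem sm_prob (α : Measure (E d)) [IsProbabilityMeasure α] (s : ℝ) : IsProbabilityMeasure (sm α s) :=
  Measure.isProbabilityMeasure_map (by fun_prop)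

/-- Gaussian smoothing -/
noncomputable def S (s : ℝ) (ψ : E d → ℝ) (x : E d) : ℝ := ∫ g, ψ (x + s • g) ∂gs d

theorem sm_int (α : Measure (E d)) [IsProbabilityMeasure α] (s : ℝ) {ψ : E d → ℝ} {b : ℝ}
    (hm : Measurable ψ) (hb : ∀ x, |ψ x| ≤ b) : ∫ x, ψ x ∂sm α s = ∫ x, S s ψ x ∂α := by
  rw [sm, integral_map (by fun_prop) hm.aestronglyMeasurable,
    integral_prod _ (ibd _ (by fun_prop) fun p => hb _)]
  rfl

theorem S_meas (s : ℝ) {ψ : E d → ℝ} (hm : Measurable ψ) : Measurable (S s ψ) :=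
  (StronglyMeasurable.integral_prod_right' (f := fun p : E d × E d => ψ (p.1 + s • p.2))
    (Measurable.stronglyMeasurable (by fun_prop))).measurable

theorem S_bd (s : ℝ) {ψ : E d → ℝ} {b : ℝ} (hb : ∀ x, |ψ x| ≤ b) (x : E d) : |S s ψ x| ≤ b :=
  abd _ fun _ => hb _

theorem S_lip (s : ℝ) {ψ : E d → ℝ} {b l : ℝ} (hl : 0 ≤ l) (h : LipF l ψ) (hb : ∀ x, |ψ x| ≤ b) :
    LipF l (S s ψ) := fun x y => by
  have hm := (cont hl h).measurable
  rw [S, S, ← integral_sub (ibd _ (by fun_prop) fun p => hb _) (ibd _ (by fun_prop) fun p => hb _)]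
  exact abd _ fun g => by simpa using h (x + s • g) (y + s • g)

theorem mom (h1 : StmtG1) (α : Measure (E d)) [IsProbabilityMeasure α] {s : ℝ} (_h0 : 0 ≤ s) (hs : s ≤ 1 / 4)
    (hi : Integrable (fun x : E d => ‖x‖) α) (hb : ∫ x, ‖x‖ ∂α ≤ 2 * √d) :
    Integrable (fun x : E d => ‖x‖) (sm α √s) ∧ ∫ x, ‖x‖ ∂sm α √s ≤ 3 * √d := by
  have i1 : Integrable (fun x : E d => ‖x‖) (gs d) := by simpa using (h1 d).i2 1
  have g : ∫ x, ‖x‖ ∂gs d ≤ √d := by
    have a := variance_nonneg (fun x : E d => ‖x‖) (gs d)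
    rw [variance_eq_sub ((memLp_two_iff_integrable_sq (by fun_prop)).2 ((h1 d).i2 2))] at a
    refine Real.le_sqrt_of_sq_le ?_
    rw [← (h1 d).m2]
    exact sub_nonneg.1 a
  have s1 : √s ≤ 1 := Real.sqrt_le_one.2 (by linarith)
  have i2 : Integrable (fun p : E d × E d => ‖p.1‖ + ‖p.2‖) (α.prod (gs d)) :=
    (hi.comp_fst _).add (i1.comp_snd _)
  have le : ∀ p : E d × E d, ‖p.1 + √s • p.2‖ ≤ ‖p.1‖ + ‖p.2‖ := fun p => by
    refine (norm_add_le _ _).trans ?_
    rw [norm_smul, Real.norm_of_nonneg (Real.sqrt_nonneg s)]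
    linarith [mul_le_of_le_one_left (norm_nonneg p.2) s1]
  have i3 : Integrable (fun p : E d × E d => ‖p.1 + √s • p.2‖) (α.prod (gs d)) :=
    i2.mono' (by fun_prop) (.of_forall fun p => by simpa using le p)
  refine ⟨(integrable_map_measure (by fun_prop) (by fun_prop)).2 i3, ?_⟩
  rw [sm, integral_map (by fun_prop) (by fun_prop)]
  refine (integral_mono i3 i2 le).trans ?_
  rw [integral_add (hi.comp_fst _) (i1.comp_snd _), integral_fun_fst fun x : E d => ‖x‖,
    integral_fun_snd fun x : E d => ‖x‖]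
  simp only [probReal_univ, one_smul]
  linarith

end TopIm

open TopIm

theorem stmtTopI (h1 : StmtG1) (h2 : StmtG2) (hGib1 : StmtGib1) (hGib2 : StmtGib2) (hCon : StmtCon) :
    StmtTopI := by
  intro d V hV η T hη hT
  obtain ⟨pg, g1⟩ := hGib1 d V hV
  obtain ⟨⟨gi, gb⟩, g2⟩ := hGib2 d V hV
  have pr : ∀ t, IsProbabilityMeasure (sm (gibbs V) √(η t)) := fun t => sm_prob _ _
  have mP : ∀ t < T, Measurable (PK η V t) := fun t ht => (g1 _ (hη t ht).1).2.2.1 _
  have pP : ∀ t < T, ∀ y, IsProbabilityMeasure (PK η V t y) := fun t ht y => by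
    have := (g1 _ (hη t ht).1).1 y
    exact sm_prob _ _
  have pl : ∀ t ≤ T, IsProbabilityMeasure (lawP 0 (PK η V) t) := fun t ht => by
    induction t with
    | zero => exact Measure.dirac.isProbabilityMeasure
    | succ t ih =>
      have := ih (by omega)
      exact isProbabilityMeasure_bind (mP t ht).aemeasurable (.of_forall (pP t ht))
  have kS : ∀ t < T, ∀ (ψ : E d → ℝ) (b : ℝ), Measurable ψ → (∀ x, |ψ x| ≤ b) → ∀ y,
      ∫ x, ψ x ∂PK η V t y = ∫ x, S √(η (t + 1)) ψ x ∂prox (η t) V y := fun t ht ψ b hm hb y => by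
    have := (g1 _ (hη t ht).1).1 y
    exact sm_int _ _ hm hb
  have step : ∀ t < T, ∀ (ψ : E d → ℝ) (b : ℝ), Measurable ψ → (∀ x, |ψ x| ≤ b) →
      ∫ x, ψ x ∂lawP 0 (PK η V) (t + 1) - ∫ x, ψ x ∂sm (gibbs V) √(η (t + 1)) =
        ∫ y, ∫ x, ψ x ∂PK η V t y ∂lawP 0 (PK η V) t -
          ∫ y, ∫ x, ψ x ∂PK η V t y ∂sm (gibbs V) √(η t) := fun t ht ψ b hm hb => by
    have := pl (t + 1) ht
    have e := g2 _ (hη t ht).1
    congr 1
    · exact bind_int (mP t ht) _ (ibd (lawP 0 (PK η V) (t + 1)) hm hb)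
    · simp only [kS t ht ψ b hm hb]
      rw [← bind_int (g1 _ (hη t ht).1).2.1 _ (by rw [e]; exact ibd _ (S_meas _ hm) (S_bd _ hb)), e,
        sm_int _ _ hm hb]
  have kb : ∀ t < T, ∀ (ψ : E d → ℝ) (b : ℝ), (∀ x, |ψ x| ≤ b) → ∀ y, |∫ x, ψ x ∂PK η V t y| ≤ b :=
    fun t ht ψ b hb y => by
      have := pP t ht y
      exact abd _ hb
  have A : ∀ r : ℝ, 0 < r → ∀ t < T, (∀ s < t, r ≤ 1 + η s) → ∀ (ψ : E d → ℝ) (b l : ℝ), 0 ≤ l → LipF l ψ →
      (∀ x, |ψ x| ≤ b) →
      |∫ x, ψ x ∂lawP 0 (PK η V) t - ∫ x, ψ x ∂sm (gibbs V) √(η t)| ≤ l * (3 * √d) / r ^ t := by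
    intro r hr t
    induction t with
    | zero =>
      intro ht _ ψ b l hl h hb
      have := pr 0
      obtain ⟨a1, a2⟩ := mom h1 (gibbs V) (hη 0 ht).1.le (hη 0 ht).2 gi gb
      have e : ψ 0 = ∫ _, ψ 0 ∂sm (gibbs V) √(η 0) := by simp
      rw [lawP, integral_dirac, pow_zero, div_one, e,
        ← integral_sub (integrable_const _) (ibd _ (cont hl h).measurable hb)]
      refine (norm_integral_le_of_norm_le (f := fun x => ψ 0 - ψ x) (a1.const_mul l)
        (.of_forall fun x => by simpa using h 0 x)).trans ?_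
      rw [integral_const_mul]
      gcongr
    | succ t ih =>
      intro ht hr' ψ b l hl h hb
      have ht' : t < T := by omega
      have hm := (cont hl h).measurable
      have e := hη t ht'
      have c := hCon d V hV _ l _ e.1 e.2 hl (S_lip √(η (t + 1)) hl h hb) ⟨b, S_bd _ hb⟩
      simp only [← kS t ht' ψ b hm hb] at c
      rw [step t ht' ψ b hm hb]
      refine (ih ht' (fun s hs => hr' s (by omega)) _ b _ (by have := e.1; positivity) c
        (kb t ht' ψ b hb)).trans ?_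
      rw [pow_succ', ← div_div, mul_div_right_comm l]
      gcongr
      exact hr' t (by omega)
  refine ⟨fun t ht R hR => ?_, fun T1 η0 h3 h4 => ?_⟩
  · have := pl t ht.le
    have := pr t
    obtain ⟨a1, a2⟩ := mom h1 (gibbs V) (hη t ht).1.le (hη t ht).2 gi gb
    have hb : ∀ x : E d, |min ‖x‖ R| ≤ R := fun x => by
      rw [abs_of_nonneg (by positivity)]
      exact min_le_right _ _
    have a := A 1 one_pos t ht (fun s hs => by linarith [(hη s (by omega)).1]) (fun x => min ‖x‖ R) R 1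
      zero_le_one (fun x y => by
        rw [one_mul]
        refine (abs_min_sub_min_le_max _ _ _ _).trans ?_
        simpa using abs_norm_sub_norm_le x y) hb
    have b := mul_meas_ge_le_integral_of_nonneg (μ := lawP 0 (PK η V) t) (f := fun x : E d => min ‖x‖ R)
      (.of_forall fun x => by positivity) (ibd _ (by fun_prop) hb) R
    have c : ∫ x, min ‖x‖ R ∂sm (gibbs V) √(η t) ≤ ∫ x, ‖x‖ ∂sm (gibbs V) √(η t) :=
      integral_mono (ibd _ (by fun_prop) hb) a1 fun x => min_le_left _ _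
    have e : (lawP 0 (PK η V) t).real {y | R < ‖y‖} ≤ (lawP 0 (PK η V) t).real {x | R ≤ min ‖x‖ R} :=
      measureReal_mono fun x hx => (le_min (le_of_lt hx) le_rfl : R ≤ min ‖x‖ R)
    rw [le_div_iff₀' hR]
    rw [one_pow, div_one, abs_le] at a
    nlinarith
  have e0 := hη T1 (by omega)
  rw [h4 T1 (by omega)] at e0
  have B : ∀ t, T1 + 1 ≤ t → t ≤ T → ∀ φ : E d → ℝ, Measurable φ → (∀ x, |φ x| ≤ 1) →
      |∫ x, φ x ∂lawP 0 (PK η V) t - ∫ x, φ x ∂sm (gibbs V) √(η t)| ≤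
        6 * √d / √η0 / (1 + η0) ^ T1 := by
    intro t ht
    induction t, ht using Nat.le_induction with
    | base =>
      intro ht φ hm hb
      have p := Real.sqrt_pos.2 e0.1
      have c := hCon d V hV η0 (2 / √η0) (S √η0 φ) e0.1 e0.2 (by positivity) (fun x y => by
        rw [div_mul_eq_mul_div]
        exact (h2 d).shift _ x y φ p hm hb) ⟨1, S_bd _ hb⟩
      have k := kS T1 ht φ 1 hm hb
      rw [h4 T1 (by omega), h4 (T1 + 1) le_rfl] at k
      simp only [← k] at c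
      rw [step T1 ht φ 1 hm hb]
      have q := e0.1
      refine (A (1 + η0) (by positivity) T1 ht (fun s hs => by rw [h4 s (by omega)]) _ 1 _
        (by positivity) c (kb T1 ht φ 1 hb)).trans ?_
      refine div_le_div_of_nonneg_right ?_ (by positivity)
      calc _ ≤ 2 / √η0 * (3 * √d) :=
            mul_le_mul_of_nonneg_right (div_le_self (by positivity) (by linarith)) (by positivity)
        _ = _ := by ring
    | succ t _ ih =>
      intro ht φ hm hb
      rw [step t ht φ 1 hm hb]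
      exact ih (by omega) _ (ker_meas (mP t ht) hm) (kb t ht φ 1 hb)
  intro φ hm hb
  have := B T h3.le le_rfl φ hm hb
  rw [sm_int _ _ hm hb, hT] at this
  simpa [S] using this

end Vale.Agent.P347
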