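import Vale.Agent.P347.Spec

open MeasureTheory ProbabilityTheory Finset
open scoped RealInnerProductSpace ENNReal

namespace Vale.Agent.P347

namespace WLm

theorem cont {d : ℕ} {K : ℝ} {f : E d → ℝ} (hK : 0 ≤ K) (h : LipF K f) : Continuous f :=
  (LipschitzWith.of_dist_le_mul (K := ⟨K, hK⟩) fun x y => by
    rw [dist_eq_norm, dist_eq_norm]
    exact h x y).continuous

theorem sq_le (y : ℝ) : ‖y‖ₑ * ‖y‖ₑ ≤ 2 * (ENNReal.ofReal (Real.exp y) + ENNReal.ofReal (Real.exp (-y))) := by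
  rw [← ENNReal.ofReal_add (by positivity) (by positivity), ← ofReal_norm,
    ← ENNReal.ofReal_mul (norm_nonneg _), ← ENNReal.ofReal_ofNat 2, ← ENNReal.ofReal_mul (by norm_num)]
  refine ENNReal.ofReal_le_ofReal ?_
  rw [Real.norm_eq_abs, abs_mul_abs_self]
  have a := Real.exp_pos y
  have b := Real.exp_pos (-y)
  rcases le_total 0 y with h | h
  · nlinarith [Real.quadratic_le_exp_of_nonneg h]
  · nlinarith [Real.quadratic_le_exp_of_nonneg (neg_nonneg.2 h)]

theorem key (h1 : StmtG1) (hSG : StmtSG) (hGC : StmtGC) {d : ℕ} {α : Measure (E d)} {L κ : ℝ}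
    (hd : 1 ≤ d) (hα : SG α L) (hκ : 0 < κ) (hL : 2 * L ^ 4 * d ≤ κ ^ 4) {z : E d → ℝ} (hz : LipF 1 z) :
    ∫⁻ p, ‖z (p.2 + κ⁻¹ • p.1) - ∫ y, z y ∂gs d‖ₑ ∂α.prod (gs d) ≤
      ENNReal.ofReal (Real.exp 1 + 2 * (Real.exp 2 + Real.exp 2)) := by
  have := hα.1
  have hc := cont zero_le_one hz
  set c := ∫ y, z y ∂gs d with hcd
  set l : E d → E d → ℝ≥0∞ := fun a g =>
    ENNReal.ofReal (Real.exp (⟪κ⁻¹ • a, g⟫ - ‖κ⁻¹ • a‖ ^ 2 / 2)) with hl
  have ml : Measurable fun p : E d × E d => l p.1 p.2 := by fun_prop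
  have mL : Measurable fun g => ∫⁻ a, l a g ∂α := ml.lintegral_prod_left'
  have e1 : ∫⁻ p, ‖z (p.2 + κ⁻¹ • p.1) - c‖ₑ ∂α.prod (gs d) =
      ∫⁻ g, (∫⁻ a, l a g ∂α) * ‖z g - c‖ₑ ∂gs d := by
    rw [lintegral_prod _ (by fun_prop)]
    have e : ∀ a : E d, ∫⁻ g, ‖z (g + κ⁻¹ • a) - c‖ₑ ∂gs d = ∫⁻ g, l a g * ‖z g - c‖ₑ ∂gs d := fun a => by
      rw [← lintegral_map (f := fun x => ‖z x - c‖ₑ) (by fun_prop) (by fun_prop), (h1 d).cm,
        lintegral_withDensity_eq_lintegral_mul _ (by fun_prop) (by fun_prop)]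
      rfl
    simp only [e]
    rw [lintegral_lintegral_swap (by fun_prop)]
    exact lintegral_congr fun g => lintegral_mul_const _ (by fun_prop)
  have e2 : ∫⁻ g, (∫⁻ a, l a g ∂α) * (∫⁻ a, l a g ∂α) ∂gs d ≤ ENNReal.ofReal (Real.exp 1) := by
    have e : ∀ g, (∫⁻ a, l a g ∂α) * (∫⁻ a, l a g ∂α) = ∫⁻ p, l p.1 g * l p.2 g ∂α.prod α := fun g =>
      (lintegral_prod_mul (by fun_prop) (by fun_prop)).symm
    have e' : ∀ p : E d × E d, ∫⁻ g, l p.1 g * l p.2 g ∂gs d =
        ENNReal.ofReal (Real.exp (κ⁻¹ ^ 2 * ⟪p.1, p.2⟫)) := fun p => by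
      have b : ∀ g, l p.1 g * l p.2 g = ENNReal.ofReal (Real.exp ⟪κ⁻¹ • p.1 + κ⁻¹ • p.2, g⟫) *
          ENNReal.ofReal (Real.exp (-(‖κ⁻¹ • p.1‖ ^ 2 / 2) - ‖κ⁻¹ • p.2‖ ^ 2 / 2)) := fun g => by
        simp only [hl]
        rw [← ENNReal.ofReal_mul (by positivity), ← ENNReal.ofReal_mul (by positivity), ← Real.exp_add,
          ← Real.exp_add, inner_add_left]
        congr 2
        ring
      simp only [b]
      rw [lintegral_mul_const _ (by fun_prop), (h1 d).mgf, ← ENNReal.ofReal_mul (by positivity),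
        ← Real.exp_add, norm_add_sq_real, real_inner_smul_left, real_inner_smul_right]
      congr 2
      ring
    simp only [e]
    rw [lintegral_lintegral_swap (by fun_prop)]
    simp only [e']
    have h2 : (κ⁻¹ ^ 2) ^ 2 * L ^ 4 * d ≤ 1 / 2 := by
      rw [← pow_mul, inv_pow, mul_assoc, inv_mul_le_iff₀ (by positivity)]
      linarith
    have h3 : (1 : ℝ) ≤ d := by exact_mod_cast hd
    refine ((hSG d).pair α α L _ hα hα (le_trans (le_mul_of_one_le_right (by positivity) h3) h2)).trans ?_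
    gcongr
    linarith
  have e3 : ∫⁻ g, ‖z g - c‖ₑ * ‖z g - c‖ₑ ∂gs d ≤
      2 * (ENNReal.ofReal (Real.exp 2) + ENNReal.ofReal (Real.exp 2)) := by
    have a := hGC d 1 z zero_le_one hz
    have b := hGC d 1 (fun x => -z x) zero_le_one fun x y => by
      rw [neg_sub_neg, norm_sub_rev]
      exact hz x y
    simp only [integral_neg, neg_sub_neg, one_pow, mul_one] at a b
    refine (lintegral_mono fun g => sq_le _).trans ?_
    rw [lintegral_const_mul _ (by fun_prop), lintegral_add_left (by fun_prop)]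
    simp only [neg_sub]
    gcongr
  rw [e1, ENNReal.ofReal_add (by positivity) (by positivity), ENNReal.ofReal_mul (by norm_num),
    ENNReal.ofReal_add (by positivity) (by positivity), ENNReal.ofReal_ofNat]
  refine le_trans (lintegral_mono fun g => ?_) ((lintegral_add_left (mL.mul mL) _).trans_le (add_le_add e2 e3))
  rcases le_total (∫⁻ a, l a g ∂α) ‖z g - c‖ₑ with h | h
  · exact le_add_left (mul_le_mul' h le_rfl)
  · exact le_add_right (mul_le_mul' le_rfl h)

end WLm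

open WLm

theorem stmtWL (h1 : StmtG1) (hSG : StmtSG) (hGC : StmtGC) : StmtWL := by
  refine ⟨Real.exp 1 + 2 * (Real.exp 2 + Real.exp 2), ?_, fun d α L κ K f hd hα hκ hL hK hf => ?_⟩
  · linarith [Real.add_one_le_exp 1, Real.exp_pos 2]
  have := hα.1
  rcases hK.eq_or_lt with rfl | hK
  · have e : ∀ x, f x = f 0 := fun x => by simpa [sub_eq_zero] using hf x 0
    simp only [e]
    simp
  have hc := cont hK.le hf
  have hp := mul_pos hK hκ
  have k := key h1 hSG hGC hd hα hκ hL (z := fun x => f (κ • x) / (K * κ)) fun x y => by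
    rw [← sub_div, norm_div, Real.norm_of_nonneg hp.le, div_le_iff₀ hp]
    refine (hf _ _).trans_eq ?_
    rw [← smul_sub, norm_smul, Real.norm_of_nonneg hκ.le]
    ring
  simp only [smul_add, smul_inv_smul₀ hκ.ne', integral_div, add_comm (κ • _)] at k
  have i : Integrable (fun p : E d × E d => f (p.1 + κ • p.2) / (K * κ) - (∫ g, f (κ • g) ∂gs d) / (K * κ))
      (α.prod (gs d)) := ⟨by fun_prop, k.trans_lt ENNReal.ofReal_lt_top⟩
  have k2 := (enorm_integral_le_lintegral_enorm _).trans k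
  rw [integral_sub ((i.add (integrable_const ((∫ g, f (κ • g) ∂gs d) / (K * κ)))).congr
      (.of_forall fun p => by simp))
    (integrable_const _), integral_div, integral_const, ← ofReal_norm,
    ENNReal.ofReal_le_ofReal_iff (by positivity), probReal_univ, one_smul, ← sub_div, norm_div,
    Real.norm_of_nonneg hp.le, div_le_iff₀ hp] at k2
  rw [mul_assoc]
  exact k2

end Vale.Agent.P347
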