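import Vale.Agent.P347.Rel
import Vale.Agent.P347.Chain
import Vale.Agent.P347.G1
import Vale.Agent.P347.G2
import Vale.Agent.P347.GC
import Vale.Agent.P347.GCT
import Vale.Agent.P347.SG
import Vale.Agent.P347.MM
import Vale.Agent.P347.L2
import Vale.Agent.P347.WL
import Vale.Agent.P347.AS
import Vale.Agent.P347.Flux
import Vale.Agent.P347.Ide
import Vale.Agent.P347.Rev
import Vale.Agent.P347.Aa
import Vale.Agent.P347.OU
import Vale.Agent.P347.Mean
import Vale.Agent.P347.QA1
import Vale.Agent.P347.QA2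
import Vale.Agent.P347.Quad
import Vale.Agent.P347.B2a
import Vale.Agent.P347.Pi2
import Vale.Agent.P347.Meas
import Vale.Agent.P347.B2
import Vale.Agent.P347.IBP
import Vale.Agent.P347.CI
import Vale.Agent.P347.S0
import Vale.Agent.P347.S1
import Vale.Agent.P347.FD
import Vale.Agent.P347.PI
import Vale.Agent.P347.PA0
import Vale.Agent.P347.PA1
import Vale.Agent.P347.Prim
import Vale.Agent.P347.Cls
import Vale.Agent.P347.Gib1
import Vale.Agent.P347.Gib2
import Vale.Agent.P347.Contr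
import Vale.Agent.P347.Last
import Vale.Agent.P347.TopI
import Vale.Agent.P347.Cmp
import Vale.Agent.P347.Alg
import Vale.Agent.P347.Top
import Vale.Agent.P347.Ar

namespace Vale.Agent.P347

theorem mainAr : StmtAr := by
  have hRel := relApi
  have h1 := stmtG1
  have h2 := stmtG2 h1
  have hGC := stmtGC h1 h2
  have hGCT := stmtGCT h1 hGC
  have hSG := stmtSG h1
  have hMM := stmtMM h1 hSG hRel
  have hL2 := stmtL2 h1 hRel
  have hWL := stmtWL h1 hSG hGC
  have hAS := stmtAS h1 h2 hSG hMM hRel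
  have hIde := stmtIde h1 (stmtFlux h1 h2)
  have hRev := stmtRev h2
  have hAa := stmtAa h1 h2 hGCT
  have hOU := stmtOU h1 h2 hGC
  have hMean := stmtMean h1 hAa hOU
  have hQuad := stmtQuad stmtQA1 stmtQA2 hOU
  have hMeas := stmtMeas
  have hB2 := stmtB2 h1 (stmtB2a h1 h2 hOU hAa hMean hWL hSG) hMean hAa hOU hMeas
  have hFD := stmtFD h1 h2
  have hPI := stmtPI h1 (stmtCI h1 h2 (stmtIBP h1)) (stmtS0 h1 h2 hOU hAa hMean) (stmtS1 h1 hOU)
    hFD hMeas
  have hPA1 := stmtPA1 h1 hRel hSG hAS hAa hOU (stmtPA0 h1 hRel hL2 hOU hFD hMeas) hMeas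
  have hPrim := stmtPrim h1 h2 hRel hIde hRev hQuad hB2 stmtPi2 hPI hPA1 hAa hMean hOU hMeas
  have hCls := stmtCls
  have hG := stmtGib1 h1 hCls
  have hTopI := stmtTopI h1 h2 hG (stmtGib2 h1 hCls hG) (stmtCon h1 hIde hCls hG)
  exact stmtAr (stmtTop stmtChain hRel hPrim (stmtLast h1) hTopI hG hCls (stmtAlg stmtCmp) hMeas)

end Vale.Agent.P347
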