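import Vale.Agent.P347.Main2
import Vale.Agent.P347.Ar3

namespace Vale.Agent.P347

theorem mainTop2 : StmtTop2 := by
  have hRel := relApi
  have h1 := stmtG1
  have h2 := stmtG2 h1
  have hGC := stmtGC h1 h2
  have hGCT := stmtGCT h1 hGC
  have hIBP := stmtIBP h1
  have hFlux := stmtFlux h1 h2
  have hIde := stmtIde h1 hFlux
  have hRev := stmtRev h2
  have hAa := stmtAa h1 h2 hGCT
  have hOU := stmtOU h1 h2 hGC
  have hMean := stmtMean h1 hAa hOU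
  have hMeas := stmtMeas
  have hFD := stmtFD h1 h2
  have hSM := stmtSM h1 h2 hIBP
  have hGP := stmtGP h1 h2 hSM
  have hGPN := stmtGPN h1 h2 hGP
  have hPo := stmtPo h1 hGP
  have hFo := stmtFo h1 hGP
  have hCv := stmtCv hFo
  have hMM2 := stmtMM2 h1 h2 hSM hPo (stmtSL hPo) hFo
  have hWL2 := stmtWL2 h1 h2 hSM hGP hPo
  have hAS2 := stmtAS2 h1 h2 hPo hFo hMM2 hRel
  have hL2b := stmtL2b h1 hRel hCv
  have hAa2 := stmtAa2 h1 hGP hGPN hPo hOU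
  have hHb := stmtHb h1 h2 hSM hFo
  have hIde2 := stmtIde2 h1 hFlux
  have hQuad2 := stmtQuad2 stmtQA1 stmtQA2 hOU
  have hB22 := stmtB22 h1 (stmtB2a2 h1 h2 hOU hAa hMean hWL2 hAa2) (stmtGamH h1 h2 hAa) hMean hAa hOU
    hMeas
  have hMQA := stmtMQA (stmtMQA1 h1 h2 hOU hFo (stmtCovR h1 h2 hGP hAa hMean hOU)
    (stmtDPh h1 hFo hHb hMean hOU) (stmtCov1 h1 h2 hGP hPo hFo)) (stmtKH h1 h2) hHb
  have hMQB := stmtMQB (stmtS1 h1 hOU) (stmtCI h1 h2 hIBP) hFo (stmtMQB1 h1 h2 hOU hFo)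
  have hMQ := stmtMQ h1 hFo hAa hOU hMQA hMQB
  have hDV := stmtDV h1 hGP hFo (stmtDV0 h1 h2 hSM (stmtIBP2 h1) hFo)
  have hHN := stmtHN h1 hFD hCv (stmtHN0 h1 hFo hCv (stmtVT h1 hGP hFo hHb hDV))
    (stmtHN1 h1 h2 hFD hFo hCv hMeas) hMeas
  have hMeas2 := stmtMeas2
  have hPA02 := stmtPA02 h1 hRel hL2b (stmtF2N h1 hRel hGP hPo hOU hMM2) hHN hCv hOU hMeas2
  have hPA12 := stmtPA12 h1 hRel hPo hFo hAS2 hAa hAa2 hOU hHN hPA02 hMeas2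
  have hPrim := stmtPrim2 h1 h2 hRel hIde2 hRev hQuad2 hB22 hMQ hPA12 hAa hMeas2
  have hCls := stmtCls
  have hG := stmtGib1 h1 hCls
  have hTopI := stmtTopI h1 h2 hG (stmtGib2 h1 hCls hG) (stmtCon h1 hIde hCls hG)
  exact stmtTop2 stmtChain hRel hPrim (stmtLast h1) hTopI hG hCls (stmtAlg2 stmtCmp) hMeas2

end Vale.Agent.P347
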