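import Vale.Agent.P347.Spec2
import Vale.Agent.P347.Meas

open MeasureTheory ProbabilityTheory Finset

namespace Vale.Agent.P347

namespace Meas2m
open Measm

variable {d : ℕ} {Y : Type} [TopologicalSpace Y] {G : Y → E d → E d}

lemma cF22 (P : Par2) (hG : Continuous fun q : Y × E d => G q.1 q.2) {w : Y → E d}
    {z : Y → E d × E d × E d} (hw : Continuous w) (hz : Continuous z) :
    Continuous fun y => F22 P (G y) (w y) (z y) :=
  continuous_finsetSum _ fun _ _ =>
    (cF2 P.p hG hw (continuous_const.prodMk hz)).fun_const_smul _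

lemma cHV2 {n : ℕ} (δ : ℝ) (nd : Fin n → ℝ × ℝ × ℝ × ℝ)
    (hG : Continuous fun q : Y × E d => G q.1 q.2) {w ξ : Y → E d}
    {z : Y → E d × E d × E d} (hw : Continuous w) (hz : Continuous z) (hξ : Continuous ξ) :
    Continuous fun y => HV2 δ nd (G y) (w y) (z y) (ξ y) :=
  continuous_finsetSum _ fun _ _ => cHV δ hG hw (continuous_const.prodMk hz) hξ

lemma cprimW (P : Par2) (t : ℝ) (hG : Continuous fun q : Y × E d => G q.1 q.2) {w : Y → E d}
    {s : Y → Tw d} (hw : Continuous w) (hs : Continuous s) :
    Continuous fun y => primW2 P (G y) t (w y) (s y) := by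
  have h1 := cF1 P.p hG hw hs.fst.fst
  have h2 := cF22 P hG hw hs.snd.fst.fst
  have h3 := cHV2 P.p.de P.nd hG hw hs.snd.fst.snd hs.fst.snd
  unfold primW2
  exact ((((hw.fun_sub h1).fun_sub h2).fun_add (hs.fst.snd.fun_const_smul t)).fun_add
    (h3.fun_const_smul _)).fun_add (hs.snd.snd.fun_const_smul t)

end Meas2m

open Measm Meas2m in
theorem stmtMeas2 : StmtMeas2 := by
  intro d P
  refine ⟨fun G hG => ⟨cF22 (G := fun _ => G) P (hG.comp continuous_snd) continuous_fst
      continuous_snd, fun w => cHV2 (G := fun _ => G) _ _ (hG.comp continuous_snd) continuous_const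
      continuous_fst continuous_snd, fun t =>
      ⟨cprimW (G := fun _ => G) P t (hG.comp continuous_snd) continuous_fst continuous_snd,
       fun w => cprimW (G := fun _ => G) P t (hG.comp continuous_snd) continuous_const
        continuous_id⟩⟩, fun η η' D hD => ?_⟩
  have hc : Continuous fun q : E d × Td d => cen η D q.1 13 := (ccen η hD 13).comp continuous_fst
  unfold stp2
  split_ifs
  · exact hc.fun_add (continuous_snd.fst.fun_const_smul _)
  · refine hc.fun_add ((cprimW (G := fun q : E d × Td d => GG η D q.1 (cen η D q.1 13)) P _ ?_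
      continuous_snd.fst continuous_snd.snd).fun_const_smul _)
    have hc' : Continuous fun q : (E d × Td d) × E d => cen η D q.1.1 13 := hc.comp continuous_fst
    unfold GG
    fun_prop

end Vale.Agent.P347
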