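import Vale.Agent.P347.Spec2
import Vale.Agent.P347.Prim

open MeasureTheory ProbabilityTheory Finset
open scoped RealInnerProductSpace ENNReal

namespace Vale.Agent.P347

noncomputable section

namespace PA02m

open PA0m Primm

variable {d : ℕ}

lemma bad (h : Gau1 d) {ε : ℝ} (hε : 0 ≤ ε) (hC : 144 * ε ^ 4 * d ≤ 1) :
    eLpNorm (fun ξ : E d => if 1 < 6 * ε ^ 2 * ‖ξ‖ then (2 : ℝ) else 0) 2 (gs d) ≤
      ENNReal.ofReal (1000 * ε ^ 4) := by
  rcases hε.eq_or_lt with rfl | h0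
  · simp [not_lt.2 zero_le_one]
  have hm : Measurable fun ξ : E d => if 1 < 6 * ε ^ 2 * ‖ξ‖ then (2 : ℝ) else 0 :=
    Measurable.ite (measurableSet_lt measurable_const (by fun_prop)) measurable_const measurable_const
  obtain ⟨a, ha, ha0⟩ : ∃ a : ℝ, 36 * ε ^ 4 * a = 1 ∧ 0 < a := ⟨(36 * ε ^ 4)⁻¹, by field_simp, by positivity⟩
  have h4 : 0 < ε ^ 4 := by positivity
  have i1 : Integrable (fun x : E d => Real.exp (1 / 4 * ‖x‖ ^ 2)) (gs d) :=
    (h.big 0).mono' (by fun_prop) (ae_of_all _ fun x => by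
      rw [Real.norm_of_nonneg (by positivity)]
      exact Real.exp_le_exp.2 (by nlinarith [sq_nonneg ‖x‖]))
  have e1 : ∫ x : E d, Real.exp (1 / 4 * ‖x‖ ^ 2) ∂gs d ≤ Real.exp (2 * (1 / 4) * d) := by
    rw [← ENNReal.ofReal_le_ofReal_iff (by positivity),
      ofReal_integral_eq_lintegral_ofReal i1 (ae_of_all _ fun x => by positivity)]
    exact h.sq _ (by norm_num) le_rfl
  have pt : ∀ ξ : E d, (if 1 < 6 * ε ^ 2 * ‖ξ‖ then (2 : ℝ) else 0) ^ 2 ≤
      4 * Real.exp (-(a / 4)) * Real.exp (1 / 4 * ‖ξ‖ ^ 2) := by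
    intro ξ
    split_ifs with k
    · have k1 : 1 < (6 * ε ^ 2 * ‖ξ‖) ^ 2 := one_lt_pow₀ k two_ne_zero
      have k2 : a ≤ ‖ξ‖ ^ 2 := by
        refine le_of_mul_le_mul_left ?_ (show 0 < 36 * ε ^ 4 by positivity)
        nlinarith
      rw [mul_assoc, ← Real.exp_add]
      have := Real.one_le_exp (x := -(a / 4) + 1 / 4 * ‖ξ‖ ^ 2) (by linarith)
      linarith
    · rw [zero_pow two_ne_zero]; positivity
  have i2 := i1.const_mul (4 * Real.exp (-(a / 4)))
  have i3 : Integrable (fun ξ : E d => (if 1 < 6 * ε ^ 2 * ‖ξ‖ then (2 : ℝ) else 0) ^ 2) (gs d) :=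
    i2.mono' (hm.pow_const 2).aestronglyMeasurable (ae_of_all _ fun x => by
      rw [Real.norm_of_nonneg (by positivity)]; exact pt x)
  refine eLp_le hm.aestronglyMeasurable i3 (by positivity) ((integral_mono i3 i2 pt).trans ?_)
  rw [integral_const_mul]
  have k1 : 4 * (d : ℝ) ≤ a := by
    refine le_of_mul_le_mul_left ?_ (show 0 < 36 * ε ^ 4 by positivity)
    linarith
  have k2 : Real.exp (-(a / 8)) ≤ 128 * (36 * ε ^ 4) ^ 2 := by
    have := Real.pow_div_factorial_le_exp (a / 8) (by positivity) 2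
    norm_num at this
    rw [Real.exp_neg, inv_le_iff_one_le_mul₀ (by positivity)]
    calc (1 : ℝ) = 128 * (36 * ε ^ 4) ^ 2 * ((a / 8) ^ 2 / 2) := by
          rw [← one_pow 2, ← ha]; ring
      _ ≤ _ := by gcongr
  calc _ ≤ 4 * Real.exp (-(a / 4)) * Real.exp (2 * (1 / 4) * d) := by gcongr
    _ = 4 * Real.exp (-(a / 4) + 2 * (1 / 4) * d) := by rw [Real.exp_add]; ring
    _ ≤ 4 * Real.exp (-(a / 8)) := by gcongr; linarith
    _ ≤ 4 * (128 * (36 * ε ^ 4) ^ 2) := by gcongr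
    _ ≤ _ := by nlinarith [sq_nonneg (ε ^ 4)]

/-- first step: the seed of the covariance correction -/
lemma stepA (hCv : CvApi d) {C : ℝ} (hC : 0 ≤ C) (hRel : RelApi)
    (hL : ∀ (β : Measure (E d)) [IsProbabilityMeasure β] (x0 : E d) (t : ℝ), 1 / 2 ≤ t →
      (∀ᵐ x ∂β, ‖x - ∫ y, y ∂β‖ ≤ 1) →
      Rel (sm (Measure.dirac x0) t) (sm β t) (C * (‖∫ x, x ∂β - x0‖ + √(CovF β))))
    {Ω : Type} [MeasurableSpace Ω] (μ : Measure Ω) [IsProbabilityMeasure μ] {H : Ω → E d} (mH : Measurable H) {b t : ℝ} (bH : ∀ z, ‖H z‖ ≤ b) (hb : 2 * b ≤ 1)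
    (ht : 1 / 2 ≤ t) (y0 u v : E d) :
    Rel ((gs d).map fun s => y0 - u + (2 * t)⁻¹ • v + t • s)
      ((μ.prod (gs d)).map fun q => y0 + (2 * t)⁻¹ • H q.1 + t • q.2)
      (C * (‖u‖ + ‖∫ z, H z ∂μ - v‖ + √(CovF (μ.map H)))) := by
  have hκ0 : 0 ≤ (2 * t)⁻¹ := by positivity
  have hκ : (2 * t)⁻¹ ≤ 1 := inv_le_one_of_one_le₀ (by linarith)
  have nκ : ∀ x : E d, ‖(2 * t)⁻¹ • x‖ ≤ ‖x‖ := fun x => by
    rw [norm_smul, Real.norm_of_nonneg hκ0]
    exact mul_le_of_le_one_left (norm_nonneg _) hκ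
  have hb' : Measurable fun z => y0 + (2 * t)⁻¹ • H z := (mH.const_smul (2 * t)⁻¹).const_add y0
  have iH : Integrable H μ := (integrable_const b).mono' mH.aestronglyMeasurable (ae_of_all _ bH)
  have nH : ‖∫ z, H z ∂μ‖ ≤ b := by
    simpa using norm_integral_le_of_norm_le_const (μ := μ) (ae_of_all _ bH)
  have j1 := Measure.isProbabilityMeasure_map (μ := μ) hb'.aemeasurable
  have j2 := Measure.isProbabilityMeasure_map (μ := μ) mH.aemeasurable
  have em : ∫ y, y ∂μ.map (fun z => y0 + (2 * t)⁻¹ • H z) = y0 + (2 * t)⁻¹ • ∫ z, H z ∂μ := by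
    rw [integral_map hb'.aemeasurable (f := fun y => y) aestronglyMeasurable_id, ← integral_smul]
    refine (integral_add (integrable_const y0) (iH.smul (2 * t)⁻¹)).trans ?_
    simp
  have ec : √(CovF (μ.map fun z => y0 + (2 * t)⁻¹ • H z)) ≤ √(CovF (μ.map H)) := by
    have l2 : MemLp (fun x : E d => x) 2 (μ.map H) :=
      (memLp_map_measure_iff aestronglyMeasurable_id mH.aemeasurable).2
        (MemLp.of_bound mH.aestronglyMeasurable b (ae_of_all _ bH))
    have e : μ.map (fun z => y0 + (2 * t)⁻¹ • H z) = (μ.map H).map fun x => y0 + (2 * t)⁻¹ • x :=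
      (Measure.map_map (g := fun x => y0 + (2 * t)⁻¹ • x) (Continuous.measurable (by fun_prop)) mH).symm
    rw [e, hCv.aff (μ.map H) y0 (2 * t)⁻¹ l2]
    exact mul_le_of_le_one_left (Real.sqrt_nonneg _) (pow_le_one₀ hκ0 hκ)
  have hr := hL (μ.map fun z => y0 + (2 * t)⁻¹ • H z) (y0 - u + (2 * t)⁻¹ • v) t ht (by
    rw [em, ae_map_iff hb'.aemeasurable (measurableSet_le (by fun_prop) measurable_const)]
    refine ae_of_all _ fun z => ?_
    rw [add_sub_add_left_eq_sub, ← smul_sub]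
    refine (nκ _).trans ((norm_sub_le _ _).trans ?_)
    linarith [bH z])
  rw [sm_dirac, sm_map _ _ hb', em] at hr
  refine hRel.mono _ _ _ _ _ (by positivity) (mul_le_mul_of_nonneg_left (add_le_add ?_ ec) hC) hr
  rw [show y0 + (2 * t)⁻¹ • ∫ z, H z ∂μ - (y0 - u + (2 * t)⁻¹ • v) =
    u + (2 * t)⁻¹ • (∫ z, H z ∂μ - v) by rw [smul_sub]; abel]
  exact (norm_add_le _ _).trans (add_le_add le_rfl (nκ _))

/-- second step: the seed of the bias correction -/
lemma stepB (hRel : RelApi) {F K : E d × E d × E d → E d} (mF : Measurable F) (mK : Measurable K)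
    {t e : ℝ} (he : 0 ≤ e)
    (h : ∀ x0 : E d, Rel (sm (Measure.dirac (x0 - ∫ z, F z ∂g3 d)) t) (sm ((g3 d).map fun z => x0 - F z) t) e) :
    Rel (((g3 d).prod (gs d)).map fun q => K q.1 - ∫ z, F z ∂g3 d + t • q.2)
      ((((g3 d).prod (g3 d)).prod (gs d)).map fun q => K q.1.2 - F q.1.1 + t • q.2) e := by
  have m1 : Measurable fun q : (E d × E d × E d) × E d => K q.1 - ∫ z, F z ∂g3 d + t • q.2 :=
    ((mK.comp measurable_fst).sub_const _).add (measurable_snd.const_smul t)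
  have m2 : Measurable fun q : (E d × E d × E d) × (E d × E d × E d) × E d =>
      K q.1 - F q.2.1 + t • q.2.2 :=
    ((mK.comp measurable_fst).sub (mF.comp measurable_snd.fst)).add (measurable_snd.snd.const_smul t)
  have hr := hRel.mix _ _ _ _ (g3 d) (gs d) ((g3 d).prod (gs d)) _ _ (fun _ => e) e m1 m2 measurable_const
    (fun _ => he) he (fun z => by
      have := h (K z)
      rw [sm_dirac, sm_map _ _ (mF.const_sub _)] at this
      exact this)
    (eLp_le aestronglyMeasurable_const (integrable_const _) he (by simp))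
  have mp := (measurePreserving_prodAssoc (g3 d) (g3 d) (gs d)).comp
    ((Measure.measurePreserving_swap (μ := g3 d) (ν := g3 d)).prod (MeasurePreserving.id (gs d)))
  rw [← mp.map_eq, Measure.map_map m2 mp.measurable] at hr
  exact hr

end PA02m

open PA0m Primm PA02m in
theorem stmtPA02 (h1 : StmtG1) (hRel : RelApi) (hL2b : StmtL2b) (hF2N : StmtF2N) (hHN : StmtHN)
    (hCv : StmtCv) (hOU : StmtOU) (hMeas2 : StmtMeas2) : StmtPA02 := by
  obtain ⟨CL, hCL, hL⟩ := hL2b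
  obtain ⟨CF, hCF, hF⟩ := hF2N
  obtain ⟨CH, hCH, hH⟩ := hHN
  have hLH : 1 ≤ CL * CH := one_le_mul_of_one_le_of_one_le hCL hCH
  refine ⟨1000 + CL + CF + 3 * (CL * CH), by linarith, ?_⟩
  intro d ε t G P w m hd hε hε' hC hG hp hk0 hk hde c0 c1 hnd ht ht'
  have hGc : Continuous G := hG.c1.continuous
  have cF1 := cont_F1 (hOU d) P.p G w hGc
  obtain ⟨cF, cH, cP⟩ := (hMeas2 d P).1 G hGc
  have mP := ((cP t).2 w).measurable
  have mF : Measurable (F22 P G w) :=
    ((cF.comp (Continuous.prodMk_right (Y := E d × E d × E d) w)).congr fun _ => rfl).measurable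
  have mH : ∀ ξ, Measurable fun z => HV2 P.p.de P.nd G w z ξ := fun ξ =>
    (((cH w).comp (Continuous.prodMk_left ξ)).congr fun _ => rfl).measurable
  obtain ⟨-, b1, b2, mC, nC⟩ := hH d P.n ε P.p.ka P.p.de G P.nd w hε (by linarith) hG hk0 hde hnd
  have hd0 : (1 : ℝ) ≤ d := by exact_mod_cast hd
  have h4 : 0 ≤ ε ^ 4 * d := by positivity
  have nb := bad (h1 d) hε (by nlinarith)
  have mb : Measurable fun ξ : E d => if 1 < 6 * ε ^ 2 * ‖ξ‖ then (2 : ℝ) else 0 :=
    Measurable.ite (measurableSet_lt measurable_const (by fun_prop)) measurable_const measurable_const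
  have hm6 : 0 ≤ m6 d := Real.sqrt_nonneg _
  set b := ‖m - m1 P.p G w - ∫ z, F22 P G w z ∂g3 d‖ with hb
  have hb0 : 0 ≤ b := norm_nonneg _
  set A := CL * b + CF * ε ^ 3 * (√d + ‖w‖) with hA
  set B := CL * (CH * P.n * P.p.de / P.p.ka ^ 3) with hB
  have hA0 : 0 ≤ A := by positivity
  have hB0 : 0 ≤ B := by positivity
  have m1' : Measurable fun ξ : E d => A + B * ‖ξ‖ ^ 2 := Continuous.measurable (by fun_prop)
  have m2' := mC.sqrt.const_mul CL
  have ne := add3 m1' m2' mb (by positivity) (by positivity) (by positivity) (e_norm1 (h1 d) A B hA0 hB0)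
    (cmul (by linarith) nC) nb
  have me : Measurable fun x : E d => A + B * ‖x‖ ^ 2 +
      CL * √(CovF ((g3 d).map fun z => HV2 P.p.de P.nd G w z x)) +
      if 1 < 6 * ε ^ 2 * ‖x‖ then (2 : ℝ) else 0 := (m1'.add m2').add mb
  have p2 : MeasurePreserving Prod.snd ((gs d).prod (gs d)) (gs d) := measurePreserving_snd
  rw [← eLpNorm_comp_measurePreserving me.aestronglyMeasurable p2] at ne
  rw [lhs_eq P.p G (Mh P.nd G w) w m t cF1]
  refine hRel.mix (E d × E d) (E d) (((E d × E d × E d) × (E d × E d × E d)) × E d) (E d)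
    ((gs d).prod (gs d)) (gs d) (((g3 d).prod (g3 d)).prod (gs d)) _ (primW2 P G t w) _ _
    (Continuous.measurable (by fun_prop)) mP (me.comp measurable_snd)
    (fun ω => ?_) (by positivity) (fun ω => ?_) (ne.trans (ENNReal.ofReal_le_ofReal ?_))
  · simp only [Function.comp]
    split_ifs <;> positivity
  · obtain ⟨ζ, ξ⟩ := ω
    simp only [Function.comp]
    have j1 : IsProbabilityMeasure ((gs d).map fun s => w - m + (m1 P.p G w - F1 P.p G w ζ + t • ξ +
        (2 * t)⁻¹ • Mh P.nd G w ξ + t • s)) :=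
      Measure.isProbabilityMeasure_map (Continuous.measurable (by fun_prop)).aemeasurable
    have j3 : IsProbabilityMeasure ((((g3 d).prod (g3 d)).prod (gs d)).map fun s =>
        primW2 P G t w ((ζ, ξ), s)) :=
      Measure.isProbabilityMeasure_map (mP.comp measurable_prodMk_left).aemeasurable
    split_ifs with k
    · exact hRel.mono _ _ _ _ _ zero_le_two (le_add_of_nonneg_left (by positivity)) (hRel.triv _ _ _)
    · have r1 := stepA (hCv d) (by linarith) hRel (hL d) (g3 d) (mH ξ) (fun z => b1 z ξ) (by linarith) ht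
        (w - F1 P.p G w ζ - ∫ z, F22 P G w z ∂g3 d + t • ξ) (m - m1 P.p G w - ∫ z, F22 P G w z ∂g3 d)
        (Mh P.nd G w ξ)
      have mK : Measurable fun z => w - F1 P.p G w ζ + t • ξ + (2 * t)⁻¹ • HV2 P.p.de P.nd G w z ξ :=
        ((mH ξ).const_smul (2 * t)⁻¹).const_add (w - F1 P.p G w ζ + t • ξ)
      have r2 := stepB hRel mF mK (by positivity)
        fun x0 => hF d ε t G P w x0 hd hε hε' hG hp hk0.le hk c0 c1 ht
      have f1 : (fun s => w - F1 P.p G w ζ - ∫ z, F22 P G w z ∂g3 d + t • ξ -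
          (m - m1 P.p G w - ∫ z, F22 P G w z ∂g3 d) + (2 * t)⁻¹ • Mh P.nd G w ξ + t • s) =
          fun s => w - m + (m1 P.p G w - F1 P.p G w ζ + t • ξ + (2 * t)⁻¹ • Mh P.nd G w ξ + t • s) := by
        funext s; abel
      have f2 : (fun q : (E d × E d × E d) × E d => w - F1 P.p G w ζ - ∫ z, F22 P G w z ∂g3 d + t • ξ +
          (2 * t)⁻¹ • HV2 P.p.de P.nd G w q.1 ξ + t • q.2) = fun q => w - F1 P.p G w ζ + t • ξ +
          (2 * t)⁻¹ • HV2 P.p.de P.nd G w q.1 ξ - ∫ z, F22 P G w z ∂g3 d + t • q.2 := by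
        funext s; abel
      have f3 : (fun q : ((E d × E d × E d) × (E d × E d × E d)) × E d => w - F1 P.p G w ζ + t • ξ +
          (2 * t)⁻¹ • HV2 P.p.de P.nd G w q.1.2 ξ - F22 P G w q.1.1 + t • q.2) =
          fun s => primW2 P G t w ((ζ, ξ), s) := by
        funext s; unfold primW2; simp only; abel
      rw [f1, f2] at r1
      rw [f3] at r2
      have j2 : IsProbabilityMeasure (((g3 d).prod (gs d)).map fun q => w - F1 P.p G w ζ + t • ξ +
          (2 * t)⁻¹ • HV2 P.p.de P.nd G w q.1 ξ - ∫ z, F22 P G w z ∂g3 d + t • q.2) :=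
        Measure.isProbabilityMeasure_map
          (((mK.comp measurable_fst).sub_const _).add (measurable_snd.const_smul t)).aemeasurable
      refine hRel.mono _ _ _ _ _ (by positivity) ?_
        (hRel.tri _ _ _ _ _ _ (by positivity) (by positivity) r1 r2)
      have := mul_le_mul_of_nonneg_left (b2 ξ) (show 0 ≤ CL by linarith)
      have e : CL * (CH * P.n * P.p.de * ‖ξ‖ ^ 2 / P.p.ka ^ 3) = B * ‖ξ‖ ^ 2 := by rw [hB]; ring
      rw [hA, ← hb]
      linarith
  · have s1 : 1 ≤ √(d : ℝ) := Real.one_le_sqrt.2 hd0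
    have y1 : ε ^ 4 ≤ ε ^ 4 * √d / P.p.ka := by
      rw [le_div_iff₀ hk0]
      exact mul_le_mul_of_nonneg_left (by linarith) (by positivity)
    set x1 := ε ^ 3 * (√d + ‖w‖)
    set x2 := ε ^ 4 * √d / P.p.ka
    have e1 : P.n * P.p.de * (d + m6 d) / P.p.ka ^ 3 =
      P.n * P.p.de * d / P.p.ka ^ 3 + P.n * P.p.de * m6 d / P.p.ka ^ 3 := by ring
    have e2 : 2 * B * d = 2 * (CL * CH) * (P.n * P.p.de * d / P.p.ka ^ 3) := by rw [hB]; ring
    have e3 : A = CL * b + CF * x1 := by rw [hA]; ring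
    rw [e1, e2, e3, ← mul_assoc CL CH]
    have p1 : 0 ≤ x1 := by positivity
    have p2 : 0 ≤ x2 := by positivity
    have p3 : 0 ≤ P.n * P.p.de * d / P.p.ka ^ 3 := by positivity
    have p4 : 0 ≤ P.n * P.p.de * m6 d / P.p.ka ^ 3 := by positivity
    generalize P.n * P.p.de * d / P.p.ka ^ 3 = x3 at *
    generalize P.n * P.p.de * m6 d / P.p.ka ^ 3 = x4 at *
    generalize CL * CH = K at *
    have q1 : 0 ≤ CL := by linarith
    have q2 : 0 ≤ CF := by linarith
    have q3 : 0 ≤ K := by linarith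
    nlinarith [mul_nonneg q1 p1, mul_nonneg q1 p2, mul_nonneg q1 p3, mul_nonneg q1 p4, mul_nonneg q2 hb0,
      mul_nonneg q2 p2, mul_nonneg q2 p3, mul_nonneg q2 p4, mul_nonneg q3 hb0, mul_nonneg q3 p1,
      mul_nonneg q3 p2, mul_nonneg q3 p3, mul_nonneg q3 p4]

end

end Vale.Agent.P347
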