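import Vale.Agent.P347.Spec2
import Vale.Agent.P347.PA1

open MeasureTheory ProbabilityTheory Finset
open scoped RealInnerProductSpace ENNReal

namespace Vale.Agent.P347

namespace PA12m

theorem sm16 {A B ε d : ℝ} (hA : 1 ≤ A) (hB : 1 ≤ B) (d1 : 1 ≤ d) (_h0 : 0 ≤ ε)
    (hC : (65536 * A + B) * ε ^ 4 * d ≤ 1) :
    ε ≤ 1 / 16 ∧ B * ε ^ 4 * d ≤ 1 ∧ 3 * ε ^ 2 ≤ 2 * (4 * ε) ^ 2 := by
  have y0 : 0 ≤ ε ^ 4 * d := by positivity
  refine ⟨le_of_pow_le_pow_left₀ (n := 4) (by norm_num) (by norm_num) ?_, by nlinarith, by nlinarith⟩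
  have : ε ^ 4 ≤ ε ^ 4 * d := le_mul_of_one_le_right (by positivity) d1
  nlinarith

theorem fin {A B x c b e s w p q : ℝ} (A0 : 0 ≤ A) (B0 : 0 ≤ B) (x0 : 0 ≤ x) (ce : 0 ≤ c)
    (u0 : 0 ≤ e * s) (z1 : 0 ≤ e * w) (z2 : 0 ≤ b + p + q) :
    A * (16 * x + c + 64 * (e * s)) + B * (b + e * (s + w) + p + q) ≤
      (65536 * A + B) * (x + c + b + e * (s + w) + p + q) := by
  nlinarith [mul_nonneg A0 x0, mul_nonneg A0 ce, mul_nonneg A0 u0, mul_nonneg A0 z1, mul_nonneg A0 z2,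
    mul_nonneg B0 x0, mul_nonneg B0 ce]

end PA12m

open PA1m PA12m in
theorem stmtPA12 (_h1 : StmtG1) (hRel : RelApi) (hPo : StmtPo) (hFo : StmtFo) (hAS2 : StmtAS2)
    (hAa : StmtAa) (hAa2 : StmtAa2) (_hOU : StmtOU) (hHN : StmtHN) (hPA02 : StmtPA02)
    (hMeas2 : StmtMeas2) : StmtPA12 := by
  obtain ⟨A, hA, hAS⟩ := hAS2
  obtain ⟨B, hB, hP⟩ := hPA02
  obtain ⟨H, -, hH⟩ := hHN
  refine ⟨65536 * A + B, by linarith, ?_⟩
  intro d ε ρ t G P N w hd h0 hC r1 r2 hG hp k0 k1 de c0 c1 hn t1 t2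
  have d1 : (1 : ℝ) ≤ d := by exact_mod_cast hd
  obtain ⟨h16, hB1, h3⟩ := sm16 hA hB d1 h0 hC
  have h4 : ε ≤ 1 / 4 := by linarith
  have aa := hAa d ε ρ G hd h0 h4 r1 r2 hG
  obtain ⟨a1, a2⟩ := hAa2 d ε ρ G h0 h4 hG
  obtain ⟨s1, s0⟩ := a1 r1 r2 N w
  have sb := a2 P.p hp w
  have nM := (hH d P.n ε P.p.ka P.p.de G P.nd w h0 (by linarith) hG k0 de hn).1
  have cA : Continuous (AA G ρ N w) := (aa.cont N).comp (Continuous.prodMk_right w)
  have cc0 : Continuous (A0 G ρ N w) := (aa.cont0 N).comp (Continuous.prodMk_right w)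
  have mA' : Measurable fun g => mA G ρ N w - AA G ρ N w g := (continuous_const.sub cA).measurable
  have D0 : 0 ≤ DD G ρ N w := integral_nonneg fun _ => by positivity
  have q0 := Real.sqrt_nonneg (DD G ρ N w)
  have x0 : 0 ≤ ε * √(DD G ρ N w) := by positivity
  have fr : Fr (alA G ρ N w) (al0 G ρ N w) ≤ (16 * (ε * √(DD G ρ N w))) ^ 2 := by
    have m0 : Measurable fun g => mA0 G ρ N w - A0 G ρ N w g := (continuous_const.sub cc0).measurable
    have c := (hPo d).coup _ (gN d N) _ _ _ mA' m0 s1 s0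
    have c' := cen_le (gN d N) _ ((aa.mem N w).sub (aa.mem0 N w))
    simp only [Pi.sub_apply] at c'
    rw [integral_sub ((aa.mem N w).integrable one_le_two) ((aa.mem0 N w).integrable one_le_two)]
      at c'
    have e1 : ∀ g, mA G ρ N w - AA G ρ N w g - (mA0 G ρ N w - A0 G ρ N w g) =
        mA G ρ N w - mA0 G ρ N w - (AA G ρ N w g - A0 G ρ N w g) := fun g => by abel
    simp only [e1] at c
    have c2 := mul_le_mul_of_nonneg_left c' (show 0 ≤ 4 * (4 * ε) ^ 2 by positivity)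
    have := c.trans c2
    change _ ≤ 4 * (4 * ε) ^ 2 * (4 * DD G ρ N w) at this
    refine this.trans_eq ?_
    rw [mul_pow, mul_pow, mul_pow, Real.sq_sqrt D0]; ring
  have ce : 0 ≤ cer P G ρ N w := Real.sqrt_nonneg _
  have u0 : 0 ≤ ε ^ 3 * √d := by positivity
  have fq : (Fq fun u v => Cv (alA G ρ N w) u v - Cv (be1 P.p G w) u v - ⟪u, Mh P.nd G w v⟫) ≤
      (16 * (ε * √(DD G ρ N w)) + cer P G ρ N w + 64 * (ε ^ 3 * √d)) ^ 2 := by
    have tr := (hFo d).tri (fun u v => Cv (alA G ρ N w) u v - Cv (al0 G ρ N w) u v)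
      (fun u v => Cv (al0 G ρ N w) u v - Cv (be1 P.p G w) u v - ⟪u, Mh P.nd G w v⟫)
    have e : (fun u v => Cv (alA G ρ N w) u v - Cv (al0 G ρ N w) u v +
        (Cv (al0 G ρ N w) u v - Cv (be1 P.p G w) u v - ⟪u, Mh P.nd G w v⟫)) =
        fun u v => Cv (alA G ρ N w) u v - Cv (be1 P.p G w) u v - ⟪u, Mh P.nd G w v⟫ := by
      funext u v; ring
    rw [e] at tr
    have f1 : √(Fq fun u v => Cv (alA G ρ N w) u v - Cv (al0 G ρ N w) u v) ≤
        16 * (ε * √(DD G ρ N w)) := Real.sqrt_le_iff.2 ⟨by positivity, fr⟩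
    refine (Real.sqrt_le_iff.1 (tr.trans ?_)).2
    change _ + cer P G ρ N w ≤ _
    linarith
  have R1 := hAS d _ _ (Mh P.nd G w) (4 * ε) t _ (by positivity) (by linarith) s1 sb t1 t2
    (nM.trans h3) (by positivity) fq (by
      calc (4 * ε) ^ 6 * d = (64 * (ε ^ 3 * √d)) ^ 2 := by
            rw [mul_pow 64, mul_pow (ε ^ 3), Real.sq_sqrt (by positivity)]; ring
        _ ≤ _ := pow_le_pow_left₀ (by positivity) (by linarith) 2)
  have mf : Measurable fun x : E d => w - mA G ρ N w + x := by fun_prop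
  have R2 := hRel.map _ _ _ _ _ _ mf R1
  have R3 := hP d ε t G P w (mA G ρ N w) hd h0 h4 hB1 hG hp k0 k1 de c0 c1 hn t1 t2
  have ms : ∀ s : ℝ, Measurable fun q : E d × E d => q.1 + s • q.2 := fun s => by fun_prop
  have eL : (sm (alA G ρ N w) (√2 * t)).map (fun x => w - mA G ρ N w + x) =
      ((gN d N).prod (gs d)).map fun q => w - AA G ρ N w q.1 + (√2 * t) • q.2 := by
    rw [sm, alA, ← Measure.map_id (μ := gs d), Measure.map_prod_map _ _ mA' measurable_id,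
      Measure.map_map (ms _) (mA'.prodMap measurable_id),
      Measure.map_map mf ((ms _).comp (mA'.prodMap measurable_id)), Measure.map_id]
    congr 1
    funext q
    simp only [Function.comp, Prod.map, id]
    abel
  have p1 := s1.1
  have p2 := sb.1
  have p3 : IsProbabilityMeasure (sm (alA G ρ N w) (√2 * t)) :=
    Measure.isProbabilityMeasure_map (ms _).aemeasurable
  have p4 : IsProbabilityMeasure (((be1 P.p G w).prod (gs d)).map
      fun q => q.1 + t • q.2 + (2 * t)⁻¹ • Mh P.nd G w q.2) :=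
    Measure.isProbabilityMeasure_map (by fun_prop)
  have p5 : IsProbabilityMeasure (sm (((be1 P.p G w).prod (gs d)).map
      fun q => q.1 + t • q.2 + (2 * t)⁻¹ • Mh P.nd G w q.2) t) :=
    Measure.isProbabilityMeasure_map (ms _).aemeasurable
  have p6 := Measure.isProbabilityMeasure_map (μ := sm (alA G ρ N w) (√2 * t)) mf.aemeasurable
  have p7 := Measure.isProbabilityMeasure_map (μ := sm (((be1 P.p G w).prod (gs d)).map
      fun q => q.1 + t • q.2 + (2 * t)⁻¹ • Mh P.nd G w q.2) t) mf.aemeasurable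
  have p8 : IsProbabilityMeasure (twM d) := by unfold twM; infer_instance
  have p9 : IsProbabilityMeasure ((twM d).map (primW2 P G t w)) :=
    Measure.isProbabilityMeasure_map
      (((((hMeas2 d P).1 G hG.c1.continuous).2.2 t).2 w).measurable.aemeasurable)
  have m6' : 0 ≤ m6 d := Real.sqrt_nonneg _
  have z1 : 0 ≤ ε ^ 3 * ‖w‖ := by positivity
  have z2 : 0 ≤ ‖bias2 P G ρ N w‖ + ε ^ 4 * √d / P.p.ka +
      P.n * P.p.de * (d + m6 d) / P.p.ka ^ 3 := by positivity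
  have A0 : 0 ≤ A := by linarith
  have B0 : 0 ≤ B := by linarith
  have R4 := hRel.tri _ _ _ _ _ _ (by positivity) (by positivity) R2 R3
  rw [eL] at R4
  refine hRel.mono _ _ _ _ _ (by positivity) ?_ R4
  exact fin A0 B0 x0 ce u0 z1 z2

end Vale.Agent.P347
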