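import Vale.Agent.P347.GP

/-! The class of measures with a Poincare inequality. -/

open MeasureTheory ProbabilityTheory Finset Filter Topology
open scoped RealInnerProductSpace ENNReal NNReal

namespace Vale.Agent.P347

noncomputable section

namespace Pom

variable {d : ℕ} {α : Measure (E d)} {L : ℝ}

theorem lipW {X Y : Type} [NormedAddCommGroup X] [NormedAddCommGroup Y] {F : X → Y} {K : ℝ}
    (h : LipF K F) : LipschitzWith ⟨|K|, abs_nonneg K⟩ F :=
  LipschitzWith.of_dist_le_mul fun x y => by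
    rw [dist_eq_norm, dist_eq_norm]
    exact (h x y).trans (mul_le_mul_of_nonneg_right (le_abs_self K) (norm_nonneg _))

theorem dle {X Y : Type} [NormedAddCommGroup X] [NormedSpace ℝ X] [NormedAddCommGroup Y]
    [NormedSpace ℝ Y] {F : X → Y} {K : ℝ} (h : LipF K F) (x : X) : ‖fderiv ℝ F x‖ ≤ |K| :=
  norm_fderiv_le_of_lipschitz ℝ (lipW h)

theorem bdd {X : Type} [MeasurableSpace X] (μ : Measure X) [IsFiniteMeasure μ] {g : X → ℝ} {K : ℝ}
    (hm : AEStronglyMeasurable g μ) (h0 : ∀ x, 0 ≤ g x) (h : ∀ x, g x ≤ K) :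
    Integrable (fun x => g x ^ 2) μ :=
  (integrable_const (K ^ 2)).mono' (hm.pow 2) (Eventually.of_forall fun x => by
    rw [Real.norm_of_nonneg (sq_nonneg _)]
    exact pow_le_pow_left₀ (h0 x) (h x) 2)

theorem push0 {X : Type} [NormedAddCommGroup X] [NormedSpace ℝ X] [MeasurableSpace X] [BorelSpace X]
    (μ : Measure X) [IsProbabilityMeasure μ] (H : X → E d) (L : ℝ) (hμ : GPo μ 2) (hL : 0 ≤ L)
    (hc : ContDiff ℝ 1 H) (hl : LipF L H) (hm : MemLp H 2 μ) (h0 : ∫ x, H x ∂μ = 0) :
    Poi (μ.map H) (2 * L) := by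
  have m := hc.continuous.measurable.aemeasurable (μ := μ)
  refine ⟨Measure.isProbabilityMeasure_map m, (memLp_map_measure_iff (by fun_prop) m).2 hm, ?_,
    fun f K hf hK => ?_⟩
  · rw [integral_map m (by fun_prop), h0]
  · have cf := hf.continuous
    have cd := hf.continuous_fderiv one_ne_zero
    have cH := hc.continuous
    rw [integral_map m (by fun_prop), integral_map m (by fun_prop), integral_map m (by fun_prop)]
    have k := hμ (fun x => f (H x)) (|K| * L) (hf.comp hc) fun x y => by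
      refine ((lipW hK).dist_le_mul (H x) (H y)).trans ?_
      rw [dist_eq_norm, mul_assoc]
      exact mul_le_mul_of_nonneg_left (hl x y) (abs_nonneg K)
    have i := bdd μ (g := fun x => ‖fderiv ℝ f (H x)‖) (Measurable.aestronglyMeasurable
      (Continuous.measurable (by fun_prop))) (fun _ => norm_nonneg _) fun x => dle hK (H x)
    have k2 := integral_mono_of_nonneg (μ := μ) (f := fun x => ‖fderiv ℝ (fun x => f (H x)) x‖ ^ 2)
      (Eventually.of_forall fun _ => sq_nonneg _) (i.const_mul (L ^ 2))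
      (Eventually.of_forall fun x => by
        have e := fderiv_fun_comp x (hf.differentiable one_ne_zero (H x))
          (hc.differentiable one_ne_zero x)
        have a := dle hl x
        rw [abs_of_nonneg hL] at a
        simp only
        rw [e, ← mul_pow, mul_comm]
        exact pow_le_pow_left₀ (norm_nonneg _) ((ContinuousLinearMap.opNorm_comp_le _ _).trans
          (mul_le_mul_of_nonneg_left a (norm_nonneg _))) 2)
    rw [integral_const_mul] at k2
    have := integral_nonneg (μ := μ) (f := fun x => ‖fderiv ℝ f (H x)‖ ^ 2) fun _ => sq_nonneg _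
    nlinarith [mul_nonneg (sq_nonneg L) this]

theorem i1 (h : Poi α L) : Integrable (fun x : E d => x) α := by
  have := h.1
  exact h.2.1.integrable one_le_two

theorem i2 (h : Poi α L) (u v : E d) : Integrable (fun x : E d => ⟪u, x⟫ * ⟪v, x⟫) α :=
  (h.2.1.const_inner u).integrable_mul (h.2.1.const_inner v)

theorem mean1 (h : Poi α L) (u : E d) : ∫ x, ⟪u, x⟫ ∂α = 0 := by
  rw [integral_inner (i1 h), h.2.2.1, inner_zero_right]

theorem var1 (h : Poi α L) (u : E d) : Cv α u u ≤ L ^ 2 * ‖u‖ ^ 2 := by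
  have := h.1
  have k := h.2.2.2 (innerSL ℝ u) ‖u‖ (innerSL ℝ u).contDiff fun x y => by
    rw [← map_sub]
    simpa using (innerSL ℝ u).le_opNorm (x - y)
  simp only [ContinuousLinearMap.fderiv, innerSL_apply_norm, innerSL_apply_apply, mean1 h,
    integral_const, probReal_univ, smul_eq_mul, one_mul] at k
  simpa [Cv, sq] using k

theorem cs (h : Poi α L) (t : ℝ) (u v : E d) : 2 * t * Cv α u v ≤ t ^ 2 * Cv α u u + Cv α v v := by
  have i := (i2 h u u).const_mul (t ^ 2)
  have := integral_mono ((i2 h u v).const_mul (2 * t)) (i.add (i2 h v v)) fun x => by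
    simp only [Pi.add_apply]
    nlinarith [sq_nonneg (t * ⟪u, x⟫ - ⟪v, x⟫)]
  simp only [Pi.add_apply] at this
  rwa [integral_add i (i2 h v v), integral_const_mul, integral_const_mul] at this

theorem trace (h : Poi α L) : ∫ x, ‖x‖ ^ 2 ∂α = ∑ i, Cv α (ee i) (ee i) := by
  unfold Cv
  rw [← integral_finsetSum _ fun i _ => i2 h _ _]
  refine integral_congr_ae (Eventually.of_forall fun x => ?_)
  simp only
  rw [EuclideanSpace.real_norm_sq_eq]
  simp [ee, EuclideanSpace.inner_single_left, sq]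

theorem cv_sum (h : Poi α L) (u r : E d) : Cv α u r = ∑ j, r j * Cv α u (ee j) := by
  unfold Cv
  simp only [← integral_const_mul]
  rw [← integral_finsetSum _ fun i _ => (i2 h _ _).const_mul _]
  refine integral_congr_ae (Eventually.of_forall fun x => ?_)
  simp only [ee, EuclideanSpace.inner_single_left, conj_trivial, one_mul]
  rw [PiLp.inner_apply r x, mul_sum]
  refine sum_congr rfl fun j _ => ?_
  simp only [RCLike.inner_apply, conj_trivial]
  ring

theorem fr0 (h : Poi α L) : Fr α (Measure.dirac 0) ≤ L ^ 2 * ∫ x, ‖x‖ ^ 2 ∂α := by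
  rw [trace h, mul_sum]
  refine sum_le_sum fun i _ => ?_
  set r : E d := WithLp.toLp 2 fun j => Cv α (ee i) (ee j) with hr
  have e1 : ∑ j, (Cv α (ee i) (ee j) - Cv (Measure.dirac 0) (ee i) (ee j)) ^ 2 = ‖r‖ ^ 2 := by
    rw [EuclideanSpace.real_norm_sq_eq]
    simp [Cv, hr]
  have e2 : Cv α (ee i) r = ‖r‖ ^ 2 := by
    rw [cv_sum h, EuclideanSpace.real_norm_sq_eq]
    simp [hr, sq]
  rw [e1]
  have a := var1 h r
  rcases eq_or_ne L 0 with rfl | L0
  · have b := cs h 1 (ee i) r
    have c := var1 h (ee i)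
    rw [e2] at b
    nlinarith
  · have b := cs h (L ^ 2) (ee i) r
    rw [e2] at b
    have p : 0 < L ^ 2 := by positivity
    refine le_of_mul_le_mul_left ?_ p
    nlinarith

theorem coup {Ω : Type} [MeasurableSpace Ω] (P : Measure Ω) (a b : Ω → E d) (ha : Measurable a)
    (hb : Measurable b) (h : Poi (P.map a) L) (h' : Poi (P.map b) L) :
    Fr (P.map a) (P.map b) ≤ 4 * L ^ 2 * ∫ ω, ‖a ω - b ω‖ ^ 2 ∂P := by
  have ma : MemLp a 2 P := h.2.1.comp_of_map ha.aemeasurable
  have mb : MemLp b 2 P := h'.2.1.comp_of_map hb.aemeasurable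
  have cv : ∀ {f : Ω → E d}, Measurable f → ∀ u v, Cv (P.map f) u v = ∫ ω, ⟪u, f ω⟫ * ⟪v, f ω⟫ ∂P :=
    fun hf u v => integral_map hf.aemeasurable (by fun_prop)
  have im : ∀ {f : Ω → E d}, MemLp f 2 P → ∀ u v, Integrable (fun ω => ⟪u, f ω⟫ * ⟪v, f ω⟫) P :=
    fun hf u v => (hf.const_inner u).integrable_mul (hf.const_inner v)
  have S0 : 0 ≤ ∫ ω, ‖a ω - b ω‖ ^ 2 ∂P := integral_nonneg fun _ => sq_nonneg _
  set T : Fin d → Fin d → ℝ := fun i j => Cv (P.map a) (ee i) (ee j) - Cv (P.map b) (ee i) (ee j)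
    with hT
  have hF : Fr (P.map a) (P.map b) = ∑ i, ∑ j, T i j ^ 2 := rfl
  rcases eq_or_ne L 0 with rfl | L0
  · have z : ∀ {β : Measure (E d)}, Poi β 0 → ∀ u v, Cv β u v = 0 := fun hβ u v => by
      have c1 := cs hβ 1 u v
      have c2 := cs hβ (-1) u v
      have c3 := var1 hβ u
      have c4 := var1 hβ v
      nlinarith
    simp [Fr, z h, z h']
  set r : Fin d → E d := fun i => WithLp.toLp 2 fun j => T i j with hr
  set c : Fin d → E d := fun j => WithLp.toLp 2 fun i => T i j with hc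
  have iT : ∀ i j, Integrable (fun ω => T i j * (⟪ee i, a ω⟫ * ⟪ee j, a ω⟫ - ⟪ee i, b ω⟫ * ⟪ee j, b ω⟫))
      P := fun i j => ((im ma _ _).sub (im mb _ _)).const_mul _
  have e1 : Fr (P.map a) (P.map b) = ∫ ω, ∑ i, ∑ j,
      T i j * (⟪ee i, a ω⟫ * ⟪ee j, a ω⟫ - ⟪ee i, b ω⟫ * ⟪ee j, b ω⟫) ∂P := by
    rw [integral_finsetSum _ fun i _ => integrable_finsetSum _ fun j _ => iT i j]
    refine sum_congr rfl fun i _ => ?_
    rw [integral_finsetSum _ fun j _ => iT i j]
    refine sum_congr rfl fun j _ => ?_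
    rw [integral_const_mul, integral_sub (im ma _ _) (im mb _ _), ← cv ha, ← cv hb, sq]
  have j1 := ((memLp_two_iff_integrable_sq_norm (ma.sub mb).1).1 (ma.sub mb)).const_mul
    (2 * (2 * L ^ 2) ^ 2)
  simp only [Pi.sub_apply] at j1
  have j2 : Integrable (fun ω => ∑ i, ⟪r i, a ω⟫ * ⟪r i, a ω⟫) P :=
    integrable_finsetSum _ fun i _ => im ma _ _
  have j3 : Integrable (fun ω => ∑ i, ⟪c i, b ω⟫ * ⟪c i, b ω⟫) P :=
    integrable_finsetSum _ fun i _ => im mb _ _
  have j4 : Integrable (fun ω => ∑ i, ⟪r i, a ω⟫ * ⟪r i, a ω⟫ + ∑ i, ⟪c i, b ω⟫ * ⟪c i, b ω⟫) P :=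
    j2.add j3
  have key := integral_mono ((integrable_finsetSum univ fun i _ => integrable_finsetSum univ
    fun j _ => iT i j).const_mul (2 * (2 * L ^ 2))) (j1.add j4) fun ω => by
      have e : ∑ i, ∑ j, T i j * (⟪ee i, a ω⟫ * ⟪ee j, a ω⟫ - ⟪ee i, b ω⟫ * ⟪ee j, b ω⟫) =
          ∑ i, ((a ω - b ω) i * ⟪r i, a ω⟫ + (a ω - b ω) i * ⟪c i, b ω⟫) := by
        simp only [ee, EuclideanSpace.inner_single_left, conj_trivial, one_mul]
        simp only [hr, hc, PiLp.inner_apply, PiLp.sub_apply, RCLike.inner_apply, conj_trivial,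
          mul_sum, sum_add_distrib]
        rw [sum_comm (f := fun x y => (a ω x - b ω x) * (b ω y * T y x)), ← sum_add_distrib]
        refine sum_congr rfl fun i _ => ?_
        rw [← sum_add_distrib]
        exact sum_congr rfl fun j _ => by ring
      simp only [Pi.add_apply]
      rw [e, EuclideanSpace.real_norm_sq_eq, mul_sum, mul_sum, ← sum_add_distrib, ← sum_add_distrib]
      refine sum_le_sum fun i _ => ?_
      nlinarith [sq_nonneg (2 * L ^ 2 * (a ω - b ω) i - ⟪r i, a ω⟫),
        sq_nonneg (2 * L ^ 2 * (a ω - b ω) i - ⟪c i, b ω⟫)]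
  simp only [Pi.add_apply] at key
  rw [integral_const_mul, ← e1, integral_add j1 j4, integral_add j2 j3, integral_const_mul,
    integral_finsetSum _ fun i _ => im ma _ _, integral_finsetSum _ fun i _ => im mb _ _] at key
  have b1 : ∑ i, ∫ ω, ⟪r i, a ω⟫ * ⟪r i, a ω⟫ ∂P ≤ L ^ 2 * Fr (P.map a) (P.map b) := by
    rw [hF, mul_sum]
    refine sum_le_sum fun i _ => ?_
    rw [← cv ha]
    exact (var1 h _).trans_eq (by rw [EuclideanSpace.real_norm_sq_eq])
  have b2 : ∑ i, ∫ ω, ⟪c i, b ω⟫ * ⟪c i, b ω⟫ ∂P ≤ L ^ 2 * Fr (P.map a) (P.map b) := by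
    rw [hF, sum_comm, mul_sum]
    refine sum_le_sum fun i _ => ?_
    rw [← cv hb]
    exact (var1 h' _).trans_eq (by rw [EuclideanSpace.real_norm_sq_eq])
  have p : 0 < L ^ 2 := by positivity
  refine le_of_mul_le_mul_left ?_ p
  nlinarith

theorem lipMem {Ω : Type} [MeasurableSpace Ω] {P : Measure Ω} [IsFiniteMeasure P] {a : Ω → E d}
    (ha : MemLp a 2 P) {f : E d → ℝ} {K : ℝ} (hK : LipF K f) : MemLp (fun ω => f (a ω)) 2 P := by
  have h := (lipW (K := K) (F := fun x => f x - f 0) fun x y => by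
    simpa using hK x y).comp_memLp (by simp) ha
  exact (h.add (memLp_const (f 0))).ae_eq (Eventually.of_forall fun ω => by simp)

theorem jen {Ω Y : Type} [MeasurableSpace Ω] (P : Measure Ω) [IsProbabilityMeasure P]
    [NormedAddCommGroup Y] [NormedSpace ℝ Y] {g : Ω → Y} (hg : MemLp (fun ω => ‖g ω‖) 2 P) :
    ‖∫ ω, g ω ∂P‖ ^ 2 ≤ ∫ ω, ‖g ω‖ ^ 2 ∂P := by
  have h := variance_nonneg (fun ω => ‖g ω‖) P
  rw [variance_eq_sub hg] at h
  have k := pow_le_pow_left₀ (norm_nonneg _) (norm_integral_le_integral_norm (μ := P) g) 2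
  simp only [Pi.pow_apply] at h
  linarith

theorem gadd {β : Measure (E d)} {L' : ℝ} (h0 : 0 ≤ L) (h0' : 0 ≤ L') (h : Poi α L) (h' : Poi β L') :
    GPo ((α.prod β).map fun p => p.1 + p.2) ((L + L') ^ 2) := by
  intro f K hf hK
  have := h.1
  have := h'.1
  have m : Measurable fun p : E d × E d => p.1 + p.2 := by fun_prop
  have cf := hf.continuous
  have cd := hf.continuous_fderiv one_ne_zero
  have df := hf.differentiable one_ne_zero
  rw [integral_map m.aemeasurable (by fun_prop), integral_map m.aemeasurable (by fun_prop),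
    integral_map m.aemeasurable (by fun_prop)]
  have mF : MemLp (fun p : E d × E d => f (p.1 + p.2)) 2 (α.prod β) :=
    lipMem ((h.2.1.comp_fst β).add (h'.2.1.comp_snd α)) hK
  have mx : ∀ x, MemLp (fun y => f (x + y)) 2 β := fun x =>
    lipMem ((memLp_const x).add h'.2.1) hK
  have iD : Integrable (fun p : E d × E d => ‖fderiv ℝ f (p.1 + p.2)‖ ^ 2) (α.prod β) :=
    bdd _ (by fun_prop) (fun _ => norm_nonneg _) fun p => dle hK _
  have dg : ∀ x, HasFDerivAt (fun x => ∫ y, f (x + y) ∂β) (∫ y, fderiv ℝ f (x + y) ∂β) x := fun x =>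
    hasFDerivAt_integral_of_dominated_of_fderiv_le (F := fun x y => f (x + y))
      (F' := fun x y => fderiv ℝ f (x + y)) (bound := fun _ => |K|) univ_mem
      (Eventually.of_forall fun z => (mx z).1) ((mx x).integrable one_le_two) (by fun_prop)
      (Eventually.of_forall fun y z _ => dle hK _) (integrable_const _)
      (Eventually.of_forall fun y z _ => (hasFDerivAt_comp_add_right y).2 (df (z + y)).hasFDerivAt)
  have cg : ContDiff ℝ 1 fun x => ∫ y, f (x + y) ∂β :=
    contDiff_one_iff_hasFDerivAt.2 ⟨_, continuous_of_dominated (bound := fun _ => |K|)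
      (fun x => by fun_prop) (fun x => Eventually.of_forall fun y => dle hK _) (integrable_const _)
      (Eventually.of_forall fun y => by fun_prop), dg⟩
  have lg : LipF |K| fun x => ∫ y, f (x + y) ∂β := fun x x' => by
    rw [← integral_sub ((mx x).integrable one_le_two) ((mx x').integrable one_le_two)]
    have := norm_integral_le_of_norm_le_const (μ := β) (f := fun y => f (x + y) - f (x' + y))
      (C := |K| * ‖x - x'‖) (Eventually.of_forall fun y => by
        have k := (lipW hK).dist_le_mul (x + y) (x' + y)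
        rw [dist_eq_norm, dist_eq_norm, add_sub_add_right_eq_sub] at k
        exact k)
    simpa using this
  have mg : MemLp (fun x => ∫ y, f (x + y) ∂β) 2 α := lipMem h.2.1 lg
  have k1 := h.2.2.2 _ _ cg lg
  have iI := iD.integral_prod_left
  have k2 : ∫ x, ‖fderiv ℝ (fun x => ∫ y, f (x + y) ∂β) x‖ ^ 2 ∂α ≤
      ∫ x, ∫ y, ‖fderiv ℝ f (x + y)‖ ^ 2 ∂β ∂α :=
    integral_mono_of_nonneg (Eventually.of_forall fun _ => sq_nonneg _) iI
      (Eventually.of_forall fun x => by
        simp only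
        rw [(dg x).fderiv]
        exact jen β (MemLp.of_bound (by fun_prop) |K| (Eventually.of_forall fun y => by
          rw [norm_norm]
          exact dle hK _)))
  have i2' := mF.integrable_sq.integral_prod_left
  have k3 := integral_mono (i2'.sub mg.integrable_sq) (iI.const_mul (L' ^ 2)) fun x => by
    have k := h'.2.2.2 (fun y => f (x + y)) K (hf.comp (by fun_prop)) fun y y' => by
      simpa using hK (x + y) (x + y')
    simp only [fderiv_comp_add_left] at k
    exact k
  simp only [Pi.sub_apply] at k3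
  rw [integral_sub i2' mg.integrable_sq, integral_const_mul] at k3
  rw [integral_prod _ mF.integrable_sq, integral_prod _ (mF.integrable one_le_two),
    integral_prod _ iD]
  have p : 0 ≤ ∫ x, ∫ y, ‖fderiv ℝ f (x + y)‖ ^ 2 ∂β ∂α :=
    integral_nonneg fun _ => integral_nonneg fun _ => sq_nonneg _
  nlinarith [mul_le_mul_of_nonneg_left k2 (sq_nonneg L), mul_nonneg (mul_nonneg h0 h0') p]

end Pom

open Pom in
theorem stmtPo (_h1 : StmtG1) (hGP : StmtGP) : StmtPo := fun d => by
  refine ⟨fun X _ _ _ _ μ _ F L hμ hL hc hl hm => ⟨?_, ?_⟩, fun α β L L' h0 h0' h h' => ?_,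
    fun α L L' h0 hl h => ⟨h.1, h.2.1, h.2.2.1, fun f K hf hK => (h.2.2.2 f K hf hK).trans ?_⟩,
    fun L => ⟨inferInstance, ?_, by simp, fun f K _ _ => ?_⟩, fun B K hB => ?_,
    fun α L h => var1 h, fun α L h => ?_, fun α L h => fr0 h, fun Ω _ P a b L => coup P a b⟩
  · refine push0 μ _ L hμ hL (contDiff_const.sub hc) (fun x y => ?_) ((memLp_const _).sub hm) ?_
    · rw [sub_sub_sub_cancel_left, norm_sub_rev]
      exact hl x y
    · rw [integral_sub (integrable_const _) (hm.integrable one_le_two)]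
      simp
  · refine push0 μ _ L hμ hL (hc.sub contDiff_const) (fun x y => ?_) (hm.sub (memLp_const _)) ?_
    · rw [sub_sub_sub_cancel_right]
      exact hl x y
    · rw [integral_sub (hm.integrable one_le_two) (integrable_const _)]
      simp
  · have := h.1
    have := h'.1
    have m : Measurable fun p : E d × E d => p.1 + p.2 := by fun_prop
    refine ⟨⟨Measure.isProbabilityMeasure_map m.aemeasurable,
      (memLp_map_measure_iff (by fun_prop) m.aemeasurable).2
        ((h.2.1.comp_fst β).add (h'.2.1.comp_snd α)), ?_, gadd h0 h0' h h'⟩, fun u v => ?_⟩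
    · rw [integral_map m.aemeasurable (by fun_prop),
        integral_add ((i1 h).comp_fst β) ((i1 h').comp_snd α), integral_fun_fst fun x => x,
        integral_fun_snd fun x => x, h.2.2.1, h'.2.2.1]
      simp
    · have j : ∀ u v : E d, Integrable (fun p : E d × E d => ⟪u, p.1⟫ * ⟪v, p.2⟫) (α.prod β) :=
        fun u v => ((i1 h).const_inner u).mul_prod ((i1 h').const_inner v)
      have z : ∀ u v : E d, ∫ p : E d × E d, ⟪u, p.1⟫ * ⟪v, p.2⟫ ∂α.prod β = 0 := fun u v => by
        rw [integral_prod_mul (fun x => ⟪u, x⟫) fun x => ⟪v, x⟫, mean1 h, zero_mul]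
      have a1 := (i2 h u v).comp_fst β
      have a2 := (i2 h' u v).comp_snd α
      rw [Cv, integral_map m.aemeasurable (by fun_prop), integral_congr_ae
        (g := fun p => (⟪u, p.1⟫ * ⟪v, p.1⟫ + ⟪u, p.2⟫ * ⟪v, p.2⟫) +
          (⟪u, p.1⟫ * ⟪v, p.2⟫ + ⟪v, p.1⟫ * ⟪u, p.2⟫)) (Eventually.of_forall fun p => by
          simp only [inner_add_right]; ring),
        integral_add (by exact a1.add a2) (by exact (j u v).add (j v u)), integral_add a1 a2,
        integral_add (j u v) (j v u), z, z, integral_fun_fst fun x => ⟪u, x⟫ * ⟪v, x⟫,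
        integral_fun_snd fun x => ⟪u, x⟫ * ⟪v, x⟫]
      simp [Cv]
  · exact mul_le_mul_of_nonneg_right (pow_le_pow_left₀ h0 hl 2)
      (integral_nonneg fun _ => sq_nonneg _)
  · exact (memLp_const (0 : E d)).ae_eq (ae_eq_dirac (fun x : E d => x)).symm
  · simp only [integral_dirac, sub_self]
    positivity
  · refine push0 (gs d) B K (hGP d).one ((norm_nonneg _).trans hB) B.contDiff (fun x y => ?_)
      (B.comp_memLp' IsGaussian.memLp_two_id) ?_
    · rw [← map_sub]
      exact (B.le_opNorm _).trans (mul_le_mul_of_nonneg_right hB (norm_nonneg _))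
    · rw [B.integral_comp_id_comm IsGaussian.integrable_id, integral_id_stdGaussian, map_zero]
  · rw [trace h]
    refine (sum_le_sum fun i _ => var1 h (ee i)).trans_eq ?_
    simp [ee, mul_comm]

end

end Vale.Agent.P347
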