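import Vale.Agent.P347.Spec2
import Vale.Agent.P347.Prim

open MeasureTheory ProbabilityTheory Finset
open scoped RealInnerProductSpace ENNReal

namespace Vale.Agent.P347

noncomputable section

namespace Prim2m

open PA0m Primm

variable {d : ℕ}

/-- the numerical facts -/
structure Num (ε e D s k : ℝ) : Prop where
  a0 : ε ^ 2 * k * s ≤ e
  a1 : ε ^ 3 * s ≤ e
  a2 : ε ^ 2 * s * (k ^ 2 + D⁻¹ + k) ≤ 3 * e
  a3 : ε ^ 2 * k * s + ε ^ 3 * s / k + D⁻¹ * ε * s + k * ε ^ 2 * s ≤ 4 * e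
  a4 : ε ^ 4 * s / k ≤ e

lemma num {ε e D k : ℝ} (hk : 0 < k) (hk' : k ≤ 1 / 2) (hε : ε = k ^ 2) (he : 0 < e) (hD : 0 < D)
    (h1 : 1 ≤ ε ^ 2 * D) (h3 : ε ^ 5 * D ≤ e ^ 2) : Num ε e D √D k := by
  have hs := Real.sqrt_nonneg D
  have hs2 := Real.sq_sqrt hD.le
  generalize √D = s at *
  have h0 : 0 < ε := by rw [hε]; positivity
  have a0 : ε ^ 2 * k * s ≤ e := by
    rw [← pow_le_pow_iff_left₀ (by positivity) he.le two_ne_zero]
    refine le_of_eq_of_le ?_ h3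
    rw [mul_pow, mul_pow, hs2, ← hε]; ring
  have b1 : ε ≤ k := by nlinarith
  have b2 : D⁻¹ ≤ ε ^ 2 := by rw [inv_le_iff_one_le_mul₀ hD]; exact h1
  have b3 : ε ^ 2 ≤ ε := by nlinarith
  have hy : 0 ≤ ε ^ 2 * s := by positivity
  have a1 : ε ^ 3 * s ≤ e := by nlinarith [mul_le_mul_of_nonneg_left b1 hy]
  have e1 : ε ^ 3 * s / k = ε ^ 2 * k * s := by rw [hε]; field_simp
  refine ⟨a0, a1, ?_, ?_, ?_⟩
  · nlinarith [mul_le_mul_of_nonneg_left (show k ^ 2 + D⁻¹ + k ≤ 3 * k by linarith) hy]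
  · have := mul_le_mul_of_nonneg_right b2 (show 0 ≤ ε * s by positivity)
    rw [e1]
    nlinarith
  · rw [show ε ^ 4 * s / k = ε * (ε ^ 3 * s / k) by ring, e1]
    exact (mul_le_of_le_one_left (by positivity) (by linarith)).trans a0

lemma err (h : Gau1 d) {ε e k Cb Cm Ca ρ x : ℝ} {G : E d → E d} {N : ℕ} {b : E d → E d} {c : E d → ℝ}
    (hA : AaApi ε ρ G) (hn : Num ε e d √d k) (hε : 0 < ε) (hk : 0 < k) (hCa : 1 ≤ Ca) (hCb : 1 ≤ Cb)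
    (hCm : 1 ≤ Cm) (x0 : 0 ≤ x) (hx : x ≤ e) (mb : Measurable b) (mc : Measurable c)
    (hb : eLpNorm b 2 (gs d) ≤ ENNReal.ofReal
      (Cb * (ε ^ 2 * k * √d + ε ^ 3 * √d / k + (d : ℝ)⁻¹ * ε * √d + k * ε ^ 2 * √d)))
    (hc : eLpNorm c 2 (gs d) ≤ ENNReal.ofReal (Cm * ε ^ 2 * √d * (k ^ 2 + (d : ℝ)⁻¹ + k))) :
    Measurable (fun w => Ca * (ε * √(DD G ρ N w) + c w + ‖b w‖ + ε ^ 3 * (√d + ‖w‖) + ε ^ 4 * √d / k + x)) ∧
    eLpNorm (fun w => Ca * (ε * √(DD G ρ N w) + c w + ‖b w‖ + ε ^ 3 * (√d + ‖w‖) + ε ^ 4 * √d / k + x)) 2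
      (gs d) ≤ ENNReal.ofReal (Ca * ((8 + 3 * Cm + 4 * Cb) * e)) := by
  obtain ⟨mD, nD⟩ := DD_norm hA N
  have e1 : (fun w => Ca * (ε * √(DD G ρ N w) + c w + ‖b w‖ + ε ^ 3 * (√d + ‖w‖) + ε ^ 4 * √d / k + x)) =
      fun w => Ca * ((ε * √(DD G ρ N w) + c w + ‖b w‖) + ε ^ 3 * ‖w‖ + (ε ^ 3 * √d + ε ^ 4 * √d / k + x)) := by
    funext w; ring
  have m1 : Measurable fun w => ε * √(DD G ρ N w) := mD.sqrt.const_mul ε
  have m2 : Measurable fun w => ε * √(DD G ρ N w) + c w + ‖b w‖ := (m1.add mc).add mb.norm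
  have m3 : Measurable fun w : E d => ε ^ 3 * ‖w‖ := Continuous.measurable (by fun_prop)
  have n1 : eLpNorm (fun w : E d => ‖w‖) 2 (gs d) ≤ ENNReal.ofReal √d :=
    eLp_le (by fun_prop) (h.i2 2) (Real.sqrt_nonneg _) (by rw [h.m2, Real.sq_sqrt (Nat.cast_nonneg d)])
  have n2 : eLpNorm (fun _ : E d => ε ^ 3 * √d + ε ^ 4 * √d / k + x) 2 (gs d) ≤
      ENNReal.ofReal (ε ^ 3 * √d + ε ^ 4 * √d / k + x) :=
    eLp_le aestronglyMeasurable_const (integrable_const _) (by positivity) (by simp)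
  rw [e1]
  refine ⟨((m2.add m3).add measurable_const).const_mul Ca, cmul (by linarith) ?_⟩
  rw [← eLpNorm_norm] at hb
  refine (add3 m2 m3 measurable_const (by positivity) (by positivity) (by positivity)
    (add3 m1 mc mb.norm (by positivity) (by positivity) (by positivity) (cmul hε.le nD) hc hb)
    (cmul (by positivity) n1) n2).trans (ENNReal.ofReal_le_ofReal ?_)
  have b1 := mul_le_mul_of_nonneg_left hn.a2 (show 0 ≤ Cm by linarith)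
  have b2 := mul_le_mul_of_nonneg_left hn.a3 (show 0 ≤ Cb by linarith)
  linarith [hn.a1, hn.a4]

lemma mixed (hRel : RelApi) (hRev : StmtRev) (hMeas : StmtMeas2) {ε ρ t e0 : ℝ} {G : E d → E d} {N : ℕ}
    {P : Par2} (hA : AaApi ε ρ G) (hG : Continuous G) (hρ : ρ ^ 2 ≤ 1) (e : E d → ℝ)
    (me : Measurable e) (h0 : ∀ w, 0 ≤ e w) (h0' : 0 ≤ e0)
    (h : ∀ w, Rel (((gN d N).prod (gs d)).map fun q => w - AA G ρ N w q.1 + (√2 * t) • q.2)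
      ((twM d).map (primW2 P G t w)) (e w)) (ne : eLpNorm e 2 (gs d) ≤ ENNReal.ofReal e0) :
    IsProbabilityMeasure ((tdM d).map (prim2 P G t)) ∧
      Rel (sm (ch G ρ N) (√2 * t)) ((tdM d).map (prim2 P G t)) e0 := by
  have iw : IsProbabilityMeasure (twM d) := by unfold twM; infer_instance
  have id : IsProbabilityMeasure (tdM d) := by unfold tdM; infer_instance
  have mp := (((hMeas d P).1 G hG).2.2 t).1.measurable
  refine ⟨Measure.isProbabilityMeasure_map mp.aemeasurable, ?_⟩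
  rw [(sm_ch hRev hA hG hρ N (√2 * t)).2]
  exact hRel.mix (E d) ((Fin N → E d) × E d) (Tw d) (E d) (gs d) ((gN d N).prod (gs d))
    (twM d) _ (prim2 P G t) e e0 (meas_f hA N _) mp me h0 h0' h ne

end Prim2m

open PA0m Primm in
theorem stmtPrim2 (h1 : StmtG1) (h2 : StmtG2) (hRel : RelApi) (hIde2 : StmtIde2) (hRev : StmtRev)
    (hQuad2 : StmtQuad2) (hB22 : StmtB22) (hMQ : StmtMQ) (hPA12 : StmtPA12) (hAa : StmtAa)
    (hMeas2 : StmtMeas2) : StmtPrim2 := by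
  obtain ⟨Cq, hCq, hq⟩ := hQuad2
  obtain ⟨Cb, hCb, hb⟩ := hB22
  obtain ⟨Cm, hCm, hm⟩ := hMQ
  obtain ⟨Ca, hCa, ha⟩ := hPA12
  have hK : 0 ≤ Ca * (8 + 3 * Cm + 4 * Cb) := by positivity
  refine ⟨256 + Ca + Cq + 1 + Ca * (8 + 3 * Cm + 4 * Cb), by linarith, ?_⟩
  intro d ε e hd hε hεd hC he h3
  have hd1 : 1 ≤ d := by omega
  have hD : (2 : ℝ) ≤ d := by exact_mod_cast hd
  have h4 : 0 ≤ ε ^ 4 * d := by positivity
  have mono : ∀ c : ℝ, c ≤ 256 + Ca + Cq + 1 + Ca * (8 + 3 * Cm + 4 * Cb) →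
      c * ε ^ 4 * d ≤ 1 := fun c hc => by
    have := mul_le_mul_of_nonneg_right hc h4
    linarith
  have hε' : ε ≤ 1 / 4 := by
    rw [← pow_le_pow_iff_left₀ hε.le (by norm_num) (n := 4) (by norm_num)]
    have a1 := mono 256 (by linarith)
    have a2 := mul_le_mul_of_nonneg_left hD (show 0 ≤ ε ^ 4 by positivity)
    have a3 : 0 ≤ ε ^ 4 := by positivity
    linarith
  obtain ⟨k, k0, hk⟩ : ∃ k : ℝ, 0 < k ∧ ε = k ^ 2 := ⟨√ε, Real.sqrt_pos.2 hε, (Real.sq_sqrt hε.le).symm⟩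
  have k1 : k ≤ 1 / 2 := by nlinarith
  have hn := Prim2m.num k0 k1 hk he (by linarith) hεd h3
  obtain ⟨ρ, N, r0, hR, hI⟩ := hIde2 d 1 k k (e ^ 2 / 4) hd k0 k1 k0 k1 (by positivity)
  have hρ := hR.r1
  have hρ' := hR.r2
  have hdi : (d : ℝ)⁻¹ ≤ 1 / 2 := by rw [inv_le_comm₀ (by linarith) (by norm_num)]; linarith
  obtain ⟨J, om, tau, hJ, hQ⟩ := hq (d : ℝ)⁻¹ ρ N (by positivity) hdi hρ hρ'
  obtain ⟨nd, hnd, hM⟩ := hm d k ρ (d : ℝ)⁻¹ (ρ ^ r0) N r0 ⟨J, om, tau, k, 0⟩ hR (by positivity) hQ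
  have hm6 : 0 ≤ m6 d := Real.sqrt_nonneg _
  obtain ⟨de, hde, hx⟩ : ∃ de : ℝ, 0 < de ∧ ((J ^ 3 + J ^ 3 : ℕ) : ℝ) * de * (d + m6 d) / k ^ 3 ≤ e := by
    refine ⟨e * k ^ 3 / ((((J ^ 3 + J ^ 3 : ℕ) : ℝ) + 1) * (d + m6 d)), by positivity, ?_⟩
    have h5 : (0 : ℝ) ≤ ((J ^ 3 + J ^ 3 : ℕ) : ℝ) := Nat.cast_nonneg _
    generalize ((J ^ 3 + J ^ 3 : ℕ) : ℝ) = n at *
    have h6 : 0 < (d : ℝ) + m6 d := by linarith
    rw [show n * (e * k ^ 3 / ((n + 1) * (d + m6 d))) * (d + m6 d) / k ^ 3 = e * (n / (n + 1)) by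
      field_simp]
    exact mul_le_of_le_one_right he.le ((div_le_one (by linarith)).2 (by linarith))
  let P : Par2 := ⟨⟨J, om, tau, k, de⟩, ρ ^ r0, J ^ 3 + J ^ 3, nd⟩
  have hp : P.p.Ok := ⟨hQ.1, hQ.2.1, hQ.2.2.1⟩
  refine ⟨P, ?_, (two_mul _).ge, fun t W G ht ht' hW hG => ?_⟩
  · rw [inv_inv] at hJ
    exact hJ.trans (mul_le_mul_of_nonneg_right (by linarith) (sq_nonneg _))
  have hGc : Continuous G := hG.c1.continuous
  have hA := hAa d ε ρ G hd1 hε.le hε' hρ hρ' hG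
  obtain ⟨iμ, hI'⟩ := hI W G hW (fun x y => (hG.lip x y).trans
    (mul_le_mul_of_nonneg_right (by linarith) (norm_nonneg _))) (hG.zero.trans (by linarith))
  have ic := (sm_ch hRev hA hGc (by nlinarith) N (√2 * t)).1
  have r1 := rel_tv (h2 d) hRel (mu W) (ch G ρ N) t e _ ht he.le le_rfl hI'
  obtain ⟨mb, nb⟩ := hb d ε k ρ (d : ℝ)⁻¹ G P N r0 hε hε' hG hR rfl (by positivity) hQ
  obtain ⟨mc, nc⟩ := hM ε de G hε.le hε' hG
  obtain ⟨me, ne⟩ := Prim2m.err (N := N) (h1 d) hA hn hε k0 hCa hCb hCm (by positivity) hx mb mc nb nc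
  obtain ⟨j3, r2⟩ := Prim2m.mixed (P := P) hRel hRev hMeas2 hA hGc (by nlinarith) _ me
    (fun w => by unfold cer; positivity) (by positivity)
    (fun w => ha d ε ρ t G P N w hd1 hε.le (mono _ (by linarith)) hρ hρ' hG hp k0 k1 hde
      (pow_nonneg (by linarith) r0) (pow_le_one₀ (by linarith) hρ'.le) hnd ht ht') ne
  have j1 := sm_prob (mu W) (√2 * t)
  have j2 := sm_prob (ch G ρ N) (√2 * t)
  refine hRel.mono _ _ _ _ _ (by positivity) ?_ (hRel.tri _ _ _ _ _ _ he.le (by positivity) r1 r2)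
  have := mul_nonneg (show 0 ≤ 256 + Ca + Cq by linarith) he.le
  linarith

end

end Vale.Agent.P347
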