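import Vale.Agent.P347.Spec

/-! A short quadrature for the geometric average of powers. -/

open Finset Polynomial

namespace Vale.Agent.P347

namespace QA2m

/-- conic Caratheodory -/
theorem cara {V : Type} [AddCommGroup V] [Module ℝ V] (f : ℕ → V) (G : Finset V) (s : Finset ℕ) :
    ∀ w : ℕ → ℝ, (∀ k ∈ s, 0 ≤ w k) → (∀ k ∈ s, f k ∈ Submodule.span ℝ (G : Set V)) →
    ∃ t ⊆ s, ∃ v : ℕ → ℝ, t.card ≤ G.card ∧ (∀ k ∈ t, 0 ≤ v k) ∧
      ∑ k ∈ t, v k • f k = ∑ k ∈ s, w k • f k := by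
  induction s using Finset.strongInduction with
  | H s ih =>
    intro w hw hf
    by_cases c : s.card ≤ G.card
    · exact ⟨s, subset_rfl, w, c, hw, rfl⟩
    have dep : ¬ LinearIndepOn ℝ f s := fun h => c (by
      simpa using linearIndependent_le_span_aux' _ h (G : Set V)
        (by rintro _ ⟨k, rfl⟩; exact hf k k.2))
    obtain ⟨g, g1, i, hi, g2⟩ : ∃ g : ℕ → ℝ, ∑ k ∈ s, g k • f k = 0 ∧ ∃ i ∈ s, 0 < g i := by
      obtain ⟨g, g1, i, hi, g2⟩ := not_linearIndepOn_finset_iff.1 dep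
      rcases lt_or_gt_of_ne g2 with h | h
      · exact ⟨fun k => -g k, by simp [g1], i, hi, neg_pos.2 h⟩
      · exact ⟨g, g1, i, hi, h⟩
    obtain ⟨j, hj, hm⟩ := exists_min_image (s.filter fun k => 0 < g k) (fun k => w k / g k)
      ⟨i, mem_filter.2 ⟨hi, g2⟩⟩
    obtain ⟨hj, gj⟩ := mem_filter.1 hj
    obtain ⟨t, ht, v, h1, h2, h3⟩ := ih (s.erase j) (erase_ssubset hj)
      (fun k => w k - w j / g j * g k) (fun k hk => by
        have hk := mem_of_mem_erase hk
        rcases le_or_gt (g k) 0 with h | h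
        · nlinarith [hw k hk, div_nonneg (hw j hj) gj.le]
        · exact sub_nonneg.2 ((le_div_iff₀ h).1 (hm k (mem_filter.2 ⟨hk, h⟩))))
      fun k hk => hf k (mem_of_mem_erase hk)
    refine ⟨t, ht.trans (erase_subset _ _), v, h1, h2, h3.trans ?_⟩
    rw [sum_erase _ (by rw [div_mul_cancel₀ _ gj.ne', sub_self, zero_smul])]
    simp only [sub_smul, sum_sub_distrib, mul_smul, ← smul_sum, g1, smul_zero, sub_zero]

variable {ν : ℝ[X] → ℝ}

theorem nu_sum (h1 : ∀ p q, ν (p + q) ≤ ν p + ν q) (h2 : ∀ (c : ℝ) p, ν (c • p) = |c| * ν p)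
    (s : Finset ℕ) (c : ℕ → ℝ) (p : ℕ → ℝ[X]) :
    ν (∑ k ∈ s, c k • p k) ≤ ∑ k ∈ s, |c k| * ν (p k) := by
  induction s using Finset.induction_on with
  | empty => simpa using (h2 0 0).le
  | insert a s ha ih => rw [sum_insert ha, sum_insert ha, ← h2]; exact (h1 _ _).trans (by gcongr)

/-- truncated binomial expansion of `X ^ (n + j)` around `X = 1` -/
noncomputable def hd (M n j : ℕ) : ℝ[X] :=
  ∑ i ∈ range M, ((-1) ^ i * j.choose i : ℝ) • ((1 - X) ^ i * X ^ n)

theorem hd_eq (n j : ℕ) {M : ℕ} (h : j < M) : hd M n j = X ^ (n + j) := by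
  have e : (X : ℝ[X]) ^ j = (-(1 - X) + 1) ^ j := by congr 1; ring
  rw [add_comm, pow_add, e, add_pow, sum_mul, hd]
  refine (sum_subset (range_subset_range.2 h) fun i _ hi => ?_).symm.trans
    (sum_congr rfl fun i _ => ?_)
  · rw [Nat.choose_eq_zero_of_lt (by simpa using hi)]; simp
  · rw [smul_eq_C_mul, neg_pow (1 - X : ℝ[X])]; simp; ring

theorem tail (h1 : ∀ p q, ν (p + q) ≤ ν p + ν q) (h2 : ∀ (c : ℝ) p, ν (c • p) = |c| * ν p)
    (h4 : ∀ i k : ℕ, 1 ≤ i → i ≤ k → ν ((1 - X) ^ i * X ^ k) ≤ (2 * i / k : ℝ) ^ i)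
    {M n j : ℕ} (hM : 1 ≤ M) (hj : 12 * j ≤ n) : ν (X ^ (n + j) - hd M n j) ≤ 2 * (1 / 2) ^ M := by
  rw [← hd_eq n j (M := M + (j + 1)) (by omega), hd, hd, ← sum_Ico_eq_sub _ (by omega)]
  refine (nu_sum h1 h2 _ _ _).trans (le_trans (sum_le_sum fun i hi => ?_)
    ((geom_sum_Ico_le_of_lt_one (x := (1 / 2 : ℝ)) (by norm_num) (by norm_num)).trans
      (le_of_eq (by ring))))
  rw [abs_mul, abs_pow, abs_neg, abs_one, one_pow, one_mul, Nat.abs_cast]
  by_cases c : j < i
  · rw [Nat.choose_eq_zero_of_lt c]; simp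
  have i1 : 1 ≤ i := hM.trans (mem_Ico.1 hi).1
  have n0 : (0 : ℝ) < n := by exact_mod_cast (by omega : 0 < n)
  have a1 : (j : ℝ) * 2 / n ≤ 1 / 6 := by
    rw [div_le_iff₀ n0]
    have : (12 * j : ℝ) ≤ n := by exact_mod_cast hj
    linarith
  have a2 : (i : ℝ) ^ i / i.factorial ≤ 3 ^ i := (Real.pow_div_factorial_le_exp _
    (Nat.cast_nonneg i) i).trans (by
      rw [← Real.exp_one_pow]
      exact pow_le_pow_left₀ (Real.exp_pos _).le
        (Real.exp_one_lt_d9.le.trans (by norm_num)) i)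
  calc _ ≤ (j : ℝ) ^ i / i.factorial * (2 * i / n) ^ i :=
        (mul_le_mul_of_nonneg_left (h4 i n i1 (by omega)) (Nat.cast_nonneg _)).trans
          (mul_le_mul_of_nonneg_right (Nat.choose_le_pow_div i j) (by positivity))
    _ = (j * 2 / n) ^ i * ((i : ℝ) ^ i / i.factorial) := by
        simp only [div_pow, mul_pow]; ring
    _ ≤ (1 / 6) ^ i * 3 ^ i := by gcongr
    _ = _ := by rw [← mul_pow]; norm_num

theorem mass (ρ : ℝ) (n : ℕ) : ∑ r ∈ range n, aw ρ r = 1 - ρ ^ n := by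
  induction n with
  | zero => simp
  | succ n ih => rw [sum_range_succ, ih, aw]; ring

end QA2m

open QA2m in
theorem stmtQA2 : StmtQA2 := by
  classical
  refine ⟨425, by norm_num, fun δ ρ N δ0 δ1 ρ0 ρ1 => ?_⟩
  set h := 1 - ρ with hh
  have h0 : 0 < h := by linarith
  have aw0 : ∀ r, 0 ≤ aw ρ r := fun r => mul_nonneg h0.le (by positivity)
  set l := Real.log (3 / δ) with hl
  have el : Real.exp l = 3 / δ := Real.exp_log (by positivity)
  have x0 : 0 ≤ Real.log δ⁻¹ := Real.log_nonneg ((one_le_inv₀ δ0).2 (by linarith))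
  have l1 : l ≤ 2 * (1 + Real.log δ⁻¹) := by
    rw [hl, div_eq_mul_inv, Real.log_mul (by norm_num) (by positivity)]
    linarith [Real.log_le_sub_one_of_pos (show (0 : ℝ) < 3 by norm_num)]
  have l0 : 0 ≤ l := Real.log_nonneg ((one_le_div δ0).2 (by linarith))
  set a := δ / (3 * h) with ha
  have a0 : 0 < a := by positivity
  set R := ⌈l / h⌉₊ with hR
  set L := ⌊26 * l⌋₊ + 1 with hL
  set M := 2 * ⌈l⌉₊ + 2 with hM
  set S := (range N).filter fun r : ℕ => a ≤ (r : ℝ) + 1 ∧ r < R with hS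
  have blk : ∀ r : ℕ, ∃ n j : ℕ, r ∈ S → r + 1 = n + j ∧ 12 * j ≤ n ∧
      ∃ t < L, n = ⌈a * (13 / 12) ^ t⌉₊ := by
    intro r
    by_cases c : r ∈ S
    · obtain ⟨-, c1, c2⟩ := mem_filter.1 c
      obtain ⟨t, t1, t2⟩ := exists_nat_pow_near ((one_le_div a0).2 c1)
        (show (1 : ℝ) < 13 / 12 by norm_num)
      rw [le_div_iff₀ a0, mul_comm] at t1
      rw [div_lt_iff₀ a0, pow_succ] at t2
      have b1 : ⌈a * (13 / 12) ^ t⌉₊ ≤ r + 1 := Nat.ceil_le.2 (by exact_mod_cast t1)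
      have b2 := Nat.le_ceil (a * (13 / 12) ^ t)
      refine ⟨_, r + 1 - ⌈a * (13 / 12) ^ t⌉₊, fun _ => ⟨by omega, ?_, t, ?_, rfl⟩⟩
      · have : (12 * (r + 1) : ℝ) ≤ 13 * ⌈a * (13 / 12) ^ t⌉₊ := by linarith
        have : 12 * (r + 1) ≤ 13 * ⌈a * (13 / 12 : ℝ) ^ t⌉₊ := by exact_mod_cast this
        omega
      · have d1 : (r + 1 : ℝ) ≤ (l + 1) / h := by
          have : (r + 1 : ℝ) ≤ R := by exact_mod_cast c2
          have := (Nat.ceil_lt_add_one (div_nonneg l0 h0.le)).le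
          have : 1 ≤ 1 / h := (one_le_div h0).2 (by linarith)
          rw [add_div]; linarith
        have d2 : ((13 : ℝ) / 12) ^ t ≤ Real.exp (2 * l) := by
          refine le_of_mul_le_mul_left (t1.trans (d1.trans ?_)) a0
          rw [two_mul, Real.exp_add, el, ha, ← mul_assoc, show δ / (3 * h) * (3 / δ) = 1 / h by
            field_simp, ← el, mul_comm, mul_one_div]
          gcongr
          exact Real.add_one_le_exp l
        have d3 : Real.exp (1 / 13) ≤ 13 / 12 := by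
          have := Real.add_one_le_exp (-(1 / 13))
          rw [Real.exp_neg, le_inv_comm₀ (by norm_num) (Real.exp_pos _)] at this
          linarith
        have d4 := (pow_le_pow_left₀ (Real.exp_pos _).le d3 t).trans d2
        rw [← Real.exp_nat_mul, Real.exp_le_exp] at d4
        exact Nat.lt_succ_of_le (Nat.le_floor (by linarith))
    · exact ⟨0, 0, fun k => absurd k c⟩
  choose n j hb using blk
  obtain ⟨T, hT, v, c1, c2, c3⟩ := cara (V := ℝ × ℝ[X]) (fun r => (1, hd M (n r) (j r)))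
    (insert (1, 0) ((range L ×ˢ range M).image fun q : ℕ × ℕ =>
      (0, (1 - X) ^ q.2 * X ^ ⌈a * (13 / 12) ^ q.1⌉₊))) S (aw ρ) (fun r _ => aw0 r)
    fun r hr => by
      obtain ⟨-, -, t, ht, e⟩ := hb r hr
      have : ((1 : ℝ), hd M (n r) (j r)) = (1, 0) + ∑ i ∈ range M,
          ((-1) ^ i * (j r).choose i : ℝ) • ((0 : ℝ), ((1 - X) ^ i * X ^ n r : ℝ[X])) := by
        ext1 <;> simp [hd, Prod.fst_sum, Prod.snd_sum]
      rw [this]
      refine add_mem (Submodule.subset_span (by simp)) (sum_mem fun i hi =>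
        Submodule.smul_mem _ _ (Submodule.subset_span (mem_coe.2 (mem_insert_of_mem
          (mem_image.2 ⟨(t, i), mem_product.2 ⟨mem_range.2 ht, hi⟩, by rw [e]⟩)))))
  have e1 : ∑ k ∈ T, v k = ∑ k ∈ S, aw ρ k := by
    simpa [Prod.fst_sum] using congrArg Prod.fst c3
  have e2 : ∑ k ∈ T, v k • hd M (n k) (j k) = ∑ k ∈ S, aw ρ k • hd M (n k) (j k) := by
    simpa [Prod.snd_sum] using congrArg Prod.snd c3
  have e3 : ∑ k ∈ S, aw ρ k ≤ 1 := (sum_le_sum_of_subset_of_nonneg (filter_subset _ _)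
    fun r _ _ => aw0 r).trans (by rw [mass]; exact sub_le_self _ (by positivity))
  have cv : ∀ {W : Type} [AddCommMonoid W] (g : ℕ → W),
      ∑ i : Fin T.card, g (T.equivFin.symm i) = ∑ k ∈ T, g k := fun g => by
    rw [T.equivFin.symm.sum_comp fun k : T => g k, sum_coe_sort]
  refine ⟨T.card, fun i => v (T.equivFin.symm i), fun i => T.equivFin.symm i + 1, ?_,
    fun i => c2 _ (T.equivFin.symm i).2, by rw [cv v, e1]; exact e3, fun ν h1 h2 h3 h4 => ?_⟩
  · have b1 : T.card ≤ L * M + 1 := c1.trans ((card_insert_le _ _).trans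
      (by gcongr; exact card_image_le.trans (by simp)))
    have b2 : (L : ℝ) ≤ 53 * (1 + Real.log δ⁻¹) := by
      have := Nat.floor_le (show 0 ≤ 26 * l by positivity)
      rw [hL]; push_cast; linarith
    have b3 : (M : ℝ) ≤ 8 * (1 + Real.log δ⁻¹) := by
      have := (Nat.ceil_lt_add_one l0).le
      rw [hM]; push_cast; linarith
    have b4 : (T.card : ℝ) ≤ L * M + 1 := by exact_mod_cast b1
    have b5 := mul_le_mul b2 b3 (Nat.cast_nonneg _) (by positivity)
    nlinarith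
  · rw [cv fun k => v k • (X : ℝ[X]) ^ (k + 1)]
    have η : 2 * (1 / 2 : ℝ) ^ M ≤ δ / 6 := by
      have b1 : Real.exp l ≤ 4 ^ ⌈l⌉₊ := (Real.exp_le_exp.2 (Nat.le_ceil l)).trans (by
        rw [← Real.exp_one_pow]
        exact pow_le_pow_left₀ (Real.exp_pos _).le
          (Real.exp_one_lt_d9.le.trans (by norm_num)) _)
      rw [el, div_le_iff₀ δ0] at b1
      rw [hM, pow_add, pow_mul, show ((1 : ℝ) / 2) ^ 2 = 4⁻¹ by norm_num, inv_pow]
      have : (0 : ℝ) < 4 ^ ⌈l⌉₊ := by positivity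
      rw [← mul_assoc, mul_comm 2, mul_assoc, inv_mul_le_iff₀ this]
      linarith
    have tl : ∀ r ∈ S, ν (X ^ (r + 1) - hd M (n r) (j r)) ≤ δ / 6 := fun r hr => by
      rw [(hb r hr).1]
      exact (tail h1 h2 h4 (by omega) (hb r hr).2.1).trans η
    have dec : ∑ r ∈ range N, aw ρ r • (X : ℝ[X]) ^ (r + 1) - ∑ k ∈ T, v k • X ^ (k + 1) =
        ∑ r ∈ range N \ S, aw ρ r • X ^ (r + 1) +
        (∑ r ∈ S, aw ρ r • (X ^ (r + 1) - hd M (n r) (j r)) +
          ∑ r ∈ T, (-v r) • (X ^ (r + 1) - hd M (n r) (j r))) := by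
      rw [← sum_sdiff (filter_subset _ _ : S ⊆ range N)]
      simp only [smul_sub, neg_smul, sum_sub_distrib, sum_neg_distrib, e2]
      abel
    have k1 : ∑ r ∈ range N \ S, |aw ρ r| * ν (X ^ (r + 1)) ≤ δ / 3 + δ / 3 := by
      calc _ ≤ ∑ r ∈ range N \ S, aw ρ r := sum_le_sum fun r _ => by
            rw [abs_of_nonneg (aw0 r)]; exact mul_le_of_le_one_right (aw0 r) (h3 _)
        _ ≤ ∑ r ∈ range ⌊a⌋₊ ∪ Ico R (R + N), aw ρ r :=
            sum_le_sum_of_subset_of_nonneg (fun r hr => by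
              obtain ⟨r1, r2⟩ := mem_sdiff.1 hr
              rw [mem_filter, not_and, not_and_or, not_le, not_lt] at r2
              rcases r2 r1 with k | k
              · exact mem_union_left _ (mem_range.2 (Nat.le_floor (by exact_mod_cast k.le)))
              · exact mem_union_right _ (mem_Ico.2 ⟨k, by have := mem_range.1 r1; omega⟩))
              fun r _ _ => aw0 r
        _ ≤ ∑ r ∈ range ⌊a⌋₊, aw ρ r + ∑ r ∈ Ico R (R + N), aw ρ r := by
            rw [← sum_union_inter]; exact le_add_of_nonneg_right (sum_nonneg fun r _ => aw0 r)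
        _ ≤ _ := by
            refine add_le_add ((sum_le_card_nsmul _ _ h fun r _ => mul_le_of_le_one_right h0.le
              (pow_le_one₀ (by linarith) ρ1.le)).trans ?_) ?_
            · rw [card_range, nsmul_eq_mul]
              exact (mul_le_mul_of_nonneg_right (Nat.floor_le a0.le) h0.le).trans
                (le_of_eq (by rw [ha]; field_simp))
            · rw [sum_Ico_eq_sub _ (by omega), mass, mass]
              have b1 : ρ ^ R ≤ Real.exp (-h) ^ R := pow_le_pow_left₀ (by linarith)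
                (by linarith [Real.add_one_le_exp (-h)]) R
              have b2 : Real.exp (-h) ^ R ≤ Real.exp (-l) := by
                rw [← Real.exp_nat_mul, Real.exp_le_exp]
                have := (div_le_iff₀ h0).1 (Nat.le_ceil (l / h))
                linarith
              rw [Real.exp_neg l, el, inv_div] at b2
              have : 0 ≤ ρ ^ (R + N) := by positivity
              linarith
    have k2 : ∑ r ∈ S, |aw ρ r| * ν (X ^ (r + 1) - hd M (n r) (j r)) ≤ δ / 6 :=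
      (sum_le_sum (g := fun r => aw ρ r * (δ / 6)) fun r hr => by
        rw [abs_of_nonneg (aw0 r)]; exact mul_le_mul_of_nonneg_left (tl r hr) (aw0 r)).trans
        (by rw [← sum_mul]; exact mul_le_of_le_one_left (by positivity) e3)
    have k3 : ∑ r ∈ T, |-v r| * ν (X ^ (r + 1) - hd M (n r) (j r)) ≤ δ / 6 :=
      (sum_le_sum (g := fun r => v r * (δ / 6)) fun r hr => by
        rw [abs_neg, abs_of_nonneg (c2 r hr)]
        exact mul_le_mul_of_nonneg_left (tl r (hT hr)) (c2 r hr)).trans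
        (by rw [← sum_mul, e1]; exact mul_le_of_le_one_left (by positivity) e3)
    rw [dec]
    have m1 := nu_sum h1 h2 (range N \ S) (aw ρ) fun r => X ^ (r + 1)
    have m2 := nu_sum h1 h2 S (aw ρ) fun r => X ^ (r + 1) - hd M (n r) (j r)
    have m3 := nu_sum h1 h2 T (fun r => -v r) fun r => X ^ (r + 1) - hd M (n r) (j r)
    exact (h1 _ _).trans ((add_le_add le_rfl (h1 _ _)).trans (by linarith))

end Vale.Agent.P347
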