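import Vale.Agent.P347.Spec2
import Vale.Agent.P347.Quad

open MeasureTheory ProbabilityTheory Finset
open scoped RealInnerProductSpace

namespace Vale.Agent.P347

open Quadm in
theorem stmtQuad2 (hQA1 : StmtQA1) (hQA2 : StmtQA2) (hOU : StmtOU) : StmtQuad2 := by
  obtain ⟨C, hC, hQ⟩ := hQA2
  refine ⟨C, hC, fun δ ρ N hδ hδ2 hρ hρ1 => ?_⟩
  obtain ⟨J, om, n, hJ, hom, hsum, hν⟩ := hQ δ ρ N hδ hδ2 hρ hρ1
  have hρ0 : 0 ≤ ρ := by linarith
  refine ⟨J, om, fun j => ρ ^ n j, hJ, hom, hsum,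
    fun j => ⟨by positivity, pow_le_one₀ hρ0 hρ1.le⟩, fun i0 _ d K Φ hΦ => ?_⟩
  have h := hOU d
  have hτ : √ρ ^ 2 ≤ 1 := by rw [Real.sq_sqrt hρ0]; exact hρ1.le
  let x : LL d := ⟨Φ, |K|, abs_nonneg K, fun a b =>
    (hΦ a b).trans (mul_le_mul_of_nonneg_right (le_abs_self K) (norm_nonneg _))⟩
  have a0 : 0 ≤ ρ ^ i0 := by positivity
  have a1 : ρ ^ i0 ≤ 1 := pow_le_one₀ hρ0 hρ1.le
  have b0 : 0 ≤ √(ρ ^ i0) := Real.sqrt_nonneg _
  have b1 : √(ρ ^ i0) ≤ 1 := Real.sqrt_le_one.2 a1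
  set S : LL d →ₗ[ℝ] LL d := √(ρ ^ i0) • Quadm.SS h hτ with hS
  set P := S * S with hP
  have hP' : P = ρ ^ i0 • (Quadm.SS h hτ * Quadm.SS h hτ) := by
    rw [hP, hS, smul_mul_smul_comm, Real.mul_self_sqrt a0]
  have hc : ∀ a, ‖TT h (S a)‖ ≤ ‖TT h a‖ := fun a => by
    rw [hS, LinearMap.smul_apply, map_smul, norm_smul, Real.norm_eq_abs, abs_of_nonneg b0]
    exact (mul_le_of_le_one_left (norm_nonneg _) b1).trans (contr h hτ a)
  have hA := hQA1 (LL d) ((innerₗ _).compl₁₂ (TT h) (TT h)) S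
    (fun a b => by simp [real_inner_comm]) (fun a => by simp)
    (fun a b => by
      have := symm h hτ a b
      simp only [LinearMap.compl₁₂_apply, innerₗ_apply_apply, hS, LinearMap.smul_apply, map_smul,
        real_inner_smul_left, real_inner_smul_right, smul_eq_mul, this])
    (fun a => by simpa using pow_le_pow_left₀ (norm_nonneg _) (hc a) 2)
  have key : ∀ c : ℝ, 0 < c → ‖TT h x‖ ≤ c → ‖TT h (Polynomial.aeval P
      (∑ r ∈ range N, aw ρ r • Polynomial.X ^ (r + 1) - ∑ j, om j • Polynomial.X ^ n j :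
        Polynomial ℝ) x)‖ ≤ δ * c := by
    intro c hc hx
    refine (div_le_iff₀ hc).1 (hν (fun q => ‖TT h (Polynomial.aeval P q x)‖ / c) (fun p q => ?_)
      (fun a p => ?_) (fun k => ?_) fun i k hi hik => ?_)
    · rw [← add_div, map_add, LinearMap.add_apply, map_add]
      exact div_le_div_of_nonneg_right (norm_add_le _ _) hc.le
    · rw [map_smul, LinearMap.smul_apply, map_smul, norm_smul, Real.norm_eq_abs, mul_div_assoc]
    · rw [div_le_one hc, map_pow, Polynomial.aeval_X, hP', smul_pow, LinearMap.smul_apply, map_smul,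
        norm_smul, Real.norm_eq_abs, abs_of_nonneg (by positivity)]
      exact (mul_le_of_le_one_left (norm_nonneg _) (pow_le_one₀ a0 a1)).trans
        ((pow_contr h hτ x k).trans hx)
    · have := hA i k x hi hik
      simp only [LinearMap.compl₁₂_apply, innerₗ_apply_apply, real_inner_self_eq_norm_sq,
        Real.sqrt_sq (norm_nonneg _)] at this
      rw [div_le_iff₀ hc, map_mul, map_pow, map_pow, map_sub, map_one, Polynomial.aeval_X]
      exact this.trans (mul_le_mul_of_nonneg_left hx (by positivity))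
  have e : (fun w => ∑ r ∈ range N, (aw ρ r * (ρ ^ (r + 1)) ^ i0) • OU (ρ ^ (r + 1)) Φ w -
      ∑ j, (om j * (ρ ^ n j) ^ i0) • OU (ρ ^ n j) Φ w) =
      (Polynomial.aeval P (∑ r ∈ range N, aw ρ r • Polynomial.X ^ (r + 1) -
        ∑ j, om j • Polynomial.X ^ n j : Polynomial ℝ) x).1 := by
    funext w
    simp only [map_sub, map_sum, map_smul, map_pow, Polynomial.aeval_X, LinearMap.sub_apply,
      LinearMap.sum_apply, LinearMap.smul_apply, Submodule.coe_sub, Submodule.coe_sum,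
      Submodule.coe_smul, hP', smul_pow, pow_eq h hρ0 hρ1.le hτ, Pi.sub_apply, Finset.sum_apply,
      Pi.smul_apply, x, smul_smul, pow_right_comm ρ i0]
  rw [e, TT_norm h, show eLpNorm Φ 2 (gs d) = _ from TT_norm h x, ← ENNReal.ofReal_mul hδ.le]
  refine ENNReal.ofReal_le_ofReal (le_of_forall_pos_le_add fun ε hε => ?_)
  refine (key (‖TT h x‖ + ε / δ) (by positivity) (le_add_of_nonneg_right (by positivity))).trans
    (le_of_eq ?_)
  field_simp

end Vale.Agent.P347
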