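import Vale.Agent.P347.Spec

open MeasureTheory
open scoped ENNReal

namespace Vale.Agent.P347

namespace Relm

variable {X : Type} [MeasurableSpace X]

theorem int1 (P : Measure X) [IsFiniteMeasure P] {φ : X → ℝ} (hm : Measurable φ)
    (hb : ∀ x, |φ x| ≤ 1) : Integrable φ P :=
  Integrable.of_bound hm.aestronglyMeasurable 1 (ae_of_all _ hb)

theorem sqb {φ : X → ℝ} (hb : ∀ x, |φ x| ≤ 1) (x : X) : |φ x ^ 2| ≤ 1 := by
  rw [abs_pow]; exact pow_le_one₀ (abs_nonneg _) (hb x)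

theorem abs_int (P : Measure X) [IsProbabilityMeasure P] {φ : X → ℝ} (hb : ∀ x, |φ x| ≤ 1) :
    |∫ x, φ x ∂P| ≤ 1 := by
  have := norm_integral_le_of_norm_le_const (μ := P) (f := φ) (C := 1) (ae_of_all _ hb)
  simpa using this

/-- the defect for the square -/
theorem sq_le (P Q : Measure X) [IsProbabilityMeasure P] {a : ℝ} (ha : 0 ≤ a) (h : Rel P Q a)
    {φ : X → ℝ} (hm : Measurable φ) (hb : ∀ x, |φ x| ≤ 1) :
    |∫ x, φ x ^ 2 ∂P - ∫ x, φ x ^ 2 ∂Q| ≤ a * √(∫ x, φ x ^ 2 ∂P) + a ^ 2 := by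
  refine (h _ (hm.pow_const 2) (sqb hb)).trans ?_
  gcongr
  · exact int1 P ((hm.pow_const 2).pow_const 2) (sqb (sqb hb))
  · exact int1 P (hm.pow_const 2) (sqb hb)
  · intro x
    have := sqb hb x
    rw [abs_of_nonneg (sq_nonneg _)] at this
    show (φ x ^ 2) ^ 2 ≤ φ x ^ 2
    nlinarith [sq_nonneg (φ x)]

theorem cs {Ω : Type} [MeasurableSpace Ω] (μ : Measure Ω) {e h : Ω → ℝ} (he : ∀ ω, 0 ≤ e ω)
    (hh : ∀ ω, 0 ≤ h ω) (i1 : Integrable (fun ω => e ω ^ 2) μ) (i2 : Integrable h μ)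
    (i3 : Integrable (fun ω => e ω * √(h ω)) μ) {e0 : ℝ} (h0 : 0 ≤ e0)
    (hs : ∫ ω, e ω ^ 2 ∂μ ≤ e0 ^ 2) : ∫ ω, e ω * √(h ω) ∂μ ≤ e0 * √(∫ ω, h ω ∂μ) := by
  have H0 : 0 ≤ ∫ ω, h ω ∂μ := integral_nonneg hh
  have key : ∀ A B : ℝ, 0 < A → 0 < B → e0 ≤ A → √(∫ ω, h ω ∂μ) ≤ B →
      ∫ ω, e ω * √(h ω) ∂μ ≤ A * B := fun A B hA hB h1 h2 => by
    have h3 : ∫ ω, h ω ∂μ ≤ B ^ 2 := by
      rw [← Real.sq_sqrt H0]; gcongr
    have h4 : ∫ ω, e ω ^ 2 ∂μ ≤ A ^ 2 := hs.trans (by gcongr)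
    calc _ ≤ ∫ ω, (B / (2 * A) * e ω ^ 2 + A / (2 * B) * h ω) ∂μ := by
          refine integral_mono i3 ((i1.const_mul _).add (i2.const_mul _)) fun ω => ?_
          have h5 := Real.sq_sqrt (hh ω)
          have : B / (2 * A) * e ω ^ 2 + A / (2 * B) * h ω - e ω * √(h ω) =
              (B * e ω - A * √(h ω)) ^ 2 / (2 * A * B) := by
            field_simp; rw [sub_sq, mul_pow A, h5]; ring
          have h6 : 0 ≤ (B * e ω - A * √(h ω)) ^ 2 / (2 * A * B) := by positivity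
          show e ω * √(h ω) ≤ B / (2 * A) * e ω ^ 2 + A / (2 * B) * h ω
          linarith
      _ = B / (2 * A) * ∫ ω, e ω ^ 2 ∂μ + A / (2 * B) * ∫ ω, h ω ∂μ := by
          rw [integral_add (i1.const_mul _) (i2.const_mul _), integral_const_mul, integral_const_mul]
      _ ≤ B / (2 * A) * A ^ 2 + A / (2 * B) * B ^ 2 := by gcongr
      _ = A * B := by field_simp; ring
  have hc : Continuous fun t : ℝ => (e0 + t) * (√(∫ ω, h ω ∂μ) + t) := by fun_prop
  have ht := (hc.tendsto 0).mono_left (nhdsWithin_le_nhds (s := Set.Ioi 0))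
  simp only [add_zero] at ht
  refine ge_of_tendsto ht (eventually_nhdsWithin_of_forall fun t (h : 0 < t) => ?_)
  exact key _ _ (by linarith) (by positivity) (by linarith) (by linarith)

end Relm

open Relm in
theorem relApi : RelApi where
  tri X _ P Q S _ _ _ a b ha hb h1 h2 φ hm hφ := by
    have e1 := h1 φ hm hφ
    have e2 := h2 φ hm hφ
    have e3 := (abs_le.mp (sq_le P Q ha h1 hm hφ)).1
    have p0 : 0 ≤ ∫ x, φ x ^ 2 ∂P := integral_nonneg fun x => sq_nonneg _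
    have s0 := Real.sqrt_nonneg (∫ x, φ x ^ 2 ∂P)
    have e4 : √(∫ x, φ x ^ 2 ∂Q) ≤ √(∫ x, φ x ^ 2 ∂P) + a := by
      refine Real.sqrt_le_iff.mpr ⟨by positivity, ?_⟩
      nlinarith [Real.sq_sqrt p0, mul_nonneg ha s0]
    have e5 := mul_le_mul_of_nonneg_left e4 hb
    have e6 := abs_sub_le (∫ x, φ x ∂P) (∫ x, φ x ∂Q) (∫ x, φ x ∂S)
    nlinarith [mul_nonneg ha hb]
  symm X _ P Q _ _ a ha h1 φ hm hφ := by
    have e1 := h1 φ hm hφ
    have e3 := (abs_le.mp (sq_le P Q ha h1 hm hφ)).2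
    have p0 : 0 ≤ ∫ x, φ x ^ 2 ∂P := integral_nonneg fun x => sq_nonneg _
    have q0 : 0 ≤ ∫ x, φ x ^ 2 ∂Q := integral_nonneg fun x => sq_nonneg _
    have s0 := Real.sqrt_nonneg (∫ x, φ x ^ 2 ∂P)
    have t0 := Real.sqrt_nonneg (∫ x, φ x ^ 2 ∂Q)
    have e4 : √(∫ x, φ x ^ 2 ∂P) ≤ √(∫ x, φ x ^ 2 ∂Q) + 2 * a := by
      by_contra hc
      push Not at hc
      nlinarith [Real.sq_sqrt p0, Real.sq_sqrt q0, mul_nonneg ha s0, mul_nonneg ha t0]
    have e5 := mul_le_mul_of_nonneg_left e4 ha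
    rw [abs_sub_comm]
    nlinarith [mul_nonneg ha t0]
  mono X _ P Q a b ha hab h φ hm hφ := (h φ hm hφ).trans (by gcongr)
  triv X _ P Q _ _ φ hm hφ := by
    have e1 := abs_int P hφ
    have e2 := abs_int Q hφ
    have e3 := abs_sub (∫ x, φ x ∂P) (∫ x, φ x ∂Q)
    have s0 := Real.sqrt_nonneg (∫ x, φ x ^ 2 ∂P)
    linarith
  tv X _ P Q e he h φ hm hφ := (h φ hm hφ).trans (le_add_of_nonneg_left (by positivity))
  map X Y _ _ P Q e f hf h φ hm hφ := by
    rw [integral_map hf.aemeasurable hm.aestronglyMeasurable,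
      integral_map hf.aemeasurable hm.aestronglyMeasurable,
      integral_map hf.aemeasurable (hm.pow_const 2).aestronglyMeasurable]
    exact h _ (hm.comp hf) fun x => hφ _
  mix Ω S S' Y _ _ _ _ μ ν ν' _ _ _ f f' e e0 hf hf' he he0 h0 h hn φ hm hφ := by
    have j1 := int1 (μ.prod ν) (hm.comp hf) fun x => hφ _
    have j2 := int1 (μ.prod ν') (hm.comp hf') fun x => hφ _
    have j3 := int1 (μ.prod ν) ((hm.comp hf).pow_const 2) (sqb fun x => hφ _)
    simp only [Function.comp_def] at j1 j2 j3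
    rw [integral_map hf.aemeasurable hm.aestronglyMeasurable,
      integral_map hf'.aemeasurable hm.aestronglyMeasurable,
      integral_map hf.aemeasurable (hm.pow_const 2).aestronglyMeasurable,
      integral_prod _ j1, integral_prod _ j2, integral_prod _ j3,
      ← integral_sub j1.integral_prod_left j2.integral_prod_left]
    have hp : ∀ ω, |∫ s, φ (f (ω, s)) ∂ν - ∫ s, φ (f' (ω, s)) ∂ν'| ≤
        e ω * √(∫ s, φ (f (ω, s)) ^ 2 ∂ν) + e ω ^ 2 := fun ω => by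
      have m1 : Measurable fun s => f (ω, s) := hf.comp measurable_prodMk_left
      have m2 : Measurable fun s => f' (ω, s) := hf'.comp measurable_prodMk_left
      have := h ω φ hm hφ
      rwa [integral_map m1.aemeasurable hm.aestronglyMeasurable,
        integral_map m2.aemeasurable hm.aestronglyMeasurable,
        integral_map m1.aemeasurable (hm.pow_const 2).aestronglyMeasurable] at this
    have me : MemLp e 2 μ := ⟨he.aestronglyMeasurable, hn.trans_lt ENNReal.ofReal_lt_top⟩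
    have i1 : Integrable (fun ω => e ω ^ 2) μ := me.integrable_sq
    have hs : ∫ ω, e ω ^ 2 ∂μ ≤ e0 ^ 2 := by
      rw [me.eLpNorm_eq_integral_rpow_norm (by norm_num) (by norm_num),
        ENNReal.ofReal_le_ofReal_iff h0] at hn
      simp only [ENNReal.toReal_ofNat, Real.rpow_two, Real.norm_eq_abs, sq_abs] at hn
      have p0 : 0 ≤ ∫ ω, e ω ^ 2 ∂μ := integral_nonneg fun x => sq_nonneg _
      have := pow_le_pow_left₀ (by positivity) hn 2
      rwa [← Real.rpow_natCast, ← Real.rpow_mul p0, show (2 : ℝ)⁻¹ * (2 : ℕ) = 1 by norm_num,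
        Real.rpow_one] at this
    have hh : ∀ ω, 0 ≤ ∫ s, φ (f (ω, s)) ^ 2 ∂ν := fun ω => integral_nonneg fun x => sq_nonneg _
    have i2 := j3.integral_prod_left
    have i3 : Integrable (fun ω => e ω * √(∫ s, φ (f (ω, s)) ^ 2 ∂ν)) μ := by
      refine (me.integrable one_le_two).mul_bdd (c := 1)
        (Real.continuous_sqrt.comp_aestronglyMeasurable i2.1) (ae_of_all _ fun ω => ?_)
      rw [Real.norm_eq_abs, abs_of_nonneg (Real.sqrt_nonneg _), Real.sqrt_le_left zero_le_one, one_pow]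
      exact (le_abs_self _).trans (abs_int ν (sqb fun s => hφ _))
    calc _ ≤ ∫ ω, |∫ s, φ (f (ω, s)) ∂ν - ∫ s, φ (f' (ω, s)) ∂ν'| ∂μ := abs_integral_le_integral_abs
      _ ≤ ∫ ω, (e ω * √(∫ s, φ (f (ω, s)) ^ 2 ∂ν) + e ω ^ 2) ∂μ :=
          integral_mono (j1.integral_prod_left.sub j2.integral_prod_left).abs (i3.add i1) hp
      _ ≤ _ := by
          rw [integral_add i3 i1]
          exact add_le_add (cs μ he0 hh i1 i2 i3 h0 hs) hs

end Vale.Agent.P347
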