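import Vale.Agent.P347.SM
import Vale.Agent.P347.Po

open MeasureTheory ProbabilityTheory Finset
open scoped RealInnerProductSpace ENNReal

namespace Vale.Agent.P347

namespace SLm

variable {d : ℕ} {α : Measure (E d)} {L : ℝ}

lemma vb (h : Poi α L) {f : E d → ℝ} {c : Fin d → E d → ℝ} {B : ℝ}
    (hd : ∀ x, HasFDerivAt f (∑ j, c j x • innerSL ℝ (ee j)) x) (hc : ∀ j, Continuous (c j))
    (hb : ∀ j x, |c j x| ≤ B) : MemLp f 2 α ∧
      ∫ x, f x ^ 2 ∂α - (∫ x, f x ∂α) ^ 2 ≤ L ^ 2 * ∫ x, ∑ j, c j x ^ 2 ∂α := by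
  have := h.1
  have e : fderiv ℝ f = fun x => ∑ j, c j x • innerSL ℝ (ee j) := funext fun x => (hd x).fderiv
  have h1 : ContDiff ℝ 1 f := by
    refine contDiff_one_iff_fderiv.2 ⟨fun x => (hd x).differentiableAt, ?_⟩
    rw [e]
    exact continuous_finset_sum _ fun j _ => (hc j).smul continuous_const
  have h2 : LipF √(d * B ^ 2) f := fun x y => by
    refine convex_univ.norm_image_sub_le_of_norm_hasFDerivWithin_le
      (f' := fun x => ∑ j, c j x • innerSL ℝ (ee j))
      (fun z _ => (hd z).hasFDerivWithinAt) (fun z _ => ?_) (Set.mem_univ y) (Set.mem_univ x)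
    refine Real.le_sqrt_of_sq_le ?_
    rw [SMm.clm_norm]
    refine (sum_le_card_nsmul _ _ (B ^ 2) fun j _ => ?_).trans (by simp)
    exact sq_le_sq' (abs_le.1 (hb j z)).1 (abs_le.1 (hb j z)).2
  refine ⟨Pom.lipMem (a := fun x => x) h.2.1 h2, ?_⟩
  have := h.2.2.2 f _ h1 h2
  simpa only [e, SMm.clm_norm] using this

lemma cen [IsProbabilityMeasure α] {f : E d → ℝ} (hf : MemLp f 2 α) :
    ∫ x, (f x - ∫ y, f y ∂α) ^ 2 ∂α = ∫ x, f x ^ 2 ∂α - (∫ x, f x ∂α) ^ 2 := by
  set m := ∫ y, f y ∂α with hm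
  have a1 := hf.integrable_sq
  have a2 := hf.integrable one_le_two
  have e : ∀ x, (f x - m) ^ 2 = f x ^ 2 - 2 * m * f x + m ^ 2 := fun x => by ring
  have b1 : Integrable (fun x => f x ^ 2 - 2 * m * f x) α := a1.sub (a2.const_mul _)
  simp only [e]
  rw [integral_add b1 (integrable_const _), integral_sub a1 (a2.const_mul _), integral_const_mul]
  simp only [integral_const, probReal_univ, smul_eq_mul, one_mul, ← hm]
  ring

lemma cs (h : Poi α L) {g : E d → ℝ} (hg : MemLp g 2 α) (u : E d) (t : ℝ) :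
    2 * t * ∫ x, ⟪u, x⟫ * g x ∂α ≤ t ^ 2 * Cv α u u + (∫ x, g x ^ 2 ∂α - (∫ x, g x ∂α) ^ 2) := by
  have := h.1
  rw [← cen hg]
  set m := ∫ y, g y ∂α with hm
  have u2 : MemLp (fun x : E d => ⟪u, x⟫) 2 α := h.2.1.const_inner u
  have g2 : MemLp (fun x => g x - m) 2 α := by
    have := hg.sub (memLp_const m)
    exact this
  have a1 : Integrable (fun x => ⟪u, x⟫ * g x) α := u2.integrable_mul hg
  have a2 : Integrable (fun x : E d => ⟪u, x⟫ * m) α := (u2.integrable one_le_two).mul_const m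
  have e : ∫ x, ⟪u, x⟫ * g x ∂α = ∫ x, (⟪u, x⟫ * g x - ⟪u, x⟫ * m) ∂α := by
    rw [integral_sub a1 a2, integral_mul_const, Pom.mean1 h]; ring
  have a3 : Integrable (fun x => ⟪u, x⟫ * g x - ⟪u, x⟫ * m) α := a1.sub a2
  have i := (Pom.i2 h u u).const_mul (t ^ 2)
  rw [e, Cv, ← integral_const_mul, ← integral_const_mul, ← integral_add i g2.integrable_sq]
  refine integral_mono (a3.const_mul _) (i.add g2.integrable_sq) fun x => ?_
  simp only
  nlinarith [sq_nonneg (t * ⟪u, x⟫ - (g x - m))]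

end SLm

open SLm in
theorem stmtSL (hPo : StmtPo) : StmtSL := by
  intro d α L h h' h'' B hα hd hd' hc hb hb'
  have := hα.1
  have c' : ∀ i j, Continuous (h' i j) := fun i j =>
    continuous_iff_continuousAt.2 fun x => (hd' i j x).continuousAt
  set m : Fin d → Fin d → ℝ := fun i j => ∫ x, h' i j x ∂α with hm
  have mb : ∀ i j, |m i j| ≤ B := fun i j => by
    simpa using norm_integral_le_of_norm_le_const (μ := α) (f := h' i j) (C := B)
      (ae_of_all _ fun x => hb i j x)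
  have v2 := fun i j => vb hα (hd' i j) (hc i j) (hb' i j)
  have v0 := fun i => vb hα (hd i) (c' i) (hb i)
  set g : Fin d → E d → ℝ := fun i x => h i x - ∑ j, m i j * ⟪ee j, x⟫ with hg
  have gd : ∀ i x, HasFDerivAt (g i) (∑ j, (h' i j x - m i j) • innerSL ℝ (ee j)) x := fun i x => by
    have k : HasFDerivAt (fun x : E d => ∑ j, m i j * ⟪ee j, x⟫) (∑ j, m i j • innerSL ℝ (ee j)) x :=
      HasFDerivAt.fun_sum fun j _ => ((innerSL ℝ (ee j : E d)).hasFDerivAt (x := x)).const_mul (m i j)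
    refine ((hd i x).sub k).congr_fderiv ?_
    simp only [sub_smul, sum_sub_distrib]
  have v1 := fun i => vb hα (B := B + B) (gd i) (fun j => (c' i j).sub continuous_const)
    fun j x => (abs_sub _ _).trans (add_le_add (hb i j x) (mb i j))
  have i3 : ∀ i j, Integrable (fun x => ∑ k, h'' i j k x ^ 2) α := fun i j =>
    integrable_finset_sum _ fun k _ => (integrable_const (B ^ 2)).mono'
      ((hc i j k).pow 2).aestronglyMeasurable (ae_of_all _ fun x => by
        rw [Real.norm_eq_abs, abs_of_nonneg (sq_nonneg _)]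
        exact sq_le_sq' (abs_le.1 (hb' i j k x)).1 (abs_le.1 (hb' i j k x)).2)
  set H := ∫ x, ∑ i, ∑ j, ∑ k, h'' i j k x ^ 2 ∂α with hH
  have H0 : 0 ≤ H := integral_nonneg fun x => by positivity
  have eH : H = ∑ i, ∑ j, ∫ x, ∑ k, h'' i j k x ^ 2 ∂α := by
    rw [hH, integral_finset_sum _ fun i _ => integrable_finset_sum _ fun j _ => i3 i j]
    exact sum_congr rfl fun i _ => integral_finset_sum _ fun j _ => i3 i j
  have V : ∑ i, (∫ x, g i x ^ 2 ∂α - (∫ x, g i x ∂α) ^ 2) ≤ L ^ 2 * (L ^ 2 * H) := by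
    rw [eH, mul_sum, mul_sum]
    refine sum_le_sum fun i _ => (v1 i).2.trans (mul_le_mul_of_nonneg_left ?_ (sq_nonneg L))
    have k : ∀ j, MemLp (fun x => h' i j x - m i j) 2 α := fun j => by
      have := (v2 i j).1.sub (memLp_const (m i j))
      exact this
    rw [integral_finset_sum _ fun j _ => (k j).integrable_sq, mul_sum]
    refine sum_le_sum fun j _ => ?_
    rw [hm, SLm.cen (v2 i j).1]
    exact (v2 i j).2
  have A : ∑ i, Cv α (ee i) (ee i) ≤ L ^ 2 * d := by
    rw [← Pom.trace hα]; exact (hPo d).m2 α L hα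
  have eS : ∑ i, ∫ x, ⟪ee i, x⟫ * h i x ∂α - ∑ i, ∑ j, Cv α (ee i) (ee j) * m i j =
      ∑ i, ∫ x, ⟪ee i, x⟫ * g i x ∂α := by
    rw [← sum_sub_distrib]
    refine sum_congr rfl fun i _ => ?_
    have a1 : Integrable (fun x => ⟪ee i, x⟫ * h i x) α := (hα.2.1.const_inner _).integrable_mul (v0 i).1
    have a2 : ∀ j, Integrable (fun x : E d => ⟪ee i, x⟫ * ⟪ee j, x⟫ * m i j) α := fun j =>
      (Pom.i2 hα _ _).mul_const _
    simp only [Cv, ← integral_mul_const]
    rw [← integral_finset_sum _ fun j _ => a2 j, ← integral_sub a1 (integrable_finset_sum _ fun j _ => a2 j)]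
    refine integral_congr_ae (ae_of_all _ fun x => ?_)
    simp only [hg, mul_sub, mul_sum]
    congr 1
    exact sum_congr rfl fun j _ => by ring
  rw [eS]
  set S := ∑ i, ∫ x, ⟪ee i, x⟫ * g i x ∂α with hS
  have q : ∀ t : ℝ, 0 ≤ L ^ 2 * d * (t * t) + -(2 * S) * t + L ^ 2 * (L ^ 2 * H) := fun t => by
    have k := sum_le_sum (s := univ) fun i _ => cs hα (v1 i).1 (ee i) t
    rw [← mul_sum, sum_add_distrib, ← mul_sum, ← hS] at k
    nlinarith [mul_le_mul_of_nonneg_left A (sq_nonneg t)]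
  have r := discrim_le_zero q
  rw [discrim] at r
  refine abs_le_of_sq_le_sq ?_ (by positivity)
  rw [mul_pow, mul_pow, Real.sq_sqrt H0, Real.sq_sqrt (Nat.cast_nonneg d), ← pow_mul,
    show 3 * 2 = 2 * 3 from rfl, pow_mul, sq_abs]
  nlinarith

end Vale.Agent.P347
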