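import Vale.Agent.P347.Spec2
import Vale.Agent.P347.L2
import Vale.Agent.P347.GC
import Vale.Agent.P347.IBP

open MeasureTheory ProbabilityTheory Finset
open scoped RealInnerProductSpace ENNReal

namespace Vale.Agent.P347

namespace SMm

open L2m

variable {d : ℕ}

lemma expand (L : E d →L[ℝ] ℝ) : L = ∑ i, L (ee i) • innerSL ℝ (ee i) := by
  ext v
  have hv : v = ∑ i, v i • (ee i : E d) := by
    ext j
    simp [ee, Finset.sum_apply, Pi.single_apply]
  conv_lhs => rw [hv]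
  simp [ee, map_sum, EuclideanSpace.inner_single_left, mul_comm]

lemma nsq (c : Fin d → ℝ) : ‖∑ i, c i • (ee i : E d)‖ ^ 2 = ∑ i, c i ^ 2 := by
  rw [EuclideanSpace.real_norm_sq_eq]
  refine sum_congr rfl fun j _ => ?_
  simp [ee, Finset.sum_apply, Pi.single_apply]

lemma clm_eq (c : Fin d → ℝ) :
    (∑ i, c i • innerSL ℝ (ee i : E d)) = innerSL ℝ (∑ i, c i • (ee i : E d)) := by
  ext v; simp [sum_inner, inner_smul_left]

lemma clm_norm (c : Fin d → ℝ) : ‖∑ i, c i • innerSL ℝ (ee i : E d)‖ ^ 2 = ∑ i, c i ^ 2 := by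
  rw [clm_eq, innerSL_apply_norm, nsq]

lemma nee (i : Fin d) : ‖(ee i : E d)‖ = 1 := by simp [ee]

lemma B0 {φ : E d → ℝ} {B : ℝ} (h : ∀ x, |φ x| ≤ B * (1 + ‖x‖)) : 0 ≤ B := by
  have := (abs_nonneg _).trans (h 0)
  simpa using this

lemma gr {φ : E d → ℝ} {B : ℝ} (h : ∀ x, |φ x| ≤ B * (1 + ‖x‖)) (x : E d) (s : ℝ) (g : E d) :
    |φ (x + s • g)| ≤ B * (1 + ‖x‖) * (1 + |s| * ‖g‖) := by
  have h0 := B0 h
  have h1 : ‖x + s • g‖ ≤ ‖x‖ + |s| * ‖g‖ := by
    have := norm_add_le x (s • g); rwa [norm_smul, Real.norm_eq_abs] at this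
  have h2 : 0 ≤ ‖x‖ * (|s| * ‖g‖) := by positivity
  calc _ ≤ B * (1 + ‖x + s • g‖) := h _
    _ ≤ B * ((1 + ‖x‖) * (1 + |s| * ‖g‖)) := by gcongr; nlinarith
    _ = _ := by ring

lemma i1 (h : Gau1 d) (s : ℝ) : Integrable (fun g : E d => 1 + s * ‖g‖) (gs d) :=
  (integrable_const _).add ((by simpa using h.i2 1 : Integrable (fun x : E d => ‖x‖) (gs d)).const_mul s)

lemma i2 (h : Gau1 d) (s : ℝ) : Integrable (fun g : E d => (1 + s * ‖g‖) * ‖g‖) (gs d) := by
  have a : Integrable (fun x : E d => ‖x‖) (gs d) := by simpa using h.i2 1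
  refine (a.add ((h.i2 2).const_mul s)).congr (ae_of_all _ fun x => ?_)
  simp only [Pi.add_apply]; ring

lemma mem (h : Gau1 d) (s : ℝ) {φ : E d → ℝ} (hφ : LG φ) (x : E d) :
    MemLp (fun g => φ (x + s • g)) 2 (gs d) := by
  obtain ⟨hm, B, hB⟩ := hφ
  have m1 : MemLp (fun g : E d => ‖g‖) 2 (gs d) :=
    (memLp_two_iff_integrable_sq continuous_norm.aestronglyMeasurable).2 (h.i2 2)
  have k1 : MemLp (fun _ : E d => (1 : ℝ)) 2 (gs d) := memLp_const 1
  have k2 : MemLp (fun g : E d => |s| * ‖g‖) 2 (gs d) := m1.const_mul |s|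
  have m0 : MemLp (fun g : E d => 1 + |s| * ‖g‖) 2 (gs d) := by
    have := k1.add k2
    exact this
  have m2 : MemLp (fun g : E d => B * (1 + ‖x‖) * (1 + |s| * ‖g‖)) 2 (gs d) := m0.const_mul _
  have m4 : Measurable fun g : E d => x + s • g := by fun_prop
  have m3 : AEStronglyMeasurable (fun g : E d => φ (x + s • g)) (gs d) :=
    (hm.comp m4).aestronglyMeasurable
  have hle : ∀ g : E d, ‖φ (x + s • g)‖ ≤ B * (1 + ‖x‖) * (1 + |s| * ‖g‖) := fun g => by
    rw [Real.norm_eq_abs]; exact gr hB x s g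
  exact MemLp.mono' (f := fun g : E d => φ (x + s • g)) m2 m3 (ae_of_all _ hle)

lemma bessel {f : E d → ℝ} (hf : MemLp f 2 (gs d)) :
    ∑ i, (∫ g, f g * ⟪ee i, g⟫ ∂gs d) ^ 2 ≤ ∫ g, f g ^ 2 ∂gs d - (∫ g, f g ∂gs d) ^ 2 := by
  set c : Fin d → ℝ := fun i => ∫ g, f g * ⟪ee i, g⟫ ∂gs d with hc
  set m := ∫ g, f g ∂gs d with hm
  set v : E d := ∑ i, c i • ee i with hv
  have a1 : Integrable (fun g => f g ^ 2) (gs d) := hf.integrable_sq
  have a2 : Integrable f (gs d) := hf.integrable one_le_two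
  have a3 : ∀ u : E d, Integrable (fun g => f g * ⟪u, g⟫) (gs d) := fun u => hf.integrable_mul (mI u)
  have a4 : Integrable (fun g => ⟪v, g⟫) (gs d) := (mI v).integrable one_le_two
  have a5 : Integrable (fun g => ⟪v, g⟫ ^ 2) (gs d) := (mI v).integrable_sq
  have e1 : ∫ g, f g * ⟪v, g⟫ ∂gs d = ∑ i, c i ^ 2 := by
    have : ∀ g, f g * ⟪v, g⟫ = ∑ i, c i * (f g * ⟪ee i, g⟫) := fun g => by
      rw [hv, sum_inner, mul_sum]
      exact sum_congr rfl fun i _ => by rw [real_inner_smul_left]; ring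
    simp only [this]
    rw [integral_finset_sum _ fun i _ => (a3 _).const_mul _]
    exact sum_congr rfl fun i _ => by rw [integral_const_mul, sq]
  have e2 : ∫ g, ⟪v, g⟫ ^ 2 ∂gs d = ∑ i, c i ^ 2 := by rw [iI2, hv, nsq]
  have e0 : 0 ≤ ∫ g, (f g - m - ⟪v, g⟫) ^ 2 ∂gs d := integral_nonneg fun _ => sq_nonneg _
  have e3 : ∀ g, (f g - m - ⟪v, g⟫) ^ 2 = (f g ^ 2 - 2 * m * f g + m ^ 2) +
      (⟪v, g⟫ ^ 2 - 2 * (f g * ⟪v, g⟫) + 2 * m * ⟪v, g⟫) := fun g => by ring
  simp only [e3] at e0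
  have b1 : Integrable (fun g => f g ^ 2 - 2 * m * f g) (gs d) := a1.sub (a2.const_mul _)
  have b2 : Integrable (fun g => f g ^ 2 - 2 * m * f g + m ^ 2) (gs d) := b1.add (integrable_const _)
  have b3 : Integrable (fun g => ⟪v, g⟫ ^ 2 - 2 * (f g * ⟪v, g⟫)) (gs d) := a5.sub ((a3 v).const_mul _)
  have b4 : Integrable (fun g => ⟪v, g⟫ ^ 2 - 2 * (f g * ⟪v, g⟫) + 2 * m * ⟪v, g⟫) (gs d) :=
    b3.add (a4.const_mul _)
  rw [integral_add b2 b4, integral_add b1 (integrable_const _),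
    integral_sub a1 (a2.const_mul _), integral_add b3 (a4.const_mul _),
    integral_sub a5 ((a3 v).const_mul _), integral_const_mul, integral_const_mul,
    integral_const_mul, e1, e2, iI] at e0
  simp only [integral_const, probReal_univ, smul_eq_mul, one_mul, ← hm] at e0
  nlinarith

noncomputable def DD' (F : E d → ℝ) (u : E d) : E d →L[ℝ] ℝ :=
  ∫ g, (Lu u g * F g) • innerSL ℝ (g - u) ∂gs d

lemma dLu (u g : E d) : HasFDerivAt (fun u => Lu u g) (Lu u g • innerSL ℝ (g - u)) u := by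
  have h1 : HasFDerivAt (fun u : E d => ‖u‖ ^ 2) (2 • innerSL ℝ u) u :=
    (hasStrictFDerivAt_norm_sq u).hasFDerivAt
  have h2 : HasFDerivAt (fun u : E d => ⟪g, u⟫) (innerSL ℝ g) u := (innerSL ℝ g).hasFDerivAt
  have h3 := (h2.sub (h1.mul_const (1 / 2 : ℝ))).exp
  have e : (fun u => Lu u g) = fun u : E d => Real.exp (⟪g, u⟫ - ‖u‖ ^ 2 * (1 / 2)) := by
    funext u; rw [Lu, real_inner_comm]; congr 1; ring
  rw [e]
  refine h3.congr_fderiv ?_
  ext v
  simp [real_inner_comm, Lu, div_eq_mul_inv]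

lemma bnd {F : E d → ℝ} {B : ℝ} (hB : ∀ x, |F x| ≤ B * (1 + ‖x‖)) (u0 u g : E d)
    (hu : u ∈ Metric.ball u0 1) : ‖(Lu u g * F g) • innerSL ℝ (g - u)‖ ≤
      B * (‖u0‖ + 2) * Real.exp ((‖u0‖ + 3) * ‖g‖) := by
  have h0 := B0 hB
  have hu1 : ‖u‖ ≤ ‖u0‖ + 1 := by
    have := norm_le_insert' u u0
    rw [mem_ball_iff_norm] at hu; linarith
  have h1 : Lu u g ≤ Real.exp ((‖u0‖ + 1) * ‖g‖) := by
    rw [Lu]; apply Real.exp_le_exp.2
    have := real_inner_le_norm u g
    have h2 : ‖u‖ * ‖g‖ ≤ (‖u0‖ + 1) * ‖g‖ := by gcongr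
    nlinarith [sq_nonneg ‖u‖]
  have h2 : 1 + ‖g‖ ≤ Real.exp ‖g‖ := by linarith [Real.add_one_le_exp ‖g‖]
  have h3 : ‖g - u‖ ≤ (‖u0‖ + 2) * Real.exp ‖g‖ := by
    have := norm_sub_le g u
    have h4 : (‖u0‖ + 2) * (1 + ‖g‖) ≤ (‖u0‖ + 2) * Real.exp ‖g‖ := by gcongr
    nlinarith [norm_nonneg g, norm_nonneg u0, mul_nonneg (norm_nonneg g) (norm_nonneg u0)]
  have hL : 0 ≤ Lu u g := (Real.exp_pos _).le
  rw [norm_smul, innerSL_apply_norm, Real.norm_eq_abs, abs_mul, abs_of_nonneg hL]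
  calc _ ≤ Real.exp ((‖u0‖ + 1) * ‖g‖) * (B * Real.exp ‖g‖) * ((‖u0‖ + 2) * Real.exp ‖g‖) := by
        gcongr
        exact (hB g).trans (by gcongr)
    _ = _ := by
        rw [show (‖u0‖ + 3) * ‖g‖ = (‖u0‖ + 1) * ‖g‖ + ‖g‖ + ‖g‖ by ring, Real.exp_add, Real.exp_add]
        ring

lemma msr {F : E d → ℝ} (hm : Measurable F) (u : E d) :
    AEStronglyMeasurable (fun g => (Lu u g * F g) • innerSL ℝ (g - u)) (gs d) :=
  ((cL u).measurable.mul hm).aestronglyMeasurable.smul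
    (Continuous.aestronglyMeasurable (by fun_prop))

lemma hasD (h : Gau1 d) {F : E d → ℝ} (hF : LG F) (u : E d) :
    HasFDerivAt (fun u => ∫ g, Lu u g * F g ∂gs d) (DD' F u) u := by
  have hmem := mem h 1 hF 0
  simp only [one_smul, zero_add] at hmem
  obtain ⟨hm, B, hB⟩ := hF
  refine hasFDerivAt_integral_of_dominated_of_fderiv_le (Metric.ball_mem_nhds u one_pos)
    (F' := fun u g => (Lu u g * F g) • innerSL ℝ (g - u))
    (Filter.Eventually.of_forall fun v => ((cL v).measurable.mul hm).aestronglyMeasurable)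
    ((mL h u).integrable_mul hmem) (msr hm u)
    (ae_of_all _ fun g v hv => bnd hB u v g hv) ((GCm.intE h _).const_mul _)
    (ae_of_all _ fun g v _ => ?_)
  refine ((dLu v g).mul_const (F g)).congr_fderiv ?_
  rw [smul_smul, mul_comm]

lemma contD (h : Gau1 d) {F : E d → ℝ} (hF : LG F) : Continuous (DD' F) := by
  obtain ⟨hm, B, hB⟩ := hF
  refine continuous_iff_continuousAt.2 fun u => ?_
  refine continuousAt_of_dominated (Filter.Eventually.of_forall fun v => msr hm v)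
    (Filter.mem_of_superset (Metric.ball_mem_nhds u one_pos) fun v hv =>
      ae_of_all _ fun g => bnd hB u v g hv) ((GCm.intE h _).const_mul _) (ae_of_all _ fun g => ?_)
  refine Continuous.continuousAt ?_
  unfold Lu; fun_prop

lemma lgF {φ : E d → ℝ} (hφ : LG φ) (s : ℝ) : LG fun g => φ (s • g) := by
  obtain ⟨hm, B, hB⟩ := hφ
  refine ⟨hm.comp (by fun_prop), B * (1 + |s|), fun g => ?_⟩
  have := gr hB 0 s g
  simp only [zero_add, norm_zero, add_zero, mul_one] at this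
  have h0 := B0 hB
  refine this.trans ?_
  rw [mul_assoc]
  gcongr
  nlinarith [abs_nonneg s, norm_nonneg g]

lemma SS_eq (h : Gau1 d) {s : ℝ} (hs : 0 < s) {φ : E d → ℝ} (hφ : LG φ) (x : E d) :
    SS s φ x = ∫ g, Lu (s⁻¹ • x) g * φ (s • g) ∂gs d := by
  rw [← shift h _ (lgF hφ s).1, SS]
  refine integral_congr_ae (ae_of_all _ fun g => ?_)
  simp only [smul_add, smul_inv_smul₀ hs.ne', add_comm]

lemma Si_eq (h : Gau1 d) {s : ℝ} (hs : 0 < s) {φ : E d → ℝ} (hφ : LG φ) (i : Fin d) (x : E d) :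
    Si s i φ x = s⁻¹ * DD' (fun g => φ (s • g)) (s⁻¹ • x) (ee i) := by
  obtain ⟨hm, B, hB⟩ := lgF hφ s
  have hi : Integrable (fun g => (Lu (s⁻¹ • x) g * φ (s • g)) • innerSL ℝ (g - s⁻¹ • x)) (gs d) :=
    ((GCm.intE h _).const_mul _).mono' (msr hm _)
      (ae_of_all _ fun g => bnd hB _ _ g (Metric.mem_ball_self one_pos))
  rw [Si, DD', ContinuousLinearMap.integral_apply hi]
  congr 1
  have := shift h (s⁻¹ • x) (F := fun g => φ (s • g) * ⟪ee i, g - s⁻¹ • x⟫) (hm.mul (by fun_prop))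
  simp only [smul_add, smul_inv_smul₀ hs.ne', add_sub_cancel_right] at this
  simp only [add_comm x]
  rw [this]
  refine integral_congr_ae (ae_of_all _ fun g => ?_)
  simp only [smul_apply, innerSL_apply_apply, smul_eq_mul, real_inner_comm (ee i)]
  ring

lemma der (h : Gau1 d) {s : ℝ} (hs : 0 < s) {φ : E d → ℝ} (hφ : LG φ) (x : E d) :
    HasFDerivAt (SS s φ) (∑ i, Si s i φ x • innerSL ℝ (ee i)) x := by
  have h1 := (hasD h (lgF hφ s) (s⁻¹ • x)).comp x
    ((hasFDerivAt_id x).const_smul s⁻¹)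
  have e : SS s φ = (fun u => ∫ g, Lu u g * φ (s • g) ∂gs d) ∘ fun x => s⁻¹ • id x :=
    funext fun y => SS_eq h hs hφ y
  rw [e]
  refine h1.congr_fderiv ?_
  rw [expand (ContinuousLinearMap.comp _ _)]
  refine sum_congr rfl fun i _ => ?_
  rw [Si_eq h hs hφ]
  simp

lemma cont (h : Gau1 d) {s : ℝ} (hs : 0 < s) {φ : E d → ℝ} (hφ : LG φ) (i : Fin d) :
    Continuous (Si s i φ) := by
  rw [funext (Si_eq h hs hφ i)]
  exact continuous_const.mul (((contD h (lgF hφ s)).comp (by fun_prop)).clm_apply continuous_const)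

lemma ine (i : Fin d) (g : E d) : |⟪ee i, g⟫| ≤ ‖g‖ := by
  have := abs_real_inner_le_norm (ee i) g
  rwa [nee, one_mul] at this

lemma bes (h : Gau1 d) {s : ℝ} (hs : 0 < s) {φ : E d → ℝ} (hφ : LG φ) (x : E d) :
    ∑ i, Si s i φ x ^ 2 ≤ (∫ g, φ (x + s • g) ^ 2 ∂gs d - SS s φ x ^ 2) / s ^ 2 := by
  have := bessel (mem h s hφ x)
  simp only [Si, mul_pow, ← mul_sum, SS]
  rw [div_eq_inv_mul, inv_pow]
  gcongr

lemma bd0 (h : Gau1 d) {s b : ℝ} (hs : 0 < s) {φ : E d → ℝ} (hm : Measurable φ)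
    (hb : ∀ x, |φ x| ≤ b) (x : E d) : ∑ i, Si s i φ x ^ 2 ≤ (b / s) ^ 2 := by
  have b0 : 0 ≤ b := (abs_nonneg _).trans (hb 0)
  have hφ : LG φ := ⟨hm, b, fun y => (hb y).trans (by nlinarith [norm_nonneg y])⟩
  refine (bes h hs hφ x).trans ?_
  rw [div_pow]
  gcongr
  have : ∫ g, φ (x + s • g) ^ 2 ∂gs d ≤ b ^ 2 := by
    have := integral_mono (mem h s hφ x).integrable_sq (integrable_const (b ^ 2))
      (fun g => sq_le_sq' (abs_le.1 (hb (x + s • g))).1 (abs_le.1 (hb (x + s • g))).2)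
    simpa using this
  nlinarith [sq_nonneg (SS s φ x)]

lemma bd1 (h : Gau1 d) {s b : ℝ} (hs : 0 < s) {φ : E d → ℝ} (hm : Measurable φ)
    (hb : ∀ x, |φ x| ≤ b) (i : Fin d) (x : E d) : |Si s i φ x| ≤ b / s := by
  have b0 : 0 ≤ b := (abs_nonneg _).trans (hb 0)
  exact abs_le_of_sq_le_sq' (le_trans (single_le_sum (f := fun i => Si s i φ x ^ 2)
    (fun _ _ => sq_nonneg _) (mem_univ i)) (bd0 h hs hm hb x)) (by positivity) |> abs_le.2

lemma lgl {K : ℝ} {φ : E d → ℝ} (hL : LipF K φ) : LG φ ∧ Continuous φ := by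
  have hc : Continuous φ := (LipschitzWith.of_dist_le_mul (K := ⟨|K|, abs_nonneg K⟩) fun x y => by
    rw [dist_eq_norm, dist_eq_norm]; exact IBPm.lip_abs hL x y).continuous
  refine ⟨⟨hc.measurable, ‖φ 0‖ + |K|, fun x => ?_⟩, hc⟩
  have := IBPm.grow hL x
  rw [Real.norm_eq_abs] at this
  nlinarith [norm_nonneg (φ 0), abs_nonneg K, norm_nonneg x,
    mul_nonneg (norm_nonneg (φ 0)) (norm_nonneg x)]

end SMm

open SMm L2m in
theorem stmtSM (h1 : StmtG1) (h2 : StmtG2) (hIBP : StmtIBP) : StmtSM := fun d => by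
  have h := h1 d
  refine ⟨fun s φ hs hφ => ?_, fun s φ hs hφ => der h hs hφ, fun s φ hs hφ => cont h hs hφ,
    fun s s' φ hs hs' hφ i => ?_, fun s s' φ hφ => ?_, fun s φ hφ => mem h s hφ,
    fun s φ hs hφ => bes h hs hφ, fun s b φ hs hm hb => ?_, fun s K φ hs hK hL => ?_,
    fun s K φ hs hc hL i x => ?_⟩
  · have hφ' := hφ
    obtain ⟨hm, B, hB⟩ := hφ'
    refine ⟨⟨(continuous_iff_continuousAt.2 fun x => (der h hs hφ x).continuousAt).measurable,
      B * ∫ g, (1 + |s| * ‖g‖) ∂gs d, fun x => ?_⟩, fun i => ⟨(cont h hs hφ i).measurable,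
      s⁻¹ * (B * ∫ g, (1 + |s| * ‖g‖) * ‖g‖ ∂gs d), fun x => ?_⟩⟩
    · have := norm_integral_le_of_norm_le (f := fun g => φ (x + s • g))
        ((i1 h |s|).const_mul (B * (1 + ‖x‖))) (ae_of_all _ fun g => gr hB x s g)
      rw [integral_const_mul] at this
      calc _ ≤ _ := this
        _ = _ := by ring
    · have := norm_integral_le_of_norm_le (f := fun g => φ (x + s • g) * ⟪ee i, g⟫)
        ((i2 h |s|).const_mul (B * (1 + ‖x‖))) (ae_of_all _ fun g => by
          rw [Real.norm_eq_abs, abs_mul, ← mul_assoc]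
          exact mul_le_mul (gr hB x s g) (ine i g) (abs_nonneg _)
            ((abs_nonneg _).trans (gr hB x s g)))
      rw [integral_const_mul, Real.norm_eq_abs] at this
      rw [Si, abs_mul, abs_of_pos (inv_pos.2 hs)]
      calc _ ≤ s⁻¹ * (B * (1 + ‖x‖) * ∫ g, (1 + |s| * ‖g‖) * ‖g‖ ∂gs d) := by gcongr
        _ = _ := by ring
  · obtain ⟨hm, B, hB⟩ := hφ
    funext x
    have hi : Integrable (Function.uncurry fun g g' : E d => φ (x + s • g + s' • g') * ⟪ee i, g⟫)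
        ((gs d).prod (gs d)) := by
      refine (((i2 h |s|).mul_prod (i1 h |s'|)).const_mul (B * (1 + ‖x‖))).mono'
        ((hm.comp (by fun_prop)).mul (by fun_prop)).aestronglyMeasurable (ae_of_all _ fun p => ?_)
      have a1 := gr hB (x + s • p.1) s' p.2
      have a2 : 1 + ‖x + s • p.1‖ ≤ (1 + ‖x‖) * (1 + |s| * ‖p.1‖) := by
        simpa using gr (φ := fun y : E d => 1 + ‖y‖) (B := 1)
          (fun y => by rw [abs_of_nonneg (by positivity), one_mul]) x s p.1 |> le_trans (le_abs_self _)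
      have b0 := B0 hB
      rw [Real.norm_eq_abs]
      show |φ (x + s • p.1 + s' • p.2) * ⟪ee i, p.1⟫| ≤ _
      rw [abs_mul]
      calc _ ≤ (B * ((1 + ‖x‖) * (1 + |s| * ‖p.1‖)) * (1 + |s'| * ‖p.2‖)) * ‖p.1‖ := by
            refine mul_le_mul (a1.trans ?_) (ine i _) (abs_nonneg _) (by positivity)
            gcongr
        _ = _ := by ring
    simp only [Si, SS]
    rw [integral_const_mul]
    congr 1
    simp only [← integral_mul_const]
    rw [integral_integral_swap hi]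
    refine integral_congr_ae (ae_of_all _ fun g' => integral_congr_ae (ae_of_all _ fun g => ?_))
    simp only [add_right_comm x]
  · obtain ⟨hm, B, hB⟩ := hφ
    funext x
    have hi : Integrable (fun p : E d × E d => φ (x + (s • p.1 + s' • p.2))) ((gs d).prod (gs d)) := by
      refine (((i1 h |s|).mul_prod (i1 h |s'|)).const_mul (B * (1 + ‖x‖))).mono'
        (hm.comp (by fun_prop)).aestronglyMeasurable (ae_of_all _ fun p => ?_)
      have a1 := gr hB (x + s • p.1) s' p.2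
      have a2 : 1 + ‖x + s • p.1‖ ≤ (1 + ‖x‖) * (1 + |s| * ‖p.1‖) := by
        simpa using gr (φ := fun y : E d => 1 + ‖y‖) (B := 1)
          (fun y => by rw [abs_of_nonneg (by positivity), one_mul]) x s p.1 |> le_trans (le_abs_self _)
      have b0 := B0 hB
      rw [Real.norm_eq_abs, ← add_assoc]
      calc _ ≤ B * ((1 + ‖x‖) * (1 + |s| * ‖p.1‖)) * (1 + |s'| * ‖p.2‖) := a1.trans (by gcongr)
        _ = _ := by ring
    have hm' : Measurable fun y : E d => φ (x + y) := hm.comp (by fun_prop)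
    have e1 := integral_map (μ := (gs d).prod (gs d)) (φ := fun p : E d × E d => s • p.1 + s' • p.2)
      (by fun_prop) (f := fun y => φ (x + y)) hm'.aestronglyMeasurable
    rw [(h2 d).sum, integral_map (by fun_prop) hm'.aestronglyMeasurable, integral_prod _ hi] at e1
    simp only [SS, add_assoc]
    exact e1.symm
  · have b0 : 0 ≤ b := (abs_nonneg _).trans (hb 0)
    have hφ : LG φ := ⟨hm, b, fun y => (hb y).trans (by nlinarith [norm_nonneg y])⟩
    refine ⟨fun x => ?_, bd1 h hs hm hb, fun x y => ?_⟩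
    · simpa [SS] using norm_integral_le_of_norm_le_const (μ := gs d) (f := fun g => φ (x + s • g))
        (C := b) (ae_of_all _ fun g => hb _)
    · refine convex_univ.norm_image_sub_le_of_norm_hasFDerivWithin_le
        (f' := fun x => ∑ i, Si s i φ x • innerSL ℝ (ee i))
        (fun z _ => (der h hs hφ z).hasFDerivWithinAt) (fun z _ => ?_) (Set.mem_univ y) (Set.mem_univ x)
      exact (abs_le_of_sq_le_sq' (by rw [clm_norm]; exact bd0 h hs hm hb z) (by positivity)).2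
  · obtain ⟨hφ, hc⟩ := lgl hL
    have hb : ∀ x y g : E d, |φ (x + g) - φ (y + g)| ≤ K * ‖x - y‖ := fun x y g => by
      simpa using hL (x + g) (y + g)
    refine ⟨fun x y => ?_, fun i x y => ?_⟩
    · rw [SS, SS, ← integral_sub ((mem h s hφ x).integrable one_le_two)
        ((mem h s hφ y).integrable one_le_two)]
      simpa using norm_integral_le_of_norm_le_const (μ := gs d)
        (f := fun g => φ (x + s • g) - φ (y + s • g)) (C := K * ‖x - y‖) (ae_of_all _ fun g => hb _ _ _)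
    · have := bd1 h hs (φ := fun g => φ (x + g) - φ (y + g)) (by fun_prop) (hb x y) i 0
      have c1 : ∀ x, Integrable (fun g => φ (x + s • g) * ⟪ee i, g⟫) (gs d) := fun x =>
        (mem h s hφ x).integrable_mul (mI _)
      rw [Si, Si, ← mul_sub, ← integral_sub (c1 x) (c1 y)]
      simp only [Si, zero_add] at this
      simp only [← sub_mul]
      rw [Real.norm_eq_abs]
      calc _ ≤ _ := this
        _ = _ := by ring
  · have hF : ContDiff ℝ 1 fun g : E d => φ (x + s • g) := hc.comp (by fun_prop)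
    have hL' : LipF (|K| * s) fun g : E d => φ (x + s • g) := fun g g' => by
      have := IBPm.lip_abs hL (x + s • g) (x + s • g')
      rwa [add_sub_add_left_eq_sub, ← smul_sub, norm_smul, Real.norm_eq_abs s, abs_of_pos hs,
        ← mul_assoc] at this
    have e := hIBP d _ _ (ee i) hF hL'
    have e2 : ∀ g, fderiv ℝ (fun g : E d => φ (x + s • g)) g (ee i) =
        s * fderiv ℝ φ (x + s • g) (ee i) := fun g => by
      have := ((hc.differentiable one_ne_zero) (x + s • g)).hasFDerivAt.comp g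
        (((hasFDerivAt_id g).const_smul s).const_add x)
      rw [show (fun g : E d => φ (x + s • g)) = φ ∘ fun g => x + (s • id) g from rfl, this.fderiv]
      simp
    simp only [e2, mul_comm ⟪ee i, _⟫] at e
    rw [Si, e, integral_const_mul, ← mul_assoc, inv_mul_cancel₀ hs.ne', one_mul]

end Vale.Agent.P347
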