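import Vale.Agent.P347.Po
import Vale.Agent.P347.SM

open MeasureTheory ProbabilityTheory Finset
open scoped RealInnerProductSpace ENNReal

namespace Vale.Agent.P347

noncomputable section

namespace SLbm

variable {d : ℕ} {α : Measure (E d)} {L : ℝ}

lemma cs1 {a b : E d → ℝ} (ha : MemLp a 2 α) (hb : MemLp b 2 α) :
    |∫ x, a x * b x ∂α| ≤ √(∫ x, a x ^ 2 ∂α) * √(∫ x, b x ^ 2 ∂α) := by
  have h : ∀ s : ℝ, 0 ≤ (∫ x, a x ^ 2 ∂α) * (s * s) + (2 * ∫ x, a x * b x ∂α) * s +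
      ∫ x, b x ^ 2 ∂α := by
    intro s
    have h0 : 0 ≤ ∫ x, (s * a x + b x) ^ 2 ∂α := integral_nonneg fun x => sq_nonneg _
    have e : ∀ x, (s * a x + b x) ^ 2 = a x ^ 2 * (s * s) + (2 * (a x * b x)) * s + b x ^ 2 :=
      fun x => by ring
    simp_rw [e] at h0
    have i1 : Integrable (fun x => a x ^ 2 * (s * s)) α := ha.integrable_sq.mul_const _
    have i2 : Integrable (fun x => (2 * (a x * b x)) * s) α :=
      ((ha.integrable_mul hb).const_mul _).mul_const _
    have i3 : Integrable (fun x => a x ^ 2 * (s * s) + (2 * (a x * b x)) * s) α := i1.add i2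
    rwa [integral_add i3 hb.integrable_sq, integral_add i1 i2, integral_mul_const,
      integral_mul_const, integral_const_mul] at h0
  have hd := discrim_le_zero h
  have hz : 0 ≤ ∫ x, a x ^ 2 ∂α := integral_nonneg fun x => sq_nonneg _
  rw [← Real.sqrt_mul hz]
  refine Real.abs_le_sqrt ?_
  unfold discrim at hd
  linarith

lemma poi (h : Poi α L) {f : E d → ℝ} {c : Fin d → E d → ℝ} {B : ℝ}
    (hf : ∀ x, HasFDerivAt f (∑ j, c j x • innerSL ℝ (ee j)) x) (hc : ∀ j, Continuous (c j))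
    (hB : ∀ j x, |c j x| ≤ B) :
    MemLp f 2 α ∧ ∫ x, (f x - ∫ y, f y ∂α) ^ 2 ∂α ≤ L ^ 2 * ∫ x, ∑ j, c j x ^ 2 ∂α := by
  have := h.1
  have e : fderiv ℝ f = fun x => ∑ j, c j x • innerSL ℝ (ee j : E d) := funext fun x => (hf x).fderiv
  have hC : ContDiff ℝ 1 f := by
    rw [contDiff_one_iff_fderiv, e]
    exact ⟨fun x => (hf x).differentiableAt,
      continuous_finset_sum _ fun j _ => (hc j).smul continuous_const⟩
  have hL : LipF (∑ _j : Fin d, B) f := fun x y => by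
    refine Convex.norm_image_sub_le_of_norm_fderiv_le (𝕜 := ℝ) (s := Set.univ)
      (fun z _ => (hf z).differentiableAt) (fun z _ => ?_) convex_univ (Set.mem_univ y)
      (Set.mem_univ x)
    rw [e]
    refine (norm_sum_le _ _).trans (sum_le_sum fun j _ => ?_)
    rw [norm_smul, innerSL_apply_norm, SMm.nee, mul_one]
    exact hB j z
  have hm : MemLp f 2 α := Pom.lipMem h.2.1 hL
  refine ⟨hm, ?_⟩
  have k := h.2.2.2 f _ hC hL
  simp_rw [e, SMm.clm_norm] at k
  have v := variance_eq_sub hm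
  rw [variance_eq_integral hm.aemeasurable] at v
  simp only [Pi.pow_apply] at v
  rw [v]
  exact k

lemma one (hP : Poi α L) {h : E d → ℝ} {h' : Fin d → E d → ℝ} {h'' : Fin d → Fin d → E d → ℝ} {B : ℝ}
    (d1 : ∀ x, HasFDerivAt h (∑ j, h' j x • innerSL ℝ (ee j)) x)
    (d2 : ∀ j x, HasFDerivAt (h' j) (∑ k, h'' j k x • innerSL ℝ (ee k)) x)
    (hc : ∀ j k, Continuous (h'' j k)) (b1 : ∀ j x, |h' j x| ≤ B) (b2 : ∀ j k x, |h'' j k x| ≤ B)
    (u : E d) :
    |∫ x, ⟪u, x⟫ * h x ∂α - ∑ j, Cv α u (ee j) * ∫ x, h' j x ∂α| ≤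
      √(Cv α u u) * √(L ^ 4 * ∫ x, ∑ j, ∑ k, h'' j k x ^ 2 ∂α) := by
  have := hP.1
  have c1 : ∀ j, Continuous (h' j) := fun j =>
    continuous_iff_continuousAt.2 fun x => (d2 j x).continuousAt
  have p2 := fun j => poi hP (d2 j) (hc j) (b2 j)
  have p1 := (poi hP d1 c1 b1).1
  generalize hm : (fun j => ∫ x, h' j x ∂α) = m
  have hm' : ∀ j, ∫ x, h' j x ∂α = m j := fun j => congrFun hm j
  simp_rw [hm'] at p2 ⊢
  have bm : ∀ j, |m j| ≤ B := fun j => by
    rw [← hm' j]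
    have := norm_integral_le_of_norm_le_const (μ := α) (f := h' j) (C := B)
      (Filter.Eventually.of_forall fun x => b1 j x)
    simpa using this
  have dg : ∀ x, HasFDerivAt (fun x => h x - ∑ j, m j * ⟪ee j, x⟫)
      (∑ j, (h' j x - m j) • innerSL ℝ (ee j)) x := by
    intro x
    have t : HasFDerivAt (fun x : E d => ∑ j, m j * ⟪ee j, x⟫) (∑ j, m j • innerSL ℝ (ee j : E d)) x := by
      refine ((∑ j, m j • innerSL ℝ (ee j : E d)).hasFDerivAt (x := x)).congr_of_eventuallyEq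
        (Filter.Eventually.of_forall fun y => ?_)
      simp
    refine ((d1 x).sub t).congr_fderiv ?_
    simp_rw [sub_smul, sum_sub_distrib]
  obtain ⟨mg, vg⟩ := poi hP dg (fun j => (c1 j).sub continuous_const) (B := B + B)
    fun j x => (abs_sub _ _).trans (add_le_add (b1 j x) (bm j))
  have iu : MemLp (fun x : E d => ⟪u, x⟫) 2 α := hP.2.1.const_inner u
  generalize hμ : ∫ y, (h y - ∑ j, m j * ⟪ee j, y⟫) ∂α = μ at vg
  have k := cs1 iu (mg.sub (memLp_const μ))
  have e : ∫ x, ⟪u, x⟫ * (h x - ∑ j, m j * ⟪ee j, x⟫ - μ) ∂α =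
      ∫ x, ⟪u, x⟫ * h x ∂α - ∑ j, Cv α u (ee j) * m j := by
    have e1 : (fun x : E d => ⟪u, x⟫ * (h x - ∑ j, m j * ⟪ee j, x⟫ - μ)) =
        fun x => ⟪u, x⟫ * h x - ∑ j, (⟪u, x⟫ * ⟪ee j, x⟫) * m j - ⟪u, x⟫ * μ := by
      funext x
      rw [mul_sub, mul_sub, mul_sum]
      congr 2
      exact sum_congr rfl fun j _ => by ring
    have i1 : Integrable (fun x => ⟪u, x⟫ * h x) α := iu.integrable_mul p1
    have i2 : Integrable (fun x : E d => ∑ j, (⟪u, x⟫ * ⟪ee j, x⟫) * m j) α :=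
      integrable_finsetSum _ fun j _ => (Pom.i2 hP _ _).mul_const _
    have i3 : Integrable (fun x => ⟪u, x⟫ * h x - ∑ j, (⟪u, x⟫ * ⟪ee j, x⟫) * m j) α := i1.sub i2
    rw [e1, integral_sub i3 ((iu.integrable one_le_two).mul_const _), integral_sub i1 i2,
      integral_mul_const, Pom.mean1 hP, zero_mul, sub_zero,
      integral_finsetSum _ fun j _ => (Pom.i2 hP _ _).mul_const _]
    simp_rw [integral_mul_const]
    rfl
  simp only [Pi.sub_apply] at k
  rw [e] at k
  refine k.trans (mul_le_mul (le_of_eq ?_) (Real.sqrt_le_sqrt (vg.trans ?_)) (Real.sqrt_nonneg _)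
    (Real.sqrt_nonneg _))
  · simp_rw [sq]
    rfl
  · have j1 : ∀ j, Integrable (fun x => (h' j x - m j) ^ 2) α := fun j =>
      ((p2 j).1.sub (memLp_const _)).integrable_sq
    have j2 : ∀ j, Integrable (fun x => ∑ k, h'' j k x ^ 2) α := fun j =>
      integrable_finsetSum _ fun k _ =>
        (MemLp.of_bound (hc j k).aestronglyMeasurable B
          (Filter.Eventually.of_forall fun x => b2 j k x)).integrable_sq
    rw [integral_finsetSum _ fun j _ => j1 j, integral_finsetSum _ fun j _ => j2 j,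
      show L ^ 4 = L ^ 2 * L ^ 2 by ring, mul_assoc, mul_sum _ _ (L ^ 2)]
    rw [← mul_sum]
    refine mul_le_mul_of_nonneg_left ?_ (sq_nonneg L)
    rw [mul_sum]
    exact sum_le_sum fun j _ => (p2 j).2

end SLbm

open SLbm in
theorem stmtSL (hPo : StmtPo) : StmtSL := by
  intro d α L h h' h'' B hP d1 d2 hc b1 b2
  have := hP.1
  rw [← sum_sub_distrib]
  refine (abs_sum_le_sum_abs _ _).trans ((sum_le_sum fun i _ =>
    one hP (d1 i) (d2 i) (hc i) (b1 i) (b2 i) (ee i)).trans ?_)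
  refine (Real.sum_sqrt_mul_sqrt_le _ (fun i => integral_nonneg fun x => mul_self_nonneg _)
    fun i => by positivity).trans ?_
  have j : ∀ i, Integrable (fun x => ∑ j, ∑ k, h'' i j k x ^ 2) α := fun i =>
    integrable_finsetSum _ fun j _ => integrable_finsetSum _ fun k _ =>
      (MemLp.of_bound (hc i j k).aestronglyMeasurable B
        (Filter.Eventually.of_forall fun x => b2 i j k x)).integrable_sq
  rw [← mul_sum, ← integral_finsetSum _ fun i _ => j i]
  have m := (hPo d).m2 α L hP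
  rw [Pom.trace hP] at m
  unfold Cv at m
  calc _ ≤ √(L ^ 2 * d) * √(L ^ 4 * ∫ x, ∑ i, ∑ j, ∑ k, h'' i j k x ^ 2 ∂α) := by gcongr
    _ = _ := by
      rw [Real.sqrt_mul (sq_nonneg L), Real.sqrt_mul (by positivity : 0 ≤ L ^ 4), Real.sqrt_sq_eq_abs,
        show L ^ 4 = (|L| ^ 2) ^ 2 by rw [sq_abs]; ring, Real.sqrt_sq (by positivity)]
      ring

end

end Vale.Agent.P347
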