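import Vale.Agent.P347.Defs

open MeasureTheory ProbabilityTheory Finset
open scoped RealInnerProductSpace ENNReal

namespace Vale.Agent.P347

noncomputable section

/-! ## Definitions -/

abbrev gs (d : ℕ) : Measure (E d) := stdGaussian (E d)
abbrev g3 (d : ℕ) : Measure (E d × E d × E d) := (gs d).prod ((gs d).prod (gs d))
abbrev gN (d N : ℕ) : Measure (Fin N → E d) := Measure.pi fun _ => gs d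

def Rel {X : Type} [MeasurableSpace X] (P Q : Measure X) (e : ℝ) : Prop :=
  ∀ φ : X → ℝ, Measurable φ → (∀ x, |φ x| ≤ 1) →
    |∫ x, φ x ∂P - ∫ x, φ x ∂Q| ≤ e * √(∫ x, φ x ^ 2 ∂P) + e ^ 2

variable {d : ℕ}

/-- law of `x + t ξ` with `x ∼ α`, `ξ` an independent standard Gaussian -/
def sm (α : Measure (E d)) (t : ℝ) : Measure (E d) := (α.prod (gs d)).map fun p => p.1 + t • p.2

def SG (α : Measure (E d)) (L : ℝ) : Prop :=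
  IsProbabilityMeasure α ∧ ∀ u : E d,
    ∫⁻ x, ENNReal.ofReal (Real.exp ⟪u, x⟫) ∂α ≤ ENNReal.ofReal (Real.exp (L ^ 2 * ‖u‖ ^ 2 / 2))

def Cv (α : Measure (E d)) (u v : E d) : ℝ := ∫ x, ⟪u, x⟫ * ⟪v, x⟫ ∂α

def ee (i : Fin d) : E d := EuclideanSpace.single i 1

def Fr (α β : Measure (E d)) : ℝ := ∑ i, ∑ j, (Cv α (ee i) (ee j) - Cv β (ee i) (ee j)) ^ 2

def LipF {X Y : Type} [NormedAddCommGroup X] [NormedAddCommGroup Y] (K : ℝ) (F : X → Y) : Prop :=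
  ∀ x y, ‖F x - F y‖ ≤ K * ‖x - y‖

structure Nice (ε : ℝ) (G : E d → E d) : Prop where
  lip : LipF ε G
  zero : ‖G 0‖ ≤ ε
  c1 : ContDiff ℝ 1 G
  sym : ∀ x u v, ⟪fderiv ℝ G x u, v⟫ = ⟪u, fderiv ℝ G x v⟫

def Pot (W : E d → ℝ) (G : E d → E d) : Prop := ∀ x, HasGradientAt W (G x) x

def mu (W : E d → ℝ) : Measure (E d) := (gs d).tilted fun x => -W x

def sg (τ : ℝ) : ℝ := √(1 - τ ^ 2)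

def OU (τ : ℝ) (Φ : E d → E d) (w : E d) : E d := ∫ g, Φ (τ • w + sg τ • g) ∂gs d

def AA (G : E d → E d) (ρ : ℝ) : (N : ℕ) → E d → (Fin N → E d) → E d
  | 0, _, _ => 0
  | N + 1, w, g => ρ • AA G ρ N (ρ • w + sg ρ • g 0) (Fin.tail g) +
      (1 - ρ) • G (ρ • w + sg ρ • g 0 - AA G ρ N (ρ • w + sg ρ • g 0) (Fin.tail g))

def A0 (G : E d → E d) (ρ : ℝ) : (N : ℕ) → E d → (Fin N → E d) → E d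
  | 0, _, _ => 0
  | N + 1, w, g => ρ • A0 G ρ N (ρ • w + sg ρ • g 0) (Fin.tail g) + (1 - ρ) • G (ρ • w + sg ρ • g 0)

def mA (G : E d → E d) (ρ : ℝ) (N : ℕ) (w : E d) : E d := ∫ g, AA G ρ N w g ∂gN d N
def mA0 (G : E d → E d) (ρ : ℝ) (N : ℕ) (w : E d) : E d := ∫ g, A0 G ρ N w g ∂gN d N
def Gam (G : E d → E d) (ρ : ℝ) (N : ℕ) (y : E d) : E d := ∫ g, G (y - AA G ρ N y g) ∂gN d N
def alA (G : E d → E d) (ρ : ℝ) (N : ℕ) (w : E d) : Measure (E d) :=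
  (gN d N).map fun g => mA G ρ N w - AA G ρ N w g
def al0 (G : E d → E d) (ρ : ℝ) (N : ℕ) (w : E d) : Measure (E d) :=
  (gN d N).map fun g => mA0 G ρ N w - A0 G ρ N w g

def stepM (G : E d → E d) (ρ : ℝ) (α : Measure (E d)) : Measure (E d) :=
  (α.prod (gs d)).map fun p => ρ • p.1 - (1 - ρ) • G p.1 + sg ρ • p.2

def ch (G : E d → E d) (ρ : ℝ) : ℕ → Measure (E d)
  | 0 => gs d
  | N + 1 => stepM G ρ (ch G ρ N)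

def aw (ρ : ℝ) (r : ℕ) : ℝ := (1 - ρ) * ρ ^ r

structure Par where
  J : ℕ
  om : Fin J → ℝ
  tau : Fin J → ℝ
  ka : ℝ
  de : ℝ

def Par.Ok (p : Par) : Prop :=
  (∀ j, 0 ≤ p.om j) ∧ ∑ j, p.om j ≤ 1 ∧ ∀ j, 0 ≤ p.tau j ∧ p.tau j ≤ 1

def F1 (p : Par) (G : E d → E d) (w ζ : E d) : E d :=
  ∑ j, p.om j • G (p.tau j • w + sg (p.tau j) • ζ)
def m1 (p : Par) (G : E d → E d) (w : E d) : E d := ∫ ζ, F1 p G w ζ ∂gs d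
def be1 (p : Par) (G : E d → E d) (w : E d) : Measure (E d) :=
  (gs d).map fun ζ => m1 p G w - F1 p G w ζ

abbrev S2 (d : ℕ) : Type := (ℝ × ℝ) × E d × E d × E d
abbrev S3 (d : ℕ) : Type := (ℝ × ℝ × ℝ × ℝ) × E d × E d × E d
abbrev Sw (d : ℕ) : Type := (E d × E d) × (S2 d × S3 d) × E d
abbrev Sd (d : ℕ) : Type := E d × Sw d

def b2 (p : Par) (w : E d) (a : S2 d) : E d :=
  a.1.2 • w + √(1 - p.ka ^ 2 - a.1.2 ^ 2) • a.2.1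

def F2 (p : Par) (G : E d → E d) (w : E d) (a : S2 d) : E d :=
  a.1.1 • (G (b2 p w a + p.ka • a.2.2.1 - F1 p G ((sg p.ka)⁻¹ • b2 p w a) a.2.2.2) -
    G (b2 p w a + p.ka • a.2.2.1))

def FD (G : E d → E d) (δ : ℝ) (q v : E d) : E d := δ⁻¹ • (G (q + δ • v) - G q)

def qa (x : E d) (s θ : ℝ) (z : E d × E d × E d) : E d :=
  x + s • (Real.sin θ • z.1 + Real.cos θ • z.2.1)
def qb (x : E d) (s θ : ℝ) (z : E d × E d × E d) : E d :=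
  x + s • (Real.sin θ • z.1 + Real.cos θ • z.2.2)

def HV (δ : ℝ) (G : E d → E d) (w : E d) (a : S3 d) (ξ : E d) : E d :=
  a.1.1 • FD G δ (qa (a.1.2.1 • w) (sg a.1.2.1) a.1.2.2.2 a.2)
    (FD G δ (qb (a.1.2.2.1 • w) (sg a.1.2.2.1) a.1.2.2.2 a.2) ξ)

def bb (G : E d → E d) (u v x x' : E d) (s s' θ : ℝ) : ℝ :=
  ∫ z, ⟪u, G (qa x s θ z)⟫ * ⟪v, G (qb x' s' θ z)⟫ ∂g3 d
def hh (G : E d → E d) (u v x x' : E d) (s s' θ : ℝ) : ℝ :=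
  ∫ z, ⟪u, fderiv ℝ G (qa x s θ z) (fderiv ℝ G (qb x' s' θ z) v)⟫ ∂g3 d

def primW (p : Par) (G : E d → E d) (t : ℝ) (w : E d) (s : Sw d) : E d :=
  w - F1 p G w s.1.1 - F2 p G w s.2.1.1 + t • s.1.2 + (2 * t)⁻¹ • HV p.de G w s.2.1.2 s.1.2 +
    t • s.2.2
def prim (p : Par) (G : E d → E d) (t : ℝ) (s : Sd d) : E d := primW p G t s.1 s.2

def swM (d : ℕ) (π2 : Measure (ℝ × ℝ)) (π3 : Measure (ℝ × ℝ × ℝ × ℝ)) : Measure (Sw d) :=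
  ((gs d).prod (gs d)).prod (((π2.prod (g3 d)).prod (π3.prod (g3 d))).prod (gs d))
def sdM (d : ℕ) (π2 : Measure (ℝ × ℝ)) (π3 : Measure (ℝ × ℝ × ℝ × ℝ)) : Measure (Sd d) :=
  (gs d).prod (swM d π2 π3)

def pi2 (ρ κ : ℝ) (N : ℕ) : Measure (ℝ × ℝ) :=
  ∑ r ∈ range N, ENNReal.ofReal (aw ρ r) •
      Measure.dirac (if (ρ ^ (r + 1)) ^ 2 ≤ 1 - κ ^ 2 then ((1 : ℝ), ρ ^ (r + 1)) else (0, 0)) +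
    ENNReal.ofReal (ρ ^ N) • Measure.dirac (0, 0)

/-- the bias of the second order correction -/
def bias (p : Par) (G : E d → E d) (ρ : ℝ) (N : ℕ) (π2 : Measure (ℝ × ℝ)) (w : E d) : E d :=
  mA G ρ N w - m1 p G w - ∫ a, F2 p G w a ∂π2.prod (g3 d)

def DD (G : E d → E d) (ρ : ℝ) (N : ℕ) (w : E d) : ℝ :=
  ∫ g, ‖AA G ρ N w g - A0 G ρ N w g‖ ^ 2 ∂gN d N

/-! top level -/

def cen (η : ℝ) (D : E d → E d) (y : E d) : ℕ → E d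
  | 0 => y
  | k + 1 => y - η • D (cen η D y k)

def GG (η : ℝ) (D : E d → E d) (y c z : E d) : E d := √η • D (c + √η • z) + (√η)⁻¹ • (c - y)
def WW (η : ℝ) (V : E d → ℝ) (y c z : E d) : ℝ := V (c + √η • z) + (√η)⁻¹ * ⟪c - y, z⟫

def prox (η : ℝ) (V : E d → ℝ) (y : E d) : Measure (E d) :=
  (volume : Measure (E d)).tilted fun x => -V x - ‖x - y‖ ^ 2 / (2 * η)

/-- one step of the algorithm, from smoothing level `η` to level `η'` -/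
def stp (p : Par) (η η' : ℝ) (D : E d → E d) (y : E d) (s : Sd d) : E d :=
  if η' = 0 then cen η D y 13 + √η • s.1
  else cen η D y 13 + √η • prim p (GG η D y (cen η D y 13)) √(η' / (2 * η)) s

def run {X S : Type} (y0 : X) (f : ℕ → X × S → X) : (T : ℕ) → (Fin T → S) → X
  | 0, _ => y0
  | T + 1, s => f T (run y0 f T (Fin.init s), s (Fin.last T))

def lawP {X : Type} [MeasurableSpace X] (y0 : X) (P : ℕ → X → Measure X) : ℕ → Measure X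
  | 0 => Measure.dirac y0
  | t + 1 => (lawP y0 P t).bind (P t)

def PK (η : ℕ → ℝ) (V : E d → ℝ) (t : ℕ) (y : E d) : Measure (E d) :=
  sm (prox (η t) V y) √(η (t + 1))

def Comp (d : ℕ) {Ω α : Type} [MeasurableSpace Ω] [MeasurableSpace α] (q : ℕ)
    (F : Ω → (E d → E d) → α) : Prop :=
  ∃ (qr : ℕ → Ω × (ℕ → ℝ × E d) → E d) (out : Ω × (ℕ → ℝ × E d) → α),
    (∀ i, Measurable (qr i)) ∧ Measurable out ∧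
    ∀ (O : E d → ℝ × E d) (ω : Ω), out (ω, hist qr O ω q) = F ω fun x => (O x).2

/-! ## Statements -/

structure RelApi : Prop where
  tri : ∀ (X : Type) [MeasurableSpace X] (P Q S : Measure X) [IsProbabilityMeasure P]
    [IsProbabilityMeasure Q] [IsProbabilityMeasure S] (a b : ℝ), 0 ≤ a → 0 ≤ b →
    Rel P Q a → Rel Q S b → Rel P S (a + b)
  symm : ∀ (X : Type) [MeasurableSpace X] (P Q : Measure X) [IsProbabilityMeasure P]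
    [IsProbabilityMeasure Q] (a : ℝ), 0 ≤ a → Rel P Q a → Rel Q P (2 * a)
  mono : ∀ (X : Type) [MeasurableSpace X] (P Q : Measure X) (a b : ℝ), 0 ≤ a → a ≤ b →
    Rel P Q a → Rel P Q b
  triv : ∀ (X : Type) [MeasurableSpace X] (P Q : Measure X) [IsProbabilityMeasure P]
    [IsProbabilityMeasure Q], Rel P Q 2
  tv : ∀ (X : Type) [MeasurableSpace X] (P Q : Measure X) (e : ℝ), 0 ≤ e →
    (∀ φ : X → ℝ, Measurable φ → (∀ x, |φ x| ≤ 1) → |∫ x, φ x ∂P - ∫ x, φ x ∂Q| ≤ e ^ 2) → Rel P Q e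
  map : ∀ (X Y : Type) [MeasurableSpace X] [MeasurableSpace Y] (P Q : Measure X) (e : ℝ)
    (f : X → Y), Measurable f → Rel P Q e → Rel (P.map f) (Q.map f) e
  mix : ∀ (Ω S S' Y : Type) [MeasurableSpace Ω] [MeasurableSpace S] [MeasurableSpace S']
    [MeasurableSpace Y] (μ : Measure Ω) (ν : Measure S) (ν' : Measure S') [IsProbabilityMeasure μ]
    [IsProbabilityMeasure ν] [IsProbabilityMeasure ν'] (f : Ω × S → Y) (f' : Ω × S' → Y)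
    (e : Ω → ℝ) (e0 : ℝ), Measurable f → Measurable f' → Measurable e → (∀ ω, 0 ≤ e ω) → 0 ≤ e0 →
    (∀ ω, Rel (ν.map fun s => f (ω, s)) (ν'.map fun s => f' (ω, s)) (e ω)) →
    eLpNorm e 2 μ ≤ ENNReal.ofReal e0 → Rel ((μ.prod ν).map f) ((μ.prod ν').map f') e0

def StmtChain : Prop :=
  ∀ (X S : Type) [MeasurableSpace X] [MeasurableSpace S] (y0 : X) (P : ℕ → X → Measure X)
    (f : ℕ → X × S → X) (ν : Measure S) [IsProbabilityMeasure ν] (e : ℕ → X → ℝ) (T : ℕ) (s : ℝ),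
    (∀ t < T, Measurable (P t)) → (∀ t < T, ∀ y, IsProbabilityMeasure (P t y)) →
    (∀ t, Measurable (f t)) → (∀ t, Measurable (e t)) → (∀ t y, 0 ≤ e t y ∧ e t y ≤ 2) →
    (∀ t < T, ∀ y, Rel (P t y) (ν.map fun a => f t (y, a)) (e t y)) → 0 ≤ s → s ≤ 1 / 4 →
    ∑ t ∈ range T, ∫ y, e t y ^ 2 ∂lawP y0 P t ≤ s ^ 2 →
    Measurable (run y0 f T) ∧ ∀ φ : X → ℝ, Measurable φ → (∀ x, 0 ≤ φ x ∧ φ x ≤ 1) →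
      |∫ y, φ y ∂lawP y0 P T - ∫ ω, φ (run y0 f T ω) ∂Measure.pi fun _ : Fin T => ν| ≤ 2 * s

structure Gau1 (d : ℕ) : Prop where
  mgf : ∀ u : E d, ∫⁻ x, ENNReal.ofReal (Real.exp ⟪u, x⟫) ∂gs d = ENNReal.ofReal (Real.exp (‖u‖ ^ 2 / 2))
  cm : ∀ a : E d, (gs d).map (fun x => x + a) =
    (gs d).withDensity fun x => ENNReal.ofReal (Real.exp (⟪a, x⟫ - ‖a‖ ^ 2 / 2))
  sq : ∀ s : ℝ, 0 ≤ s → s ≤ 1 / 4 →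
    ∫⁻ x, ENNReal.ofReal (Real.exp (s * ‖x‖ ^ 2)) ∂gs d ≤ ENNReal.ofReal (Real.exp (2 * s * d))
  big : ∀ B : ℝ, Integrable (fun x : E d => Real.exp (B * ‖x‖ + ‖x‖ ^ 2 / 3)) (gs d)
  i2 : ∀ k : ℕ, Integrable (fun x : E d => ‖x‖ ^ k) (gs d)
  m2 : ∫ x, ‖x‖ ^ 2 ∂gs d = d
  m4 : ∫ x, ‖x‖ ^ 4 ∂gs d ≤ 3 * (d : ℝ) ^ 2
  dens : ∃ c : ℝ, 0 < c ∧ gs d =
    (volume : Measure (E d)).withDensity fun x => ENNReal.ofReal (c * Real.exp (-‖x‖ ^ 2 / 2))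

structure Gau2 (d : ℕ) : Prop where
  rot : ∀ a b : ℝ, a ^ 2 + b ^ 2 = 1 → ((gs d).prod (gs d)).map
    (fun p => (a • p.1 + b • p.2, -b • p.1 + a • p.2)) = (gs d).prod (gs d)
  sum : ∀ a b : ℝ, ((gs d).prod (gs d)).map (fun p => a • p.1 + b • p.2) =
    (gs d).map fun x => √(a ^ 2 + b ^ 2) • x
  swap : ∀ ρ : ℝ, ρ ^ 2 ≤ 1 → ((gs d).prod (gs d)).map (fun p => (p.1, ρ • p.1 + sg ρ • p.2)) =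
    ((gs d).prod (gs d)).map fun p => (ρ • p.1 + sg ρ • p.2, p.1)
  pair : ∀ a1 a2 a3 b1 b2 b3 c1 c2 c3 d1 d2 d3 : ℝ,
    a1 ^ 2 + a2 ^ 2 + a3 ^ 2 = c1 ^ 2 + c2 ^ 2 + c3 ^ 2 →
    b1 ^ 2 + b2 ^ 2 + b3 ^ 2 = d1 ^ 2 + d2 ^ 2 + d3 ^ 2 →
    a1 * b1 + a2 * b2 + a3 * b3 = c1 * d1 + c2 * d2 + c3 * d3 →
    (g3 d).map (fun z => (a1 • z.1 + a2 • z.2.1 + a3 • z.2.2, b1 • z.1 + b2 • z.2.1 + b3 • z.2.2)) =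
    (g3 d).map (fun z => (c1 • z.1 + c2 • z.2.1 + c3 • z.2.2, d1 • z.1 + d2 • z.2.1 + d3 • z.2.2))
  shift : ∀ (t : ℝ) (x y : E d) (φ : E d → ℝ), 0 < t → Measurable φ → (∀ z, |φ z| ≤ 1) →
    |∫ g, φ (x + t • g) ∂gs d - ∫ g, φ (y + t • g) ∂gs d| ≤ 2 * ‖x - y‖ / t

def StmtG1 : Prop := ∀ d, Gau1 d
def StmtG2 : Prop := ∀ d, Gau2 d

def StmtGC : Prop := ∀ (d : ℕ) (K : ℝ) (F : E d → ℝ), 0 ≤ K → LipF K F →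
  ∫⁻ x, ENNReal.ofReal (Real.exp (F x - ∫ y, F y ∂gs d)) ∂gs d ≤ ENNReal.ofReal (Real.exp (2 * K ^ 2))

def StmtGCT : Prop := ∀ (d N : ℕ) (K : Fin N → ℝ) (F : (Fin N → E d) → ℝ), (∀ r, 0 ≤ K r) →
  (∀ g r x, |F (Function.update g r x) - F g| ≤ K r * ‖x - g r‖) →
  ∫⁻ g, ENNReal.ofReal (Real.exp (F g - ∫ y, F y ∂gN d N)) ∂gN d N ≤
    ENNReal.ofReal (Real.exp (2 * ∑ r, K r ^ 2))

structure SGApi (d : ℕ) : Prop where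
  int : ∀ (α : Measure (E d)) (L : ℝ), SG α L → ∀ k : ℕ, Integrable (fun x : E d => ‖x‖ ^ k) α
  mean : ∀ (α : Measure (E d)) (L : ℝ), SG α L → ∫ x, x ∂α = 0
  var : ∀ (α : Measure (E d)) (L : ℝ), SG α L → ∀ u, Cv α u u ≤ 2 * L ^ 2 * ‖u‖ ^ 2
  mono : ∀ (α : Measure (E d)) (L L' : ℝ), 0 ≤ L → L ≤ L' → SG α L → SG α L'
  add : ∀ (α β : Measure (E d)) (L L' : ℝ), 0 ≤ L → 0 ≤ L' → SG α L → SG β L' →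
    SG ((α.prod β).map fun p => p.1 + p.2) (L + L') ∧
    ∀ u v, Cv ((α.prod β).map fun p => p.1 + p.2) u v = Cv α u v + Cv β u v
  scale : ∀ (α : Measure (E d)) (L c : ℝ), SG α L → SG (α.map fun x => c • x) (c * L)
  pair : ∀ (α β : Measure (E d)) (L s : ℝ), SG α L → SG β L → s ^ 2 * L ^ 4 ≤ 1 / 2 →
    ∫⁻ p, ENNReal.ofReal (Real.exp (s * ⟪p.1, p.2⟫)) ∂α.prod β ≤
      ENNReal.ofReal (Real.exp (s ^ 2 * L ^ 4 * d))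
  exM : ∀ (α β : Measure (E d)) (L : ℝ), SG α L → SG β L → ∃ M : E d →L[ℝ] E d,
    (∀ u v, ⟪u, M v⟫ = Cv α u v - Cv β u v) ∧ ‖M‖ ≤ 2 * L ^ 2
  coup : ∀ (Ω : Type) [MeasurableSpace Ω] (P : Measure Ω) (a b : Ω → E d) (L : ℝ), Measurable a →
    Measurable b → SG (P.map a) L → SG (P.map b) L →
    Fr (P.map a) (P.map b) ≤ 8 * L ^ 2 * ∫ ω, ‖a ω - b ω‖ ^ 2 ∂P

def StmtSG : Prop := ∀ d, SGApi d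

def StmtMM : Prop := ∃ C : ℝ, 1 ≤ C ∧ ∀ (d : ℕ) (α β : Measure (E d)) (L t e : ℝ), 2 ≤ d → SG α L →
  SG β L → 1 / 2 ≤ t → t ≤ 2 → C * L ^ 4 * d ≤ 1 → 0 ≤ e → Fr α β ≤ e ^ 2 →
  (L ^ 4 * d) ^ 3 ≤ e ^ 4 → Rel (sm α t) (sm β t) (C * e)

def StmtL2 : Prop := ∃ C : ℝ, 1 ≤ C ∧ ∀ (d : ℕ) (β : Measure (E d)) [IsProbabilityMeasure β]
  (x0 : E d) (t : ℝ), 1 / 2 ≤ t → Integrable (fun x : E d => ‖x‖ ^ 4) β →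
  Rel (sm (Measure.dirac x0) t) (sm β t)
    (C * (‖∫ x, x ∂β - x0‖ + √(∫ x, ‖x - ∫ y, y ∂β‖ ^ 4 ∂β)))

def StmtWL : Prop := ∃ C : ℝ, 1 ≤ C ∧ ∀ (d : ℕ) (α : Measure (E d)) (L κ K : ℝ) (f : E d → ℝ),
  1 ≤ d → SG α L → 0 < κ → 2 * L ^ 4 * d ≤ κ ^ 4 → 0 ≤ K → LipF K f →
  |∫ p, f (p.1 + κ • p.2) ∂α.prod (gs d) - ∫ g, f (κ • g) ∂gs d| ≤ C * K * κ

def StmtAS : Prop := ∃ C : ℝ, 1 ≤ C ∧ ∀ (d : ℕ) (α α0 β : Measure (E d)) (M : E d →L[ℝ] E d)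
  (L t e : ℝ), 2 ≤ d → 0 ≤ L → SG α L → SG α0 L → SG β L → 1 / 2 ≤ t → t ≤ 1 →
  (∀ u v, ⟪u, M v⟫ = Cv α0 u v - Cv β u v) → ‖M‖ ≤ 2 * L ^ 2 → C * L ^ 4 * d ≤ 1 → 0 ≤ e →
  Fr α α0 ≤ e ^ 2 → (L ^ 4 * d) ^ 3 ≤ e ^ 4 →
  Rel (sm α (√2 * t))
    (sm ((β.prod (gs d)).map fun p => p.1 + t • p.2 + (2 * t)⁻¹ • M p.2) t) (C * e)

def StmtFlux : Prop := ∀ (d : ℕ) (B : ℝ), ∃ K : ℝ, 0 ≤ K ∧ ∀ (W : E d → ℝ) (G : E d → E d),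
  Pot W G → LipF (1 / 2) G → ‖G 0‖ ≤ B →
  IsProbabilityMeasure (mu W) ∧ Integrable (fun x : E d => ‖x‖) (mu W) ∧ ∫ x, ‖x‖ ∂mu W ≤ K ∧
  ∀ (h l : ℝ) (ψ : E d → ℝ), 0 < h → h ≤ 1 / 2 → 0 ≤ l → LipF l ψ → (∃ b, ∀ x, |ψ x| ≤ b) →
    |∫ x, ψ x ∂stepM G (1 - h) (mu W) - ∫ x, ψ x ∂mu W| ≤ l * K * (h * √h)

def StmtIde : Prop := ∀ (d : ℕ) (B δ : ℝ), 0 < δ → ∃ (ρ : ℝ) (N : ℕ), 1 / 2 ≤ ρ ∧ ρ < 1 ∧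
  (N + 1) * ρ ^ N ≤ δ ∧ ∀ (W : E d → ℝ) (G : E d → E d), Pot W G → LipF (1 / 2) G → ‖G 0‖ ≤ B →
  IsProbabilityMeasure (mu W) ∧ ∀ (l : ℝ) (ψ : E d → ℝ), 0 ≤ l → LipF l ψ → (∃ b, ∀ x, |ψ x| ≤ b) →
    |∫ x, ψ x ∂ch G ρ N - ∫ x, ψ x ∂mu W| ≤ l * δ

def StmtRev : Prop := ∀ (d : ℕ) (G : E d → E d) (ρ : ℝ) (N : ℕ), Continuous G → ρ ^ 2 ≤ 1 →
  ((gs d).prod (gN d N)).map (fun p => p.1 - AA G ρ N p.1 p.2) = ch G ρ N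

structure AaApi (ε ρ : ℝ) (G : E d → E d) : Prop where
  cont : ∀ N, Continuous fun p : E d × (Fin N → E d) => AA G ρ N p.1 p.2
  cont0 : ∀ N, Continuous fun p : E d × (Fin N → E d) => A0 G ρ N p.1 p.2
  lip : ∀ N g, LipF (2 * ε) fun w => AA G ρ N w g
  lip0 : ∀ N g, LipF (2 * ε) fun w => A0 G ρ N w g
  gr : ∀ N w g, ‖AA G ρ N w g‖ ≤ 2 * ε * (1 + ‖w‖ + ∑ r, ‖g r‖)
  gr0 : ∀ N w g, ‖A0 G ρ N w g‖ ≤ 2 * ε * (1 + ‖w‖ + ∑ r, ‖g r‖)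
  mem : ∀ N w, MemLp (AA G ρ N w) 2 (gN d N)
  mem0 : ∀ N w, MemLp (A0 G ρ N w) 2 (gN d N)
  sgA : ∀ N w, SG (alA G ρ N w) (4 * ε)
  sg0 : ∀ N w, SG (al0 G ρ N w) (4 * ε)
  l2 : ∀ N, eLpNorm (fun p : E d × (Fin N → E d) => AA G ρ N p.1 p.2) 2 ((gs d).prod (gN d N)) ≤
    ENNReal.ofReal (4 * ε * √d)
  l2D : ∀ N, eLpNorm (fun p : E d × (Fin N → E d) => AA G ρ N p.1 p.2 - A0 G ρ N p.1 p.2) 2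
    ((gs d).prod (gN d N)) ≤ ENNReal.ofReal (4 * ε ^ 2 * √d)

def StmtAa : Prop := ∀ (d : ℕ) (ε ρ : ℝ) (G : E d → E d), 1 ≤ d → 0 ≤ ε → ε ≤ 1 / 4 → 1 / 2 ≤ ρ →
  ρ < 1 → Nice ε G → AaApi ε ρ G

structure OUApi (d : ℕ) : Prop where
  int : ∀ (K : ℝ) (Φ : E d → E d), LipF K Φ → ∀ (x : E d) (s : ℝ),
    MemLp (fun g => Φ (x + s • g)) 2 (gs d)
  lip : ∀ (K τ : ℝ) (Φ : E d → E d), 0 ≤ K → τ ^ 2 ≤ 1 → LipF K Φ → LipF K (OU τ Φ)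
  semi : ∀ (K τ τ' : ℝ) (Φ : E d → E d), τ ^ 2 ≤ 1 → τ' ^ 2 ≤ 1 → LipF K Φ →
    OU τ (OU τ' Φ) = OU (τ * τ') Φ
  contr : ∀ (K τ : ℝ) (Φ : E d → E d), τ ^ 2 ≤ 1 → LipF K Φ →
    eLpNorm (OU τ Φ) 2 (gs d) ≤ eLpNorm Φ 2 (gs d)
  symm : ∀ (K K' τ : ℝ) (Φ Ψ : E d → E d), τ ^ 2 ≤ 1 → LipF K Φ → LipF K' Ψ →
    ∫ x, ⟪OU τ Φ x, Ψ x⟫ ∂gs d = ∫ x, ⟪Φ x, OU τ Ψ x⟫ ∂gs d
  nG : ∀ (ε : ℝ) (G : E d → E d), 1 ≤ d → 0 ≤ ε → Nice ε G →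
    eLpNorm G 2 (gs d) ≤ ENNReal.ofReal (2 * ε * √d)
  f1c : ∀ (p : Par) (G : E d → E d), Continuous G → Continuous fun q : E d × E d => F1 p G q.1 q.2
  f1g : ∀ (p : Par) (ε : ℝ) (G : E d → E d), p.Ok → 0 ≤ ε → Nice ε G →
    ∀ w ζ, ‖F1 p G w ζ‖ ≤ ε * (1 + ‖w‖ + ‖ζ‖)
  f1m : ∀ (p : Par) (K : ℝ) (G : E d → E d), LipF K G →
    ∀ w, m1 p G w = ∑ j, p.om j • OU (p.tau j) G w
  f1l : ∀ (p : Par) (ε : ℝ) (G : E d → E d), p.Ok → 0 ≤ ε → Nice ε G → LipF ε (m1 p G)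
  f1s : ∀ (p : Par) (ε : ℝ) (G : E d → E d), p.Ok → 0 ≤ ε → Nice ε G →
    ∀ w, SG (be1 p G w) (4 * ε)

def StmtOU : Prop := ∀ d, OUApi d

def StmtMean : Prop := ∀ (d : ℕ) (ε ρ : ℝ) (G : E d → E d), 1 ≤ d → 0 ≤ ε → ε ≤ 1 / 4 → 1 / 2 ≤ ρ →
  ρ < 1 → Nice ε G → ∀ N, LipF (2 * ε) (Gam G ρ N) ∧ LipF (2 * ε) (mA G ρ N) ∧
    LipF (2 * ε) (mA0 G ρ N) ∧ ∀ w,
    mA0 G ρ N w = ∑ r ∈ range N, aw ρ r • OU (ρ ^ (r + 1)) G w ∧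
    mA G ρ N w = ∑ r ∈ range N, aw ρ r • OU (ρ ^ (r + 1)) (Gam G ρ (N - 1 - r)) w

def StmtQA1 : Prop := ∀ (L : Type) [AddCommGroup L] [Module ℝ L] (B : L →ₗ[ℝ] L →ₗ[ℝ] ℝ)
  (S : L →ₗ[ℝ] L), (∀ x y, B x y = B y x) → (∀ x, 0 ≤ B x x) → (∀ x y, B (S x) y = B x (S y)) →
  (∀ x, B (S x) (S x) ≤ B x x) → ∀ (i n : ℕ) (x : L), 1 ≤ i → i ≤ n →
    √(B (((1 - S * S) ^ i * (S * S) ^ n) x) (((1 - S * S) ^ i * (S * S) ^ n) x)) ≤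
      (2 * i / n : ℝ) ^ i * √(B x x)

def StmtQA2 : Prop := ∃ C : ℝ, 1 ≤ C ∧ ∀ (δ ρ : ℝ) (N : ℕ), 0 < δ → δ ≤ 1 / 2 → 1 / 2 ≤ ρ → ρ < 1 →
  ∃ (J : ℕ) (om : Fin J → ℝ) (n : Fin J → ℕ), (J : ℝ) ≤ C * (1 + Real.log δ⁻¹) ^ 2 ∧
    (∀ j, 0 ≤ om j) ∧ ∑ j, om j ≤ 1 ∧ ∀ ν : Polynomial ℝ → ℝ, (∀ p q, ν (p + q) ≤ ν p + ν q) →
    (∀ (c : ℝ) p, ν (c • p) = |c| * ν p) → (∀ k : ℕ, ν (Polynomial.X ^ k) ≤ 1) →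
    (∀ i k : ℕ, 1 ≤ i → i ≤ k → ν ((1 - Polynomial.X) ^ i * Polynomial.X ^ k) ≤ (2 * i / k : ℝ) ^ i) →
    ν (∑ r ∈ range N, aw ρ r • Polynomial.X ^ (r + 1) - ∑ j, om j • Polynomial.X ^ n j) ≤ δ

def StmtQuad : Prop := ∃ C : ℝ, 1 ≤ C ∧ ∀ (δ ρ : ℝ) (N : ℕ), 0 < δ → δ ≤ 1 / 2 → 1 / 2 ≤ ρ → ρ < 1 →
  ∃ (J : ℕ) (om tau : Fin J → ℝ), (J : ℝ) ≤ C * (1 + Real.log δ⁻¹) ^ 2 ∧ (∀ j, 0 ≤ om j) ∧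
    ∑ j, om j ≤ 1 ∧ (∀ j, 0 ≤ tau j ∧ tau j ≤ 1) ∧ ∀ (d : ℕ) (K : ℝ) (Φ : E d → E d), LipF K Φ →
    eLpNorm (fun w => ∑ r ∈ range N, aw ρ r • OU (ρ ^ (r + 1)) Φ w - ∑ j, om j • OU (tau j) Φ w) 2
      (gs d) ≤ ENNReal.ofReal δ * eLpNorm Φ 2 (gs d)

def StmtB2a : Prop := ∃ C : ℝ, 1 ≤ C ∧ ∀ (d : ℕ) (ε ρ τ : ℝ) (G : E d → E d) (p : Par) (n : ℕ),
  1 ≤ d → 0 < ε → ε ≤ 1 / 4 → 1 / 2 ≤ ρ → ρ < 1 → Nice ε G → p.Ok → 0 < p.ka → p.ka ≤ 1 / 2 →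
  C * ε ^ 4 * d ≤ p.ka ^ 4 → 0 ≤ τ → τ ^ 2 ≤ 1 - p.ka ^ 2 →
  eLpNorm (fun w => OU τ (Gam G ρ n) w - OU τ G w - ∫ z, F2 p G w ((1, τ), z) ∂g3 d) 2 (gs d) ≤
    ENNReal.ofReal (C * (ε ^ 2 * p.ka * √d + ε * p.ka)) +
      ENNReal.ofReal ε * eLpNorm (fun w => mA G ρ n w - m1 p G w) 2 (gs d)

def StmtB2 : Prop := ∃ C : ℝ, 1 ≤ C ∧ ∀ (d : ℕ) (ε ρ δ1 δ2 : ℝ) (G : E d → E d) (p : Par) (N : ℕ),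
  1 ≤ d → 0 < ε → ε ≤ 1 / 4 → 1 / 2 ≤ ρ → ρ < 1 → Nice ε G → p.Ok → ε ≤ p.ka → p.ka ≤ 1 / 2 →
  C * ε ^ 4 * d ≤ p.ka ^ 4 → 0 ≤ δ1 → (N + 1) * ρ ^ N ≤ δ2 →
  eLpNorm (fun w => mA0 G ρ N w - m1 p G w) 2 (gs d) ≤ ENNReal.ofReal δ1 →
  Measurable (bias p G ρ N (pi2 ρ p.ka N)) ∧ eLpNorm (bias p G ρ N (pi2 ρ p.ka N)) 2 (gs d) ≤
    ENNReal.ofReal (C * (ε ^ 2 * p.ka * √d + ε * p.ka + δ1 + δ2 * ε ^ 2 * √d))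

def StmtPi2 : Prop := ∀ (ρ κ : ℝ) (N : ℕ), 0 ≤ ρ → ρ ≤ 1 →
  IsProbabilityMeasure (pi2 ρ κ N) ∧ ∀ᵐ a ∂pi2 ρ κ N, |a.1| ≤ 1 ∧ |a.2| ≤ 1

def StmtIBP : Prop := ∀ (d : ℕ) (K : ℝ) (F : E d → ℝ) (v : E d), ContDiff ℝ 1 F → LipF K F →
  ∫ x, ⟪v, x⟫ * F x ∂gs d = ∫ x, fderiv ℝ F x v ∂gs d

def StmtCI : Prop := ∀ (d : ℕ) (ε : ℝ) (G : E d → E d) (u v x x' : E d) (s s' : ℝ), Nice ε G →
  Continuous (hh G u v x x' s s') ∧ ∀ θ : ℝ, bb G u v x x' s s' θ - bb G u v x x' s s' 0 =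
    s * s' * ∫ φ in (0 : ℝ)..θ, 2 * Real.sin φ * Real.cos φ * hh G u v x x' s s' φ

def StmtS0 : Prop := ∀ ρ : ℝ, 1 / 2 ≤ ρ → ρ < 1 → ∃ θ : ℕ → ℕ → ℝ,
  (∀ r r', 0 ≤ θ r r' ∧ θ r r' ≤ Real.pi / 2) ∧ ∀ (d : ℕ) (ε : ℝ) (G : E d → E d) (N : ℕ)
  (w u v : E d), 1 ≤ d → 0 ≤ ε → ε ≤ 1 / 4 → Nice ε G →
  Cv (al0 G ρ N w) u v = ∑ r ∈ range N, ∑ r' ∈ range N, aw ρ r * aw ρ r' *
    (bb G u v (ρ ^ (r + 1) • w) (ρ ^ (r' + 1) • w) (sg (ρ ^ (r + 1))) (sg (ρ ^ (r' + 1))) (θ r r') -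
      bb G u v (ρ ^ (r + 1) • w) (ρ ^ (r' + 1) • w) (sg (ρ ^ (r + 1))) (sg (ρ ^ (r' + 1))) 0)

def StmtS1 : Prop := ∀ (d : ℕ) (ε : ℝ) (G : E d → E d) (p : Par) (w u v : E d), Nice ε G →
  Cv (be1 p G w) u v = ∑ j, ∑ l, p.om j * p.om l *
    (bb G u v (p.tau j • w) (p.tau l • w) (sg (p.tau j)) (sg (p.tau l)) (Real.pi / 2) -
      bb G u v (p.tau j • w) (p.tau l • w) (sg (p.tau j)) (sg (p.tau l)) 0)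

def StmtFD : Prop := ∀ (d : ℕ) (ε δ : ℝ) (G : E d → E d) (w u ξ : E d) (a : ℝ × ℝ × ℝ × ℝ), 0 ≤ ε →
  ε ≤ 1 → 0 < δ → Nice ε G → (∀ z, ‖HV δ G w (a, z) ξ‖ ≤ |a.1| * ε ^ 2 * ‖ξ‖) ∧
  (|a.1| ≤ 7 * sg a.2.1 * sg a.2.2.1 * Real.cos a.2.2.2 →
    |∫ z, ⟪u, HV δ G w (a, z) ξ⟫ ∂g3 d -
      a.1 * hh G u ξ (a.2.1 • w) (a.2.2.1 • w) (sg a.2.1) (sg a.2.2.1) a.2.2.2| ≤
      28 * δ * ‖u‖ * ‖ξ‖ ^ 2)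

def StmtPI : Prop := ∀ (ρ : ℝ) (N : ℕ) (p : Par), 1 / 2 ≤ ρ → ρ < 1 → p.Ok → 0 < p.de →
  ∃ π3 : Measure (ℝ × ℝ × ℝ × ℝ), IsProbabilityMeasure π3 ∧ (∀ᵐ a ∂π3, |a.1| ≤ 7) ∧
    ∀ (d : ℕ) (ε : ℝ) (G : E d → E d), 1 ≤ d → 0 ≤ ε → ε ≤ 1 / 4 → Nice ε G → ∀ w u ξ : E d,
    |⟪u, ∫ a, HV p.de G w a ξ ∂π3.prod (g3 d)⟫ - (Cv (al0 G ρ N w) u ξ - Cv (be1 p G w) u ξ)| ≤
      28 * p.de * ‖u‖ * ‖ξ‖ ^ 2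

/-- the second level noise for fixed `w` -/
def StmtPA0 : Prop := ∃ C : ℝ, 1 ≤ C ∧ ∀ (d : ℕ) (ε t : ℝ) (G : E d → E d) (p : Par)
  (π2 : Measure (ℝ × ℝ)) (π3 : Measure (ℝ × ℝ × ℝ × ℝ)) [IsProbabilityMeasure π2]
  [IsProbabilityMeasure π3] (M : E d →L[ℝ] E d) (w m : E d), 1 ≤ d → 0 ≤ ε → ε ≤ 1 / 4 →
  Nice ε G → p.Ok → 0 ≤ p.ka → p.ka ≤ 1 / 2 → 0 < p.de → (∀ᵐ a ∂π2, |a.1| ≤ 1 ∧ |a.2| ≤ 1) →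
  (∀ᵐ a ∂π3, |a.1| ≤ 7) → 1 / 2 ≤ t → t ≤ 1 →
  (∀ ξ, ‖∫ a, HV p.de G w a ξ ∂π3.prod (g3 d) - M ξ‖ ≤ 28 * p.de * ‖ξ‖ ^ 2) →
  Rel ((sm (((be1 p G w).prod (gs d)).map fun q => q.1 + t • q.2 + (2 * t)⁻¹ • M q.2) t).map
      fun x => w - m + x)
    ((swM d π2 π3).map (primW p G t w))
    (C * (‖m - m1 p G w - ∫ a, F2 p G w a ∂π2.prod (g3 d)‖ + p.de * d + ε ^ 4 * (d + ‖w‖ ^ 2)))

def StmtPA1 : Prop := ∃ C : ℝ, 1 ≤ C ∧ ∀ (d : ℕ) (ε ρ t e : ℝ) (G : E d → E d) (p : Par) (N : ℕ)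
  (π2 : Measure (ℝ × ℝ)) (π3 : Measure (ℝ × ℝ × ℝ × ℝ)) [IsProbabilityMeasure π2]
  [IsProbabilityMeasure π3] (w : E d), 2 ≤ d → 0 ≤ ε → ε ≤ 1 / 4 → 1 / 2 ≤ ρ → ρ < 1 →
  Nice ε G → p.Ok → 0 ≤ p.ka → p.ka ≤ 1 / 2 → 0 < p.de → (∀ᵐ a ∂π2, |a.1| ≤ 1 ∧ |a.2| ≤ 1) →
  (∀ᵐ a ∂π3, |a.1| ≤ 7) → 1 / 2 ≤ t → t ≤ 1 → C * ε ^ 4 * d ≤ 1 → 0 ≤ e → (ε ^ 4 * d) ^ 3 ≤ e ^ 4 →
  (∀ u ξ : E d, |⟪u, ∫ a, HV p.de G w a ξ ∂π3.prod (g3 d)⟫ -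
    (Cv (al0 G ρ N w) u ξ - Cv (be1 p G w) u ξ)| ≤ 28 * p.de * ‖u‖ * ‖ξ‖ ^ 2) →
  Rel (((gN d N).prod (gs d)).map fun q => w - AA G ρ N w q.1 + (√2 * t) • q.2)
    ((swM d π2 π3).map (primW p G t w))
    (C * (e + ε * √(DD G ρ N w) + ‖bias p G ρ N π2 w‖ + p.de * d + ε ^ 4 * (d + ‖w‖ ^ 2)))

def StmtPrim : Prop := ∃ C : ℝ, 1 ≤ C ∧ ∀ (d : ℕ) (ε e : ℝ), 2 ≤ d → 0 < ε → 1 ≤ ε ^ 2 * d →
  C * ε ^ 4 * d ≤ 1 → 0 < e → (ε ^ 4 * d) ^ 3 ≤ e ^ 4 →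
  ∃ (p : Par) (π2 : Measure (ℝ × ℝ)) (π3 : Measure (ℝ × ℝ × ℝ × ℝ)), IsProbabilityMeasure π2 ∧
    IsProbabilityMeasure π3 ∧ (p.J : ℝ) ≤ C * (1 + Real.log d) ^ 2 ∧
    ∀ (t : ℝ) (W : E d → ℝ) (G : E d → E d), 1 / 2 ≤ t → t ≤ 1 → Pot W G → Nice ε G →
      Rel (sm (mu W) (√2 * t)) ((sdM d π2 π3).map (prim p G t)) (C * e)

def StmtMeas : Prop := ∀ (d : ℕ) (p : Par),
  (∀ (G : E d → E d) (w : E d), Continuous G → Continuous (F2 p G w) ∧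
    Continuous fun q : S3 d × E d => HV p.de G w q.1 q.2) ∧
  (∀ (G : E d → E d), Continuous G → Continuous fun q : E d × S2 d => F2 p G q.1 q.2) ∧
  (∀ (G : E d → E d) (t : ℝ), Continuous G → Continuous (prim p G t)) ∧
  ∀ (η η' : ℝ) (D : E d → E d), Continuous D → Continuous fun q : E d × Sd d => stp p η η' D q.1 q.2

structure ClsApi (V : E d → ℝ) : Prop where
  cont : Continuous (gradient V)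
  lo : ∀ x, ‖x‖ ^ 2 / 2 ≤ V x
  hi : ∀ x, V x ≤ ‖x‖ ^ 2
  pot : ∀ η y c, 0 < η → Pot (WW η V y c) (GG η (gradient V) y c)
  lip : ∀ η y c, 0 < η → LipF (2 * η) (GG η (gradient V) y c)
  con : ∀ η y c h, 0 < η → η ≤ 1 / 4 → 0 ≤ h → h ≤ 1 / 2 →
    LipF (1 - h * (1 + η)) fun z => (1 - h) • z - h • GG η (gradient V) y c z
  nice : ∀ η ε y, 0 < η → 2 * η ≤ ε → ε ≤ 1 / 2 → 2 * ‖y‖ * (2 * η) ^ 12 ≤ 1 →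
    Nice ε (GG η (gradient V) y (cen η (gradient V) y 13))

def StmtCls : Prop := ∀ (d : ℕ) (V : E d → ℝ), InClass V → ClsApi V

def StmtGib1 : Prop := ∀ (d : ℕ) (V : E d → ℝ), InClass V → IsProbabilityMeasure (gibbs V) ∧
  ∀ η : ℝ, 0 < η → (∀ y, IsProbabilityMeasure (prox η V y)) ∧ Measurable (prox η V) ∧
    (∀ t : ℝ, Measurable fun y => sm (prox η V y) t) ∧
    ∀ y c, prox η V y = (mu (WW η V y c)).map fun z => c + √η • z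

def StmtGib2 : Prop := ∀ (d : ℕ) (V : E d → ℝ), InClass V →
  (Integrable (fun x : E d => ‖x‖) (gibbs V) ∧ ∫ x, ‖x‖ ∂gibbs V ≤ 2 * √d) ∧
  ∀ η : ℝ, 0 < η → (sm (gibbs V) √η).bind (prox η V) = gibbs V

def StmtCon : Prop := ∀ (d : ℕ) (V : E d → ℝ), InClass V → ∀ (η l : ℝ) (ψ : E d → ℝ), 0 < η →
  η ≤ 1 / 4 → 0 ≤ l → LipF l ψ → (∃ b, ∀ x, |ψ x| ≤ b) →
  LipF (l / (1 + η)) fun y => ∫ x, ψ x ∂prox η V y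

def StmtLast : Prop := ∀ (d : ℕ) (ε : ℝ) (W : E d → ℝ) (G : E d → E d), 1 ≤ d → 0 ≤ ε →
  ε * d ≤ 1 / 8 → Pot W G → Nice ε G → ∀ φ : E d → ℝ, Measurable φ → (∀ x, |φ x| ≤ 1) →
  |∫ x, φ x ∂mu W - ∫ x, φ x ∂gs d| ≤ 16 * ε * d

def StmtTopI : Prop := ∀ (d : ℕ) (V : E d → ℝ), InClass V → ∀ (η : ℕ → ℝ) (T : ℕ),
  (∀ t < T, 0 < η t ∧ η t ≤ 1 / 4) → η T = 0 →
  (∀ t < T, ∀ R : ℝ, 0 < R → (lawP 0 (PK η V) t).real {y | R < ‖y‖} ≤ 6 * √d / R) ∧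
  ∀ (T1 : ℕ) (η0 : ℝ), T1 + 1 < T → (∀ t ≤ T1 + 1, η t = η0) → ∀ φ : E d → ℝ, Measurable φ →
    (∀ x, |φ x| ≤ 1) →
    |∫ x, φ x ∂lawP 0 (PK η V) T - ∫ x, φ x ∂gibbs V| ≤ 6 * √d / √η0 / (1 + η0) ^ T1

structure CompApi (d : ℕ) : Prop where
  pure : ∀ (Ω α : Type) [MeasurableSpace Ω] [MeasurableSpace α] (f : Ω → α), Measurable f →
    Comp d 0 fun ω _ => f ω
  ask : ∀ (Ω : Type) [MeasurableSpace Ω] (f : Ω → E d), Measurable f → Comp d 1 fun ω D => D (f ω)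
  bind : ∀ (Ω α β : Type) [MeasurableSpace Ω] [MeasurableSpace α] [MeasurableSpace β] (q q' : ℕ)
    (F : Ω → (E d → E d) → α) (F' : Ω × α → (E d → E d) → β), Comp d q F → Comp d q' F' →
    Comp d (q + q') fun ω D => F' (ω, F ω D) D
  mono : ∀ (Ω α : Type) [MeasurableSpace Ω] [MeasurableSpace α] (q q' : ℕ)
    (F : Ω → (E d → E d) → α), q ≤ q' → Comp d q F → Comp d q' F
  comap : ∀ (Ω Ω' α : Type) [MeasurableSpace Ω] [MeasurableSpace Ω'] [MeasurableSpace α] (q : ℕ)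
    (F : Ω → (E d → E d) → α) (f : Ω' → Ω), Measurable f → Comp d q F →
    Comp d q fun ω => F (f ω)

def StmtCmp : Prop := ∀ d, CompApi d

def StmtAlg : Prop := ∀ (d : ℕ) (p : Par) (η : ℕ → ℝ) (T : ℕ),
  Comp d (T * (2 * p.J + 19)) fun (ω : Fin T → Sd d) D =>
    run (0 : E d) (fun t q => stp p (η t) (η (t + 1)) D q.1 q.2) T ω

def StmtTop : Prop := ∃ C : ℝ, 1 ≤ C ∧ ∀ (d : ℕ) (ε : ℝ), 2 ≤ d → 0 < ε → 1 ≤ ε ^ 2 * d →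
  C * (1 + Real.log d) ^ 2 * ε ^ 10 * d ^ 3 ≤ 1 →
  ∃ q : ℕ, (q : ℝ) ≤ C * (1 + Real.log d) ^ 3 / ε ∧ Good d q

def StmtAr : Prop := (∀ a : ℝ, 3 / 10 < a → ∀ᶠ d : ℕ in Filter.atTop,
    ∃ q : ℕ, (q : ℝ) ≤ (d : ℝ) ^ a ∧ Good d q) ∧
  Filter.limsup (fun d : ℕ => Real.log (Q d) / Real.log d) Filter.atTop ≤ 3 / 10

end

end Vale.Agent.P347
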