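import Vale.Agent.P347.Spec

open MeasureTheory ProbabilityTheory Finset
open scoped RealInnerProductSpace ENNReal

namespace Vale.Agent.P347.Topm

lemma natlog_le (d : ℕ) (hd : 2 ≤ d) : (Nat.log 2 d : ℝ) ≤ 2 * Real.log d := by
  have h1 : 2 ^ Nat.log 2 d ≤ d := Nat.pow_log_le_self 2 (by omega)
  have h2 : ((2 : ℝ)) ^ Nat.log 2 d ≤ d := by exact_mod_cast h1
  have h3 := Real.log_le_log (by positivity) h2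
  rw [Real.log_pow] at h3
  have h4 : (1 / 2 : ℝ) ≤ Real.log 2 := by have := Real.log_two_gt_d9; linarith
  have h5 : (0 : ℝ) ≤ Nat.log 2 d := by positivity
  nlinarith

lemma ar1 (Cp l s d ε : ℝ) (hC : 1 ≤ Cp) (hl : 1 ≤ l) (hs1 : 1 ≤ s) (hs : s ^ 2 = d) (hε : 0 < ε)
    (h2 : (10 ^ 8 * Cp ^ 2) ^ 2 * l ^ 2 * ε ^ 10 * d ^ 3 ≤ 1) :
    10 ^ 8 * Cp ^ 2 * (l * ε ^ 5 * d * s) ≤ 1 := by
  have hd : 0 ≤ d := by rw [← hs]; positivity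
  have h0 : 0 ≤ 10 ^ 8 * Cp ^ 2 * (l * ε ^ 5 * d * s) := by positivity
  have e : (10 ^ 8 * Cp ^ 2 * (l * ε ^ 5 * d * s)) ^ 2 =
      (10 ^ 8 * Cp ^ 2) ^ 2 * l ^ 2 * ε ^ 10 * d ^ 3 := by
    rw [← hs]; ring
  rw [← e] at h2
  by_contra h
  push Not at h
  nlinarith

lemma ar2 (Cp s d ε : ℝ) (hC : 1 ≤ Cp) (hs1 : 1 ≤ s) (hs : s ^ 2 = d) (hε : 0 < ε)
    (hy : 10 ^ 8 * Cp ^ 2 * (ε ^ 5 * d * s) ≤ 1) : ε ≤ 1 / 2 ∧ Cp * ε ^ 4 * d ≤ 1 := by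
  have hCp2 : 1 ≤ Cp ^ 2 := one_le_pow₀ hC
  have hd : 1 ≤ d := by rw [← hs]; exact one_le_pow₀ hs1
  constructor
  · by_contra h
    push Not at h
    have h5 : (1 / 2 : ℝ) ^ 5 ≤ ε ^ 5 := pow_le_pow_left₀ (by norm_num) h.le 5
    have : 10 ^ 8 * 1 * ((1 / 2 : ℝ) ^ 5 * 1 * 1) ≤ 10 ^ 8 * Cp ^ 2 * (ε ^ 5 * d * s) := by gcongr
    linarith
  · by_contra h
    push Not at h
    have h5 : 1 ≤ (Cp * ε ^ 4 * d) ^ 5 := one_le_pow₀ h.le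
    have h6 : (10 ^ 8 * Cp ^ 2 * (ε ^ 5 * d * s)) ^ 4 ≤ 1 := pow_le_one₀ (by positivity) hy
    have e6 : (10 ^ 8 * Cp ^ 2 * (ε ^ 5 * d * s)) ^ 4 =
        10 ^ 32 * Cp ^ 3 * d * (Cp * ε ^ 4 * d) ^ 5 := by
      rw [← hs]; ring
    rw [e6] at h6
    have h3 : 1 ≤ Cp ^ 3 := one_le_pow₀ hC
    have : 10 ^ 32 * 1 * 1 * (1 : ℝ) ≤ 10 ^ 32 * Cp ^ 3 * d * (Cp * ε ^ 4 * d) ^ 5 := by gcongr
    linarith

lemma ar3 (s d ε P : ℝ) (hs1 : 1 ≤ s) (hs : s ^ 2 = d) (hε : 0 < ε) (hε2 : ε ≤ 1 / 2)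
    (h1 : 1 ≤ ε ^ 2 * d) (hP : 2 ^ 17 * d ≤ P) : 6 * s / √(ε / 2) / P ≤ 1 / 20 := by
  have hd : 1 ≤ d := by rw [← hs]; exact one_le_pow₀ hs1
  have hq : 0 < √(ε / 2) := by positivity
  have b3 : 1 ≤ 2 * s * √(ε / 2) := by
    have e : (2 * s * √(ε / 2)) ^ 2 = 2 * ε * d := by
      rw [mul_pow, mul_pow, hs, Real.sq_sqrt (by positivity)]; ring
    have : 1 ≤ (2 * s * √(ε / 2)) ^ 2 := by
      rw [e]
      have : ε ^ 2 * d ≤ ε * d := by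
        have : 0 ≤ ε * d := by positivity
        nlinarith
      linarith
    by_contra h
    push Not at h
    have h0 : 0 ≤ 2 * s * √(ε / 2) := by positivity
    nlinarith
  rw [div_le_iff₀ (by linarith), div_le_iff₀ hq]
  have b4 : 6 * s ≤ 12 * d * √(ε / 2) := by
    have : 6 * s * 1 ≤ 6 * s * (2 * s * √(ε / 2)) := by gcongr
    rw [← hs]; nlinarith
  have b5 : 12 * d ≤ 1 / 20 * P := by linarith
  nlinarith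

lemma ar4 (l ε m n : ℝ) (hl : 1 ≤ l) (hε : 0 < ε) (hε2 : ε ≤ 1 / 2) (hn0 : 0 ≤ n) (hm : m ≤ 3 / ε)
    (hn : n ≤ 18 * l) : m * n + 2 + n ≤ 80 * l / ε := by
  have hie : 2 ≤ 1 / ε := by rw [le_div_iff₀ hε]; linarith
  have a1 : m * n ≤ 3 / ε * (18 * l) := mul_le_mul hm hn hn0 (by positivity)
  have e : 80 * l / ε = 3 / ε * (18 * l) + 26 * l * (1 / ε) := by ring
  rw [e]; nlinarith

lemma ar5 (Cp l s d ε T : ℝ) (hC : 1 ≤ Cp) (hl : 1 ≤ l) (hs1 : 1 ≤ s) (hs : s ^ 2 = d) (hε : 0 < ε)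
    (hε2 : ε ≤ 1 / 2) (hT : T ≤ 80 * l / ε) (hx : 10 ^ 8 * Cp ^ 2 * (l * ε ^ 5 * d * s) ≤ 1) :
    T * (Cp ^ 2 * (ε ^ 6 * d * s)) ≤ 1 / 6400 ∧ T * (4 * (6 * s / (1 / (2 * ε ^ 12)))) ≤ 1 / 3200 := by
  have hd : 1 ≤ d := by rw [← hs]; exact one_le_pow₀ hs1
  have hCp2 : 1 ≤ Cp ^ 2 := one_le_pow₀ hC
  constructor
  · calc _ ≤ 80 * l / ε * (Cp ^ 2 * (ε ^ 6 * d * s)) := by gcongr
      _ = 80 / 10 ^ 8 * (10 ^ 8 * Cp ^ 2 * (l * ε ^ 5 * d * s)) := by field_simp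
      _ ≤ 1 / 6400 := by linarith
  · have h6 : ε ^ 6 ≤ 1 := pow_le_one₀ hε.le (by linarith)
    calc _ ≤ 80 * l / ε * (4 * (6 * s / (1 / (2 * ε ^ 12)))) := by gcongr
      _ = 3840 * 1 * (l * ε ^ 5 * 1 * s) * ε ^ 6 := by field_simp; ring
      _ ≤ 3840 * Cp ^ 2 * (l * ε ^ 5 * d * s) * 1 := by gcongr
      _ ≤ 1 / 3200 := by linarith

lemma arith (Cp : ℝ) (hC : 1 ≤ Cp) (d : ℕ) (ε : ℝ) (hd : 2 ≤ d) (hε : 0 < ε) (h1 : 1 ≤ ε ^ 2 * d)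
    (h2 : (10 ^ 8 * Cp ^ 2) ^ 2 * (1 + Real.log d) ^ 2 * ε ^ 10 * d ^ 3 ≤ 1) :
    ∃ (T1 K : ℕ) (e0 : ℝ), 0 < e0 ∧ (ε ^ 4 * d) ^ 3 ≤ e0 ^ 4 ∧ ε ≤ 1 / 2 ∧ Cp * ε ^ 4 * d ≤ 1 ∧
      ((T1 + 2 + K : ℕ) : ℝ) ≤ 80 * (1 + Real.log d) / ε ∧
      ((T1 + 2 + K : ℕ) : ℝ) * (Cp * e0) ^ 2 ≤ 1 / 6400 ∧
      ((T1 + 2 + K : ℕ) : ℝ) * (4 * (6 * √d / (1 / (2 * ε ^ 12)))) ≤ 1 / 3200 ∧
      16 * (ε / 2 ^ K) * d ≤ 1 / 6400 ∧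
      6 * √d / √(ε / 2) / (1 + ε / 2) ^ T1 ≤ 1 / 20 := by
  have hd1 : (2 : ℝ) ≤ d := by exact_mod_cast hd
  have hlog : 0 ≤ Real.log d := Real.log_nonneg (by linarith)
  have hl1 : 1 ≤ 1 + Real.log d := by linarith
  have hs : √(d : ℝ) ^ 2 = d := Real.sq_sqrt (by linarith)
  have hs1 : 1 ≤ √(d : ℝ) := by rw [Real.one_le_sqrt]; linarith
  have hAx := ar1 Cp _ _ _ ε hC hl1 hs1 hs hε h2
  have hy : 10 ^ 8 * Cp ^ 2 * (ε ^ 5 * d * √d) ≤ 1 := by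
    refine le_trans ?_ hAx
    have : 10 ^ 8 * Cp ^ 2 * (1 * ε ^ 5 * d * √d) ≤
      10 ^ 8 * Cp ^ 2 * ((1 + Real.log d) * ε ^ 5 * d * √d) := by gcongr
    simpa using this
  obtain ⟨hε2, hc4⟩ := ar2 Cp _ _ ε hC hs1 hs hε hy
  obtain ⟨n, hn1, hn2⟩ : ∃ n : ℕ, (n : ℝ) ≤ 18 * (1 + Real.log d) ∧ 2 ^ 17 * (d : ℝ) ≤ 2 ^ n := by
    refine ⟨Nat.log 2 d + 18, ?_, ?_⟩
    · have := natlog_le d hd
      push_cast; linarith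
    · have h : d < 2 ^ (Nat.log 2 d + 1) := Nat.lt_pow_succ_log_self (by norm_num) d
      have h' : (d : ℝ) ≤ 2 ^ (Nat.log 2 d + 1) := by exact_mod_cast h.le
      rw [show Nat.log 2 d + 18 = 17 + (Nat.log 2 d + 1) by ring, pow_add]
      gcongr
  obtain ⟨m, hm1, hm2⟩ : ∃ m : ℕ, 2 / ε ≤ m ∧ (m : ℝ) ≤ 3 / ε := by
    refine ⟨⌈2 / ε⌉₊, Nat.le_ceil _, ?_⟩
    have hie : 2 ≤ 1 / ε := by rw [le_div_iff₀ hε]; linarith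
    have := Nat.ceil_lt_add_one (show 0 ≤ 2 / ε by positivity)
    have e : 3 / ε = 2 / ε + 1 / ε := by ring
    rw [e]; linarith
  have hT : ((m * n + 2 + n : ℕ) : ℝ) ≤ 80 * (1 + Real.log d) / ε := by
    push_cast
    exact ar4 _ ε m n hl1 hε hε2 (by positivity) hm2 hn1
  obtain ⟨c1, c2⟩ := ar5 Cp _ _ _ ε _ hC hl1 hs1 hs hε hε2 hT hAx
  refine ⟨m * n, n, √(ε ^ 6 * d * √d), by positivity, ?_, hε2, hc4, hT, ?_, c2, ?_, ?_⟩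
  · rw [show (4 : ℕ) = 2 * 2 by norm_num, pow_mul √(ε ^ 6 * d * √d), Real.sq_sqrt (by positivity)]
    rw [show (ε ^ 6 * d * √d) ^ 2 = ε ^ 12 * d ^ 2 * √d ^ 2 by ring, hs]
    apply le_of_eq; ring
  · rw [mul_pow, Real.sq_sqrt (by positivity)]
    exact c1
  · rw [show 16 * (ε / 2 ^ n) * d = 16 * ε * d / 2 ^ n by ring, div_le_iff₀ (by positivity)]
    have : ε * d ≤ 1 / 2 * d := by gcongr
    linarith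
  · have b1 : (2 : ℝ) ≤ (1 + ε / 2) ^ m := by
      have := one_add_mul_le_pow (show (-2 : ℝ) ≤ ε / 2 by linarith) m
      have h' : 1 ≤ (m : ℝ) * (ε / 2) := by
        rw [div_le_iff₀ hε] at hm1; linarith
      linarith
    have b2 : (2 : ℝ) ^ n ≤ (1 + ε / 2) ^ (m * n) := by
      rw [pow_mul]; exact pow_le_pow_left₀ (by norm_num) b1 n
    exact ar3 _ _ ε _ hs1 hs hε hε2 h1 (hn2.trans b2)

end Vale.Agent.P347.Topm
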