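import Vale.Agent.P347.Top
import Vale.Agent.P347.Spec2

open MeasureTheory ProbabilityTheory Finset
open scoped RealInnerProductSpace ENNReal

namespace Vale.Agent.P347.Top2m

open Topm

variable {d : ℕ}

lemma br1 (Cp l d ε : ℝ) (hC : 1 ≤ Cp) (hl : 1 ≤ l) (hd : 0 ≤ d) (hε : 0 < ε)
    (h2 : (10 ^ 8 * Cp ^ 2) ^ 2 * l ^ 2 * ε ^ 8 * d ^ 2 ≤ 1) :
    10 ^ 8 * Cp ^ 2 * (l * ε ^ 4 * d) ≤ 1 := by
  have h0 : 0 ≤ 10 ^ 8 * Cp ^ 2 * (l * ε ^ 4 * d) := by positivity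
  have e : (10 ^ 8 * Cp ^ 2 * (l * ε ^ 4 * d)) ^ 2 =
      (10 ^ 8 * Cp ^ 2) ^ 2 * l ^ 2 * ε ^ 8 * d ^ 2 := by ring
  rw [← e] at h2
  by_contra h
  push Not at h
  nlinarith

lemma br2 (Cp l d ε : ℝ) (hC : 1 ≤ Cp) (hl : 1 ≤ l) (hd : 1 ≤ d) (hε : 0 < ε)
    (hy : 10 ^ 8 * Cp ^ 2 * (l * ε ^ 4 * d) ≤ 1) : ε ≤ 1 / 2 ∧ Cp * ε ^ 4 * d ≤ 1 := by
  have hCp2 : 1 ≤ Cp ^ 2 := one_le_pow₀ hC
  constructor
  · by_contra h
    push Not at h
    have h5 : (1 / 2 : ℝ) ^ 4 ≤ ε ^ 4 := pow_le_pow_left₀ (by norm_num) h.le 4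
    have : 10 ^ 8 * 1 * (1 * (1 / 2 : ℝ) ^ 4 * 1) ≤ 10 ^ 8 * Cp ^ 2 * (l * ε ^ 4 * d) := by gcongr
    linarith
  · have h3 : Cp ≤ 10 ^ 8 * Cp ^ 2 := by nlinarith
    have : Cp * (1 * ε ^ 4 * d) ≤ 10 ^ 8 * Cp ^ 2 * (l * ε ^ 4 * d) := by gcongr
    linarith

lemma br5 (Cp l s d ε T : ℝ) (hC : 1 ≤ Cp) (hl : 1 ≤ l) (hs1 : 1 ≤ s) (hs : s ^ 2 = d) (hε : 0 < ε)
    (hε2 : ε ≤ 1 / 2) (hT : T ≤ 80 * l / ε) (hx : 10 ^ 8 * Cp ^ 2 * (l * ε ^ 4 * d) ≤ 1) :
    T * (Cp ^ 2 * (ε ^ 5 * d)) ≤ 1 / 6400 ∧ T * (4 * (6 * s / (1 / (2 * ε ^ 12)))) ≤ 1 / 3200 := by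
  have hd : 1 ≤ d := by rw [← hs]; exact one_le_pow₀ hs1
  have hsd : s ≤ d := by rw [← hs]; nlinarith
  have hCp2 : 1 ≤ Cp ^ 2 := one_le_pow₀ hC
  constructor
  · calc _ ≤ 80 * l / ε * (Cp ^ 2 * (ε ^ 5 * d)) := by gcongr
      _ = 80 / 10 ^ 8 * (10 ^ 8 * Cp ^ 2 * (l * ε ^ 4 * d)) := by field_simp
      _ ≤ 1 / 6400 := by linarith
  · have h6 : ε ^ 7 ≤ 1 := pow_le_one₀ hε.le (by linarith)
    calc _ ≤ 80 * l / ε * (4 * (6 * s / (1 / (2 * ε ^ 12)))) := by gcongr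
      _ = 3840 * 1 * (l * ε ^ 4 * s) * ε ^ 7 := by field_simp; ring
      _ ≤ 3840 * Cp ^ 2 * (l * ε ^ 4 * d) * 1 := by gcongr
      _ ≤ 1 / 3200 := by linarith

lemma arith2 (Cp : ℝ) (hC : 1 ≤ Cp) (d : ℕ) (ε : ℝ) (hd : 2 ≤ d) (hε : 0 < ε) (h1 : 1 ≤ ε ^ 2 * d)
    (h2 : (10 ^ 8 * Cp ^ 2) ^ 2 * (1 + Real.log d) ^ 2 * ε ^ 8 * d ^ 2 ≤ 1) :
    ∃ (T1 K : ℕ) (e0 : ℝ), 0 < e0 ∧ ε ^ 5 * d ≤ e0 ^ 2 ∧ ε ≤ 1 / 2 ∧ Cp * ε ^ 4 * d ≤ 1 ∧
      ((T1 + 2 + K : ℕ) : ℝ) ≤ 80 * (1 + Real.log d) / ε ∧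
      ((T1 + 2 + K : ℕ) : ℝ) * (Cp * e0) ^ 2 ≤ 1 / 6400 ∧
      ((T1 + 2 + K : ℕ) : ℝ) * (4 * (6 * √d / (1 / (2 * ε ^ 12)))) ≤ 1 / 3200 ∧
      16 * (ε / 2 ^ K) * d ≤ 1 / 6400 ∧
      6 * √d / √(ε / 2) / (1 + ε / 2) ^ T1 ≤ 1 / 20 := by
  have hd1 : (2 : ℝ) ≤ d := by exact_mod_cast hd
  have hlog : 0 ≤ Real.log d := Real.log_nonneg (by linarith)
  have hl1 : 1 ≤ 1 + Real.log d := by linarith
  have hs : √(d : ℝ) ^ 2 = d := Real.sq_sqrt (by linarith)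
  have hs1 : 1 ≤ √(d : ℝ) := by rw [Real.one_le_sqrt]; linarith
  have hAx := br1 Cp _ _ ε hC hl1 (by linarith) hε h2
  obtain ⟨hε2, hc4⟩ := br2 Cp _ _ ε hC hl1 (by linarith) hε hAx
  obtain ⟨n, hn1, hn2⟩ : ∃ n : ℕ, (n : ℝ) ≤ 18 * (1 + Real.log d) ∧ 2 ^ 17 * (d : ℝ) ≤ 2 ^ n := by
    refine ⟨Nat.log 2 d + 18, ?_, ?_⟩
    · have := natlog_le d hd
      push_cast; linarith
    · have h : d < 2 ^ (Nat.log 2 d + 1) := Nat.lt_pow_succ_log_self (by norm_num) d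
      have h' : (d : ℝ) ≤ 2 ^ (Nat.log 2 d + 1) := by exact_mod_cast h.le
      rw [show Nat.log 2 d + 18 = 17 + (Nat.log 2 d + 1) by ring, pow_add]
      gcongr
  obtain ⟨m, hm1, hm2⟩ : ∃ m : ℕ, 2 / ε ≤ m ∧ (m : ℝ) ≤ 3 / ε := by
    refine ⟨⌈2 / ε⌉₊, Nat.le_ceil _, ?_⟩
    have hie : 2 ≤ 1 / ε := by rw [le_div_iff₀ hε]; linarith
    have := Nat.ceil_lt_add_one (show 0 ≤ 2 / ε by positivity)
    have e : 3 / ε = 2 / ε + 1 / ε := by ring
    rw [e]; linarith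
  have hT : ((m * n + 2 + n : ℕ) : ℝ) ≤ 80 * (1 + Real.log d) / ε := by
    push_cast
    exact ar4 _ ε m n hl1 hε hε2 (by positivity) hm2 hn1
  obtain ⟨c1, c2⟩ := br5 Cp _ _ _ ε _ hC hl1 hs1 hs hε hε2 hT hAx
  refine ⟨m * n, n, √(ε ^ 5 * d), by positivity, ?_, hε2, hc4, hT, ?_, c2, ?_, ?_⟩
  · rw [Real.sq_sqrt (by positivity)]
  · rw [mul_pow, Real.sq_sqrt (by positivity)]
    exact c1
  · rw [show 16 * (ε / 2 ^ n) * d = 16 * ε * d / 2 ^ n by ring, div_le_iff₀ (by positivity)]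
    have : ε * d ≤ 1 / 2 * d := by gcongr
    linarith
  · have b1 : (2 : ℝ) ≤ (1 + ε / 2) ^ m := by
      have := one_add_mul_le_pow (show (-2 : ℝ) ≤ ε / 2 by linarith) m
      have h' : 1 ≤ (m : ℝ) * (ε / 2) := by
        rw [div_le_iff₀ hε] at hm1; linarith
      linarith
    have b2 : (2 : ℝ) ^ n ≤ (1 + ε / 2) ^ (m * n) := by
      rw [pow_mul]; exact pow_le_pow_left₀ (by norm_num) b1 n
    exact ar3 _ _ ε _ hs1 hs hε hε2 h1 (hn2.trans b2)

lemma cnt (J n y : ℝ) (hJ0 : 0 ≤ J) (hy : 1 ≤ y) (hJ : J ≤ y) (hn : n ≤ 2 * J ^ 3) :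
    13 + J + J * (J + 2) + 4 * n ≤ 25 * y ^ 3 := by
  have h3 : J ^ 3 ≤ y ^ 3 := pow_le_pow_left₀ hJ0 hJ 3
  have h2 : J ^ 2 ≤ y ^ 2 := pow_le_pow_left₀ hJ0 hJ 2
  have h1 : y ≤ y ^ 3 := by nlinarith
  have h4 : y ^ 2 ≤ y ^ 3 := by nlinarith
  nlinarith

lemma step1b (hRel : RelApi) (hG : StmtGib1) (hCls : StmtCls) (hMeas : StmtMeas2) (p : Par2)
    (ν : Measure (Td d)) {ε e : ℝ} (hP : ∀ (t : ℝ) (W : E d → ℝ) (G : E d → E d), 1 / 2 ≤ t → t ≤ 1 →
      Pot W G → Nice ε G → Rel (sm (mu W) (√2 * t)) (ν.map (prim2 p G t)) e)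
    {V : E d → ℝ} (hV : InClass V) {η η' : ℝ} (hη : 0 < η) (h1 : η ≤ 2 * η') (h2 : η' ≤ η)
    (h3 : 2 * η ≤ ε) (h4 : ε ≤ 1 / 2) (y : E d) (hy : 2 * ‖y‖ * (2 * η) ^ 12 ≤ 1) :
    Rel (sm (prox η V y) √η') (ν.map fun a => stp2 p η η' (gradient V) y a) e := by
  have hη' : 0 < η' := by linarith
  set c := cen η (gradient V) y 13 with hc
  have hN := (hCls d V hV).nice η ε y hη h3 h4 hy
  have hPo := (hCls d V hV).pot η y c hη
  have := mu_prob hG hV hη y c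
  have ht1 : 1 / 2 ≤ √(η' / (2 * η)) := by
    apply Real.le_sqrt_of_sq_le
    rw [le_div_iff₀ (by positivity)]; linarith
  have ht2 : √(η' / (2 * η)) ≤ 1 := by
    rw [Real.sqrt_le_one, div_le_iff₀ (by positivity)]; linarith
  have hR := hRel.map _ _ _ _ _ (fun z => c + √η • z) (by fun_prop) (hP _ _ _ ht1 ht2 hPo hN)
  have e1 : √η' = √η * (√2 * √(η' / (2 * η))) := by
    rw [← Real.sqrt_mul (by norm_num), ← Real.sqrt_mul hη.le]
    congr 1; field_simp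
  rw [((hG d V hV).2 η hη).2.2.2 y c, e1, sm_aff]
  have hm : Measurable (prim2 p (GG η (gradient V) y c) √(η' / (2 * η))) :=
    (((hMeas d p).1 _ hN.c1.continuous).2.2 _).1.measurable
  rw [Measure.map_map (by fun_prop) hm] at hR
  have e2 : (fun a => stp2 p η η' (gradient V) y a) =
      (fun z => c + √η • z) ∘ prim2 p (GG η (gradient V) y c) √(η' / (2 * η)) := by
    funext a
    simp only [stp2, hη'.ne', if_false, Function.comp, hc]
  rw [e2]; exact hR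

lemma step2b (hRel : RelApi) (hG : StmtGib1) (hCls : StmtCls) (hLast : StmtLast) (p : Par2)
    (ν : Measure (Tw d)) [IsProbabilityMeasure ν] (hd : 1 ≤ d)
    {V : E d → ℝ} (hV : InClass V) {η : ℝ} (hη : 0 < η)
    (h3 : 16 * (2 * η) * d ≤ 1 / 6400) (y : E d) (hy : 2 * ‖y‖ * (2 * η) ^ 12 ≤ 1) :
    Rel (sm (prox η V y) √0) (((gs d).prod ν).map fun a => stp2 p η 0 (gradient V) y a) (1 / 80) := by
  set c := cen η (gradient V) y 13 with hc
  have hd1 : (1 : ℝ) ≤ d := by exact_mod_cast hd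
  have hN := (hCls d V hV).nice η (2 * η) y hη le_rfl (by nlinarith) hy
  have hPo := (hCls d V hV).pot η y c hη
  have := ((hG d V hV).2 η hη).1 y
  have hR : Rel (mu (WW η V y c)) (gs d) (1 / 80) := by
    refine hRel.tv _ _ _ _ (by norm_num) fun φ hφ hb => ?_
    have := hLast d (2 * η) _ _ hd (by positivity) (by nlinarith) hPo hN φ hφ hb
    linarith
  have hR2 := hRel.map _ _ _ _ _ (fun z => c + √η • z) (by fun_prop) hR
  rw [Real.sqrt_zero, sm_zero, ((hG d V hV).2 η hη).2.2.2 y c]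
  have e2 : (fun a : Td d => stp2 p η 0 (gradient V) y a) = (fun z => c + √η • z) ∘ Prod.fst := by
    funext a
    simp only [stp2, if_true, Function.comp, hc]
  rw [e2, ← Measure.map_map (by fun_prop) measurable_fst]
  have : ((gs d).prod ν).map Prod.fst = gs d := Measure.fst_prod
  rw [this]; exact hR2

end Vale.Agent.P347.Top2m

namespace Vale.Agent.P347

open Topm Top2m

theorem stmtTop2 (hChain : StmtChain) (hRel : RelApi) (hPrim : StmtPrim2) (hLast : StmtLast)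
    (hTopI : StmtTopI) (hG : StmtGib1) (hCls : StmtCls) (hAlg : StmtAlg2) (hMeas : StmtMeas2) :
    StmtTop2 := by
  obtain ⟨Cp, hCp, hP⟩ := hPrim
  have hCp2 : Cp ≤ Cp ^ 2 := by nlinarith
  have hC1 : 2000 * Cp ^ 3 ≤ (10 ^ 8 * Cp ^ 2) ^ 2 := by
    have : (10 ^ 8 * Cp ^ 2) ^ 2 = 10 ^ 16 * Cp * Cp ^ 3 := by ring
    have h3 : 0 ≤ Cp ^ 3 := by positivity
    rw [this]; gcongr; linarith
  have hC3 : 1 ≤ Cp ^ 3 := one_le_pow₀ hCp
  refine ⟨(10 ^ 8 * Cp ^ 2) ^ 2, by linarith, fun d ε hd hε h1 h2 => ?_⟩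
  obtain ⟨T1, K, e0, he0, he1, hε2, hc4, hT, hA1, hA2, hA3, hA4⟩ := arith2 Cp hCp d ε hd hε h1 h2
  obtain ⟨p, hJ, hn, hR⟩ := hP d ε e0 hd hε h1 hc4 he0 he1
  set T := T1 + 2 + K with hTd
  have hd1 : (2 : ℝ) ≤ d := by exact_mod_cast hd
  have hlog : 0 ≤ Real.log d := Real.log_nonneg (by linarith)
  refine ⟨T * (13 + p.p.J + p.p.J * (p.p.J + 2) + 4 * p.n), ?_, ?_⟩
  · have hl : 1 ≤ (1 + Real.log d) ^ 2 := one_le_pow₀ (by linarith)
    have hn' : (p.n : ℝ) ≤ 2 * (p.p.J : ℝ) ^ 3 := by exact_mod_cast hn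
    have h3 := cnt p.p.J p.n (Cp * (1 + Real.log d) ^ 2) (by positivity) (by nlinarith) hJ hn'
    rw [Nat.cast_mul]
    calc _ ≤ 80 * (1 + Real.log d) / ε * (25 * (Cp * (1 + Real.log d) ^ 2) ^ 3) := by
          apply mul_le_mul hT _ (by positivity) (by positivity)
          push_cast; exact h3
      _ = 2000 * Cp ^ 3 * (1 + Real.log d) ^ 7 / ε := by ring
      _ ≤ _ := by gcongr
  obtain ⟨qr, out, hq, ho, hF⟩ := hAlg d p (sch ε T1 T) T
  have : IsProbabilityMeasure (twM d) := by unfold twM; infer_instance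
  have : IsProbabilityMeasure (tdM d) := by unfold tdM; infer_instance
  refine ⟨Fin T → Td d, inferInstance, inferInstance, Measure.pi fun _ => tdM d,
    inferInstance, qr, out, hq, ho, fun V hV B hB => ?_⟩
  set η := sch ε T1 T with hη
  have hηp : ∀ t < T, 0 < η t ∧ η t ≤ 1 / 4 := fun t ht => by
    have := sch_pos (T1 := T1) hε ht
    exact ⟨this.1, by linarith [this.2]⟩
  have hηT : η T = 0 := by simp [hη, sch]
  obtain ⟨hI1, hI2⟩ := hTopI d V hV η T hηp hηT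
  set R : ℝ := 1 / (2 * ε ^ 12) with hRd
  have hm : ∀ t < T, Measurable (PK η V t) := fun t ht =>
    ((hG d V hV).2 _ (hηp t ht).1).2.2.1 _
  have hp : ∀ t < T, ∀ y, IsProbabilityMeasure (PK η V t y) := fun t ht y => by
    have := ((hG d V hV).2 _ (hηp t ht).1).1 y
    unfold PK; infer_instance
  have hT1 : (1 : ℝ) ≤ (T : ℕ) := by exact_mod_cast (show 1 ≤ T by omega)
  have hce : Cp * e0 ≤ 1 := by
    have : (Cp * e0) ^ 2 ≤ 1 := by nlinarith [sq_nonneg (Cp * e0)]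
    by_contra h
    push Not at h
    nlinarith
  have hce0 : 0 ≤ Cp * e0 := by positivity
  have hch := hChain (E d) (Td d) 0 (PK η V)
    (fun t q => stp2 p (η t) (η (t + 1)) (gradient V) q.1 q.2) (tdM d)
    (fun t y => if ‖y‖ ≤ R then (if t + 1 < T then Cp * e0 else 1 / 80) else 2) T (1 / 40) hm hp
    (fun t => ((hMeas d p).2 _ _ _ (hCls d V hV).cont).measurable)
    (fun t => Measurable.ite (measurableSet_le measurable_norm measurable_const) measurable_const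
      measurable_const)
    (fun t y => by
      constructor <;> split_ifs <;> linarith)
    (fun t ht y => by
      by_cases hy : ‖y‖ ≤ R
      · have hs := sch_pos (T1 := T1) hε ht
        have hy2 : 2 * ‖y‖ * (2 * η t) ^ 12 ≤ 1 := by
          have a1 : (2 * η t) ^ 12 ≤ ε ^ 12 := pow_le_pow_left₀ (by linarith [hs.1]) hs.2 12
          calc _ ≤ 2 * R * ε ^ 12 := by gcongr
            _ = 1 := by rw [hRd]; field_simp
        simp only [hy, if_true]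
        by_cases h3 : t + 1 < T
        · simp only [h3, if_true]
          have h5 := sch_step (T1 := T1) hε h3
          exact step1b hRel hG hCls hMeas p _ hR hV hs.1 h5.1 h5.2 hs.2 hε2 y hy2
        · simp only [h3, if_false]
          have h4 : t + 1 = T := by omega
          unfold PK
          rw [h4, hηT]
          refine step2b hRel hG hCls hLast p _ (by omega) hV hs.1 ?_ y hy2
          have : 2 * sch ε T1 T t = ε / 2 ^ K := by
            simp only [sch, ht, if_true]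
            rw [show t - (T1 + 1) = K by omega]; ring
          rw [this]; exact hA3
      · simp only [hy, if_false]
        have := hp t ht y
        have : IsProbabilityMeasure ((tdM d).map fun a =>
            stp2 p (η t) (η (t + 1)) (gradient V) y a) :=
          Measure.isProbabilityMeasure_map
            (((hMeas d p).2 _ _ _ (hCls d V hV).cont).comp
              (Continuous.prodMk_right y)).measurable.aemeasurable
        exact hRel.triv _ _ _)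
    (by norm_num) (by norm_num)
    (by
      have hb : ∀ t ∈ range T, ∫ y, (if ‖y‖ ≤ R then (if t + 1 < T then Cp * e0 else 1 / 80) else 2) ^ 2
          ∂lawP 0 (PK η V) t ≤ ((Cp * e0) ^ 2 + 4 * (6 * √d / R)) +
            (if t = T - 1 then 1 / 6400 else 0) := by
        intro t ht
        have ht' := mem_range.1 ht
        have := lawP_prob 0 (PK η V) T hm hp t ht'.le
        have a1 := int_err (lawP 0 (PK η V) t) R (if t + 1 < T then Cp * e0 else 1 / 80)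
        have a2 := hI1 t ht' R (by positivity)
        refine a1.trans ?_
        by_cases h3 : t + 1 < T
        · have : t ≠ T - 1 := by omega
          simp only [h3, this, if_true, if_false]
          linarith
        · have : t = T - 1 := by omega
          simp only [h3, if_false]
          rw [if_pos this]
          nlinarith [sq_nonneg (Cp * e0)]
      refine (sum_le_sum hb).trans ?_
      rw [sum_add_distrib, sum_const, card_range, sum_ite_eq', nsmul_eq_mul, mul_add]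
      split_ifs <;> linarith)
  obtain ⟨hrm, hch⟩ := hch
  have hφm : Measurable (B.indicator fun _ : E d => (1 : ℝ)) := measurable_const.indicator hB
  have hφb : ∀ x, 0 ≤ B.indicator (fun _ : E d => (1 : ℝ)) x ∧
      B.indicator (fun _ : E d => (1 : ℝ)) x ≤ 1 := fun x => by
    by_cases hx : x ∈ B <;> simp [hx]
  have b1 := hch _ hφm hφb
  have b2 := hI2 T1 (ε / 2) (by omega) (fun t ht => by
    simp only [hη, sch, show t < T by omega, if_true]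
    rw [show t - (T1 + 1) = 0 by omega]; simp) _ hφm
    (fun x => by rw [abs_of_nonneg (hφb x).1]; exact (hφb x).2)
  have e1 : (fun ω => out (ω, hist qr (fun x => (V x, gradient V x)) ω (T * (13 + p.p.J + p.p.J * (p.p.J + 2) + 4 * p.n)))) =
      run (0 : E d) (fun t q => stp2 p (η t) (η (t + 1)) (gradient V) q.1 q.2) T := by
    funext ω; exact hF _ ω
  rw [e1]
  rw [← integral_map hrm.aemeasurable hφm.aestronglyMeasurable] at b1
  have e2 : ∀ μ : Measure (E d), ∫ x, B.indicator (fun _ : E d => (1 : ℝ)) x ∂μ = μ.real B :=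
    fun μ => by rw [integral_indicator hB]; simp
  rw [e2, e2] at b1 b2
  rw [abs_le] at b1 b2 ⊢
  constructor <;> linarith [b1.1, b1.2, b2.1, b2.2]

end Vale.Agent.P347
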