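import Vale.Agent.P347.Spec2
import Vale.Agent.P347.FD
import Vale.Agent.P347.Fo

open MeasureTheory ProbabilityTheory Finset
open scoped RealInnerProductSpace ENNReal

namespace Vale.Agent.P347

noncomputable section

namespace VTm

variable {d : ℕ}

lemma dec {X Y : Type} [MeasurableSpace X] [MeasurableSpace Y] (μ : Measure X) (ν : Measure Y)
    [IsProbabilityMeasure μ] [IsProbabilityMeasure ν] {f : X × Y → ℝ} (hf : Measurable f)
    {B V W : ℝ} (hB : ∀ p, |f p| ≤ B)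
    (h1 : ∀ x, ∫ y, f (x, y) ^ 2 ∂ν - (∫ y, f (x, y) ∂ν) ^ 2 ≤ V)
    (h2 : ∫ x, (∫ y, f (x, y) ∂ν) ^ 2 ∂μ - (∫ x, ∫ y, f (x, y) ∂ν ∂μ) ^ 2 ≤ W) :
    ∫ p, f p ^ 2 ∂μ.prod ν - (∫ p, f p ∂μ.prod ν) ^ 2 ≤ V + W := by
  have sq : ∀ t : ℝ, |t| ≤ B → ‖t ^ 2‖ ≤ B ^ 2 := fun t h => by
    rw [norm_pow]; exact pow_le_pow_left₀ (norm_nonneg _) h 2
  have i1 : Integrable f (μ.prod ν) := .of_bound hf.aestronglyMeasurable B (.of_forall hB)
  have i2 : Integrable (fun p => f p ^ 2) (μ.prod ν) :=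
    .of_bound (hf.pow_const 2).aestronglyMeasurable (B ^ 2) (.of_forall fun p => sq _ (hB p))
  have i3 : Integrable (fun x => (∫ y, f (x, y) ∂ν) ^ 2) μ :=
    .of_bound (i1.integral_prod_left.aestronglyMeasurable.pow 2) (B ^ 2)
      (.of_forall fun x => sq _ (FDm.absI _ _ _ fun y => hB _))
  have := integral_mono i2.integral_prod_left ((integrable_const V).add i3) fun x => by
    have := h1 x
    simp only [Pi.add_apply]
    linarith
  simp only [Pi.add_apply] at this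
  rw [integral_add (integrable_const V) i3] at this
  simp only [integral_const, probReal_univ, one_smul] at this
  rw [integral_prod _ i1, integral_prod _ i2]
  linarith

def T (B : E d →L[ℝ] E d) : (E d →L[ℝ] E d) →L[ℝ] ℝ :=
  ∑ i, (innerSL ℝ (ee i)).comp ((ContinuousLinearMap.apply ℝ (E d) (ee i)).comp
    (ContinuousLinearMap.compL ℝ (E d) (E d) (E d) B))

lemma T_eq (B M : E d →L[ℝ] E d) : trc (B.comp M) = T B M := by simp [T, trc]

def H (G : E d → E d) (σ : ℝ) (x : E d) : E d →L[ℝ] E d := ∫ g, fderiv ℝ G (x + σ • g) ∂gs d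

variable {ε : ℝ} {G : E d → E d}

lemma nD (hε : 0 ≤ ε) (hG : Nice ε G) (x : E d) : ‖fderiv ℝ G x‖ ≤ ε :=
  ContinuousLinearMap.opNorm_le_bound _ hε (FDm.nD hε hG x)

lemma nH (hε : 0 ≤ ε) (hG : Nice ε G) (σ : ℝ) (x : E d) : ‖H G σ x‖ ≤ ε := by
  simpa [H] using norm_integral_le_of_norm_le_const (μ := gs d)
    (f := fun g => fderiv ℝ G (x + σ • g)) (.of_forall fun g => nD hε hG _)

lemma iT (hε : 0 ≤ ε) (hG : Nice ε G) (B : E d →L[ℝ] E d) (σ : ℝ) (x : E d) :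
    ∫ g, trc (B.comp (fderiv ℝ G (x + σ • g))) ∂gs d = trc (B.comp (H G σ x)) := by
  have hc := FDm.cD hG
  simp only [T_eq]
  exact (T B).integral_comp_comm (.of_bound
    (Continuous.aestronglyMeasurable (by fun_prop)) ε (.of_forall fun g => nD hε hG _))

lemma dv (hDV : StmtDV) (hε : 0 ≤ ε) (hG : Nice ε G) (B : E d →L[ℝ] E d) (σ : ℝ) (x : E d) :
    ∫ g, trc (B.comp (fderiv ℝ G (x + σ • g))) ^ 2 ∂gs d -
      (∫ g, trc (B.comp (fderiv ℝ G (x + σ • g))) ∂gs d) ^ 2 ≤ 30 * ε ^ 2 * Fo B := by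
  by_cases h : σ = 0
  · have := Fom.Fo_nonneg B
    simp only [h, zero_smul, add_zero, integral_const, probReal_univ, one_smul, sub_self]
    positivity
  have e : ∀ g, fderiv ℝ (fun g => σ⁻¹ • G (x + σ • g)) g = fderiv ℝ G (x + σ • g) := fun g => by
    have h1 : HasFDerivAt (fun g : E d => x + σ • g) (σ • ContinuousLinearMap.id ℝ (E d)) g :=
      ((hasFDerivAt_id g).const_smul σ).const_add x
    have h2 := (((hG.c1.differentiable one_ne_zero _).hasFDerivAt).comp g h1).const_smul σ⁻¹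
    rw [ContinuousLinearMap.comp_smul, ContinuousLinearMap.comp_id, smul_smul, inv_mul_cancel₀ h,
      one_smul] at h2
    exact h2.fderiv
  have := hDV d ε (fun g => σ⁻¹ • G (x + σ • g)) B hε
    ((hG.c1.comp (contDiff_const.add (contDiff_id.const_smul σ))).const_smul σ⁻¹) fun u v => by
      have := hG.lip (x + σ • u) (x + σ • v)
      rw [add_sub_add_left_eq_sub, ← smul_sub, norm_smul] at this
      rw [← smul_sub, norm_smul, norm_inv, inv_mul_le_iff₀ (norm_pos_iff.2 h)]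
      linarith
  simpa only [e] using this

lemma fl (hb : HbApi ε G) (hε : 0 ≤ ε) {κ θ : ℝ} (h0 : 0 < κ) (h1 : κ ≤ Real.cos θ) (s : ℝ)
    (x u v : E d) : √(Fo (H G (s * Real.cos θ) (x + (s * Real.sin θ) • u) -
      H G (s * Real.cos θ) (x + (s * Real.sin θ) • v))) ≤ ε * ‖u - v‖ / κ := by
  refine Real.sqrt_le_iff.2 ⟨by positivity, ?_⟩
  by_cases h : s = 0
  · simp only [h, zero_mul, zero_smul, sub_self, Fo, Fq]
    simp
    positivity
  have := hb.flip' (s * Real.cos θ) (x + (s * Real.sin θ) • u) (x + (s * Real.sin θ) • v)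
  rw [add_sub_add_left_eq_sub, ← smul_sub, norm_smul, mul_pow, mul_pow, Real.norm_eq_abs, sq_abs,
    mul_pow] at this
  have p : 0 < s ^ 2 := by positivity
  have p0 := Fom.Fo_nonneg (H G (s * Real.cos θ) (x + (s * Real.sin θ) • u) -
      H G (s * Real.cos θ) (x + (s * Real.sin θ) • v))
  rw [div_pow, le_div_iff₀ (by positivity)]
  refine le_of_mul_le_mul_left ?_ p
  have a1 : κ ^ 2 ≤ Real.cos θ ^ 2 := by gcongr
  have a2 := Real.sin_sq_le_one θ
  calc _ = s ^ 2 * κ ^ 2 * Fo (H G (s * Real.cos θ) (x + (s * Real.sin θ) • u) -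
        H G (s * Real.cos θ) (x + (s * Real.sin θ) • v)) := by ring
    _ ≤ s ^ 2 * Real.cos θ ^ 2 * Fo (H G (s * Real.cos θ) (x + (s * Real.sin θ) • u) -
        H G (s * Real.cos θ) (x + (s * Real.sin θ) • v)) := by gcongr
    _ ≤ ε ^ 2 * (s ^ 2 * Real.sin θ ^ 2 * ‖u - v‖ ^ 2) := this
    _ ≤ ε ^ 2 * (s ^ 2 * 1 * ‖u - v‖ ^ 2) := by gcongr
    _ = _ := by ring

lemma cy (fo : FoApi d) (A M M' : E d →L[ℝ] E d) :
    trc ((A.comp M).comp M') = trc ((M'.comp A).comp M) := by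
  rw [fo.trcc, ContinuousLinearMap.comp_assoc]

lemma r1 (fo : FoApi d) (A : E d →L[ℝ] E d) {M : E d →L[ℝ] E d} (h : ‖M‖ ≤ ε) :
    Fo (A.comp M) ≤ ε ^ 2 * Fo A :=
  (fo.right _ _).trans (by have := Fom.Fo_nonneg A; rw [mul_comm]; gcongr)

lemma r2 (fo : FoApi d) (A : E d →L[ℝ] E d) {M : E d →L[ℝ] E d} (h : ‖M‖ ≤ ε) :
    Fo (M.comp A) ≤ ε ^ 2 * Fo A :=
  (fo.left _ _).trans (by have := Fom.Fo_nonneg A; gcongr)

lemma r3 (hε : 0 ≤ ε) {A M : E d →L[ℝ] E d} (h : Fo M ≤ ε ^ 2 * Fo A) : √(Fo M) ≤ ε * √(Fo A) :=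
  (Real.sqrt_le_sqrt h).trans_eq (by rw [Real.sqrt_mul (sq_nonneg _), Real.sqrt_sq hε])

lemma lp (fo : FoApi d) (hε : 0 ≤ ε) (A P P' R R' : E d →L[ℝ] E d) {b : ℝ} (n1 : ‖P‖ ≤ ε)
    (n2 : ‖R'‖ ≤ ε) (a1 : √(Fo (P - P')) ≤ b) (a2 : √(Fo (R - R')) ≤ b) :
    ‖trc ((A.comp P).comp R) - trc ((A.comp P').comp R')‖ ≤ 2 * ε * √(Fo A) * b := by
  have e1 : trc ((A.comp P).comp R) - trc ((A.comp P').comp R') =
      trc ((A.comp P).comp (R - R')) + trc ((R'.comp A).comp (P - P')) := by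
    rw [cy fo A P' R', T_eq _ (R - R'), T_eq _ (P - P'), map_sub, map_sub, ← T_eq, ← T_eq, ← T_eq,
      ← T_eq, cy fo A P R']
    ring
  have b1 := (fo.trcs (A.comp P) (R - R')).trans
    (mul_le_mul (r3 hε (r1 fo A n1)) a2 (Real.sqrt_nonneg _) (by positivity))
  have b2 := (fo.trcs (R'.comp A) (P - P')).trans
    (mul_le_mul (r3 hε (r2 fo A n2)) a1 (Real.sqrt_nonneg _) (by positivity))
  rw [e1]
  exact ((abs_add_le _ _).trans (add_le_add b1 b2)).trans_eq (by ring)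

def ff (G : E d → E d) (A : E d →L[ℝ] E d) (x x' : E d) (σ σ' : ℝ) (p : E d × E d) : ℝ :=
  trc ((A.comp (fderiv ℝ G (x + σ • p.1))).comp (fderiv ℝ G (x' + σ' • p.2)))

lemma cf (hG : Nice ε G) (A : E d →L[ℝ] E d) (σ σ' : ℝ) {X : Type} [TopologicalSpace X]
    {x x' : X → E d} {p : X → E d × E d} (h1 : Continuous x) (h2 : Continuous x')
    (h3 : Continuous p) : Continuous fun t => ff G A (x t) (x' t) σ σ' (p t) := by
  have hc := FDm.cD hG
  simp only [ff, trc, ContinuousLinearMap.comp_apply]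
  fun_prop

lemma bf (fo : FoApi d) (hε : 0 ≤ ε) (hG : Nice ε G) (A : E d →L[ℝ] E d) (x x' : E d) (σ σ' : ℝ)
    (p : E d × E d) : |ff G A x x' σ σ' p| ≤ ε * √(Fo A) * √(d * ε ^ 2) := by
  refine (fo.trcs _ _).trans (mul_le_mul (r3 hε (r1 fo A (nD hε hG _)))
    (Real.sqrt_le_sqrt ((fo.dim _).trans ?_)) (Real.sqrt_nonneg _) (by positivity))
  gcongr
  exact nD hε hG _

lemma i1 (fo : FoApi d) (hε : 0 ≤ ε) (hG : Nice ε G) (A : E d →L[ℝ] E d) (x x' : E d) (σ σ' : ℝ)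
    (u : E d) : ∫ v, ff G A x x' σ σ' (u, v) ∂gs d =
      trc (((H G σ' x').comp A).comp (fderiv ℝ G (x + σ • u))) := by
  rw [← cy fo, ← iT hε hG]
  rfl

lemma i2 (fo : FoApi d) (hε : 0 ≤ ε) (hG : Nice ε G) (A : E d →L[ℝ] E d) (x x' : E d) (σ σ' : ℝ) :
    ∫ p, ff G A x x' σ σ' p ∂(gs d).prod (gs d) = trc ((A.comp (H G σ x)).comp (H G σ' x')) := by
  rw [integral_prod _ (FDm.intg _ _ _
    (cf hG A σ σ' continuous_const continuous_const continuous_id') (bf fo hε hG A x x' σ σ'))]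
  simp only [i1 fo hε hG]
  rw [iT hε hG, cy fo A]

lemma v2 (fo : FoApi d) (hDV : StmtDV) (hε : 0 ≤ ε) (hG : Nice ε G) (A : E d →L[ℝ] E d)
    (x x' : E d) (σ σ' : ℝ) : ∫ p, ff G A x x' σ σ' p ^ 2 ∂(gs d).prod (gs d) -
      (∫ p, ff G A x x' σ σ' p ∂(gs d).prod (gs d)) ^ 2 ≤
      30 * ε ^ 2 * (ε ^ 2 * Fo A) + 30 * ε ^ 2 * (ε ^ 2 * Fo A) := by
  refine dec (gs d) (gs d) (cf hG A σ σ' continuous_const continuous_const continuous_id').measurable
    (bf fo hε hG A x x' σ σ') (fun u => ?_) ?_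
  · exact (dv hDV hε hG (A.comp (fderiv ℝ G (x + σ • u))) σ' x').trans
      (mul_le_mul_of_nonneg_left (r1 fo A (nD hε hG _)) (by positivity))
  · simp only [i1 fo hε hG]
    exact (dv hDV hε hG _ _ _).trans
      (mul_le_mul_of_nonneg_left (r2 fo A (nH hε hG _ _)) (by positivity))

end VTm

open VTm in
theorem stmtVT (_h1 : StmtG1) (hGP : StmtGP) (hFo : StmtFo) (hHb : StmtHb) (hDV : StmtDV) :
    StmtVT := by
  refine ⟨68, by norm_num, fun d ε κ G a w A hε hG h0 h1 => ?_⟩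
  obtain ⟨c, τ, τ', θ⟩ := a
  have fo := hFo d
  have hb := hHb d ε G hε hG
  obtain ⟨A', hA'⟩ : ∃ A', A' = c • A := ⟨_, rfl⟩
  have fA : Fo A' = c ^ 2 * Fo A := by
    simp only [hA', Fo, Fq, mul_sum, smul_apply, inner_smul_right, mul_pow]
  have p0 := Fom.Fo_nonneg A'
  have e : ∀ z : E d × E d × E d, trc (A.comp (HH G (c, τ, τ', θ) w z)) =
      ff G A' (τ • w + (sg τ * Real.sin θ) • z.1) (τ' • w + (sg τ' * Real.sin θ) • z.1)
        (sg τ * Real.cos θ) (sg τ' * Real.cos θ) z.2 := fun z => by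
    simp only [ff, HH, qa, qb, hA', smul_add, smul_smul, add_assoc, ContinuousLinearMap.comp_smul,
      ContinuousLinearMap.smul_comp, ContinuousLinearMap.comp_assoc]
  simp only [e]
  have c1 : Continuous fun z : E d × E d × E d => τ • w + (sg τ * Real.sin θ) • z.1 := by fun_prop
  have c2 : Continuous fun z : E d × E d × E d => τ' • w + (sg τ' * Real.sin θ) • z.1 := by fun_prop
  have c3 := cf hG A' (sg τ * Real.cos θ) (sg τ' * Real.cos θ) c1 c2 continuous_snd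
  have j := fun z1 : E d => i2 fo hε hG A' (τ • w + (sg τ * Real.sin θ) • z1)
    (τ' • w + (sg τ' * Real.sin θ) • z1) (sg τ * Real.cos θ) (sg τ' * Real.cos θ)
  have l := (hGP d).lipv (fun z1 => trc ((A'.comp (H G (sg τ * Real.cos θ)
    (τ • w + (sg τ * Real.sin θ) • z1))).comp (H G (sg τ' * Real.cos θ)
    (τ' • w + (sg τ' * Real.sin θ) • z1)))) (2 * ε * √(Fo A') * (ε / κ)) (by positivity)
    fun u v => (lp fo hε A' _ _ _ _ (nH hε hG _ _) (nH hε hG _ _) (fl hb hε h0 h1 (sg τ) (τ • w) u v)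
      (fl hb hε h0 h1 (sg τ') (τ' • w) u v)).trans_eq (by ring)
  simp only [← j] at l
  have key := dec (gs d) ((gs d).prod (gs d)) c3.measurable
    (fun z => bf fo hε hG A' (τ • w + (sg τ * Real.sin θ) • z.1) (τ' • w + (sg τ' * Real.sin θ) • z.1)
      (sg τ * Real.cos θ) (sg τ' * Real.cos θ) z.2)
    (fun z1 => v2 fo hDV hε hG A' (τ • w + (sg τ * Real.sin θ) • z1)
      (τ' • w + (sg τ' * Real.sin θ) • z1) (sg τ * Real.cos θ) (sg τ' * Real.cos θ)) l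
  refine key.trans ?_
  have k1 : κ ^ 2 ≤ 1 := pow_le_one₀ h0.le (h1.trans (Real.cos_le_one _))
  have k2 : ε ^ 4 * Fo A' ≤ ε ^ 4 * Fo A' / κ ^ 2 :=
    le_div_self (by positivity) (by positivity) k1
  rw [mul_pow, mul_pow, Real.sq_sqrt p0]
  calc _ = 60 * (ε ^ 4 * Fo A') + 8 * (ε ^ 4 * Fo A' / κ ^ 2) := by ring
    _ ≤ 60 * (ε ^ 4 * Fo A' / κ ^ 2) + 8 * (ε ^ 4 * Fo A' / κ ^ 2) := by gcongr
    _ = _ := by rw [fA]; ring

end

end Vale.Agent.P347
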