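import Vale.Agent.P347.Spec2

open MeasureTheory ProbabilityTheory Finset
open scoped RealInnerProductSpace ENNReal

namespace Vale.Agent.P347

noncomputable section

namespace WL2m

variable {d : ℕ}

theorem cont {K : ℝ} {f : E d → ℝ} (h : LipF K f) : Continuous f :=
  (LipschitzWith.of_dist_le' (K := K) fun x y => by
    simpa only [dist_eq_norm] using h x y).continuous

theorem lg {K : ℝ} {f : E d → ℝ} (hK : 0 ≤ K) (h : LipF K f) : LG f := by
  refine ⟨(cont h).measurable, |f 0| + K, fun x => ?_⟩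
  have h1 := h x 0
  rw [sub_zero, Real.norm_eq_abs] at h1
  have h2 := abs_sub_abs_le_abs_sub (f x) (f 0)
  nlinarith [norm_nonneg x, abs_nonneg (f 0)]

theorem intL {K : ℝ} {f : E d → ℝ} (hK : 0 ≤ K) (h : LipF K f) {Ω : Type} [MeasurableSpace Ω]
    {μ : Measure Ω} [IsFiniteMeasure μ] {X : Ω → E d} (m : Measurable X) (hX : Integrable X μ) :
    Integrable (fun ω => f (X ω)) μ := by
  obtain ⟨mf, B, hB⟩ := lg hK h
  exact (((integrable_const 1).add hX.norm).const_mul B).mono'
    (mf.comp m).aestronglyMeasurable (.of_forall fun ω => hB _)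

theorem bes1 (hS : SMApi d) (hG : GPApi d) {K s : ℝ} {φ : E d → ℝ} (hK : 0 ≤ K) (hs : 0 < s)
    (h : LipF K φ) (x : E d) : ∑ i, Si s i φ x ^ 2 ≤ 2 * K ^ 2 := by
  refine (hS.bes s φ hs (lg hK h) x).trans ?_
  have := hG.lipv (fun g => φ (x + s • g)) (K * s) (by positivity) fun a b => by
    refine (h _ _).trans (le_of_eq ?_)
    rw [add_sub_add_left_eq_sub, ← smul_sub, norm_smul, Real.norm_of_nonneg hs.le, mul_assoc]
  rw [div_le_iff₀ (by positivity)]
  unfold SS
  linarith

theorem nrm (c : Fin d → ℝ) : ‖∑ j, c j • innerSL ℝ (ee j : E d)‖ ^ 2 = ∑ j, c j ^ 2 := by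
  have : ∑ j, c j • innerSL ℝ (ee j : E d) = innerSL ℝ (WithLp.toLp 2 c : E d) := by
    ext v
    simp [ee, PiLp.inner_apply, EuclideanSpace.inner_single_left, mul_comm]
  rw [this, innerSL_apply_norm, EuclideanSpace.real_norm_sq_eq]

theorem quad {Ω : Type} [MeasurableSpace Ω] {μ : Measure Ω} [IsProbabilityMeasure μ] {X Y : Ω → ℝ}
    (hX : MemLp X 2 μ) (hY : MemLp Y 2 μ) (h0 : ∫ ω, X ω ∂μ = 0) (t : ℝ) :
    0 ≤ (∫ ω, X ω * X ω ∂μ) * (t * t) + (-2 * ∫ ω, X ω * Y ω ∂μ) * t +
      (∫ ω, Y ω ^ 2 ∂μ - (∫ ω, Y ω ∂μ) ^ 2) := by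
  obtain ⟨m, hm⟩ : ∃ m, m = ∫ ω, Y ω ∂μ := ⟨_, rfl⟩
  have i1 : Integrable (fun ω => X ω * X ω) μ := hX.integrable_mul hX
  have i2 : Integrable (fun ω => X ω * Y ω) μ := hX.integrable_mul hY
  have i3 : Integrable (fun ω => Y ω ^ 2) μ := hY.integrable_sq
  have i4 := hX.integrable one_le_two
  have i5 := hY.integrable one_le_two
  have e : ∀ ω, (t * X ω - Y ω + m) ^ 2 = t * t * (X ω * X ω) + (-2 * t) * (X ω * Y ω) + Y ω ^ 2 +
      (2 * t * m) * X ω + (-2 * m) * Y ω + m ^ 2 := fun ω => by ring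
  have h : 0 ≤ ∫ ω, (t * X ω - Y ω + m) ^ 2 ∂μ := integral_nonneg fun ω => sq_nonneg _
  simp only [e] at h
  rw [integral_add, integral_add, integral_add, integral_add, integral_add, integral_const_mul,
    integral_const_mul, integral_const_mul, integral_const_mul, h0, ← hm] at h
  · simp only [integral_const, probReal_univ, one_smul] at h
    rw [← hm]
    nlinarith
  all_goals fun_prop

theorem cov (hP : PoApi d) {α : Measure (E d)} {L K b M : ℝ} (hα : Poi α L) (g : Fin d → E d → ℝ)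
    (hM : 0 ≤ M) (c1 : ∀ i, ContDiff ℝ 1 (g i)) (hl : ∀ i, LipF K (g i)) (hb : ∀ i x, |g i x| ≤ b)
    (hD : ∀ x, ∑ i, ‖fderiv ℝ (g i) x‖ ^ 2 ≤ M ^ 2) :
    |∑ i, ∫ a, ⟪ee i, a⟫ * g i a ∂α| ≤ L ^ 2 * √d * M := by
  have := hα.1
  have iD : ∀ i, Integrable (fun x => ‖fderiv ℝ (g i) x‖ ^ 2) α := fun i =>
    Integrable.of_bound (((c1 i).continuous_fderiv one_ne_zero).norm.pow 2).aestronglyMeasurable
      (M ^ 2) (.of_forall fun x => by
        rw [Real.norm_of_nonneg (by positivity)]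
        exact (single_le_sum (f := fun i => ‖fderiv ℝ (g i) x‖ ^ 2) (fun _ _ => by positivity)
          (mem_univ i)).trans (hD x))
  have v : ∑ i, (∫ x, g i x ^ 2 ∂α - (∫ x, g i x ∂α) ^ 2) ≤ L ^ 2 * M ^ 2 := by
    refine (sum_le_sum fun i _ => hα.2.2.2 (g i) K (c1 i) (hl i)).trans ?_
    rw [← mul_sum, ← integral_finsetSum _ fun i _ => iD i]
    refine mul_le_mul_of_nonneg_left ?_ (by positivity)
    simpa using integral_mono (integrable_finsetSum _ fun i _ => iD i) (integrable_const (M ^ 2)) hD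
  have a : ∑ i, Cv α (ee i) (ee i) ≤ L ^ 2 * d := by
    refine (sum_le_sum fun i _ => hP.var α L hα (ee i)).trans (le_of_eq ?_)
    simp [ee, mul_comm]
  have q : ∀ t : ℝ, 0 ≤ (L ^ 2 * d) * (t * t) + (-2 * ∑ i, ∫ a, ⟪ee i, a⟫ * g i a ∂α) * t +
      L ^ 2 * M ^ 2 := fun t => by
    have h := sum_nonneg (s := univ) fun i _ => quad (μ := α) (X := fun a => ⟪ee i, a⟫) (Y := g i)
      (hα.2.1.const_inner (ee i))
      (MemLp.of_bound (c1 i).continuous.aestronglyMeasurable b (.of_forall (hb i)))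
      (by rw [integral_inner (hα.2.1.integrable one_le_two), hα.2.2.1, inner_zero_right]) t
    rw [sum_add_distrib, sum_add_distrib, ← sum_mul, ← sum_mul, ← mul_sum] at h
    have := mul_le_mul_of_nonneg_right a (mul_self_nonneg t)
    unfold Cv at this
    linarith
  have h := discrim_le_zero q
  unfold discrim at h
  refine abs_le_of_sq_le_sq' ?_ (by positivity) |> abs_le.2
  rw [mul_pow, mul_pow, Real.sq_sqrt (Nat.cast_nonneg d)]
  nlinarith

end WL2m

open WL2m in
theorem stmtWL2 (h1 : StmtG1) (_h2 : StmtG2) (hSM : StmtSM) (hGP : StmtGP) (hPo : StmtPo) :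
    StmtWL2 := by
  refine ⟨2, by norm_num, fun d α L κ K f hα hκ hK hf => ?_⟩
  have := hα.1
  have hS := hSM d
  obtain ⟨s, hs, e⟩ : ∃ s : ℝ, 0 < s ∧ 2 * s ^ 2 = κ ^ 2 :=
    ⟨κ / √2, by positivity, by rw [div_pow, Real.sq_sqrt (by norm_num)]; ring⟩
  have lf := lg hK hf
  have l1 := (hS.lip s K f hs hK hf).1
  have l2 := (hS.lip s K f hs hK hf).2
  have l3 := (hS.lip s K _ hs hK l1).1
  have Ks : 0 ≤ K / s := by positivity
  have eψ : SS s (SS s f) = SS κ f := by
    rw [hS.semi s s f lf, show s ^ 2 + s ^ 2 = κ ^ 2 by linarith, Real.sqrt_sq hκ.le]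
  have ia := hα.2.1.integrable one_le_two
  have ig : Integrable (fun x : E d => x) (gs d) :=
    (integrable_norm_iff measurable_id.aestronglyMeasurable).1 (by simpa using (h1 d).i2 1)
  have e1 : ∫ p, f (p.1 + κ • p.2) ∂α.prod (gs d) = ∫ a, SS s (SS s f) ((1 : ℝ) • a) ∂α := by
    rw [integral_prod _ (intL hK hf (X := fun p : E d × E d => p.1 + κ • p.2) (by fun_prop)
      ((ia.comp_fst (gs d)).add ((ig.comp_snd α).smul κ))), eψ]
    simp only [one_smul, SS]
  have e0 : ∫ g, f (κ • g) ∂gs d = ∫ a, SS s (SS s f) ((0 : ℝ) • a) ∂α := by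
    rw [eψ]; simp [SS]
  have bd : ∀ i x, |SS s (Si s i f) x| ≤ 2 * K := fun i x => by
    have h := (single_le_sum (f := fun i => Si s i (SS s f) x ^ 2) (fun _ _ => sq_nonneg _)
      (mem_univ i)).trans (bes1 hS (hGP d) hK hs l1 x)
    rw [hS.comm s s f hs hs lf i] at h
    exact abs_le_of_sq_le_sq' (by nlinarith) (by positivity) |> abs_le.2
  have d2 := fun i x => hS.der s (Si s i f) hs (lg Ks (l2 i)) x
  have c2 : ∀ i, ContDiff ℝ 1 (SS s (Si s i f)) := fun i => by
    refine contDiff_one_iff_fderiv.2 ⟨fun x => (d2 i x).differentiableAt, ?_⟩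
    rw [show fderiv ℝ (SS s (Si s i f)) = _ from funext fun x => (d2 i x).fderiv]
    exact continuous_finsetSum _ fun j _ =>
      (hS.cont s _ hs (lg Ks (l2 i)) j).smul continuous_const
  have n2 : ∀ x, ∑ i, ‖fderiv ℝ (SS s (Si s i f)) x‖ ^ 2 ≤ (2 * K / κ) ^ 2 := fun x => by
    have i2 : ∀ i, Integrable (fun g => Si s i f (x + s • g) ^ 2) (gs d) := fun i =>
      (hS.sqi s _ (lg Ks (l2 i)) x).integrable_sq
    calc _ ≤ ∑ i, (∫ g, Si s i f (x + s • g) ^ 2 ∂gs d) / s ^ 2 := sum_le_sum fun i _ => by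
          rw [(d2 i x).fderiv, nrm]
          exact (hS.bes s _ hs (lg Ks (l2 i)) x).trans
            (div_le_div_of_nonneg_right (sub_le_self _ (sq_nonneg _)) (by positivity))
      _ ≤ 2 * K ^ 2 / s ^ 2 := by
          rw [← sum_div, ← integral_finsetSum _ fun i _ => i2 i]
          refine div_le_div_of_nonneg_right ?_ (by positivity)
          simpa using integral_mono (integrable_finsetSum _ fun i _ => i2 i)
            (integrable_const (2 * K ^ 2)) fun g => bes1 hS (hGP d) hK hs hf _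
      _ = _ := by rw [div_pow, ← e]; field_simp
  have der : ∀ τ : ℝ, HasDerivAt (fun τ : ℝ => ∫ a, SS s (SS s f) (τ • a) ∂α)
      (∫ a, ∑ i, ⟪ee i, a⟫ * SS s (Si s i f) (τ • a) ∂α) τ := fun τ => by
    refine (hasDerivAt_integral_of_dominated_loc_of_deriv_le (s := Set.univ)
      (F := fun (τ : ℝ) (a : E d) => SS s (SS s f) (τ • a))
      (F' := fun (τ : ℝ) (a : E d) => ∑ i, ⟪ee i, a⟫ * SS s (Si s i f) (τ • a))
      (bound := fun a => d * (‖a‖ * (2 * K))) Filter.univ_mem
      (.of_forall fun τ => ((cont l3).comp (by fun_prop)).aestronglyMeasurable)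
      (intL hK l3 (X := fun a : E d => τ • a) (by fun_prop) (ia.smul τ))
      (continuous_finsetSum _ fun i _ => (continuous_const.inner continuous_id).mul
        ((c2 i).continuous.comp (by fun_prop))).aestronglyMeasurable
      (.of_forall fun a τ _ => ?_) ((ia.norm.mul_const _).const_mul _)
      (.of_forall fun a τ _ => ?_)).2
    · refine (norm_sum_le _ _).trans ((sum_le_card_nsmul _ _ (‖a‖ * (2 * K)) fun i _ => ?_).trans
        (by simp))
      rw [norm_mul]
      exact mul_le_mul (by simpa [ee] using abs_real_inner_le_norm (ee i) a) (bd i _)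
        (norm_nonneg _) (norm_nonneg _)
    · have h := (hS.der s (SS s f) hs (lg hK l1) (τ • a)).comp_hasDerivAt τ
        ((hasDerivAt_id τ).smul_const a)
      refine h.congr_deriv ?_
      simp only [one_smul, ContinuousLinearMap.sum_apply, ContinuousLinearMap.smul_apply,
        innerSL_apply_apply, smul_eq_mul, hS.comm s s f hs hs lf, mul_comm]
  have key := norm_image_sub_le_of_norm_deriv_le_segment_01'
    (f := fun τ : ℝ => ∫ a, SS s (SS s f) (τ • a) ∂α) (C := L ^ 2 * √d * (2 * K / κ))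
    (fun τ _ => (der τ).hasDerivWithinAt) fun τ hτ => by
      have t1 : ‖τ‖ ≤ 1 := by rw [Real.norm_of_nonneg hτ.1]; exact hτ.2.le
      have cs : ContDiff ℝ 1 fun a : E d => τ • a := by fun_prop
      rw [integral_finsetSum (f := fun i a => ⟪ee i, a⟫ * SS s (Si s i f) (τ • a)) _ fun i _ =>
        (ia.const_inner (ee i)).mul_bdd
        ((c2 i).continuous.comp cs.continuous).aestronglyMeasurable (.of_forall fun a => bd i _)]
      refine cov (hPo d) hα (fun i a => SS s (Si s i f) (τ • a)) (K := K / s) (b := 2 * K)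
        (by positivity) (fun i => (c2 i).comp cs) (fun i x y => ?_) (fun i x => bd i _) fun x => ?_
      · refine ((hS.lip s _ _ hs Ks (l2 i)).1 _ _).trans (mul_le_mul_of_nonneg_left ?_ Ks)
        rw [← smul_sub, norm_smul]
        exact mul_le_of_le_one_left (norm_nonneg _) t1
      · refine le_trans (sum_le_sum fun i _ => ?_) (n2 (τ • x))
        have h := ((d2 i (τ • x)).differentiableAt.hasFDerivAt.comp x
          ((hasFDerivAt_id x).const_smul τ)).fderiv
        refine pow_le_pow_left₀ (norm_nonneg _) ((le_of_eq (congrArg norm h)).trans ?_) 2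
        refine (ContinuousLinearMap.opNorm_comp_le _ _).trans
          (mul_le_of_le_one_right (norm_nonneg _) ?_)
        rw [norm_smul]
        exact mul_le_one₀ t1 (norm_nonneg _) ContinuousLinearMap.norm_id_le
  rw [e1, e0]
  refine key.trans (le_of_eq ?_)
  ring

end

end Vale.Agent.P347
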